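import Vale.Agent.P232.Defs

/-!
# P232, [CAL]: one-dimensional calibrations
-/

open MeasureTheory Set Filter Topology
open scoped ENNReal ContDiff

namespace P232

namespace CalibAux

/-- a full-measure set meets every interval -/
theorem meets {G : Set ℝ} (hG : volume (Ioo (0 : ℝ) 1 \ G) = 0) {a b : ℝ} (ha : 0 ≤ a)
    (hab : a < b) (hb : b ≤ 1) : ∃ x ∈ G, a < x ∧ x < b := by
  by_contra hcon
  push Not at hcon
  have h1 : Ioo a b ⊆ Ioo (0 : ℝ) 1 \ G := by
    intro x hx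
    refine ⟨⟨ha.trans_lt hx.1, hx.2.trans_le hb⟩, fun hxG => ?_⟩
    exact absurd hx.2 (not_lt.2 (hcon x hxG hx.1))
  have h2 : volume (Ioo a b) = 0 := measure_mono_null h1 hG
  rw [Real.volume_Ioo, ENNReal.ofReal_eq_zero] at h2
  linarith

/-- a fine grid of points of `G` in `(0, Y)` -/
theorem grid {G : Set ℝ} (hG : volume (Ioo (0 : ℝ) 1 \ G) = 0) {Y : ℝ} (hY : 0 < Y)
    (hY1 : Y ≤ 1) (N : ℕ) : ∃ s : ℕ → ℝ, ∀ i ≤ N, s i ∈ G ∧ Y * i / (N + 1) < s i ∧
      s i < Y * (i + 1) / (N + 1) := by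
  have h : ∀ i : ℕ, ∃ x, i ≤ N → x ∈ G ∧ Y * i / (N + 1) < x ∧ x < Y * (i + 1) / (N + 1) := by
    intro i
    by_cases hi : i ≤ N
    · have h1 : (0 : ℝ) < (N : ℝ) + 1 := by positivity
      have h2 : (i : ℝ) ≤ N := by exact_mod_cast hi
      obtain ⟨x, hx, hx1, hx2⟩ := meets hG (a := Y * i / (N + 1)) (b := Y * (i + 1) / (N + 1))
        (by positivity) (by gcongr; linarith) (by
          rw [div_le_one h1]
          calc Y * ((i : ℝ) + 1) ≤ 1 * ((i : ℝ) + 1) := by gcongr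
            _ ≤ N + 1 := by linarith)
      exact ⟨x, fun _ => ⟨hx, hx1, hx2⟩⟩
    · exact ⟨0, fun h => absurd h hi⟩
  choose s hs using h
  exact ⟨s, hs⟩

/-- the slope function -/
noncomputable def ff (κ x : ℝ) : ℝ := √(1 - κ ^ 2 * x ^ 2)

theorem ff_cont (κ : ℝ) : Continuous (ff κ) := by
  unfold ff
  fun_prop

theorem ff_anti {κ : ℝ} {x y : ℝ} (hx : 0 ≤ x) (hxy : x ≤ y) : ff κ y ≤ ff κ x := by
  unfold ff
  apply Real.sqrt_le_sqrt
  have h1 : x ^ 2 ≤ y ^ 2 := by gcongr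
  nlinarith [mul_le_mul_of_nonneg_left h1 (sq_nonneg κ)]

theorem ff_nonneg (κ x : ℝ) : 0 ≤ ff κ x := Real.sqrt_nonneg _

theorem ff_le_one (κ x : ℝ) : ff κ x ≤ 1 := by
  unfold ff
  rw [Real.sqrt_le_one]
  nlinarith [mul_nonneg (sq_nonneg κ) (sq_nonneg x)]

theorem ff_sq {κ x : ℝ} (hκ : 0 ≤ κ) (hx : 0 ≤ x) (h : κ * x ≤ 1) :
    ff κ x ^ 2 + (κ * x) ^ 2 ≤ 1 := by
  have h1 : 0 ≤ 1 - κ ^ 2 * x ^ 2 := by
    have h2 : (κ * x) ^ 2 ≤ 1 := by
      have := mul_nonneg hκ hx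
      nlinarith
    nlinarith
  unfold ff
  rw [Real.sq_sqrt h1]
  nlinarith

/-- the calibration sum -/
theorem core_sum (h : ℝ → ℝ) (s : ℕ → ℝ) (κ δ : ℝ) (hκ : 0 ≤ κ) (n : ℕ) (h0 : 0 ≤ s 0)
    (hs : ∀ i < n, s i ≤ s (i + 1)) (hδ : ∀ i < n, s (i + 1) - s i ≤ δ)
    (hh : ∀ i < n, AntitoneOn h (Icc (s i) (s (i + 1))))
    (hi : ∀ i ≤ n, IntervalIntegrable h volume (s 0) (s i)) :
    (∫ x in (s 0)..(s n), ff κ x) - δ * (ff κ (s 0) - ff κ (s n)) +
      κ * ((∫ x in (s 0)..(s n), h x) - s n * h (s n) + s 0 * h (s 0)) ≤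
      ∑ i ∈ Finset.range n, (ff κ (s (i + 1)) * (s (i + 1) - s i) +
        κ * s (i + 1) * (h (s i) - h (s (i + 1)))) := by
  induction n with
  | zero => simp
  | succ n ih =>
    have ih' := ih (fun i hi => hs i (by omega)) (fun i hi => hδ i (by omega))
      (fun i hi => hh i (by omega)) (fun i hin => hi i (by omega))
    rw [Finset.sum_range_succ]
    have hsn := hs n (by omega)
    have hpos : ∀ i ≤ n, 0 ≤ s i := by
      intro i hi
      induction i with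
      | zero => exact h0
      | succ i ih2 => exact (ih2 (by omega)).trans (hs i (by omega))
    have hn0 := hpos n le_rfl
    have i1 : IntervalIntegrable (ff κ) volume (s 0) (s n) := (ff_cont κ).intervalIntegrable _ _
    have i2 : IntervalIntegrable (ff κ) volume (s n) (s (n + 1)) :=
      (ff_cont κ).intervalIntegrable _ _
    have j1 : IntervalIntegrable h volume (s 0) (s n) := hi n (by omega)
    have j2 : IntervalIntegrable h volume (s n) (s (n + 1)) :=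
      j1.symm.trans (hi (n + 1) le_rfl)
    rw [← intervalIntegral.integral_add_adjacent_intervals i1 i2,
      ← intervalIntegral.integral_add_adjacent_intervals j1 j2]
    have e1 : ∫ x in (s n)..(s (n + 1)), ff κ x ≤ ff κ (s n) * (s (n + 1) - s n) := by
      calc ∫ x in (s n)..(s (n + 1)), ff κ x ≤ ∫ x in (s n)..(s (n + 1)), ff κ (s n) := by
            refine intervalIntegral.integral_mono_on hsn i2 (by simp) fun x hx => ?_
            exact ff_anti hn0 hx.1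
        _ = _ := by simp [mul_comm]
    have e2 : ∫ x in (s n)..(s (n + 1)), h x ≤ h (s n) * (s (n + 1) - s n) := by
      calc ∫ x in (s n)..(s (n + 1)), h x ≤ ∫ x in (s n)..(s (n + 1)), h (s n) := by
            refine intervalIntegral.integral_mono_on hsn j2 (by simp) fun x hx => ?_
            exact hh n (by omega) (left_mem_Icc.2 hsn) hx hx.1
        _ = _ := by simp [mul_comm]
    have e3 : (ff κ (s n) - ff κ (s (n + 1))) * (s (n + 1) - s n) ≤
        δ * (ff κ (s n) - ff κ (s (n + 1))) := by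
      rw [mul_comm]
      exact mul_le_mul_of_nonneg_right (hδ n (by omega)) (sub_nonneg.2 (ff_anti hn0 hsn))
    have e4 := mul_le_mul_of_nonneg_left e2 hκ
    nlinarith [e1, e3, e4, ih']

theorem q1_eq_one {h : ℝ → ℝ} {x : ℝ} (hx : 0 < h x ∧ h x < 1) : q1 h x = 1 := by
  unfold q1
  rw [if_pos hx]

theorem int_q1 {h : ℝ → ℝ} {a b : ℝ} (hab : a ≤ b)
    (hx : ∀ x ∈ Icc a b, 0 < h x ∧ h x < 1) : ∫ t in a..b, q1 h t = b - a := by
  have : ∫ t in a..b, q1 h t = ∫ t in a..b, (1 : ℝ) := by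
    refine intervalIntegral.integral_congr fun x hx' => ?_
    rw [uIcc_of_le hab] at hx'
    exact q1_eq_one (hx x hx')
  rw [this]
  simp

/-- integral over a large subinterval -/
theorem int_sub {f : ℝ → ℝ} {a b Y : ℝ} (h0 : 0 ≤ a) (hab : a ≤ b) (hb : b ≤ Y)
    (hf : IntervalIntegrable f volume 0 Y) (hf1 : ∀ x ∈ Ioo 0 Y, f x ≤ 1) :
    (∫ x in (0 : ℝ)..Y, f x) - (a + (Y - b)) ≤ ∫ x in a..b, f x := by
  have h0Y : (0 : ℝ) ≤ Y := by linarith
  have s1 : IntervalIntegrable f volume 0 a := by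
    refine hf.mono_set ?_
    rw [uIcc_of_le h0, uIcc_of_le h0Y]
    exact Icc_subset_Icc le_rfl (by linarith)
  have s2 : IntervalIntegrable f volume a b := by
    refine hf.mono_set ?_
    rw [uIcc_of_le hab, uIcc_of_le h0Y]
    exact Icc_subset_Icc h0 hb
  have s3 : IntervalIntegrable f volume b Y := by
    refine hf.mono_set ?_
    rw [uIcc_of_le hb, uIcc_of_le h0Y]
    exact Icc_subset_Icc (h0.trans hab) le_rfl
  have e1 : ∫ x in (0 : ℝ)..Y, f x =
      (∫ x in (0 : ℝ)..a, f x) + (∫ x in a..b, f x) + ∫ x in b..Y, f x := by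
    rw [intervalIntegral.integral_add_adjacent_intervals s1 s2,
      intervalIntegral.integral_add_adjacent_intervals (s1.trans s2) s3]
  have e2 : ∫ x in (0 : ℝ)..a, f x ≤ a := by
    calc ∫ x in (0 : ℝ)..a, f x ≤ ∫ x in (0 : ℝ)..a, (1 : ℝ) := by
          refine intervalIntegral.integral_mono_on_of_le_Ioo h0 s1 (by simp) fun x hx => ?_
          exact hf1 x ⟨hx.1, hx.2.trans_le (hab.trans hb)⟩
      _ = a := by simp
  have e3 : ∫ x in b..Y, f x ≤ Y - b := by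
    calc ∫ x in b..Y, f x ≤ ∫ x in b..Y, (1 : ℝ) := by
          refine intervalIntegral.integral_mono_on_of_le_Ioo hb s3 (by simp) fun x hx => ?_
          exact hf1 x ⟨(h0.trans hab).trans_lt hx.1, hx.2⟩
      _ = Y - b := by simp
  linarith

/-- an antitone function on `(0,1)` with values in `[0,1]` is integrable on `(0,1)` -/
theorem anti_int {h : ℝ → ℝ} (hanti : AntitoneOn h (Ioo 0 1))
    (h01 : ∀ x ∈ Ioo (0 : ℝ) 1, 0 ≤ h x ∧ h x ≤ 1) :
    IntervalIntegrable h volume 0 1 := by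
  rw [intervalIntegrable_iff_integrableOn_Ioo_of_le (by norm_num)]
  have : IsFiniteMeasure (volume.restrict (Ioo (0 : ℝ) 1)) := ⟨by simp⟩
  refine Integrable.of_bound (C := 1) ?_ ?_
  · exact (aemeasurable_restrict_of_antitoneOn measurableSet_Ioo hanti).aestronglyMeasurable
  · refine (ae_restrict_iff' measurableSet_Ioo).2 (Eventually.of_forall fun x hx => ?_)
    rw [Real.norm_eq_abs, abs_of_nonneg (h01 x hx).1]
    exact (h01 x hx).2

theorem q1_nonneg (h : ℝ → ℝ) (x : ℝ) : 0 ≤ q1 h x := by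
  unfold q1; split_ifs <;> norm_num

theorem q1_le_one (h : ℝ → ℝ) (x : ℝ) : q1 h x ≤ 1 := by
  unfold q1; split_ifs <;> norm_num

theorem q1_int {h : ℝ → ℝ} (hanti : AntitoneOn h (Ioo 0 1)) :
    IntervalIntegrable (q1 h) volume 0 1 := by
  classical
  rw [intervalIntegrable_iff_integrableOn_Ioo_of_le (by norm_num)]
  have : IsFiniteMeasure (volume.restrict (Ioo (0 : ℝ) 1)) := ⟨by simp⟩
  refine Integrable.of_bound (C := 1) ?_ ?_
  · have h1 : Measurable (fun y : ℝ => if 0 < y ∧ y < 1 then (1 : ℝ) else 0) :=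
      Measurable.ite (measurableSet_Ioo) measurable_const measurable_const
    have h2 := h1.comp_aemeasurable
      (aemeasurable_restrict_of_antitoneOn measurableSet_Ioo hanti (μ := volume))
    have h3 : (fun y : ℝ => if 0 < y ∧ y < 1 then (1 : ℝ) else 0) ∘ h = q1 h := by
      funext x
      unfold q1
      simp only [Function.comp]
    rw [h3] at h2
    exact h2.aestronglyMeasurable
  · refine Eventually.of_forall fun x => ?_
    rw [Real.norm_eq_abs, abs_of_nonneg (q1_nonneg h x)]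
    exact q1_le_one h x

theorem quarter : ∫ x in (0 : ℝ)..1, √(1 - x ^ 2) = Real.pi / 4 := by
  have h1 := integral_sqrt_one_sub_sq
  have hc : Continuous fun x : ℝ => √(1 - x ^ 2) := by fun_prop
  rw [← intervalIntegral.integral_add_adjacent_intervals (b := 0)
    (hc.intervalIntegrable _ _) (hc.intervalIntegrable _ _)] at h1
  have h2 : ∫ x in (-1 : ℝ)..0, √(1 - x ^ 2) = ∫ x in (0 : ℝ)..1, √(1 - x ^ 2) := by
    have h3 := intervalIntegral.integral_comp_neg (a := 0) (b := 1) (fun x : ℝ => √(1 - x ^ 2))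
    simp only [neg_sq, neg_zero] at h3
    exact h3.symm
  linarith

theorem quarterY {Y : ℝ} (hY : 0 < Y) : ∫ x in (0 : ℝ)..Y, ff (1 / Y) x = Real.pi * Y / 4 := by
  have h1 := intervalIntegral.integral_comp_div (a := 0) (b := Y)
    (fun x : ℝ => √(1 - x ^ 2)) hY.ne'
  have h2 : (fun x : ℝ => √(1 - (x / Y) ^ 2)) = ff (1 / Y) := by
    funext x
    unfold ff
    congr 2
    ring
  simp only [h2] at h1
  rw [h1, zero_div, div_self hY.ne', quarter]
  simp only [smul_eq_mul]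
  ring

end CalibAux

open CalibAux

theorem kcal (h : ℝ → ℝ) (hanti : AntitoneOn h (Ioo 0 1)) (h01 : ∀ x ∈ Ioo (0 : ℝ) 1, 0 < h x ∧ h x < 1)
    (w : ℝ) (hlim : Tendsto h (𝓝[<] 1) (𝓝 w)) (k : ℝ) (hk : k ∈ Icc (0 : ℝ) 1) (P : ℝ)
    (hP : PartIneq h (q1 h) P) : mk k + k * ((∫ x in (0 : ℝ)..1, h x) - w) ≤ P := by
  obtain ⟨G, hGsub, hG, hPG⟩ := hP
  have hhint : IntervalIntegrable h volume 0 1 :=
    anti_int hanti fun x hx => ⟨(h01 x hx).1.le, (h01 x hx).2.le⟩
  have hw0 : 0 ≤ w := by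
    refine ge_of_tendsto hlim ?_
    have : Ioo (0 : ℝ) 1 ∈ 𝓝[<] (1 : ℝ) := Ioo_mem_nhdsLT (by norm_num)
    filter_upwards [this] with x hx using (h01 x hx).1.le
  refine le_of_forall_pos_le_add fun ε hε => ?_
  -- a point close to 1
  have hev : ∀ᶠ x in 𝓝[<] (1 : ℝ), h x < w + ε / 2 := hlim.eventually (gt_mem_nhds (by linarith))
  obtain ⟨b, hb, hbs⟩ := mem_nhdsLT_iff_exists_Ioo_subset.1 hev
  have hb1 : b < 1 := hb
  obtain ⟨N, hN⟩ := exists_nat_gt (max (12 / ε) (1 / (1 - b)))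
  have hN1 : 12 / ε < N := (le_max_left _ _).trans_lt hN
  have hN2 : 1 / (1 - b) < N := (le_max_right _ _).trans_lt hN
  have hNpos : (0 : ℝ) < N := lt_trans (by positivity) hN1
  have hN1' : (0 : ℝ) < (N : ℝ) + 1 := by positivity
  obtain ⟨s, hs⟩ := grid hG (Y := 1) one_pos le_rfl N
  simp only [one_mul] at hs
  have hsG : ∀ i ≤ N, s i ∈ G := fun i hi => (hs i hi).1
  have hs01 : ∀ i ≤ N, s i ∈ Ioo (0 : ℝ) 1 := fun i hi => hGsub (hsG i hi)
  have hlt : ∀ i < N, s i < s (i + 1) := by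
    intro i hi
    have h1 := (hs i hi.le).2.2
    have h2 := (hs (i + 1) hi).2.1
    push_cast at h2
    exact h1.trans h2
  have hmesh : ∀ i < N, s (i + 1) - s i ≤ 2 / ((N : ℝ) + 1) := by
    intro i hi
    have h1 := (hs i hi.le).2.1
    have h2 := (hs (i + 1) hi).2.2
    push_cast at h2
    have : ((i : ℝ) + 1 + 1) / (N + 1) - i / (N + 1) = 2 / ((N : ℝ) + 1) := by
      rw [← sub_div]; congr 1; ring
    linarith
  have hmono : ∀ i ≤ N, s 0 ≤ s i := by
    intro i hi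
    induction i with
    | zero => exact le_rfl
    | succ i ih => exact (ih (by omega)).trans (hlt i (by omega)).le
  have hsub : ∀ i ≤ N, ∀ j ≤ N, s i ≤ s j → IntervalIntegrable h volume (s i) (s j) := by
    intro i hi j hj hij
    refine hhint.mono_set ?_
    rw [uIcc_of_le hij, uIcc_of_le zero_le_one]
    exact Icc_subset_Icc (hs01 i hi).1.le (hs01 j hj).2.le
  have hcore := core_sum h s k (2 / ((N : ℝ) + 1)) hk.1 N (hs01 0 (Nat.zero_le _)).1.le
    (fun i hi => (hlt i hi).le) hmesh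
    (fun i hi => hanti.mono fun x hx =>
      ⟨(hs01 i hi.le).1.trans_le hx.1, hx.2.trans_lt (hs01 (i + 1) hi).2⟩)
    (fun i hi => hsub 0 (Nat.zero_le _) i hi (hmono i hi))
  have hp := hPG N s (fun i => ff k (s (i + 1))) (fun i => k * s (i + 1)) hsG hlt
    (fun i hi => ⟨ff_nonneg _ _, mul_nonneg hk.1 (hs01 (i + 1) hi).1.le,
      ff_sq hk.1 (hs01 (i + 1) hi).1.le
        (mul_le_one₀ hk.2 (hs01 (i + 1) hi).1.le (hs01 (i + 1) hi).2.le)⟩)
  have hsumeq : ∑ i ∈ Finset.range N, (ff k (s (i + 1)) * (∫ t in (s i)..(s (i + 1)), q1 h t) +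
        k * s (i + 1) * (h (s i) - h (s (i + 1)))) =
      ∑ i ∈ Finset.range N, (ff k (s (i + 1)) * (s (i + 1) - s i) +
        k * s (i + 1) * (h (s i) - h (s (i + 1)))) := by
    refine Finset.sum_congr rfl fun i hi => ?_
    have hi' := Finset.mem_range.1 hi
    rw [int_q1 (hlt i hi').le fun x hx => h01 x
      ⟨(hs01 i hi'.le).1.trans_le hx.1, hx.2.trans_lt (hs01 (i + 1) hi').2⟩]
  rw [hsumeq] at hp
  have hs0 : s 0 < 1 / ((N : ℝ) + 1) := by
    have := (hs 0 (Nat.zero_le _)).2.2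
    simpa using this
  have hsN : 1 - s N < 1 / ((N : ℝ) + 1) := by
    have h1 := (hs N le_rfl).2.1
    have h2 : (1 : ℝ) - N / (N + 1) = 1 / (N + 1) := by field_simp; ring
    linarith
  have hbN : h (s N) < w + ε / 2 := by
    apply hbs
    refine ⟨?_, (hs01 N le_rfl).2⟩
    have h1 : 1 / ((N : ℝ) + 1) < 1 - b := by
      rw [div_lt_iff₀ hN1']
      rw [div_lt_iff₀ (by linarith)] at hN2
      nlinarith
    linarith
  have i1 := int_sub (f := ff k) (hs01 0 (Nat.zero_le _)).1.le (hmono N le_rfl)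
    (hs01 N le_rfl).2.le ((ff_cont k).intervalIntegrable _ _) (fun x _ => ff_le_one k x)
  have i2 := int_sub (f := h) (hs01 0 (Nat.zero_le _)).1.le (hmono N le_rfl)
    (hs01 N le_rfl).2.le hhint (fun x hx => (h01 x hx).2.le)
  have e5 : (1 : ℝ) / (N + 1) < ε / 12 := by
    rw [div_lt_div_iff₀ hN1' (by norm_num)]
    rw [div_lt_iff₀ hε] at hN1
    nlinarith
  have e6 : (2 : ℝ) / (N + 1) = 2 * (1 / (N + 1)) := by ring
  have hff : ff k (s 0) - ff k (s N) ≤ 1 := by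
    have := ff_le_one k (s 0)
    have := ff_nonneg k (s N)
    linarith
  have e7 : 2 / ((N : ℝ) + 1) * (ff k (s 0) - ff k (s N)) ≤ 2 / ((N : ℝ) + 1) := by
    have : (0 : ℝ) ≤ 2 / ((N : ℝ) + 1) := by positivity
    nlinarith
  have e8 : s N * h (s N) ≤ w + ε / 2 := by
    have h1 := (hs01 N le_rfl)
    have h2 := (h01 _ h1).1
    nlinarith [h1.1, h1.2]
  have e9 : 0 ≤ s 0 * h (s 0) := mul_nonneg (hs01 0 (Nat.zero_le _)).1.le
    (h01 _ (hs01 0 (Nat.zero_le _))).1.le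
  have e10 : k * ((∫ x in (0 : ℝ)..1, h x) - (s 0 + (1 - s N)) - (w + ε / 2)) ≤
      k * ((∫ x in (s 0)..(s N), h x) - s N * h (s N) + s 0 * h (s 0)) :=
    mul_le_mul_of_nonneg_left (by linarith) hk.1
  have e11 : k * (s 0 + (1 - s N) + ε / 2) ≤ s 0 + (1 - s N) + ε / 2 := by
    have h1 : 0 ≤ s 0 + (1 - s N) + ε / 2 := by
      have := (hs01 0 (Nat.zero_le _)).1
      have := (hs01 N le_rfl).2
      linarith
    nlinarith [hk.2]
  have e12 : mk k = ∫ x in (0 : ℝ)..1, ff k x := rfl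
  rw [e12]
  nlinarith [hcore, hp, i1, e7, e10, e11, e5, hs0, hsN]

theorem constcal (h : ℝ → ℝ) (hanti : AntitoneOn h (Ioo 0 1))
    (h01 : ∀ x ∈ Ioo (0 : ℝ) 1, 0 ≤ h x ∧ h x ≤ 1) (Y1 Y0 : ℝ) (hY1 : 0 ≤ Y1) (hY : Y1 ≤ Y0)
    (hY0 : Y0 ≤ 1) (hY01 : ∀ x ∈ Ioo Y1 Y0, 0 < h x ∧ h x < 1) (u0 u1 : ℝ)
    (hu0 : Tendsto h (𝓝[>] 0) (𝓝 u0)) (hu1 : Tendsto h (𝓝[<] 1) (𝓝 u1)) (c d : ℝ) (hc : 0 ≤ c)
    (hd : 0 ≤ d) (hcd : c ^ 2 + d ^ 2 ≤ 1) (P : ℝ) (hP : PartIneq h (q1 h) P) :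
    c * (Y0 - Y1) + d * (u0 - u1) ≤ P := by
  obtain ⟨G, hGsub, hG, hPG⟩ := hP
  have hc1 : c ≤ 1 := by nlinarith
  have hd1 : d ≤ 1 := by nlinarith
  refine le_of_forall_pos_le_add fun ε hε => ?_
  have hev0 : ∀ᶠ x in 𝓝[>] (0 : ℝ), u0 - ε / 4 < h x :=
    hu0.eventually (lt_mem_nhds (by linarith))
  have hev1 : ∀ᶠ x in 𝓝[<] (1 : ℝ), h x < u1 + ε / 4 :=
    hu1.eventually (gt_mem_nhds (by linarith))
  obtain ⟨a, ha, has⟩ := mem_nhdsGT_iff_exists_Ioo_subset.1 hev0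
  obtain ⟨b, hb, hbs⟩ := mem_nhdsLT_iff_exists_Ioo_subset.1 hev1
  have ha0 : 0 < a := ha
  have hb1 : b < 1 := hb
  obtain ⟨x0, hx0G, hx0, hx0'⟩ := meets hG (a := 0) (b := min (min a (1 / 2)) (ε / 4)) le_rfl
    (by positivity) (((min_le_left _ _).trans (min_le_right _ _)).trans (by norm_num))
  obtain ⟨x1, hx1G, hx1, hx1'⟩ := meets hG (a := max (max b (1 / 2)) (1 - ε / 4)) (b := 1)
    (le_max_of_le_left (le_max_of_le_right (by norm_num)))
    (max_lt (max_lt hb1 (by norm_num)) (by linarith)) le_rfl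
  have g1 : x0 < a := hx0'.trans_le ((min_le_left _ _).trans (min_le_left _ _))
  have g2 : x0 < 1 / 2 := hx0'.trans_le ((min_le_left _ _).trans (min_le_right _ _))
  have g3 : x0 < ε / 4 := hx0'.trans_le (min_le_right _ _)
  have g4 : b < x1 := ((le_max_left _ _).trans (le_max_left _ _)).trans_lt hx1
  have g5 : 1 / 2 < x1 := ((le_max_right _ _).trans (le_max_left _ _)).trans_lt hx1
  have g6 : 1 - ε / 4 < x1 := (le_max_right _ _).trans_lt hx1
  have e0 : u0 - ε / 4 < h x0 := has ⟨hx0, g1⟩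
  have e1 : h x1 < u1 + ε / 4 := hbs ⟨g4, hx1'⟩
  have hp := hPG 1 (fun i => if i = 0 then x0 else x1) (fun _ => c) (fun _ => d)
    (fun i _ => by by_cases h0 : i = 0 <;> simp [h0, hx0G, hx1G])
    (fun i hi => by
      have : i = 0 := by omega
      simp only [this, if_true]
      norm_num
      linarith)
    (fun i _ => ⟨hc, hd, hcd⟩)
  simp at hp
  have hq := q1_int hanti
  have i1 := int_sub (f := q1 h) hx0.le (by linarith) hx1'.le hq (fun x _ => q1_le_one h x)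
  have i2 : Y0 - Y1 ≤ ∫ x in (0 : ℝ)..1, q1 h x := by
    have s1 : IntervalIntegrable (q1 h) volume 0 Y1 := hq.mono_set (by
      rw [uIcc_of_le hY1, uIcc_of_le zero_le_one]; exact Icc_subset_Icc le_rfl (hY.trans hY0))
    have s2 : IntervalIntegrable (q1 h) volume Y1 Y0 := hq.mono_set (by
      rw [uIcc_of_le hY, uIcc_of_le zero_le_one]; exact Icc_subset_Icc hY1 hY0)
    have s3 : IntervalIntegrable (q1 h) volume Y0 1 := hq.mono_set (by
      rw [uIcc_of_le hY0, uIcc_of_le zero_le_one]; exact Icc_subset_Icc (hY1.trans hY) le_rfl)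
    rw [← intervalIntegral.integral_add_adjacent_intervals (s1.trans s2) s3,
      ← intervalIntegral.integral_add_adjacent_intervals s1 s2]
    have k1 : 0 ≤ ∫ x in (0 : ℝ)..Y1, q1 h x :=
      intervalIntegral.integral_nonneg hY1 fun x _ => q1_nonneg h x
    have k3 : 0 ≤ ∫ x in Y0..(1 : ℝ), q1 h x :=
      intervalIntegral.integral_nonneg hY0 fun x _ => q1_nonneg h x
    have k2 : ∫ x in Y1..Y0, q1 h x = Y0 - Y1 := by
      have : ∫ x in Y1..Y0, q1 h x = ∫ x in Y1..Y0, (1 : ℝ) := by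
        refine intervalIntegral.integral_congr_Ioo_of_le hY fun x hx => ?_
        exact q1_eq_one (hY01 x hx)
      rw [this]
      simp
    linarith
  have m1 : c * (Y0 - Y1 - ε / 2) ≤ c * ∫ x in x0..x1, q1 h x :=
    mul_le_mul_of_nonneg_left (by linarith) hc
  have m2 : d * (u0 - u1 - ε / 2) ≤ d * (h x0 - h x1) :=
    mul_le_mul_of_nonneg_left (by linarith) hd
  nlinarith

theorem kcalY (h : ℝ → ℝ) (hanti : AntitoneOn h (Ioo 0 1)) (Y : ℝ) (hY : 0 < Y) (hY1 : Y < 1)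
    (h01 : ∀ x ∈ Ioo (0 : ℝ) Y, 0 < h x ∧ h x < 1) (h0 : ∀ x ∈ Ioo Y 1, h x = 0) (P : ℝ)
    (hP : PartIneq h (q1 h) P) : Real.pi * Y / 4 + (∫ x in (0 : ℝ)..1, h x) / Y ≤ P := by
  obtain ⟨G, hGsub, hG, hPG⟩ := hP
  have hY01 : ∀ x ∈ Ioo (0 : ℝ) 1, 0 ≤ h x ∧ h x ≤ 1 := by
    intro x hx
    rcases lt_trichotomy x Y with hxY | hxY | hxY
    · exact ⟨(h01 x ⟨hx.1, hxY⟩).1.le, (h01 x ⟨hx.1, hxY⟩).2.le⟩
    · constructor
      · have h3 := h0 ((x + 1) / 2) ⟨by linarith [hx.2], by linarith [hx.2]⟩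
        have h4 := hanti hx (⟨by linarith [hx.1], by linarith [hx.2]⟩ :
          (x + 1) / 2 ∈ Ioo (0 : ℝ) 1) (by linarith [hx.2])
        linarith
      · have h3 := h01 (x / 2) ⟨by linarith [hx.1], by linarith [hx.1]⟩
        have h4 := hanti (⟨by linarith [hx.1], by linarith [hx.2]⟩ :
          x / 2 ∈ Ioo (0 : ℝ) 1) hx (by linarith [hx.1])
        linarith [h3.2]
    · rw [h0 x ⟨hxY, hx.2⟩]
      exact ⟨le_rfl, zero_le_one⟩
  have hhint1 : IntervalIntegrable h volume 0 1 := anti_int hanti hY01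
  have hhint : IntervalIntegrable h volume 0 Y := hhint1.mono_set (by
    rw [uIcc_of_le hY.le, uIcc_of_le zero_le_one]; exact Icc_subset_Icc le_rfl hY1.le)
  have hhint2 : IntervalIntegrable h volume Y 1 := hhint1.mono_set (by
    rw [uIcc_of_le hY1.le, uIcc_of_le zero_le_one]; exact Icc_subset_Icc hY.le le_rfl)
  have hint : ∫ x in (0 : ℝ)..1, h x = ∫ x in (0 : ℝ)..Y, h x := by
    rw [← intervalIntegral.integral_add_adjacent_intervals hhint hhint2]
    have : ∫ x in Y..(1 : ℝ), h x = ∫ x in Y..(1 : ℝ), (0 : ℝ) :=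
      intervalIntegral.integral_congr_Ioo_of_le hY1.le fun x hx => h0 x hx
    rw [this]
    simp
  rw [hint]
  refine le_of_forall_pos_le_add fun ε hε => ?_
  obtain ⟨N, hN⟩ := exists_nat_gt (max (4 * (Y + 1) / ε) (4 / ε))
  have hN1 : 4 * (Y + 1) / ε < N := (le_max_left _ _).trans_lt hN
  have hN2 : 4 / ε < N := (le_max_right _ _).trans_lt hN
  have hNpos : (0 : ℝ) < N := lt_trans (by positivity) hN2
  have hN1' : (0 : ℝ) < (N : ℝ) + 1 := by positivity
  obtain ⟨s, hs⟩ := grid hG hY hY1.le N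
  have hsG : ∀ i ≤ N, s i ∈ G := fun i hi => (hs i hi).1
  have hs01 : ∀ i ≤ N, s i ∈ Ioo (0 : ℝ) Y := by
    intro i hi
    refine ⟨(hGsub (hsG i hi)).1, (hs i hi).2.2.trans_le ?_⟩
    rw [div_le_iff₀ hN1']
    have : (i : ℝ) ≤ N := by exact_mod_cast hi
    gcongr
  have hlt : ∀ i < N, s i < s (i + 1) := by
    intro i hi
    have h1 := (hs i hi.le).2.2
    have h2 := (hs (i + 1) hi).2.1
    push_cast at h2
    exact h1.trans h2
  have hmesh : ∀ i < N, s (i + 1) - s i ≤ 2 * Y / ((N : ℝ) + 1) := by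
    intro i hi
    have h1 := (hs i hi.le).2.1
    have h2 := (hs (i + 1) hi).2.2
    push_cast at h2
    have : Y * ((i : ℝ) + 1 + 1) / (N + 1) - Y * i / (N + 1) = 2 * Y / ((N : ℝ) + 1) := by
      rw [← sub_div]; congr 1; ring
    linarith
  have hmono : ∀ i ≤ N, s 0 ≤ s i := by
    intro i hi
    induction i with
    | zero => exact le_rfl
    | succ i ih => exact (ih (by omega)).trans (hlt i (by omega)).le
  have hsub : ∀ i ≤ N, ∀ j ≤ N, s i ≤ s j → IntervalIntegrable h volume (s i) (s j) := by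
    intro i hi j hj hij
    refine hhint.mono_set ?_
    rw [uIcc_of_le hij, uIcc_of_le hY.le]
    exact Icc_subset_Icc (hs01 i hi).1.le (hs01 j hj).2.le
  have hcore := core_sum h s (1 / Y) (2 * Y / ((N : ℝ) + 1)) (by positivity) N
    (hs01 0 (Nat.zero_le _)).1.le (fun i hi => (hlt i hi).le) hmesh
    (fun i hi => hanti.mono fun x hx =>
      ⟨(hs01 i hi.le).1.trans_le hx.1, hx.2.trans_lt ((hs01 (i + 1) hi).2.trans hY1)⟩)
    (fun i hi => hsub 0 (Nat.zero_le _) i hi (hmono i hi))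
  obtain ⟨z, hzG, hz1, hz2⟩ := meets hG (a := Y) (b := 1) hY.le hY1 le_rfl
  have hp := hPG (N + 1) (fun i => if i ≤ N then s i else z)
    (fun i => if i < N then ff (1 / Y) (s (i + 1)) else 0)
    (fun i => if i < N then 1 / Y * s (i + 1) else 1)
    (fun i hi => by
      by_cases h1 : i ≤ N
      · simp only [if_pos h1]; exact hsG i h1
      · simp only [if_neg h1]; exact hzG)
    (fun i hi => by
      by_cases h1 : i < N
      · simp only [if_pos h1.le, if_pos (Nat.succ_le_of_lt h1)]; exact hlt i h1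
      · have h2 : i = N := by omega
        subst h2
        simp only [if_pos le_rfl, if_neg (Nat.not_succ_le_self i)]
        exact (hs01 i le_rfl).2.trans hz1)
    (fun i hi => by
      by_cases h1 : i < N
      · simp only [if_pos h1]
        have h2 := (hs01 (i + 1) h1)
        refine ⟨ff_nonneg _ _, mul_nonneg (by positivity) h2.1.le, ff_sq (by positivity) h2.1.le ?_⟩
        rw [one_div, inv_mul_le_iff₀ hY, mul_one]
        exact h2.2.le
      · simp only [if_neg h1]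
        norm_num)
  rw [Finset.sum_range_succ] at hp
  simp only [if_neg (lt_irrefl N), if_pos (le_refl N), if_neg (Nat.not_succ_le_self N), zero_mul,
    zero_add, one_mul] at hp
  have hsumeq : ∑ i ∈ Finset.range N, ((if i < N then ff (1 / Y) (s (i + 1)) else 0) *
        (∫ t in (if i ≤ N then s i else z)..(if i + 1 ≤ N then s (i + 1) else z), q1 h t) +
        (if i < N then 1 / Y * s (i + 1) else 1) *
          (h (if i ≤ N then s i else z) - h (if i + 1 ≤ N then s (i + 1) else z))) =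
      ∑ i ∈ Finset.range N, (ff (1 / Y) (s (i + 1)) * (s (i + 1) - s i) +
        1 / Y * s (i + 1) * (h (s i) - h (s (i + 1)))) := by
    refine Finset.sum_congr rfl fun i hi => ?_
    have hi' := Finset.mem_range.1 hi
    have hi2 : i + 1 ≤ N := hi'
    simp only [if_pos hi', if_pos hi'.le, if_pos hi2]
    rw [int_q1 (hlt i hi').le fun x hx => h01 x
      ⟨(hs01 i hi'.le).1.trans_le hx.1, hx.2.trans_lt (hs01 (i + 1) hi').2⟩]
  rw [hsumeq, h0 z ⟨hz1, hz2⟩, sub_zero] at hp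
  have hs0 : s 0 < Y / ((N : ℝ) + 1) := by
    have := (hs 0 (Nat.zero_le _)).2.2
    simpa using this
  have hsN : Y - s N < Y / ((N : ℝ) + 1) := by
    have h1 := (hs N le_rfl).2.1
    have h2 : Y - Y * N / (N + 1) = Y / (N + 1) := by field_simp; ring
    linarith
  have i1 := int_sub (f := ff (1 / Y)) (hs01 0 (Nat.zero_le _)).1.le (hmono N le_rfl)
    (hs01 N le_rfl).2.le ((ff_cont _).intervalIntegrable _ _) (fun x _ => ff_le_one _ x)
  have i2 := int_sub (f := h) (hs01 0 (Nat.zero_le _)).1.le (hmono N le_rfl)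
    (hs01 N le_rfl).2.le hhint (fun x hx => (h01 x hx).2.le)
  rw [quarterY hY] at i1
  have hff : ff (1 / Y) (s 0) - ff (1 / Y) (s N) ≤ 1 := by
    have := ff_le_one (1 / Y) (s 0)
    have := ff_nonneg (1 / Y) (s N)
    linarith
  have e7 : 2 * Y / ((N : ℝ) + 1) * (ff (1 / Y) (s 0) - ff (1 / Y) (s N)) ≤
      2 * Y / ((N : ℝ) + 1) := by
    have : (0 : ℝ) ≤ 2 * Y / ((N : ℝ) + 1) := by positivity
    nlinarith
  have e9 : 0 ≤ s 0 * h (s 0) := mul_nonneg (hs01 0 (Nat.zero_le _)).1.le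
    (h01 _ (hs01 0 (Nat.zero_le _))).1.le
  have e8 : 1 / Y * (s N * h (s N)) ≤ h (s N) := by
    have h1 := hs01 N le_rfl
    have h2 := (h01 _ h1).1
    rw [one_div, inv_mul_le_iff₀ hY]
    exact mul_le_mul_of_nonneg_right h1.2.le h2.le
  have e10 : 1 / Y * ((∫ x in (0 : ℝ)..Y, h x) - (s 0 + (Y - s N))) ≤
      1 / Y * (∫ x in (s 0)..(s N), h x) :=
    mul_le_mul_of_nonneg_left i2 (by positivity)
  have e13 : 0 ≤ 1 / Y * (s 0 * h (s 0)) := mul_nonneg (by positivity) e9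
  have e11 : 1 / Y * (s 0 + (Y - s N)) ≤ 2 / ((N : ℝ) + 1) := by
    rw [one_div, inv_mul_le_iff₀ hY]
    have : Y * (2 / ((N : ℝ) + 1)) = Y / ((N : ℝ) + 1) + Y / ((N : ℝ) + 1) := by ring
    linarith
  have e5 : (4 * (Y + 1)) / ((N : ℝ) + 1) < ε := by
    rw [div_lt_iff₀ hN1']
    rw [div_lt_iff₀ hε] at hN1
    nlinarith
  have e14 : (4 * (Y + 1)) / ((N : ℝ) + 1) = 2 * Y / ((N : ℝ) + 1) + (Y / ((N : ℝ) + 1) +
      Y / ((N : ℝ) + 1)) + 2 / ((N : ℝ) + 1) + 2 / ((N : ℝ) + 1) := by ring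
  have e15 : (0 : ℝ) < 2 / ((N : ℝ) + 1) := by positivity
  have e16 : (∫ x in (0 : ℝ)..Y, h x) / Y = 1 / Y * (∫ x in (0 : ℝ)..Y, h x) := by ring
  rw [e16]
  have hcore' : (∫ x in (s 0)..(s N), ff (1 / Y) x) -
      2 * Y / ((N : ℝ) + 1) * (ff (1 / Y) (s 0) - ff (1 / Y) (s N)) +
      (1 / Y * (∫ x in (s 0)..(s N), h x) - 1 / Y * (s N * h (s N)) + 1 / Y * (s 0 * h (s 0))) ≤
      ∑ i ∈ Finset.range N, (ff (1 / Y) (s (i + 1)) * (s (i + 1) - s i) +
        1 / Y * s (i + 1) * (h (s i) - h (s (i + 1)))) := by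
    refine le_trans (le_of_eq ?_) hcore
    ring
  have e17 : 1 / Y * ((∫ x in (0 : ℝ)..Y, h x) - (s 0 + (Y - s N))) =
    1 / Y * (∫ x in (0 : ℝ)..Y, h x) - 1 / Y * (s 0 + (Y - s N)) := by ring
  rw [e17] at e10
  linarith

end P232
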