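import Vale.Agent.P232.Defs

/-!
# P232: the cell `[0,1)³` as a fundamental domain. Basic facts shared by several files.
-/

open MeasureTheory Set Filter Topology
open scoped ENNReal ContDiff Pointwise

namespace P232.Cell

theorem cell_eq_pi : cell = Set.pi Set.univ fun _ : Fin 3 => Ico (0 : ℝ) 1 := by
  ext x; simp [cell]

theorem cell_eq_fd : cell = ZSpan.fundamentalDomain (Pi.basisFun ℝ (Fin 3)) := by
  rw [ZSpan.fundamentalDomain_pi_basisFun, cell_eq_pi]

theorem measurableSet_cell : MeasurableSet cell := by
  rw [cell_eq_pi]
  exact MeasurableSet.univ_pi fun _ => measurableSet_Ico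

theorem volume_cell : volume cell = 1 := by
  rw [cell_eq_pi, Real.volume_pi_Ico]
  simp

theorem volume_cell_lt_top : volume cell < ⊤ := by rw [volume_cell]; exact ENNReal.one_lt_top

instance : IsFiniteMeasure (volume.restrict cell) := ⟨by
  rw [Measure.restrict_apply_univ]; exact volume_cell_lt_top⟩

theorem cell_ae_Icc : (cell : Set R3) =ᵐ[volume] Icc (0 : R3) 1 := by
  rw [cell_eq_pi]
  have := Measure.univ_pi_Ico_ae_eq_Icc (μ := fun _ : Fin 3 => (volume : Measure ℝ))
    (f := fun _ => (0 : ℝ)) (g := fun _ => (1 : ℝ))
  exact this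

/-- Functions with the three periods are invariant under the lattice. -/
theorem periodic_int {α : Type*} (f : R3 → α) (hf : ∀ x i, f (x + Pi.single i 1) = f x)
    (v : R3) (hv : v ∈ Submodule.span ℤ (Set.range (Pi.basisFun ℝ (Fin 3)))) (x : R3) :
    f (v + x) = f x := by
  induction hv using Submodule.span_induction generalizing x with
  | mem v hv =>
    obtain ⟨i, rfl⟩ := hv
    have h := hf x i
    rw [Pi.basisFun_apply, add_comm]
    exact h
  | zero => simp
  | add a b _ _ ha hb => rw [add_assoc, ha, hb]
  | smul n a _ ha =>
    have hnat : ∀ (m : ℕ) (x : R3), f (m • a + x) = f x := by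
      intro m
      induction m with
      | zero => intro x; simp
      | succ m ih => intro x; rw [succ_nsmul, add_assoc, ih, ha]
    obtain ⟨m, rfl | rfl⟩ := n.eq_nat_or_neg
    · simpa using hnat m x
    · have := hnat m (-(m • a) + x)
      simp only [neg_smul, natCast_zsmul]
      rw [← this]
      congr 1
      abel

theorem isAddFundamentalDomain_cell :
    IsAddFundamentalDomain (Submodule.span ℤ (Set.range (Pi.basisFun ℝ (Fin 3)))).toAddSubgroup
      cell (volume : Measure R3) := by
  rw [cell_eq_fd]
  exact ZSpan.isAddFundamentalDomain' _ _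

/-- Translation invariance of the integral over the cell of a periodic function. -/
theorem setIntegral_shift (f : R3 → ℝ) (hf : ∀ x i, f (x + Pi.single i 1) = f x) (t : R3) :
    ∫ x in cell, f (x + t) = ∫ x in cell, f x := by
  have h1 : ∫ x in cell, f (x + t) = ∫ x in (t +ᵥ cell), f x := by
    have hmp : MeasurePreserving (fun x : R3 => x + t) volume volume :=
      measurePreserving_add_right volume t
    have he : MeasurableEmbedding (fun x : R3 => x + t) :=
      (MeasurableEquiv.addRight t).measurableEmbedding
    have h := hmp.setIntegral_preimage_emb he f (t +ᵥ cell)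
    rw [← h]
    congr 2
    ext x
    simp only [mem_preimage, Set.mem_vadd_set, vadd_eq_add]
    constructor
    · intro hx
      exact ⟨x, hx, add_comm _ _⟩
    · rintro ⟨y, hy, hyx⟩
      have : y = x := by
        have : t + y = t + x := by rw [hyx, add_comm]
        exact add_left_cancel this
      rwa [← this]
  rw [h1]
  have hd := isAddFundamentalDomain_cell
  have hd2 : IsAddFundamentalDomain
      (Submodule.span ℤ (Set.range (Pi.basisFun ℝ (Fin 3)))).toAddSubgroup
      (t +ᵥ cell) (volume : Measure R3) := hd.vadd_of_comm t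
  have : Countable (Submodule.span ℤ (Set.range (Pi.basisFun ℝ (Fin 3)))).toAddSubgroup :=
    inferInstanceAs (Countable (Submodule.span ℤ (Set.range (Pi.basisFun ℝ (Fin 3)))))
  refine hd2.setIntegral_eq hd ?_
  intro g x
  exact periodic_int f hf g g.2 x

/-- The divergence theorem on the torus. -/
theorem integral_divergence (φ : R3 → R3) (hφ : ContDiff ℝ 1 φ)
    (hp : ∀ x i, φ (x + Pi.single i 1) = φ x) : ∫ x in cell, divergence φ x = 0 := by
  rw [setIntegral_congr_set cell_ae_Icc]
  have hd : Differentiable ℝ φ := hφ.differentiable one_ne_zero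
  have hc : Continuous (fun x => ∑ i, fderiv ℝ φ x (Pi.single i 1) i) := by
    refine continuous_finsetSum _ fun i _ => ?_
    have h1 : Continuous (fun x => fderiv ℝ φ x (Pi.single i 1)) :=
      (hφ.continuous_fderiv one_ne_zero).clm_apply continuous_const
    exact (continuous_apply i).comp h1
  have h := MeasureTheory.integral_divergence_of_hasFDerivAt_off_countable (n := 2)
    (a := (0 : R3)) (b := 1) (fun i => by simp) φ (fderiv ℝ φ) ∅ countable_empty
    hφ.continuous.continuousOn (fun x _ => (hd x).hasFDerivAt)
    (hc.continuousOn.integrableOn_compact isCompact_Icc)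
  unfold divergence
  rw [h]
  refine Finset.sum_eq_zero fun i _ => ?_
  rw [sub_eq_zero]
  congr 1
  funext x
  have e : (i.insertNth ((1 : R3) i) x : R3) = i.insertNth ((0 : R3) i) x + Pi.single i 1 := by
    funext j
    rcases Fin.eq_self_or_eq_succAbove i j with rfl | ⟨k, rfl⟩
    · simp
    · simp
  rw [e, hp]

end P232.Cell
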