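import Vale.Agent.P232.DefsU

/-!
# P232: total variation on the circle, equality case
-/

open MeasureTheory Set Filter Topology
open scoped ENNReal ContDiff

namespace P232

namespace Circ

theorem abs_le_var (g : ℝ → ℝ) (hg : ContDiff ℝ 1 g) (a b : ℝ) (hab : a ≤ b) :
    |g b - g a| ≤ ∫ t in a..b, |deriv g t| := by
  have hc : Continuous (deriv g) := hg.continuous_deriv le_rfl
  have h1 : ∫ t in a..b, deriv g t = g b - g a :=
    intervalIntegral.integral_deriv_eq_sub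
      (fun x _ => (hg.differentiable (by simp)) x) (hc.intervalIntegrable _ _)
  rw [← h1]
  exact intervalIntegral.abs_integral_le_integral_abs hab

theorem deriv_per (g : ℝ → ℝ) (hper : ∀ t, g (t + 1) = g t) (t : ℝ) :
    deriv g (t + 1) = deriv g t := by
  have h : (fun x => g (x + 1)) = g := funext hper
  have h2 := deriv_comp_add_const (f := g) (a := (1 : ℝ)) t
  rw [← h2]
  exact congrFun (congrArg deriv h) t

theorem per_int (h : ℝ → ℝ) (hper : ∀ t, h (t + 1) = h t) (a : ℝ) :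
    ∫ t in (0 : ℝ)..1, h t = ∫ t in a..(a + 1), h t := by
  have hp : Function.Periodic h 1 := hper
  have := hp.intervalIntegral_add_eq 0 a
  simpa using this

theorem low_aux (g : ℝ → ℝ) (hg : ContDiff ℝ 1 g) (hper : ∀ t, g (t + 1) = g t) (a b : ℝ)
    (h1 : a ≤ b) (h2 : b ≤ a + 1) : 2 * |g b - g a| ≤ ∫ t in (0 : ℝ)..1, |deriv g t| := by
  have hc : Continuous (fun t => |deriv g t|) := (hg.continuous_deriv le_rfl).abs
  rw [per_int (fun t => |deriv g t|) (fun t => by rw [deriv_per g hper]) a,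
    ← intervalIntegral.integral_add_adjacent_intervals (b := b)
      (hc.intervalIntegrable _ _) (hc.intervalIntegrable _ _)]
  have e1 := abs_le_var g hg a b h1
  have e2 := abs_le_var g hg b (a + 1) h2
  rw [hper a, abs_sub_comm] at e2
  linarith

theorem low (g : ℝ → ℝ) (hg : ContDiff ℝ 1 g) (hper : ∀ t, g (t + 1) = g t) (a b : ℝ)
    (ha : a ∈ Ico (0 : ℝ) 1) (hb : b ∈ Ico (0 : ℝ) 1) :
    2 * |g b - g a| ≤ ∫ t in (0 : ℝ)..1, |deriv g t| := by
  rcases le_total a b with h | h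
  · exact low_aux g hg hper a b h (by linarith [ha.1, hb.2])
  · rw [abs_sub_comm]
    exact low_aux g hg hper b a h (by linarith [hb.1, ha.2])

theorem exists_in (A S : Set ℝ) (hS : ∀ᵐ t : ℝ, t ∈ S) (h : volume A ≠ 0) :
    ∃ t, t ∈ A ∧ t ∈ S := by
  by_contra hcon
  push Not at hcon
  apply h
  exact measure_mono_null (fun t ht => hcon t ht) (ae_iff.1 hS)

theorem exists_pts (A : Set ℝ) (hA : MeasurableSet A) (S : Set ℝ) (hS : ∀ᵐ t : ℝ, t ∈ S)
    (l : ℝ) (hl0 : 0 < l) (hl1 : l < 1)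
    (hvol : volume (A ∩ Ico 0 1) = ENNReal.ofReal l) :
    (∃ y ∈ Ico (0 : ℝ) 1, y ∈ A ∧ y ∈ S) ∧ ∃ y ∈ Ico (0 : ℝ) 1, y ∉ A ∧ y ∈ S := by
  constructor
  · obtain ⟨y, hy, hyS⟩ := exists_in (A ∩ Ico 0 1) S hS (by
      rw [hvol]; simpa using hl0)
    exact ⟨y, hy.2, hy.1, hyS⟩
  · obtain ⟨y, hy, hyS⟩ := exists_in (Ico 0 1 \ (A ∩ Ico 0 1)) S hS (by
      rw [measure_sdiff inter_subset_right (hA.inter measurableSet_Ico).nullMeasurableSet
        (by rw [hvol]; exact ENNReal.ofReal_ne_top), hvol, Real.volume_Ico]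
      rw [← ENNReal.ofReal_sub _ hl0.le]
      simpa using hl1)
    exact ⟨y, hy.1, fun h => hy.2 ⟨h, hy.1⟩, hyS⟩

theorem lint_eq (g : ℝ → ℝ) (hg : ContDiff ℝ 1 g) :
    ∫⁻ t in Ico (0 : ℝ) 1, ENNReal.ofReal |deriv g t| =
      ENNReal.ofReal (∫ t in (0 : ℝ)..1, |deriv g t|) := by
  have hc : Continuous (fun t => |deriv g t|) := (hg.continuous_deriv le_rfl).abs
  rw [intervalIntegral.integral_of_le zero_le_one, ← integral_Ico_eq_integral_Ioc,
    ofReal_integral_eq_lintegral_ofReal]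
  · exact (hc.integrableOn_Icc (a := 0) (b := 1)).mono_set Ico_subset_Icc_self
  · exact Eventually.of_forall fun t => abs_nonneg _

theorem exists_near (S : Set ℝ) (hS : ∀ᵐ t : ℝ, t ∈ S) (a b : ℝ) (hab : a < b) :
    ∃ t, a < t ∧ t < b ∧ t ∈ S := by
  obtain ⟨t, ht, htS⟩ := exists_in (Ioo a b) S hS (by
    rw [Real.volume_Ioo]; simpa using hab)
  exact ⟨t, ht.1, ht.2, htS⟩

/-- the combinatorial shape: an arc -/
theorem arc_of (A S : Set ℝ) (y0 y1 : ℝ) (h01 : y0 < y1) (h1 : y1 < y0 + 1)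
    (hy0 : y0 ∈ A ∧ y0 ∈ S) (hy0' : y0 + 1 ∈ A ∧ y0 + 1 ∈ S)
    (mono1 : ∀ p q, p ∈ S → q ∈ S → y0 ≤ p → p ≤ q → q ≤ y1 → q ∈ A → p ∈ A)
    (mono2 : ∀ p q, p ∈ S → q ∈ S → y1 ≤ p → p ≤ q → q ≤ y0 + 1 → p ∈ A → q ∈ A) :
    ∃ τ1 τ2, y0 ≤ τ1 ∧ τ1 ≤ y1 ∧ y1 ≤ τ2 ∧ τ2 ≤ y0 + 1 ∧
      ∀ t ∈ S, t ∈ Ioo y0 (y0 + 1) → t ≠ τ1 → t ≠ τ2 → (t ∈ A ↔ t < τ1 ∨ τ2 < t) := by
  set B1 : Set ℝ := {t | t ∈ S ∧ t ∈ A ∧ y0 ≤ t ∧ t ≤ y1} with hB1
  set B2 : Set ℝ := {t | t ∈ S ∧ t ∈ A ∧ y1 ≤ t ∧ t ≤ y0 + 1} with hB2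
  have ne1 : B1.Nonempty := ⟨y0, hy0.2, hy0.1, le_rfl, h01.le⟩
  have ne2 : B2.Nonempty := ⟨y0 + 1, hy0'.2, hy0'.1, h1.le, le_rfl⟩
  have bd1 : BddAbove B1 := ⟨y1, fun t ht => ht.2.2.2⟩
  have bd2 : BddBelow B2 := ⟨y1, fun t ht => ht.2.2.1⟩
  refine ⟨sSup B1, sInf B2, le_csSup bd1 ⟨hy0.2, hy0.1, le_rfl, h01.le⟩,
    csSup_le ne1 fun t ht => ht.2.2.2, le_csInf ne2 fun t ht => ht.2.2.1,
    csInf_le bd2 ⟨hy0'.2, hy0'.1, h1.le, le_rfl⟩, ?_⟩
  intro t htS ht hne1 hne2
  constructor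
  · intro htA
    rcases le_total t y1 with h | h
    · left
      exact lt_of_le_of_ne (le_csSup bd1 ⟨htS, htA, ht.1.le, h⟩) hne1
    · right
      exact lt_of_le_of_ne (csInf_le bd2 ⟨htS, htA, h, ht.2.le⟩) (Ne.symm hne2)
  · rintro (h | h)
    · obtain ⟨s, hs, hts⟩ := exists_lt_of_lt_csSup ne1 h
      exact mono1 t s htS hs.1 ht.1.le hts.le hs.2.2.2 hs.2.1
    · obtain ⟨s, hs, hts⟩ := exists_lt_of_csInf_lt ne2 h
      exact mono2 s t hs.1 htS hs.2.2.1 hts.le ht.2.le hs.2.1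

/-- four-point lower bound for the variation -/
theorem four (g : ℝ → ℝ) (hg : ContDiff ℝ 1 g) (hper : ∀ t, g (t + 1) = g t) (a b c d : ℝ)
    (h1 : a ≤ b) (h2 : b ≤ c) (h3 : c ≤ d) (h4 : d ≤ a + 1) :
    |g b - g a| + |g c - g b| + |g d - g c| + |g a - g d| ≤
      ∫ t in (0 : ℝ)..1, |deriv g t| := by
  have hc : Continuous (fun t => |deriv g t|) := (hg.continuous_deriv le_rfl).abs
  have hi : ∀ x y, IntervalIntegrable (fun t => |deriv g t|) volume x y :=
    fun x y => hc.intervalIntegrable _ _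
  rw [per_int (fun t => |deriv g t|) (fun t => by rw [deriv_per g hper]) a,
    ← intervalIntegral.integral_add_adjacent_intervals (b := b) (hi _ _) (hi _ _),
    ← intervalIntegral.integral_add_adjacent_intervals (a := b) (b := c) (hi _ _) (hi _ _),
    ← intervalIntegral.integral_add_adjacent_intervals (a := c) (b := d) (hi _ _) (hi _ _)]
  have e1 := abs_le_var g hg a b h1
  have e2 := abs_le_var g hg b c h2
  have e3 := abs_le_var g hg c d h3
  have e4 := abs_le_var g hg d (a + 1) h4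
  rw [hper a] at e4
  linarith

/-- no alternation -/
theorem no_alt (G : ℕ → ℝ → ℝ) (hG : ∀ n, ContDiff ℝ 1 (G n))
    (hper : ∀ n t, G n (t + 1) = G n t) (A : Set ℝ)
    (hN : Tendsto (fun n => ∫ t in (0 : ℝ)..1, |deriv (G n) t|) atTop (𝓝 2))
    (a b c d : ℝ) (h1 : a ≤ b) (h2 : b ≤ c) (h3 : c ≤ d) (h4 : d ≤ a + 1)
    (ha : Tendsto (fun n => G n a) atTop (𝓝 (A.indicator 1 a)))
    (hb : Tendsto (fun n => G n b) atTop (𝓝 (A.indicator 1 b)))
    (hc : Tendsto (fun n => G n c) atTop (𝓝 (A.indicator 1 c)))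
    (hd : Tendsto (fun n => G n d) atTop (𝓝 (A.indicator 1 d))) :
    |A.indicator 1 b - A.indicator 1 a| + |A.indicator 1 c - A.indicator 1 b| +
      |A.indicator 1 d - A.indicator 1 c| + |A.indicator 1 a - A.indicator 1 d| ≤ (2 : ℝ) := by
  refine le_of_tendsto_of_tendsto ((((hb.sub ha).abs.add (hc.sub hb).abs).add
    (hd.sub hc).abs).add (ha.sub hd).abs) hN (Eventually.of_forall fun n => ?_)
  exact four (G n) (hG n) (hper n) a b c d h1 h2 h3 h4

theorem ind_per (A : Set ℝ) (hAp : ∀ t, t + 1 ∈ A ↔ t ∈ A) (t : ℝ) :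
    A.indicator (1 : ℝ → ℝ) (t + 1) = A.indicator 1 t := by
  by_cases h : t ∈ A
  · rw [indicator_of_mem h, indicator_of_mem ((hAp t).2 h)]; rfl
  · rw [indicator_of_notMem h, indicator_of_notMem fun h' => h ((hAp t).1 h')]

theorem int_ind (A : Set ℝ) (hA : MeasurableSet A) (l : ℝ) (hl0 : 0 < l)
    (hvol : volume (A ∩ Ico 0 1) = ENNReal.ofReal l) :
    ∫ t in (0 : ℝ)..1, A.indicator (1 : ℝ → ℝ) t = l := by
  rw [intervalIntegral.integral_of_le zero_le_one, ← integral_Ico_eq_integral_Ioc,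
    integral_indicator_one hA, Measure.real, Measure.restrict_apply hA, hvol,
    ENNReal.toReal_ofReal hl0.le]

/-- null on one period implies null -/
theorem null_per (D : Set ℝ) (hD : ∀ t, t + 1 ∈ D ↔ t ∈ D) (a : ℝ)
    (h : volume (D ∩ Ico a (a + 1)) = 0) : volume D = 0 := by
  have hn : ∀ (n : ℕ) (t : ℝ), t + (n : ℝ) ∈ D ↔ t ∈ D := by
    intro n
    induction n with
    | zero => intro t; simp
    | succ n ih =>
      intro t
      rw [show t + ((n + 1 : ℕ) : ℝ) = (t + n) + 1 by push_cast; ring, hD, ih]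
  have hz : ∀ (k : ℤ) (t : ℝ), t + (k : ℝ) ∈ D ↔ t ∈ D := by
    intro k t
    obtain ⟨n, rfl | rfl⟩ := k.eq_nat_or_neg
    · rw [show ((n : ℤ) : ℝ) = (n : ℝ) by simp]
      exact hn n t
    · have := hn n (t + ((-(n : ℤ) : ℤ) : ℝ))
      rw [← this, show t + ((-(n : ℤ) : ℤ) : ℝ) + (n : ℝ) = t by push_cast; ring]
  have hcov : D ⊆ ⋃ k : ℤ, (fun t => t + (k : ℝ)) ⁻¹' (D ∩ Ico a (a + 1)) := by
    intro t ht
    obtain ⟨k, hk, -⟩ := existsUnique_add_zsmul_mem_Ico (one_pos : (0 : ℝ) < 1) t a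
    refine mem_iUnion.2 ⟨k, (hz k t).2 ht, ?_⟩
    simpa using hk
  refine measure_mono_null hcov (measure_iUnion_null fun k => ?_)
  rw [measure_preimage_add_right]
  exact h

theorem dz_lt_iff (t r : ℝ) : dz t < r ↔ ∃ k : ℤ, |t - k| < r := by
  constructor
  · intro h
    exact ⟨round t, h⟩
  · rintro ⟨k, hk⟩
    exact lt_of_le_of_lt (round_le t k) hk

theorem dz_per (t : ℝ) : dz (t + 1) = dz t := by
  unfold dz
  rw [show t + 1 = t + ((1 : ℤ) : ℝ) by simp, round_add_intCast]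
  push_cast
  ring_nf

end Circ

/-- [RC] -/
theorem circle_lower (G : ℕ → ℝ → ℝ) (hG : ∀ n, ContDiff ℝ 1 (G n)) (hper : ∀ n t, G n (t + 1) = G n t)
    (h01 : ∀ n t, G n t ∈ Icc (0 : ℝ) 1) (A : Set ℝ) (hA : MeasurableSet A)
    (hAp : ∀ t, t + 1 ∈ A ↔ t ∈ A) (l : ℝ) (hl0 : 0 < l) (hl1 : l < 1)
    (hvol : volume (A ∩ Ico 0 1) = ENNReal.ofReal l)
    (hlim : ∀ᵐ t : ℝ, Tendsto (fun n => G n t) atTop (𝓝 (A.indicator 1 t))) :
    ENNReal.ofReal 2 ≤ liminf (fun n => ∫⁻ t in Ico (0 : ℝ) 1, ENNReal.ofReal |deriv (G n) t|) atTop := by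
  obtain ⟨⟨y0, hy0, hy0A, hy0S⟩, y1, hy1, hy1A, hy1S⟩ :=
    Circ.exists_pts A hA {t | Tendsto (fun n => G n t) atTop (𝓝 (A.indicator 1 t))} hlim
      l hl0 hl1 hvol
  have t0 : Tendsto (fun n => G n y0) atTop (𝓝 1) := by
    have : Tendsto (fun n => G n y0) atTop (𝓝 (A.indicator 1 y0)) := hy0S
    rwa [indicator_of_mem hy0A] at this
  have t1 : Tendsto (fun n => G n y1) atTop (𝓝 0) := by
    have : Tendsto (fun n => G n y1) atTop (𝓝 (A.indicator 1 y1)) := hy1S
    rwa [indicator_of_notMem hy1A] at this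
  have tt : Tendsto (fun n => ENNReal.ofReal (2 * |G n y1 - G n y0|)) atTop
      (𝓝 (ENNReal.ofReal 2)) := by
    have : Tendsto (fun n => 2 * |G n y1 - G n y0|) atTop (𝓝 (2 * |(0 : ℝ) - 1|)) :=
      (t1.sub t0).abs.const_mul 2
    have h2 := ENNReal.tendsto_ofReal this
    simpa using h2
  rw [← tt.liminf_eq]
  refine liminf_le_liminf (Eventually.of_forall fun n => ?_)
  rw [Circ.lint_eq (G n) (hG n)]
  exact ENNReal.ofReal_le_ofReal (Circ.low (G n) (hG n) (hper n) y0 y1 hy0 hy1)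

namespace Circ

/-- `A` is an arc. -/
theorem is_arc (G : ℕ → ℝ → ℝ) (hG : ∀ n, ContDiff ℝ 1 (G n))
    (hper : ∀ n t, G n (t + 1) = G n t) (A : Set ℝ) (hA : MeasurableSet A)
    (hAp : ∀ t, t + 1 ∈ A ↔ t ∈ A) (l : ℝ) (hl0 : 0 < l) (hl1 : l < 1)
    (hvol : volume (A ∩ Ico 0 1) = ENNReal.ofReal l)
    (hlim : ∀ᵐ t : ℝ, Tendsto (fun n => G n t) atTop (𝓝 (A.indicator 1 t)))
    (hN : Tendsto (fun n => ∫ t in (0 : ℝ)..1, |deriv (G n) t|) atTop (𝓝 2)) :
    ∃ c : ℝ, A =ᵐ[volume] {t | dz (t - c) < l / 2} := by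
  set S : Set ℝ := {t | Tendsto (fun n => G n t) atTop (𝓝 (A.indicator 1 t))} with hSdef
  have hS : ∀ᵐ t : ℝ, t ∈ S := hlim
  have hSp : ∀ t, t ∈ S → t + 1 ∈ S := by
    intro t ht
    have : Tendsto (fun n => G n (t + 1)) atTop (𝓝 (A.indicator 1 (t + 1))) := by
      rw [ind_per A hAp]
      have ht' : Tendsto (fun n => G n t) atTop (𝓝 (A.indicator 1 t)) := ht
      simpa only [hper] using ht'
    exact this
  obtain ⟨⟨y0, hy0, hy0A, hy0S⟩, y1', hy1', hy1A', hy1S'⟩ := exists_pts A hA S hS l hl0 hl1 hvol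
  obtain ⟨y1, h01, h1, hy1A, hy1S⟩ : ∃ y1, y0 < y1 ∧ y1 < y0 + 1 ∧ y1 ∉ A ∧ y1 ∈ S := by
    rcases lt_trichotomy y0 y1' with h | h | h
    · exact ⟨y1', h, by linarith [hy0.1, hy1'.2], hy1A', hy1S'⟩
    · exact absurd (h ▸ hy0A) hy1A'
    · exact ⟨y1' + 1, by linarith [hy0.2, hy1'.1], by linarith,
        fun h' => hy1A' ((hAp _).1 h'), hSp _ hy1S'⟩
  have i0 : A.indicator (1 : ℝ → ℝ) y0 = 1 := by rw [indicator_of_mem hy0A]; rfl
  have i1 : A.indicator (1 : ℝ → ℝ) y1 = 0 := indicator_of_notMem hy1A _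
  have mono1 : ∀ p q, p ∈ S → q ∈ S → y0 ≤ p → p ≤ q → q ≤ y1 → q ∈ A → p ∈ A := by
    intro p q hp hq h2 h3 h4 hqA
    by_contra hpA
    have := no_alt G hG hper A hN y0 p q y1 h2 h3 h4 h1.le hy0S hp hq hy1S
    rw [i0, i1, indicator_of_notMem hpA, indicator_of_mem hqA] at this
    norm_num at this
  have mono2 : ∀ p q, p ∈ S → q ∈ S → y1 ≤ p → p ≤ q → q ≤ y0 + 1 → p ∈ A → q ∈ A := by
    intro p q hp hq h2 h3 h4 hpA
    by_contra hqA
    have := no_alt G hG hper A hN y0 y1 p q h01.le h2 h3 h4 hy0S hy1S hp hq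
    rw [i0, i1, indicator_of_notMem hqA, indicator_of_mem hpA] at this
    norm_num at this
  obtain ⟨τ1, τ2, ht1, ht2, ht3, ht4, harc⟩ := arc_of A S y0 y1 h01 h1 ⟨hy0A, hy0S⟩
    ⟨(hAp _).2 hy0A, hSp _ hy0S⟩ mono1 mono2
  have hpt : ∀ τ : ℝ, ∀ᵐ t : ℝ, t ≠ τ := fun τ => by
    rw [ae_iff]; simp
  have hae : ∀ᵐ t : ℝ, t ∈ Ioo y0 (y0 + 1) → (t ∈ A ↔ t < τ1 ∨ τ2 < t) := by
    filter_upwards [hS, hpt τ1, hpt τ2] with t a1 a2 a3 a4
    exact harc t a1 a4 a2 a3
  -- the length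
  have hlen : (τ1 - y0) + (y0 + 1 - τ2) = l := by
    have e0 := int_ind A hA l hl0 hvol
    rw [per_int _ (ind_per A hAp) y0] at e0
    have hii : ∀ x y, IntervalIntegrable (A.indicator (1 : ℝ → ℝ)) volume x y := by
      intro x y
      rw [intervalIntegrable_iff]
      have h1 : IntegrableOn (fun _ : ℝ => (1 : ℝ)) (uIoc x y) volume :=
        intervalIntegrable_iff.1 intervalIntegrable_const
      exact h1.indicator hA
    rw [← intervalIntegral.integral_add_adjacent_intervals (b := τ1) (hii _ _) (hii _ _),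
      ← intervalIntegral.integral_add_adjacent_intervals (a := τ1) (b := τ2) (hii _ _) (hii _ _)]
      at e0
    have e1 : ∫ t in y0..τ1, A.indicator (1 : ℝ → ℝ) t = τ1 - y0 := by
      have : ∫ t in y0..τ1, A.indicator (1 : ℝ → ℝ) t = ∫ t in y0..τ1, (1 : ℝ) := by
        refine intervalIntegral.integral_congr_ae ?_
        filter_upwards [hae, hpt τ1] with t h5 h6 h7
        rw [uIoc_of_le ht1] at h7
        have h8 : t < τ1 := lt_of_le_of_ne h7.2 h6
        rw [indicator_of_mem ((h5 ⟨h7.1, by linarith⟩).2 (Or.inl h8))]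
        rfl
      rw [this]; simp
    have e2 : ∫ t in τ1..τ2, A.indicator (1 : ℝ → ℝ) t = 0 := by
      have : ∫ t in τ1..τ2, A.indicator (1 : ℝ → ℝ) t = ∫ t in τ1..τ2, (0 : ℝ) := by
        refine intervalIntegral.integral_congr_ae ?_
        filter_upwards [hae, hpt τ2, hpt (y0 + 1)] with t h5 h6 h9 h7
        rw [uIoc_of_le (by linarith)] at h7
        have h8 : t < τ2 := lt_of_le_of_ne h7.2 h6
        refine indicator_of_notMem (fun hmem => ?_) _
        rcases (h5 ⟨by linarith [h7.1], by linarith⟩).1 hmem with h10 | h10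
        · exact absurd h7.1 (not_lt.2 h10.le)
        · exact absurd h10 (not_lt.2 h8.le)
      rw [this]; simp
    have e3 : ∫ t in τ2..(y0 + 1), A.indicator (1 : ℝ → ℝ) t = y0 + 1 - τ2 := by
      have : ∫ t in τ2..(y0 + 1), A.indicator (1 : ℝ → ℝ) t = ∫ t in τ2..(y0 + 1), (1 : ℝ) := by
        refine intervalIntegral.integral_congr_ae ?_
        filter_upwards [hae, hpt (y0 + 1)] with t h5 h6 h7
        rw [uIoc_of_le ht4] at h7
        have h8 : t < y0 + 1 := lt_of_le_of_ne h7.2 h6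
        rw [indicator_of_mem ((h5 ⟨by linarith [h7.1], h8⟩).2 (Or.inr h7.1))]
        rfl
      rw [this]; simp
    rw [e1, e2, e3] at e0
    linarith
  refine ⟨(τ1 + τ2 - 1) / 2, ?_⟩
  set c := (τ1 + τ2 - 1) / 2 with hc
  have hD : volume {t | ¬ (t ∈ A ↔ dz (t - c) < l / 2)} = 0 := by
    refine null_per _ (fun t => ?_) y0 ?_
    · simp only [mem_setOf_eq]
      rw [hAp, show t + 1 - c = (t - c) + 1 by ring, dz_per]
    · refine measure_mono_null (t := {t | ¬ (t ∈ Ioo y0 (y0 + 1) → (t ∈ A ↔ t < τ1 ∨ τ2 < t))}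
        ∪ {y0}) ?_ ?_
      · rintro t ⟨ht, htI⟩
        by_cases hty : t = y0
        · exact Or.inr hty
        · left
          intro hh
          have hI : t ∈ Ioo y0 (y0 + 1) := ⟨lt_of_le_of_ne htI.1 (Ne.symm hty), htI.2⟩
          apply ht
          rw [hh hI, dz_lt_iff]
          constructor
          · rintro (h5 | h5)
            · refine ⟨0, ?_⟩
              rw [abs_lt]
              push_cast
              constructor <;> linarith [hI.1]
            · refine ⟨1, ?_⟩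
              rw [abs_lt]
              push_cast
              constructor <;> linarith [hI.2]
          · rintro ⟨k, hk⟩
            rw [abs_lt] at hk
            by_cases hk0 : k ≤ 0
            · left
              have : (k : ℝ) ≤ 0 := by exact_mod_cast hk0
              linarith [hk.2]
            · right
              have : (1 : ℝ) ≤ k := by exact_mod_cast (not_le.1 hk0)
              linarith [hk.1]
      · refine measure_union_null (ae_iff.1 hae) (by simp)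
  rw [ae_eq_set]
  constructor
  · refine measure_mono_null (fun t ht => ?_) hD
    intro h'
    exact ht.2 (h'.1 ht.1)
  · refine measure_mono_null (fun t ht => ?_) hD
    intro h'
    exact ht.2 (h'.2 ht.1)

/-- lower bound with a nonnegative weight -/
theorem weight_low (G : ℕ → ℝ → ℝ) (hG : ∀ n, ContDiff ℝ 1 (G n))
    (hper : ∀ n t, G n (t + 1) = G n t) (A : Set ℝ)
    (l : ℝ) (hl0 : 0 < l) (hl1 : l < 1)
    (hlim : ∀ᵐ t : ℝ, Tendsto (fun n => G n t) atTop (𝓝 (A.indicator 1 t)))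
    (c : ℝ) (hc : A =ᵐ[volume] {t | dz (t - c) < l / 2})
    (η : ℝ → ℝ) (hη : Continuous η) (hηp : ∀ t, η (t + 1) = η t) (hη0 : ∀ t, 0 ≤ η t)
    (ε : ℝ) (hε : 0 < ε) :
    ∀ᶠ n in atTop, η (c - l / 2) + η (c + l / 2) - ε ≤
      ∫ t in (0 : ℝ)..1, |deriv (G n) t| * η t := by
  set S : Set ℝ := {t | Tendsto (fun n => G n t) atTop (𝓝 (A.indicator 1 t)) ∧
    (t ∈ A ↔ dz (t - c) < l / 2)} with hSdef
  have hS : ∀ᵐ t : ℝ, t ∈ S := by
    filter_upwards [hlim, hc.mem_iff] with t h1 h2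
    exact ⟨h1, h2⟩
  -- the two sides of a jump
  obtain ⟨δ1, hδ1, hd1⟩ := Metric.continuousAt_iff.1 (hη.continuousAt (x := c - l / 2)) (ε / 4)
    (by positivity)
  obtain ⟨δ2, hδ2, hd2⟩ := Metric.continuousAt_iff.1 (hη.continuousAt (x := c + l / 2)) (ε / 4)
    (by positivity)
  set δ := min (min δ1 δ2) (min (l / 2) ((1 - l) / 2)) with hδ
  have hδpos : 0 < δ := by
    have : 0 < (1 - l) / 2 := by linarith
    have : 0 < l / 2 := by linarith
    positivity
  have b1 : δ ≤ δ1 := (min_le_left _ _).trans (min_le_left _ _)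
  have b2 : δ ≤ δ2 := (min_le_left _ _).trans (min_le_right _ _)
  have b3 : δ ≤ l / 2 := (min_le_right _ _).trans (min_le_left _ _)
  have b4 : δ ≤ (1 - l) / 2 := (min_le_right _ _).trans (min_le_right _ _)
  obtain ⟨p1, p1a, p1b, p1S⟩ := exists_near S hS (c - l / 2 - δ) (c - l / 2) (by linarith)
  obtain ⟨q1, q1a, q1b, q1S⟩ := exists_near S hS (c - l / 2) (c - l / 2 + δ) (by linarith)
  obtain ⟨p2, p2a, p2b, p2S⟩ := exists_near S hS (c + l / 2 - δ) (c + l / 2) (by linarith)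
  obtain ⟨q2, q2a, q2b, q2S⟩ := exists_near S hS (c + l / 2) (c + l / 2 + δ) (by linarith)
  have inA : ∀ t, t ∈ S → c - l / 2 < t → t < c + l / 2 →
      Tendsto (fun n => G n t) atTop (𝓝 1) := by
    intro t ht h1 h2
    have hmem : t ∈ A := ht.2.2 ((dz_lt_iff _ _).2 ⟨0, by
      rw [abs_lt]; push_cast; constructor <;> linarith⟩)
    have := ht.1
    rwa [indicator_of_mem hmem] at this
  have outA : ∀ t, t ∈ S → (∀ k : ℤ, l / 2 ≤ |t - c - k|) →
      Tendsto (fun n => G n t) atTop (𝓝 0) := by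
    intro t ht h1
    have hmem : t ∉ A := fun h2 => by
      obtain ⟨k, hk⟩ := (dz_lt_iff _ _).1 (ht.2.1 h2)
      exact absurd hk (not_lt.2 (h1 k))
    have := ht.1
    rwa [indicator_of_notMem hmem] at this
  have tp1 : Tendsto (fun n => G n p1) atTop (𝓝 0) := by
    refine outA p1 p1S fun k => ?_
    rw [le_abs]
    by_cases hk : 0 ≤ k
    · right
      have : (0 : ℝ) ≤ k := by exact_mod_cast hk
      linarith
    · left
      have : (k : ℝ) ≤ -1 := by exact_mod_cast (by omega : k ≤ -1)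
      linarith
  have tq2 : Tendsto (fun n => G n q2) atTop (𝓝 0) := by
    refine outA q2 q2S fun k => ?_
    rw [le_abs]
    by_cases hk : k ≤ 0
    · left
      have : (k : ℝ) ≤ 0 := by exact_mod_cast hk
      linarith
    · right
      have : (1 : ℝ) ≤ k := by exact_mod_cast (not_le.1 hk)
      linarith
  have tq1 := inA q1 q1S q1a (by linarith)
  have tp2 := inA p2 p2S (by linarith) p2b
  set m1 := max (η (c - l / 2) - ε / 4) 0 with hm1
  set m2 := max (η (c + l / 2) - ε / 4) 0 with hm2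
  have lowη1 : ∀ t ∈ Icc p1 q1, m1 ≤ η t := by
    intro t ht
    refine max_le ?_ (hη0 t)
    have := hd1 (x := t) (by rw [Real.dist_eq, abs_lt]; constructor <;> linarith [ht.1, ht.2])
    rw [Real.dist_eq, abs_lt] at this
    linarith [this.1]
  have lowη2 : ∀ t ∈ Icc p2 q2, m2 ≤ η t := by
    intro t ht
    refine max_le ?_ (hη0 t)
    have := hd2 (x := t) (by rw [Real.dist_eq, abs_lt]; constructor <;> linarith [ht.1, ht.2])
    rw [Real.dist_eq, abs_lt] at this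
    linarith [this.1]
  have hbound : ∀ n, m1 * |G n q1 - G n p1| + m2 * |G n q2 - G n p2| ≤
      ∫ t in (0 : ℝ)..1, |deriv (G n) t| * η t := by
    intro n
    have hcd : Continuous (fun t => |deriv (G n) t|) := ((hG n).continuous_deriv le_rfl).abs
    have hcc : Continuous (fun t => |deriv (G n) t| * η t) := hcd.mul hη
    have hi : ∀ x y, IntervalIntegrable (fun t => |deriv (G n) t| * η t) volume x y :=
      fun x y => hcc.intervalIntegrable _ _
    have hnn : ∀ x y, x ≤ y → 0 ≤ ∫ t in x..y, |deriv (G n) t| * η t := fun x y hxy =>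
      intervalIntegral.integral_nonneg hxy fun t _ => mul_nonneg (abs_nonneg _) (hη0 t)
    rw [per_int (fun t => |deriv (G n) t| * η t)
      (fun t => by rw [deriv_per (G n) (hper n), hηp]) p1,
      ← intervalIntegral.integral_add_adjacent_intervals (b := q1) (hi _ _) (hi _ _),
      ← intervalIntegral.integral_add_adjacent_intervals (a := q1) (b := p2) (hi _ _) (hi _ _),
      ← intervalIntegral.integral_add_adjacent_intervals (a := p2) (b := q2) (hi _ _) (hi _ _)]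
    have e2 := hnn q1 p2 (by linarith)
    have e4 := hnn q2 (p1 + 1) (by linarith)
    have piece : ∀ (p q m : ℝ), p ≤ q → 0 ≤ m → (∀ t ∈ Icc p q, m ≤ η t) →
        m * |G n q - G n p| ≤ ∫ t in p..q, |deriv (G n) t| * η t := by
      intro p q m hpq hm hle
      calc m * |G n q - G n p| ≤ m * ∫ t in p..q, |deriv (G n) t| :=
            mul_le_mul_of_nonneg_left (abs_le_var (G n) (hG n) p q hpq) hm
        _ = ∫ t in p..q, |deriv (G n) t| * m := by
            rw [intervalIntegral.integral_mul_const, mul_comm]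
        _ ≤ _ := by
            refine intervalIntegral.integral_mono_on hpq
              ((hcd.mul continuous_const).intervalIntegrable _ _) (hi _ _) fun t ht => ?_
            exact mul_le_mul_of_nonneg_left (hle t ht) (abs_nonneg _)
    have e1 := piece p1 q1 m1 (by linarith) (le_max_right _ _) lowη1
    have e3 := piece p2 q2 m2 (by linarith) (le_max_right _ _) lowη2
    linarith
  have hlimit : Tendsto (fun n => m1 * |G n q1 - G n p1| + m2 * |G n q2 - G n p2|) atTop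
      (𝓝 (m1 + m2)) := by
    have h := ((tq1.sub tp1).abs.const_mul m1).add ((tq2.sub tp2).abs.const_mul m2)
    simpa using h
  have hlt : η (c - l / 2) + η (c + l / 2) - ε < m1 + m2 := by
    have := le_max_left (η (c - l / 2) - ε / 4) 0
    have := le_max_left (η (c + l / 2) - ε / 4) 0
    linarith
  filter_upwards [hlimit.eventually (eventually_gt_nhds hlt)] with n hn
  exact hn.le.trans (hbound n)

end Circ

/-- [RC] -/
theorem circle_arc (G : ℕ → ℝ → ℝ) (hG : ∀ n, ContDiff ℝ 1 (G n)) (hper : ∀ n t, G n (t + 1) = G n t)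
    (h01 : ∀ n t, G n t ∈ Icc (0 : ℝ) 1) (A : Set ℝ) (hA : MeasurableSet A)
    (hAp : ∀ t, t + 1 ∈ A ↔ t ∈ A) (l : ℝ) (hl0 : 0 < l) (hl1 : l < 1)
    (hvol : volume (A ∩ Ico 0 1) = ENNReal.ofReal l)
    (hlim : ∀ᵐ t : ℝ, Tendsto (fun n => G n t) atTop (𝓝 (A.indicator 1 t)))
    (hN : Tendsto (fun n => ∫ t in (0 : ℝ)..1, |deriv (G n) t|) atTop (𝓝 2)) :
    ∃ c : ℝ, A =ᵐ[volume] {t | dz (t - c) < l / 2} ∧
      ∀ η : ℝ → ℝ, Continuous η → (∀ t, η (t + 1) = η t) →
        Tendsto (fun n => ∫ t in (0 : ℝ)..1, |deriv (G n) t| * η t) atTop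
          (𝓝 (η (c - l / 2) + η (c + l / 2))) := by
  obtain ⟨c, hc⟩ := Circ.is_arc G hG hper A hA hAp l hl0 hl1 hvol hlim hN
  refine ⟨c, hc, fun η hη hηp => ?_⟩
  -- bound of η
  obtain ⟨M, hM⟩ : ∃ M, ∀ t, |η t| ≤ M := by
    obtain ⟨M, hM⟩ := (isCompact_Icc (a := (0 : ℝ)) (b := 1)).exists_bound_of_continuousOn
      hη.continuousOn
    refine ⟨M, fun t => ?_⟩
    have hp : Function.Periodic η 1 := hηp
    obtain ⟨s, hs, hst⟩ := hp.exists_mem_Ico₀ one_pos t
    rw [hst]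
    exact hM s ⟨hs.1, hs.2.le⟩
  have hadd : ∀ (n : ℕ) (σ : ℝ), ∫ t in (0 : ℝ)..1, |deriv (G n) t| * (M + σ * η t) =
      M * (∫ t in (0 : ℝ)..1, |deriv (G n) t|) +
        σ * ∫ t in (0 : ℝ)..1, |deriv (G n) t| * η t := by
    intro n σ
    have hcd : Continuous (fun t => |deriv (G n) t|) := ((hG n).continuous_deriv le_rfl).abs
    have j1 : IntervalIntegrable (fun t => M * |deriv (G n) t|) volume 0 1 :=
      (continuous_const.mul hcd).intervalIntegrable _ _
    have j2 : IntervalIntegrable (fun t => σ * (|deriv (G n) t| * η t)) volume 0 1 :=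
      (continuous_const.mul (hcd.mul hη)).intervalIntegrable _ _
    rw [← intervalIntegral.integral_const_mul, ← intervalIntegral.integral_const_mul,
      ← intervalIntegral.integral_add j1 j2]
    refine intervalIntegral.integral_congr fun t _ => ?_
    ring
  rw [Metric.tendsto_atTop']
  intro ε hε
  have w1 := Circ.weight_low G hG hper A l hl0 hl1 hlim c hc (fun t => M + 1 * η t)
    (by fun_prop) (fun t => by simp only [hηp]) (fun t => by linarith [(abs_le.1 (hM t)).1])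
    (ε / 4) (by positivity)
  have w2 := Circ.weight_low G hG hper A l hl0 hl1 hlim c hc (fun t => M + (-1) * η t)
    (by fun_prop) (fun t => by simp only [hηp]) (fun t => by linarith [(abs_le.1 (hM t)).2])
    (ε / 4) (by positivity)
  have w3 : ∀ᶠ n in atTop, M * (∫ t in (0 : ℝ)..1, |deriv (G n) t|) < M * 2 + ε / 4 :=
    (hN.const_mul M).eventually (eventually_lt_nhds (by linarith))
  have hev := (w1.and (w2.and w3))
  obtain ⟨n0, hn0⟩ := eventually_atTop.1 hev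
  refine ⟨n0, fun n hn => ?_⟩
  obtain ⟨h1, h2, h3⟩ := hn0 n (le_of_lt hn)
  rw [hadd n 1] at h1
  rw [hadd n (-1)] at h2
  rw [Real.dist_eq, abs_lt]
  constructor <;> linarith

end P232
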