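import Vale.Agent.P232.Defs

/-!
# P232: the corner lemma.
-/

open MeasureTheory Set Filter Topology
open scoped ENNReal ContDiff

namespace P232

namespace Corner

theorem continuous_q0 : Continuous q0 := by
  unfold q0
  fun_prop

theorem q0_nonneg (x : ℝ) : 0 ≤ q0 x := by
  unfold q0
  exact le_min (le_min (Real.sqrt_nonneg _) (Real.sqrt_nonneg _)) zero_le_one

theorem q0_symm (x : ℝ) : q0 (1 - x) = q0 x := by
  unfold q0
  rw [sub_sub_cancel, min_comm (√(Real.pi * (1 - x)))]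

/-- clamp to `[m, 1 - m]` -/
noncomputable def pj (m y : ℝ) : ℝ := max m (min y (1 - m))

/-- the calibration -/
noncomputable def K (m t y : ℝ) : ℝ := t * ((pj m y - m) / (1 - 2 * m)) / q0 (pj m y)

theorem pj_mem {m : ℝ} (hm1 : m ≤ 1 / 1000) (y : ℝ) : pj m y ∈ Icc m (1 - m) := by
  unfold pj
  exact ⟨le_max_left _ _, max_le (by linarith) (min_le_right _ _)⟩

theorem pj_eq {m y : ℝ} (h : y ∈ Icc m (1 - m)) : pj m y = y := by
  unfold pj
  rw [min_eq_left h.2, max_eq_right h.1]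

theorem pj_le {m y : ℝ} (h : y ≤ m) : pj m y = m := by
  unfold pj
  exact max_eq_left ((min_le_left _ _).trans h)

theorem q0_ge {m t y : ℝ} (hm0 : 0 < m) (hm1 : m ≤ 1 / 1000) (ht : 0 ≤ t) (ht2 : t ^ 2 = m)
    (hy : y ∈ Icc m (1 - m)) : t ≤ q0 y := by
  have hπ : 3 < Real.pi := Real.pi_gt_three
  obtain ⟨h1, h2⟩ := hy
  unfold q0
  refine le_min (le_min ?_ ?_) ?_
  · exact Real.le_sqrt_of_sq_le (by nlinarith)
  · exact Real.le_sqrt_of_sq_le (by nlinarith)
  · nlinarith

theorem frac_mem {m y : ℝ} (hm0 : 0 < m) (hm1 : m ≤ 1 / 1000) (hy : y ∈ Icc m (1 - m)) :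
    (y - m) / (1 - 2 * m) ∈ Icc (0 : ℝ) 1 := by
  have h : 0 < 1 - 2 * m := by linarith
  refine ⟨div_nonneg (by linarith [hy.1]) h.le, ?_⟩
  rw [div_le_one h]
  linarith [hy.2]

theorem continuous_K {m t : ℝ} (hm0 : 0 < m) (hm1 : m ≤ 1 / 1000) (ht : 0 < t)
    (ht2 : t ^ 2 = m) : Continuous (K m t) := by
  have hp : Continuous (pj m) := by unfold pj; fun_prop
  unfold K
  refine Continuous.div ?_ (continuous_q0.comp hp) ?_
  · exact continuous_const.mul ((hp.sub continuous_const).div_const _)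
  · intro y
    exact (ht.trans_le (q0_ge hm0 hm1 ht.le ht2 (pj_mem hm1 y))).ne'

theorem K_mem {m t : ℝ} (hm0 : 0 < m) (hm1 : m ≤ 1 / 1000) (ht : 0 < t)
    (ht2 : t ^ 2 = m) (y : ℝ) : K m t y ∈ Icc (0 : ℝ) 1 := by
  have hq := q0_ge hm0 hm1 ht.le ht2 (pj_mem hm1 y)
  have hf := frac_mem hm0 hm1 (pj_mem hm1 y)
  have hq' : 0 < q0 (pj m y) := ht.trans_le hq
  unfold K
  refine ⟨div_nonneg (mul_nonneg ht.le hf.1) hq'.le, ?_⟩
  rw [div_le_one hq']
  nlinarith [hf.1, hf.2]

theorem K_q0 {m t : ℝ} (hm0 : 0 < m) (hm1 : m ≤ 1 / 1000) (ht : 0 < t)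
    (ht2 : t ^ 2 = m) {y : ℝ} (hy : y ≤ 1 - m) :
    t * ((y - m) / (1 - 2 * m)) ≤ K m t y * q0 y := by
  rcases le_or_gt y m with h | h
  · have h1 : K m t y = 0 := by
      unfold K
      rw [pj_le h]
      simp
    rw [h1, zero_mul]
    have h2 : (y - m) / (1 - 2 * m) ≤ 0 :=
      div_nonpos_of_nonpos_of_nonneg (by linarith) (by linarith)
    nlinarith
  · have hy' : y ∈ Icc m (1 - m) := ⟨h.le, hy⟩
    have hq := q0_ge hm0 hm1 ht.le ht2 hy'
    have hq' : 0 < q0 y := ht.trans_le hq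
    unfold K
    rw [pj_eq hy', div_mul_cancel₀ _ hq'.ne']

theorem K_sq {m t : ℝ} (hm0 : 0 < m) (hm1 : m ≤ 1 / 1000) (ht : 0 < t)
    (ht2 : t ^ 2 = m) {y : ℝ} (hy : y ≤ 1 - m) :
    K m t y ^ 2 ≤ m * (4 / 3 + 1 / 3 * (1 - y)⁻¹) := by
  have hy1 : 0 < 1 - y := by linarith
  have hi : 0 < (1 - y)⁻¹ := inv_pos.2 hy1
  rcases le_or_gt y m with h | h
  · have h1 : K m t y = 0 := by
      unfold K
      rw [pj_le h]
      simp
    rw [h1]
    have : 0 ≤ m * (4 / 3 + 1 / 3 * (1 - y)⁻¹) := by positivity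
    simpa using this
  · have hy' : y ∈ Icc m (1 - m) := ⟨h.le, hy⟩
    have hq := q0_ge hm0 hm1 ht.le ht2 hy'
    have hq' : 0 < q0 y := ht.trans_le hq
    have hf := frac_mem hm0 hm1 hy'
    have hy0 : 0 < y := hm0.trans h
    unfold K
    rw [pj_eq hy', div_pow, mul_pow, ht2, mul_div_assoc]
    refine mul_le_mul_of_nonneg_left ?_ hm0.le
    rw [div_le_iff₀ (by positivity)]
    set s := (y - m) / (1 - 2 * m) with hs
    have hs1 : s ^ 2 ≤ 1 := by nlinarith [hf.1, hf.2]
    have hπ : 3 < Real.pi := Real.pi_gt_three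
    have hsy : s * (1 - 2 * m) ≤ y := by
      rw [hs, div_mul_cancel₀ _ (by linarith)]
      linarith
    have hcase : q0 y = √(Real.pi * y) ∨ q0 y = √(Real.pi * (1 - y)) ∨ q0 y = 1 := by
      unfold q0
      rcases min_choice (min (√(Real.pi * y)) (√(Real.pi * (1 - y)))) 1 with h | h
      · rw [h]
        rcases min_choice (√(Real.pi * y)) (√(Real.pi * (1 - y))) with h | h
        · left; exact h
        · right; left; exact h
      · right; right; exact h
    rcases hcase with h2 | h2 | h2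
    · rw [h2, Real.sq_sqrt (by positivity)]
      have h3 : s ≤ 2 * y := by nlinarith [hf.1]
      have h4 : s ^ 2 ≤ 2 * y := by nlinarith [hf.1, hf.2]
      have h5 : 0 ≤ 1 / 3 * (1 - y)⁻¹ * (Real.pi * y) := by positivity
      nlinarith
    · rw [h2, Real.sq_sqrt (by positivity)]
      have h5 : (1 - y)⁻¹ * (Real.pi * (1 - y)) = Real.pi := by
        field_simp
      have h6 : 0 ≤ 4 / 3 * (Real.pi * (1 - y)) := by positivity
      nlinarith
    · rw [h2]
      nlinarith

/-- the comparison integrand -/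
noncomputable def G (m x : ℝ) : ℝ := 1 - m * (4 / 3 + 1 / 3 * x⁻¹)

theorem G_int {m b : ℝ} (hm0 : 0 < m) (hb : m ≤ b) :
    IntervalIntegrable (G m) volume m b := by
  refine ContinuousOn.intervalIntegrable ?_
  rw [uIcc_of_le hb]
  unfold G
  refine continuousOn_const.sub (continuousOn_const.mul (continuousOn_const.add
    (continuousOn_const.mul (ContinuousOn.inv₀ continuousOn_id ?_))))
  intro x hx
  exact (hm0.trans_le hx.1).ne'

theorem int_G {m b : ℝ} (hm0 : 0 < m) (hb : m ≤ b) (hb1 : b ≤ 1) :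
    (b - m) - m * (4 / 3 - 1 / 3 * Real.log m) ≤ ∫ x in m..b, G m x := by
  have hbpos : 0 < b := hm0.trans_le hb
  have hii : IntervalIntegrable (fun x : ℝ => x⁻¹) volume m b := by
    refine ContinuousOn.intervalIntegrable ?_
    rw [uIcc_of_le hb]
    exact ContinuousOn.inv₀ continuousOn_id fun x hx => (hm0.trans_le hx.1).ne'
  have e : ∀ x, G m x = (1 - m * (4 / 3)) - (m * (1 / 3)) * x⁻¹ := by
    intro x; unfold G; ring
  simp_rw [e]
  rw [intervalIntegral.integral_sub (by simp) (hii.const_mul _),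
    intervalIntegral.integral_const, intervalIntegral.integral_const_mul,
    integral_inv_of_pos hm0 hbpos, Real.log_div hbpos.ne' hm0.ne', smul_eq_mul]
  have hl : Real.log b ≤ 0 := Real.log_nonpos hbpos.le hb1
  nlinarith [mul_nonneg hm0.le (by linarith : 0 ≤ 1 - (b - m)),
    mul_nonneg hm0.le (neg_nonneg.2 hl)]

theorem le_sqrt_one_sub {k g : ℝ} (hk : k ∈ Icc (0 : ℝ) 1) (hg : k ^ 2 ≤ 1 - g) :
    g ≤ √(1 - k ^ 2) := by
  obtain ⟨h0, h1⟩ := hk
  have h2 : 0 ≤ 1 - k ^ 2 := by nlinarith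
  have h3 : 1 - k ^ 2 ≤ √(1 - k ^ 2) := Real.le_sqrt_of_sq_le (by nlinarith [sq_nonneg k])
  linarith

/-- integrals against the profile -/
theorem lev_lin {a q : ℝ → ℝ} {P V a0 a1 : ℝ} (h : Prof a q P V a0 a1)
    (hq : ∀ᵐ s ∂(volume.restrict (Ioo (0 : ℝ) 1)), q0 (a s) ≤ q s)
    (κ : ℝ → ℝ) (hc : Continuous κ) (hκ : ∀ x, κ x ∈ Icc (0 : ℝ) 1) (A B : ℝ)
    (hAB : ∀ x ∈ Icc a1 a0, A * x + B ≤ κ x * q0 x) (I : ℝ)
    (hI : I ≤ ∫ x in a1..a0, √(1 - κ x ^ 2)) : A * V + B + I ≤ P := by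
  have hmeas : AEMeasurable a (volume.restrict (Ioo (0 : ℝ) 1)) :=
    aemeasurable_restrict_of_antitoneOn measurableSet_Ioo h.anti
  have hbd : ∀ᵐ s ∂(volume.restrict (Ioo (0 : ℝ) 1)), a s ∈ Icc a1 a0 := by
    rw [ae_restrict_iff' measurableSet_Ioo]
    exact Eventually.of_forall h.mem
  have hai : IntegrableOn a (Ioo (0 : ℝ) 1) := by
    refine (integrable_const a0).mono' hmeas.aestronglyMeasurable ?_
    filter_upwards [hbd] with s hs
    rw [Real.norm_eq_abs, abs_of_nonneg (h.a1_nonneg.trans hs.1)]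
    exact hs.2
  have hki : IntegrableOn (fun s => κ (a s) * q s) (Ioo (0 : ℝ) 1) := by
    refine Integrable.bdd_mul (c := 1) h.q_int
      (hc.measurable.comp_aemeasurable hmeas).aestronglyMeasurable ?_
    filter_upwards with s
    rw [Real.norm_eq_abs, abs_of_nonneg (hκ _).1]
    exact (hκ _).2
  have hmono : ∫ s in Ioo (0 : ℝ) 1, (A * a s + B) ≤ ∫ s in Ioo (0 : ℝ) 1, κ (a s) * q s := by
    refine integral_mono_ae ((hai.const_mul A).add (by simp)) hki ?_
    filter_upwards [hbd, hq] with s hs hs2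
    exact (hAB _ hs).trans (mul_le_mul_of_nonneg_left hs2 (hκ _).1)
  have hV : ∫ s in Ioo (0 : ℝ) 1, (A * a s + B) = A * V + B := by
    rw [integral_add (hai.const_mul A) (by simp), integral_const_mul]
    have := h.int_a
    rw [intervalIntegral.integral_of_le zero_le_one, integral_Ioc_eq_integral_Ioo] at this
    rw [this]
    simp
  have hl := h.lev κ hc hκ
  rw [intervalIntegral.integral_of_le zero_le_one, integral_Ioc_eq_integral_Ioo] at hl
  linarith

theorem numeric {m w X P : ℝ} (hm1 : m ≤ 1 / 1000) (hw : 0 < w) (hwm : w ^ 6 = m)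
    (hX : 316 / 1000 ≤ X)
    (hP : w ^ 3 * X + (1 - 2 * m - m * (4 / 3 - 1 / 3 * Real.log m)) ≤ P) : 1 ≤ P := by
  have hw2 : w ^ 2 ≤ 1 / 10 := by
    by_contra hcon
    push Not at hcon
    have : (1 / 10 : ℝ) ^ 3 < (w ^ 2) ^ 3 := by
      exact pow_lt_pow_left₀ hcon (by norm_num) (by norm_num)
    have h2 : (w ^ 2) ^ 3 = w ^ 6 := by ring
    rw [h2, hwm] at this
    norm_num at this
    linarith
  have hw1 : w ≤ 1 / 3 := by nlinarith
  have hlog : - Real.log m ≤ 6 * (w⁻¹ - 1) := by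
    rw [← hwm, Real.log_pow]
    have := Real.log_le_sub_one_of_pos (inv_pos.2 hw)
    rw [Real.log_inv] at this
    push_cast
    linarith
  have hmul : m * (- Real.log m) ≤ m * (6 * (w⁻¹ - 1)) :=
    mul_le_mul_of_nonneg_left hlog (by rw [← hwm]; positivity)
  have hmw : m * w⁻¹ = w ^ 5 := by
    rw [← hwm]; field_simp
  have h1 : m * (- Real.log m) ≤ 6 * w ^ 5 - 6 * w ^ 6 := by
    have : m * (6 * (w⁻¹ - 1)) = 6 * w ^ 5 - 6 * w ^ 6 := by
      rw [mul_sub, mul_sub, ← hmw, hwm]; ring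
    linarith
  have h2 : w ^ 3 * (316 / 1000) ≤ w ^ 3 * X := mul_le_mul_of_nonneg_left hX (by positivity)
  have h3 : 0 ≤ w ^ 3 * (316 / 1000 - 4 / 3 * w ^ 3 - 2 * w ^ 2) := by
    refine mul_nonneg (by positivity) ?_
    nlinarith [sq_nonneg w]
  rw [← hwm] at hP h1
  nlinarith

end Corner

open Corner in
theorem corner (a q : ℝ → ℝ) (P V a0 a1 : ℝ) (h : Prof a q P V a0 a1) (hV0 : 0 < V)
    (hV : V ≤ 1 / 2) (ha0 : 999 / 1000 ≤ a0) (ha1 : a1 ≤ 1 / 1000)
    (hq : ∀ᵐ s ∂(volume.restrict (Ioo (0 : ℝ) 1)), q0 (a s) ≤ q s) : JQ V ≤ P := by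
  -- the trivial calibration
  have hP0 : a0 - a1 ≤ P := by
    have := lev_lin h hq (fun _ => 0) continuous_const (fun x => by simp) 0 0
      (fun x _ => by simp) (a0 - a1) (by simp)
    simpa using this
  rcases lt_or_ge V (317 / 1000) with hV1 | hV1
  · refine ((min_le_left _ _).trans (min_le_right _ _)).trans ?_
    refine le_trans ?_ hP0
    have h998 : (998 / 1000 : ℝ) ≤ a0 - a1 := by linarith
    refine le_trans ?_ h998
    rw [Real.sqrt_le_left (by norm_num)]
    have := Real.pi_lt_d4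
    nlinarith
  have hJ : JQ V ≤ 1 := min_le_right _ _
  refine hJ.trans ?_
  have ha01 := h.a0_le
  have ha10 := h.a1_nonneg
  rcases le_total a1 (1 - a0) with hcase | hcase
  · -- case A
    rcases (by linarith : (0 : ℝ) ≤ 1 - a0).eq_or_lt with hd | hd
    · have : a0 = 1 := by linarith
      have : a1 = 0 := by linarith
      linarith
    set m := 1 - a0 with hm
    have hm1 : m ≤ 1 / 1000 := by linarith
    set w := m ^ (1 / 6 : ℝ) with hw
    have hw0 : 0 < w := Real.rpow_pos_of_pos hd _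
    have hwm : w ^ 6 = m := by
      rw [hw, ← Real.rpow_natCast, ← Real.rpow_mul hd.le]
      norm_num
    have ht : 0 < w ^ 3 := by positivity
    have ht2 : (w ^ 3) ^ 2 = m := by rw [← hwm]; ring
    have hI : (1 - a1 - m) - m * (4 / 3 - 1 / 3 * Real.log m) ≤
        ∫ x in a1..a0, √(1 - K m (w ^ 3) x ^ 2) := by
      refine (int_G hd (by linarith : m ≤ 1 - a1) (by linarith)).trans ?_
      have e : ∫ x in m..(1 - a1), G m x = ∫ x in a1..a0, G m (1 - x) := by
        rw [intervalIntegral.integral_comp_sub_left]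
      rw [e]
      refine intervalIntegral.integral_mono_on (by linarith) ?_ ?_ ?_
      · have := (G_int hd (by linarith : m ≤ 1 - a1)).comp_sub_left 1
        have e1 : 1 - (1 - a1) = a1 := by ring
        have e2 : 1 - m = a0 := by rw [hm]; ring
        rw [e1, e2] at this
        exact this.symm
      · exact (by
          have := continuous_K hd hm1 ht ht2
          fun_prop : Continuous fun x => √(1 - K m (w ^ 3) x ^ 2)).intervalIntegrable _ _
      · intro x hx
        refine le_sqrt_one_sub (K_mem hd hm1 ht ht2 x) ?_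
        have := K_sq hd hm1 ht ht2 (by rw [hm]; linarith [hx.2] : x ≤ 1 - m)
        unfold G
        linarith
    have hlin := lev_lin h hq (K m (w ^ 3)) (continuous_K hd hm1 ht ht2)
      (K_mem hd hm1 ht ht2) (w ^ 3 / (1 - 2 * m)) (-(w ^ 3 * m / (1 - 2 * m))) (by
        intro x hx
        refine le_trans (le_of_eq ?_)
          (K_q0 hd hm1 ht ht2 (by rw [hm]; linarith [hx.2] : x ≤ 1 - m))
        have : 1 - 2 * m ≠ 0 := by linarith
        field_simp
        ring) _ hI
    refine numeric (X := (V - m) / (1 - 2 * m)) hm1 hw0 hwm ?_ ?_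
    · rw [le_div_iff₀ (by linarith)]
      nlinarith
    · refine le_trans ?_ hlin
      have e : w ^ 3 * ((V - m) / (1 - 2 * m)) =
          w ^ 3 / (1 - 2 * m) * V + -(w ^ 3 * m / (1 - 2 * m)) := by
        have : 1 - 2 * m ≠ 0 := by linarith
        field_simp
        ring
      rw [e]
      linarith
  · -- case B
    rcases ha10.eq_or_lt with hd | hd
    · have : a0 = 1 := by linarith
      linarith
    set m := a1 with hm
    have hm1 : m ≤ 1 / 1000 := ha1
    set w := m ^ (1 / 6 : ℝ) with hw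
    have hw0 : 0 < w := Real.rpow_pos_of_pos hd _
    have hwm : w ^ 6 = m := by
      rw [hw, ← Real.rpow_natCast, ← Real.rpow_mul hd.le]
      norm_num
    have ht : 0 < w ^ 3 := by positivity
    have ht2 : (w ^ 3) ^ 2 = m := by rw [← hwm]; ring
    have hc : Continuous fun x => K m (w ^ 3) (1 - x) :=
      (continuous_K hd hm1 ht ht2).comp (continuous_const.sub continuous_id)
    have hI : (a0 - m) - m * (4 / 3 - 1 / 3 * Real.log m) ≤
        ∫ x in m..a0, √(1 - K m (w ^ 3) (1 - x) ^ 2) := by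
      refine (int_G hd (by linarith : m ≤ a0) ha01).trans ?_
      refine intervalIntegral.integral_mono_on (by linarith) ?_ ?_ ?_
      · exact G_int hd (by linarith : m ≤ a0)
      · exact (by fun_prop :
          Continuous fun x => √(1 - K m (w ^ 3) (1 - x) ^ 2)).intervalIntegrable _ _
      · intro x hx
        refine le_sqrt_one_sub (K_mem hd hm1 ht ht2 _) ?_
        have := K_sq hd hm1 ht ht2 (by linarith [hx.1] : 1 - x ≤ 1 - m)
        rw [sub_sub_cancel] at this
        unfold G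
        linarith
    have hlin := lev_lin h hq (fun x => K m (w ^ 3) (1 - x)) hc
      (fun x => K_mem hd hm1 ht ht2 (1 - x)) (-(w ^ 3 / (1 - 2 * m)))
      (w ^ 3 * (1 - m) / (1 - 2 * m)) (by
        intro x hx
        have := K_q0 hd hm1 ht ht2 (by linarith [hx.1] : 1 - x ≤ 1 - m)
        rw [q0_symm] at this
        refine le_trans (le_of_eq ?_) this
        have : 1 - 2 * m ≠ 0 := by linarith
        field_simp
        ring) _ hI
    refine numeric (X := (1 - m - V) / (1 - 2 * m)) hm1 hw0 hwm ?_ ?_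
    · rw [le_div_iff₀ (by linarith)]
      nlinarith
    · refine le_trans ?_ hlin
      have e : w ^ 3 * ((1 - m - V) / (1 - 2 * m)) =
          -(w ^ 3 / (1 - 2 * m)) * V + w ^ 3 * (1 - m) / (1 - 2 * m) := by
        have : 1 - 2 * m ≠ 0 := by linarith
        field_simp
        ring
      rw [e]
      linarith

end P232
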