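import Vale.Agent.P232.DeficitD

/-!
# P232 [RD]: the weak identities for the centres of the sections
-/

open MeasureTheory Set Filter Topology
open scoped ENNReal ContDiff

namespace P232

/-- [RD] -/
theorem rigid_pde (i : Fin 3) (E : Set R3) (hm : MeasurableSet E) (hp : PeriodicSet E)
    (Ω : Set (Fin 2 → ℝ)) (hΩo : IsOpen Ω) (hΩ : Ω ⊆ {y | ∀ j, y j ∈ Ioo (0 : ℝ) 1})
    (l : (Fin 2 → ℝ) → ℝ) (hl : ContDiffOn ℝ ∞ l Ω) (h0 : ∀ y ∈ Ω, 0 < l y ∧ l y < 1)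
    (hE : ∀ᵐ y ∂(volume.restrict Ω),
      volume {t ∈ Ico (0 : ℝ) 1 | (i.insertNth t y : R3) ∈ E} = ENNReal.ofReal (l y))
    (hfin : perimeter E ≠ ⊤)
    (hP : perimeter E ≤ ∫⁻ y in Ω,
      ENNReal.ofReal (√(4 + ∑ j, (fderiv ℝ l y (Pi.single j 1)) ^ 2))) :
    ∃ c : (Fin 2 → ℝ) → ℝ, Measurable c ∧
      (∀ᵐ y ∂(volume.restrict Ω), ∀ᵐ t : ℝ, ((i.insertNth t y : R3) ∈ E ↔ dz (t - c y) < l y / 2)) ∧
      ∀ (j : Fin 2) (ψ : (Fin 2 → ℝ) → ℝ), ContDiff ℝ ∞ ψ → HasCompactSupport ψ → tsupport ψ ⊆ Ω →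
        (∫ y in Ω, Real.cos (2 * Real.pi * c y) * fderiv ℝ ψ y (Pi.single j 1) = 0) ∧
        (∫ y in Ω, Real.sin (2 * Real.pi * c y) * fderiv ℝ ψ y (Pi.single j 1) = 0) := by
  obtain ⟨f, hf, hfp, h01, -, hsec, hD⟩ := Rd.deficit i E hm hp Ω hΩo hΩ l hl h0 hE hfin hP
  have S : Rd.D.Sq i E Ω l f := ⟨hm, hp, hΩo, hl, h0, hE, hf, hfp, h01, hsec, hD⟩
  refine ⟨Rd.D.cen i E, Rd.D.cen_meas i E hm, S.cen_ae, fun j ψ h1 h2 h3 => ?_⟩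
  have hψ : Rd.Cc Ω ψ := ⟨h1, h2, h3⟩
  have hz : ∀ y, y ∉ Ω → fderiv ℝ ψ y (Pi.single j 1) = 0 := fun y hy =>
    (hψ.pd (Pi.single j 1)).zero hy
  constructor
  · rw [setIntegral_eq_integral_of_forall_compl_eq_zero fun y hy => by rw [hz y hy, mul_zero]]
    exact S.weak _ Rd.D.harm_cos j ψ hψ
  · rw [setIntegral_eq_integral_of_forall_compl_eq_zero fun y hy => by rw [hz y hy, mul_zero]]
    exact S.weak _ Rd.D.harm_sin j ψ hψ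

end P232
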