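import Vale.Agent.P232.Cell

/-!
# P232 [MOL]: mollification of a periodic set of finite perimeter.
-/

open MeasureTheory Set Filter Topology
open scoped ENNReal ContDiff Convolution

namespace P232.Mol

/-- The mollified indicator. -/
noncomputable def mol (ρ : ContDiffBump (0 : R3)) (E : Set R3) : R3 → ℝ :=
  (ρ.normed volume) ⋆[ContinuousLinearMap.lsmul ℝ ℝ, volume] (E.indicator (1 : R3 → ℝ))

theorem mol_apply (ρ : ContDiffBump (0 : R3)) (E : Set R3) (x : R3) :
    mol ρ E x = ∫ t, ρ.normed volume t * E.indicator (1 : R3 → ℝ) (x - t) := by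
  simp [mol, convolution_def]

theorem locInt (E : Set R3) (hm : MeasurableSet E) :
    LocallyIntegrable (E.indicator (1 : R3 → ℝ)) volume :=
  (locallyIntegrable_const (1 : ℝ)).indicator hm

theorem mol_contDiff (ρ : ContDiffBump (0 : R3)) (E : Set R3) (hm : MeasurableSet E) :
    ContDiff ℝ ∞ (mol ρ E) :=
  HasCompactSupport.contDiff_convolution_left _ ρ.hasCompactSupport_normed
    ρ.contDiff_normed (locInt E hm)

theorem ind_mem (E : Set R3) (x : R3) : E.indicator (1 : R3 → ℝ) x ∈ Icc (0 : ℝ) 1 := by
  by_cases h : x ∈ E <;> simp [h]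

theorem ind_periodic (E : Set R3) (hp : PeriodicSet E) (x : R3) (i : Fin 3) :
    E.indicator (1 : R3 → ℝ) (x + Pi.single i 1) = E.indicator (1 : R3 → ℝ) x := by
  by_cases h : x ∈ E
  · rw [indicator_of_mem h, indicator_of_mem ((hp x i).2 h)]; rfl
  · rw [indicator_of_notMem h, indicator_of_notMem (fun h' => h ((hp x i).1 h'))]

theorem mol_periodic (ρ : ContDiffBump (0 : R3)) (E : Set R3) (hp : PeriodicSet E) :
    PeriodicFun (mol ρ E) := by
  intro x i
  rw [mol_apply, mol_apply]
  congr 1
  funext t
  rw [add_sub_right_comm, ind_periodic E hp]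

theorem integrable_kernel (ρ : ContDiffBump (0 : R3)) (E : Set R3) (hm : MeasurableSet E)
    (x : R3) :
    Integrable (fun t => ρ.normed volume t * E.indicator (1 : R3 → ℝ) (x - t)) volume := by
  refine Integrable.mono' (ρ.integrable_normed (μ := volume)) ?_ ?_
  · refine ρ.continuous_normed.aestronglyMeasurable.mul ?_
    exact ((measurable_one.indicator hm).comp (measurable_const.sub measurable_id)).aestronglyMeasurable
  · refine Eventually.of_forall fun t => ?_
    have h := ind_mem E (x - t)
    have h0 := ρ.nonneg_normed (μ := volume) t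
    rw [Real.norm_eq_abs, abs_of_nonneg (mul_nonneg h0 h.1)]
    exact mul_le_of_le_one_right h0 h.2

theorem mol_mem (ρ : ContDiffBump (0 : R3)) (E : Set R3) (hm : MeasurableSet E) (x : R3) :
    mol ρ E x ∈ Icc (0 : ℝ) 1 := by
  rw [mol_apply]
  constructor
  · exact integral_nonneg fun t => mul_nonneg (ρ.nonneg_normed t) (ind_mem E _).1
  · rw [← ρ.integral_normed (μ := volume)]
    refine integral_mono (integrable_kernel ρ E hm x) ρ.integrable_normed fun t => ?_
    exact mul_le_of_le_one_right (ρ.nonneg_normed t) (ind_mem E _).2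

theorem testField_shift (φ : R3 → R3) (hφ : TestField φ) (t : R3) :
    TestField (fun x => φ (x + t)) := by
  refine ⟨hφ.smooth.comp (contDiff_id.add contDiff_const), fun x i => ?_, fun x => hφ.bound _⟩
  show φ (x + Pi.single i 1 + t) = φ (x + t)
  rw [add_right_comm, hφ.periodic]

theorem divergence_shift (φ : R3 → R3) (t x : R3) :
    divergence (fun x => φ (x + t)) x = divergence φ (x + t) := by
  unfold divergence
  rw [fderiv_comp_add_right]

theorem divergence_continuous (φ : R3 → R3) (hφ : ContDiff ℝ 1 φ) : Continuous (divergence φ) := by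
  unfold divergence
  refine continuous_finsetSum _ fun i _ => ?_
  have h1 : Continuous (fun x => fderiv ℝ φ x (Pi.single i 1)) :=
    (hφ.continuous_fderiv one_ne_zero).clm_apply continuous_const
  exact (continuous_apply i).comp h1

theorem divergence_periodic (φ : R3 → R3) (hp : ∀ x i, φ (x + Pi.single i 1) = φ x) (x : R3)
    (i : Fin 3) : divergence φ (x + Pi.single i 1) = divergence φ x := by
  rw [← divergence_shift]
  congr 1
  funext y
  exact hp y i

/-- continuous functions are bounded on the cell -/
theorem bdd_cell (g : R3 → ℝ) (hg : Continuous g) : ∃ C, 0 ≤ C ∧ ∀ x ∈ cell, |g x| ≤ C := by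
  obtain ⟨C, hC⟩ := (isCompact_Icc (a := (0 : R3)) (b := 1)).exists_bound_of_continuousOn
    hg.continuousOn
  refine ⟨max C 0, le_max_right _ _, fun x hx => ?_⟩
  exact (hC x ⟨fun i => (hx i).1, fun i => (hx i).2.le⟩).trans (le_max_left _ _)

theorem testField_le (E : Set R3) (hm : MeasurableSet E) (hfin : perimeter E ≠ ⊤) (φ : R3 → R3)
    (hφ : TestField φ) :
    ∫ x in cell, E.indicator (1 : R3 → ℝ) x * divergence φ x ≤ (perimeter E).toReal := by
  have h1 : ∫ x in cell, E.indicator (1 : R3 → ℝ) x * divergence φ x
      = ∫ x in E ∩ cell, divergence φ x := by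
    have : (fun x => E.indicator (1 : R3 → ℝ) x * divergence φ x)
        = E.indicator (divergence φ) := by
      funext x
      by_cases h : x ∈ E <;> simp [h]
    rw [this, setIntegral_indicator hm, inter_comm]
  rw [h1]
  have h2 : ENNReal.ofReal (∫ x in E ∩ cell, divergence φ x) ≤ perimeter E := by
    unfold perimeter
    exact le_iSup₂_of_le φ hφ le_rfl
  exact (ENNReal.ofReal_le_iff_le_toReal hfin).1 h2

theorem dual (ρ : ContDiffBump (0 : R3)) (E : Set R3) (hm : MeasurableSet E) (hp : PeriodicSet E)
    (hfin : perimeter E ≠ ⊤) (φ : R3 → R3) (hφ : TestField φ) :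
    ∫ x in cell, mol ρ E x * divergence φ x ≤ (perimeter E).toReal := by
  have hφ1 : ContDiff ℝ 1 φ := hφ.smooth.of_le (by exact_mod_cast le_top)
  have hdc := divergence_continuous φ hφ1
  obtain ⟨C, hC0, hC⟩ := bdd_cell _ hdc
  set u : R3 → ℝ := E.indicator (1 : R3 → ℝ) with hu
  have hum : Measurable u := measurable_one.indicator hm
  set r : R3 → ℝ := ρ.normed volume with hr
  have hrc : Continuous r := ρ.continuous_normed
  have hr0 : ∀ t, 0 ≤ r t := fun t => ρ.nonneg_normed t
  have hri : Integrable r volume := ρ.integrable_normed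
  -- integrability on the product
  have hint : Integrable (Function.uncurry fun (x t : R3) => r t * (u (x - t) * divergence φ x))
      ((volume.restrict cell).prod volume) := by
    have hb : Integrable (Function.uncurry fun (x t : R3) => C * r t)
        ((volume.restrict cell).prod volume) := by
      have := (integrable_const (μ := volume.restrict cell) C).mul_prod hri
      exact this
    refine Integrable.mono' hb ?_ ?_
    · refine Measurable.aestronglyMeasurable ?_
      have h1 : Measurable (fun p : R3 × R3 => r p.2) := hrc.measurable.comp measurable_snd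
      have h2 : Measurable (fun p : R3 × R3 => u (p.1 - p.2)) :=
        hum.comp (measurable_fst.sub measurable_snd)
      have h3 : Measurable (fun p : R3 × R3 => divergence φ p.1) :=
        hdc.measurable.comp measurable_fst
      exact h1.mul (h2.mul h3)
    · have hae : ∀ᵐ p ∂((volume.restrict cell).prod (volume : Measure R3)), p.1 ∈ cell := by
        have h0 : ∀ᵐ x ∂(volume.restrict cell), x ∈ cell :=
          ae_restrict_mem Cell.measurableSet_cell
        exact (Measure.quasiMeasurePreserving_fst (μ := volume.restrict cell)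
          (ν := (volume : Measure R3))).ae h0
      filter_upwards [hae] with p hp1
      have h := ind_mem E (p.1 - p.2)
      have h4 := hC p.1 hp1
      simp only [Function.uncurry]
      rw [Real.norm_eq_abs, abs_mul, abs_mul, abs_of_nonneg (hr0 _), abs_of_nonneg h.1, mul_comm C]
      refine mul_le_mul_of_nonneg_left ?_ (hr0 _)
      calc u (p.1 - p.2) * |divergence φ p.1| ≤ 1 * C :=
            mul_le_mul h.2 h4 (abs_nonneg _) zero_le_one
        _ = C := one_mul _
  have h1 : ∫ x in cell, mol ρ E x * divergence φ x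
      = ∫ x in cell, ∫ t, r t * (u (x - t) * divergence φ x) := by
    congr 1
    funext x
    rw [mol_apply, ← integral_mul_const]
    congr 1
    funext t
    rw [mul_assoc]
  rw [h1, integral_integral_swap hint]
  have h2 : ∀ t, ∫ x in cell, r t * (u (x - t) * divergence φ x)
      = r t * ∫ x in cell, u x * divergence (fun x => φ (x + t)) x := by
    intro t
    rw [integral_const_mul]
    congr 1
    have h3 := Cell.setIntegral_shift (fun x => u x * divergence φ (x + t)) (by
      intro x i
      show u (x + Pi.single i 1) * divergence φ (x + Pi.single i 1 + t) = u x * divergence φ (x + t)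
      rw [hu, ind_periodic E hp, add_right_comm, divergence_periodic φ hφ.periodic]) (-t)
    have h4 : ∀ x, u x * divergence (fun x => φ (x + t)) x = u x * divergence φ (x + t) :=
      fun x => by rw [divergence_shift]
    simp only [h4]
    rw [← h3]
    congr 1
    funext x
    rw [neg_add_cancel_right, sub_eq_add_neg]
  have h5 : ∀ t, (∫ x in cell, r t * (u (x - t) * divergence φ x))
      ≤ r t * (perimeter E).toReal := by
    intro t
    rw [h2]
    exact mul_le_mul_of_nonneg_left (testField_le E hm hfin _ (testField_shift φ hφ t)) (hr0 t)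
  calc ∫ t, ∫ x in cell, r t * (u (x - t) * divergence φ x)
      ≤ ∫ t, r t * (perimeter E).toReal :=
        integral_mono hint.swap.integral_prod_left (hri.mul_const _) h5
    _ = (perimeter E).toReal := by
        rw [integral_mul_const, hr, ρ.integral_normed, one_mul]

/-- regularised gradient field -/
noncomputable def field (f : R3 → ℝ) (η : ℝ) (x : R3) : R3 := fun i =>
  -(fderiv ℝ f x (Pi.single i 1) / √ ((∑ j, (fderiv ℝ f x (Pi.single j 1)) ^ 2) + η ^ 2))

theorem partial_contDiff (f : R3 → ℝ) (hf : ContDiff ℝ ∞ f) (i : Fin 3) :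
    ContDiff ℝ ∞ (fun x => fderiv ℝ f x (Pi.single i 1)) :=
  (hf.fderiv_right (m := ∞) (by simp)).clm_apply contDiff_const

theorem partial_periodic (f : R3 → ℝ) (hp : PeriodicFun f) (v : R3) (x : R3) (i : Fin 3) :
    fderiv ℝ f (x + Pi.single i 1) v = fderiv ℝ f x v := by
  have : fderiv ℝ f (x + Pi.single i 1) = fderiv ℝ (fun y => f (y + Pi.single i 1)) x := by
    rw [fderiv_comp_add_right]
  rw [this]
  congr 2
  funext y
  exact hp y i

theorem field_test (f : R3 → ℝ) (hf : ContDiff ℝ ∞ f) (hp : PeriodicFun f) (η : ℝ) (hη : 0 < η) :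
    TestField (field f η) := by
  have hpos : ∀ x, 0 < (∑ j, (fderiv ℝ f x (Pi.single j 1)) ^ 2) + η ^ 2 := fun x => by positivity
  refine ⟨?_, fun x i => ?_, fun x => ?_⟩
  · rw [contDiff_pi]
    intro i
    refine ContDiff.neg (ContDiff.div (partial_contDiff f hf i) ?_ ?_)
    · refine ContDiff.sqrt ?_ fun x => (hpos x).ne'
      exact (ContDiff.sum fun j _ => (partial_contDiff f hf j).pow 2).add contDiff_const
    · intro x
      exact (Real.sqrt_pos.2 (hpos x)).ne'
  · funext j
    simp only [field, partial_periodic f hp]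
  · have h1 : ∑ i, (field f η x i) ^ 2
        = (∑ j, (fderiv ℝ f x (Pi.single j 1)) ^ 2)
          / ((∑ j, (fderiv ℝ f x (Pi.single j 1)) ^ 2) + η ^ 2) := by
      rw [Finset.sum_div]
      refine Finset.sum_congr rfl fun i _ => ?_
      simp only [field]
      rw [neg_sq, div_pow, Real.sq_sqrt (hpos x).le]
    rw [h1, div_le_one (hpos x)]
    have := sq_nonneg η
    linarith

theorem divergence_smul (f : R3 → ℝ) (φ : R3 → R3) (hf : Differentiable ℝ f)
    (hφ : Differentiable ℝ φ) (x : R3) :
    divergence (fun x => f x • φ x) x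
      = (∑ i, fderiv ℝ f x (Pi.single i 1) * φ x i) + f x * divergence φ x := by
  unfold divergence
  rw [Finset.mul_sum, ← Finset.sum_add_distrib]
  refine Finset.sum_congr rfl fun i _ => ?_
  have h := fderiv_fun_smul (hf x) (hφ x)
  rw [h]
  simp only [_root_.add_apply, _root_.smul_apply,
    ContinuousLinearMap.smulRight_apply, Pi.add_apply, Pi.smul_apply, smul_eq_mul]
  ring

theorem gradN_continuous (f : R3 → ℝ) (hf : ContDiff ℝ ∞ f) : Continuous (gradN f) := by
  unfold gradN
  exact (continuous_finsetSum _ fun i _ => ((partial_contDiff f hf i).continuous.pow 2)).sqrt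

theorem integrableOn_cell (g : R3 → ℝ) (hg : Continuous g) : IntegrableOn g cell volume :=
  (hg.continuousOn.integrableOn_compact (isCompact_Icc (a := (0 : R3)) (b := 1))).mono_set
    (fun _ hx => ⟨fun i => (hx i).1, fun i => (hx i).2.le⟩)

theorem grad_bound (f : R3 → ℝ) (hf : ContDiff ℝ ∞ f) (hp : PeriodicFun f) (P : ℝ)
    (hd : ∀ φ, TestField φ → ∫ x in cell, f x * divergence φ x ≤ P) :
    ∫ x in cell, gradN f x ≤ P := by
  refine le_of_forall_pos_le_add fun η hη => ?_
  have ht := field_test f hf hp η hη
  have hφ1 : ContDiff ℝ 1 (field f η) := ht.smooth.of_le (by exact_mod_cast le_top)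
  have hf1 : ContDiff ℝ 1 f := hf.of_le (by exact_mod_cast le_top)
  have hφd : Differentiable ℝ (field f η) := hφ1.differentiable one_ne_zero
  have hfd : Differentiable ℝ f := hf1.differentiable one_ne_zero
  have h0 : ∫ x in cell, divergence (fun x => f x • field f η x) x = 0 := by
    refine Cell.integral_divergence _ (hf1.smul hφ1) fun x i => ?_
    show f (x + Pi.single i 1) • field f η (x + Pi.single i 1) = f x • field f η x
    rw [hp x i, ht.periodic]
  simp only [divergence_smul f _ hfd hφd] at h0
  set S : R3 → ℝ := fun x => ∑ i, fderiv ℝ f x (Pi.single i 1) * field f η x i with hS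
  have hSc : Continuous S := continuous_finsetSum _ fun i _ =>
    (partial_contDiff f hf i).continuous.mul ((continuous_apply i).comp hφ1.continuous)
  have hSi := integrableOn_cell S hSc
  have hfdi := integrableOn_cell (fun x => f x * divergence (field f η) x)
    (hf.continuous.mul (divergence_continuous _ hφ1))
  rw [integral_add hSi hfdi] at h0
  have h1 := hd _ ht
  -- pointwise bound
  have h2 : ∀ x, gradN f x ≤ -S x + η := by
    intro x
    set G := ∑ j, (fderiv ℝ f x (Pi.single j 1)) ^ 2 with hG
    have hG0 : 0 ≤ G := Finset.sum_nonneg fun j _ => sq_nonneg _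
    have hpos : 0 < G + η ^ 2 := by positivity
    have hs : 0 < √(G + η ^ 2) := Real.sqrt_pos.2 hpos
    have hSx : -S x = G / √(G + η ^ 2) := by
      simp only [hS, field]
      rw [← Finset.sum_neg_distrib, hG, Finset.sum_div]
      refine Finset.sum_congr rfl fun i _ => ?_
      rw [← hG]
      ring
    rw [hSx]
    have hg : gradN f x = √G := rfl
    rw [hg]
    have hsq : √G * √G = G := Real.mul_self_sqrt hG0
    have hle : √(G + η ^ 2) ≤ √G + η := by
      rw [Real.sqrt_le_left (by positivity)]
      nlinarith [Real.sqrt_nonneg G]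
    have hle2 : √G ≤ √(G + η ^ 2) := Real.sqrt_le_sqrt (by nlinarith)
    rw [← sub_le_iff_le_add, le_div_iff₀ hs]
    have h3 : (√G - η) * √(G + η ^ 2) ≤ √G * √G := by
      by_cases hc : √G - η ≤ 0
      · have := mul_nonpos_of_nonpos_of_nonneg hc hs.le
        nlinarith [Real.sqrt_nonneg G]
      · push Not at hc
        nlinarith [Real.sqrt_nonneg G]
    linarith
  calc ∫ x in cell, gradN f x ≤ ∫ x in cell, (-S x + η) := by
        refine setIntegral_mono (integrableOn_cell _ (gradN_continuous f hf)) ?_ h2
        exact hSi.neg.add (integrableOn_const (by rw [Cell.volume_cell]; simp))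
    _ = -(∫ x in cell, S x) + η := by
        have hn : Integrable (fun x => -S x) (volume.restrict cell) := hSi.neg
        rw [integral_add hn (integrableOn_const (by rw [Cell.volume_cell]; simp)),
          integral_neg]
        simp [Measure.real, Cell.volume_cell]
    _ ≤ P + η := by linarith

end P232.Mol

namespace P232

/-- [MOL] -/
theorem mollify (E : Set R3) (hm : MeasurableSet E) (hp : PeriodicSet E) (hfin : perimeter E ≠ ⊤)
    (ε : ℝ) (hε : 0 < ε) :
    ∃ f : R3 → ℝ, ContDiff ℝ ∞ f ∧ PeriodicFun f ∧ (∀ x, f x ∈ Icc (0 : ℝ) 1) ∧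
      ∫ x in cell, gradN f x ≤ (perimeter E).toReal ∧
      ∫ x in cell, |f x - E.indicator 1 x| ≤ ε := by
  let ρ : ℕ → ContDiffBump (0 : R3) := fun n =>
    ⟨1 / ((n : ℝ) + 1), 2 / ((n : ℝ) + 1), by positivity, by
      apply div_lt_div_of_pos_right _ (by positivity); norm_num⟩
  have hconv : ∀ᵐ x ∂(volume : Measure R3), Tendsto (fun n => Mol.mol (ρ n) E x) atTop
      (𝓝 (E.indicator (1 : R3 → ℝ) x)) := by
    refine ContDiffBump.ae_convolution_tendsto_right_of_locallyIntegrable (K := 2) ?_ ?_
      (Mol.locInt E hm)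
    · have h1 : Tendsto (fun n : ℕ => 2 * (1 / ((n : ℝ) + 1))) atTop (𝓝 (2 * 0)) :=
        tendsto_one_div_add_atTop_nhds_zero_nat.const_mul 2
      rw [mul_zero] at h1
      refine h1.congr fun n => ?_
      show 2 * (1 / ((n : ℝ) + 1)) = 2 / ((n : ℝ) + 1)
      ring
    · refine Eventually.of_forall fun n => ?_
      show 2 / ((n : ℝ) + 1) ≤ 2 * (1 / ((n : ℝ) + 1))
      rw [mul_one_div]
  have hlim : Tendsto (fun n => ∫ x in cell, |Mol.mol (ρ n) E x - E.indicator 1 x|) atTop
      (𝓝 (∫ x in cell, (0 : ℝ))) := by
    refine tendsto_integral_of_dominated_convergence (fun _ => (1 : ℝ)) ?_ ?_ ?_ ?_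
    · intro n
      refine Measurable.aestronglyMeasurable ?_
      have h1 : Measurable (Mol.mol (ρ n) E) := (Mol.mol_contDiff (ρ n) E hm).continuous.measurable
      have h2 : Measurable (E.indicator (1 : R3 → ℝ)) := measurable_one.indicator hm
      exact (h1.sub h2).abs
    · exact integrable_const _
    · intro n
      refine Eventually.of_forall fun x => ?_
      have h1 := Mol.mol_mem (ρ n) E hm x
      have h2 := Mol.ind_mem E x
      rw [Real.norm_eq_abs, abs_abs, abs_le]
      constructor
      · linarith [h1.1, h2.2]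
      · linarith [h1.2, h2.1]
    · filter_upwards [ae_restrict_of_ae hconv] with x hx
      have h3 : Tendsto (fun n => |Mol.mol (ρ n) E x - E.indicator (1 : R3 → ℝ) x|) atTop
          (𝓝 |E.indicator (1 : R3 → ℝ) x - E.indicator (1 : R3 → ℝ) x|) :=
        (hx.sub tendsto_const_nhds).abs
      rw [sub_self, abs_zero] at h3
      exact h3
  rw [integral_zero] at hlim
  obtain ⟨n, hn⟩ := (hlim.eventually (gt_mem_nhds hε)).exists
  exact ⟨Mol.mol (ρ n) E, Mol.mol_contDiff _ E hm, Mol.mol_periodic _ E hp, Mol.mol_mem _ E hm,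
    Mol.grad_bound _ (Mol.mol_contDiff _ E hm) (Mol.mol_periodic _ E hp) _
      (fun φ hφ => Mol.dual (ρ n) E hm hp hfin φ hφ), hn.le⟩

end P232
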