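import Vale.Agent.P232.DefsU
import Vale.Agent.P232.Mollify

/-!
# P232 [RD], part A: coordinates, cut-offs, integration by parts
-/

open MeasureTheory Set Filter Topology
open scoped ENNReal ContDiff

namespace P232.Rd

/-- the plane of the remaining coordinates -/
abbrev Y2 := Fin 2 → ℝ

/-- insertion of the `i`-th coordinate -/
def ins (i : Fin 3) (t : ℝ) (y : Y2) : R3 := i.insertNth t y

theorem ins_add (i : Fin 3) (t s : ℝ) (y : Y2) : ins i (t + s) y = ins i t y + s • Pi.single i 1 := by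
  funext j
  rcases Fin.eq_self_or_eq_succAbove i j with rfl | ⟨k, rfl⟩
  · simp [ins]
  · simp [ins]

theorem ins_one (i : Fin 3) (t : ℝ) (y : Y2) : ins i (t + 1) y = ins i t y + Pi.single i 1 := by
  rw [ins_add, one_smul]

theorem ins_line (i : Fin 3) (t : ℝ) (y : Y2) : ins i t y = ins i 0 y + t • Pi.single i 1 := by
  rw [← ins_add, zero_add]

/-- the linear part of the insertion -/
noncomputable def insL (i : Fin 3) : Y2 →L[ℝ] R3 :=
  LinearMap.toContinuousLinearMap
    { toFun := fun y => ins i 0 y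
      map_add' := fun y z => by
        funext j
        rcases Fin.eq_self_or_eq_succAbove i j with rfl | ⟨k, rfl⟩
        · simp [ins]
        · simp [ins]
      map_smul' := fun c y => by
        funext j
        rcases Fin.eq_self_or_eq_succAbove i j with rfl | ⟨k, rfl⟩
        · simp [ins]
        · simp [ins] }

theorem insL_apply (i : Fin 3) (y : Y2) : insL i y = ins i 0 y := rfl

theorem insL_single (i : Fin 3) (j : Fin 2) :
    insL i (Pi.single j 1) = Pi.single (i.succAbove j) 1 := by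
  rw [insL_apply]
  funext k
  rcases Fin.eq_self_or_eq_succAbove i k with rfl | ⟨m, rfl⟩
  · simp [ins]
  · by_cases h : m = j
    · subst h; simp [ins]
    · simp [ins, h, Pi.single_apply]

theorem ins_eq (i : Fin 3) (t : ℝ) (y : Y2) : ins i t y = insL i y + t • Pi.single i 1 := by
  rw [insL_apply, ← ins_line]

theorem ins_contDiff (i : Fin 3) : ContDiff ℝ ∞ (fun p : ℝ × Y2 => ins i p.1 p.2) := by
  have h : (fun p : ℝ × Y2 => ins i p.1 p.2)
      = fun p => insL i p.2 + p.1 • (Pi.single i 1 : R3) := by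
    funext p; exact ins_eq i p.1 p.2
  rw [h]
  exact ((insL i).contDiff.comp contDiff_snd).add (contDiff_fst.smul contDiff_const)

theorem ins_continuous (i : Fin 3) : Continuous (fun p : ℝ × Y2 => ins i p.1 p.2) :=
  (ins_contDiff i).continuous

theorem ins_cont_t (i : Fin 3) (y : Y2) : Continuous (fun t => ins i t y) :=
  (ins_continuous i).comp (continuous_id.prodMk continuous_const)

theorem ins_cont_y (i : Fin 3) (t : ℝ) : Continuous (fun y => ins i t y) :=
  (ins_continuous i).comp (continuous_const.prodMk continuous_id)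

/-- derivative in the direction of the inserted coordinate -/
theorem hasDerivAt_t (i : Fin 3) (f : R3 → ℝ) (hf : Differentiable ℝ f) (t : ℝ) (y : Y2) :
    HasDerivAt (fun t => f (ins i t y)) (fderiv ℝ f (ins i t y) (Pi.single i 1)) t := by
  have h1 : HasDerivAt (fun t : ℝ => ins i t y) (Pi.single i 1 : R3) t := by
    have h2 : (fun t : ℝ => ins i t y) = fun t => insL i y + t • (Pi.single i 1 : R3) := by
      funext t; exact ins_eq i t y
    rw [h2]
    have h3 := ((hasDerivAt_id t).smul_const (Pi.single i 1 : R3)).const_add (insL i y)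
    simpa using h3
  exact (hf _).hasFDerivAt.comp_hasDerivAt t h1

/-- derivative in the other directions -/
theorem hasFDerivAt_y (i : Fin 3) (f : R3 → ℝ) (hf : Differentiable ℝ f) (t : ℝ) (y : Y2) :
    HasFDerivAt (fun y => f (ins i t y)) ((fderiv ℝ f (ins i t y)).comp (insL i)) y := by
  have h1 : HasFDerivAt (fun y : Y2 => ins i t y) (insL i) y := by
    have h2 : (fun y : Y2 => ins i t y) = fun y => insL i y + t • (Pi.single i 1 : R3) := by
      funext y; exact ins_eq i t y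
    rw [h2]
    exact (insL i).hasFDerivAt.add_const _
  exact (hf _).hasFDerivAt.comp y h1

theorem fderiv_y (i : Fin 3) (f : R3 → ℝ) (hf : Differentiable ℝ f) (t : ℝ) (y : Y2) (j : Fin 2) :
    fderiv ℝ (fun y => f (ins i t y)) y (Pi.single j 1)
      = fderiv ℝ f (ins i t y) (Pi.single (i.succAbove j) 1) := by
  rw [(hasFDerivAt_y i f hf t y).fderiv, ContinuousLinearMap.comp_apply, insL_single]

/-! ### test functions -/

/-- smooth functions with compact support in `Ω` -/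
structure Cc (Ω : Set Y2) (ψ : Y2 → ℝ) : Prop where
  smooth : ContDiff ℝ ∞ ψ
  compact : HasCompactSupport ψ
  sub : tsupport ψ ⊆ Ω

theorem Cc.cont {Ω : Set Y2} {ψ : Y2 → ℝ} (h : Cc Ω ψ) : Continuous ψ := h.smooth.continuous

theorem Cc.zero {Ω : Set Y2} {ψ : Y2 → ℝ} (h : Cc Ω ψ) {y : Y2} (hy : y ∉ Ω) : ψ y = 0 :=
  image_eq_zero_of_notMem_tsupport fun h' => hy (h.sub h')

/-- multiplication by a smooth function on `Ω` -/
theorem Cc.mul {Ω : Set Y2} (ho : IsOpen Ω) {ψ g : Y2 → ℝ} (h : Cc Ω ψ) (hg : ContDiffOn ℝ ∞ g Ω) :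
    Cc Ω (fun y => ψ y * g y) := by
  have hsub : tsupport (fun y => ψ y * g y) ⊆ tsupport ψ := tsupport_mul_subset_left
  refine ⟨?_, h.compact.mul_right, hsub.trans h.sub⟩
  rw [contDiff_iff_contDiffAt]
  intro y
  by_cases hy : y ∈ Ω
  · exact h.smooth.contDiffAt.mul (hg.contDiffAt (ho.mem_nhds hy))
  · have h1 : y ∉ tsupport ψ := fun h' => hy (h.sub h')
    have h2 : (fun y => ψ y * g y) =ᶠ[𝓝 y] fun _ => (0 : ℝ) := by
      have h3 : (tsupport ψ)ᶜ ∈ 𝓝 y := (isClosed_tsupport ψ).isOpen_compl.mem_nhds h1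
      filter_upwards [h3] with z hz
      rw [image_eq_zero_of_notMem_tsupport hz, zero_mul]
    exact contDiffAt_const.congr_of_eventuallyEq h2

/-- cut-off functions -/
theorem exists_cut (Ω : Set Y2) (ho : IsOpen Ω) (K : Set Y2) (hK : IsCompact K) (hKΩ : K ⊆ Ω) :
    ∃ χ : Y2 → ℝ, Cc Ω χ ∧ (∀ y, χ y ∈ Icc (0 : ℝ) 1) ∧ ∀ y ∈ K, χ y = 1 := by
  obtain ⟨K', hK', hKK', hK'Ω⟩ := exists_compact_between hK ho hKΩ
  obtain ⟨f, hf1, hf0, hf01⟩ := exists_contMDiffMap_one_nhds_of_subset_interior (n := (⊤ : ℕ∞))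
    (modelWithCornersSelf ℝ Y2) (s := K) (t := K') hK.isClosed hKK'
  have hs : Function.support (f : Y2 → ℝ) ⊆ K' := by
    intro y hy
    by_contra h
    exact hy (hf0 y h)
  have hts : tsupport (f : Y2 → ℝ) ⊆ K' := closure_minimal hs hK'.isClosed
  refine ⟨f, ⟨?_, ?_, hts.trans hK'Ω⟩, hf01, fun y hy => ?_⟩
  · exact f.contMDiff.contDiff
  · exact HasCompactSupport.of_support_subset_isCompact hK' hs
  · exact (hf1.self_of_nhdsSet) y hy

/-! ### the quantities -/

/-- variation in the inserted direction -/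
noncomputable def NN (i : Fin 3) (f : R3 → ℝ) (y : Y2) : ℝ :=
  ∫ t in (0 : ℝ)..1, |fderiv ℝ f (ins i t y) (Pi.single i 1)|

/-- deviation from the tangential relation -/
noncomputable def TT (i : Fin 3) (f : R3 → ℝ) (l : Y2 → ℝ) (j : Fin 2) (y : Y2) : ℝ :=
  ∫ t in (0 : ℝ)..1, |fderiv ℝ f (ins i t y) (Pi.single (i.succAbove j) 1)
    - |fderiv ℝ f (ins i t y) (Pi.single i 1)| * (fderiv ℝ l y (Pi.single j 1) / 2)|

/-! ### product integrability -/

theorem int_prod (g : ℝ × Y2 → ℝ) (hg : Continuous g) (K : Set Y2) (hK : IsCompact K)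
    (h0 : ∀ t y, y ∉ K → g (t, y) = 0) :
    Integrable g ((volume.restrict (Ioc (0 : ℝ) 1)).prod (volume : Measure Y2)) := by
  have h1 : IntegrableOn g (Icc (0 : ℝ) 1 ×ˢ K)
      ((volume : Measure ℝ).prod (volume : Measure Y2)) :=
    hg.continuousOn.integrableOn_compact (isCompact_Icc.prod hK)
  have h2 : (volume.restrict (Ioc (0 : ℝ) 1)).prod (volume : Measure Y2)
      = ((volume : Measure ℝ).prod (volume : Measure Y2)).restrict (Ioc 0 1 ×ˢ univ) := by
    rw [← Measure.prod_restrict, Measure.restrict_univ]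
  rw [h2]
  have h3 : IntegrableOn g (Ioc (0 : ℝ) 1 ×ˢ K)
      ((volume : Measure ℝ).prod (volume : Measure Y2)) :=
    h1.mono_set (prod_mono Ioc_subset_Icc_self Subset.rfl)
  have h4 : IntegrableOn g (Ioc (0 : ℝ) 1 ×ˢ Kᶜ)
      ((volume : Measure ℝ).prod (volume : Measure Y2)) := by
    refine (integrableOn_zero).congr_fun ?_ (measurableSet_Ioc.prod hK.measurableSet.compl)
    rintro ⟨t, y⟩ ⟨-, hy⟩
    exact (h0 t y hy).symm
  have h5 := h3.union h4
  refine h5.mono_set ?_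
  rintro ⟨t, y⟩ ⟨ht, -⟩
  by_cases hy : y ∈ K
  · exact Or.inl ⟨ht, hy⟩
  · exact Or.inr ⟨ht, hy⟩

theorem swap_int (g : ℝ → Y2 → ℝ) (hg : Continuous (Function.uncurry g)) (K : Set Y2)
    (hK : IsCompact K) (h0 : ∀ t y, y ∉ K → g t y = 0) :
    ∫ t in (0 : ℝ)..1, ∫ y, g t y = ∫ y, ∫ t in (0 : ℝ)..1, g t y := by
  have h1 := int_prod (Function.uncurry g) hg K hK h0
  simp only [intervalIntegral.integral_of_le zero_le_one]
  exact integral_integral_swap h1

/-- integration by parts in the plane -/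
theorem ibp (i : Fin 3) (f : R3 → ℝ) (hf : ContDiff ℝ ∞ f) {Ω : Set Y2} {ψ : Y2 → ℝ}
    (hψ : Cc Ω ψ) (j : Fin 2) (η : ℝ → ℝ) (hη : Continuous η) :
    ∫ y, ψ y * ∫ t in (0 : ℝ)..1, η t * fderiv ℝ f (ins i t y) (Pi.single (i.succAbove j) 1)
      = - ∫ y, fderiv ℝ ψ y (Pi.single j 1) * ∫ t in (0 : ℝ)..1, η t * f (ins i t y) := by
  have hd : Differentiable ℝ f := hf.differentiable (by simp)
  have hψd : Differentiable ℝ ψ := hψ.smooth.differentiable (by simp)
  have hfc : Continuous (fun x => fderiv ℝ f x (Pi.single (i.succAbove j) 1)) :=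
    (hf.continuous_fderiv (by simp)).clm_apply continuous_const
  have hψc : Continuous (fun y => fderiv ℝ ψ y (Pi.single j 1)) :=
    (hψ.smooth.continuous_fderiv (by simp)).clm_apply continuous_const
  have hψ0 : ∀ y, y ∉ tsupport ψ → ψ y = 0 := fun y hy => image_eq_zero_of_notMem_tsupport hy
  have hψ0' : ∀ y, y ∉ tsupport ψ → fderiv ℝ ψ y (Pi.single j 1) = 0 := by
    intro y hy
    have : fderiv ℝ ψ y = 0 := by
      have h1 := (support_fderiv_subset ℝ (f := ψ))
      by_contra h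
      exact hy (h1 h)
    rw [this]; rfl
  have hK : IsCompact (tsupport ψ) := hψ.compact
  have h1 : ∀ t, ∫ y, ψ y * fderiv ℝ f (ins i t y) (Pi.single (i.succAbove j) 1)
      = - ∫ y, fderiv ℝ ψ y (Pi.single j 1) * f (ins i t y) := by
    intro t
    have hg : Differentiable ℝ (fun y => f (ins i t y)) := fun y =>
      (hasFDerivAt_y i f hd t y).differentiableAt
    have hcs : ∀ g : Y2 → ℝ, Continuous g → (∀ y, y ∉ tsupport ψ → g y = 0) → Integrable g := by
      intro g hg h0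
      refine hg.integrable_of_hasCompactSupport ?_
      exact HasCompactSupport.intro hK fun y hy => h0 y hy
    have h2 := integral_mul_fderiv_eq_neg_fderiv_mul_of_integrable (μ := (volume : Measure Y2))
      (f := ψ) (g := fun y => f (ins i t y)) (v := Pi.single j 1)
      (hcs _ (hψc.mul (hf.continuous.comp (ins_cont_y i t)))
        (fun y hy => by simp only [hψ0' y hy, zero_mul]))
      (hcs _ (hψ.cont.mul (by
        have : (fun x => fderiv ℝ (fun y => f (ins i t y)) x (Pi.single j 1))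
            = fun y => fderiv ℝ f (ins i t y) (Pi.single (i.succAbove j) 1) := by
          funext y; exact fderiv_y i f hd t y j
        rw [this]
        exact hfc.comp (ins_cont_y i t))) (fun y hy => by simp only [hψ0 y hy, zero_mul]))
      (hcs _ (hψ.cont.mul (hf.continuous.comp (ins_cont_y i t)))
        (fun y hy => by simp only [hψ0 y hy, zero_mul]))
      (fun y _ => hψd y) (fun y _ => hg y)
    rw [← h2]
    congr 1
    funext y
    rw [fderiv_y i f hd t y j]
  have e1 : ∀ y, ψ y * ∫ t in (0 : ℝ)..1, η t * fderiv ℝ f (ins i t y) (Pi.single (i.succAbove j) 1)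
      = ∫ t in (0 : ℝ)..1, η t * (ψ y * fderiv ℝ f (ins i t y) (Pi.single (i.succAbove j) 1)) := by
    intro y
    rw [← intervalIntegral.integral_const_mul]
    congr 1
    funext t
    ring
  have e2 : ∀ y, fderiv ℝ ψ y (Pi.single j 1) * ∫ t in (0 : ℝ)..1, η t * f (ins i t y)
      = ∫ t in (0 : ℝ)..1, η t * (fderiv ℝ ψ y (Pi.single j 1) * f (ins i t y)) := by
    intro y
    rw [← intervalIntegral.integral_const_mul]
    congr 1
    funext t
    ring
  simp only [e1, e2]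
  rw [← swap_int (fun t y => η t * (ψ y * fderiv ℝ f (ins i t y) (Pi.single (i.succAbove j) 1)))
    ((hη.comp continuous_fst).mul ((hψ.cont.comp continuous_snd).mul (hfc.comp (ins_continuous i))))
    _ hK (fun t y hy => by simp only [hψ0 y hy, zero_mul, mul_zero]),
    ← swap_int (fun t y => η t * (fderiv ℝ ψ y (Pi.single j 1) * f (ins i t y)))
    ((hη.comp continuous_fst).mul ((hψc.comp continuous_snd).mul
      (hf.continuous.comp (ins_continuous i))))
    _ hK (fun t y hy => by simp only [hψ0' y hy, zero_mul, mul_zero]),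
    ← intervalIntegral.integral_neg]
  congr 1
  funext t
  rw [integral_const_mul, integral_const_mul, h1 t]
  ring

/-! ### pointwise inequalities -/

theorem pw1 (a b1 b2 g1 g2 : ℝ) :
    (2 * a + b1 * g1 + b2 * g2) / √(4 + (g1 ^ 2 + g2 ^ 2)) ≤ √(a ^ 2 + (b1 ^ 2 + b2 ^ 2)) := by
  have hw : 0 < √(4 + (g1 ^ 2 + g2 ^ 2)) := Real.sqrt_pos.2 (by positivity)
  rw [div_le_iff₀ hw, ← Real.sqrt_mul (by positivity)]
  refine Real.le_sqrt_of_sq_le ?_
  nlinarith [sq_nonneg (2 * b1 - a * g1), sq_nonneg (2 * b2 - a * g2),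
    sq_nonneg (b1 * g2 - b2 * g1)]

theorem pw2 (a b1 b2 g1 g2 ε : ℝ) (hε : 0 < ε) :
    |b1 - a * (g1 / 2)| ≤ (1 + |g1| / 2) * (ε * √(a ^ 2 + (b1 ^ 2 + b2 ^ 2)) +
      (√(a ^ 2 + (b1 ^ 2 + b2 ^ 2)) -
        (2 * a + b1 * g1 + b2 * g2) / √(4 + (g1 ^ 2 + g2 ^ 2))) / (2 * ε)) := by
  set w := √(4 + (g1 ^ 2 + g2 ^ 2)) with hw
  have hw0 : 0 < w := Real.sqrt_pos.2 (by positivity)
  have hw2 : w ^ 2 = 4 + (g1 ^ 2 + g2 ^ 2) := Real.sq_sqrt (by positivity)
  set v := √(a ^ 2 + (b1 ^ 2 + b2 ^ 2)) with hv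
  have hv0 : 0 ≤ v := Real.sqrt_nonneg _
  have hv2 : v ^ 2 = a ^ 2 + (b1 ^ 2 + b2 ^ 2) := Real.sq_sqrt (by positivity)
  set s := (2 * a + b1 * g1 + b2 * g2) / w with hs
  have hsw : s * w = 2 * a + b1 * g1 + b2 * g2 := div_mul_cancel₀ _ hw0.ne'
  have hsv : s ≤ v := pw1 a b1 b2 g1 g2
  have hsv' : -v ≤ s := by
    have := pw1 (-a) (-b1) (-b2) g1 g2
    have e1 : (2 * -a + -b1 * g1 + -b2 * g2) / √(4 + (g1 ^ 2 + g2 ^ 2)) = -s := by
      rw [← hw, hs, ← neg_div]; congr 1; ring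
    have e2 : (-a) ^ 2 + ((-b1) ^ 2 + (-b2) ^ 2) = a ^ 2 + (b1 ^ 2 + b2 ^ 2) := by ring
    rw [e1, e2] at this
    linarith
  -- the rest `r = √(v² - s²)`
  set r := √(v ^ 2 - s ^ 2) with hr
  have hvs : 0 ≤ v ^ 2 - s ^ 2 := by nlinarith
  have hr0 : 0 ≤ r := Real.sqrt_nonneg _
  have hr2 : r ^ 2 = v ^ 2 - s ^ 2 := Real.sq_sqrt hvs
  -- `|v - s e|² = v² - s²`
  have hsum : (a - s * (2 / w)) ^ 2 + (b1 - s * (g1 / w)) ^ 2 + (b2 - s * (g2 / w)) ^ 2 = r ^ 2 := by
    rw [hr2, hv2]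
    have h1 : (a - s * (2 / w)) ^ 2 + (b1 - s * (g1 / w)) ^ 2 + (b2 - s * (g2 / w)) ^ 2
        = a ^ 2 + (b1 ^ 2 + b2 ^ 2) - 2 * s * ((2 * a + b1 * g1 + b2 * g2) / w)
          + s ^ 2 * ((4 + (g1 ^ 2 + g2 ^ 2)) / w ^ 2) := by
      field_simp
      ring
    rw [h1, ← hw2, div_self (by positivity), ← hs]
    ring
  have ha : |a - s * (2 / w)| ≤ r := by
    refine abs_le_of_sq_le_sq ?_ hr0
    nlinarith [sq_nonneg (b1 - s * (g1 / w)), sq_nonneg (b2 - s * (g2 / w))]
  have hb : |b1 - s * (g1 / w)| ≤ r := by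
    refine abs_le_of_sq_le_sq ?_ hr0
    nlinarith [sq_nonneg (a - s * (2 / w)), sq_nonneg (b2 - s * (g2 / w))]
  have hmain : |b1 - a * (g1 / 2)| ≤ (1 + |g1| / 2) * r := by
    have h2 : b1 - a * (g1 / 2) = (b1 - s * (g1 / w)) - (g1 / 2) * (a - s * (2 / w)) := by
      field_simp
      ring
    rw [h2]
    calc |(b1 - s * (g1 / w)) - (g1 / 2) * (a - s * (2 / w))|
        ≤ |b1 - s * (g1 / w)| + |(g1 / 2) * (a - s * (2 / w))| := abs_sub _ _
      _ = |b1 - s * (g1 / w)| + |g1| / 2 * |a - s * (2 / w)| := by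
          rw [abs_mul, abs_div, abs_two]
      _ ≤ r + |g1| / 2 * r := by
          have := mul_le_mul_of_nonneg_left ha (by positivity : 0 ≤ |g1| / 2)
          linarith
      _ = _ := by ring
  have hrε : r ≤ ε * v + (v - s) / (2 * ε) := by
    have h3 : r ^ 2 ≤ (ε * v + (v - s) / (2 * ε)) ^ 2 := by
      have h4 : (ε * v + (v - s) / (2 * ε)) ^ 2
          = (ε * v - (v - s) / (2 * ε)) ^ 2 + 2 * v * (v - s) := by
        field_simp
        ring
      rw [h4, hr2]
      nlinarith [sq_nonneg (ε * v - (v - s) / (2 * ε))]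
    have h5 : 0 ≤ ε * v + (v - s) / (2 * ε) := by
      have : 0 ≤ v - s := by linarith
      positivity
    exact le_of_sq_le_sq h3 h5 |>.trans le_rfl
  calc |b1 - a * (g1 / 2)| ≤ (1 + |g1| / 2) * r := hmain
    _ ≤ _ := mul_le_mul_of_nonneg_left hrε (by positivity)

end P232.Rd
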