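import Vale.Agent.P232.Defs

/-!
# P232 [INV1]: one dimensional lemma. C¹ periodic functions converging a.e. to the indicator of a
periodic set with total variation tending to `2`: the set is an arc.
-/

open MeasureTheory Set Filter Topology
open scoped ENNReal ContDiff

namespace P232.Inv

/-- an arc of the circle, seen as a periodic subset of `ℝ` -/
def Arc (b l : ℝ) : Set ℝ := {y | ‖((y - b : ℝ) : AddCircle (1 : ℝ))‖ < l}

/-- hypotheses on a sequence of functions of one variable -/
structure Seq1 (g : ℕ → ℝ → ℝ) (A : Set ℝ) : Prop where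
  smooth : ∀ n, ContDiff ℝ 1 (g n)
  per : ∀ n x, g n (x + 1) = g n x
  mem : ∀ n x, g n x ∈ Icc (0 : ℝ) 1
  meas : MeasurableSet A
  Aper : ∀ x, x + 1 ∈ A ↔ x ∈ A
  lim : ∀ᵐ y, Tendsto (fun n => g n y) atTop (𝓝 (A.indicator 1 y))

/-- total variation over a period -/
noncomputable def tv (g : ℝ → ℝ) : ℝ := ∫ y in (0 : ℝ)..1, |deriv g y|

theorem deriv_per (g : ℝ → ℝ) (hp : ∀ x, g (x + 1) = g x) (x : ℝ) :
    deriv g (x + 1) = deriv g x := by
  have h : (fun y => g (y + 1)) = g := funext hp
  have h2 := deriv_comp_add_const (f := g) 1 x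
  rw [h] at h2
  exact h2.symm

theorem tv_shift (g : ℝ → ℝ) (hp : ∀ x, g (x + 1) = g x) (t : ℝ) :
    tv g = ∫ y in t..(t + 1), |deriv g y| := by
  have hper : Function.Periodic (fun y => |deriv g y|) 1 := fun y => by
    show |deriv g (y + 1)| = |deriv g y|
    rw [deriv_per g hp]
  have := hper.intervalIntegral_add_eq 0 t
  rw [zero_add] at this
  exact this

theorem cont_deriv (g : ℝ → ℝ) (hg : ContDiff ℝ 1 g) : Continuous (deriv g) :=
  hg.continuous_deriv le_rfl

theorem ftc (g : ℝ → ℝ) (hg : ContDiff ℝ 1 g) (a b : ℝ) :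
    ∫ y in a..b, deriv g y = g b - g a :=
  intervalIntegral.integral_deriv_eq_sub (fun x _ => (hg.differentiable one_ne_zero) x)
    ((cont_deriv g hg).intervalIntegrable _ _)

/-- positive variation bound -/
theorem le_pos (g : ℝ → ℝ) (hg : ContDiff ℝ 1 g) (a b : ℝ) (hab : a ≤ b) :
    |g b - g a| ≤ ∫ y in a..b, |deriv g y| := by
  rw [← ftc g hg]
  exact intervalIntegral.abs_integral_le_integral_abs hab

/-- a periodic set which is null in a period is null -/
theorem null_of_period (N : Set ℝ) (hN : ∀ x, x + 1 ∈ N ↔ x ∈ N) (t : ℝ)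
    (h : volume (N ∩ Ioo t (t + 1)) = 0) : volume N = 0 := by
  have hN' : ∀ (k : ℕ) (x : ℝ), x + k ∈ N ↔ x ∈ N := by
    intro k
    induction k with
    | zero => intro x; simp
    | succ k ih => intro x; rw [Nat.cast_succ, ← add_assoc, hN, ih]
  have hNz : ∀ (k : ℤ) (x : ℝ), x + k ∈ N ↔ x ∈ N := by
    intro k x
    obtain ⟨m, rfl | rfl⟩ := k.eq_nat_or_neg
    · exact_mod_cast hN' m x
    · rw [← hN' m (x + ((-(m : ℤ) : ℤ) : ℝ))]
      push_cast
      rw [neg_add_cancel_right]
  have h2 : volume (N ∩ Ico t (t + 1)) = 0 := by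
    have : N ∩ Ico t (t + 1) ⊆ (N ∩ Ioo t (t + 1)) ∪ {t} := by
      rintro x ⟨hx, hx1, hx2⟩
      rcases hx1.eq_or_lt with h | h
      · right; rw [mem_singleton_iff, h]
      · left; exact ⟨hx, h, hx2⟩
    refine measure_mono_null this (measure_union_null h ?_)
    exact Real.volume_singleton
  have h3 : N ⊆ ⋃ k : ℤ, (fun x : ℝ => x + k) ⁻¹' (N ∩ Ico t (t + 1)) := by
    intro x hx
    obtain ⟨k, hk, -⟩ := existsUnique_add_zsmul_mem_Ico (one_pos : (0 : ℝ) < 1) x t
    refine mem_iUnion.2 ⟨k, ?_⟩
    have e : k • (1 : ℝ) = (k : ℝ) := by simp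
    rw [e] at hk
    exact ⟨(hNz k x).2 hx, hk⟩
  refine measure_mono_null h3 (measure_iUnion_null fun k => ?_)
  rw [measure_preimage_add_right, h2]

/-- the measure of a periodic set in a period does not depend on the period -/
theorem measure_period (A : Set ℝ) (hA : MeasurableSet A) (hAp : ∀ x, x + 1 ∈ A ↔ x ∈ A)
    (t : ℝ) : volume (A ∩ Ioc t (t + 1)) = volume (A ∩ Ioc 0 1) := by
  have hf : Function.Periodic (A.indicator (fun _ => (1 : ℝ))) 1 := by
    intro x
    by_cases h : x ∈ A
    · rw [indicator_of_mem h, indicator_of_mem ((hAp x).2 h)]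
    · rw [indicator_of_notMem h, indicator_of_notMem (fun h' => h ((hAp x).1 h'))]
  have h1 := hf.intervalIntegral_add_eq t 0
  rw [intervalIntegral.integral_of_le (by linarith), intervalIntegral.integral_of_le (by linarith),
    setIntegral_indicator hA, setIntegral_indicator hA, zero_add] at h1
  simp only [integral_const, smul_eq_mul, mul_one, measureReal_restrict_apply_univ] at h1
  rw [inter_comm, inter_comm A]
  have f1 : volume (Ioc t (t + 1) ∩ A) ≠ ⊤ :=
    ne_top_of_le_ne_top (by simp) (measure_mono inter_subset_left)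
  have f2 : volume (Ioc (0 : ℝ) 1 ∩ A) ≠ ⊤ :=
    ne_top_of_le_ne_top (by simp) (measure_mono inter_subset_left)
  rw [Measure.real, Measure.real] at h1
  exact (ENNReal.toReal_eq_toReal_iff' f1 f2).1 h1

theorem good_pts (g : ℕ → ℝ → ℝ) (A : Set ℝ) (h : Seq1 g A)
    (h0 : volume (A ∩ Ioo 0 1) ≠ 0) (h1 : volume (A ∩ Ioo 0 1) < 1) :
    ∃ y0 y1 : ℝ, y0 < y1 ∧ y1 < y0 + 1 ∧ y0 ∈ A ∧ y1 ∉ A ∧
      Tendsto (fun n => g n y0) atTop (𝓝 1) ∧ Tendsto (fun n => g n y1) atTop (𝓝 0) := by
  have hae := h.lim
  rw [ae_iff] at hae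
  set N := {y | ¬ Tendsto (fun n => g n y) atTop (𝓝 (A.indicator 1 y))} with hN
  have e0 : ∃ a ∈ A ∩ Ioo 0 1, a ∉ N := by
    by_contra hcon
    push Not at hcon
    exact h0 (measure_mono_null hcon hae)
  have e1 : ∃ b ∈ Ioo (0 : ℝ) 1, b ∉ A ∧ b ∉ N := by
    by_contra hcon
    push Not at hcon
    have hsub : Ioo (0 : ℝ) 1 ⊆ (A ∩ Ioo 0 1) ∪ N := by
      intro b hb
      by_cases hbA : b ∈ A
      · exact Or.inl ⟨hbA, hb⟩
      · exact Or.inr (hcon b hb hbA)
    have := (measure_mono hsub).trans (measure_union_le (μ := volume) _ _)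
    rw [hae, add_zero, Real.volume_Ioo] at this
    norm_num at this
    exact absurd h1 (not_lt.2 this)
  obtain ⟨a, ⟨haA, ha⟩, haN⟩ := e0
  obtain ⟨b, hb, hbA, hbN⟩ := e1
  have ha' : Tendsto (fun n => g n a) atTop (𝓝 1) := by
    have : Tendsto (fun n => g n a) atTop (𝓝 (A.indicator 1 a)) := by
      by_contra hc; exact haN hc
    rwa [indicator_of_mem haA] at this
  have hb' : Tendsto (fun n => g n b) atTop (𝓝 0) := by
    have : Tendsto (fun n => g n b) atTop (𝓝 (A.indicator 1 b)) := by
      by_contra hc; exact hbN hc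
    rwa [indicator_of_notMem hbA] at this
  rcases lt_trichotomy a b with hab | hab | hab
  · exact ⟨a, b, hab, by linarith [hb.2, ha.1], haA, hbA, ha', hb'⟩
  · exact absurd (hab ▸ haA) hbA
  · refine ⟨a, b + 1, by linarith [ha.2, hb.1], by linarith, haA, ?_, ha', ?_⟩
    · rwa [h.Aper]
    · simpa only [h.per] using hb'

theorem tv_lower (g : ℕ → ℝ → ℝ) (A : Set ℝ) (h : Seq1 g A)
    (h0 : volume (A ∩ Ioo 0 1) ≠ 0) (h1 : volume (A ∩ Ioo 0 1) < 1) (ε : ℝ) (hε : 0 < ε) :
    ∀ᶠ n in atTop, 2 - ε ≤ tv (g n) := by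
  obtain ⟨y0, y1, h01, h10, -, -, ht0, ht1⟩ := good_pts g A h h0 h1
  have e0 : ∀ᶠ n in atTop, 1 - ε / 4 < g n y0 := ht0.eventually (lt_mem_nhds (by linarith))
  have e1 : ∀ᶠ n in atTop, g n y1 < ε / 4 := ht1.eventually (gt_mem_nhds (by linarith))
  filter_upwards [e0, e1] with n hn0 hn1
  rw [tv_shift (g n) (h.per n) y0]
  have hc : Continuous (fun y => |deriv (g n) y|) := (cont_deriv _ (h.smooth n)).abs
  rw [← intervalIntegral.integral_add_adjacent_intervals (b := y1) (hc.intervalIntegrable _ _)
    (hc.intervalIntegrable _ _)]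
  have k1 := le_pos (g n) (h.smooth n) y0 y1 h01.le
  have k2 := le_pos (g n) (h.smooth n) y1 (y0 + 1) h10.le
  rw [h.per] at k2
  have k3 := neg_abs_le (g n y1 - g n y0)
  have k4 := le_abs_self (g n y0 - g n y1)
  linarith

/-- structure theorem -/
theorem arc_of_tv (g : ℕ → ℝ → ℝ) (A : Set ℝ) (h : Seq1 g A) (L : ℝ) (hL0 : 0 < L)
    (hL1 : L < 1 / 2) (hA : volume (A ∩ Ioo 0 1) = ENNReal.ofReal (2 * L))
    (htv : Tendsto (fun n => tv (g n)) atTop (𝓝 2)) :
    ∃ b : ℝ, (∀ᵐ y, y ∈ A ↔ y ∈ Arc b L) ∧
      ∀ ψ : ℝ → ℝ, ContDiff ℝ 1 ψ → (∀ y, ψ (y + 1) = ψ y) →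
        Tendsto (fun n => ∫ y in (0 : ℝ)..1, ψ y * |deriv (g n) y|) atTop
          (𝓝 (ψ (b - L) + ψ (b + L))) := by
  have h0 : volume (A ∩ Ioo 0 1) ≠ 0 := by
    rw [hA]; simp; linarith
  have h1 : volume (A ∩ Ioo 0 1) < 1 := by
    rw [hA, ← ENNReal.ofReal_one]
    exact (ENNReal.ofReal_lt_ofReal_iff one_pos).2 (by linarith)
  obtain ⟨y0, y1, h01, h10, hy0, hy1, ht0, ht1⟩ := good_pts g A h h0 h1
  have hcd : ∀ n, Continuous (deriv (g n)) := fun n => cont_deriv _ (h.smooth n)
  -- the two defects
  set s : ℕ → ℝ := fun n => ∫ y in y0..y1, (|deriv (g n) y| + deriv (g n) y) with hs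
  set t : ℕ → ℝ := fun n => ∫ y in y1..(y0 + 1), (|deriv (g n) y| - deriv (g n) y) with ht
  have hs0 : ∀ n, 0 ≤ s n := fun n =>
    intervalIntegral.integral_nonneg h01.le fun y _ => by linarith [neg_abs_le (deriv (g n) y)]
  have ht0' : ∀ n, 0 ≤ t n := fun n =>
    intervalIntegral.integral_nonneg h10.le fun y _ => by linarith [le_abs_self (deriv (g n) y)]
  have hsum : ∀ n, s n + t n = tv (g n) - 2 * (g n y0 - g n y1) := by
    intro n
    have e1 : s n = (∫ y in y0..y1, |deriv (g n) y|) + (g n y1 - g n y0) := by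
      rw [hs, ← ftc _ (h.smooth n)]
      exact intervalIntegral.integral_add ((hcd n).abs.intervalIntegrable _ _)
        ((hcd n).intervalIntegrable _ _)
    have e2 : t n = (∫ y in y1..(y0 + 1), |deriv (g n) y|) - (g n (y0 + 1) - g n y1) := by
      rw [ht, ← ftc _ (h.smooth n)]
      exact intervalIntegral.integral_sub ((hcd n).abs.intervalIntegrable _ _)
        ((hcd n).intervalIntegrable _ _)
    have e3 : (∫ y in y0..y1, |deriv (g n) y|) + (∫ y in y1..(y0 + 1), |deriv (g n) y|)
        = ∫ y in y0..(y0 + 1), |deriv (g n) y| :=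
      intervalIntegral.integral_add_adjacent_intervals
        ((hcd n).abs.intervalIntegrable _ _) ((hcd n).abs.intervalIntegrable _ _)
    rw [e1, e2, h.per, tv_shift (g n) (h.per n) y0, ← e3]
    ring
  have hst : Tendsto (fun n => s n + t n) atTop (𝓝 0) := by
    have h3 := htv.sub ((ht0.sub ht1).const_mul 2)
    simp only [hsum]
    convert h3 using 2
    norm_num
  have hs1 : Tendsto s atTop (𝓝 0) :=
    squeeze_zero hs0 (fun n => le_add_of_nonneg_right (ht0' n)) hst
  have ht1' : Tendsto t atTop (𝓝 0) :=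
    squeeze_zero ht0' (fun n => le_add_of_nonneg_left (hs0 n)) hst
  -- monotonicity at good points
  have mono1 : ∀ a b, y0 ≤ a → a ≤ b → b ≤ y1 →
      Tendsto (fun n => g n a) atTop (𝓝 (A.indicator 1 a)) →
      Tendsto (fun n => g n b) atTop (𝓝 (A.indicator 1 b)) →
      A.indicator (1 : ℝ → ℝ) b ≤ A.indicator 1 a := by
    intro a b ha hab hb hla hlb
    have h3 : ∀ n, g n b - g n a ≤ s n := by
      intro n
      rw [← ftc _ (h.smooth n)]
      have hc : Continuous fun y => |deriv (g n) y| + deriv (g n) y := (hcd n).abs.add (hcd n)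
      calc ∫ y in a..b, deriv (g n) y ≤ ∫ y in a..b, (|deriv (g n) y| + deriv (g n) y) :=
            intervalIntegral.integral_mono_on hab ((hcd n).intervalIntegrable _ _)
              (hc.intervalIntegrable _ _) fun y _ => by linarith [abs_nonneg (deriv (g n) y)]
        _ ≤ s n := by
            refine intervalIntegral.integral_mono_interval ha hab hb ?_ (hc.intervalIntegrable _ _)
            exact Eventually.of_forall fun y => by
              show 0 ≤ |deriv (g n) y| + deriv (g n) y
              linarith [neg_abs_le (deriv (g n) y)]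
    have := le_of_tendsto_of_tendsto' (hlb.sub hla) hs1 h3
    linarith
  have mono2 : ∀ a b, y1 ≤ a → a ≤ b → b ≤ y0 + 1 →
      Tendsto (fun n => g n a) atTop (𝓝 (A.indicator 1 a)) →
      Tendsto (fun n => g n b) atTop (𝓝 (A.indicator 1 b)) →
      A.indicator (1 : ℝ → ℝ) a ≤ A.indicator 1 b := by
    intro a b ha hab hb hla hlb
    have h3 : ∀ n, g n a - g n b ≤ t n := by
      intro n
      have e : g n a - g n b = ∫ y in a..b, - deriv (g n) y := by
        rw [intervalIntegral.integral_neg, ftc _ (h.smooth n)]; ring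
      rw [e]
      have hc : Continuous fun y => |deriv (g n) y| - deriv (g n) y := (hcd n).abs.sub (hcd n)
      calc ∫ y in a..b, - deriv (g n) y ≤ ∫ y in a..b, (|deriv (g n) y| - deriv (g n) y) :=
            intervalIntegral.integral_mono_on hab ((hcd n).neg.intervalIntegrable _ _)
              (hc.intervalIntegrable _ _) fun y _ => by linarith [abs_nonneg (deriv (g n) y)]
        _ ≤ t n := by
            refine intervalIntegral.integral_mono_interval ha hab hb ?_ (hc.intervalIntegrable _ _)
            exact Eventually.of_forall fun y => by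
              show 0 ≤ |deriv (g n) y| - deriv (g n) y
              linarith [le_abs_self (deriv (g n) y)]
    have := le_of_tendsto_of_tendsto' (hla.sub hlb) ht1' h3
    linarith
  -- good points
  set Gd : Set ℝ := {y | Tendsto (fun n => g n y) atTop (𝓝 (A.indicator 1 y))} with hGd
  have hGae : ∀ᵐ y, y ∈ Gd := h.lim
  have hy0G : y0 ∈ Gd := by
    show Tendsto (fun n => g n y0) atTop (𝓝 (A.indicator 1 y0))
    rw [indicator_of_mem hy0]; exact ht0
  have hy0A' : y0 + 1 ∈ A := (h.Aper y0).2 hy0
  have hy0G' : y0 + 1 ∈ Gd := by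
    show Tendsto (fun n => g n (y0 + 1)) atTop (𝓝 (A.indicator 1 (y0 + 1)))
    rw [indicator_of_mem hy0A', Pi.one_apply]
    simpa only [h.per] using ht0
  set S : Set ℝ := {y | y ∈ Icc y0 y1 ∧ y ∈ Gd ∧ y ∈ A} with hS
  have hSne : y0 ∈ S := ⟨⟨le_rfl, h01.le⟩, hy0G, hy0⟩
  have hSb : BddAbove S := ⟨y1, fun y hy => hy.1.2⟩
  set u := sSup S with hu
  have hu0 : y0 ≤ u := le_csSup hSb hSne
  have hu1 : u ≤ y1 := csSup_le ⟨y0, hSne⟩ fun y hy => hy.1.2
  set S' : Set ℝ := {y | y ∈ Icc y1 (y0 + 1) ∧ y ∈ Gd ∧ y ∈ A} with hS'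
  have hSne' : y0 + 1 ∈ S' := ⟨⟨h10.le, le_rfl⟩, hy0G', hy0A'⟩
  have hSb' : BddBelow S' := ⟨y1, fun y hy => hy.1.1⟩
  set v := sInf S' with hv
  have hv0 : v ≤ y0 + 1 := csInf_le hSb' hSne'
  have hv1 : y1 ≤ v := le_csInf ⟨y0 + 1, hSne'⟩ fun y hy => hy.1.1
  have hAu : ∀ y ∈ Gd, y0 < y → y < y1 → y ≠ u → (y ∈ A ↔ y < u) := by
    intro y hyG hya hyb hyu
    constructor
    · intro hyA
      exact lt_of_le_of_ne (le_csSup hSb ⟨⟨hya.le, hyb.le⟩, hyG, hyA⟩) hyu
    · intro hlt
      obtain ⟨y', hy', hyy'⟩ := exists_lt_of_lt_csSup ⟨y0, hSne⟩ hlt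
      have := mono1 y y' hya.le hyy'.le hy'.1.2 hyG hy'.2.1
      rw [indicator_of_mem hy'.2.2] at this
      by_contra hc
      rw [indicator_of_notMem hc] at this
      norm_num at this
  have hAv : ∀ y ∈ Gd, y1 < y → y < y0 + 1 → y ≠ v → (y ∈ A ↔ v < y) := by
    intro y hyG hya hyb hyu
    constructor
    · intro hyA
      exact lt_of_le_of_ne (csInf_le hSb' ⟨⟨hya.le, hyb.le⟩, hyG, hyA⟩) (Ne.symm hyu)
    · intro hlt
      obtain ⟨y', hy', hyy'⟩ := exists_lt_of_csInf_lt ⟨y0 + 1, hSne'⟩ hlt
      have := mono2 y' y hy'.1.1 hyy'.le hyb.le hy'.2.1 hyG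
      rw [indicator_of_mem hy'.2.2] at this
      by_contra hc
      rw [indicator_of_notMem hc] at this
      norm_num at this
  have hne : ∀ c : ℝ, ∀ᵐ y : ℝ, y ≠ c := fun c => by
    rw [ae_iff]; simp
  -- A in the period
  have hAae : ∀ᵐ y, y ∈ Ioo y0 (y0 + 1) → (y ∈ A ↔ (y < u ∨ v < y)) := by
    filter_upwards [hGae, hne u, hne v, hne y1] with y h1 h2 h3 h4 h5
    rcases lt_or_gt_of_ne h4 with h6 | h6
    · rw [hAu y h1 h5.1 h6 h2]
      constructor
      · exact Or.inl
      · rintro (h7 | h7)
        · exact h7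
        · linarith
    · rw [hAv y h1 h6 h5.2 h3]
      constructor
      · exact Or.inr
      · rintro (h7 | h7)
        · linarith
        · exact h7
  -- measure
  have hmeas : 2 * L = 1 + u - v := by
    have e1 : volume (A ∩ Ioc y0 (y0 + 1)) = ENNReal.ofReal (2 * L) := by
      rw [measure_period A h.meas h.Aper, ← hA]
      refine measure_congr ?_
      exact ae_eq_set_inter (ae_eq_refl _) Ioo_ae_eq_Ioc.symm
    have e2 : volume (A ∩ Ioc y0 (y0 + 1)) = volume (Ioo y0 u ∪ Ioo v (y0 + 1)) := by
      refine measure_congr ?_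
      have e3 : (A ∩ Ioc y0 (y0 + 1) : Set ℝ) =ᵐ[volume] (A ∩ Ioo y0 (y0 + 1) : Set ℝ) :=
        ae_eq_set_inter (ae_eq_refl _) Ioo_ae_eq_Ioc.symm
      refine e3.trans ?_
      filter_upwards [hAae] with y hy
      refine propext ?_
      show (y ∈ A ∩ Ioo y0 (y0 + 1)) ↔ (y ∈ Ioo y0 u ∪ Ioo v (y0 + 1))
      constructor
      · rintro ⟨h1, h2⟩
        rcases (hy h2).1 h1 with h3 | h3
        · exact Or.inl ⟨h2.1, h3⟩
        · exact Or.inr ⟨h3, h2.2⟩
      · rintro (h1 | h1)
        · have h2 : y ∈ Ioo y0 (y0 + 1) := ⟨h1.1, by linarith [h1.2]⟩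
          exact ⟨(hy h2).2 (Or.inl h1.2), h2⟩
        · have h2 : y ∈ Ioo y0 (y0 + 1) := ⟨by linarith [h1.1], h1.2⟩
          exact ⟨(hy h2).2 (Or.inr h1.1), h2⟩
    rw [e2, measure_union _ measurableSet_Ioo, Real.volume_Ioo, Real.volume_Ioo,
      ← ENNReal.ofReal_add (by linarith) (by linarith)] at e1
    · have e4 := (ENNReal.ofReal_eq_ofReal_iff (by linarith) (by linarith)).1 e1
      linarith
    · rw [Set.disjoint_left]
      rintro y hy1 hy2
      linarith [hy1.2, hy2.1]
  refine ⟨(u + v - 1) / 2, ?_, ?_⟩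
  · -- a.e. equality
    have hArcper : ∀ x, x + 1 ∈ Arc ((u + v - 1) / 2) L ↔ x ∈ Arc ((u + v - 1) / 2) L := by
      intro x
      show ‖((x + 1 - (u + v - 1) / 2 : ℝ) : AddCircle (1 : ℝ))‖ < L ↔
        ‖((x - (u + v - 1) / 2 : ℝ) : AddCircle (1 : ℝ))‖ < L
      have : (x + 1 - (u + v - 1) / 2 : ℝ) = (x - (u + v - 1) / 2) + 1 := by ring
      rw [this, AddCircle.coe_add, AddCircle.coe_period, add_zero]
    have hnull : volume {y | ¬ (y ∈ A ↔ y ∈ Arc ((u + v - 1) / 2) L)} = 0 := by
      refine null_of_period _ ?_ y0 ?_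
      · intro x
        show ¬ (x + 1 ∈ A ↔ x + 1 ∈ Arc ((u + v - 1) / 2) L) ↔
          ¬ (x ∈ A ↔ x ∈ Arc ((u + v - 1) / 2) L)
        rw [h.Aper, hArcper]
      · have hz : ∀ᵐ y, ¬ (y ∈ {y | ¬ (y ∈ A ↔ y ∈ Arc ((u + v - 1) / 2) L)} ∩
            Ioo y0 (y0 + 1)) := by
          filter_upwards [hAae, hne u, hne v] with y h1 h2 h3 h4
          obtain ⟨h5, h6⟩ := h4
          refine h5 ?_
          rw [h1 h6]
          have key : ‖((y - (u + v - 1) / 2 : ℝ) : AddCircle (1 : ℝ))‖
              = |(y - (u + v - 1) / 2) - round (y - (u + v - 1) / 2)| := by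
            rw [AddCircle.norm_eq]; simp
          show (y < u ∨ v < y) ↔ ‖((y - (u + v - 1) / 2 : ℝ) : AddCircle (1 : ℝ))‖ < L
          constructor
          · rintro (h7 | h7)
            · calc ‖((y - (u + v - 1) / 2 : ℝ) : AddCircle (1 : ℝ))‖
                  ≤ |y - (u + v - 1) / 2| := by
                    rw [key]; simpa using round_le (y - (u + v - 1) / 2) 0
                _ < L := by rw [abs_lt]; constructor <;> linarith [h6.1]
            · calc ‖((y - (u + v - 1) / 2 : ℝ) : AddCircle (1 : ℝ))‖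
                  ≤ |y - (u + v - 1) / 2 - 1| := by
                    rw [key]; simpa using round_le (y - (u + v - 1) / 2) 1
                _ < L := by rw [abs_lt]; constructor <;> linarith [h6.2]
          · intro h7
            by_contra hc
            push Not at hc
            rw [key] at h7
            set r := round (y - (u + v - 1) / 2) with hr
            have h8 : (y - (u + v - 1) / 2) - r < L := (abs_lt.1 h7).2
            have h9 : -L < (y - (u + v - 1) / 2) - r := (abs_lt.1 h7).1
            have h10 : (0 : ℝ) < r := by linarith [hc.1]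
            have h11 : (r : ℝ) < 1 := by linarith [hc.2]
            have h12 : (0 : ℤ) < r := by exact_mod_cast h10
            have h13 : r < (1 : ℤ) := by exact_mod_cast h11
            omega
        exact measure_eq_zero_iff_ae_notMem.2 hz
    rw [ae_iff]; exact hnull
  · intro ψ hψ hψp
    have hψc : Continuous ψ := hψ.continuous
    have hψd : Continuous (deriv ψ) := cont_deriv ψ hψ
    have eL : (u + v - 1) / 2 - L = v - 1 := by linarith
    have eR : (u + v - 1) / 2 + L = u := by linarith
    have hψv : ψ (v - 1) = ψ v := by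
      have := hψp (v - 1); rw [sub_add_cancel] at this; exact this.symm
    rw [eL, eR, hψv]
    -- a bound of ψ
    obtain ⟨C, hC⟩ := (isCompact_Icc (a := y0) (b := y0 + 1)).exists_bound_of_continuousOn
      hψc.continuousOn
    have hC0 : 0 ≤ C := (norm_nonneg _).trans (hC y0 ⟨le_rfl, by linarith⟩)
    obtain ⟨C', hC'⟩ := (isCompact_Icc (a := y0) (b := y0 + 1)).exists_bound_of_continuousOn
      hψd.continuousOn
    -- integration by parts and limits
    have lim1 : Tendsto (fun n => ∫ y in y0..y1, ψ y * deriv (g n) y) atTop (𝓝 (-ψ u)) := by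
      have hibp : ∀ n, ∫ y in y0..y1, ψ y * deriv (g n) y
          = ψ y1 * g n y1 - ψ y0 * g n y0 - ∫ y in y0..y1, deriv ψ y * g n y := by
        intro n
        exact intervalIntegral.integral_mul_deriv_eq_deriv_mul
          (fun x _ => ((hψ.differentiable one_ne_zero) x).hasDerivAt)
          (fun x _ => (((h.smooth n).differentiable one_ne_zero) x).hasDerivAt)
          (hψd.intervalIntegrable _ _) ((hcd n).intervalIntegrable _ _)
      have hdc : Tendsto (fun n => ∫ y in y0..y1, deriv ψ y * g n y) atTop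
          (𝓝 (∫ y in y0..y1, deriv ψ y * A.indicator 1 y)) := by
        refine intervalIntegral.tendsto_integral_filter_of_dominated_convergence (fun _ => C')
          (Eventually.of_forall fun n => ?_) (Eventually.of_forall fun n => ?_)
          intervalIntegrable_const ?_
        · exact (hψd.mul (h.smooth n).continuous).aestronglyMeasurable
        · refine Eventually.of_forall fun y hy => ?_
          rw [uIoc_of_le h01.le] at hy
          rw [norm_mul]
          have k1 := hC' y ⟨hy.1.le, by linarith [hy.2]⟩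
          have k2 : ‖g n y‖ ≤ 1 := by
            rw [Real.norm_eq_abs, abs_of_nonneg (h.mem n y).1]; exact (h.mem n y).2
          calc ‖deriv ψ y‖ * ‖g n y‖ ≤ ‖deriv ψ y‖ * 1 :=
                mul_le_mul_of_nonneg_left k2 (norm_nonneg _)
            _ ≤ C' := by rw [mul_one]; exact k1
        · filter_upwards [hGae] with y hy _
          exact hy.const_mul _
      have hval : ∫ y in y0..y1, deriv ψ y * A.indicator 1 y = ψ u - ψ y0 := by
        have hm : Measurable fun y => deriv ψ y * A.indicator (1 : ℝ → ℝ) y :=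
          hψd.measurable.mul (measurable_one.indicator h.meas)
        have hint : ∀ a b : ℝ, y0 ≤ a → a ≤ b → b ≤ y1 →
            IntervalIntegrable (fun y => deriv ψ y * A.indicator (1 : ℝ → ℝ) y) volume a b := by
          intro a b ha hab hb
          refine (hψd.intervalIntegrable a b).mono_fun hm.aestronglyMeasurable ?_
          refine Eventually.of_forall fun y => ?_
          show ‖deriv ψ y * A.indicator (1 : ℝ → ℝ) y‖ ≤ ‖deriv ψ y‖
          by_cases hy : y ∈ A <;> simp [hy]
        rw [← intervalIntegral.integral_add_adjacent_intervals (hint y0 u le_rfl hu0 hu1)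
          (hint u y1 hu0 hu1 le_rfl)]
        have k1 : ∫ y in y0..u, deriv ψ y * A.indicator (1 : ℝ → ℝ) y = ∫ y in y0..u, deriv ψ y := by
          refine intervalIntegral.integral_congr_ae ?_
          filter_upwards [hAae, hne u, hne y1] with y h1 h2 h3 hy
          rw [uIoc_of_le hu0] at hy
          have h4 : y ∈ A := (h1 ⟨hy.1, by linarith [hy.2]⟩).2 (Or.inl (lt_of_le_of_ne hy.2 h2))
          rw [indicator_of_mem h4]; simp
        have k2 : ∫ y in u..y1, deriv ψ y * A.indicator (1 : ℝ → ℝ) y = 0 := by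
          have : ∫ y in u..y1, deriv ψ y * A.indicator (1 : ℝ → ℝ) y = ∫ y in u..y1, (0 : ℝ) := by
            refine intervalIntegral.integral_congr_ae ?_
            filter_upwards [hAae, hne u, hne y1] with y h1 h2 h3 hy
            rw [uIoc_of_le hu1] at hy
            have h4 : y ∉ A := by
              intro hyA
              rcases (h1 ⟨by linarith [hy.1], by linarith [hy.2]⟩).1 hyA with h5 | h5
              · linarith [hy.1]
              · linarith [hy.2]
            rw [indicator_of_notMem h4, mul_zero]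
          rw [this]; simp
        rw [k1, k2, ftc ψ hψ, add_zero]
      have h5 : Tendsto (fun n => ψ y1 * g n y1 - ψ y0 * g n y0
          - ∫ y in y0..y1, deriv ψ y * g n y) atTop
          (𝓝 (ψ y1 * 0 - ψ y0 * 1 - (ψ u - ψ y0))) := by
        rw [← hval]
        exact ((ht1.const_mul _).sub (ht0.const_mul _)).sub hdc
      simp only [hibp]
      convert h5 using 2
      ring
    have lim2 : Tendsto (fun n => ∫ y in y1..(y0 + 1), ψ y * deriv (g n) y) atTop
        (𝓝 (ψ v)) := by
      have hibp : ∀ n, ∫ y in y1..(y0 + 1), ψ y * deriv (g n) y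
          = ψ (y0 + 1) * g n (y0 + 1) - ψ y1 * g n y1
            - ∫ y in y1..(y0 + 1), deriv ψ y * g n y := by
        intro n
        exact intervalIntegral.integral_mul_deriv_eq_deriv_mul
          (fun x _ => ((hψ.differentiable one_ne_zero) x).hasDerivAt)
          (fun x _ => (((h.smooth n).differentiable one_ne_zero) x).hasDerivAt)
          (hψd.intervalIntegrable _ _) ((hcd n).intervalIntegrable _ _)
      have hdc : Tendsto (fun n => ∫ y in y1..(y0 + 1), deriv ψ y * g n y) atTop
          (𝓝 (∫ y in y1..(y0 + 1), deriv ψ y * A.indicator 1 y)) := by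
        refine intervalIntegral.tendsto_integral_filter_of_dominated_convergence (fun _ => C')
          (Eventually.of_forall fun n => ?_) (Eventually.of_forall fun n => ?_)
          intervalIntegrable_const ?_
        · exact (hψd.mul (h.smooth n).continuous).aestronglyMeasurable
        · refine Eventually.of_forall fun y hy => ?_
          rw [uIoc_of_le h10.le] at hy
          rw [norm_mul]
          have k1 := hC' y ⟨by linarith [hy.1], hy.2⟩
          have k2 : ‖g n y‖ ≤ 1 := by
            rw [Real.norm_eq_abs, abs_of_nonneg (h.mem n y).1]; exact (h.mem n y).2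
          calc ‖deriv ψ y‖ * ‖g n y‖ ≤ ‖deriv ψ y‖ * 1 :=
                mul_le_mul_of_nonneg_left k2 (norm_nonneg _)
            _ ≤ C' := by rw [mul_one]; exact k1
        · filter_upwards [hGae] with y hy _
          exact hy.const_mul _
      have hval : ∫ y in y1..(y0 + 1), deriv ψ y * A.indicator 1 y = ψ (y0 + 1) - ψ v := by
        have hm : Measurable fun y => deriv ψ y * A.indicator (1 : ℝ → ℝ) y :=
          hψd.measurable.mul (measurable_one.indicator h.meas)
        have hint : ∀ a b : ℝ,
            IntervalIntegrable (fun y => deriv ψ y * A.indicator (1 : ℝ → ℝ) y) volume a b := by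
          intro a b
          refine (hψd.intervalIntegrable a b).mono_fun hm.aestronglyMeasurable ?_
          refine Eventually.of_forall fun y => ?_
          show ‖deriv ψ y * A.indicator (1 : ℝ → ℝ) y‖ ≤ ‖deriv ψ y‖
          by_cases hy : y ∈ A <;> simp [hy]
        rw [← intervalIntegral.integral_add_adjacent_intervals (hint y1 v) (hint v (y0 + 1))]
        have k1 : ∫ y in v..(y0 + 1), deriv ψ y * A.indicator (1 : ℝ → ℝ) y
            = ∫ y in v..(y0 + 1), deriv ψ y := by
          refine intervalIntegral.integral_congr_ae ?_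
          filter_upwards [hAae, hne (y0 + 1), hne v] with y h1 h2 h3 hy
          rw [uIoc_of_le hv0] at hy
          have h4 : y ∈ A :=
            (h1 ⟨by linarith [hy.1], lt_of_le_of_ne hy.2 h2⟩).2 (Or.inr hy.1)
          rw [indicator_of_mem h4]; simp
        have k2 : ∫ y in y1..v, deriv ψ y * A.indicator (1 : ℝ → ℝ) y = 0 := by
          have : ∫ y in y1..v, deriv ψ y * A.indicator (1 : ℝ → ℝ) y = ∫ y in y1..v, (0 : ℝ) := by
            refine intervalIntegral.integral_congr_ae ?_
            filter_upwards [hAae, hne (y0 + 1), hne v] with y h1 h2 h3 hy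
            rw [uIoc_of_le hv1] at hy
            have h4 : y ∉ A := by
              intro hyA
              have h6 : y < v := lt_of_le_of_ne hy.2 h3
              rcases (h1 ⟨by linarith [hy.1], by linarith⟩).1 hyA with h5 | h5
              · linarith [hy.1]
              · linarith
            rw [indicator_of_notMem h4, mul_zero]
          rw [this]; simp
        rw [k1, k2, ftc ψ hψ, zero_add]
      have ht0' : Tendsto (fun n => g n (y0 + 1)) atTop (𝓝 1) := by
        simpa only [h.per] using ht0
      have h5 : Tendsto (fun n => ψ (y0 + 1) * g n (y0 + 1) - ψ y1 * g n y1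
          - ∫ y in y1..(y0 + 1), deriv ψ y * g n y) atTop
          (𝓝 (ψ (y0 + 1) * 1 - ψ y1 * 0 - (ψ (y0 + 1) - ψ v))) := by
        rw [← hval]
        exact ((ht0'.const_mul _).sub (ht1.const_mul _)).sub hdc
      simp only [hibp]
      convert h5 using 2
      ring
    -- error terms
    have er1 : Tendsto (fun n => ∫ y in y0..y1, ψ y * (|deriv (g n) y| + deriv (g n) y)) atTop
        (𝓝 0) := by
      refine squeeze_zero_norm (a := fun n => C * s n) (fun n => ?_) (by simpa using hs1.const_mul C)
      have hc : Continuous fun y => |deriv (g n) y| + deriv (g n) y := (hcd n).abs.add (hcd n)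
      calc ‖∫ y in y0..y1, ψ y * (|deriv (g n) y| + deriv (g n) y)‖
          ≤ ∫ y in y0..y1, ‖ψ y * (|deriv (g n) y| + deriv (g n) y)‖ :=
            intervalIntegral.norm_integral_le_integral_norm h01.le
        _ ≤ ∫ y in y0..y1, C * (|deriv (g n) y| + deriv (g n) y) := by
            refine intervalIntegral.integral_mono_on h01.le
              ((hψc.mul hc).norm.intervalIntegrable _ _)
              ((continuous_const.mul hc).intervalIntegrable _ _) fun y hy => ?_
            have hnn : 0 ≤ |deriv (g n) y| + deriv (g n) y := by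
              linarith [neg_abs_le (deriv (g n) y)]
            rw [norm_mul, Real.norm_of_nonneg hnn]
            exact mul_le_mul_of_nonneg_right (hC y ⟨hy.1, by linarith [hy.2]⟩) hnn
        _ = C * s n := intervalIntegral.integral_const_mul _ _
    have er2 : Tendsto (fun n => ∫ y in y1..(y0 + 1), ψ y * (|deriv (g n) y| - deriv (g n) y)) atTop
        (𝓝 0) := by
      refine squeeze_zero_norm (a := fun n => C * t n) (fun n => ?_)
        (by simpa using ht1'.const_mul C)
      have hc : Continuous fun y => |deriv (g n) y| - deriv (g n) y := (hcd n).abs.sub (hcd n)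
      calc ‖∫ y in y1..(y0 + 1), ψ y * (|deriv (g n) y| - deriv (g n) y)‖
          ≤ ∫ y in y1..(y0 + 1), ‖ψ y * (|deriv (g n) y| - deriv (g n) y)‖ :=
            intervalIntegral.norm_integral_le_integral_norm h10.le
        _ ≤ ∫ y in y1..(y0 + 1), C * (|deriv (g n) y| - deriv (g n) y) := by
            refine intervalIntegral.integral_mono_on h10.le
              ((hψc.mul hc).norm.intervalIntegrable _ _)
              ((continuous_const.mul hc).intervalIntegrable _ _) fun y hy => ?_
            have hnn : 0 ≤ |deriv (g n) y| - deriv (g n) y := by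
              linarith [le_abs_self (deriv (g n) y)]
            rw [norm_mul, Real.norm_of_nonneg hnn]
            exact mul_le_mul_of_nonneg_right (hC y ⟨by linarith [hy.1], hy.2⟩) hnn
        _ = C * t n := intervalIntegral.integral_const_mul _ _
    have hdec : ∀ n, ∫ y in (0 : ℝ)..1, ψ y * |deriv (g n) y|
        = (∫ y in y0..y1, ψ y * (|deriv (g n) y| + deriv (g n) y))
          - (∫ y in y0..y1, ψ y * deriv (g n) y)
          + ((∫ y in y1..(y0 + 1), ψ y * (|deriv (g n) y| - deriv (g n) y))
          + ∫ y in y1..(y0 + 1), ψ y * deriv (g n) y) := by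
      intro n
      have hper : Function.Periodic (fun y => ψ y * |deriv (g n) y|) 1 := fun y => by
        show ψ (y + 1) * |deriv (g n) (y + 1)| = ψ y * |deriv (g n) y|
        rw [deriv_per (g n) (h.per n), hψp]
      have e0 := hper.intervalIntegral_add_eq 0 y0
      rw [zero_add] at e0
      have hc1 : Continuous fun y => ψ y * |deriv (g n) y| := hψc.mul (hcd n).abs
      have hc2 : Continuous fun y => ψ y * (|deriv (g n) y| + deriv (g n) y) :=
        hψc.mul ((hcd n).abs.add (hcd n))
      have hc3 : Continuous fun y => ψ y * (|deriv (g n) y| - deriv (g n) y) :=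
        hψc.mul ((hcd n).abs.sub (hcd n))
      have hc4 : Continuous fun y => ψ y * deriv (g n) y := hψc.mul (hcd n)
      have e1 : (∫ y in y0..y1, ψ y * |deriv (g n) y|) + (∫ y in y1..(y0 + 1), ψ y * |deriv (g n) y|)
          = ∫ y in y0..(y0 + 1), ψ y * |deriv (g n) y| :=
        intervalIntegral.integral_add_adjacent_intervals (hc1.intervalIntegrable _ _)
          (hc1.intervalIntegrable _ _)
      rw [e0, ← e1, ← intervalIntegral.integral_sub (hc2.intervalIntegrable _ _)
        (hc4.intervalIntegrable _ _), ← intervalIntegral.integral_add (hc3.intervalIntegrable _ _)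
        (hc4.intervalIntegrable _ _)]
      congr 1
      · refine intervalIntegral.integral_congr fun y _ => ?_
        ring
      · refine intervalIntegral.integral_congr fun y _ => ?_
        ring
    simp only [hdec]
    have := (er1.sub lim1).add (er2.add lim2)
    convert this using 2
    ring

end P232.Inv
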