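import Vale.Agent.P232.DefsU
import Vale.Agent.P232.Cell

/-!
# P232: auxiliary facts for the rigidity of Steiner symmetrisation
-/

open MeasureTheory Set Filter Topology
open scoped ENNReal ContDiff

namespace P232.RigidAux

/-- `(y, t) ↦ (t inserted at i into y)` preserves the volume -/
theorem mp_ins (i : Fin 3) :
    MeasurePreserving (fun p : (Fin 2 → ℝ) × ℝ => (i.insertNth p.2 p.1 : R3))
      ((volume : Measure (Fin 2 → ℝ)).prod (volume : Measure ℝ)) volume := by
  have h1 := (volume_preserving_piFinSuccAbove (fun _ : Fin 3 => ℝ) i).symm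
  have h2 := (Measure.measurePreserving_swap (μ := (volume : Measure (Fin 2 → ℝ)))
    (ν := (volume : Measure ℝ)))
  exact h1.comp h2

theorem sections_of_ae_prop (i : Fin 3) (p : R3 → Prop) (h : ∀ᵐ x : R3, p x) :
    ∀ᵐ y : Fin 2 → ℝ, ∀ᵐ t : ℝ, p (i.insertNth t y : R3) :=
  Measure.ae_ae_of_ae_prod ((mp_ins i).quasiMeasurePreserving.ae h)

theorem sections_of_ae (i : Fin 3) (A B : Set R3) (h : A =ᵐ[volume] B) :
    ∀ᵐ y : Fin 2 → ℝ, ∀ᵐ t : ℝ, ((i.insertNth t y : R3) ∈ A ↔ (i.insertNth t y : R3) ∈ B) :=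
  sections_of_ae_prop i (fun x => x ∈ A ↔ x ∈ B) (eventuallyEq_set.1 h)

/-- lattice invariance of periodic sets -/
theorem mem_lattice {A : Set R3} (hp : PeriodicSet A) (v : R3)
    (hv : v ∈ Submodule.span ℤ (Set.range (Pi.basisFun ℝ (Fin 3)))) (x : R3) :
    v + x ∈ A ↔ x ∈ A := by
  have := Cell.periodic_int (fun x => x ∈ A) (fun x i => propext (hp x i)) v hv x
  exact iff_of_eq this

theorem null_of_cell (N : Set R3) (hp : PeriodicSet N) (h : volume (N ∩ cell) = 0) :
    volume N = 0 := by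
  have : Countable (Submodule.span ℤ (Set.range (Pi.basisFun ℝ (Fin 3)))).toAddSubgroup :=
    inferInstanceAs (Countable (Submodule.span ℤ (Set.range (Pi.basisFun ℝ (Fin 3)))))
  refine Cell.isAddFundamentalDomain_cell.measure_zero_of_invariant N (fun g => ?_) h
  ext x
  rw [Set.mem_vadd_set]
  constructor
  · rintro ⟨y, hy, rfl⟩
    exact (mem_lattice hp g g.2 y).2 hy
  · intro hx
    refine ⟨(-g) +ᵥ x, ?_, by simp⟩
    exact (mem_lattice hp ((-g : _) : R3) (-g).2 x).2 hx

theorem null_coord (j : Fin 3) (a : ℝ) : volume {x : R3 | x j = a} = 0 := by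
  have := Measure.pi_hyperplane (fun _ : Fin 3 => (volume : Measure ℝ)) j a
  rw [volume_pi]
  exact this

theorem ae_of_sections (i : Fin 3) (A B : Set R3) (hA : MeasurableSet A) (hB : MeasurableSet B)
    (hpA : PeriodicSet A) (hpB : PeriodicSet B)
    (h : ∀ᵐ y ∂(volume.restrict {y : Fin 2 → ℝ | ∀ j, y j ∈ Ioo (0 : ℝ) 1}), ∀ᵐ t : ℝ,
      ((i.insertNth t y : R3) ∈ A ↔ (i.insertNth t y : R3) ∈ B)) : A =ᵐ[volume] B := by
  set N : Set R3 := {x | ¬ (x ∈ A ↔ x ∈ B)} with hN
  have hNm : MeasurableSet N := by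
    have : N = symmDiff A B := by
      ext x
      simp only [hN, mem_ofPred_eq, Set.mem_symmDiff]
      tauto
    rw [this]
    exact hA.symmDiff hB
  have hNp : PeriodicSet N := by
    intro x j
    simp only [hN, mem_ofPred_eq]
    rw [hpA x j, hpB x j]
  have hO : MeasurableSet {y : Fin 2 → ℝ | ∀ j, y j ∈ Ioo (0 : ℝ) 1} := by
    have : {y : Fin 2 → ℝ | ∀ j, y j ∈ Ioo (0 : ℝ) 1} = Set.pi univ (fun _ => Ioo (0 : ℝ) 1) := by
      ext y
      simp
    rw [this]
    exact MeasurableSet.univ_pi fun _ => measurableSet_Ioo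
  set N' : Set R3 := N ∩ {x | ∀ j, x (i.succAbove j) ∈ Ioo (0 : ℝ) 1} with hN'
  have hN'm : MeasurableSet N' := by
    refine hNm.inter ?_
    have : {x : R3 | ∀ j, x (i.succAbove j) ∈ Ioo (0 : ℝ) 1} =
        ⋂ j, (fun x : R3 => x (i.succAbove j)) ⁻¹' Ioo (0 : ℝ) 1 := by
      ext x
      simp
    rw [this]
    exact MeasurableSet.iInter fun j => (measurable_pi_apply _) measurableSet_Ioo
  have h0 : volume N' = 0 := by
    rw [← (mp_ins i).measure_preimage hN'm.nullMeasurableSet,
      Measure.measure_prod_null ((mp_ins i).measurable hN'm)]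
    rw [ae_restrict_iff' hO] at h
    filter_upwards [h] with y hy
    by_cases hyO : ∀ j, y j ∈ Ioo (0 : ℝ) 1
    · have := hy hyO
      rw [Pi.zero_apply]
      refine measure_mono_null ?_ (ae_iff.1 this)
      intro t ht
      exact ht.1
    · rw [Pi.zero_apply]
      have : Prod.mk y ⁻¹' ((fun p : (Fin 2 → ℝ) × ℝ => (i.insertNth p.2 p.1 : R3)) ⁻¹' N') = ∅ := by
        ext t
        simp only [mem_preimage, mem_empty_iff_false, iff_false]
        intro ht
        apply hyO
        intro j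
        have := ht.2 j
        simpa using this
      rw [this]
      exact measure_empty
  have h1 : volume (N ∩ cell) = 0 := by
    have hsub : N ∩ cell ⊆ N' ∪ ⋃ j : Fin 3, {x : R3 | x j = 0} := by
      rintro x ⟨hx, hc⟩
      by_cases hz : ∃ j, x j = 0
      · exact Or.inr (mem_iUnion.2 hz)
      · left
        refine ⟨hx, fun j => ⟨lt_of_le_of_ne (hc _).1 fun h => hz ⟨_, h.symm⟩, (hc _).2⟩⟩
    refine measure_mono_null hsub (measure_union_null h0 (measure_iUnion_null fun j => ?_))
    exact null_coord j 0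
  have h2 := null_of_cell N hNp h1
  exact eventuallyEq_set.2 (by rw [ae_iff]; exact h2)

/-! ### periodic subsets of the line -/

theorem int_periodic {A : Set ℝ} (hp : ∀ t, t + 1 ∈ A ↔ t ∈ A) (n : ℤ) (t : ℝ) :
    t + n ∈ A ↔ t ∈ A := by
  have hper : Function.Periodic (fun t => t ∈ A) (1 : ℝ) := fun t => propext (hp t)
  have := hper.int_mul n t
  rw [mul_one] at this
  exact iff_of_eq this

theorem vol_periodic (A : Set ℝ) (hA : MeasurableSet A) (hp : ∀ t, t + 1 ∈ A ↔ t ∈ A) (a b : ℝ) :
    volume (A ∩ Ioc a (a + 1)) = volume (A ∩ Ioc b (b + 1)) := by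
  have h1 := isAddFundamentalDomain_Ioc (T := (1 : ℝ)) one_pos a volume
  have h2 := isAddFundamentalDomain_Ioc (T := (1 : ℝ)) one_pos b volume
  refine h1.measure_set_eq h2 hA fun g => ?_
  ext t
  obtain ⟨g, hg⟩ := g
  obtain ⟨n, rfl⟩ := AddSubgroup.mem_zmultiples_iff.1 hg
  rw [mem_preimage, AddSubgroup.mk_vadd, vadd_eq_add, add_comm, zsmul_one]
  exact int_periodic hp n t

theorem null_of_Ico (A : Set ℝ) (hp : ∀ t, t + 1 ∈ A ↔ t ∈ A)
    (h : volume (A ∩ Ioc 0 1) = 0) : volume A = 0 := by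
  have h1 := isAddFundamentalDomain_Ioc (T := (1 : ℝ)) one_pos 0 volume
  rw [zero_add] at h1
  refine h1.measure_zero_of_invariant A (fun g => ?_) h
  obtain ⟨g, hg⟩ := g
  obtain ⟨n, rfl⟩ := AddSubgroup.mem_zmultiples_iff.1 hg
  ext x
  rw [Set.mem_vadd_set]
  constructor
  · rintro ⟨y, hy, rfl⟩
    rw [AddSubgroup.mk_vadd, vadd_eq_add, add_comm, zsmul_one]
    exact (int_periodic hp n y).2 hy
  · intro hx
    refine ⟨x + (-n : ℤ), (int_periodic hp (-n) x).2 hx, ?_⟩
    rw [AddSubgroup.mk_vadd, vadd_eq_add, zsmul_one]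
    push_cast
    ring

theorem Ico_Ioc (A : Set ℝ) (a b : ℝ) : volume (A ∩ Ico a b) = volume (A ∩ Ioc a b) :=
  measure_congr ((ae_eq_refl A).inter Ico_ae_eq_Ioc)

theorem dz_add_one (t : ℝ) : dz (t + 1) = dz t := by
  unfold dz
  rw [round_add_one]
  push_cast
  ring_nf

theorem dz_nonneg (t : ℝ) : 0 ≤ dz t := abs_nonneg _

theorem dz_le (t : ℝ) : dz t ≤ 1 / 2 := abs_sub_round t

theorem dz_of_mem {t : ℝ} (h1 : -(1 / 2) ≤ t) (h2 : t ≤ 1 / 2) : dz t = |t| := by
  rcases h2.eq_or_lt with rfl | h2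
  · unfold dz
    have : round (1 / 2 : ℝ) = 1 := by
      rw [round_eq]
      norm_num
    rw [this]
    norm_num
  · unfold dz
    have : round t = 0 := by
      rw [round_eq, Int.floor_eq_zero_iff]
      constructor <;> linarith
    rw [this]
    simp

theorem measurable_dz : Measurable dz := by
  unfold dz
  have : Measurable fun t : ℝ => (round t : ℝ) := by
    have h : (fun t : ℝ => (round t : ℝ)) = fun t => ((⌊t + 1 / 2⌋ : ℤ) : ℝ) := by
      ext t
      rw [round_eq]
    rw [h]
    exact (measurable_from_top (f := fun n : ℤ => (n : ℝ))).comp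
      (Int.measurable_floor.comp (measurable_id.add_const _))
  exact continuous_abs.measurable.comp (measurable_id.sub this)

theorem vol_dz (c L : ℝ) (h0 : 0 ≤ L) (h1 : L ≤ 1) :
    volume {t ∈ Ico (0 : ℝ) 1 | dz (t - c) < L / 2} = ENNReal.ofReal L := by
  have hm : MeasurableSet {t : ℝ | dz (t - c) < L / 2} :=
    measurableSet_lt (measurable_dz.comp (measurable_id.sub_const c)) measurable_const
  have hp : ∀ t, t + 1 ∈ {t : ℝ | dz (t - c) < L / 2} ↔ t ∈ {t : ℝ | dz (t - c) < L / 2} := by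
    intro t
    simp only [mem_ofPred_eq]
    rw [show t + 1 - c = (t - c) + 1 by ring, dz_add_one]
  have e1 : {t ∈ Ico (0 : ℝ) 1 | dz (t - c) < L / 2} = {t : ℝ | dz (t - c) < L / 2} ∩ Ico 0 1 := by
    ext t
    simp only [mem_inter_iff, mem_ofPred_eq]
    tauto
  rw [e1, Ico_Ioc]
  have h2 := vol_periodic _ hm hp 0 (c - 1 / 2)
  rw [zero_add] at h2
  rw [h2]
  have e2 : {t : ℝ | dz (t - c) < L / 2} ∩ Ioc (c - 1 / 2) (c - 1 / 2 + 1) =
      Ioo (c - L / 2) (c + L / 2) := by
    ext t
    simp only [mem_inter_iff, mem_ofPred_eq, mem_Ioc, mem_Ioo]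
    constructor
    · rintro ⟨h3, h4, h5⟩
      rw [dz_of_mem (by linarith) (by linarith), abs_lt] at h3
      constructor <;> linarith [h3.1, h3.2]
    · rintro ⟨h3, h4⟩
      refine ⟨?_, by linarith, by linarith⟩
      rw [dz_of_mem (by linarith) (by linarith), abs_lt]
      constructor <;> linarith
  rw [e2, Real.volume_Ioo]
  congr 1
  ring

/-! ### sections -/

theorem ins_add_one (i : Fin 3) (t : ℝ) (y : Fin 2 → ℝ) :
    (i.insertNth (t + 1) y : R3) = i.insertNth t y + Pi.single i 1 := by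
  funext j
  rcases Fin.eq_self_or_eq_succAbove i j with rfl | ⟨k, rfl⟩
  · simp
  · simp

theorem sect_periodic (i : Fin 3) {E : Set R3} (hp : PeriodicSet E) (y : Fin 2 → ℝ) (t : ℝ) :
    t + 1 ∈ {t : ℝ | (i.insertNth t y : R3) ∈ E} ↔ t ∈ {t : ℝ | (i.insertNth t y : R3) ∈ E} := by
  simp only [mem_ofPred_eq]
  rw [ins_add_one, hp]

theorem measurable_ins (i : Fin 3) (y : Fin 2 → ℝ) :
    Measurable fun t : ℝ => (i.insertNth t y : R3) :=
  (mp_ins i).measurable.comp measurable_prodMk_left

theorem sect_meas (i : Fin 3) {E : Set R3} (hm : MeasurableSet E) (y : Fin 2 → ℝ) :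
    MeasurableSet {t : ℝ | (i.insertNth t y : R3) ∈ E} := measurable_ins i y hm

theorem ell_ins (i : Fin 3) (E : Set R3) (s : ℝ) (y : Fin 2 → ℝ) :
    ell i E (i.insertNth s y) = (volume {t ∈ Ico (0 : ℝ) 1 | (i.insertNth t y : R3) ∈ E}).toReal := by
  unfold ell
  simp only [Fin.update_insertNth]

theorem sect_le_one (i : Fin 3) (E : Set R3) (y : Fin 2 → ℝ) :
    volume {t ∈ Ico (0 : ℝ) 1 | (i.insertNth t y : R3) ∈ E} ≤ 1 := by
  refine (measure_mono (sep_subset _ _)).trans ?_
  simp

theorem vol_sect (i : Fin 3) (E M : Set R3) (h : St i E =ᵐ[volume] M) :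
    ∀ᵐ y : Fin 2 → ℝ, volume {t ∈ Ico (0 : ℝ) 1 | (i.insertNth t y : R3) ∈ E} =
      volume {t ∈ Ico (0 : ℝ) 1 | (i.insertNth t y : R3) ∈ M} := by
  filter_upwards [sections_of_ae i _ _ h] with y hy
  set v := volume {t ∈ Ico (0 : ℝ) 1 | (i.insertNth t y : R3) ∈ E} with hv
  have hv1 : v ≤ 1 := sect_le_one i E y
  have hvt : v ≠ ⊤ := ne_top_of_le_ne_top ENNReal.one_ne_top hv1
  have h1 : v = volume {t ∈ Ico (0 : ℝ) 1 | dz (t - 0) < v.toReal / 2} := by
    rw [vol_dz 0 v.toReal ENNReal.toReal_nonneg (by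
      have := ENNReal.toReal_mono ENNReal.one_ne_top hv1
      simpa using this), ENNReal.ofReal_toReal hvt]
  rw [h1]
  refine measure_congr ?_
  filter_upwards [hy] with t ht
  have h2 : (i.insertNth t y : R3) ∈ St i E ↔ dz (t - 0) < v.toReal / 2 := by
    show dz ((i.insertNth t y : R3) i) < ell i E (i.insertNth t y) / 2 ↔ _
    rw [ell_ins, Fin.insertNth_apply_same, sub_zero]
  refine propext ?_
  show t ∈ Ico (0 : ℝ) 1 ∧ dz (t - 0) < v.toReal / 2 ↔
    t ∈ Ico (0 : ℝ) 1 ∧ (i.insertNth t y : R3) ∈ M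
  rw [← h2, ht]

/-- the trivial case: full or empty sections -/
theorem eq_of_full (i : Fin 3) (E M : Set R3) (hm : MeasurableSet E) (hp : PeriodicSet E)
    (hM : MeasurableSet M) (hpM : PeriodicSet M)
    (hinv : ∀ x t, Function.update x i t ∈ M ↔ x ∈ M) (h : St i E =ᵐ[volume] M) :
    E =ᵐ[volume] M := by
  refine ae_of_sections i E M hm hM hp hpM (ae_restrict_of_ae ?_)
  filter_upwards [vol_sect i E M h] with y hy
  have hinv' : ∀ s t : ℝ, (i.insertNth t y : R3) ∈ M ↔ (i.insertNth s y : R3) ∈ M := by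
    intro s t
    have := hinv (i.insertNth s y) t
    rwa [Fin.update_insertNth] at this
  have e1 : ∀ A : Set ℝ, {t ∈ Ico (0 : ℝ) 1 | t ∈ A} = A ∩ Ico 0 1 := by
    intro A
    ext t
    simp only [mem_inter_iff, mem_ofPred_eq]
    tauto
  by_cases hM0 : (i.insertNth 0 y : R3) ∈ M
  · have h1 : {t ∈ Ico (0 : ℝ) 1 | (i.insertNth t y : R3) ∈ M} = Ico (0 : ℝ) 1 := by
      ext t
      simp only [mem_ofPred_eq, and_iff_left_iff_imp]
      exact fun _ => (hinv' 0 t).2 hM0
    rw [h1, Real.volume_Ico, sub_zero, ENNReal.ofReal_one] at hy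
    have h2 : volume ({t : ℝ | (i.insertNth t y : R3) ∈ E}ᶜ ∩ Ioc 0 1) = 0 := by
      rw [← Ico_Ioc, inter_comm, ← sdiff_eq, ← sdiff_inter_self_eq_sdiff]
      have h3 : volume ({t : ℝ | (i.insertNth t y : R3) ∈ E} ∩ Ico 0 1) = 1 := by
        rw [← hy]
        congr 1
        ext t
        simp only [mem_inter_iff, mem_ofPred_eq]
        tauto
      rw [measure_sdiff inter_subset_right
        ((sect_meas i hm y).inter measurableSet_Ico).nullMeasurableSet (by rw [h3]; simp), h3]
      simp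
    have h4 := null_of_Ico _ (fun t => by
      rw [mem_compl_iff, mem_compl_iff, sect_periodic i hp y t]) h2
    filter_upwards [measure_eq_zero_iff_ae_notMem.1 h4] with t ht
    rw [mem_compl_iff, not_not] at ht
    exact iff_of_true ht ((hinv' 0 t).2 hM0)
  · have h1 : {t ∈ Ico (0 : ℝ) 1 | (i.insertNth t y : R3) ∈ M} = ∅ := by
      ext t
      simp only [mem_ofPred_eq, mem_empty_iff_false, iff_false, not_and]
      exact fun _ h => hM0 ((hinv' t 0).2 h)
    rw [h1, measure_empty] at hy
    have h2 : volume ({t : ℝ | (i.insertNth t y : R3) ∈ E} ∩ Ioc 0 1) = 0 := by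
      rw [← Ico_Ioc, ← hy]
      congr 1
      ext t
      simp only [mem_inter_iff, mem_ofPred_eq]
      tauto
    have h4 := null_of_Ico _ (fun t => sect_periodic i hp y t) h2
    filter_upwards [measure_eq_zero_iff_ae_notMem.1 h4] with t ht
    exact iff_of_false ht fun h => hM0 ((hinv' t 0).2 h)

/-! ### translations -/

theorem St_shift (i : Fin 3) (E : Set R3) (v : R3) (hv : v i = 0) :
    St i {x | x + v ∈ E} = {x | x + v ∈ St i E} := by
  ext x
  show dz (x i) < ell i {x | x + v ∈ E} x / 2 ↔ dz ((x + v) i) < ell i E (x + v) / 2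
  have h1 : (x + v) i = x i := by simp [hv]
  have h2 : ell i {x | x + v ∈ E} x = ell i E (x + v) := by
    unfold ell
    congr 2
    ext t
    have : Function.update x i t + v = Function.update (x + v) i t := by
      funext j
      by_cases hj : j = i
      · subst hj
        simp [hv]
      · simp [hj]
    simp only [mem_ofPred_eq, this]
  rw [h1, h2]

theorem shift_periodic {E : Set R3} (hp : PeriodicSet E) (v : R3) :
    PeriodicSet {x | x + v ∈ E} := by
  intro x i
  simp only [mem_ofPred_eq]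
  rw [add_right_comm, hp]

theorem shift_meas {E : Set R3} (hm : MeasurableSet E) (v : R3) :
    MeasurableSet {x | x + v ∈ E} := (measurable_id.add_const v) hm

theorem test_shift {φ : R3 → R3} (hφ : TestField φ) (v : R3) : TestField (fun x => φ (x - v)) where
  smooth := hφ.smooth.comp (contDiff_id.sub contDiff_const)
  periodic := fun x i => by
    have : x + Pi.single i 1 - v = x - v + Pi.single i 1 := by abel
    rw [this, hφ.periodic]
  bound := fun x => hφ.bound _

theorem perimeter_shift_le (E : Set R3) (hp : PeriodicSet E) (hm : MeasurableSet E) (v : R3) :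
    perimeter {x | x + v ∈ E} ≤ perimeter E := by
  conv_lhs => unfold perimeter
  refine iSup₂_le fun φ hφ => ?_
  have hd : ∀ x, divergence (fun x => φ (x - v)) x = divergence φ (x - v) := by
    intro x
    unfold divergence
    refine Finset.sum_congr rfl fun i _ => ?_
    rw [fderiv_comp_sub]
  have hdp : ∀ x i, divergence φ (x + Pi.single i 1) = divergence φ x := by
    intro x i
    unfold divergence
    refine Finset.sum_congr rfl fun j _ => ?_
    have : fderiv ℝ φ (x + Pi.single i 1) = fderiv ℝ φ x := by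
      rw [← fderiv_comp_add_right]
      congr 1
      funext z
      exact hφ.periodic z i
    rw [this]
  have h1 : ∫ x in {x | x + v ∈ E} ∩ cell, divergence φ x =
      ∫ x in E ∩ cell, divergence (fun x => φ (x - v)) x := by
    rw [inter_comm, ← setIntegral_indicator (shift_meas hm v), inter_comm E,
      ← setIntegral_indicator hm]
    rw [← Cell.setIntegral_shift (E.indicator fun x => divergence (fun x => φ (x - v)) x) ?_ v]
    · refine integral_congr_ae (Eventually.of_forall fun x => ?_)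
      by_cases hx : x + v ∈ E
      · simp only [indicator_of_mem hx, indicator_of_mem (show x ∈ {x | x + v ∈ E} from hx), hd,
          add_sub_cancel_right]
      · simp only [indicator_of_notMem hx, indicator_of_notMem (show x ∉ {x | x + v ∈ E} from hx)]
    · intro x i
      by_cases hx : x ∈ E
      · rw [indicator_of_mem hx, indicator_of_mem ((hp x i).2 hx), hd, hd]
        have : x + Pi.single i 1 - v = x - v + Pi.single i 1 := by abel
        rw [this, hdp]
      · rw [indicator_of_notMem hx, indicator_of_notMem (fun h => hx ((hp x i).1 h))]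
  rw [h1]
  unfold perimeter
  exact le_iSup₂ (f := fun (φ : R3 → R3) (_ : TestField φ) =>
    ENNReal.ofReal (∫ x in E ∩ cell, divergence φ x)) _ (test_shift hφ v)

theorem perimeter_shift (E : Set R3) (hm : MeasurableSet E) (hp : PeriodicSet E) (v : R3) :
    perimeter {x | x + v ∈ E} = perimeter E := by
  refine le_antisymm (perimeter_shift_le E hp hm v) ?_
  have h := perimeter_shift_le {x | x + v ∈ E} (shift_periodic hp v) (shift_meas hm v) (-v)
  simpa using h

/-- shifting a.e. equalities -/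
theorem ae_shift {A B : Set R3} (h : A =ᵐ[volume] B) (v : R3) :
    ({x | x + v ∈ A} : Set R3) =ᵐ[volume] {x | x + v ∈ B} := by
  have h1 := (measurePreserving_add_right (volume : Measure R3) v).quasiMeasurePreserving.ae
    (eventuallyEq_set.1 h)
  exact eventuallyEq_set.2 h1

end P232.RigidAux
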