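import Vale.Agent.P232.DeficitA
import Vale.Agent.P232.Inv1
import Vale.Agent.P232.RigidAux

/-!
# P232 [RD], part B: the deficit of the gradient
-/

open MeasureTheory Set Filter Topology
open scoped ENNReal ContDiff

namespace P232.Rd

/-! ### the mollified sequence -/

theorem mol_seq (E : Set R3) (hm : MeasurableSet E) (hp : PeriodicSet E) (hfin : perimeter E ≠ ⊤) :
    ∃ f : ℕ → R3 → ℝ, (∀ n, ContDiff ℝ ∞ (f n)) ∧ (∀ n, PeriodicFun (f n)) ∧
      (∀ n x, f n x ∈ Icc (0 : ℝ) 1) ∧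
      (∀ n, ∫ x in cell, gradN (f n) x ≤ (perimeter E).toReal) ∧
      ∀ᵐ x : R3, Tendsto (fun n => f n x) atTop (𝓝 (E.indicator 1 x)) := by
  let ρ : ℕ → ContDiffBump (0 : R3) := fun n =>
    ⟨1 / ((n : ℝ) + 1), 2 / ((n : ℝ) + 1), by positivity, by
      apply div_lt_div_of_pos_right _ (by positivity); norm_num⟩
  refine ⟨fun n => Mol.mol (ρ n) E, fun n => Mol.mol_contDiff _ E hm,
    fun n => Mol.mol_periodic _ E hp, fun n => Mol.mol_mem _ E hm,
    fun n => Mol.grad_bound _ (Mol.mol_contDiff _ E hm) (Mol.mol_periodic _ E hp) _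
      (fun φ hφ => Mol.dual (ρ n) E hm hp hfin φ hφ), ?_⟩
  refine ContDiffBump.ae_convolution_tendsto_right_of_locallyIntegrable (K := 2) ?_ ?_
    (Mol.locInt E hm)
  · have h1 : Tendsto (fun n : ℕ => 2 * (1 / ((n : ℝ) + 1))) atTop (𝓝 (2 * 0)) :=
      tendsto_one_div_add_atTop_nhds_zero_nat.const_mul 2
    rw [mul_zero] at h1
    refine h1.congr fun n => ?_
    show 2 * (1 / ((n : ℝ) + 1)) = 2 / ((n : ℝ) + 1)
    ring
  · refine Eventually.of_forall fun n => ?_
    show 2 / ((n : ℝ) + 1) ≤ 2 * (1 / ((n : ℝ) + 1))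
    rw [mul_one_div]

/-! ### quantities -/

/-- the full gradient along a line -/
noncomputable def AA (i : Fin 3) (f : R3 → ℝ) (y : Y2) : ℝ :=
  ∫ t in (0 : ℝ)..1, gradN f (ins i t y)

/-- the transversal derivatives along a line -/
noncomputable def BB (i : Fin 3) (f : R3 → ℝ) (j : Fin 2) (y : Y2) : ℝ :=
  ∫ t in (0 : ℝ)..1, fderiv ℝ f (ins i t y) (Pi.single (i.succAbove j) 1)

/-- derivative of the length function -/
noncomputable def gg (l : Y2 → ℝ) (j : Fin 2) (y : Y2) : ℝ := fderiv ℝ l y (Pi.single j 1)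

/-- the area density -/
noncomputable def ww (l : Y2 → ℝ) (y : Y2) : ℝ := √(4 + (gg l 0 y ^ 2 + gg l 1 y ^ 2))

/-- the deficit along a line -/
noncomputable def DD (i : Fin 3) (f : R3 → ℝ) (l : Y2 → ℝ) (y : Y2) : ℝ :=
  AA i f y - (2 * NN i f y + BB i f 0 y * gg l 0 y + BB i f 1 y * gg l 1 y) / ww l y

theorem ww_pos (l : Y2 → ℝ) (y : Y2) : 0 < ww l y := Real.sqrt_pos.2 (by positivity)

theorem ww_sq (l : Y2 → ℝ) (y : Y2) : ww l y ^ 2 = 4 + (gg l 0 y ^ 2 + gg l 1 y ^ 2) :=
  Real.sq_sqrt (by positivity)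

theorem gg_smooth {Ω : Set Y2} (ho : IsOpen Ω) {l : Y2 → ℝ} (hl : ContDiffOn ℝ ∞ l Ω) (j : Fin 2) :
    ContDiffOn ℝ ∞ (gg l j) Ω :=
  (hl.fderiv_of_isOpen ho (m := ∞) (by simp)).clm_apply contDiffOn_const

theorem ww_smooth {Ω : Set Y2} (ho : IsOpen Ω) {l : Y2 → ℝ} (hl : ContDiffOn ℝ ∞ l Ω) :
    ContDiffOn ℝ ∞ (ww l) Ω := by
  unfold ww
  refine ContDiffOn.sqrt ?_ fun y _ => by positivity
  exact contDiffOn_const.add (((gg_smooth ho hl 0).pow 2).add ((gg_smooth ho hl 1).pow 2))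

section cont

variable (i : Fin 3) (f : R3 → ℝ) (hf : ContDiff ℝ ∞ f)

include hf

theorem pd_cont (v : R3) : Continuous (fun x => fderiv ℝ f x v) :=
  (hf.continuous_fderiv (by simp)).clm_apply continuous_const

theorem pd_cont_ins (v : R3) : Continuous (fun p : ℝ × Y2 => fderiv ℝ f (ins i p.1 p.2) v) :=
  (pd_cont f hf v).comp (ins_continuous i)

theorem par_cont (g : R3 → ℝ) (hg : Continuous g) :
    Continuous (fun y => ∫ t in (0 : ℝ)..1, g (ins i t y)) := by
  refine intervalIntegral.continuous_parametric_intervalIntegral_of_continuous' ?_ 0 1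
  exact hg.comp ((ins_continuous i).comp continuous_swap)

theorem AA_cont : Continuous (AA i f) := par_cont i f hf _ (Mol.gradN_continuous f hf)

theorem NN_cont : Continuous (NN i f) := par_cont i f hf _ (pd_cont f hf _).abs

theorem BB_cont (j : Fin 2) : Continuous (BB i f j) := par_cont i f hf _ (pd_cont f hf _)

omit hf in
theorem gradN_ins (x : R3) :
    gradN f x = √(|fderiv ℝ f x (Pi.single i 1)| ^ 2 +
      (fderiv ℝ f x (Pi.single (i.succAbove 0) 1) ^ 2 +
        fderiv ℝ f x (Pi.single (i.succAbove 1) 1) ^ 2)) := by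
  unfold gradN
  rw [Fin.sum_univ_succAbove _ i, Fin.sum_univ_two, sq_abs]

theorem ii (g : R3 → ℝ) (hg : Continuous g) (y : Y2) :
    IntervalIntegrable (fun t => g (ins i t y)) volume 0 1 :=
  (hg.comp (ins_cont_t i y)).intervalIntegrable _ _

theorem AA_nonneg (y : Y2) : 0 ≤ AA i f y :=
  intervalIntegral.integral_nonneg zero_le_one fun _ _ => Real.sqrt_nonneg _

theorem NN_nonneg (y : Y2) : 0 ≤ NN i f y :=
  intervalIntegral.integral_nonneg zero_le_one fun _ _ => abs_nonneg _

theorem comb_eq (l : Y2 → ℝ) (y : Y2) :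
    (2 * NN i f y + BB i f 0 y * gg l 0 y + BB i f 1 y * gg l 1 y) / ww l y =
      ∫ t in (0 : ℝ)..1, (2 * |fderiv ℝ f (ins i t y) (Pi.single i 1)| +
        fderiv ℝ f (ins i t y) (Pi.single (i.succAbove 0) 1) * gg l 0 y +
        fderiv ℝ f (ins i t y) (Pi.single (i.succAbove 1) 1) * gg l 1 y) / ww l y := by
  unfold NN BB
  have h0 := ii i f hf (fun x => |fderiv ℝ f x (Pi.single i 1)|) (pd_cont f hf _).abs y
  have h1 := ii i f hf (fun x => fderiv ℝ f x (Pi.single (i.succAbove 0) 1)) (pd_cont f hf _) y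
  have h2 := ii i f hf (fun x => fderiv ℝ f x (Pi.single (i.succAbove 1) 1)) (pd_cont f hf _) y
  rw [intervalIntegral.integral_div, intervalIntegral.integral_add ((h0.const_mul 2).add
    (h1.mul_const _)) (h2.mul_const _), intervalIntegral.integral_add (h0.const_mul 2)
    (h1.mul_const _), intervalIntegral.integral_const_mul, intervalIntegral.integral_mul_const,
    intervalIntegral.integral_mul_const]

theorem DD_nonneg (l : Y2 → ℝ) (y : Y2) : 0 ≤ DD i f l y := by
  unfold DD
  rw [comb_eq i f hf l y, sub_nonneg]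
  unfold AA
  refine intervalIntegral.integral_mono_on zero_le_one ?_
    (ii i f hf _ (Mol.gradN_continuous f hf) y) fun t _ => ?_
  · refine IntervalIntegrable.div_const ?_ _
    have h0 := ii i f hf (fun x => |fderiv ℝ f x (Pi.single i 1)|) (pd_cont f hf _).abs y
    have h1 := ii i f hf (fun x => fderiv ℝ f x (Pi.single (i.succAbove 0) 1)) (pd_cont f hf _) y
    have h2 := ii i f hf (fun x => fderiv ℝ f x (Pi.single (i.succAbove 1) 1)) (pd_cont f hf _) y
    exact ((h0.const_mul 2).add (h1.mul_const _)).add (h2.mul_const _)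
  · rw [gradN_ins i f]
    exact pw1 _ _ _ _ _

theorem TT_le (l : Y2 → ℝ) (j : Fin 2) (y : Y2) (ε : ℝ) (hε : 0 < ε) :
    TT i f l j y ≤ (1 + |gg l j y| / 2) * (ε * AA i f y + DD i f l y / (2 * ε)) := by
  have h0 := ii i f hf (fun x => |fderiv ℝ f x (Pi.single i 1)|) (pd_cont f hf _).abs y
  have h1 := ii i f hf (fun x => fderiv ℝ f x (Pi.single (i.succAbove 0) 1)) (pd_cont f hf _) y
  have h2 := ii i f hf (fun x => fderiv ℝ f x (Pi.single (i.succAbove 1) 1)) (pd_cont f hf _) y
  have hj := ii i f hf (fun x => fderiv ℝ f x (Pi.single (i.succAbove j) 1)) (pd_cont f hf _) y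
  have hA := ii i f hf _ (Mol.gradN_continuous f hf) y
  have hc : IntervalIntegrable (fun t => (2 * |fderiv ℝ f (ins i t y) (Pi.single i 1)| +
        fderiv ℝ f (ins i t y) (Pi.single (i.succAbove 0) 1) * gg l 0 y +
        fderiv ℝ f (ins i t y) (Pi.single (i.succAbove 1) 1) * gg l 1 y) / ww l y) volume 0 1 :=
    (((h0.const_mul 2).add (h1.mul_const _)).add (h2.mul_const _)).div_const _
  have e1 : (1 + |gg l j y| / 2) * (ε * AA i f y + DD i f l y / (2 * ε)) =
      ∫ t in (0 : ℝ)..1, (1 + |gg l j y| / 2) * (ε * gradN f (ins i t y) +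
        (gradN f (ins i t y) - (2 * |fderiv ℝ f (ins i t y) (Pi.single i 1)| +
        fderiv ℝ f (ins i t y) (Pi.single (i.succAbove 0) 1) * gg l 0 y +
        fderiv ℝ f (ins i t y) (Pi.single (i.succAbove 1) 1) * gg l 1 y) / ww l y) / (2 * ε)) := by
    have e0 : ∫ t in (0 : ℝ)..1, (gradN f (ins i t y) -
        (2 * |fderiv ℝ f (ins i t y) (Pi.single i 1)| +
        fderiv ℝ f (ins i t y) (Pi.single (i.succAbove 0) 1) * gg l 0 y +
        fderiv ℝ f (ins i t y) (Pi.single (i.succAbove 1) 1) * gg l 1 y) / ww l y) / (2 * ε) =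
        DD i f l y / (2 * ε) := by
      unfold DD
      rw [comb_eq i f hf l y, intervalIntegral.integral_div, intervalIntegral.integral_sub hA hc]
      rfl
    rw [intervalIntegral.integral_const_mul,
      intervalIntegral.integral_add (hA.const_mul _) ((hA.sub hc).div_const _),
      intervalIntegral.integral_const_mul, e0]
    rfl
  rw [e1]
  unfold TT
  refine intervalIntegral.integral_mono_on zero_le_one ?_ ?_ fun t _ => ?_
  · exact (hj.sub (h0.mul_const _)).abs
  · exact ((hA.const_mul _).add ((hA.sub hc).div_const _)).const_mul _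
  · rw [gradN_ins i f]
    have h01 : ∀ j : Fin 2, j = 0 ∨ j = 1 := by decide
    rcases h01 j with rfl | rfl
    · exact pw2 _ _ _ _ _ ε hε
    · have h3 := pw2 |fderiv ℝ f (ins i t y) (Pi.single i 1)|
        (fderiv ℝ f (ins i t y) (Pi.single (i.succAbove 1) 1))
        (fderiv ℝ f (ins i t y) (Pi.single (i.succAbove 0) 1)) (gg l 1 y) (gg l 0 y) ε hε
      have e2 : ww l y = √(4 + (gg l 1 y ^ 2 + gg l 0 y ^ 2)) := by
        unfold ww; rw [add_comm (gg l 0 y ^ 2)]
      rw [e2, add_comm (fderiv ℝ f (ins i t y) (Pi.single (i.succAbove 0) 1) ^ 2),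
        add_right_comm (2 * |fderiv ℝ f (ins i t y) (Pi.single i 1)|)]
      exact h3

end cont

/-- total mass of the gradient above `Ω` -/
theorem AA_total (i : Fin 3) (f : R3 → ℝ) (hf : ContDiff ℝ ∞ f) (Ω : Set Y2) (hΩo : IsOpen Ω)
    (hΩ : Ω ⊆ {y | ∀ j, y j ∈ Ioo (0 : ℝ) 1}) :
    IntegrableOn (AA i f) Ω ∧ ∫ y in Ω, AA i f y ≤ ∫ x in cell, gradN f x := by
  have hAc := AA_cont i f hf
  have hint : IntegrableOn (AA i f) Ω := by
    refine (hAc.integrableOn_Icc (a := (0 : Y2)) (b := 1)).mono_set fun y hy => ?_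
    exact ⟨fun j => (hΩ hy j).1.le, fun j => (hΩ hy j).2.le⟩
  refine ⟨hint, ?_⟩
  have hgc := Mol.gradN_continuous f hf
  have hg0 : ∀ x, 0 ≤ gradN f x := fun x => Real.sqrt_nonneg _
  have hcell := Mol.integrableOn_cell _ hgc
  have h1 : ENNReal.ofReal (∫ x in cell, gradN f x) = ∫⁻ x in cell, ENNReal.ofReal (gradN f x) :=
    ofReal_integral_eq_lintegral_ofReal hcell (Eventually.of_forall hg0)
  have h2 : ENNReal.ofReal (∫ y in Ω, AA i f y) = ∫⁻ y in Ω, ENNReal.ofReal (AA i f y) :=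
    ofReal_integral_eq_lintegral_ofReal hint (Eventually.of_forall (AA_nonneg i f hf))
  have h3 : ∀ y, ENNReal.ofReal (AA i f y) =
      ∫⁻ t in Ioc (0 : ℝ) 1, ENNReal.ofReal (gradN f (ins i t y)) := by
    intro y
    unfold AA
    rw [intervalIntegral.integral_of_le zero_le_one]
    refine ofReal_integral_eq_lintegral_ofReal ?_ (Eventually.of_forall fun t => hg0 _)
    exact ((hgc.comp (ins_cont_t i y)).integrableOn_Icc (a := (0 : ℝ)) (b := 1)).mono_set
      Ioc_subset_Icc_self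
  have hmeas : Measurable (fun x => ENNReal.ofReal (gradN f x)) :=
    ENNReal.measurable_ofReal.comp hgc.measurable
  have hmp := RigidAux.mp_ins i
  have h4 : ∫⁻ x in cell, ENNReal.ofReal (gradN f x) =
      ∫⁻ p : Y2 × ℝ, (cell.indicator (fun x => ENNReal.ofReal (gradN f x)))
        (i.insertNth p.2 p.1 : R3) ∂((volume : Measure Y2).prod (volume : Measure ℝ)) := by
    rw [← lintegral_indicator Cell.measurableSet_cell]
    exact (hmp.lintegral_comp (hmeas.indicator Cell.measurableSet_cell)).symm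
  have h5 : ∫⁻ y in Ω, ∫⁻ t in Ioo (0 : ℝ) 1, ENNReal.ofReal (gradN f (ins i t y)) ≤
      ∫⁻ x in cell, ENNReal.ofReal (gradN f x) := by
    rw [h4, lintegral_prod (fun p : Y2 × ℝ => (cell.indicator
      (fun x => ENNReal.ofReal (gradN f x))) (i.insertNth p.2 p.1 : R3))
      ((hmeas.indicator Cell.measurableSet_cell).comp
      hmp.measurable).aemeasurable, ← lintegral_indicator hΩo.measurableSet]
    refine lintegral_mono fun y => ?_
    by_cases hy : y ∈ Ω
    · rw [indicator_of_mem hy, ← lintegral_indicator measurableSet_Ioo]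
      refine lintegral_mono fun t => ?_
      by_cases ht : t ∈ Ioo (0 : ℝ) 1
      · rw [indicator_of_mem ht]
        have hc : (i.insertNth t y : R3) ∈ cell := by
          intro k
          rcases Fin.eq_self_or_eq_succAbove i k with rfl | ⟨m, rfl⟩
          · rw [Fin.insertNth_apply_same]; exact ⟨ht.1.le, ht.2⟩
          · rw [Fin.insertNth_apply_succAbove]; exact ⟨(hΩ hy m).1.le, (hΩ hy m).2⟩
        show ENNReal.ofReal (gradN f (ins i t y)) ≤
          (cell.indicator (fun x => ENNReal.ofReal (gradN f x))) (i.insertNth t y : R3)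
        rw [indicator_of_mem hc]
        exact le_rfl
      · rw [indicator_of_notMem ht]; exact zero_le
    · rw [indicator_of_notMem hy]; exact zero_le
  have h6 : ∫⁻ y in Ω, ENNReal.ofReal (AA i f y) =
      ∫⁻ y in Ω, ∫⁻ t in Ioo (0 : ℝ) 1, ENNReal.ofReal (gradN f (ins i t y)) := by
    congr 1
    funext y
    rw [h3 y, setLIntegral_congr Ioo_ae_eq_Ioc]
  rw [← h6, ← h2, ← h1] at h5
  exact (ENNReal.ofReal_le_ofReal_iff (setIntegral_nonneg Cell.measurableSet_cell
    fun x _ => hg0 x)).1 h5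

end P232.Rd
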