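import Vale.Agent.P232.DeficitB

/-!
# P232 [RD], part C: the deficit tends to zero
-/

open MeasureTheory Set Filter Topology
open scoped ENNReal ContDiff

namespace P232.Rd

/-- the standing data -/
structure Dat (i : Fin 3) (E : Set R3) (Ω : Set Y2) (l : Y2 → ℝ) (f : ℕ → R3 → ℝ) : Prop where
  hm : MeasurableSet E
  hp : PeriodicSet E
  ho : IsOpen Ω
  hΩ : Ω ⊆ {y | ∀ j, y j ∈ Ioo (0 : ℝ) 1}
  hl : ContDiffOn ℝ ∞ l Ω
  h0 : ∀ y ∈ Ω, 0 < l y ∧ l y < 1
  hE : ∀ᵐ y ∂(volume.restrict Ω),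
    volume {t ∈ Ico (0 : ℝ) 1 | (i.insertNth t y : R3) ∈ E} = ENNReal.ofReal (l y)
  hfin : perimeter E ≠ ⊤
  hP : perimeter E ≤ ∫⁻ y in Ω,
      ENNReal.ofReal (√(4 + ∑ j, (fderiv ℝ l y (Pi.single j 1)) ^ 2))
  smooth : ∀ n, ContDiff ℝ ∞ (f n)
  per : ∀ n, PeriodicFun (f n)
  mem : ∀ n x, f n x ∈ Icc (0 : ℝ) 1
  mass : ∀ n, ∫ x in cell, gradN (f n) x ≤ (perimeter E).toReal
  sec : ∀ᵐ y : Y2, ∀ᵐ t : ℝ, Tendsto (fun n => f n (ins i t y)) atTop
    (𝓝 (E.indicator 1 (ins i t y)))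

theorem Cc.integrable {Ω : Set Y2} {ψ : Y2 → ℝ} (h : Cc Ω ψ) : Integrable ψ :=
  h.cont.integrable_of_hasCompactSupport h.compact

theorem Cc.integrable_mul {Ω : Set Y2} {ψ : Y2 → ℝ} (h : Cc Ω ψ) {g : Y2 → ℝ}
    (hg : Continuous g) : Integrable (fun y => ψ y * g y) :=
  (h.cont.mul hg).integrable_of_hasCompactSupport h.compact.mul_right

theorem Cc.integrable_mulOn {Ω : Set Y2} (ho : IsOpen Ω) {ψ : Y2 → ℝ} (h : Cc Ω ψ) {g : Y2 → ℝ}
    (hg : ContDiffOn ℝ ∞ g Ω) : Integrable (fun y => ψ y * g y) :=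
  (h.mul ho hg).integrable

theorem Cc.pd {Ω : Set Y2} {ψ : Y2 → ℝ} (h : Cc Ω ψ) (v : Y2) :
    Cc Ω (fun y => fderiv ℝ ψ y v) := by
  have hsub : Function.support (fun y => fderiv ℝ ψ y v) ⊆ tsupport ψ := by
    intro y hy
    by_contra hc
    have : fderiv ℝ ψ y = 0 := by
      by_contra h'
      exact hc (support_fderiv_subset ℝ (f := ψ) h')
    exact hy (by simp [this])
  have hts : tsupport (fun y => fderiv ℝ ψ y v) ⊆ tsupport ψ :=
    closure_minimal hsub (isClosed_tsupport ψ)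
  exact ⟨(h.smooth.fderiv_right (m := ∞) (by simp)).clm_apply contDiff_const,
    HasCompactSupport.of_support_subset_isCompact h.compact hsub, hts.trans h.sub⟩

/-- a bound on the support -/
theorem Cc.bound {Ω : Set Y2} {ψ : Y2 → ℝ} (h : Cc Ω ψ) {g : Y2 → ℝ} (hg : ContinuousOn g Ω) :
    ∃ C, 0 ≤ C ∧ ∀ y, ψ y ≠ 0 → |g y| ≤ C := by
  obtain ⟨C, hC⟩ := h.compact.exists_bound_of_continuousOn (hg.mono h.sub)
  refine ⟨max C 0, le_max_right _ _, fun y hy => ?_⟩
  have : y ∈ tsupport ψ := subset_tsupport ψ hy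
  exact (hC y this).trans (le_max_left _ _)

section

variable {i : Fin 3} {E : Set R3} {Ω : Set Y2} {l : Y2 → ℝ} {f : ℕ → R3 → ℝ}
  (D : Dat i E Ω l f)

include D

theorem Dat.lim_M : ∀ᵐ y ∂(volume.restrict Ω),
    Tendsto (fun n => ∫ t in (0 : ℝ)..1, (1 : ℝ) * f n (ins i t y)) atTop (𝓝 (l y)) := by
  filter_upwards [ae_restrict_of_ae D.sec, D.hE, ae_restrict_mem D.ho.measurableSet] with y hy hEy hyΩ
  set A : Set ℝ := {t | (i.insertNth t y : R3) ∈ E} with hA
  have hAm : MeasurableSet A := RigidAux.sect_meas i D.hm y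
  have h1 : Tendsto (fun n => ∫ t in (0 : ℝ)..1, (1 : ℝ) * f n (ins i t y)) atTop
      (𝓝 (∫ t in (0 : ℝ)..1, A.indicator (1 : ℝ → ℝ) t)) := by
    refine intervalIntegral.tendsto_integral_filter_of_dominated_convergence (fun _ => (1 : ℝ))
      ?_ ?_ ?_ ?_
    · refine Eventually.of_forall fun n => ?_
      exact (continuous_const.mul ((D.smooth n).continuous.comp (ins_cont_t i y))).aestronglyMeasurable
    · refine Eventually.of_forall fun n => Eventually.of_forall fun t _ => ?_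
      have := D.mem n (ins i t y)
      rw [one_mul, Real.norm_eq_abs, abs_of_nonneg this.1]
      exact this.2
    · exact intervalIntegrable_const
    · filter_upwards [hy] with t ht _
      have e1 : E.indicator (1 : R3 → ℝ) (ins i t y) = A.indicator (1 : ℝ → ℝ) t := by
        by_cases h : (i.insertNth t y : R3) ∈ E
        · have h' : t ∈ A := h
          have h'' : ins i t y ∈ E := h
          rw [indicator_of_mem h', indicator_of_mem h'']; rfl
        · have h' : t ∉ A := h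
          have h'' : ins i t y ∉ E := h
          rw [indicator_of_notMem h', indicator_of_notMem h'']
      rw [← e1]
      simpa using ht
  have h2 : ∫ t in (0 : ℝ)..1, A.indicator (1 : ℝ → ℝ) t = l y := by
    rw [intervalIntegral.integral_of_le zero_le_one, setIntegral_indicator hAm]
    simp only [Pi.one_apply, integral_const, smul_eq_mul, mul_one, measureReal_restrict_apply_univ]
    have h3 : volume (Ioc (0 : ℝ) 1 ∩ A) = ENNReal.ofReal (l y) := by
      rw [← hEy, inter_comm, ← RigidAux.Ico_Ioc, inter_comm]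
      rfl
    rw [Measure.real, h3, ENNReal.toReal_ofReal (D.h0 y hyΩ).1.le]
  rw [h2] at h1
  exact h1

theorem Dat.lim_B {ψ : Y2 → ℝ} (hψ : Cc Ω ψ) (j : Fin 2) :
    Tendsto (fun n => ∫ y, ψ y * BB i (f n) j y) atTop (𝓝 (∫ y, ψ y * gg l j y)) := by
  have hpd := hψ.pd (Pi.single j 1)
  have h1 : ∀ n, ∫ y, ψ y * BB i (f n) j y
      = -∫ y, fderiv ℝ ψ y (Pi.single j 1) * ∫ t in (0 : ℝ)..1, (1 : ℝ) * f n (ins i t y) := by
    intro n
    rw [← ibp i (f n) (D.smooth n) hψ j (fun _ => (1 : ℝ)) continuous_const]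
    simp only [one_mul]
    rfl
  have h2 : ∫ y, ψ y * gg l j y = -∫ y, fderiv ℝ ψ y (Pi.single j 1) * l y := by
    refine integral_mul_fderiv_eq_neg_fderiv_mul_of_integrable (μ := (volume : Measure Y2))
      (f := ψ) (g := l) (v := Pi.single j 1) (hpd.integrable_mulOn D.ho D.hl)
      (hψ.integrable_mulOn D.ho (gg_smooth D.ho D.hl j)) (hψ.integrable_mulOn D.ho D.hl)
      (fun y _ => (hψ.smooth.differentiable (by simp)) y) (fun y hy => ?_)
    exact ((D.hl.contDiffAt (D.ho.mem_nhds (hψ.sub hy))).differentiableAt (by simp))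
  rw [h2]
  simp only [h1]
  refine Tendsto.neg ?_
  refine tendsto_integral_of_dominated_convergence (fun y => |fderiv ℝ ψ y (Pi.single j 1)|)
    ?_ hpd.integrable.abs ?_ ?_
  · intro n
    refine (hpd.cont.mul ?_).aestronglyMeasurable
    exact par_cont i (f n) (D.smooth n) (fun x => (1 : ℝ) * f n x)
      (continuous_const.mul (D.smooth n).continuous)
  · intro n
    refine Eventually.of_forall fun y => ?_
    rw [Real.norm_eq_abs, abs_mul]
    refine mul_le_of_le_one_right (abs_nonneg _) ?_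
    have h3 := intervalIntegral.norm_integral_le_of_norm_le_const (a := (0 : ℝ)) (b := 1) (C := 1)
      (f := fun t => (1 : ℝ) * f n (ins i t y)) (fun t _ => by
        have := D.mem n (ins i t y)
        rw [one_mul, Real.norm_eq_abs, abs_of_nonneg this.1]
        exact this.2)
    simpa using h3
  · have h4 := (ae_restrict_iff' D.ho.measurableSet).1 D.lim_M
    filter_upwards [h4] with y hy
    by_cases hyΩ : y ∈ Ω
    · exact (hy hyΩ).const_mul _
    · have : fderiv ℝ ψ y (Pi.single j 1) = 0 := hpd.zero hyΩ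
      simp [this]

theorem Dat.lower : ∀ᵐ y ∂(volume.restrict Ω),
    Tendsto (fun n => max 0 (2 - NN i (f n) y)) atTop (𝓝 0) := by
  filter_upwards [ae_restrict_of_ae D.sec, D.hE, ae_restrict_mem D.ho.measurableSet] with y hy hEy hyΩ
  set A : Set ℝ := {t | (i.insertNth t y : R3) ∈ E} with hA
  have hAm : MeasurableSet A := RigidAux.sect_meas i D.hm y
  have hderiv : ∀ n t, deriv (fun t => f n (ins i t y)) t
      = fderiv ℝ (f n) (ins i t y) (Pi.single i 1) := fun n t =>
    (hasDerivAt_t i (f n) ((D.smooth n).differentiable (by simp)) t y).deriv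
  have hseq : Inv.Seq1 (fun n t => f n (ins i t y)) A := by
    refine ⟨fun n => ?_, fun n t => ?_, fun n t => D.mem n _, hAm,
      fun t => RigidAux.sect_periodic i D.hp y t, ?_⟩
    · have h1 : ContDiff ℝ ∞ (fun t => ins i t y) :=
        (ins_contDiff i).comp (contDiff_id.prodMk contDiff_const)
      exact ((D.smooth n).comp h1).of_le (by exact_mod_cast le_top)
    · show f n (ins i (t + 1) y) = f n (ins i t y)
      rw [ins_one, D.per n]
    · filter_upwards [hy] with t ht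
      have e1 : E.indicator (1 : R3 → ℝ) (ins i t y) = A.indicator (1 : ℝ → ℝ) t := by
        by_cases h : (i.insertNth t y : R3) ∈ E
        · have h' : t ∈ A := h
          have h'' : ins i t y ∈ E := h
          rw [indicator_of_mem h', indicator_of_mem h'']; rfl
        · have h' : t ∉ A := h
          have h'' : ins i t y ∉ E := h
          rw [indicator_of_notMem h', indicator_of_notMem h'']
      rw [← e1]
      exact ht
  have hvol : volume (A ∩ Ioo 0 1) = ENNReal.ofReal (l y) := by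
    rw [← hEy]
    have : volume (A ∩ Ioo 0 1) = volume (A ∩ Ico 0 1) :=
      measure_congr ((ae_eq_refl A).inter Ioo_ae_eq_Ico)
    rw [this, inter_comm]
    rfl
  have hpos := D.h0 y hyΩ
  have h1 : volume (A ∩ Ioo 0 1) ≠ 0 := by
    rw [hvol]
    exact (ENNReal.ofReal_pos.2 hpos.1).ne'
  have h2 : volume (A ∩ Ioo 0 1) < 1 := by
    rw [hvol, ENNReal.ofReal_lt_one]
    exact hpos.2
  have htv : ∀ n, Inv.tv (fun t => f n (ins i t y)) = NN i (f n) y := by
    intro n
    unfold Inv.tv NN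
    simp only [hderiv]
  rw [Metric.tendsto_atTop]
  intro ε hε
  have h3 := Inv.tv_lower _ A hseq h1 h2 (ε / 2) (half_pos hε)
  obtain ⟨N, hN⟩ := eventually_atTop.1 h3
  refine ⟨N, fun n hn => ?_⟩
  have h4 := hN n hn
  rw [htv n] at h4
  rw [Real.dist_eq, sub_zero, abs_of_nonneg (le_max_left _ _), max_lt_iff]
  constructor <;> linarith

theorem Dat.lim_low {ψ : Y2 → ℝ} (hψ : Cc Ω ψ) (h0 : ∀ y, 0 ≤ ψ y) :
    Tendsto (fun n => ∫ y, ψ y * max 0 (2 - NN i (f n) y)) atTop (𝓝 0) := by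
  have h1 : Tendsto (fun n => ∫ y, ψ y * max 0 (2 - NN i (f n) y)) atTop
      (𝓝 (∫ y : Y2, (0 : ℝ))) := by
    refine tendsto_integral_of_dominated_convergence (fun y => ψ y * 2) ?_
      (hψ.integrable.mul_const 2) ?_ ?_
    · intro n
      exact (hψ.cont.mul (continuous_const.max
        (continuous_const.sub (NN_cont i (f n) (D.smooth n))))).aestronglyMeasurable
    · intro n
      refine Eventually.of_forall fun y => ?_
      have h2 := NN_nonneg i (f n) (D.smooth n) y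
      rw [Real.norm_eq_abs, abs_of_nonneg (mul_nonneg (h0 y) (le_max_left _ _))]
      refine mul_le_mul_of_nonneg_left (max_le (by norm_num) (by linarith)) (h0 y)
    · have h4 := (ae_restrict_iff' D.ho.measurableSet).1 D.lower
      filter_upwards [h4] with y hy
      by_cases hyΩ : y ∈ Ω
      · have := (hy hyΩ).const_mul (ψ y)
        rwa [mul_zero] at this
      · have : ψ y = 0 := hψ.zero hyΩ
        simp [this]
  rwa [integral_zero] at h1

/-- the weight `2 / w` -/
theorem Dat.al_smooth : ContDiffOn ℝ ∞ (fun y => 2 / ww l y) Ω :=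
  contDiffOn_const.div (ww_smooth D.ho D.hl) fun y _ => (ww_pos l y).ne'

theorem Dat.be_smooth (j : Fin 2) : ContDiffOn ℝ ∞ (fun y => gg l j y / ww l y) Ω :=
  (gg_smooth D.ho D.hl j).div (ww_smooth D.ho D.hl) fun y _ => (ww_pos l y).ne'

omit D in
theorem DD_eq (g : R3 → ℝ) (y : Y2) :
    DD i g l y = AA i g y - 2 / ww l y * NN i g y - gg l 0 y / ww l y * BB i g 0 y
      - gg l 1 y / ww l y * BB i g 1 y := by
  unfold DD
  field_simp
  ring

/-- splitting of the weighted deficit -/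
theorem Dat.split {ψ : Y2 → ℝ} (hψ : Cc Ω ψ) (n : ℕ) :
    Integrable (fun y => ψ y * DD i (f n) l y) ∧
    ∫ y, ψ y * AA i (f n) y = (∫ y, ψ y * DD i (f n) l y)
      + (∫ y, (ψ y * (2 / ww l y)) * NN i (f n) y)
      + (∫ y, (ψ y * (gg l 0 y / ww l y)) * BB i (f n) 0 y)
      + (∫ y, (ψ y * (gg l 1 y / ww l y)) * BB i (f n) 1 y) := by
  have hA := hψ.integrable_mul (AA_cont i (f n) (D.smooth n))
  have hN := (hψ.mul D.ho D.al_smooth).integrable_mul (NN_cont i (f n) (D.smooth n))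
  have hB0 := (hψ.mul D.ho (D.be_smooth 0)).integrable_mul (BB_cont i (f n) (D.smooth n) 0)
  have hB1 := (hψ.mul D.ho (D.be_smooth 1)).integrable_mul (BB_cont i (f n) (D.smooth n) 1)
  have e : (fun y => ψ y * DD i (f n) l y) = fun y => ψ y * AA i (f n) y
      - (ψ y * (2 / ww l y)) * NN i (f n) y - (ψ y * (gg l 0 y / ww l y)) * BB i (f n) 0 y
      - (ψ y * (gg l 1 y / ww l y)) * BB i (f n) 1 y := by
    funext y
    rw [DD_eq]
    ring
  have hD : Integrable (fun y => ψ y * DD i (f n) l y) := by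
    rw [e]
    exact ((hA.sub hN).sub hB0).sub hB1
  refine ⟨hD, ?_⟩
  rw [e]
  have e1 := integral_sub ((hA.sub hN).sub hB0) hB1
  have e2 := integral_sub (hA.sub hN) hB0
  have e3 := integral_sub hA hN
  simp only [Pi.sub_apply] at e1 e2 e3
  rw [e1, e2, e3]
  ring

/-- the weight identity -/
theorem Dat.weight {ψ : Y2 → ℝ} (hψ : Cc Ω ψ) :
    ∫ y, ψ y * ww l y = 2 * (∫ y, ψ y * (2 / ww l y))
      + (∫ y, (ψ y * (gg l 0 y / ww l y)) * gg l 0 y)
      + (∫ y, (ψ y * (gg l 1 y / ww l y)) * gg l 1 y) := by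
  have h0 := (hψ.mul D.ho D.al_smooth).integrable
  have h1 := (hψ.mul D.ho (D.be_smooth 0)).integrable_mulOn D.ho (gg_smooth D.ho D.hl 0)
  have h2 := (hψ.mul D.ho (D.be_smooth 1)).integrable_mulOn D.ho (gg_smooth D.ho D.hl 1)
  have e1 := integral_add ((h0.const_mul 2).add h1) h2
  have e2 := integral_add (h0.const_mul 2) h1
  simp only [Pi.add_apply] at e1 e2
  rw [← integral_const_mul, ← e2, ← e1]
  congr 1
  funext y
  have hw := ww_pos l y
  have hw2 := ww_sq l y
  field_simp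
  rw [hw2]
  ring

/-- lower bound -/
theorem Dat.LB {ψ : Y2 → ℝ} (hψ : Cc Ω ψ) (h0 : ∀ y, 0 ≤ ψ y) (ε : ℝ) (hε : 0 < ε) :
    ∀ᶠ n in atTop, (∫ y, ψ y * ww l y) - ε ≤ ∫ y, ψ y * AA i (f n) y := by
  have hρ := hψ.mul D.ho D.al_smooth
  have hρ0 : ∀ y, 0 ≤ ψ y * (2 / ww l y) := fun y =>
    mul_nonneg (h0 y) (div_nonneg (by norm_num) (ww_pos l y).le)
  have t1 := D.lim_low hρ hρ0
  have t2 := D.lim_B (hψ.mul D.ho (D.be_smooth 0)) 0
  have t3 := D.lim_B (hψ.mul D.ho (D.be_smooth 1)) 1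
  have hw := D.weight hψ
  have t4 : Tendsto (fun n => 2 * (∫ y, ψ y * (2 / ww l y))
      - (∫ y, (ψ y * (2 / ww l y)) * max 0 (2 - NN i (f n) y))
      + (∫ y, (ψ y * (gg l 0 y / ww l y)) * BB i (f n) 0 y)
      + (∫ y, (ψ y * (gg l 1 y / ww l y)) * BB i (f n) 1 y)) atTop (𝓝 (∫ y, ψ y * ww l y)) := by
    rw [hw]
    have := ((tendsto_const_nhds (x := 2 * ∫ y, ψ y * (2 / ww l y))).sub t1).add t2 |>.add t3
    rwa [sub_zero] at this
  filter_upwards [t4.eventually (lt_mem_nhds (sub_lt_self _ hε))] with n hn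
  obtain ⟨hD, hs⟩ := D.split hψ n
  have h1 : 0 ≤ ∫ y, ψ y * DD i (f n) l y :=
    integral_nonneg fun y => mul_nonneg (h0 y) (DD_nonneg i (f n) (D.smooth n) l y)
  have h2 : 2 * (∫ y, ψ y * (2 / ww l y)) - (∫ y, (ψ y * (2 / ww l y)) * max 0 (2 - NN i (f n) y))
      ≤ ∫ y, (ψ y * (2 / ww l y)) * NN i (f n) y := by
    rw [← integral_const_mul]
    have hi1 := (hρ.integrable.const_mul 2)
    have hi2 := hρ.integrable_mul (continuous_const.max
        (continuous_const.sub (NN_cont i (f n) (D.smooth n))) :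
        Continuous fun y => max 0 (2 - NN i (f n) y))
    have e1 := integral_sub hi1 hi2
    rw [← e1]
    refine integral_mono (hi1.sub hi2) (hρ.integrable_mul (NN_cont i (f n) (D.smooth n)))
      fun y => ?_
    have h3 := hρ0 y
    have h4 : 2 - NN i (f n) y ≤ max 0 (2 - NN i (f n) y) := le_max_right _ _
    nlinarith [mul_le_mul_of_nonneg_left h4 h3]
  rw [hs]
  linarith

/-- exhaustion of the area -/
theorem Dat.exhaust (ε : ℝ) (hε : 0 < ε) :
    ∃ χ : Y2 → ℝ, Cc Ω χ ∧ (∀ y, χ y ∈ Icc (0 : ℝ) 1) ∧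
      (perimeter E).toReal - ε ≤ ∫ y, χ y * ww l y := by
  have hwc : ContinuousOn (ww l) Ω := (ww_smooth D.ho D.hl).continuousOn
  set μ : Measure Y2 := (volume.restrict Ω).withDensity (fun y => ENNReal.ofReal (ww l y)) with hμ
  have hwm : AEMeasurable (fun y => ENNReal.ofReal (ww l y)) (volume.restrict Ω) :=
    (hwc.aemeasurable D.ho.measurableSet).ennreal_ofReal
  by_cases hPε : (perimeter E).toReal - ε < 0
  · obtain ⟨χ, h1, h2, -⟩ := exists_cut Ω D.ho ∅ isCompact_empty (empty_subset _)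
    exact ⟨χ, h1, h2, hPε.le.trans (integral_nonneg fun y => mul_nonneg (h2 y).1 (ww_pos l y).le)⟩
  push Not at hPε
  -- compact exhaustion
  have hP' : ENNReal.ofReal ((perimeter E).toReal - ε) < ∫⁻ y in Ω, ENNReal.ofReal (ww l y) := by
    have h1 : perimeter E ≤ ∫⁻ y in Ω, ENNReal.ofReal (ww l y) := by
      refine D.hP.trans (le_of_eq ?_)
      congr 1
      funext y
      rw [Fin.sum_univ_two]
      rfl
    refine lt_of_lt_of_le ?_ h1
    have h2 : (perimeter E).toReal - ε < (perimeter E).toReal := by linarith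
    have h3 := (ENNReal.ofReal_lt_ofReal_iff (by linarith : (0 : ℝ) < (perimeter E).toReal)).2 h2
    rwa [ENNReal.ofReal_toReal D.hfin] at h3
  obtain ⟨K, hK, hKΩ, hlt⟩ : ∃ K : Set Y2, IsCompact K ∧ K ⊆ Ω ∧
      ENNReal.ofReal ((perimeter E).toReal - ε) < ∫⁻ y in K, ENNReal.ofReal (ww l y) := by
    obtain ⟨F, hFc, hFsub, hFU, hFm⟩ := D.ho.exists_iUnion_isClosed
    set G : ℕ → Set Y2 := fun n => F n ∩ Metric.closedBall 0 2 with hG
    have hGU : ⋃ n, G n = Ω := by
      rw [← iUnion_inter, hFU]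
      refine inter_eq_left.2 fun y hy => ?_
      rw [mem_closedBall_zero_iff, pi_norm_le_iff_of_nonneg (by norm_num)]
      intro j
      have := D.hΩ hy j
      rw [Real.norm_eq_abs, abs_of_nonneg this.1.le]
      linarith [this.2]
    have hGm : Monotone G := fun a b hab => inter_subset_inter_left _ (hFm hab)
    have h2 : ∫⁻ y in Ω, ENNReal.ofReal (ww l y) = ⨆ n, ∫⁻ y in G n, ENNReal.ofReal (ww l y) := by
      rw [← hGU]
      exact setLIntegral_iUnion_of_directed _ (directed_of_isDirected_le hGm)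
    rw [h2] at hP'
    obtain ⟨n, hn⟩ := lt_iSup_iff.1 hP'
    refine ⟨G n, ?_, ?_, hn⟩
    · exact (isCompact_closedBall (0 : Y2) 2).inter_left (hFc n)
    · exact (subset_iUnion G n).trans hGU.le
  obtain ⟨χ, h1, h2, h3⟩ := exists_cut Ω D.ho K hK hKΩ
  refine ⟨χ, h1, h2, ?_⟩
  have hint : Integrable (fun y => χ y * ww l y) := h1.integrable_mulOn D.ho (ww_smooth D.ho D.hl)
  have h4 : ∫⁻ y in K, ENNReal.ofReal (ww l y) ≤ ENNReal.ofReal (∫ y, χ y * ww l y) := by
    rw [ofReal_integral_eq_lintegral_ofReal hint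
      (Eventually.of_forall fun y => mul_nonneg (h2 y).1 (ww_pos l y).le),
      ← lintegral_indicator hK.measurableSet]
    refine lintegral_mono fun y => ?_
    by_cases hy : y ∈ K
    · rw [indicator_of_mem hy, h3 y hy, one_mul]
    · rw [indicator_of_notMem hy]; exact zero_le
  have h5 := hlt.trans_le h4
  rw [ENNReal.ofReal_lt_ofReal_iff_of_nonneg hPε] at h5
  exact h5.le

/-- bound of the weighted gradient -/
theorem Dat.AA_le {ψ : Y2 → ℝ} (hψ : Cc Ω ψ) (h1 : ∀ y, ψ y ≤ 1) (n : ℕ) :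
    ∫ y, ψ y * AA i (f n) y ≤ (perimeter E).toReal := by
  obtain ⟨hA1, hA2⟩ := AA_total i (f n) (D.smooth n) Ω D.ho D.hΩ
  refine le_trans ?_ (hA2.trans (D.mass n))
  rw [← integral_indicator D.ho.measurableSet]
  refine integral_mono (hψ.integrable_mul (AA_cont i (f n) (D.smooth n)))
    (hA1.integrable_indicator D.ho.measurableSet) fun y => ?_
  have h2 := AA_nonneg i (f n) (D.smooth n) y
  by_cases hy : y ∈ Ω
  · simp only [indicator_of_mem hy]
    nlinarith [h1 y]
  · simp only [indicator_of_notMem hy, hψ.zero hy, zero_mul]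
    exact le_rfl

/-- upper bound -/
theorem Dat.UB {χ : Y2 → ℝ} (hχ : Cc Ω χ) (h01 : ∀ y, χ y ∈ Icc (0 : ℝ) 1) (ε : ℝ) (hε : 0 < ε) :
    ∀ᶠ n in atTop, ∫ y, χ y * AA i (f n) y ≤ (∫ y, χ y * ww l y) + ε := by
  obtain ⟨χ₀, hχ₀, h01', hW⟩ := D.exhaust (ε / 2) (half_pos hε)
  have hg : ContDiffOn ℝ ∞ (fun y => 1 - χ y) Ω := contDiffOn_const.sub hχ.smooth.contDiffOn
  have hχ' := hχ₀.mul D.ho hg
  have hχ'0 : ∀ y, 0 ≤ χ₀ y * (1 - χ y) := fun y =>
    mul_nonneg (h01' y).1 (sub_nonneg.2 (h01 y).2)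
  have hw := ww_smooth D.ho D.hl
  filter_upwards [D.LB hχ' hχ'0 (ε / 2) (half_pos hε)] with n hn
  have hsum : (∫ y, χ y * AA i (f n) y) + (∫ y, χ₀ y * (1 - χ y) * AA i (f n) y)
      ≤ (perimeter E).toReal := by
    have hc : Cc Ω (fun y => χ y + χ₀ y * (1 - χ y)) := by
      refine ⟨hχ.smooth.add hχ'.smooth, hχ.compact.add hχ'.compact, ?_⟩
      refine (tsupport_add χ (fun y => χ₀ y * (1 - χ y))).trans ?_
      exact union_subset hχ.sub hχ'.sub
    have h1 := D.AA_le hc (fun y => by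
      have a1 := (h01 y).1
      have a2 := (h01 y).2
      have b1 := (h01' y).1
      have b2 := (h01' y).2
      nlinarith [mul_le_mul_of_nonneg_right b2 (sub_nonneg.2 a2)]) n
    have hA := AA_cont i (f n) (D.smooth n)
    rw [← integral_add (hχ.integrable_mul hA) (hχ'.integrable_mul hA)]
    refine le_trans (le_of_eq ?_) h1
    congr 1
    funext y
    ring
  have hWW : (∫ y, χ₀ y * ww l y) ≤ (∫ y, χ y * ww l y) + (∫ y, χ₀ y * (1 - χ y) * ww l y) := by
    rw [← integral_add (hχ.integrable_mulOn D.ho hw) (hχ'.integrable_mulOn D.ho hw)]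
    refine integral_mono (hχ₀.integrable_mulOn D.ho hw)
      ((hχ.integrable_mulOn D.ho hw).add (hχ'.integrable_mulOn D.ho hw)) fun y => ?_
    have h2 := ww_pos l y
    have a1 := (h01 y).1
    have b2 := (h01' y).2
    have h3 : 0 ≤ χ y * (1 - χ₀ y) * ww l y :=
      mul_nonneg (mul_nonneg a1 (sub_nonneg.2 b2)) h2.le
    show χ₀ y * ww l y ≤ χ y * ww l y + χ₀ y * (1 - χ y) * ww l y
    nlinarith
  linarith

theorem Dat.lim_A {χ : Y2 → ℝ} (hχ : Cc Ω χ) (h01 : ∀ y, χ y ∈ Icc (0 : ℝ) 1) :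
    Tendsto (fun n => ∫ y, χ y * AA i (f n) y) atTop (𝓝 (∫ y, χ y * ww l y)) := by
  rw [Metric.tendsto_atTop]
  intro ε hε
  obtain ⟨N, hN⟩ := eventually_atTop.1 ((D.LB hχ (fun y => (h01 y).1) (ε / 2) (half_pos hε)).and
    (D.UB hχ h01 (ε / 2) (half_pos hε)))
  refine ⟨N, fun n hn => ?_⟩
  obtain ⟨h1, h2⟩ := hN n hn
  rw [Real.dist_eq, abs_lt]
  constructor <;> linarith

/-- the weighted deficit tends to zero, and the variation tends to two -/
theorem Dat.lim_D {χ : Y2 → ℝ} (hχ : Cc Ω χ) (h01 : ∀ y, χ y ∈ Icc (0 : ℝ) 1) :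
    Tendsto (fun n => ∫ y, χ y * DD i (f n) l y) atTop (𝓝 0) ∧
    Tendsto (fun n => ∫ y, (χ y * (2 / ww l y)) * |NN i (f n) y - 2|) atTop (𝓝 0) := by
  have hρ := hχ.mul D.ho D.al_smooth
  have hρ0 : ∀ y, 0 ≤ χ y * (2 / ww l y) := fun y =>
    mul_nonneg (h01 y).1 (div_nonneg (by norm_num) (ww_pos l y).le)
  have t0 := D.lim_A hχ h01
  have t1 := D.lim_low hρ hρ0
  have t2 := D.lim_B (hχ.mul D.ho (D.be_smooth 0)) 0
  have t3 := D.lim_B (hχ.mul D.ho (D.be_smooth 1)) 1
  have hw := D.weight hχ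
  -- S n
  have tS : Tendsto (fun n => (∫ y, χ y * AA i (f n) y)
      - (∫ y, (χ y * (gg l 0 y / ww l y)) * BB i (f n) 0 y)
      - (∫ y, (χ y * (gg l 1 y / ww l y)) * BB i (f n) 1 y)) atTop
      (𝓝 (2 * ∫ y, χ y * (2 / ww l y))) := by
    have := (t0.sub t2).sub t3
    rw [hw] at this
    convert this using 2
    ring
  have hlow : ∀ n, 2 * (∫ y, χ y * (2 / ww l y))
      - (∫ y, (χ y * (2 / ww l y)) * max 0 (2 - NN i (f n) y))
      ≤ ∫ y, (χ y * (2 / ww l y)) * NN i (f n) y := by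
    intro n
    rw [← integral_const_mul]
    have hi1 := (hρ.integrable.const_mul 2)
    have hi2 := hρ.integrable_mul (continuous_const.max
        (continuous_const.sub (NN_cont i (f n) (D.smooth n))) :
        Continuous fun y => max 0 (2 - NN i (f n) y))
    have e1 := integral_sub hi1 hi2
    rw [← e1]
    refine integral_mono (hi1.sub hi2) (hρ.integrable_mul (NN_cont i (f n) (D.smooth n)))
      fun y => ?_
    have h3 := hρ0 y
    have h4 : 2 - NN i (f n) y ≤ max 0 (2 - NN i (f n) y) := le_max_right _ _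
    nlinarith [mul_le_mul_of_nonneg_left h4 h3]
  have hX0 : ∀ n, 0 ≤ ∫ y, χ y * DD i (f n) l y := fun n =>
    integral_nonneg fun y => mul_nonneg (h01 y).1 (DD_nonneg i (f n) (D.smooth n) l y)
  have tX : Tendsto (fun n => ∫ y, χ y * DD i (f n) l y) atTop (𝓝 0) := by
    have tu : Tendsto (fun n => ((∫ y, χ y * AA i (f n) y)
      - (∫ y, (χ y * (gg l 0 y / ww l y)) * BB i (f n) 0 y)
      - (∫ y, (χ y * (gg l 1 y / ww l y)) * BB i (f n) 1 y)) - 2 * (∫ y, χ y * (2 / ww l y))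
      + (∫ y, (χ y * (2 / ww l y)) * max 0 (2 - NN i (f n) y))) atTop (𝓝 0) := by
      have := (tS.sub (tendsto_const_nhds (x := 2 * ∫ y, χ y * (2 / ww l y)))).add t1
      rwa [sub_self, add_zero] at this
    refine squeeze_zero hX0 (fun n => ?_) tu
    obtain ⟨-, hs⟩ := D.split hχ n
    have := hlow n
    linarith
  refine ⟨tX, ?_⟩
  -- the variation
  have tN : Tendsto (fun n => ∫ y, (χ y * (2 / ww l y)) * NN i (f n) y) atTop
      (𝓝 (2 * ∫ y, χ y * (2 / ww l y))) := by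
    have h5 := tS.sub tX
    rw [sub_zero] at h5
    refine h5.congr fun n => ?_
    obtain ⟨-, hs⟩ := D.split hχ n
    linarith
  have tf : Tendsto (fun n => ((∫ y, (χ y * (2 / ww l y)) * NN i (f n) y)
      - 2 * (∫ y, χ y * (2 / ww l y)))
      + 2 * (∫ y, (χ y * (2 / ww l y)) * max 0 (2 - NN i (f n) y))) atTop (𝓝 0) := by
    have := (tN.sub (tendsto_const_nhds (x := 2 * ∫ y, χ y * (2 / ww l y)))).add (t1.const_mul 2)
    rwa [sub_self, mul_zero, add_zero] at this
  refine tf.congr fun n => ?_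
  have hNc := NN_cont i (f n) (D.smooth n)
  have hi1 := hρ.integrable_mul hNc
  have hi2 := hρ.integrable_mul (continuous_const.max (continuous_const.sub hNc) :
        Continuous fun y => max 0 (2 - NN i (f n) y))
  have hi3 := hρ.integrable.const_mul 2
  have e1 := integral_sub hi1 hi3
  have e2 := integral_add (hi1.sub hi3) (hi2.const_mul 2)
  rw [integral_const_mul] at e1
  simp only [Pi.sub_apply] at e2
  rw [integral_const_mul] at e2
  rw [← e1, ← e2]
  congr 1
  funext y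
  rcases le_total (NN i (f n) y) 2 with h | h
  · rw [max_eq_right (by linarith), abs_of_nonpos (by linarith)]
    ring
  · rw [max_eq_left (by linarith), abs_of_nonneg (by linarith)]
    ring

end

/-- [RD] (a) -/
theorem deficit (i : Fin 3) (E : Set R3) (hm : MeasurableSet E) (hp : PeriodicSet E)
    (Ω : Set (Fin 2 → ℝ)) (hΩo : IsOpen Ω) (hΩ : Ω ⊆ {y | ∀ j, y j ∈ Ioo (0 : ℝ) 1})
    (l : (Fin 2 → ℝ) → ℝ) (hl : ContDiffOn ℝ ∞ l Ω) (h0 : ∀ y ∈ Ω, 0 < l y ∧ l y < 1)
    (hE : ∀ᵐ y ∂(volume.restrict Ω),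
      volume {t ∈ Ico (0 : ℝ) 1 | (i.insertNth t y : R3) ∈ E} = ENNReal.ofReal (l y))
    (hfin : perimeter E ≠ ⊤)
    (hP : perimeter E ≤ ∫⁻ y in Ω,
      ENNReal.ofReal (√(4 + ∑ j, (fderiv ℝ l y (Pi.single j 1)) ^ 2))) :
    ∃ f : ℕ → R3 → ℝ, (∀ n, ContDiff ℝ ∞ (f n)) ∧ (∀ n, PeriodicFun (f n)) ∧
      (∀ n x, f n x ∈ Icc (0 : ℝ) 1) ∧
      (∀ᵐ x : R3, Tendsto (fun n => f n x) atTop (𝓝 (E.indicator 1 x))) ∧
      (∀ᵐ y ∂(volume.restrict Ω), ∀ᵐ t : ℝ,
        Tendsto (fun n => f n (ins i t y)) atTop (𝓝 (E.indicator 1 (ins i t y)))) ∧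
      ∀ χ : Y2 → ℝ, Cc Ω χ → (∀ y, χ y ∈ Icc (0 : ℝ) 1) →
        Tendsto (fun n => ∫ y, χ y * |NN i (f n) y - 2|) atTop (𝓝 0) ∧
        ∀ j, Tendsto (fun n => ∫ y, χ y * TT i (f n) l j y) atTop (𝓝 0) := by
  obtain ⟨f, h1, h2, h3, h4, h5⟩ := mol_seq E hm hp hfin
  have hsec : ∀ᵐ y : Y2, ∀ᵐ t : ℝ, Tendsto (fun n => f n (ins i t y)) atTop
    (𝓝 (E.indicator 1 (ins i t y))) := RigidAux.sections_of_ae_prop i _ h5
  have D : Dat i E Ω l f := ⟨hm, hp, hΩo, hΩ, hl, h0, hE, hfin, hP, h1, h2, h3, h4, hsec⟩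
  refine ⟨f, h1, h2, h3, h5, ae_restrict_of_ae hsec, fun χ hχ h01 => ?_⟩
  obtain ⟨tD, tN⟩ := D.lim_D hχ h01
  constructor
  · obtain ⟨C, hC0, hC⟩ := hχ.bound (ww_smooth D.ho D.hl).continuousOn
    have t6 : Tendsto (fun n => C / 2 * ∫ y, (χ y * (2 / ww l y)) * |NN i (f n) y - 2|) atTop
        (𝓝 0) := by
      have := tN.const_mul (C / 2)
      rwa [mul_zero] at this
    refine squeeze_zero (fun n => integral_nonneg fun y =>
      mul_nonneg (h01 y).1 (abs_nonneg _)) (fun n => ?_) t6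
    have hNc := NN_cont i (f n) (h1 n)
    rw [← integral_const_mul]
    refine integral_mono (hχ.integrable_mul (hNc.sub continuous_const).abs)
      (((hχ.mul D.ho D.al_smooth).integrable_mul (hNc.sub continuous_const).abs).const_mul _)
      fun y => ?_
    show χ y * |NN i (f n) y - 2| ≤ C / 2 * ((χ y * (2 / ww l y)) * |NN i (f n) y - 2|)
    by_cases hy : χ y = 0
    · rw [hy]; simp
    · have hw := ww_pos l y
      have h6 := hC y hy
      rw [abs_of_pos hw] at h6
      have h7 : χ y * |NN i (f n) y - 2| * 1 ≤ χ y * |NN i (f n) y - 2| * (C / ww l y) :=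
        mul_le_mul_of_nonneg_left ((one_le_div hw).2 h6)
          (mul_nonneg (h01 y).1 (abs_nonneg _))
      calc χ y * |NN i (f n) y - 2| = χ y * |NN i (f n) y - 2| * 1 := (mul_one _).symm
        _ ≤ χ y * |NN i (f n) y - 2| * (C / ww l y) := h7
        _ = C / 2 * ((χ y * (2 / ww l y)) * |NN i (f n) y - 2|) := by ring
  · intro j
    obtain ⟨C, hC0, hC⟩ := hχ.bound (gg_smooth D.ho D.hl j).continuousOn
    set G : ℝ := 1 + C / 2 with hG
    have hG0 : 0 < G := by positivity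
    set P : ℝ := (perimeter E).toReal with hPdef
    have hP0 : 0 ≤ P := ENNReal.toReal_nonneg
    rw [Metric.tendsto_atTop]
    intro δ hδ
    set ε : ℝ := δ / (2 * G * (P + 1)) with hε
    have hε0 : 0 < ε := by positivity
    have hεP : G * (ε * P) < δ / 2 := by
      have h6 : G * (ε * (P + 1)) = δ / 2 := by
        rw [hε]
        field_simp
      have h7 : G * (ε * P) < G * (ε * (P + 1)) :=
        mul_lt_mul_of_pos_left (mul_lt_mul_of_pos_left (by linarith) hε0) hG0
      linarith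
    have t7 : Tendsto (fun n => G * ((∫ y, χ y * DD i (f n) l y) / (2 * ε))) atTop (𝓝 0) := by
      have := (tD.div_const (2 * ε)).const_mul G
      rwa [zero_div, mul_zero] at this
    obtain ⟨N, hN⟩ := eventually_atTop.1 (t7.eventually (gt_mem_nhds (half_pos hδ)))
    refine ⟨N, fun n hn => ?_⟩
    have h8 := hN n hn
    have hT0 : ∀ y, 0 ≤ TT i (f n) l j y := fun y =>
      intervalIntegral.integral_nonneg zero_le_one fun _ _ => abs_nonneg _
    rw [Real.dist_eq, sub_zero, abs_of_nonneg (integral_nonneg fun y =>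
      mul_nonneg (h01 y).1 (hT0 y))]
    have hA := hχ.integrable_mul (AA_cont i (f n) (h1 n))
    have hD := (D.split hχ n).1
    have h9 : ∫ y, χ y * TT i (f n) l j y ≤
        G * (ε * (∫ y, χ y * AA i (f n) y) + (∫ y, χ y * DD i (f n) l y) / (2 * ε)) := by
      have e1 : G * (ε * (∫ y, χ y * AA i (f n) y) + (∫ y, χ y * DD i (f n) l y) / (2 * ε))
          = ∫ y, G * (ε * (χ y * AA i (f n) y) + (χ y * DD i (f n) l y) / (2 * ε)) := by
        rw [integral_const_mul, integral_add (hA.const_mul _) (hD.div_const _),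
          integral_const_mul, integral_div]
      rw [e1]
      refine integral_mono_of_nonneg (Eventually.of_forall fun y =>
        mul_nonneg (h01 y).1 (hT0 y)) (((hA.const_mul _).add (hD.div_const _)).const_mul _)
        (Eventually.of_forall fun y => ?_)
      show χ y * TT i (f n) l j y ≤
        G * (ε * (χ y * AA i (f n) y) + (χ y * DD i (f n) l y) / (2 * ε))
      by_cases hy : χ y = 0
      · rw [hy]; simp
      · have h10 := TT_le i (f n) (h1 n) l j y ε hε0
        have h11 := hC y hy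
        have hAA := AA_nonneg i (f n) (h1 n) y
        have hDD := DD_nonneg i (f n) (h1 n) l y
        have hq : 0 ≤ ε * AA i (f n) y + DD i (f n) l y / (2 * ε) := by positivity
        have h12 : TT i (f n) l j y ≤ G * (ε * AA i (f n) y + DD i (f n) l y / (2 * ε)) := by
          refine h10.trans (mul_le_mul_of_nonneg_right ?_ hq)
          rw [hG]
          linarith
        calc χ y * TT i (f n) l j y
            ≤ χ y * (G * (ε * AA i (f n) y + DD i (f n) l y / (2 * ε))) :=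
              mul_le_mul_of_nonneg_left h12 (h01 y).1
          _ = _ := by ring
    have h13 := D.AA_le hχ (fun y => (h01 y).2) n
    have h14 : G * (ε * (∫ y, χ y * AA i (f n) y)) ≤ G * (ε * P) :=
      mul_le_mul_of_nonneg_left (mul_le_mul_of_nonneg_left h13 hε0.le) hG0.le
    calc ∫ y, χ y * TT i (f n) l j y
        ≤ G * (ε * (∫ y, χ y * AA i (f n) y) + (∫ y, χ y * DD i (f n) l y) / (2 * ε)) := h9
      _ = G * (ε * (∫ y, χ y * AA i (f n) y)) + G * ((∫ y, χ y * DD i (f n) l y) / (2 * ε)) := by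
          ring
      _ < δ / 2 + δ / 2 := by linarith
      _ = δ := by ring

end P232.Rd
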