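import Vale.Agent.P232.DeficitC
import Vale.Agent.P232.Circle
import Vale.Agent.P232.RigidAux

/-!
# P232 [RD], part D: from the deficit to the weak identity for the centres
-/

open MeasureTheory Set Filter Topology
open scoped ENNReal ContDiff

namespace P232.Rd.D

/-! ### the two harmonics -/

/-- the first harmonics -/
structure Harm (η : ℝ → ℝ) : Prop where
  cont : Continuous η
  per : ∀ t, η (t + 1) = η t
  bd : ∀ t, |η t| ≤ 1
  two : ∀ c l, η (c - l / 2) + η (c + l / 2) = 2 * Real.cos (Real.pi * l) * η c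
  int : ∀ c l, ∫ t in (c - l / 2)..(c + l / 2), η t = Real.sin (Real.pi * l) / Real.pi * η c

theorem harm_cos : Harm (fun t => Real.cos (2 * Real.pi * t)) where
  cont := by fun_prop
  per := fun t => by
    show Real.cos (2 * Real.pi * (t + 1)) = _
    rw [mul_add, mul_one, Real.cos_add_two_pi]
  bd := fun t => Real.abs_cos_le_one _
  two := fun c l => by
    show Real.cos (2 * Real.pi * (c - l / 2)) + Real.cos (2 * Real.pi * (c + l / 2)) = _
    rw [show 2 * Real.pi * (c - l / 2) = 2 * Real.pi * c - Real.pi * l by ring,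
      show 2 * Real.pi * (c + l / 2) = 2 * Real.pi * c + Real.pi * l by ring,
      Real.cos_sub, Real.cos_add]
    ring
  int := fun c l => by
    have hd : ∀ t ∈ uIcc (c - l / 2) (c + l / 2),
        HasDerivAt (fun t => Real.sin (2 * Real.pi * t) / (2 * Real.pi))
          (Real.cos (2 * Real.pi * t)) t := by
      intro t _
      have h1 : HasDerivAt (fun t : ℝ => 2 * Real.pi * t) (2 * Real.pi) t := by
        simpa using (hasDerivAt_id t).const_mul (2 * Real.pi)
      have h2 := (h1.sin).div_const (2 * Real.pi)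
      have h3 : Real.cos (2 * Real.pi * t) * (2 * Real.pi) / (2 * Real.pi)
          = Real.cos (2 * Real.pi * t) := by
        field_simp
      rwa [h3] at h2
    rw [intervalIntegral.integral_eq_sub_of_hasDerivAt hd
      ((by fun_prop : Continuous fun t : ℝ => Real.cos (2 * Real.pi * t)).intervalIntegrable _ _)]
    rw [show 2 * Real.pi * (c - l / 2) = 2 * Real.pi * c - Real.pi * l by ring,
      show 2 * Real.pi * (c + l / 2) = 2 * Real.pi * c + Real.pi * l by ring,
      Real.sin_sub, Real.sin_add]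
    field_simp
    ring

theorem harm_sin : Harm (fun t => Real.sin (2 * Real.pi * t)) where
  cont := by fun_prop
  per := fun t => by
    show Real.sin (2 * Real.pi * (t + 1)) = _
    rw [mul_add, mul_one, Real.sin_add_two_pi]
  bd := fun t => Real.abs_sin_le_one _
  two := fun c l => by
    show Real.sin (2 * Real.pi * (c - l / 2)) + Real.sin (2 * Real.pi * (c + l / 2)) = _
    rw [show 2 * Real.pi * (c - l / 2) = 2 * Real.pi * c - Real.pi * l by ring,
      show 2 * Real.pi * (c + l / 2) = 2 * Real.pi * c + Real.pi * l by ring,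
      Real.sin_sub, Real.sin_add]
    ring
  int := fun c l => by
    have hd : ∀ t ∈ uIcc (c - l / 2) (c + l / 2),
        HasDerivAt (fun t => -Real.cos (2 * Real.pi * t) / (2 * Real.pi))
          (Real.sin (2 * Real.pi * t)) t := by
      intro t _
      have h1 : HasDerivAt (fun t : ℝ => 2 * Real.pi * t) (2 * Real.pi) t := by
        simpa using (hasDerivAt_id t).const_mul (2 * Real.pi)
      have h2 := (h1.cos.neg).div_const (2 * Real.pi)
      have h3 : -(-Real.sin (2 * Real.pi * t) * (2 * Real.pi)) / (2 * Real.pi)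
          = Real.sin (2 * Real.pi * t) := by
        field_simp
      rwa [h3] at h2
    rw [intervalIntegral.integral_eq_sub_of_hasDerivAt hd
      ((by fun_prop : Continuous fun t : ℝ => Real.sin (2 * Real.pi * t)).intervalIntegrable _ _)]
    rw [show 2 * Real.pi * (c - l / 2) = 2 * Real.pi * c - Real.pi * l by ring,
      show 2 * Real.pi * (c + l / 2) = 2 * Real.pi * c + Real.pi * l by ring,
      Real.cos_sub, Real.cos_add]
    field_simp
    ring

/-- the arc with centre `c` and length `l` -/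
def arc (c l : ℝ) : Set ℝ := {t | dz (t - c) < l / 2}

theorem arc_meas (c l : ℝ) : MeasurableSet (arc c l) :=
  measurableSet_lt (RigidAux.measurable_dz.comp (measurable_id.sub_const c)) measurable_const

theorem arc_per (c l t : ℝ) : t + 1 ∈ arc c l ↔ t ∈ arc c l := by
  show dz (t + 1 - c) < l / 2 ↔ dz (t - c) < l / 2
  rw [show t + 1 - c = (t - c) + 1 by ring, Circ.dz_per]

theorem arc_int (η : ℝ → ℝ) (hη : Harm η) (A : Set ℝ) (c l : ℝ) (h0 : 0 < l) (h1 : l < 1)
    (hA : A =ᵐ[volume] arc c l) :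
    ∫ t in (0 : ℝ)..1, η t * A.indicator 1 t = Real.sin (Real.pi * l) / Real.pi * η c := by
  have e1 : ∫ t in (0 : ℝ)..1, η t * A.indicator (1 : ℝ → ℝ) t
      = ∫ t in (0 : ℝ)..1, η t * (arc c l).indicator 1 t := by
    refine intervalIntegral.integral_congr_ae ?_
    filter_upwards [hA.mem_iff] with t ht _
    by_cases h : t ∈ A
    · rw [indicator_of_mem h, indicator_of_mem (ht.1 h)]
    · rw [indicator_of_notMem h, indicator_of_notMem fun h' => h (ht.2 h')]
  rw [e1, Circ.per_int _ (fun t => by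
    rw [hη.per, Circ.ind_per (arc c l) (arc_per c l)]) (c - 1 / 2), ← hη.int c l,
    intervalIntegral.integral_of_le (by linarith), intervalIntegral.integral_of_le (by linarith),
    integral_Ioc_eq_integral_Ioo (x := c - l / 2)]
  have e2 : ∀ t ∈ Ioc (c - 1 / 2) (c - 1 / 2 + 1), η t * (arc c l).indicator (1 : ℝ → ℝ) t
      = (Ioo (c - l / 2) (c + l / 2)).indicator η t := by
    intro t ht
    have h2 : t ∈ arc c l ↔ t ∈ Ioo (c - l / 2) (c + l / 2) := by
      show dz (t - c) < l / 2 ↔ _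
      rw [RigidAux.dz_of_mem (by linarith [ht.1]) (by linarith [ht.2]), abs_lt, mem_Ioo]
      constructor
      · rintro ⟨h3, h4⟩; constructor <;> linarith
      · rintro ⟨h3, h4⟩; constructor <;> linarith
    by_cases h : t ∈ arc c l
    · rw [indicator_of_mem h, indicator_of_mem (h2.1 h)]
      simp
    · rw [indicator_of_notMem h, indicator_of_notMem fun h' => h (h2.2 h'), mul_zero]
  rw [setIntegral_congr_fun measurableSet_Ioc e2, setIntegral_indicator measurableSet_Ioo]
  congr 2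
  rw [inter_eq_right]
  intro t ht
  exact ⟨by linarith [ht.1], by linarith [ht.2]⟩

/-! ### the centre -/

/-- the section of `E` -/
def sec (i : Fin 3) (E : Set R3) (y : Y2) : Set ℝ := {t | ins i t y ∈ E}

/-- harmonics of the sections -/
noncomputable def Zc (i : Fin 3) (E : Set R3) (η : ℝ → ℝ) (y : Y2) : ℝ :=
  ∫ t in (0 : ℝ)..1, η t * E.indicator 1 (ins i t y)

theorem Zc_meas (i : Fin 3) (E : Set R3) (hm : MeasurableSet E) (η : ℝ → ℝ) (hη : Continuous η) :
    Measurable (Zc i E η) := by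
  have h1 : StronglyMeasurable (Function.uncurry fun (y : Y2) (t : ℝ) =>
      η t * E.indicator (1 : R3 → ℝ) (ins i t y)) := by
    refine Measurable.stronglyMeasurable ?_
    refine (hη.measurable.comp measurable_snd).mul ?_
    exact (measurable_one.indicator hm).comp ((ins_continuous i).measurable.comp
      (measurable_snd.prodMk measurable_fst))
  have h2 := StronglyMeasurable.integral_prod_right (ν := volume.restrict (Ioc (0 : ℝ) 1)) h1
  have h3 : Zc i E η = fun y => ∫ t in Ioc (0 : ℝ) 1, η t * E.indicator 1 (ins i t y) := by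
    funext y
    unfold Zc
    rw [intervalIntegral.integral_of_le zero_le_one]
  rw [h3]
  exact h2.measurable

theorem Zc_arc (i : Fin 3) (E : Set R3) (η : ℝ → ℝ) (hη : Harm η) (y : Y2) (c l : ℝ) (h0 : 0 < l)
    (h1 : l < 1) (hA : sec i E y =ᵐ[volume] arc c l) :
    Zc i E η y = Real.sin (Real.pi * l) / Real.pi * η c :=
  arc_int η hη (sec i E y) c l h0 h1 hA

/-- the centre of the section -/
noncomputable def cen (i : Fin 3) (E : Set R3) (y : Y2) : ℝ :=
  Complex.arg ((Zc i E (fun t => Real.cos (2 * Real.pi * t)) y : ℂ) +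
    (Zc i E (fun t => Real.sin (2 * Real.pi * t)) y : ℂ) * Complex.I) / (2 * Real.pi)

theorem cen_meas (i : Fin 3) (E : Set R3) (hm : MeasurableSet E) : Measurable (cen i E) := by
  unfold cen
  refine Measurable.div_const (Complex.measurable_arg.comp ?_) _
  exact (Complex.measurable_ofReal.comp (Zc_meas i E hm _ harm_cos.cont)).add
    ((Complex.measurable_ofReal.comp (Zc_meas i E hm _ harm_sin.cont)).mul_const _)

theorem cen_spec (i : Fin 3) (E : Set R3) (y : Y2) (c l : ℝ) (h0 : 0 < l)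
    (h1 : l < 1) (hA : sec i E y =ᵐ[volume] arc c l) : ∃ k : ℤ, cen i E y = c + k := by
  have hσ : 0 < Real.sin (Real.pi * l) / Real.pi := by
    refine div_pos (Real.sin_pos_of_pos_of_lt_pi (by positivity) ?_) Real.pi_pos
    nlinarith [Real.pi_pos]
  set σ := Real.sin (Real.pi * l) / Real.pi with hσd
  set z : ℂ := (Zc i E (fun t => Real.cos (2 * Real.pi * t)) y : ℂ) +
    (Zc i E (fun t => Real.sin (2 * Real.pi * t)) y : ℂ) * Complex.I with hz
  have hz1 : z = (σ : ℂ) * Complex.exp ((2 * Real.pi * c : ℝ) * Complex.I) := by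
    rw [hz, Zc_arc i E _ harm_cos y c l h0 h1 hA, Zc_arc i E _ harm_sin y c l h0 h1 hA, ← hσd,
      Complex.exp_mul_I, ← Complex.ofReal_cos, ← Complex.ofReal_sin]
    push_cast
    ring
  have hn : ‖z‖ = σ := by
    rw [hz1, norm_mul, Complex.norm_exp_ofReal_mul_I, mul_one, Complex.norm_real,
      Real.norm_of_nonneg hσ.le]
  have h2 := Complex.norm_mul_exp_arg_mul_I z
  rw [hn] at h2
  have h3 : Complex.exp (z.arg * Complex.I) = Complex.exp ((2 * Real.pi * c : ℝ) * Complex.I) := by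
    have h4 : (σ : ℂ) ≠ 0 := by exact_mod_cast hσ.ne'
    exact mul_left_cancel₀ h4 (h2.trans hz1)
  obtain ⟨k, hk⟩ := Complex.exp_eq_exp_iff_exists_int.1 h3
  refine ⟨k, ?_⟩
  have h5 : z.arg = 2 * Real.pi * c + k * (2 * Real.pi) := by
    have h6 : (z.arg : ℂ) * Complex.I = ((2 * Real.pi * c + k * (2 * Real.pi) : ℝ) : ℂ) * Complex.I := by
      rw [hk]; push_cast; ring
    have h7 := mul_right_cancel₀ Complex.I_ne_zero h6
    exact_mod_cast h7
  show z.arg / (2 * Real.pi) = c + k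
  rw [h5]
  field_simp

theorem dz_add_int (t : ℝ) (k : ℤ) : dz (t + k) = dz t := by
  unfold dz
  rw [round_add_intCast]
  push_cast
  ring_nf

theorem harm_add_int (η : ℝ → ℝ) (hη : Harm η) (t : ℝ) (k : ℤ) : η (t + k) = η t := by
  have hp : Function.Periodic η 1 := hη.per
  have := hp.int_mul k t
  simpa using this

theorem sec_cen (i : Fin 3) (E : Set R3) (y : Y2) (c l : ℝ) (h0 : 0 < l)
    (h1 : l < 1) (hA : sec i E y =ᵐ[volume] arc c l) :
    ∀ᵐ t : ℝ, (ins i t y ∈ E ↔ dz (t - cen i E y) < l / 2) := by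
  obtain ⟨k, hk⟩ := cen_spec i E y c l h0 h1 hA
  filter_upwards [hA.mem_iff] with t ht
  have h2 : dz (t - cen i E y) = dz (t - c) := by
    rw [hk, show t - (c + k) = (t - c) + ((-k : ℤ) : ℝ) by push_cast; ring, dz_add_int]
  rw [h2]
  exact ht

theorem harm_cen (i : Fin 3) (E : Set R3) (η : ℝ → ℝ) (hη : Harm η) (y : Y2) (c l : ℝ) (h0 : 0 < l)
    (h1 : l < 1) (hA : sec i E y =ᵐ[volume] arc c l) : η (cen i E y) = η c := by
  obtain ⟨k, hk⟩ := cen_spec i E y c l h0 h1 hA
  rw [hk, harm_add_int η hη]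


/-! ### continuity of the vertical integrals -/

theorem cont_fd (f : R3 → ℝ) (hf : ContDiff ℝ ∞ f) (k : Fin 3) :
    Continuous (fun x => fderiv ℝ f x (Pi.single k 1)) :=
  (hf.continuous_fderiv (by simp)).clm_apply continuous_const

theorem cont_int (g : Y2 → ℝ → ℝ) (hg : Continuous (Function.uncurry g)) :
    Continuous (fun y => ∫ t in (0 : ℝ)..1, g y t) :=
  intervalIntegral.continuous_parametric_intervalIntegral_of_continuous' hg 0 1

theorem NN_cont (i : Fin 3) (f : R3 → ℝ) (hf : ContDiff ℝ ∞ f) : Continuous (NN i f) := by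
  refine cont_int (fun y t => |fderiv ℝ f (ins i t y) (Pi.single i 1)|) ?_
  exact ((cont_fd f hf i).comp ((ins_continuous i).comp
    (continuous_snd.prodMk continuous_fst))).abs

/-- vertical variation with a weight -/
noncomputable def HH (i : Fin 3) (f : R3 → ℝ) (η : ℝ → ℝ) (y : Y2) : ℝ :=
  ∫ t in (0 : ℝ)..1, |fderiv ℝ f (ins i t y) (Pi.single i 1)| * η t

theorem HH_cont (i : Fin 3) (f : R3 → ℝ) (hf : ContDiff ℝ ∞ f) (η : ℝ → ℝ) (hη : Continuous η) :
    Continuous (HH i f η) := by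
  refine cont_int (fun y t => |fderiv ℝ f (ins i t y) (Pi.single i 1)| * η t) ?_
  exact ((cont_fd f hf i).comp ((ins_continuous i).comp
    (continuous_snd.prodMk continuous_fst))).abs.mul (hη.comp continuous_snd)

theorem HH_le (i : Fin 3) (f : R3 → ℝ) (hf : ContDiff ℝ ∞ f) (η : ℝ → ℝ) (hη : Harm η) (y : Y2) :
    |HH i f η y| ≤ NN i f y := by
  have hc : Continuous (fun t => |fderiv ℝ f (ins i t y) (Pi.single i 1)|) :=
    ((cont_fd f hf i).comp (ins_cont_t i y)).abs
  refine (intervalIntegral.abs_integral_le_integral_abs zero_le_one).trans ?_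
  refine intervalIntegral.integral_mono_on zero_le_one
    ((hc.mul hη.cont).abs.intervalIntegrable _ _) (hc.intervalIntegrable _ _) fun t _ => ?_
  rw [abs_mul, abs_abs]
  exact mul_le_of_le_one_right (abs_nonneg _) (hη.bd t)

/-- horizontal derivative with a weight -/
noncomputable def BB (i : Fin 3) (f : R3 → ℝ) (η : ℝ → ℝ) (j : Fin 2) (y : Y2) : ℝ :=
  ∫ t in (0 : ℝ)..1, η t * fderiv ℝ f (ins i t y) (Pi.single (i.succAbove j) 1)

theorem BB_cont (i : Fin 3) (f : R3 → ℝ) (hf : ContDiff ℝ ∞ f) (η : ℝ → ℝ) (hη : Continuous η)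
    (j : Fin 2) : Continuous (BB i f η j) := by
  refine cont_int (fun y t => η t * fderiv ℝ f (ins i t y) (Pi.single (i.succAbove j) 1)) ?_
  exact (hη.comp continuous_snd).mul ((cont_fd f hf _).comp ((ins_continuous i).comp
    (continuous_snd.prodMk continuous_fst)))

theorem TT_nonneg (i : Fin 3) (f : R3 → ℝ) (l : Y2 → ℝ) (j : Fin 2) (y : Y2) :
    0 ≤ TT i f l j y :=
  intervalIntegral.integral_nonneg zero_le_one fun _ _ => abs_nonneg _

theorem BB_HH (i : Fin 3) (f : R3 → ℝ) (hf : ContDiff ℝ ∞ f) (η : ℝ → ℝ) (hη : Harm η)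
    (l : Y2 → ℝ) (j : Fin 2) (y : Y2) :
    |BB i f η j y - fderiv ℝ l y (Pi.single j 1) / 2 * HH i f η y| ≤ TT i f l j y := by
  have hc1 : Continuous (fun t => fderiv ℝ f (ins i t y) (Pi.single i 1)) :=
    (cont_fd f hf i).comp (ins_cont_t i y)
  have hc2 : Continuous (fun t => fderiv ℝ f (ins i t y) (Pi.single (i.succAbove j) 1)) :=
    (cont_fd f hf _).comp (ins_cont_t i y)
  set L := fderiv ℝ l y (Pi.single j 1) / 2 with hL
  have e1 : BB i f η j y - L * HH i f η y = ∫ t in (0 : ℝ)..1,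
      η t * (fderiv ℝ f (ins i t y) (Pi.single (i.succAbove j) 1)
        - |fderiv ℝ f (ins i t y) (Pi.single i 1)| * L) := by
    unfold BB HH
    have j1 : IntervalIntegrable (fun t => η t * fderiv ℝ f (ins i t y)
        (Pi.single (i.succAbove j) 1)) volume 0 1 := (hη.cont.mul hc2).intervalIntegrable _ _
    have j2 : IntervalIntegrable (fun t => L * (|fderiv ℝ f (ins i t y) (Pi.single i 1)| * η t))
        volume 0 1 := (continuous_const.mul (hc1.abs.mul hη.cont)).intervalIntegrable _ _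
    rw [← intervalIntegral.integral_const_mul, ← intervalIntegral.integral_sub j1 j2]
    refine intervalIntegral.integral_congr fun t _ => ?_
    show _ - _ = _
    ring
  rw [e1]
  refine (intervalIntegral.abs_integral_le_integral_abs zero_le_one).trans ?_
  unfold TT
  have hc3 : Continuous (fun t => fderiv ℝ f (ins i t y) (Pi.single (i.succAbove j) 1)
        - |fderiv ℝ f (ins i t y) (Pi.single i 1)| * L) := hc2.sub (hc1.abs.mul continuous_const)
  refine intervalIntegral.integral_mono_on zero_le_one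
    ((hη.cont.mul hc3).abs.intervalIntegrable _ _) (hc3.abs.intervalIntegrable _ _) fun t _ => ?_
  rw [abs_mul]
  exact mul_le_of_le_one_left (abs_nonneg _) (hη.bd t)

/-! ### smoothness on `Ω` -/

theorem smooth_L (Ω : Set Y2) (hΩo : IsOpen Ω) (l : Y2 → ℝ) (hl : ContDiffOn ℝ ∞ l Ω) (j : Fin 2) :
    ContDiffOn ℝ ∞ (fun y => fderiv ℝ l y (Pi.single j 1)) Ω :=
  (hl.fderiv_of_isOpen hΩo (by simp)).clm_apply contDiffOn_const

/-- the product of a test function with `TT` is continuous -/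
theorem TT_cont (i : Fin 3) (f : R3 → ℝ) (hf : ContDiff ℝ ∞ f) (Ω : Set Y2) (hΩo : IsOpen Ω)
    (l : Y2 → ℝ) (hl : ContDiffOn ℝ ∞ l Ω) (j : Fin 2) (χ : Y2 → ℝ) (hχ : Cc Ω χ)
    (h0 : ∀ y, 0 ≤ χ y) : Continuous (fun y => χ y * TT i f l j y) := by
  have h1 : Continuous (fun y => χ y * fderiv ℝ l y (Pi.single j 1)) :=
    (hχ.mul hΩo (smooth_L Ω hΩo l hl j)).cont
  have e1 : (fun y => χ y * TT i f l j y) = fun y => ∫ t in (0 : ℝ)..1,
      |χ y * fderiv ℝ f (ins i t y) (Pi.single (i.succAbove j) 1)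
      - |fderiv ℝ f (ins i t y) (Pi.single i 1)| * ((χ y * fderiv ℝ l y (Pi.single j 1)) / 2)| := by
    funext y
    unfold TT
    rw [← intervalIntegral.integral_const_mul]
    refine intervalIntegral.integral_congr fun t _ => ?_
    show χ y * |_| = |_|
    rw [← abs_of_nonneg (h0 y), ← abs_mul, abs_of_nonneg (h0 y)]
    congr 1
    ring
  rw [e1]
  refine cont_int _ ?_
  have hi : Continuous (fun p : Y2 × ℝ => ins i p.2 p.1) :=
    (ins_continuous i).comp (continuous_snd.prodMk continuous_fst)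
  exact (((hχ.cont.comp continuous_fst).mul ((cont_fd f hf _).comp hi)).sub
    (((cont_fd f hf _).comp hi).abs.mul ((h1.comp continuous_fst).div_const 2))).abs

theorem int_of_cut {Ω : Set Y2} {χ : Y2 → ℝ} (h : Cc Ω χ) (g : Y2 → ℝ)
    (hg : Continuous (fun y => χ y * g y)) : Integrable (fun y => χ y * g y) :=
  hg.integrable_of_hasCompactSupport h.compact.mul_right

/-! ### limits -/

theorem sub_lim {Ω : Set Y2} (i : Fin 3) (f : ℕ → R3 → ℝ) (hf : ∀ n, ContDiff ℝ ∞ (f n))
    (χ : Y2 → ℝ) (hχ : Cc Ω χ) (h0 : ∀ y, 0 ≤ χ y)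
    (hN : Tendsto (fun n => ∫ y, χ y * |NN i (f n) y - 2|) atTop (𝓝 0)) :
    ∃ φ : ℕ → ℕ, StrictMono φ ∧ ∀ᵐ y : Y2, χ y = 1 →
      Tendsto (fun n => NN i (f (φ n)) y) atTop (𝓝 2) := by
  have hc : ∀ n, Continuous (fun y => χ y * |NN i (f n) y - 2|) := fun n =>
    hχ.cont.mul ((NN_cont i (f n) (hf n)).sub continuous_const).abs
  have hi : ∀ n, Integrable (fun y => χ y * |NN i (f n) y - 2|) := fun n =>
    int_of_cut hχ _ (hc n)
  have h1 : TendstoInMeasure volume (fun n y => χ y * |NN i (f n) y - 2|) atTop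
      (fun _ : Y2 => (0 : ℝ)) := by
    refine tendstoInMeasure_of_tendsto_eLpNorm (p := 1) one_ne_zero
      (fun n => (hc n).aestronglyMeasurable) aestronglyMeasurable_const ?_
    have h2 : ∀ n, eLpNorm ((fun y => χ y * |NN i (f n) y - 2|) - fun _ : Y2 => (0 : ℝ)) 1 volume
        = ENNReal.ofReal (∫ y, χ y * |NN i (f n) y - 2|) := by
      intro n
      have h3 : ((fun y => χ y * |NN i (f n) y - 2|) - fun _ : Y2 => (0 : ℝ))
          = fun y => χ y * |NN i (f n) y - 2| := by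
        funext y; simp
      rw [h3, eLpNorm_one_eq_lintegral_enorm, ← ofReal_integral_norm_eq_lintegral_enorm (hi n)]
      congr 2
      funext y
      exact Real.norm_of_nonneg (mul_nonneg (h0 y) (abs_nonneg _))
    simp only [h2]
    have := ENNReal.tendsto_ofReal hN
    simpa using this
  obtain ⟨φ, hφ, h2⟩ := h1.exists_seq_tendsto_ae
  refine ⟨φ, hφ, ?_⟩
  filter_upwards [h2] with y hy hχy
  simp only [hχy, one_mul] at hy
  have h3 : Tendsto (fun n => NN i (f (φ n)) y - 2) atTop (𝓝 0) := by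
    rw [tendsto_zero_iff_abs_tendsto_zero]
    exact hy
  simpa using h3.add_const 2

/-- the section at a good point is an arc -/
theorem arc_pt (i : Fin 3) (E : Set R3) (hm : MeasurableSet E) (hp : PeriodicSet E)
    (f : ℕ → R3 → ℝ) (hf : ∀ n, ContDiff ℝ ∞ (f n)) (hfp : ∀ n, PeriodicFun (f n))
    (h01 : ∀ n x, f n x ∈ Icc (0 : ℝ) 1) (y : Y2) (l : ℝ) (hl0 : 0 < l) (hl1 : l < 1)
    (hE : volume {t ∈ Ico (0 : ℝ) 1 | (i.insertNth t y : R3) ∈ E} = ENNReal.ofReal l)
    (hlim : ∀ᵐ t : ℝ, Tendsto (fun n => f n (ins i t y)) atTop (𝓝 (E.indicator 1 (ins i t y))))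
    (hN : Tendsto (fun n => NN i (f n) y) atTop (𝓝 2)) :
    ∃ c : ℝ, sec i E y =ᵐ[volume] arc c l ∧
      ∀ η : ℝ → ℝ, Harm η →
        Tendsto (fun n => HH i (f n) η y) atTop (𝓝 (η (c - l / 2) + η (c + l / 2))) := by
  have hd : ∀ n t, deriv (fun t => f n (ins i t y)) t
      = fderiv ℝ (f n) (ins i t y) (Pi.single i 1) := fun n t =>
    (hasDerivAt_t i (f n) ((hf n).differentiable (by simp)) t y).deriv
  obtain ⟨c, hc, hη⟩ := circle_arc (fun n t => f n (ins i t y))
    (fun n => ((hf n).comp ((ins_contDiff i).comp (contDiff_id.prodMk contDiff_const))).of_le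
      (by exact_mod_cast le_top))
    (fun n t => by
      show f n (ins i (t + 1) y) = f n (ins i t y)
      rw [ins_one, hfp n])
    (fun n t => h01 n _) (sec i E y) (RigidAux.sect_meas i hm y)
    (fun t => RigidAux.sect_periodic i hp y t) l hl0 hl1
    (by
      rw [← hE]
      congr 1
      ext t
      exact ⟨fun h => ⟨h.2, h.1⟩, fun h => ⟨h.2, h.1⟩⟩)
    hlim
    (by
      have : ∀ n, ∫ t in (0 : ℝ)..1, |deriv (fun t => f n (ins i t y)) t| = NN i (f n) y := by
        intro n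
        unfold NN
        refine intervalIntegral.integral_congr fun t _ => ?_
        show |_| = |_|
        rw [hd n t]
      simp only [this]
      exact hN)
  refine ⟨c, hc, fun η h => ?_⟩
  have h2 := hη η h.cont h.per
  have h3 : ∀ n, ∫ t in (0 : ℝ)..1, |deriv (fun t => f n (ins i t y)) t| * η t = HH i (f n) η y := by
    intro n
    unfold HH
    refine intervalIntegral.integral_congr fun t _ => ?_
    show |_| * _ = |_| * _
    rw [hd n t]
  simp only [h3] at h2
  exact h2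


/-! ### the sequence -/

/-- all data -/
structure Sq (i : Fin 3) (E : Set R3) (Ω : Set Y2) (l : Y2 → ℝ) (f : ℕ → R3 → ℝ) : Prop where
  hm : MeasurableSet E
  hp : PeriodicSet E
  ho : IsOpen Ω
  hl : ContDiffOn ℝ ∞ l Ω
  h0 : ∀ y ∈ Ω, 0 < l y ∧ l y < 1
  hE : ∀ᵐ y ∂(volume.restrict Ω),
    volume {t ∈ Ico (0 : ℝ) 1 | (i.insertNth t y : R3) ∈ E} = ENNReal.ofReal (l y)
  hf : ∀ n, ContDiff ℝ ∞ (f n)
  hfp : ∀ n, PeriodicFun (f n)
  h01 : ∀ n x, f n x ∈ Icc (0 : ℝ) 1
  hsec : ∀ᵐ y ∂(volume.restrict Ω), ∀ᵐ t : ℝ,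
    Tendsto (fun n => f n (ins i t y)) atTop (𝓝 (E.indicator 1 (ins i t y)))
  hD : ∀ χ : Y2 → ℝ, Cc Ω χ → (∀ y, χ y ∈ Icc (0 : ℝ) 1) →
    Tendsto (fun n => ∫ y, χ y * |NN i (f n) y - 2|) atTop (𝓝 0) ∧
    ∀ j, Tendsto (fun n => ∫ y, χ y * TT i (f n) l j y) atTop (𝓝 0)

section

variable {i : Fin 3} {E : Set R3} {Ω : Set Y2} {l : Y2 → ℝ} {f : ℕ → R3 → ℝ}
  (S : Sq i E Ω l f)

include S

theorem Sq.loc (χ : Y2 → ℝ) (hχ : Cc Ω χ) (h : ∀ y, χ y ∈ Icc (0 : ℝ) 1) :
    ∃ φ : ℕ → ℕ, StrictMono φ ∧ ∀ᵐ y : Y2, χ y = 1 →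
      ∃ c : ℝ, sec i E y =ᵐ[volume] arc c (l y) ∧
      ∀ η : ℝ → ℝ, Harm η → Tendsto (fun n => HH i (f (φ n)) η y) atTop
        (𝓝 (η (c - l y / 2) + η (c + l y / 2))) := by
  obtain ⟨φ, hφ, h1⟩ := sub_lim i f S.hf χ hχ (fun y => (h y).1) (S.hD χ hχ h).1
  refine ⟨φ, hφ, ?_⟩
  have h2 := (ae_restrict_iff' S.ho.measurableSet).1 S.hE
  have h3 := (ae_restrict_iff' S.ho.measurableSet).1 S.hsec
  filter_upwards [h1, h2, h3] with y a1 a2 a3 hχy
  have hyΩ : y ∈ Ω := by
    by_contra hn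
    rw [hχ.zero hn] at hχy
    exact zero_ne_one hχy
  refine arc_pt i E S.hm S.hp (fun n => f (φ n)) (fun n => S.hf _) (fun n => S.hfp _)
    (fun n x => S.h01 _ x) y (l y) (S.h0 y hyΩ).1 (S.h0 y hyΩ).2 (a2 hyΩ) ?_ (a1 hχy)
  filter_upwards [a3 hyΩ] with t ht
  exact ht.comp hφ.tendsto_atTop

theorem Sq.arcs : ∀ᵐ y ∂(volume.restrict Ω), ∃ c, sec i E y =ᵐ[volume] arc c (l y) := by
  rw [ae_restrict_iff' S.ho.measurableSet, ae_iff]
  refine measure_null_of_locally_null _ fun x hx => ?_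
  have hxΩ : x ∈ Ω := by
    by_contra hn
    exact hx fun h => absurd h hn
  obtain ⟨K, hK, hxK, hKΩ⟩ := exists_compact_subset S.ho hxΩ
  obtain ⟨χ, hχ, h1, h2⟩ := exists_cut Ω S.ho K hK hKΩ
  obtain ⟨φ, -, h3⟩ := S.loc χ hχ h1
  refine ⟨{a | ¬(a ∈ Ω → ∃ c, sec i E a =ᵐ[volume] arc c (l a))} ∩ K,
    inter_mem self_mem_nhdsWithin (mem_nhdsWithin_of_mem_nhds (mem_interior_iff_mem_nhds.1 hxK)), ?_⟩
  refine measure_mono_null ?_ (ae_iff.1 h3)
  rintro y ⟨hy, hyK⟩ hcon
  apply hy
  intro _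
  obtain ⟨c, hc, -⟩ := hcon (h2 y hyK)
  exact ⟨c, hc⟩

theorem Sq.cen_ae : ∀ᵐ y ∂(volume.restrict Ω), ∀ᵐ t : ℝ,
    ((i.insertNth t y : R3) ∈ E ↔ dz (t - cen i E y) < l y / 2) := by
  have h1 := (ae_restrict_iff' S.ho.measurableSet).1 S.arcs
  refine (ae_restrict_iff' S.ho.measurableSet).2 ?_
  filter_upwards [h1] with y hy hyΩ
  obtain ⟨c, hc⟩ := hy hyΩ
  exact sec_cen i E y c (l y) (S.h0 y hyΩ).1 (S.h0 y hyΩ).2 hc

theorem Sq.Z_ae (η : ℝ → ℝ) (hη : Harm η) : ∀ᵐ y : Y2, y ∈ Ω →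
    Zc i E η y = Real.sin (Real.pi * l y) / Real.pi * η (cen i E y) := by
  have h1 := (ae_restrict_iff' S.ho.measurableSet).1 S.arcs
  filter_upwards [h1] with y hy hyΩ
  obtain ⟨c, hc⟩ := hy hyΩ
  rw [Zc_arc i E η hη y c (l y) (S.h0 y hyΩ).1 (S.h0 y hyΩ).2 hc,
    harm_cen i E η hη y c (l y) (S.h0 y hyΩ).1 (S.h0 y hyΩ).2 hc]

end

theorem lim_of_close (a b e : ℕ → ℝ) (M B : ℝ) (h : ∀ n, |a n - b n| ≤ M * e n)
    (he : Tendsto e atTop (𝓝 0)) (hb : Tendsto b atTop (𝓝 B)) : Tendsto a atTop (𝓝 B) := by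
  have h1 : Tendsto (fun n => M * e n) atTop (𝓝 0) := by simpa using he.const_mul M
  have h2 : Tendsto (fun n => a n - b n) atTop (𝓝 0) := squeeze_zero_norm h h1
  have h3 := h2.add hb
  simpa using h3

theorem abs_int_sub (a b w : Y2 → ℝ) (ha : Integrable a) (hb : Integrable b) (hw : Integrable w)
    (h : ∀ y, |a y - b y| ≤ w y) : |(∫ y, a y) - ∫ y, b y| ≤ ∫ y, w y := by
  rw [← integral_sub ha hb]
  exact norm_integral_le_of_norm_le (f := fun y => a y - b y) hw
    (Eventually.of_forall fun y => h y)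

theorem cut_bound (p : Y2 → ℝ) (hp : Continuous p) (K : Set Y2) (hK : IsCompact K)
    (h0 : ∀ y, y ∉ K → p y = 0) (χ : Y2 → ℝ) (hχ : ∀ y, 0 ≤ χ y) (h1 : ∀ y ∈ K, χ y = 1) :
    ∃ M, 0 ≤ M ∧ ∀ y, |p y| ≤ M * χ y := by
  obtain ⟨C, hC⟩ := hK.exists_bound_of_continuousOn hp.continuousOn
  refine ⟨max C 0, le_max_right _ _, fun y => ?_⟩
  by_cases hy : y ∈ K
  · rw [h1 y hy, mul_one]
    exact (hC y hy).trans (le_max_left _ _)
  · rw [h0 y hy, abs_zero]
    exact mul_nonneg (le_max_right _ _) (hχ y)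

theorem ind_mem (E : Set R3) (x : R3) : E.indicator (1 : R3 → ℝ) x ∈ Icc (0 : ℝ) 1 := by
  by_cases h : x ∈ E
  · rw [indicator_of_mem h]; simp
  · rw [indicator_of_notMem h]; simp

theorem Zc_le (i : Fin 3) (E : Set R3) (η : ℝ → ℝ) (hη : Harm η) (y : Y2) : |Zc i E η y| ≤ 1 := by
  have := intervalIntegral.norm_integral_le_of_norm_le_const (a := (0 : ℝ)) (b := 1) (C := 1)
    (f := fun t => η t * E.indicator 1 (ins i t y)) (fun t _ => by
      rw [norm_mul, Real.norm_eq_abs, Real.norm_eq_abs, abs_of_nonneg (ind_mem E _).1]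
      exact mul_le_one₀ (hη.bd t) (ind_mem E _).1 (ind_mem E _).2)
  rw [sub_zero, abs_one, mul_one] at this
  exact this

section

variable {i : Fin 3} {E : Set R3} {Ω : Set Y2} {l : Y2 → ℝ} {f : ℕ → R3 → ℝ}
  (S : Sq i E Ω l f)

include S

/-- (i) -/
theorem Sq.lim_R (φ : ℕ → ℕ) (hφ : StrictMono φ) (η : ℝ → ℝ) (hη : Harm η) (p : Y2 → ℝ)
    (hp : Cc Ω p) : Tendsto (fun n => ∫ y, p y * ∫ t in (0 : ℝ)..1, η t * f (φ n) (ins i t y))
      atTop (𝓝 (∫ y, p y * Zc i E η y)) := by
  have hbd : ∀ n t y, |η t * f (φ n) (ins i t y)| ≤ 1 := fun n t y => by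
    rw [abs_mul, abs_of_nonneg (S.h01 _ _).1]
    exact mul_le_one₀ (hη.bd t) (S.h01 _ _).1 (S.h01 _ _).2
  have hc : ∀ n, Continuous (fun y => ∫ t in (0 : ℝ)..1, η t * f (φ n) (ins i t y)) := fun n =>
    cont_int (fun y t => η t * f (φ n) (ins i t y)) ((hη.cont.comp continuous_snd).mul
      ((S.hf _).continuous.comp ((ins_continuous i).comp (continuous_snd.prodMk continuous_fst))))
  refine tendsto_integral_of_dominated_convergence (fun y => |p y|)
    (fun n => (hp.cont.mul (hc n)).aestronglyMeasurable) hp.integrable.abs (fun n => ?_) ?_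
  · refine Eventually.of_forall fun y => ?_
    rw [Real.norm_eq_abs, abs_mul]
    refine mul_le_of_le_one_right (abs_nonneg _) ?_
    have := intervalIntegral.norm_integral_le_of_norm_le_const (a := (0 : ℝ)) (b := 1) (C := 1)
      (f := fun t => η t * f (φ n) (ins i t y)) (fun t _ => hbd n t y)
    simpa using this
  · have h3 := (ae_restrict_iff' S.ho.measurableSet).1 S.hsec
    filter_upwards [h3] with y hy
    by_cases hyΩ : y ∈ Ω
    · refine Tendsto.const_mul _ ?_
      refine intervalIntegral.tendsto_integral_filter_of_dominated_convergence (fun _ => (1 : ℝ))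
        (Eventually.of_forall fun n => ?_) (Eventually.of_forall fun n =>
          Eventually.of_forall fun t _ => hbd n t y) intervalIntegrable_const ?_
      · exact (hη.cont.mul ((S.hf _).continuous.comp (ins_cont_t i y))).aestronglyMeasurable
      · filter_upwards [hy hyΩ] with t ht _
        exact (ht.comp hφ.tendsto_atTop).const_mul _
    · rw [hp.zero hyΩ]
      simp

/-- (iv) -/
theorem Sq.lim_H (χ : Y2 → ℝ) (hχ : Cc Ω χ) (h : ∀ y, χ y ∈ Icc (0 : ℝ) 1)
    (φ : ℕ → ℕ) (hφ : StrictMono φ) (hloc : ∀ᵐ y : Y2, χ y = 1 →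
      ∃ c : ℝ, sec i E y =ᵐ[volume] arc c (l y) ∧
      ∀ η : ℝ → ℝ, Harm η → Tendsto (fun n => HH i (f (φ n)) η y) atTop
        (𝓝 (η (c - l y / 2) + η (c + l y / 2))))
    (η : ℝ → ℝ) (hη : Harm η) (p : Y2 → ℝ)
    (hp : Cc Ω p) (h1 : ∀ y ∈ tsupport p, χ y = 1) :
    Tendsto (fun n => ∫ y, p y * HH i (f (φ n)) η y)
      atTop (𝓝 (∫ y, p y * (2 * Real.cos (Real.pi * l y) * η (cen i E y)))) := by
  obtain ⟨M, hM0, hM⟩ := cut_bound p hp.cont (tsupport p) hp.compact
    (fun y hy => image_eq_zero_of_notMem_tsupport hy) χ (fun y => (h y).1) h1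
  have hHc : ∀ n, Continuous (HH i (f (φ n)) η) := fun n => HH_cont i _ (S.hf _) η hη.cont
  have huc : ∀ n, Continuous (fun y => max (-2) (min 2 (HH i (f (φ n)) η y))) := fun n =>
    continuous_const.max (continuous_const.min (hHc n))
  refine lim_of_close _ (fun n => ∫ y, p y * max (-2) (min 2 (HH i (f (φ n)) η y)))
    (fun n => ∫ y, χ y * |NN i (f (φ n)) y - 2|) M _ (fun n => ?_)
    ((S.hD χ hχ h).1.comp hφ.tendsto_atTop) ?_
  · rw [← integral_const_mul]
    refine abs_int_sub _ _ _ (hp.integrable_mul (hHc n)) (hp.integrable_mul (huc n))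
      ((int_of_cut hχ _ (hχ.cont.mul ((NN_cont i _ (S.hf _)).sub
        continuous_const).abs)).const_mul M) fun y => ?_
    have hle := HH_le i (f (φ n)) (S.hf _) η hη y
    have hd : |HH i (f (φ n)) η y - max (-2) (min 2 (HH i (f (φ n)) η y))|
        ≤ |NN i (f (φ n)) y - 2| := by
      set x := HH i (f (φ n)) η y
      set N := NN i (f (φ n)) y
      rw [abs_le] at hle
      rcases le_total x 2 with h2 | h2
      · rw [min_eq_right h2]
        rcases le_total (-2) x with h3 | h3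
        · rw [max_eq_right h3, sub_self, abs_zero]
          exact abs_nonneg _
        · rw [max_eq_left h3, abs_of_nonpos (by linarith)]
          exact le_trans (by linarith [hle.1]) (le_abs_self _)
      · rw [min_eq_left h2, max_eq_right (by norm_num), abs_of_nonneg (by linarith)]
        exact le_trans (by linarith [hle.2]) (le_abs_self _)
    rw [← mul_sub, abs_mul]
    calc |p y| * |HH i (f (φ n)) η y - max (-2) (min 2 (HH i (f (φ n)) η y))|
        ≤ (M * χ y) * |NN i (f (φ n)) y - 2| :=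
          mul_le_mul (hM y) hd (abs_nonneg _) (mul_nonneg hM0 (h y).1)
      _ = M * (χ y * |NN i (f (φ n)) y - 2|) := by ring
  · refine tendsto_integral_of_dominated_convergence (fun y => 2 * |p y|)
      (fun n => (hp.cont.mul (huc n)).aestronglyMeasurable) (hp.integrable.abs.const_mul 2)
      (fun n => Eventually.of_forall fun y => ?_) ?_
    · rw [Real.norm_eq_abs, abs_mul, mul_comm]
      refine mul_le_mul_of_nonneg_right ?_ (abs_nonneg _)
      rw [abs_le]
      exact ⟨le_max_left _ _, max_le (by norm_num) (min_le_left _ _)⟩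
    · filter_upwards [hloc] with y hy
      by_cases hpy : y ∈ tsupport p
      · obtain ⟨c, hc, hH⟩ := hy (h1 y hpy)
        have hyΩ : y ∈ Ω := hp.sub hpy
        have hlim := hH η hη
        rw [hη.two, ← harm_cen i E η hη y c (l y) (S.h0 y hyΩ).1 (S.h0 y hyΩ).2 hc] at hlim
        refine Tendsto.const_mul _ ?_
        set k := 2 * Real.cos (Real.pi * l y) * η (cen i E y) with hk
        have hkb : |k| ≤ 2 := by
          rw [hk, abs_mul, abs_mul, abs_two]
          have a1 := Real.abs_cos_le_one (Real.pi * l y)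
          have a2 := hη.bd (cen i E y)
          have := mul_le_one₀ a1 (abs_nonneg _) a2
          nlinarith
        rw [abs_le] at hkb
        have hkk : max (-2) (min 2 k) = k := by
          rw [min_eq_right hkb.2, max_eq_right hkb.1]
        have hcl : Continuous (fun x : ℝ => max (-2) (min 2 x)) :=
          continuous_const.max (continuous_const.min continuous_id)
        have h5 := (hcl.tendsto k).comp hlim
        rw [hkk] at h5
        exact h5
      · rw [image_eq_zero_of_notMem_tsupport hpy]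
        simp

/-- the limit identity -/
theorem Sq.ident (η : ℝ → ℝ) (hη : Harm η) (j : Fin 2) (ψ : Y2 → ℝ) (hψ : Cc Ω ψ) :
    ∫ y, fderiv ℝ ψ y (Pi.single j 1) * Zc i E η y = - ∫ y, ψ y *
      (fderiv ℝ l y (Pi.single j 1) * Real.cos (Real.pi * l y)) * η (cen i E y) := by
  obtain ⟨χ, hχ, h01, h1⟩ := exists_cut Ω S.ho (tsupport ψ) hψ.compact hψ.sub
  obtain ⟨φ, hφ, hloc⟩ := S.loc χ hχ h01
  have hLs : ContDiffOn ℝ ∞ (fun y => fderiv ℝ l y (Pi.single j 1) / 2) Ω :=
    (smooth_L Ω S.ho l S.hl j).div_const 2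
  have hpc : Cc Ω (fun y => ψ y * (fderiv ℝ l y (Pi.single j 1) / 2)) := hψ.mul S.ho hLs
  have hps : tsupport (fun y => ψ y * (fderiv ℝ l y (Pi.single j 1) / 2)) ⊆ tsupport ψ :=
    tsupport_mul_subset_left
  obtain ⟨M, hM0, hM⟩ := cut_bound ψ hψ.cont (tsupport ψ) hψ.compact
    (fun y hy => image_eq_zero_of_notMem_tsupport hy) χ (fun y => (h01 y).1) h1
  have t4 := S.lim_H χ hχ h01 φ hφ hloc η hη _ hpc fun y hy => h1 y (hps hy)
  have t3 : Tendsto (fun n => ∫ y, ψ y * BB i (f (φ n)) η j y) atTop (𝓝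
      (∫ y, ψ y * (fderiv ℝ l y (Pi.single j 1) / 2) *
        (2 * Real.cos (Real.pi * l y) * η (cen i E y)))) := by
    refine lim_of_close _ _ (fun n => ∫ y, χ y * TT i (f (φ n)) l j y) M _ (fun n => ?_)
      (((S.hD χ hχ h01).2 j).comp hφ.tendsto_atTop) t4
    rw [← integral_const_mul]
    refine abs_int_sub _ _ _ (hψ.integrable_mul (BB_cont i _ (S.hf _) η hη.cont j))
      (hpc.integrable_mul (HH_cont i _ (S.hf _) η hη.cont))
      ((int_of_cut hχ _ (TT_cont i _ (S.hf _) Ω S.ho l S.hl j χ hχ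
        fun y => (h01 y).1)).const_mul M) fun y => ?_
    rw [show ψ y * BB i (f (φ n)) η j y - ψ y * (fderiv ℝ l y (Pi.single j 1) / 2) *
        HH i (f (φ n)) η y = ψ y * (BB i (f (φ n)) η j y - fderiv ℝ l y (Pi.single j 1) / 2 *
        HH i (f (φ n)) η y) by ring, abs_mul]
    calc _ ≤ (M * χ y) * TT i (f (φ n)) l j y :=
          mul_le_mul (hM y) (BB_HH i _ (S.hf _) η hη l j y) (abs_nonneg _)
            (mul_nonneg hM0 (h01 y).1)
      _ = _ := by ring
  have t1 := (S.lim_R φ hφ η hη _ (hψ.pd (Pi.single j 1))).neg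
  have t2 : (fun n => ∫ y, ψ y * BB i (f (φ n)) η j y) = fun n =>
      -∫ y, fderiv ℝ ψ y (Pi.single j 1) * ∫ t in (0 : ℝ)..1, η t * f (φ n) (ins i t y) := by
    funext n
    exact ibp i (f (φ n)) (S.hf _) hψ j η hη.cont
  rw [t2] at t3
  have h5 := tendsto_nhds_unique t1 t3
  have h6 : (∫ y, ψ y * (fderiv ℝ l y (Pi.single j 1) / 2) *
        (2 * Real.cos (Real.pi * l y) * η (cen i E y))) = ∫ y, ψ y *
      (fderiv ℝ l y (Pi.single j 1) * Real.cos (Real.pi * l y)) * η (cen i E y) := by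
    congr 1
    funext y
    ring
  rw [h6] at h5
  linarith

/-- the weak identity -/
theorem Sq.weak (η : ℝ → ℝ) (hη : Harm η) (j : Fin 2) (ψ : Y2 → ℝ) (hψ : Cc Ω ψ) :
    ∫ y, η (cen i E y) * fderiv ℝ ψ y (Pi.single j 1) = 0 := by
  have hσpos : ∀ y ∈ Ω, 0 < Real.sin (Real.pi * l y) / Real.pi := fun y hy => by
    refine div_pos (Real.sin_pos_of_pos_of_lt_pi (mul_pos Real.pi_pos (S.h0 y hy).1) ?_) Real.pi_pos
    nlinarith [Real.pi_pos, (S.h0 y hy).2]
  have hπl : ContDiffOn ℝ ∞ (fun y => Real.pi * l y) Ω := contDiffOn_const.mul S.hl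
  have hσs : ContDiffOn ℝ ∞ (fun y => (Real.sin (Real.pi * l y) / Real.pi)⁻¹) Ω := by
    refine ContDiffOn.inv ?_ fun y hy => (hσpos y hy).ne'
    exact (Real.contDiff_sin.comp_contDiffOn hπl).div_const _
  have hψ1 : Cc Ω (fun y => ψ y * (Real.sin (Real.pi * l y) / Real.pi)⁻¹) := hψ.mul S.ho hσs
  have hgs : ContDiffOn ℝ ∞ (fun y => fderiv ℝ l y (Pi.single j 1) * Real.cos (Real.pi * l y)) Ω :=
    (smooth_L Ω S.ho l S.hl j).mul (Real.contDiff_cos.comp_contDiffOn hπl)
  have hid := S.ident η hη j _ hψ1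
  have hcm : Measurable (fun y => η (cen i E y)) := hη.cont.measurable.comp (cen_meas i E S.hm)
  -- integrability
  have bdd : ∀ (p g : Y2 → ℝ), Cc Ω p → Measurable g → (∀ y, |g y| ≤ 1) →
      Integrable (fun y => p y * g y) := by
    intro p g hp hg hb
    refine hp.integrable.abs.mono' (hp.cont.measurable.mul hg).aestronglyMeasurable
      (Eventually.of_forall fun y => ?_)
    rw [Real.norm_eq_abs, abs_mul]
    exact mul_le_of_le_one_right (abs_nonneg _) (hb y)
  have i1 := bdd _ _ (hψ1.pd (Pi.single j 1)) (Zc_meas i E S.hm η hη.cont)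
    (fun y => Zc_le i E η hη y)
  have i2 := bdd _ _ (hψ1.mul S.ho hgs) hcm (fun y => hη.bd _)
  have h2 : ∫ y, (fderiv ℝ (fun y => ψ y * (Real.sin (Real.pi * l y) / Real.pi)⁻¹) y
      (Pi.single j 1) * Zc i E η y + ψ y * (Real.sin (Real.pi * l y) / Real.pi)⁻¹ *
      (fderiv ℝ l y (Pi.single j 1) * Real.cos (Real.pi * l y)) * η (cen i E y)) = 0 := by
    rw [integral_add i1 i2, hid]
    ring
  rw [← h2]
  refine integral_congr_ae ?_
  filter_upwards [S.Z_ae η hη] with y hy
  by_cases hyΩ : y ∈ Ω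
  · rw [hy hyΩ]
    have hσ := hσpos y hyΩ
    have hld : HasFDerivAt l (fderiv ℝ l y) y :=
      ((S.hl.contDiffAt (S.ho.mem_nhds hyΩ)).differentiableAt (by simp)).hasFDerivAt
    have hψd : HasFDerivAt ψ (fderiv ℝ ψ y) y :=
      (hψ.smooth.differentiable (by simp) y).hasFDerivAt
    have hsd : HasFDerivAt (fun y => Real.sin (Real.pi * l y) / Real.pi)
        (Real.cos (Real.pi * l y) • fderiv ℝ l y) y := by
      have a1 := (hld.const_mul Real.pi).sin.mul_const (Real.pi)⁻¹
      have a2 : (Real.pi)⁻¹ • (Real.cos (Real.pi * l y) • (Real.pi • fderiv ℝ l y))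
          = Real.cos (Real.pi * l y) • fderiv ℝ l y := by
        rw [smul_smul, smul_smul]
        congr 1
        field_simp
      rw [a2] at a1
      exact a1
    have hid : HasFDerivAt (fun y => (Real.sin (Real.pi * l y) / Real.pi)⁻¹)
        ((-((Real.sin (Real.pi * l y) / Real.pi) ^ 2)⁻¹) •
          (Real.cos (Real.pi * l y) • fderiv ℝ l y)) y :=
      (hasDerivAt_inv hσ.ne').comp_hasFDerivAt y hsd
    have hprod := (hψd.mul hid).fderiv
    have e1 : fderiv ℝ (fun y => ψ y * (Real.sin (Real.pi * l y) / Real.pi)⁻¹) y (Pi.single j 1)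
        = ψ y * (-((Real.sin (Real.pi * l y) / Real.pi) ^ 2)⁻¹ *
          (Real.cos (Real.pi * l y) * fderiv ℝ l y (Pi.single j 1))) +
          (Real.sin (Real.pi * l y) / Real.pi)⁻¹ * fderiv ℝ ψ y (Pi.single j 1) := by
      have e0 : (fun y => ψ y * (Real.sin (Real.pi * l y) / Real.pi)⁻¹)
          = ψ * fun y => (Real.sin (Real.pi * l y) / Real.pi)⁻¹ := rfl
      rw [e0, hprod]
      simp only [add_apply, smul_apply, smul_eq_mul]
    rw [e1]
    set σ := Real.sin (Real.pi * l y) / Real.pi with hσd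
    have hσ' : σ ≠ 0 := hσ.ne'
    field_simp
    ring
  · have z1 : fderiv ℝ ψ y (Pi.single j 1) = 0 := (hψ.pd (Pi.single j 1)).zero hyΩ
    have z2 := (hψ1.pd (Pi.single j 1)).zero hyΩ
    rw [z1, z2, hψ.zero hyΩ]
    simp

end

end P232.Rd.D
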