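import Vale.Agent.P232.Torus

/-!
# P232: the isoperimetric profile of the cubic three-torus. Definitions.
-/

open MeasureTheory Set Filter Topology
open scoped ENNReal ContDiff

namespace P232

/-! ### The relative profile -/

/-- The profile for lower sets of the unit cube (relative perimeter). -/
noncomputable def JQ (V : ℝ) : ℝ :=
  min (min ((9 * Real.pi / 2) ^ (1 / 3 : ℝ) * V ^ (2 / 3 : ℝ)) (√(Real.pi * V))) 1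

/-! ### Functions on the torus, nonlocal energies -/

/-- The torus as a compact group. -/
abbrev Tor := Fin 3 → AddCircle (1 : ℝ)

/-- The projection `ℝ³ → T`. -/
def pr (x : R3) : Tor := fun i => (x i : AddCircle (1 : ℝ))

/-- Euclidean norm on the torus. -/
noncomputable def nrm (z : Tor) : ℝ := √ (∑ i, ‖z i‖ ^ 2)

/-- Nonlocal energy at scale `δ`. -/
noncomputable def en (δ : ℝ) (h : Tor → ℝ) : ℝ :=
  ∫ x, ∫ y, (if nrm (x - y) < δ then |h x - h y| else 0)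

/-- Euclidean norm of the gradient. -/
noncomputable def gradN (f : R3 → ℝ) (x : R3) : ℝ :=
  √ (∑ i, (fderiv ℝ f x (Pi.single i 1)) ^ 2)

/-- Normalisation `∫_{|z|<δ} |z_0| dz`. -/
noncomputable def Mc (δ : ℝ) : ℝ := ∫ z in {z : R3 | ∑ i, (z i) ^ 2 < δ ^ 2}, |z 0|

/-- `f` is `ℤ³`-periodic. -/
def PeriodicFun (f : R3 → ℝ) : Prop := ∀ x i, f (x + Pi.single i 1) = f x

/-! ### Lower sets of the unit cube and of the unit square -/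

/-- The open unit cube. -/
def Q3 : Set (ℝ × ℝ × ℝ) := Ioo 0 1 ×ˢ (Ioo 0 1 ×ˢ Ioo 0 1)

/-- The open unit square. -/
def Q2 : Set (ℝ × ℝ) := Ioo 0 1 ×ˢ Ioo 0 1

/-- Lower sets of the open unit cube. -/
def Low3 (D : Set (ℝ × ℝ × ℝ)) : Prop := D ⊆ Q3 ∧ ∀ p ∈ D, ∀ q ∈ Q3, q ≤ p → q ∈ D

/-- Lower sets of the open unit square. -/
def Low2 (S : Set (ℝ × ℝ)) : Prop := S ⊆ Q2 ∧ ∀ p ∈ S, ∀ q ∈ Q2, q ≤ p → q ∈ S

/-- Norm of the gradient of `F` on `ℝ × ℝ × ℝ`. -/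
noncomputable def gn3 (F : ℝ × ℝ × ℝ → ℝ) (p : ℝ × ℝ × ℝ) : ℝ :=
  √ ((fderiv ℝ F p (1, 0, 0)) ^ 2 + (fderiv ℝ F p (0, 1, 0)) ^ 2 + (fderiv ℝ F p (0, 0, 1)) ^ 2)

/-- Norm of the gradient of `G` on `ℝ × ℝ`. -/
noncomputable def gn2 (G : ℝ × ℝ → ℝ) (p : ℝ × ℝ) : ℝ :=
  √ ((fderiv ℝ G p (1, 0)) ^ 2 + (fderiv ℝ G p (0, 1)) ^ 2)

/-- `D` is the a.e. limit in the cube of `C¹` functions with `∫ |∇F| ≤ P`:
the relative perimeter of `D` in the cube is at most `P`. -/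
def Approx3 (D : Set (ℝ × ℝ × ℝ)) (P : ℝ) : Prop :=
  ∃ F : ℕ → ℝ × ℝ × ℝ → ℝ, (∀ n, ContDiff ℝ 1 (F n)) ∧ (∀ n p, F n p ∈ Icc (0 : ℝ) 1) ∧
    (∀ n, ∫⁻ p in Q3, ENNReal.ofReal (gn3 (F n) p) ≤ ENNReal.ofReal P) ∧
    ∀ᵐ p ∂(volume.restrict Q3), Tendsto (fun n => F n p) atTop (𝓝 (D.indicator 1 p))

/-- The relative perimeter of `S` in the square is at least `c`. -/
def LB2 (S : Set (ℝ × ℝ)) (c : ℝ) : Prop :=
  ∀ G : ℕ → ℝ × ℝ → ℝ, (∀ n, ContDiff ℝ 1 (G n)) → (∀ n p, G n p ∈ Icc (0 : ℝ) 1) →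
    (∀ᵐ p ∂(volume.restrict Q2), Tendsto (fun n => G n p) atTop (𝓝 (S.indicator 1 p))) →
    ENNReal.ofReal c ≤ liminf (fun n => ∫⁻ p in Q2, ENNReal.ofReal (gn2 (G n) p)) atTop

/-- Slice of `D` at first coordinate `s`. -/
def slice (D : Set (ℝ × ℝ × ℝ)) (s : ℝ) : Set (ℝ × ℝ) := {p | (s, p) ∈ D}

/-- Cyclic rotation of the coordinates: direction 2 becomes the first coordinate. -/
def rot (D : Set (ℝ × ℝ × ℝ)) : Set (ℝ × ℝ × ℝ) := {p | (p.2.2, p.1, p.2.1) ∈ D}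

/-- Exchange of the last two coordinates. -/
def swp (D : Set (ℝ × ℝ × ℝ)) : Set (ℝ × ℝ × ℝ) := {p | (p.1, p.2.2, p.2.1) ∈ D}

/-- `S` strongly contains the first axis. -/
def ConX (S : Set (ℝ × ℝ)) : Prop := ∃ y ∈ Ioo (0 : ℝ) 1, ∀ x ∈ Ioo (0 : ℝ) 1, (x, y) ∈ S

/-- `S` strongly contains the second axis. -/
def ConY (S : Set (ℝ × ℝ)) : Prop := ∃ x ∈ Ioo (0 : ℝ) 1, ∀ y ∈ Ioo (0 : ℝ) 1, (x, y) ∈ S

/-- The height of `S` at the end `x → 1` is at most `w`. -/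
def EndX (S : Set (ℝ × ℝ)) (w : ℝ) : Prop :=
  ∀ y ∈ Ioo (0 : ℝ) 1, (∀ x ∈ Ioo (0 : ℝ) 1, (x, y) ∈ S) → y ≤ w

/-- The width of `S` at the end `y → 1` is at most `w`. -/
def EndY (S : Set (ℝ × ℝ)) (w : ℝ) : Prop :=
  ∀ x ∈ Ioo (0 : ℝ) 1, (∀ y ∈ Ioo (0 : ℝ) 1, (x, y) ∈ S) → x ≤ w

/-- `∫₀¹ √(1 - k²x²) dx`. -/
noncomputable def mk (k : ℝ) : ℝ := ∫ x in (0 : ℝ)..1, √(1 - k ^ 2 * x ^ 2)

/-- Height function of a planar lower set. -/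
noncomputable def hgt (S : Set (ℝ × ℝ)) (x : ℝ) : ℝ := (volume {y | (x, y) ∈ S}).toReal

/-- One dimensional slice perimeter. -/
noncomputable def q1 (h : ℝ → ℝ) (x : ℝ) : ℝ := open Classical in if 0 < h x ∧ h x < 1 then 1 else 0

/-- The partition inequality: `P ≥ ∑ (c_i ∫ q + d_i (a(s_i) - a(s_{i+1})))`. -/
def PartIneq (a q : ℝ → ℝ) (P : ℝ) : Prop :=
  ∃ G : Set ℝ, G ⊆ Ioo 0 1 ∧ volume (Ioo (0 : ℝ) 1 \ G) = 0 ∧
    ∀ (N : ℕ) (s c d : ℕ → ℝ), (∀ i ≤ N, s i ∈ G) → (∀ i < N, s i < s (i + 1)) →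
      (∀ i < N, 0 ≤ c i ∧ 0 ≤ d i ∧ c i ^ 2 + d i ^ 2 ≤ 1) →
      ∑ i ∈ Finset.range N, (c i * (∫ t in (s i)..(s (i + 1)), q t) +
        d i * (a (s i) - a (s (i + 1)))) ≤ P

/-- Data of a one dimensional profile: slice areas `a`, slice perimeter bounds `q`,
total perimeter bound `P`, volume `V`, with the level inequality. -/
structure Prof (a q : ℝ → ℝ) (P V a0 a1 : ℝ) : Prop where
  anti : AntitoneOn a (Ioo 0 1)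
  mem : ∀ s ∈ Ioo (0 : ℝ) 1, a s ∈ Icc a1 a0
  a1_nonneg : 0 ≤ a1
  a1_le : a1 ≤ V
  le_a0 : V ≤ a0
  a0_le : a0 ≤ 1
  int_a : ∫ s in (0 : ℝ)..1, a s = V
  q_nonneg : ∀ s, 0 ≤ q s
  q_meas : Measurable q
  q_int : IntegrableOn q (Ioo 0 1)
  lev : ∀ κ : ℝ → ℝ, Continuous κ → (∀ x, κ x ∈ Icc (0 : ℝ) 1) →
    (∫ s in (0 : ℝ)..1, κ (a s) * q s) + (∫ x in a1..a0, √(1 - κ x ^ 2)) ≤ P

/-- generic lower bound for the relative perimeter of a planar lower set of area `a` -/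
noncomputable def q0 (a : ℝ) : ℝ := min (min (√(Real.pi * a)) (√(Real.pi * (1 - a)))) 1

/-- hypothesis of the numeric lemma D1 at height `s` -/
def Hyp1 (a q : ℝ → ℝ) (s : ℝ) : Prop :=
  √(Real.pi * a s) ≤ q s ∨ (∀ k ∈ Icc (0 : ℝ) 1, mk k + k * (a s - 1 / 10) ≤ q s) ∨
    (√(Real.pi * (1 - a s)) ≤ q s ∧ 9 / 10 ≤ q s ∧ (s ≤ 1 / 10 ∨ √2 * (9 / 10) ≤ q s))

/-- `L`-type slices in the numeric lemma D3 -/
def HypL (a q : ℝ → ℝ) (η s : ℝ) : Prop :=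
  √(Real.pi * (1 - a s)) ≤ q s ∧ ∃ v, 0 < v ∧ v ≤ 1 - η ∧ Real.pi * v / 4 + (1 - a s) / v ≤ q s

/-- hypothesis of the numeric lemma D3 at height `s` -/
def Hyp3 (a q : ℝ → ℝ) (η s : ℝ) : Prop :=
  HypL a q η s ∨ (1 / 10 < s ∧ (√(Real.pi * a s) ≤ q s ∨
    ∀ k ∈ Icc (0 : ℝ) 1, mk k + k * (a s - η) ≤ q s))

end P232
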