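import Vale.Agent.P232.Torus

/-!
# P232: balls, tubes and slabs in the cubic flat torus
-/

open MeasureTheory Set

namespace P232

/-- Distance of a real number to `ℤ` (distance on the circle `ℝ/ℤ`). -/
noncomputable def dz (t : ℝ) : ℝ := |t - round t|

/-- Geodesic ball of `T` with centre `c` and radius `r`. -/
def BallSet (c : R3) (r : ℝ) : Set R3 := {x | ∑ i, dz (x i - c i) ^ 2 < r ^ 2}

/-- Solid tube of radius `r` about the closed geodesic through `c` in direction `k`. -/
def TubeSet (k : Fin 3) (c : R3) (r : ℝ) : Set R3 :=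
  {x | ∑ i ∈ Finset.univ.erase k, dz (x i - c i) ^ 2 < r ^ 2}

/-- Slab of width `2h` orthogonal to direction `k`, with middle plane `x_k = c`. -/
def SlabSet (k : Fin 3) (c h : ℝ) : Set R3 := {x | dz (x k - c) < h}

/-- The model regions: embedded balls, tubes and slabs. -/
def IsModel (M : Set R3) : Prop :=
  (∃ c r, 0 < r ∧ r < 1 / 2 ∧ M = BallSet c r) ∨
  (∃ k c r, 0 < r ∧ r < 1 / 2 ∧ M = TubeSet k c r) ∨
  (∃ k c h, 0 < h ∧ h < 1 / 2 ∧ M = SlabSet k c h)

end P232
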