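import Vale.Agent.P232.Defs
import Vale.Agent.P232.Models

/-!
# P232, uniqueness of minimisers: definitions
-/

open MeasureTheory Set Filter Topology
open scoped ENNReal ContDiff

namespace P232

/-- length of the section of `E` in direction `i` through `x` -/
noncomputable def ell (i : Fin 3) (E : Set R3) (x : R3) : ℝ :=
  (volume {t ∈ Ico (0 : ℝ) 1 | Function.update x i t ∈ E}).toReal

/-- Steiner symmetrisation in direction `i` -/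
noncomputable def St (i : Fin 3) (E : Set R3) : Set R3 := {x | dz (x i) < ell i E x / 2}

/-- the relative perimeter of `S` in the square is at most `c` -/
def UB2 (S : Set (ℝ × ℝ)) (c : ℝ) : Prop :=
  ∃ G : ℕ → ℝ × ℝ → ℝ, (∀ n, ContDiff ℝ 1 (G n)) ∧ (∀ n p, G n p ∈ Icc (0 : ℝ) 1) ∧
    (∀ᵐ p ∂(volume.restrict Q2), Tendsto (fun n => G n p) atTop (𝓝 (S.indicator 1 p))) ∧
    liminf (fun n => ∫⁻ p in Q2, ENNReal.ofReal (gn2 (G n) p)) atTop ≤ ENNReal.ofReal c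

/-- the octant of `E`, scaled to the unit cube -/
def oct (E : Set R3) : Set (ℝ × ℝ × ℝ) :=
  {p | p ∈ Q3 ∧ (![p.1 / 2, p.2.1 / 2, p.2.2 / 2] : R3) ∈ E}

/-- eighth ball -/
def EB (R : ℝ) : Set (ℝ × ℝ × ℝ) := {p | p ∈ Q3 ∧ p.1 ^ 2 + p.2.1 ^ 2 + p.2.2 ^ 2 < R ^ 2}

/-- quarter tube with axis the first coordinate -/
def QT (R : ℝ) : Set (ℝ × ℝ × ℝ) := {p | p ∈ Q3 ∧ p.2.1 ^ 2 + p.2.2 ^ 2 < R ^ 2}

/-- slab in the first coordinate -/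
def SB (h : ℝ) : Set (ℝ × ℝ × ℝ) := {p | p ∈ Q3 ∧ p.1 < h}

/-- the model lower sets -/
def IsModelQ (D : Set (ℝ × ℝ × ℝ)) : Prop :=
  ∃ R, 0 < R ∧ R < 1 ∧ (D =ᵐ[volume] EB R ∨
    (D =ᵐ[volume] QT R ∨ D =ᵐ[volume] rot (QT R) ∨ D =ᵐ[volume] rot (rot (QT R))) ∨
    (D =ᵐ[volume] SB R ∨ D =ᵐ[volume] rot (SB R) ∨ D =ᵐ[volume] rot (rot (SB R))))

end P232
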