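import Vale.Agent.P232.Models

/-!
# P232: the area of the hemisphere as an integral over the disc
-/

open MeasureTheory Set Filter Topology
open scoped ENNReal ContDiff

namespace P232.DiscInt

/-- `∫₀^r 2rρ/√(r²-ρ²) dρ = 2r²`. -/
theorem one_dim (r : ℝ) (h0 : 0 < r) :
    ∫⁻ ρ in Ioo 0 r, ENNReal.ofReal (ρ * (2 * r / √(r ^ 2 - ρ ^ 2))) =
      ENNReal.ofReal (2 * r ^ 2) := by
  have hcont : ContinuousOn (fun ρ : ℝ => -(2 * r * √(r ^ 2 - ρ ^ 2))) (Icc 0 r) := by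
    fun_prop
  have hder : ∀ ρ ∈ Ioo (0 : ℝ) r, HasDerivAt (fun ρ : ℝ => -(2 * r * √(r ^ 2 - ρ ^ 2)))
      (ρ * (2 * r / √(r ^ 2 - ρ ^ 2))) ρ := by
    intro ρ hρ
    have hpos : 0 < r ^ 2 - ρ ^ 2 := by nlinarith [hρ.1, hρ.2]
    have h1 : HasDerivAt (fun ρ : ℝ => r ^ 2 - ρ ^ 2) (-(2 * ρ)) ρ := by
      have := ((hasDerivAt_pow 2 ρ).const_sub (r ^ 2))
      simpa using this
    have h2 := (h1.sqrt hpos.ne').const_mul (2 * r)
    refine h2.neg.congr_deriv ?_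
    field_simp
  have hnn : ∀ ρ ∈ Ioo (0 : ℝ) r, 0 ≤ ρ * (2 * r / √(r ^ 2 - ρ ^ 2)) := by
    intro ρ hρ
    have := hρ.1
    positivity
  have hint : IntegrableOn (fun ρ : ℝ => ρ * (2 * r / √(r ^ 2 - ρ ^ 2))) (Ioc 0 r) volume :=
    intervalIntegral.integrableOn_deriv_of_nonneg hcont hder hnn
  have hint' : IntegrableOn (fun ρ : ℝ => ρ * (2 * r / √(r ^ 2 - ρ ^ 2))) (Ioo 0 r) volume :=
    hint.mono_set Ioo_subset_Ioc_self
  rw [← ofReal_integral_eq_lintegral_ofReal hint'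
    ((ae_restrict_iff' measurableSet_Ioo).2 (Eventually.of_forall hnn))]
  congr 1
  rw [← integral_Ioc_eq_integral_Ioo, ← intervalIntegral.integral_of_le h0.le]
  rw [intervalIntegral.integral_eq_sub_of_hasDerivAt_of_le h0.le hcont hder
    ((intervalIntegrable_iff_integrableOn_Ioc_of_le h0.le).2 hint)]
  have : √(r ^ 2 - 0 ^ 2) = r := by
    rw [zero_pow two_ne_zero, sub_zero, Real.sqrt_sq h0.le]
  rw [this, sub_self, Real.sqrt_zero]
  ring

/-- the function on the plane -/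
noncomputable def FF (r : ℝ) (p : ℝ × ℝ) : ℝ≥0∞ :=
  if p.1 ^ 2 + p.2 ^ 2 < r ^ 2 then ENNReal.ofReal (2 * r / √(r ^ 2 - (p.1 ^ 2 + p.2 ^ 2))) else 0

theorem polar (r : ℝ) (h0 : 0 < r) : ∫⁻ p, FF r p = ENNReal.ofReal (4 * Real.pi * r ^ 2) := by
  rw [← lintegral_comp_polarCoord_symm]
  have h1 : ∫⁻ p in polarCoord.target, ENNReal.ofReal p.1 • FF r (polarCoord.symm p) =
      ∫⁻ p in Ioi (0 : ℝ) ×ˢ Ioo (-Real.pi) Real.pi,
        (Ioo 0 r).indicator (fun ρ => ENNReal.ofReal (ρ * (2 * r / √(r ^ 2 - ρ ^ 2)))) p.1 * 1 := by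
    refine setLIntegral_congr_fun (measurableSet_Ioi.prod measurableSet_Ioo) ?_
    rintro ⟨ρ, θ⟩ ⟨hρ, -⟩
    have hρ0 : 0 < ρ := hρ
    have h2 : (ρ * Real.cos θ) ^ 2 + (ρ * Real.sin θ) ^ 2 = ρ ^ 2 := by
      have := Real.sin_sq_add_cos_sq θ
      nlinarith
    simp only [polarCoord_symm_apply, FF, h2, smul_eq_mul, mul_one]
    by_cases h3 : ρ < r
    · have h4 : ρ ^ 2 < r ^ 2 := by nlinarith
      rw [if_pos h4, indicator_of_mem (show ρ ∈ Ioo 0 r from ⟨hρ0, h3⟩),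
        ENNReal.ofReal_mul hρ0.le]
    · have h4 : ¬ ρ ^ 2 < r ^ 2 := by
        push Not at h3 ⊢
        nlinarith
      rw [if_neg h4, indicator_of_notMem (fun h => h3 h.2), mul_zero]
  rw [h1, Measure.volume_eq_prod, ← Measure.prod_restrict]
  have hmeas : Measurable ((Ioo 0 r).indicator
      (fun ρ : ℝ => ENNReal.ofReal (ρ * (2 * r / √(r ^ 2 - ρ ^ 2))))) := by
    refine Measurable.indicator ?_ measurableSet_Ioo
    fun_prop
  rw [lintegral_prod_mul hmeas.aemeasurable aemeasurable_const, lintegral_indicator measurableSet_Ioo,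
    Measure.restrict_restrict measurableSet_Ioo]
  have h5 : Ioo 0 r ∩ Ioi 0 = Ioo 0 r := inter_eq_left.2 fun x hx => hx.1
  rw [h5, one_dim r h0, lintegral_one, Measure.restrict_apply_univ, Real.volume_Ioo,
    ← ENNReal.ofReal_mul (by positivity)]
  congr 1
  ring

/-- the integral over the disc with centre `(1/2, 1/2)` -/
theorem disc (r : ℝ) (h0 : 0 < r) :
    ∫⁻ y in {y : Fin 2 → ℝ | ∑ j, (y j - 1 / 2) ^ 2 < r ^ 2},
      ENNReal.ofReal (2 * r / √(r ^ 2 - ∑ j, (y j - 1 / 2) ^ 2)) =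
      ENNReal.ofReal (4 * Real.pi * r ^ 2) := by
  have hms : MeasurableSet {y : Fin 2 → ℝ | ∑ j, (y j - 1 / 2) ^ 2 < r ^ 2} :=
    measurableSet_lt (by fun_prop) measurable_const
  rw [← lintegral_indicator hms]
  have h1 : ∀ y : Fin 2 → ℝ, ({y : Fin 2 → ℝ | ∑ j, (y j - 1 / 2) ^ 2 < r ^ 2}).indicator
      (fun y => ENNReal.ofReal (2 * r / √(r ^ 2 - ∑ j, (y j - 1 / 2) ^ 2))) y =
      FF r (MeasurableEquiv.finTwoArrow (y - fun _ => 1 / 2)) := by
    intro y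
    simp only [FF, indicator, Set.mem_ofPred_eq, MeasurableEquiv.finTwoArrow_apply, Pi.sub_apply,
      Fin.sum_univ_two]
  simp only [h1]
  rw [lintegral_sub_right_eq_self (fun y : Fin 2 → ℝ => FF r (MeasurableEquiv.finTwoArrow y))
    (fun _ => 1 / 2)]
  rw [(volume_preserving_finTwoArrow ℝ).lintegral_comp_emb
    MeasurableEquiv.finTwoArrow.measurableEmbedding]
  exact polar r h0

end P232.DiscInt
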