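import Vale.Agent.P232.Defs

/-!
# P232: auxiliary facts on the torus `T = ℝ³/ℤ³` (lifting integrals, nonlocal energy)
-/

open MeasureTheory Set Filter Topology
open scoped ENNReal ContDiff

namespace P232
namespace EnAux

theorem pr_openQuot : IsOpenQuotientMap pr :=
  IsOpenQuotientMap.piMap (fun _ => QuotientAddGroup.isOpenQuotientMap_mk)

theorem continuous_pr : Continuous pr := pr_openQuot.continuous

theorem continuous_of_lift {f : R3 → ℝ} (hf : Continuous f) {h : Tor → ℝ}
    (hh : ∀ x, h (pr x) = f x) : Continuous h := by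
  rw [pr_openQuot.isQuotientMap.continuous_iff]
  have : h ∘ pr = f := funext hh
  rw [this]
  exact hf

theorem pr_add (x y : R3) : pr (x + y) = pr x + pr y := by
  funext i
  simp [pr]

theorem pr_neg (x : R3) : pr (-x) = -pr x := by
  funext i
  simp [pr]

theorem pr_surj : Function.Surjective pr := pr_openQuot.surjective

/-- half open box based at `a` -/
def box (a : R3) : Set R3 := univ.pi fun i => Ioc (a i) (a i + 1)

theorem measurableSet_box (a : R3) : MeasurableSet (box a) :=
  MeasurableSet.univ_pi fun _ => measurableSet_Ioc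

theorem mp_pr (a : R3) : MeasurePreserving pr (volume.restrict (box a)) volume := by
  have h : (volume.restrict (box a) : Measure R3) =
      Measure.pi (fun i => volume.restrict (Ioc (a i) (a i + 1))) := by
    rw [volume_pi, box, Measure.restrict_pi_pi]
  rw [h, volume_pi]
  exact measurePreserving_pi _ _ (fun i => AddCircle.measurePreserving_mk 1 (a i))

theorem integral_tor (a : R3) {Φ : Tor → ℝ} (hΦ : AEStronglyMeasurable Φ volume) :
    ∫ y, Φ y = ∫ x in box a, Φ (pr x) := by
  rw [← (mp_pr a).map_eq, integral_map (mp_pr a).measurable.aemeasurable]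
  rwa [(mp_pr a).map_eq]

theorem cell_ae : (cell : Set R3) =ᵐ[volume] box 0 := by
  have h1 : (cell : Set R3) = univ.pi fun _ => Ico (0 : ℝ) 1 := by
    ext x
    simp [cell, Set.mem_pi]
  have h2 : box 0 = univ.pi fun _ => Ioc (0 : ℝ) 1 := by
    simp [box]
  rw [h1, h2]
  exact (Measure.univ_pi_Ico_ae_eq_Icc).trans (Measure.univ_pi_Ioc_ae_eq_Icc).symm

theorem integral_cell (F : R3 → ℝ) : ∫ x in cell, F x = ∫ x in box 0, F x :=
  setIntegral_congr_set cell_ae

instance : IsProbabilityMeasure (volume : Measure (AddCircle (1 : ℝ))) :=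
  ⟨by rw [AddCircle.measure_univ]; simp⟩

theorem nrm_neg (z : Tor) : nrm (-z) = nrm z := by
  simp [nrm]

theorem continuous_nrm : Continuous nrm := by
  unfold nrm
  fun_prop

theorem nrm_pr {z : R3} (hz : ∀ i, |z i| ≤ 1 / 2) : nrm (pr z) = √ (∑ i, (z i) ^ 2) := by
  unfold nrm
  congr 1
  refine Finset.sum_congr rfl fun i _ => ?_
  have h1 : ‖pr z i‖ = |z i| := by
    have := (AddCircle.norm_coe_eq_abs_iff (p := (1 : ℝ)) (x := z i) one_ne_zero).2
    refine this ?_
    simpa using hz i
  rw [h1, sq_abs]

/-- the open Euclidean ball -/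
def Bd (δ : ℝ) : Set R3 := {z | ∑ i, (z i) ^ 2 < δ ^ 2}

theorem isOpen_Bd (δ : ℝ) : IsOpen (Bd δ) := by
  have : Continuous fun z : R3 => ∑ i, (z i) ^ 2 := by fun_prop
  exact isOpen_lt this continuous_const

theorem abs_lt_of_mem_Bd {δ : ℝ} (h0 : 0 < δ) {z : R3} (hz : z ∈ Bd δ) (i : Fin 3) :
    |z i| < δ := by
  have h1 : (z i) ^ 2 ≤ ∑ j, (z j) ^ 2 :=
    Finset.single_le_sum (f := fun j => (z j) ^ 2) (fun j _ => sq_nonneg _) (Finset.mem_univ i)
  have h2 : (z i) ^ 2 < δ ^ 2 := lt_of_le_of_lt h1 hz
  exact abs_lt_of_sq_lt_sq h2 h0.le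

theorem Bd_subset_box {δ : ℝ} (h0 : 0 < δ) (h1 : δ < 1 / 2) :
    Bd δ ⊆ box (fun _ => -(1 / 2)) := by
  intro z hz i _
  have := abs_lt.1 (abs_lt_of_mem_Bd h0 hz i)
  constructor
  · simp only
    linarith [this.1]
  · simp only
    linarith [this.2]

/-- The nonlocal energy as an integral over increments. -/
theorem en_eq {f : R3 → ℝ} (hf : Continuous f) {h : Tor → ℝ} (hh : ∀ x, h (pr x) = f x)
    {δ : ℝ} (h0 : 0 < δ) (h1 : δ < 1 / 2) :
    en δ h = ∫ z in Bd δ, ∫ x in cell, |f (x + z) - f x| := by
  have hc : Continuous h := continuous_of_lift hf hh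
  obtain ⟨M, hM⟩ : ∃ M, ∀ y, |h y| ≤ M := by
    obtain ⟨M, hM⟩ := (isCompact_univ.image (hc.abs)).bddAbove
    exact ⟨M, fun y => hM ⟨y, mem_univ _, rfl⟩⟩
  have hmeasn : MeasurableSet {z : Tor | nrm z < δ} :=
    (isOpen_lt continuous_nrm continuous_const).measurableSet
  -- step 1: translate
  have e1 : ∀ x : Tor, ∫ y, (if nrm (x - y) < δ then |h x - h y| else 0) =
      ∫ z, (if nrm z < δ then |h x - h (x + z)| else 0) := by
    intro x
    rw [← integral_add_left_eq_self _ x]
    refine integral_congr_ae (ae_of_all _ fun z => ?_)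
    have : x - (x + z) = -z := by abel
    simp only [this, nrm_neg]
  have e2 : en δ h = ∫ x, ∫ z, (if nrm z < δ then |h x - h (x + z)| else 0) := by
    unfold en
    exact integral_congr_ae (ae_of_all _ fun x => e1 x)
  -- step 2: swap
  have hsw : ∫ x, ∫ z, (if nrm z < δ then |h x - h (x + z)| else 0) =
      ∫ z, ∫ x, (if nrm z < δ then |h x - h (x + z)| else 0) := by
    refine integral_integral_swap (μ := (volume : Measure Tor)) (ν := (volume : Measure Tor))
      (f := fun x z => if nrm z < δ then |h x - h (x + z)| else 0) ?_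
    have hm : Measurable fun p : Tor × Tor => if nrm p.2 < δ then |h p.1 - h (p.1 + p.2)| else 0 := by
      refine Measurable.ite (measurable_snd hmeasn) ?_ measurable_const
      have : Continuous fun p : Tor × Tor => |h p.1 - h (p.1 + p.2)| := by fun_prop
      exact this.measurable
    refine Integrable.of_bound (C := 2 * M) hm.aestronglyMeasurable (ae_of_all _ fun p => ?_)
    have hM0 : 0 ≤ M := (abs_nonneg _).trans (hM p.1)
    simp only [Function.uncurry]
    split_ifs
    · rw [Real.norm_eq_abs, abs_abs]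
      calc |h p.1 - h (p.1 + p.2)| ≤ |h p.1| + |h (p.1 + p.2)| := abs_sub _ _
        _ ≤ 2 * M := by linarith [hM p.1, hM (p.1 + p.2)]
    · simpa using hM0
  -- the inner integral
  let G : Tor → ℝ := fun z => ∫ x, |h x - h (x + z)|
  have e3 : ∀ z : Tor, ∫ x, (if nrm z < δ then |h x - h (x + z)| else 0) =
      {z : Tor | nrm z < δ}.indicator G z := by
    intro z
    by_cases hz : nrm z < δ
    · simp [hz, G, Set.indicator]
    · simp [hz, Set.indicator]
  have hG : Continuous G := by
    refine continuous_of_dominated (bound := fun _ => 2 * M) ?_ ?_ ?_ ?_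
    · intro z
      have : Continuous fun x : Tor => |h x - h (x + z)| := by fun_prop
      exact this.aestronglyMeasurable
    · intro z
      refine ae_of_all _ fun x => ?_
      rw [Real.norm_eq_abs, abs_abs]
      calc |h x - h (x + z)| ≤ |h x| + |h (x + z)| := abs_sub _ _
        _ ≤ 2 * M := by linarith [hM x, hM (x + z)]
    · exact integrable_const _
    · refine ae_of_all _ fun x => ?_
      fun_prop
  have hGm : AEStronglyMeasurable ({z : Tor | nrm z < δ}.indicator G) volume :=
    (hG.aestronglyMeasurable).indicator hmeasn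
  have e4 : en δ h = ∫ z in box (fun _ => -(1 / 2)),
      {z : Tor | nrm z < δ}.indicator G (pr z) := by
    rw [e2, hsw, ← integral_tor _ hGm]
    exact integral_congr_ae (ae_of_all _ fun z => e3 z)
  have e5 : ∀ z : R3, G (pr z) = ∫ x in cell, |f (x + z) - f x| := by
    intro z
    have hcz : Continuous fun x : Tor => |h x - h (x + pr z)| := by fun_prop
    simp only [G]
    rw [integral_tor 0 hcz.aestronglyMeasurable, integral_cell]
    refine integral_congr_ae (ae_of_all _ fun x => ?_)
    simp only [← pr_add, hh]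
    rw [abs_sub_comm]
  rw [e4]
  have e6 : ∀ z ∈ box (fun _ => -(1 / 2)), {z : Tor | nrm z < δ}.indicator G (pr z) =
      (Bd δ).indicator (fun z => ∫ x in cell, |f (x + z) - f x|) z := by
    intro z hz
    have hz' : ∀ i, |z i| ≤ 1 / 2 := by
      intro i
      have := hz i (mem_univ _)
      simp only [mem_Ioc] at this
      rw [abs_le]
      constructor
      · linarith [this.1]
      · linarith [this.2]
    have hiff : nrm (pr z) < δ ↔ z ∈ Bd δ := by
      rw [nrm_pr hz', Real.sqrt_lt' h0]
      rfl
    by_cases hzB : z ∈ Bd δ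
    · rw [indicator_of_mem hzB, indicator_of_mem (by exact hiff.2 hzB), e5]
    · rw [indicator_of_notMem hzB, indicator_of_notMem]
      intro hc
      exact hzB (hiff.1 hc)
  rw [setIntegral_congr_fun (measurableSet_box _) e6,
    setIntegral_indicator (isOpen_Bd δ).measurableSet,
    inter_eq_right.2 (Bd_subset_box h0 h1)]

end EnAux
end P232
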