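import Vale.Agent.P232.EnRot

/-!
# P232: periodic functions, shifts, and the linearised nonlocal energy
-/

open MeasureTheory Set Filter Topology
open scoped ENNReal ContDiff

namespace P232
namespace EnAux

/-- invariance under the lattice, in terms of `pr` -/
def KerInv {E : Type*} (g : R3 → E) : Prop := ∀ w, pr w = 0 → ∀ x, g (x + w) = g x

theorem kerInv_of_lift {f : R3 → ℝ} {h : Tor → ℝ} (hh : ∀ x, h (pr x) = f x) : KerInv f := by
  intro w hw x
  rw [← hh, ← hh, pr_add, hw, add_zero]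

theorem exists_lift {E : Type*} [TopologicalSpace E] {g : R3 → E} (hg : Continuous g)
    (hk : KerInv g) : ∃ H : Tor → E, Continuous H ∧ ∀ x, H (pr x) = g x := by
  choose s hs using pr_surj
  have key : ∀ x, g (s (pr x)) = g x := by
    intro x
    have h1 : pr (s (pr x) - x) = 0 := by
      rw [sub_eq_add_neg, pr_add, pr_neg, hs, add_neg_cancel]
    have := hk _ h1 x
    rwa [add_sub_cancel] at this
  refine ⟨fun y => g (s y), ?_, key⟩
  rw [pr_openQuot.isQuotientMap.continuous_iff]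
  have : (fun y => g (s y)) ∘ pr = g := funext key
  rw [this]
  exact hg

theorem exists_bound {g : R3 → ℝ} (hg : Continuous g) (hk : KerInv g) :
    ∃ M, 0 ≤ M ∧ ∀ x, |g x| ≤ M := by
  obtain ⟨H, hH, hHg⟩ := exists_lift hg hk
  obtain ⟨M, hM⟩ := (isCompact_univ.image (hH.abs)).bddAbove
  refine ⟨M, (abs_nonneg (H (pr 0))).trans (hM ⟨_, mem_univ _, rfl⟩), fun x => ?_⟩
  rw [← hHg]
  exact hM ⟨_, mem_univ _, rfl⟩

theorem integral_shift {g : R3 → ℝ} (hg : Continuous g) (hk : KerInv g) (w : R3) :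
    ∫ x in cell, g (x + w) = ∫ x in cell, g x := by
  obtain ⟨H, hH, hHg⟩ := exists_lift hg hk
  have h1 : ∫ x in cell, g (x + w) = ∫ y, H (y + pr w) := by
    rw [integral_tor 0 (by fun_prop : Continuous fun y : Tor => H (y + pr w)).aestronglyMeasurable,
      integral_cell]
    refine integral_congr_ae (ae_of_all _ fun x => ?_)
    simp only [← pr_add, hHg]
  have h2 : ∫ x in cell, g x = ∫ y, H y := by
    rw [integral_tor 0 hH.aestronglyMeasurable, integral_cell]
    refine integral_congr_ae (ae_of_all _ fun x => ?_)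
    simp only [hHg]
  rw [h1, h2, integral_add_right_eq_self]

theorem cell_eq : (cell : Set R3) = univ.pi fun _ => Ico (0 : ℝ) 1 := by
  ext x
  simp [cell, Set.mem_pi]

theorem measurableSet_cell : MeasurableSet cell := by
  rw [cell_eq]
  exact MeasurableSet.univ_pi fun _ => measurableSet_Ico

theorem volume_cell : volume cell = 1 := by
  rw [cell_eq, Real.volume_pi_Ico]
  simp

instance : IsFiniteMeasure (volume.restrict cell) :=
  ⟨by rw [Measure.restrict_apply_univ, volume_cell]; exact ENNReal.one_lt_top⟩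

theorem fderiv_kerInv {f : R3 → ℝ} (hk : KerInv f) : KerInv (fun x => fderiv ℝ f x) := by
  intro w hw x
  have h1 : (fun y => f (y + w)) = f := funext fun y => hk w hw y
  have h2 := fderiv_comp_add_right (𝕜 := ℝ) (f := f) (x := x) w
  simp only
  rw [← h2, h1]

theorem fderiv_apply_eq {f : R3 → ℝ} (x z : R3) :
    fderiv ℝ f x z = ∑ i, fderiv ℝ f x (Pi.single i 1) * z i := by
  have hz : z = ∑ i, z i • (Pi.single i (1 : ℝ) : R3) := by
    ext j
    simp [Finset.sum_apply, Pi.single_apply]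
  conv_lhs => rw [hz]
  rw [map_sum]
  refine Finset.sum_congr rfl fun i _ => ?_
  rw [map_smul, smul_eq_mul, mul_comm]

variable {f : R3 → ℝ}

theorem continuous_partial (hf : ContDiff ℝ 1 f) (v : R3) : Continuous fun x => fderiv ℝ f x v :=
  (hf.continuous_fderiv (by norm_num)).clm_apply continuous_const

theorem exists_bound_partial (hf : ContDiff ℝ 1 f) (hk : KerInv f) :
    ∃ M, 0 ≤ M ∧ ∀ x i, |fderiv ℝ f x (Pi.single i 1)| ≤ M := by
  have h : ∀ i : Fin 3, ∃ M, 0 ≤ M ∧ ∀ x, |fderiv ℝ f x (Pi.single i 1)| ≤ M := fun i =>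
    exists_bound (continuous_partial hf _) (fun w hw x => by
      have := fderiv_kerInv hk w hw x
      simp only at this
      simp only [this])
  choose M hM0 hM using h
  refine ⟨∑ i, M i, Finset.sum_nonneg fun i _ => hM0 i, fun x i => (hM i x).trans ?_⟩
  exact Finset.single_le_sum (f := M) (fun i _ => hM0 i) (Finset.mem_univ i)

theorem abs_fderiv_le {M : ℝ} (hM0 : 0 ≤ M) (hM : ∀ x i, |fderiv ℝ f x (Pi.single i 1)| ≤ M)
    {δ : ℝ} (h0 : 0 < δ) (x : R3) {z : R3} (hz : z ∈ Bd δ) : |fderiv ℝ f x z| ≤ 3 * (M * δ) := by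
  rw [fderiv_apply_eq]
  calc |∑ i, fderiv ℝ f x (Pi.single i 1) * z i|
      ≤ ∑ i, |fderiv ℝ f x (Pi.single i 1) * z i| := Finset.abs_sum_le_sum_abs _ _
    _ ≤ ∑ _i : Fin 3, M * δ := by
        refine Finset.sum_le_sum fun i _ => ?_
        rw [abs_mul]
        exact mul_le_mul (hM x i) (abs_lt_of_mem_Bd h0 hz i).le (abs_nonneg _) hM0
    _ = 3 * (M * δ) := by simp

theorem isFinite_Bd {δ : ℝ} (h0 : 0 < δ) (h1 : δ < 1 / 2) :
    IsFiniteMeasure (volume.restrict (Bd δ)) :=
  ⟨by rw [Measure.restrict_apply_univ]; exact measure_Bd_lt_top δ h0 h1⟩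

/-- the function `(z, x) ↦ |Df(x) z|` is integrable on `Bd δ × cell` -/
theorem integrable_lin (hf : ContDiff ℝ 1 f) (hk : KerInv f) {δ : ℝ} (h0 : 0 < δ)
    (h1 : δ < 1 / 2) :
    Integrable (fun p : R3 × R3 => |fderiv ℝ f p.2 p.1|)
      ((volume.restrict (Bd δ)).prod (volume.restrict cell)) := by
  have := isFinite_Bd h0 h1
  obtain ⟨M, hM0, hM⟩ := exists_bound_partial hf hk
  have hcont : Continuous fun p : R3 × R3 => |fderiv ℝ f p.2 p.1| :=
    (((hf.continuous_fderiv (by norm_num)).comp continuous_snd).clm_apply continuous_fst).abs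
  refine Integrable.of_bound (C := 3 * (M * δ)) hcont.aestronglyMeasurable ?_
  rw [Measure.prod_restrict]
  refine (ae_restrict_iff' ((isOpen_Bd δ).measurableSet.prod measurableSet_cell)).2
    (ae_of_all _ fun p hp => ?_)
  rw [Real.norm_eq_abs, abs_abs]
  exact abs_fderiv_le hM0 hM h0 _ hp.1

/-- the linearised nonlocal energy -/
theorem lin_eq (hf : ContDiff ℝ 1 f) (hk : KerInv f) {δ : ℝ} (h0 : 0 < δ)
    (h1 : δ < 1 / 2) :
    ∫ z in Bd δ, ∫ x in cell, |fderiv ℝ f x z| = Mc δ * ∫ x in cell, gradN f x := by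
  have := isFinite_Bd h0 h1
  rw [integral_integral_swap (f := fun z x => |fderiv ℝ f x z|) (integrable_lin hf hk h0 h1),
    ← integral_const_mul]
  refine integral_congr_ae (ae_of_all _ fun x => ?_)
  simp only
  have : ∀ z : R3, |fderiv ℝ f x z| = |∑ i, fderiv ℝ f x (Pi.single i 1) * z i| := fun z => by
    rw [fderiv_apply_eq]
  simp only [this]
  rw [integral_abs_inner (fun i => fderiv ℝ f x (Pi.single i 1)) δ, mul_comm]
  rfl

end EnAux
end P232
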