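import Vale.Agent.P232.EnDer

/-!
# P232 [ELOW]: the nonlocal energies bound the total variation
-/

open MeasureTheory Set Filter Topology
open scoped ENNReal ContDiff

namespace P232
namespace EnAux

variable {F : R3 → ℝ}

theorem pr_uniformContinuous : UniformContinuous pr := by
  rw [uniformContinuous_pi]
  intro i
  have h1 : UniformContinuous fun x : R3 => x i := Pi.uniformContinuous_proj _ i
  have h2 : UniformContinuous fun t : ℝ => (t : AddCircle (1 : ℝ)) := by
    refine (LipschitzWith.of_dist_le_mul (K := 1) fun a b => ?_).uniformContinuous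
    rw [dist_eq_norm, dist_eq_norm, NNReal.coe_one, one_mul, ← AddCircle.coe_sub]
    exact QuotientAddGroup.norm_mk_le_norm
  exact h2.comp h1

theorem fderiv_uniform (hF : ContDiff ℝ 1 F) (hk : KerInv F) :
    UniformContinuous (fun x => fderiv ℝ F x) := by
  obtain ⟨H, hH, hHg⟩ := exists_lift (hF.continuous_fderiv (by norm_num)) (fderiv_kerInv hk)
  have h1 : UniformContinuous H := CompactSpace.uniformContinuous_of_continuous hH
  have h2 : (fun x => fderiv ℝ F x) = H ∘ pr := funext fun x => (hHg x).symm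
  rw [h2]
  exact h1.comp pr_uniformContinuous

theorem taylor (hF : ContDiff ℝ 1 F) (hk : KerInv F) {om : ℝ} (hom : 0 < om) :
    ∃ δ0, 0 < δ0 ∧ ∀ x z : R3, ‖z‖ < δ0 → |F (x + z) - F x - fderiv ℝ F x z| ≤ om * ‖z‖ := by
  obtain ⟨δ0, hδ0, hu⟩ := Metric.uniformContinuous_iff.1 (fderiv_uniform hF hk) om hom
  refine ⟨δ0, hδ0, fun x z hz => ?_⟩
  have h1 : ∀ y ∈ Metric.ball x δ0, ‖fderiv ℝ F y - fderiv ℝ F x‖ ≤ om := by
    intro y hy
    have := hu (a := y) (b := x) hy
    rw [dist_eq_norm] at this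
    exact this.le
  have h2 := Convex.norm_image_sub_le_of_norm_fderiv_le' (𝕜 := ℝ) (f := F)
    (φ := fderiv ℝ F x) (C := om) (s := Metric.ball x δ0)
    (fun y _ => hF.differentiable (by norm_num) y) h1 (convex_ball x δ0)
    (Metric.mem_ball_self hδ0) (y := x + z) (by simpa [Metric.mem_ball, dist_eq_norm] using hz)
  simpa using h2

theorem norm_le_sum (z : R3) : ‖z‖ ≤ ∑ i, |z i| := by
  rw [pi_norm_le_iff_of_nonneg (Finset.sum_nonneg fun i _ => abs_nonneg _)]
  intro i
  exact Finset.single_le_sum (f := fun j => |z j|) (fun j _ => abs_nonneg _) (Finset.mem_univ i)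

theorem integral_abs_coord (i : Fin 3) (δ : ℝ) : ∫ z in Bd δ, |z i| = Mc δ := by
  have := integral_abs_inner (Pi.single i 1) δ
  have h1 : ∀ z : R3, ∑ j, (Pi.single i (1 : ℝ) : R3) j * z j = z i := by
    intro z
    simp [Pi.single_apply]
  have h2 : ∑ j, ((Pi.single i (1 : ℝ) : R3) j) ^ 2 = 1 := by
    simp [Pi.single_apply]
  simp only [h1, h2, Real.sqrt_one, one_mul] at this
  exact this

theorem integrable_abs_coord {δ : ℝ} (h0 : 0 < δ) (h1 : δ < 1 / 2) (i : Fin 3) :
    IntegrableOn (fun z : R3 => |z i|) (Bd δ) := by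
  refine Measure.integrableOn_of_bounded (M := δ) (measure_Bd_lt_top δ h0 h1).ne ?_ ?_
  · have : Continuous fun z : R3 => |z i| := by fun_prop
    exact this.aestronglyMeasurable
  · refine (ae_restrict_iff' (isOpen_Bd δ).measurableSet).2 (ae_of_all _ fun z hz => ?_)
    rw [Real.norm_eq_abs, abs_abs]
    exact (abs_lt_of_mem_Bd h0 hz i).le

theorem inc_ge (hF : ContDiff ℝ 1 F) (hk : KerInv F) {om δ0 : ℝ}
    (hT : ∀ x z : R3, ‖z‖ < δ0 → |F (x + z) - F x - fderiv ℝ F x z| ≤ om * ‖z‖) {z : R3}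
    (hz : ‖z‖ < δ0) :
    (∫ x in cell, |fderiv ℝ F x z|) - om * ‖z‖ ≤ ∫ x in cell, |F (x + z) - F x| := by
  have hkz : KerInv (fun x => fderiv ℝ F x z) := by
    intro w hw x
    have := fderiv_kerInv hk w hw x
    simp only at this
    simp only [this]
  obtain ⟨M, hM0, hM⟩ := exists_bound (continuous_partial hF z) hkz
  obtain ⟨M', hM0', hM'⟩ := exists_bound hF.continuous hk
  have hi1 : Integrable (fun x => |fderiv ℝ F x z|) (volume.restrict cell) := by
    refine Integrable.of_bound (C := M) (continuous_partial hF z).abs.aestronglyMeasurable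
      (ae_of_all _ fun x => ?_)
    rw [Real.norm_eq_abs, abs_abs]
    exact hM x
  have hi2 : Integrable (fun x => |F (x + z) - F x|) (volume.restrict cell) := by
    have hc : Continuous fun x => |F (x + z) - F x| :=
      ((hF.continuous.comp (by fun_prop)).sub hF.continuous).abs
    refine Integrable.of_bound (C := M' + M') hc.aestronglyMeasurable (ae_of_all _ fun x => ?_)
    rw [Real.norm_eq_abs, abs_abs]
    calc |F (x + z) - F x| ≤ |F (x + z)| + |F x| := abs_sub _ _
      _ ≤ M' + M' := add_le_add (hM' _) (hM' _)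
  have h3 : ∫ x in cell, (|fderiv ℝ F x z| - om * ‖z‖) ≤ ∫ x in cell, |F (x + z) - F x| := by
    refine integral_mono (hi1.sub (integrable_const _)) hi2 fun x => ?_
    have h4 := hT x z hz
    have h5 : |fderiv ℝ F x z| ≤ |F (x + z) - F x| + |F (x + z) - F x - fderiv ℝ F x z| := by
      have : fderiv ℝ F x z = (F (x + z) - F x) - (F (x + z) - F x - fderiv ℝ F x z) := by ring
      calc |fderiv ℝ F x z| = |(F (x + z) - F x) - (F (x + z) - F x - fderiv ℝ F x z)| := by
            rw [← this]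
        _ ≤ _ := abs_sub _ _
    simp only
    linarith
  rw [integral_sub hi1 (integrable_const _)] at h3
  have h6 : ∫ _x in cell, om * ‖z‖ = om * ‖z‖ := by
    rw [integral_const, measureReal_def, Measure.restrict_apply_univ, volume_cell]
    simp
  rw [h6] at h3
  exact h3

end EnAux

theorem grad_le (F : R3 → ℝ) (hF : ContDiff ℝ 1 F) (h : Tor → ℝ) (hh : ∀ x, h (pr x) = F x)
    (P : ℝ) (hP : ∀ δ, 0 < δ → δ < 1 / 2 → en δ h ≤ Mc δ * P) :
    ∫ x in cell, gradN F x ≤ P := by
  have hk := EnAux.kerInv_of_lift hh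
  refine le_of_forall_pos_le_add fun ε hε => ?_
  obtain ⟨δ0, hδ0, hT⟩ := EnAux.taylor hF hk (om := ε / 3) (by positivity)
  let δ := min (δ0 / 2) (1 / 4)
  have h0 : 0 < δ := lt_min (by positivity) (by norm_num)
  have h1 : δ < 1 / 2 := lt_of_le_of_lt (min_le_right _ _) (by norm_num)
  have hδδ : δ < δ0 := lt_of_le_of_lt (min_le_left _ _) (by linarith)
  have hfin := EnAux.isFinite_Bd h0 h1
  have hzn : ∀ z ∈ EnAux.Bd δ, ‖z‖ < δ0 := by
    intro z hz
    refine lt_of_le_of_lt ?_ hδδ
    rw [pi_norm_le_iff_of_nonneg h0.le]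
    exact fun i => (EnAux.abs_lt_of_mem_Bd h0 hz i).le
  have hsumint : IntegrableOn (fun z : R3 => ∑ i, |z i|) (EnAux.Bd δ) :=
    integrable_finsetSum _ fun i _ => EnAux.integrable_abs_coord h0 h1 i
  have hsum : ∫ z in EnAux.Bd δ, ∑ i, |z i| = 3 * Mc δ := by
    rw [integral_finsetSum _ fun i _ => EnAux.integrable_abs_coord h0 h1 i]
    simp [EnAux.integral_abs_coord]
  have hlin := EnAux.integrable_lin hF hk h0 h1
  have hen := hP δ h0 h1
  rw [EnAux.en_eq hF.continuous hh h0 h1] at hen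
  -- integrability of the increments
  obtain ⟨M', hM0', hM'⟩ := EnAux.exists_bound hF.continuous hk
  have hinc : Integrable (fun p : R3 × R3 => |F (p.2 + p.1) - F p.2|)
      ((volume.restrict (EnAux.Bd δ)).prod (volume.restrict cell)) := by
    have hc : Continuous fun p : R3 × R3 => |F (p.2 + p.1) - F p.2| :=
      ((hF.continuous.comp (by fun_prop)).sub (hF.continuous.comp (by fun_prop))).abs
    refine Integrable.of_bound (C := M' + M') hc.aestronglyMeasurable (ae_of_all _ fun p => ?_)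
    rw [Real.norm_eq_abs, abs_abs]
    calc |F (p.2 + p.1) - F p.2| ≤ |F (p.2 + p.1)| + |F p.2| := abs_sub _ _
      _ ≤ M' + M' := add_le_add (hM' _) (hM' _)
  have hmain : ∫ z in EnAux.Bd δ, ((∫ x in cell, |fderiv ℝ F x z|) - ε / 3 * ∑ i, |z i|) ≤
      ∫ z in EnAux.Bd δ, ∫ x in cell, |F (x + z) - F x| := by
    refine setIntegral_mono_on (hlin.integral_prod_left.sub (hsumint.const_mul _))
      hinc.integral_prod_left (EnAux.isOpen_Bd δ).measurableSet fun z hz => ?_
    have h2 := EnAux.inc_ge hF hk hT (hzn z hz)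
    have h3 : ε / 3 * ‖z‖ ≤ ε / 3 * ∑ i, |z i| :=
      mul_le_mul_of_nonneg_left (EnAux.norm_le_sum z) (by positivity)
    linarith
  rw [integral_sub hlin.integral_prod_left (hsumint.const_mul _), integral_const_mul, hsum,
    EnAux.lin_eq hF hk h0 h1] at hmain
  have hM := EnAux.Mc_pos h0 h1
  have hfinal : Mc δ * (∫ x in cell, gradN F x) ≤ Mc δ * (P + ε) := by
    have := hmain.trans hen
    linarith
  exact le_of_mul_le_mul_left hfinal hM

end P232
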