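import Vale.Agent.P232.EnAux

/-!
# P232: rotation invariance of `∫_{|z|<δ} |v·z| dz`
-/

open MeasureTheory Set Filter Topology
open scoped ENNReal ContDiff

namespace P232
namespace EnAux

theorem integral_abs_inner (v : R3) (δ : ℝ) :
    ∫ z in Bd δ, |∑ i, v i * z i| = √ (∑ i, (v i) ^ 2) * Mc δ := by
  let ι : R3 → EuclideanSpace ℝ (Fin 3) := WithLp.toLp 2
  have hmp : MeasurePreserving ι := PiLp.volume_preserving_toLp (Fin 3)
  have hemb : MeasurableEmbedding ι := (MeasurableEquiv.toLp 2 R3).measurableEmbedding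
  let B : Set (EuclideanSpace ℝ (Fin 3)) := {w | ∑ i, (w i) ^ 2 < δ ^ 2}
  have hB : ∀ w : EuclideanSpace ℝ (Fin 3), w ∈ B ↔ ‖w‖ ^ 2 < δ ^ 2 := by
    intro w
    rw [EuclideanSpace.real_norm_sq_eq]
    rfl
  have hpre : ι ⁻¹' B = Bd δ := rfl
  have key : ∀ g : EuclideanSpace ℝ (Fin 3) → ℝ, ∫ z in Bd δ, g (ι z) = ∫ w in B, g w := by
    intro g
    rw [← hpre]
    exact hmp.setIntegral_preimage_emb hemb g B
  let V : EuclideanSpace ℝ (Fin 3) := ι v
  let e : EuclideanSpace ℝ (Fin 3) := EuclideanSpace.single 0 1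
  have hV : ‖V‖ = √ (∑ i, (v i) ^ 2) := by
    rw [← Real.sqrt_sq (norm_nonneg V), EuclideanSpace.real_norm_sq_eq]
  have he : ‖‖V‖ • e‖ = ‖V‖ := by
    rw [norm_smul, norm_norm]
    simp [e]
  let R := Submodule.reflection (Submodule.span ℝ {‖V‖ • e - V})ᗮ
  have hR : R (‖V‖ • e) = V := Submodule.reflection_sub he
  have hRR : ∀ w, R (R w) = w := fun w => Submodule.reflection_reflection _ w
  have hinner : ∀ w, inner ℝ V (R w) = ‖V‖ * w 0 := by
    intro w
    have h1 : inner ℝ V (R w) = inner ℝ (‖V‖ • e) w := by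
      conv_lhs => rw [← hR]
      exact R.inner_map_map _ _
    rw [h1, inner_smul_left]
    simp [e, EuclideanSpace.inner_single_left]
  have e1 : ∫ z in Bd δ, |∑ i, v i * z i| = ∫ w in B, |inner ℝ V w| := by
    rw [← key]
    refine integral_congr_ae (ae_of_all _ fun z => ?_)
    simp only [PiLp.inner_apply]
    congr 1
    refine Finset.sum_congr rfl fun i _ => ?_
    simp [V, ι, mul_comm]
  have e2 : ∫ w in B, |inner ℝ V w| = ∫ w in B, ‖V‖ * |w 0| := by
    have hpR : R ⁻¹' B = B := by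
      ext w
      rw [mem_preimage, hB, hB, R.norm_map]
    have h3 := R.measurePreserving.setIntegral_preimage_emb
      R.toHomeomorph.measurableEmbedding (fun w => |inner ℝ V w|) B
    rw [hpR] at h3
    rw [← h3]
    refine integral_congr_ae (ae_of_all _ fun w => ?_)
    simp only
    rw [hinner, abs_mul, abs_norm]
  have e3 : ∫ w in B, ‖V‖ * |w 0| = ‖V‖ * Mc δ := by
    rw [integral_const_mul, ← key]
    rfl
  rw [e1, e2, e3, hV]

theorem measure_Bd_lt_top (δ : ℝ) (h0 : 0 < δ) (h1 : δ < 1 / 2) : volume (Bd δ) < ⊤ := by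
  refine lt_of_le_of_lt (measure_mono (Bd_subset_box h0 h1)) ?_
  have h : volume (box (fun _ => -(1 / 2))) = volume (univ : Set Tor) := by
    have := (mp_pr (fun _ => -(1 / 2))).measure_preimage
      (s := univ) MeasurableSet.univ.nullMeasurableSet
    rwa [preimage_univ, Measure.restrict_apply_univ] at this
  rw [h]
  exact measure_lt_top _ _

theorem Mc_pos {δ : ℝ} (h0 : 0 < δ) (h1 : δ < 1 / 2) : 0 < Mc δ := by
  have hint : IntegrableOn (fun z : R3 => |z 0|) (Bd δ) := by
    refine Measure.integrableOn_of_bounded (M := δ) (measure_Bd_lt_top δ h0 h1).ne ?_ ?_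
    · have : Continuous fun z : R3 => |z 0| := by fun_prop
      exact this.aestronglyMeasurable
    · refine (ae_restrict_iff' (isOpen_Bd δ).measurableSet).2 (ae_of_all _ fun z hz => ?_)
      rw [Real.norm_eq_abs, abs_abs]
      exact (abs_lt_of_mem_Bd h0 hz 0).le
  have hMc : Mc δ = ∫ z in Bd δ, |z 0| := rfl
  rw [hMc, setIntegral_pos_iff_support_of_nonneg_ae (ae_of_all _ fun z => abs_nonneg _) hint]
  have hopen : IsOpen (Function.support (fun z : R3 => |z 0|) ∩ Bd δ) := by
    refine IsOpen.inter ?_ (isOpen_Bd δ)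
    have : Function.support (fun z : R3 => |z 0|) = {z : R3 | z 0 ≠ 0} := by
      ext z; simp [Function.mem_support]
    rw [this]
    have hc : Continuous fun z : R3 => z 0 := by fun_prop
    exact isOpen_ne_fun hc continuous_const
  refine hopen.measure_pos _ ⟨Pi.single 0 (δ / 2), ?_, ?_⟩
  · simp [Function.mem_support, h0.ne']
  · simp only [Bd, mem_ofPred_eq, Fin.sum_univ_three]
    simp
    nlinarith

end EnAux
end P232
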