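import Vale.Agent.P232.EnDer

/-!
# P232 [EUP]: the nonlocal energy is at most `Mc δ` times the total variation
-/

open MeasureTheory Set Filter Topology
open scoped ENNReal ContDiff

namespace P232
namespace EnAux

variable {f : R3 → ℝ}

theorem pointwise (hf : ContDiff ℝ 1 f) (x z : R3) :
    |f (x + z) - f x| ≤ ∫ t in (0 : ℝ)..1, |fderiv ℝ f (x + t • z) z| := by
  have hd : ∀ t : ℝ, HasDerivAt (fun t : ℝ => f (x + t • z)) (fderiv ℝ f (x + t • z) z) t := by
    intro t
    have h1 : HasDerivAt (fun t : ℝ => x + t • z) z t := by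
      simpa using ((hasDerivAt_id t).smul_const z).const_add x
    exact ((hf.differentiable (by norm_num)) (x + t • z)).hasFDerivAt.comp_hasDerivAt t h1
  have hcont : Continuous fun t : ℝ => fderiv ℝ f (x + t • z) z :=
    (continuous_partial hf z).comp (by fun_prop)
  have h2 : ∫ t in (0 : ℝ)..1, fderiv ℝ f (x + t • z) z = f (x + z) - f x := by
    rw [intervalIntegral.integral_eq_sub_of_hasDerivAt (fun t _ => hd t)
      (hcont.intervalIntegrable _ _)]
    simp
  rw [← h2]
  exact intervalIntegral.abs_integral_le_integral_abs zero_le_one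

theorem inc_le (hf : ContDiff ℝ 1 f) (hk : KerInv f) (z : R3) :
    ∫ x in cell, |f (x + z) - f x| ≤ ∫ x in cell, |fderiv ℝ f x z| := by
  have hkz : KerInv (fun x => |fderiv ℝ f x z|) := by
    intro w hw x
    have := fderiv_kerInv hk w hw x
    simp only at this
    simp only [this]
  have hcz : Continuous (fun x => |fderiv ℝ f x z|) := (continuous_partial hf z).abs
  obtain ⟨M, hM0, hM⟩ := exists_bound hcz hkz
  have hc2 : Continuous fun p : R3 × ℝ => |fderiv ℝ f (p.1 + p.2 • z) z| :=
    hcz.comp (by fun_prop)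
  have hint : Integrable (fun p : R3 × ℝ => |fderiv ℝ f (p.1 + p.2 • z) z|)
      ((volume.restrict cell).prod (volume.restrict (Ioc (0 : ℝ) 1))) := by
    refine Integrable.of_bound (C := M) hc2.aestronglyMeasurable (ae_of_all _ fun p => ?_)
    rw [Real.norm_eq_abs]
    exact hM _
  have hsw : ∫ x in cell, ∫ t in Ioc (0 : ℝ) 1, |fderiv ℝ f (x + t • z) z| =
      ∫ t in Ioc (0 : ℝ) 1, ∫ x in cell, |fderiv ℝ f (x + t • z) z| :=
    integral_integral_swap (f := fun x t => |fderiv ℝ f (x + t • z) z|) hint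
  have h1 : ∫ x in cell, |f (x + z) - f x| ≤
      ∫ x in cell, ∫ t in Ioc (0 : ℝ) 1, |fderiv ℝ f (x + t • z) z| := by
    refine integral_mono_of_nonneg (ae_of_all _ fun x => abs_nonneg _) hint.integral_prod_left
      (ae_of_all _ fun x => ?_)
    have := pointwise hf x z
    rwa [intervalIntegral.integral_of_le zero_le_one] at this
  refine h1.trans ?_
  rw [hsw]
  have h2 : ∀ t : ℝ, ∫ x in cell, |fderiv ℝ f (x + t • z) z| = ∫ x in cell, |fderiv ℝ f x z| :=
    fun t => integral_shift hcz hkz (t • z)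
  simp only [h2]
  simp

end EnAux

theorem en_le (f : R3 → ℝ) (hf : ContDiff ℝ 1 f) (h : Tor → ℝ) (hh : ∀ x, h (pr x) = f x)
    (δ : ℝ) (h0 : 0 < δ) (h1 : δ < 1 / 2) : en δ h ≤ Mc δ * ∫ x in cell, gradN f x := by
  have hk := EnAux.kerInv_of_lift hh
  have := EnAux.isFinite_Bd h0 h1
  rw [EnAux.en_eq hf.continuous hh h0 h1, ← EnAux.lin_eq hf hk h0 h1]
  refine integral_mono_of_nonneg (ae_of_all _ fun z => ?_)
    (EnAux.integrable_lin hf hk h0 h1).integral_prod_left (ae_of_all _ fun z => ?_)
  · exact integral_nonneg fun x => abs_nonneg _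
  · exact EnAux.inc_le hf hk z

end P232
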