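import Vale.Agent.P232.Defs

/-!
# P232: the identification `ℝ × ℝ × ℝ ≃ ℝ³`.
-/

open MeasureTheory Set Filter Topology
open scoped ENNReal ContDiff

namespace P232.Vec

/-- `(x, y, z) ↦ ![x, y, z]` -/
def vec3 (p : ℝ × ℝ × ℝ) : R3 := ![p.1, p.2.1, p.2.2]

@[simp] theorem vec3_0 (p : ℝ × ℝ × ℝ) : vec3 p 0 = p.1 := rfl
@[simp] theorem vec3_1 (p : ℝ × ℝ × ℝ) : vec3 p 1 = p.2.1 := rfl
@[simp] theorem vec3_2 (p : ℝ × ℝ × ℝ) : vec3 p 2 = p.2.2 := rfl

/-- the measurable equivalence -/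
noncomputable def veq : (ℝ × ℝ × ℝ) ≃ᵐ R3 :=
  ((MeasurableEquiv.piFinSuccAbove (fun _ : Fin 3 => ℝ) 0).trans
    ((MeasurableEquiv.refl ℝ).prodCongr (MeasurableEquiv.finTwoArrow (α := ℝ)))).symm

theorem veq_apply (p : ℝ × ℝ × ℝ) : veq p = vec3 p := by
  have : veq.symm (vec3 p) = p := by
    simp only [veq, MeasurableEquiv.symm_symm]
    rfl
  rw [← this, MeasurableEquiv.apply_symm_apply, this]

theorem mp_veq : MeasurePreserving veq volume volume := by
  refine MeasurePreserving.symm _ ?_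
  refine MeasurePreserving.trans (volume_preserving_piFinSuccAbove (fun _ : Fin 3 => ℝ) 0) ?_
  exact (MeasurePreserving.id volume).prod (volume_preserving_finTwoArrow ℝ)

theorem mp_vec3 : MeasurePreserving vec3 (volume : Measure (ℝ × ℝ × ℝ)) (volume : Measure R3) := by
  have h : vec3 = veq := by funext p; rw [veq_apply]
  rw [h]; exact mp_veq

theorem emb_vec3 : MeasurableEmbedding vec3 := by
  have h : vec3 = veq := by funext p; rw [veq_apply]
  rw [h]; exact veq.measurableEmbedding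

theorem vec3_surj (x : R3) : vec3 (x 0, x 1, x 2) = x := by
  funext i; fin_cases i <;> rfl

theorem continuous_vec3 : Continuous vec3 := by
  rw [continuous_pi_iff]
  intro i
  fin_cases i
  · exact continuous_fst
  · exact continuous_fst.comp continuous_snd
  · exact continuous_snd.comp continuous_snd

/-- as a continuous linear map -/
noncomputable def vecL : (ℝ × ℝ × ℝ) →L[ℝ] R3 :=
  ContinuousLinearMap.pi ![ContinuousLinearMap.fst ℝ ℝ (ℝ × ℝ),
    (ContinuousLinearMap.fst ℝ ℝ ℝ).comp (ContinuousLinearMap.snd ℝ ℝ (ℝ × ℝ)),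
    (ContinuousLinearMap.snd ℝ ℝ ℝ).comp (ContinuousLinearMap.snd ℝ ℝ (ℝ × ℝ))]

theorem vecL_apply (p : ℝ × ℝ × ℝ) : vecL p = vec3 p := by
  funext i; fin_cases i <;> rfl

theorem vec3_le {p q : ℝ × ℝ × ℝ} : vec3 p ≤ vec3 q ↔ p ≤ q := by
  constructor
  · intro h
    exact ⟨h 0, h 1, h 2⟩
  · rintro ⟨h1, h2, h3⟩ i
    fin_cases i
    · exact h1
    · exact h2
    · exact h3

end P232.Vec
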