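import Vale.Agent.P232.Cell
import Vale.Agent.P232.Vec3

/-!
# P232: folding the torus on the cube; descent of periodic functions to the torus.
-/

open MeasureTheory Set Filter Topology
open scoped ENNReal ContDiff

namespace P232.Fold

/-! ### halving one coordinate -/

theorem halve1 (f : ℝ → ℝ) (hc : Continuous f) (he : ∀ x, f (-x) = f x)
    (hp : ∀ x, f (x + 1) = f x) :
    ∫ x in (0 : ℝ)..1, f (x / 2) = ∫ x in (0 : ℝ)..1, f x := by
  have h1 : ∫ x in (0 : ℝ)..1, f (x / 2) = 2 * ∫ x in (0 : ℝ)..(1 / 2), f x := by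
    rw [intervalIntegral.integral_comp_div (fun x => f x) two_ne_zero]
    simp
  have h2 : ∫ x in (0 : ℝ)..1, f x
      = (∫ x in (0 : ℝ)..(1 / 2), f x) + ∫ x in (1 / 2 : ℝ)..1, f x :=
    (intervalIntegral.integral_add_adjacent_intervals (hc.intervalIntegrable _ _)
      (hc.intervalIntegrable _ _)).symm
  have h3 : ∫ x in (1 / 2 : ℝ)..1, f x = ∫ x in (0 : ℝ)..(1 / 2), f x := by
    have h4 := intervalIntegral.integral_comp_sub_left (a := 0) (b := 1 / 2) (fun x => f x) (1 : ℝ)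
    rw [show (1 : ℝ) - 1 / 2 = 1 / 2 by norm_num, sub_zero] at h4
    rw [← h4]
    refine intervalIntegral.integral_congr fun x _ => ?_
    show f (1 - x) = f x
    rw [← he x, ← hp (-x)]
    congr 1
    ring
  rw [h1, h2, h3]
  ring

/-- the triple integral -/
theorem integral_Q3 (H : ℝ × ℝ × ℝ → ℝ) (hc : Continuous H) :
    ∫ p in Q3, H p = ∫ x in (0 : ℝ)..1, ∫ y in (0 : ℝ)..1, ∫ z in (0 : ℝ)..1, H (x, y, z) := by
  have hK : IsCompact (Icc (0 : ℝ) 1 ×ˢ (Icc (0 : ℝ) 1 ×ˢ Icc (0 : ℝ) 1)) :=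
    isCompact_Icc.prod (isCompact_Icc.prod isCompact_Icc)
  have hint : IntegrableOn H (Ioo (0 : ℝ) 1 ×ˢ (Ioo (0 : ℝ) 1 ×ˢ Ioo (0 : ℝ) 1)) volume :=
    (hc.continuousOn.integrableOn_compact hK).mono_set
      (prod_mono Ioo_subset_Icc_self (prod_mono Ioo_subset_Icc_self Ioo_subset_Icc_self))
  unfold Q3
  rw [Measure.volume_eq_prod] at hint ⊢
  rw [setIntegral_prod _ hint, intervalIntegral.integral_of_le zero_le_one,
    integral_Ioc_eq_integral_Ioo]
  refine setIntegral_congr_fun measurableSet_Ioo fun x _ => ?_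
  show ∫ y in Ioo (0 : ℝ) 1 ×ˢ Ioo (0 : ℝ) 1, H (x, y) = _
  have hcx : Continuous (fun q : ℝ × ℝ => H (x, q)) := hc.comp (by fun_prop)
  have hint2 : IntegrableOn (fun q : ℝ × ℝ => H (x, q)) (Ioo (0 : ℝ) 1 ×ˢ Ioo (0 : ℝ) 1)
      volume :=
    (hcx.continuousOn.integrableOn_compact (isCompact_Icc.prod isCompact_Icc)).mono_set
      (prod_mono Ioo_subset_Icc_self Ioo_subset_Icc_self)
  rw [Measure.volume_eq_prod] at hint2 ⊢
  rw [setIntegral_prod _ hint2, intervalIntegral.integral_of_le zero_le_one,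
    integral_Ioc_eq_integral_Ioo]
  refine setIntegral_congr_fun measurableSet_Ioo fun y _ => ?_
  rw [intervalIntegral.integral_of_le zero_le_one, integral_Ioc_eq_integral_Ioo]

/-- even and periodic in each coordinate -/
structure EP (H : ℝ × ℝ × ℝ → ℝ) : Prop where
  cont : Continuous H
  e0 : ∀ x y z, H (-x, y, z) = H (x, y, z)
  e1 : ∀ x y z, H (x, -y, z) = H (x, y, z)
  e2 : ∀ x y z, H (x, y, -z) = H (x, y, z)
  p0 : ∀ x y z, H (x + 1, y, z) = H (x, y, z)
  p1 : ∀ x y z, H (x, y + 1, z) = H (x, y, z)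
  p2 : ∀ x y z, H (x, y, z + 1) = H (x, y, z)

/-- halving a point -/
noncomputable def hf (p : ℝ × ℝ × ℝ) : ℝ × ℝ × ℝ := (p.1 / 2, p.2.1 / 2, p.2.2 / 2)

theorem continuous_hf : Continuous hf := by unfold hf; fun_prop

theorem halve (H : ℝ × ℝ × ℝ → ℝ) (h : EP H) : ∫ p in Q3, H (hf p) = ∫ p in Q3, H p := by
  have hc := h.cont
  rw [integral_Q3 (fun p => H (hf p)) (hc.comp continuous_hf), integral_Q3 _ hc]
  simp only [hf]
  have h2 : ∀ x y : ℝ, ∫ z in (0 : ℝ)..1, H (x, y, z / 2) = ∫ z in (0 : ℝ)..1, H (x, y, z) := by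
    intro x y
    exact halve1 (fun z => H (x, y, z)) (hc.comp (by fun_prop)) (fun z => h.e2 x y z)
      (fun z => h.p2 x y z)
  simp only [h2]
  have h1 : ∀ x : ℝ, ∫ y in (0 : ℝ)..1, ∫ z in (0 : ℝ)..1, H (x, y / 2, z)
      = ∫ y in (0 : ℝ)..1, ∫ z in (0 : ℝ)..1, H (x, y, z) := by
    intro x
    refine halve1 (fun y => ∫ z in (0 : ℝ)..1, H (x, y, z)) ?_ (fun y => ?_) (fun y => ?_)
    · refine intervalIntegral.continuous_parametric_intervalIntegral_of_continuous' ?_ _ _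
      exact hc.comp (by fun_prop)
    · show ∫ z in (0 : ℝ)..1, H (x, -y, z) = _
      simp only [h.e1]
    · show ∫ z in (0 : ℝ)..1, H (x, y + 1, z) = _
      simp only [h.p1]
  simp only [h1]
  refine halve1 (fun x => ∫ y in (0 : ℝ)..1, ∫ z in (0 : ℝ)..1, H (x, y, z)) ?_ (fun x => ?_)
    (fun x => ?_)
  · refine intervalIntegral.continuous_parametric_intervalIntegral_of_continuous' ?_ _ _
    have hcc : Continuous (Function.uncurry fun (q : ℝ × ℝ) (z : ℝ) => H (q.1, q.2, z)) :=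
      hc.comp (by fun_prop)
    exact intervalIntegral.continuous_parametric_intervalIntegral_of_continuous' hcc 0 1
  · show ∫ y in (0 : ℝ)..1, ∫ z in (0 : ℝ)..1, H (-x, y, z) = _
    simp only [h.e0]
  · show ∫ y in (0 : ℝ)..1, ∫ z in (0 : ℝ)..1, H (x + 1, y, z) = _
    simp only [h.p0]

/-- the cell in the coordinates of `ℝ × ℝ × ℝ` -/
theorem integral_cell_eq_Q3 (F : R3 → ℝ) :
    ∫ x in cell, F x = ∫ p in Q3, F (Vec.vec3 p) := by
  rw [← Vec.mp_vec3.setIntegral_preimage_emb Vec.emb_vec3 F cell]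
  refine setIntegral_congr_set ?_
  have h1 : Vec.vec3 ⁻¹' cell
      = Ico (0 : ℝ) 1 ×ˢ (Ico (0 : ℝ) 1 ×ˢ Ico (0 : ℝ) 1) := by
    ext p
    simp [cell, Fin.forall_fin_succ, mem_prod]
  rw [h1, Q3, Measure.volume_eq_prod, Measure.volume_eq_prod]
  exact Measure.set_prod_ae_eq Ioo_ae_eq_Ico.symm
    (Measure.set_prod_ae_eq Ioo_ae_eq_Ico.symm Ioo_ae_eq_Ico.symm)

/-! ### the torus -/

theorem mp_pr : MeasurePreserving pr
    (volume.restrict (Set.pi Set.univ fun _ : Fin 3 => Ioc (0 : ℝ) 1)) (volume : Measure Tor) := by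
  have h := measurePreserving_pi (ι := Fin 3) (α := fun _ => ℝ) (β := fun _ => AddCircle (1 : ℝ))
    (fun _ => (volume : Measure ℝ).restrict (Ioc 0 (0 + 1)))
    (fun _ => (volume : Measure (AddCircle (1 : ℝ))))
    (f := fun _ x => (x : AddCircle (1 : ℝ)))
    (fun _ => AddCircle.measurePreserving_mk 1 0)
  rw [← Measure.restrict_pi_pi, zero_add] at h
  exact h

theorem continuous_pr : Continuous pr := by
  unfold pr
  exact continuous_pi fun i => (AddCircle.continuous_mk' 1).comp (continuous_apply i)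

theorem cell_ae_Ioc : (cell : Set R3) =ᵐ[volume] Set.pi Set.univ fun _ : Fin 3 => Ioc (0 : ℝ) 1 := by
  refine Cell.cell_ae_Icc.trans ?_
  have := Measure.univ_pi_Ioc_ae_eq_Icc (μ := fun _ : Fin 3 => (volume : Measure ℝ))
    (f := fun _ => (0 : ℝ)) (g := fun _ => (1 : ℝ))
  exact this.symm

theorem integral_tor (h : Tor → ℝ) (hc : Continuous h) : ∫ y, h y = ∫ x in cell, h (pr x) := by
  rw [setIntegral_congr_set cell_ae_Ioc]
  have h1 := mp_pr
  rw [← h1.map_eq, integral_map h1.measurable.aemeasurable]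
  rw [h1.map_eq]
  exact hc.aestronglyMeasurable

theorem pr_surj (y : Tor) : ∃ x, pr x = y := by
  choose x hx using fun i => QuotientAddGroup.mk_surjective (y i)
  exact ⟨x, funext hx⟩

theorem pr_eq {x x' : R3} (h : pr x' = pr x) :
    ∃ v ∈ Submodule.span ℤ (Set.range (Pi.basisFun ℝ (Fin 3))), x' = v + x := by
  have h1 : ∀ i, ∃ n : ℤ, x' i - x i = n := by
    intro i
    have h2 : ((x' i : ℝ) : AddCircle (1 : ℝ)) = (x i : ℝ) := congrFun h i
    have h3 : ((x' i - x i : ℝ) : AddCircle (1 : ℝ)) = 0 := by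
      rw [AddCircle.coe_sub, h2, sub_self]
    rw [AddCircle.coe_eq_zero_iff] at h3
    obtain ⟨n, hn⟩ := h3
    exact ⟨n, by rw [← hn]; simp⟩
  choose n hn using h1
  refine ⟨fun i => (n i : ℝ), ?_, ?_⟩
  · have : (fun i => (n i : ℝ)) = ∑ i, n i • (Pi.basisFun ℝ (Fin 3)) i := by
      funext j
      simp [Finset.sum_apply, Pi.single_apply]
    rw [this]
    exact Submodule.sum_mem _ fun i _ =>
      Submodule.smul_mem _ _ (Submodule.subset_span ⟨i, rfl⟩)
  · funext i
    have := hn i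
    simp only [Pi.add_apply]
    linarith

theorem pr_add_single (x : R3) (i : Fin 3) : pr (x + Pi.single i 1) = pr x := by
  funext j
  simp only [pr, Pi.add_apply]
  by_cases h : j = i
  · subst h
    rw [Pi.single_eq_same, AddCircle.coe_add]
    simp [AddCircle.coe_period]
  · rw [Pi.single_eq_of_ne h, add_zero]

/-- descent -/
theorem descend (f : R3 → ℝ) (hp : PeriodicFun f) : ∃ h : Tor → ℝ, ∀ x, h (pr x) = f x := by
  choose s hs using pr_surj
  refine ⟨fun y => f (s y), fun x => ?_⟩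
  obtain ⟨v, hv, hx⟩ := pr_eq (hs (pr x))
  show f (s (pr x)) = f x
  rw [hx]
  exact Cell.periodic_int f hp v hv x

theorem exists_lift (y : AddCircle (1 : ℝ)) : ∃ t : ℝ, (t : AddCircle (1 : ℝ)) = y ∧ |t| = ‖y‖ := by
  obtain ⟨x, rfl⟩ := QuotientAddGroup.mk_surjective y
  refine ⟨x - round x, ?_, ?_⟩
  · rw [AddCircle.coe_sub, sub_eq_self, AddCircle.coe_eq_zero_iff]
    exact ⟨round x, by simp⟩
  · rw [AddCircle.norm_eq]
    simp

theorem descend_lip (f : R3 → ℝ) (K : NNReal) (hf : LipschitzWith K f) (h : Tor → ℝ)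
    (hh : ∀ x, h (pr x) = f x) : LipschitzWith K h := by
  refine LipschitzWith.of_dist_le_mul fun y y' => ?_
  obtain ⟨x', hx'⟩ := pr_surj y'
  choose t ht htn using fun i => exists_lift (y i - y' i)
  have hx : pr (x' + t) = y := by
    funext i
    have h1 : ((x' i : ℝ) : AddCircle (1 : ℝ)) = y' i := congrFun hx' i
    show ((x' i + t i : ℝ) : AddCircle (1 : ℝ)) = y i
    rw [AddCircle.coe_add, h1, ht]
    abel
  rw [← hx, ← hx', hh, hh]
  refine (hf.dist_le_mul _ _).trans ?_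
  refine mul_le_mul_of_nonneg_left ?_ K.2
  rw [dist_pi_le_iff dist_nonneg]
  intro i
  have h2 : dist ((x' + t) i) (x' i) = |t i| := by
    rw [Real.dist_eq]; simp
  rw [h2, htn, ← dist_eq_norm, hx, hx']
  exact dist_le_pi_dist y y' i

/-- a smooth periodic function is Lipschitz -/
theorem lip_of_periodic (f : R3 → ℝ) (hf : ContDiff ℝ 1 f) (hp : PeriodicFun f) :
    ∃ K : NNReal, LipschitzWith K f := by
  have hcf : Continuous (fderiv ℝ f) := hf.continuous_fderiv one_ne_zero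
  have hpf : ∀ x i, fderiv ℝ f (x + Pi.single i 1) = fderiv ℝ f x := by
    intro x i
    have : fderiv ℝ f (x + Pi.single i 1) = fderiv ℝ (fun y => f (y + Pi.single i 1)) x := by
      rw [fderiv_comp_add_right]
    rw [this]
    congr 1
    funext y
    exact hp y i
  obtain ⟨C, hC⟩ := (isCompact_Icc (a := (0 : R3)) (b := 1)).exists_bound_of_continuousOn
    hcf.continuousOn
  refine ⟨Real.toNNReal (max C 0), ?_⟩
  refine lipschitzWith_of_nnnorm_fderiv_le (𝕜 := ℝ) (hf.differentiable one_ne_zero) fun x => ?_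
  rw [← NNReal.coe_le_coe, coe_nnnorm, Real.coe_toNNReal _ (le_max_right _ _)]
  -- reduce to the cell
  set x' : R3 := fun i => Int.fract (x i) with hx'
  have hpr : pr x' = pr x := by
    funext i
    show ((Int.fract (x i) : ℝ) : AddCircle (1 : ℝ)) = x i
    have h1 : (x i : ℝ) - Int.fract (x i) = ⌊x i⌋ := by
      have := Int.self_sub_fract (x i); exact this
    have h2 : ((x i - Int.fract (x i) : ℝ) : AddCircle (1 : ℝ)) = 0 := by
      rw [h1, AddCircle.coe_eq_zero_iff]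
      exact ⟨⌊x i⌋, by simp⟩
    rw [AddCircle.coe_sub, sub_eq_zero] at h2
    exact h2.symm
  obtain ⟨v, hv, he⟩ := pr_eq hpr
  have h3 : fderiv ℝ f x' = fderiv ℝ f x := by
    rw [he]; exact Cell.periodic_int _ hpf v hv x
  rw [← h3]
  refine (hC x' ⟨fun i => Int.fract_nonneg _, fun i => (Int.fract_lt_one _).le⟩).trans
    (le_max_left _ _)

end P232.Fold
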