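import Vale.Agent.P232.Vec3

/-!
# P232 [HEL]: Helly's selection theorem for monotone functions on the cube.
-/

open MeasureTheory Set Filter Topology
open scoped ENNReal ContDiff

namespace P232.Hel

theorem measurableSet_Q3 : MeasurableSet Q3 :=
  measurableSet_Ioo.prod (measurableSet_Ioo.prod measurableSet_Ioo)

theorem volume_Q3 : volume Q3 = 1 := by
  unfold Q3
  rw [Measure.volume_eq_prod, Measure.prod_prod, Measure.volume_eq_prod, Measure.prod_prod]
  simp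

instance : IsFiniteMeasure (volume.restrict Q3) := ⟨by
  rw [Measure.restrict_apply_univ, volume_Q3]; exact ENNReal.one_lt_top⟩

theorem isOpen_Q3 : IsOpen Q3 := isOpen_Ioo.prod (isOpen_Ioo.prod isOpen_Ioo)

/-- rational points -/
def rat (r : ℚ × ℚ × ℚ) : ℝ × ℝ × ℝ := ((r.1 : ℝ), (r.2.1 : ℝ), (r.2.2 : ℝ))

/-- `p` is strictly below `q` -/
def slt (p q : ℝ × ℝ × ℝ) : Prop := p.1 < q.1 ∧ p.2.1 < q.2.1 ∧ p.2.2 < q.2.2

theorem slt.le {p q : ℝ × ℝ × ℝ} (h : slt p q) : p ≤ q := ⟨h.1.le, h.2.1.le, h.2.2.le⟩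

theorem exists_rat {p q : ℝ × ℝ × ℝ} (h : slt p q) : ∃ r, slt p (rat r) ∧ slt (rat r) q := by
  obtain ⟨a, ha⟩ := exists_rat_btwn h.1
  obtain ⟨b, hb⟩ := exists_rat_btwn h.2.1
  obtain ⟨c, hc⟩ := exists_rat_btwn h.2.2
  exact ⟨(a, b, c), ⟨ha.1, hb.1, hc.1⟩, ⟨ha.2, hb.2, hc.2⟩⟩

/-- first extraction: convergence at rational points -/
theorem extract_rat (g : ℕ → ℝ × ℝ × ℝ → ℝ) (h01 : ∀ n p, g n p ∈ Icc (0 : ℝ) 1) :
    ∃ φ : ℕ → ℕ, StrictMono φ ∧ ∃ u : ℚ × ℚ × ℚ → ℝ,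
      ∀ r, Tendsto (fun n => g (φ n) (rat r)) atTop (𝓝 (u r)) := by
  have hK : IsCompact (Set.pi univ fun _ : ℚ × ℚ × ℚ => Icc (0 : ℝ) 1) :=
    isCompact_univ_pi fun _ => isCompact_Icc
  obtain ⟨u, -, φ, hφ, hu⟩ := hK.tendsto_subseq (x := fun n => fun r => g n (rat r))
    (fun n => fun r _ => h01 n _)
  refine ⟨φ, hφ, u, fun r => ?_⟩
  exact (tendsto_pi_nhds.1 hu) r

/-- second extraction: almost everywhere convergence -/
theorem extract_ae (w : ℕ → ℝ × ℝ × ℝ → ℝ) (hc : ∀ n, Continuous (w n))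
    (h01 : ∀ n p, w n p ∈ Icc (0 : ℝ) 1)
    (hint : Tendsto (fun n => ∫ p in Q3, w n p) atTop (𝓝 0)) :
    ∃ φ : ℕ → ℕ, StrictMono φ ∧
      ∀ᵐ p ∂(volume.restrict Q3), Tendsto (fun n => w (φ n) p) atTop (𝓝 0) := by
  have hm : TendstoInMeasure (volume.restrict Q3) w atTop (fun _ => (0 : ℝ)) := by
    refine tendstoInMeasure_of_tendsto_eLpNorm one_ne_zero
      (fun n => (hc n).aestronglyMeasurable) aestronglyMeasurable_const ?_
    have h1 : ∀ n, eLpNorm (w n - fun _ => (0 : ℝ)) 1 (volume.restrict Q3)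
        = ENNReal.ofReal (∫ p in Q3, w n p) := by
      intro n
      have e : (w n - fun _ => (0 : ℝ)) = w n := by funext p; simp
      rw [e, eLpNorm_one_eq_lintegral_enorm,
        ofReal_integral_eq_lintegral_ofReal ?_ (Eventually.of_forall fun p => (h01 n p).1)]
      · refine lintegral_congr fun p => ?_
        rw [Real.enorm_eq_ofReal (h01 n p).1]
      · refine Integrable.mono' (integrable_const (1 : ℝ)) (hc n).aestronglyMeasurable ?_
        refine Eventually.of_forall fun p => ?_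
        rw [Real.norm_eq_abs, abs_of_nonneg (h01 n p).1]
        exact (h01 n p).2
    simp only [h1]
    have := ENNReal.tendsto_ofReal hint
    rwa [ENNReal.ofReal_zero] at this
  exact hm.exists_seq_tendsto_ae

theorem pick (x y : ℕ → ℝ) (hx : ∀ n, x n ∈ Icc (0 : ℝ) 1)
    (h0 : Tendsto (fun n => x n * (1 - x n)) atTop (𝓝 0)) (c : ℝ) (hy : Tendsto y atTop (𝓝 c))
    (hc : 1 / 2 < c) (hxy : ∀ n, y n ≤ x n) : Tendsto x atTop (𝓝 1) := by
  have h1 : ∀ᶠ n in atTop, 1 / 2 < y n := hy.eventually (lt_mem_nhds hc)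
  have h2 : Tendsto (fun n => 1 - x n) atTop (𝓝 0) := by
    refine squeeze_zero' (Eventually.of_forall fun n => by linarith [(hx n).2]) ?_
      (by simpa using h0.const_mul 2)
    filter_upwards [h1] with n hn
    have := hxy n
    nlinarith [(hx n).2]
  have h3 : Tendsto (fun n => 1 - (1 - x n)) atTop (𝓝 (1 - 0)) := tendsto_const_nhds.sub h2
  simpa using h3

theorem pick' (x y : ℕ → ℝ) (hx : ∀ n, x n ∈ Icc (0 : ℝ) 1)
    (h0 : Tendsto (fun n => x n * (1 - x n)) atTop (𝓝 0)) (c : ℝ) (hy : Tendsto y atTop (𝓝 c))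
    (hc : c ≤ 1 / 2) (hxy : ∀ n, x n ≤ y n) : Tendsto x atTop (𝓝 0) := by
  have h1 : ∀ᶠ n in atTop, y n < 3 / 4 := hy.eventually (gt_mem_nhds (by linarith))
  refine squeeze_zero' (Eventually.of_forall fun n => (hx n).1) ?_
    (by simpa using h0.const_mul 4)
  filter_upwards [h1] with n hn
  have := hxy n
  nlinarith [(hx n).1]

end P232.Hel

namespace P232

open Hel Vec in
/-- [HEL] -/
theorem helly (g : ℕ → ℝ × ℝ × ℝ → ℝ) (hc : ∀ n, Continuous (g n))
    (hanti : ∀ n, AntitoneOn (g n) Q3) (h01 : ∀ n p, g n p ∈ Icc (0 : ℝ) 1)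
    (hint : Tendsto (fun n => ∫ p in Q3, g n p * (1 - g n p)) atTop (𝓝 0)) (V : ℝ)
    (hV : Tendsto (fun n => ∫ p in Q3, g n p) atTop (𝓝 V)) :
    ∃ φ : ℕ → ℕ, StrictMono φ ∧ ∃ D : Set (ℝ × ℝ × ℝ), IsOpen D ∧ Low3 D ∧
      volume D = ENNReal.ofReal V ∧
      ∀ᵐ p ∂(volume.restrict Q3), Tendsto (fun n => g (φ n) p) atTop (𝓝 (D.indicator 1 p)) := by
  obtain ⟨φ₁, hφ₁, u, hu⟩ := extract_rat g h01
  obtain ⟨φ₂, hφ₂, hae⟩ := extract_ae (fun n p => g (φ₁ n) p * (1 - g (φ₁ n) p))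
    (fun n => (hc _).mul (continuous_const.sub (hc _)))
    (fun n p => by
      have h := h01 (φ₁ n) p
      exact ⟨mul_nonneg h.1 (by linarith [h.2]), by nlinarith [h.1, h.2]⟩)
    (hint.comp hφ₁.tendsto_atTop)
  set φ : ℕ → ℕ := φ₁ ∘ φ₂ with hφ
  have hu' : ∀ r, Tendsto (fun n => g (φ n) (rat r)) atTop (𝓝 (u r)) := fun r =>
    (hu r).comp hφ₂.tendsto_atTop
  -- the lower set
  set S : Set R3 := {x | ∃ r : ℚ × ℚ × ℚ, rat r ∈ Q3 ∧ 1 / 2 < u r ∧ x 0 < (rat r).1 ∧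
    x 1 < (rat r).2.1 ∧ x 2 < (rat r).2.2} with hS
  have hSlow : IsLowerSet S := by
    rintro x y hyx ⟨r, hr, hur, h0, h1, h2⟩
    exact ⟨r, hr, hur, (hyx 0).trans_lt h0, (hyx 1).trans_lt h1, (hyx 2).trans_lt h2⟩
  have hSopen : IsOpen S := by
    have : S = ⋃ r : ℚ × ℚ × ℚ, ⋃ (_ : rat r ∈ Q3 ∧ 1 / 2 < u r),
        {x : R3 | x 0 < (rat r).1 ∧ x 1 < (rat r).2.1 ∧ x 2 < (rat r).2.2} := by
      ext x
      simp only [hS, mem_ofPred_eq, mem_iUnion, exists_prop]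
      constructor
      · rintro ⟨r, hr, hur, h⟩
        exact ⟨r, ⟨hr, hur⟩, h⟩
      · rintro ⟨r, ⟨hr, hur⟩, h⟩
        exact ⟨r, hr, hur, h⟩
    rw [this]
    refine isOpen_iUnion fun r => isOpen_iUnion fun _ => ?_
    exact (isOpen_lt (continuous_apply 0) continuous_const).inter
      ((isOpen_lt (continuous_apply 1) continuous_const).inter
        (isOpen_lt (continuous_apply 2) continuous_const))
  set D : Set (ℝ × ℝ × ℝ) := Q3 ∩ vec3 ⁻¹' S with hD
  have hDopen : IsOpen D := isOpen_Q3.inter (hSopen.preimage continuous_vec3)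
  have hDlow : Low3 D := by
    refine ⟨inter_subset_left, ?_⟩
    rintro p ⟨-, hpS⟩ q hq hqp
    exact ⟨hq, hSlow (vec3_le.2 hqp) hpS⟩
  have hfr : ∀ᵐ p ∂(volume.restrict Q3), vec3 p ∉ frontier S := by
    refine ae_restrict_of_ae ?_
    have h0 : volume (frontier S) = 0 := hSlow.null_frontier
    have h1 : volume (vec3 ⁻¹' frontier S) = 0 := by
      rw [mp_vec3.measure_preimage isClosed_frontier.measurableSet.nullMeasurableSet, h0]
    exact measure_eq_zero_iff_ae_notMem.1 h1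
  have hlim : ∀ᵐ p ∂(volume.restrict Q3),
      Tendsto (fun n => g (φ n) p) atTop (𝓝 (D.indicator 1 p)) := by
    filter_upwards [hfr, hae, ae_restrict_mem measurableSet_Q3] with p hp1 hp2 hpQ
    by_cases hpD : p ∈ D
    · rw [indicator_of_mem hpD]
      obtain ⟨-, r, hr, hur, h0, h1, h2⟩ := hpD
      refine pick _ _ (fun n => h01 _ _) hp2 (u r) (hu' r) hur fun n => ?_
      exact hanti _ hpQ hr ⟨h0.le, h1.le, h2.le⟩
    · rw [indicator_of_notMem hpD]
      have hpS : vec3 p ∉ S := fun h => hpD ⟨hpQ, h⟩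
      have hcl : vec3 p ∉ closure S := by
        intro h
        rw [← closure_sdiff_interior, hSopen.interior_eq] at hp1
        exact hp1 ⟨h, hpS⟩
      -- a point strictly below p outside of S
      obtain ⟨ε, hε, hball⟩ := Metric.isOpen_iff.1 isClosed_closure.isOpen_compl (vec3 p) hcl
      obtain ⟨hpx, hpy, hpz⟩ := hpQ
      obtain ⟨δ, hδ0, hδ⟩ : ∃ δ : ℝ, 0 < δ ∧ (δ < ε ∧ δ < p.1 ∧ δ < p.2.1 ∧ δ < p.2.2) := by
        obtain ⟨δ, h1, h2⟩ := exists_between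
          (lt_min hε (lt_min hpx.1 (lt_min hpy.1 hpz.1)))
        exact ⟨δ, h1, (lt_min_iff.1 h2).1, (lt_min_iff.1 (lt_min_iff.1 h2).2).1,
          (lt_min_iff.1 (lt_min_iff.1 (lt_min_iff.1 h2).2).2).1,
          (lt_min_iff.1 (lt_min_iff.1 (lt_min_iff.1 h2).2).2).2⟩
      have hqS : vec3 (p.1 - δ, p.2.1 - δ, p.2.2 - δ) ∉ S := by
        intro h
        refine hball ?_ (subset_closure h)
        rw [Metric.mem_ball, dist_pi_lt_iff hε]
        intro i
        fin_cases i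
        · show dist (p.1 - δ) p.1 < ε
          rw [Real.dist_eq]; simp [abs_of_pos hδ0, hδ.1]
        · show dist (p.2.1 - δ) p.2.1 < ε
          rw [Real.dist_eq]; simp [abs_of_pos hδ0, hδ.1]
        · show dist (p.2.2 - δ) p.2.2 < ε
          rw [Real.dist_eq]; simp [abs_of_pos hδ0, hδ.1]
      obtain ⟨r, hr1, hr2⟩ := exists_rat (p := (p.1 - δ, p.2.1 - δ, p.2.2 - δ)) (q := p)
        ⟨by simp [hδ0], by simp [hδ0], by simp [hδ0]⟩
      have hrQ : rat r ∈ Q3 := by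
        refine ⟨⟨?_, hr2.1.trans hpx.2⟩, ⟨?_, hr2.2.1.trans hpy.2⟩, ⟨?_, hr2.2.2.trans hpz.2⟩⟩
        · exact lt_trans (by simpa using hδ.2.1) hr1.1
        · exact lt_trans (by simpa using hδ.2.2.1) hr1.2.1
        · exact lt_trans (by simpa using hδ.2.2.2) hr1.2.2
      have hur : u r ≤ 1 / 2 := by
        by_contra hcon
        push Not at hcon
        exact hqS ⟨r, hrQ, hcon, hr1.1, hr1.2.1, hr1.2.2⟩
      refine pick' _ _ (fun n => h01 _ _) hp2 (u r) (hu' r) hur fun n => ?_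
      exact hanti _ hrQ ⟨hpx, hpy, hpz⟩ hr2.le
  refine ⟨φ, hφ₁.comp hφ₂, D, hDopen, hDlow, ?_, hlim⟩
  -- volume
  have h1 : Tendsto (fun n => ∫ p in Q3, g (φ n) p) atTop
      (𝓝 (∫ p in Q3, D.indicator 1 p)) := by
    refine tendsto_integral_of_dominated_convergence (fun _ => (1 : ℝ))
      (fun n => (hc _).aestronglyMeasurable) (integrable_const _) ?_ hlim
    intro n
    refine Eventually.of_forall fun p => ?_
    rw [Real.norm_eq_abs, abs_of_nonneg (h01 _ p).1]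
    exact (h01 _ p).2
  have h2 : Tendsto (fun n => ∫ p in Q3, g (φ n) p) atTop (𝓝 V) :=
    hV.comp (hφ₁.comp hφ₂).tendsto_atTop
  have h3 : ∫ p in Q3, D.indicator 1 p = V := tendsto_nhds_unique h1 h2
  have h4 : ∫ p in Q3, D.indicator (1 : ℝ × ℝ × ℝ → ℝ) p = (volume D).toReal := by
    rw [setIntegral_indicator hDopen.measurableSet, inter_eq_self_of_subset_right hDlow.1]
    simp [Measure.real]
  have hfin : volume D ≠ ⊤ := by
    refine ne_top_of_le_ne_top ?_ (measure_mono hDlow.1)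
    rw [volume_Q3]; exact ENNReal.one_ne_top
  rw [← h3, h4, ENNReal.ofReal_toReal hfin]

end P232
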