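import Vale.Agent.P232.Defs

/-!
# P232 [SMO]: convolution of a continuous function on the torus with a smooth even kernel.
-/

open MeasureTheory Set Filter Topology
open scoped ENNReal ContDiff Convolution

namespace P232.Smo

/-! ### The projection -/

theorem pr_continuous : Continuous pr := by
  unfold pr
  exact continuous_pi fun i => (AddCircle.continuous_mk' (1 : ℝ)).comp (continuous_apply i)

theorem pr_surjective : Function.Surjective pr := by
  intro z
  have h : ∀ i, ∃ x : ℝ, (x : AddCircle (1 : ℝ)) = z i := fun i =>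
    QuotientAddGroup.mk_surjective (z i)
  choose x hx using h
  exact ⟨x, funext hx⟩

theorem pr_sub (x y : R3) : pr (x - y) = pr x - pr y := by
  funext i; simp [pr]

theorem pr_single (x : R3) (i : Fin 3) : pr (x + Pi.single i 1) = pr x := by
  funext j
  by_cases h : j = i
  · subst h
    simp [pr]
  · simp [pr, h]

theorem pr_update (x : R3) (i j : Fin 3) : ‖pr (Function.update x i (-x i)) j‖ = ‖pr x j‖ := by
  by_cases h : j = i
  · subst h
    simp [pr]
  · simp [pr, h]

theorem nrm_continuous : Continuous nrm := by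
  unfold nrm
  fun_prop

/-! ### The kernel -/

/-- The product kernel. -/
noncomputable def ker (ρ : ContDiffBump (0 : ℝ)) (y : R3) : ℝ := ∏ i, ρ.normed volume (y i)

theorem ker_nonneg (ρ : ContDiffBump (0 : ℝ)) (y : R3) : 0 ≤ ker ρ y :=
  Finset.prod_nonneg fun _ _ => ρ.nonneg_normed _

theorem ker_contDiff (ρ : ContDiffBump (0 : ℝ)) : ContDiff ℝ ∞ (ker ρ) := by
  unfold ker
  refine contDiff_prod fun i _ => ?_
  exact (ρ.contDiff_normed (μ := volume)).comp (contDiff_apply ℝ ℝ i)

theorem ker_integral (ρ : ContDiffBump (0 : ℝ)) : ∫ y, ker ρ y = 1 := by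
  unfold ker
  rw [MeasureTheory.integral_fintype_prod_volume_eq_prod (𝕜 := ℝ)
    (f := fun (_ : Fin 3) (t : ℝ) => ρ.normed volume t)]
  simp [ρ.integral_normed]

theorem ker_eq_zero (ρ : ContDiffBump (0 : ℝ)) (y : R3) (h : ρ.rOut ≤ ‖y‖) : ker ρ y = 0 := by
  have h0 : 0 < ρ.rOut := ρ.rOut_pos
  obtain ⟨i, hi⟩ : ∃ i, ρ.rOut ≤ ‖y i‖ := by
    by_contra hcon
    push Not at hcon
    exact absurd ((pi_norm_lt_iff h0).2 hcon) (not_lt.2 h)
  unfold ker
  refine Finset.prod_eq_zero (Finset.mem_univ i) ?_
  have hs := ρ.support_normed_eq (μ := volume)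
  by_contra hne
  have : y i ∈ Function.support (ρ.normed volume) := hne
  rw [hs, Metric.mem_ball, dist_zero_right] at this
  linarith

theorem ker_compact (ρ : ContDiffBump (0 : ℝ)) : HasCompactSupport (ker ρ) := by
  refine HasCompactSupport.of_support_subset_isCompact
    (isCompact_closedBall (0 : R3) ρ.rOut) ?_
  intro y hy
  rw [mem_closedBall_zero_iff]
  by_contra hcon
  exact hy (ker_eq_zero ρ y (not_le.1 hcon).le)

theorem ker_continuous (ρ : ContDiffBump (0 : ℝ)) : Continuous (ker ρ) :=
  (ker_contDiff ρ).continuous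

theorem ker_integrable (ρ : ContDiffBump (0 : ℝ)) : Integrable (ker ρ) :=
  (ker_continuous ρ).integrable_of_hasCompactSupport (ker_compact ρ)

theorem ker_update (ρ : ContDiffBump (0 : ℝ)) (y : R3) (i : Fin 3) :
    ker ρ (Function.update y i (-y i)) = ker ρ y := by
  unfold ker
  refine Finset.prod_congr rfl fun j _ => ?_
  by_cases h : j = i
  · subst h
    simp only [Function.update_self]
    exact ρ.normed_neg _
  · simp [h]

/-- reflection in the `i`-th coordinate preserves the volume -/
theorem refl_mp (i : Fin 3) :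
    MeasurePreserving (fun y : R3 => Function.update y i (-y i)) volume volume := by
  have h : (fun y : R3 => Function.update y i (-y i))
      = fun y j => (if j = i then (fun t : ℝ => -t) else id) (y j) := by
    funext y j
    by_cases hj : j = i
    · subst hj; simp
    · simp [hj]
  rw [h]
  refine volume_preserving_pi fun j => ?_
  by_cases hj : j = i
  · simp only [hj, if_true]
    exact Measure.measurePreserving_neg volume
  · simp only [hj, if_false]
    exact MeasurePreserving.id volume

/-! ### The mollified function -/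

/-- The mollified function. -/
noncomputable def mol (ρ : ContDiffBump (0 : ℝ)) (g : Tor → ℝ) : R3 → ℝ :=
  (ker ρ) ⋆[ContinuousLinearMap.lsmul ℝ ℝ, volume] (fun x => g (pr x))

theorem mol_apply (ρ : ContDiffBump (0 : ℝ)) (g : Tor → ℝ) (x : R3) :
    mol ρ g x = ∫ t, ker ρ t * g (pr x - pr t) := by
  simp [mol, convolution_def, pr_sub]

theorem mol_contDiff (ρ : ContDiffBump (0 : ℝ)) (g : Tor → ℝ) (hg : Continuous g) :
    ContDiff ℝ ∞ (mol ρ g) :=
  HasCompactSupport.contDiff_convolution_left _ (ker_compact ρ) (ker_contDiff ρ)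
    (hg.comp pr_continuous).locallyIntegrable

theorem mol_periodic (ρ : ContDiffBump (0 : ℝ)) (g : Tor → ℝ) : PeriodicFun (mol ρ g) := by
  intro x i
  rw [mol_apply, mol_apply, pr_single]

theorem integrable_kernel (ρ : ContDiffBump (0 : ℝ)) (g : R3 → ℝ) (hg : Continuous g)
    (C : ℝ) (hC : ∀ x, |g x| ≤ C) : Integrable (fun t => ker ρ t * g t) := by
  have hC0 : 0 ≤ C := (abs_nonneg _).trans (hC 0)
  refine Integrable.mono' ((ker_integrable ρ).mul_const C) ?_ ?_
  · exact ((ker_continuous ρ).mul hg).aestronglyMeasurable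
  · refine Eventually.of_forall fun t => ?_
    rw [Real.norm_eq_abs, abs_mul, abs_of_nonneg (ker_nonneg ρ t)]
    exact mul_le_mul_of_nonneg_left (hC t) (ker_nonneg ρ t)

theorem shift_continuous (g : Tor → ℝ) (hg : Continuous g) (x : Tor) :
    Continuous (fun t : R3 => g (x - pr t)) :=
  hg.comp (continuous_const.sub pr_continuous)

theorem mol_mem (ρ : ContDiffBump (0 : ℝ)) (g : Tor → ℝ) (hg : Continuous g)
    (h01 : ∀ x, g x ∈ Icc (0 : ℝ) 1) (x : R3) : mol ρ g x ∈ Icc (0 : ℝ) 1 := by
  rw [mol_apply]
  constructor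
  · exact integral_nonneg fun t => mul_nonneg (ker_nonneg ρ t) (h01 _).1
  · refine le_trans (integral_mono (integrable_kernel ρ _ (shift_continuous g hg _) 1 fun t => ?_)
      (ker_integrable ρ) fun t => ?_) (ker_integral ρ).le
    · rw [abs_of_nonneg (h01 _).1]; exact (h01 _).2
    · exact mul_le_of_le_one_right (ker_nonneg ρ t) (h01 _).2

theorem mol_approx (ρ : ContDiffBump (0 : ℝ)) (g : Tor → ℝ) (hg : Continuous g)
    (h01 : ∀ x, g x ∈ Icc (0 : ℝ) 1) (ε : ℝ)
    (hρ : ∀ (z : Tor) (t : R3), ‖t‖ < ρ.rOut → |g (z - pr t) - g z| ≤ ε) (x : R3) :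
    |mol ρ g x - g (pr x)| ≤ ε := by
  rw [mol_apply]
  have h1 : g (pr x) = ∫ t, ker ρ t * g (pr x) := by
    rw [integral_mul_const, ker_integral, one_mul]
  have hi1 : Integrable (fun t => ker ρ t * g (pr x - pr t)) :=
    integrable_kernel ρ _ (shift_continuous g hg _) 1 fun t => by
      rw [abs_of_nonneg (h01 _).1]; exact (h01 _).2
  have hi2 : Integrable (fun t => ker ρ t * g (pr x)) := (ker_integrable ρ).mul_const _
  rw [h1, ← integral_sub hi1 hi2]
  have hε : ε = ∫ t, ker ρ t * ε := by rw [integral_mul_const, ker_integral, one_mul]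
  calc |∫ t, (ker ρ t * g (pr x - pr t) - ker ρ t * g (pr x))|
      ≤ ∫ t, |ker ρ t * g (pr x - pr t) - ker ρ t * g (pr x)| := abs_integral_le_integral_abs
    _ ≤ ∫ t, ker ρ t * ε := by
        refine integral_mono (hi1.sub hi2).abs ((ker_integrable ρ).mul_const _) fun t => ?_
        show |ker ρ t * g (pr x - pr t) - ker ρ t * g (pr x)| ≤ ker ρ t * ε
        rw [← mul_sub, abs_mul, abs_of_nonneg (ker_nonneg ρ t)]
        rcases lt_or_ge ‖t‖ ρ.rOut with h | h
        · exact mul_le_mul_of_nonneg_left (hρ _ t h) (ker_nonneg ρ t)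
        · rw [ker_eq_zero ρ t h]; simp
    _ = ε := hε.symm

theorem mol_refl (ρ : ContDiffBump (0 : ℝ)) (g : Tor → ℝ)
    (hs : ∀ x y : Tor, (∀ i, ‖x i‖ = ‖y i‖) → g x = g y) (x : R3) (i : Fin 3) :
    mol ρ g (Function.update x i (-x i)) = mol ρ g x := by
  rw [mol_apply, mol_apply]
  have hmp := refl_mp i
  have hinv : Function.Involutive (fun y : R3 => Function.update y i (-y i)) := by
    intro y
    simp
  have hemb : MeasurableEmbedding (fun y : R3 => Function.update y i (-y i)) :=
    MeasurableEmbedding.of_measurable_inverse hmp.measurable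
      (by rw [hinv.surjective.range_eq]; exact MeasurableSet.univ) hmp.measurable hinv
  rw [← hmp.integral_comp hemb]
  congr 1
  funext t
  show ker ρ (Function.update t i (-t i)) * _ = _
  rw [ker_update]
  congr 1
  rw [← pr_sub, ← pr_sub]
  have : Function.update x i (-x i) - Function.update t i (-t i)
      = Function.update (x - t) i (-(x - t) i) := by
    funext j
    by_cases h : j = i
    · subst h; simp; ring
    · simp [h]
  rw [this]
  exact hs _ _ fun j => pr_update _ _ _

/-! ### Energies -/

instance : IsFiniteMeasure (volume : Measure Tor) :=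
  inferInstanceAs (IsFiniteMeasure (Measure.pi fun _ : Fin 3 => (volume : Measure (AddCircle (1 : ℝ)))))

theorem nrm_measurableSet (δ : ℝ) : MeasurableSet {p : Tor × Tor | nrm (p.1 - p.2) < δ} :=
  (isOpen_lt (nrm_continuous.comp (continuous_fst.sub continuous_snd)) continuous_const).measurableSet

/-- The energy density. -/
noncomputable def dens (δ : ℝ) (g : Tor → ℝ) (p : Tor × Tor) : ℝ :=
  open Classical in if nrm (p.1 - p.2) < δ then |g p.1 - g p.2| else 0

theorem dens_nonneg (δ : ℝ) (g : Tor → ℝ) (p : Tor × Tor) : 0 ≤ dens δ g p := by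
  unfold dens; split_ifs
  · exact abs_nonneg _
  · exact le_rfl

theorem dens_le (δ : ℝ) (g : Tor → ℝ) (h01 : ∀ x, g x ∈ Icc (0 : ℝ) 1) (p : Tor × Tor) :
    dens δ g p ≤ 1 := by
  unfold dens; split_ifs
  · rw [abs_le]
    have h1 := h01 p.1
    have h2 := h01 p.2
    constructor <;> linarith [h1.1, h1.2, h2.1, h2.2]
  · exact zero_le_one

theorem dens_measurable (δ : ℝ) (g : Tor → ℝ) (hg : Measurable g) : Measurable (dens δ g) := by
  unfold dens
  refine Measurable.ite (nrm_measurableSet δ) ?_ measurable_const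
  have h : Measurable (fun p : Tor × Tor => g p.1 - g p.2) :=
    (hg.comp measurable_fst).sub (hg.comp measurable_snd)
  exact h.abs

theorem dens_integrable (δ : ℝ) (g : Tor → ℝ) (hg : Measurable g)
    (h01 : ∀ x, g x ∈ Icc (0 : ℝ) 1) :
    Integrable (dens δ g) ((volume : Measure Tor).prod (volume : Measure Tor)) := by
  refine Integrable.mono' (integrable_const (1 : ℝ)) (dens_measurable δ g hg).aestronglyMeasurable
    (Eventually.of_forall fun p => ?_)
  rw [Real.norm_eq_abs, abs_of_nonneg (dens_nonneg δ g p)]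
  exact dens_le δ g h01 p

/-- The energy as an integral over the product. -/
theorem en_eq (δ : ℝ) (g : Tor → ℝ) (hg : Measurable g) (h01 : ∀ x, g x ∈ Icc (0 : ℝ) 1) :
    en δ g = ∫ p, dens δ g p ∂((volume : Measure Tor).prod (volume : Measure Tor)) := by
  rw [integral_prod _ (dens_integrable δ g hg h01)]
  unfold en dens
  congr 1

/-- translation invariance of the energy -/
theorem en_shift (δ : ℝ) (g : Tor → ℝ) (t : Tor) : en δ (fun x => g (x - t)) = en δ g := by
  unfold en
  have h1 : ∀ x : Tor, ∫ y : Tor, (if nrm (x - y) < δ then |g (x - t) - g (y - t)| else 0)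
      = ∫ y : Tor, (if nrm (x - t - y) < δ then |g (x - t) - g y| else 0) := by
    intro x
    have := integral_sub_right_eq_self
      (fun y : Tor => (if nrm (x - t - y) < δ then |g (x - t) - g y| else 0))
      (μ := (volume : Measure Tor)) t
    rw [← this]
    congr 1
    funext y
    have e : x - t - (y - t) = x - y := by abel
    simp only [e]
  simp only [h1]
  exact integral_sub_right_eq_self
    (fun x : Tor => ∫ y : Tor, (if nrm (x - y) < δ then |g x - g y| else 0))
    (μ := (volume : Measure Tor)) t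

theorem en_mol (ρ : ContDiffBump (0 : ℝ)) (g : Tor → ℝ) (hg : Continuous g)
    (h01 : ∀ x, g x ∈ Icc (0 : ℝ) 1) (h' : Tor → ℝ)
    (hh : ∀ x, h' x = ∫ t, ker ρ t * g (x - pr t)) (δ : ℝ) : en δ h' ≤ en δ g := by
  -- measurability of `h'`
  have hcont2 : Continuous (fun q : (Tor × Tor) × R3 => g (q.1.1 - pr q.2)) :=
    hg.comp ((continuous_fst.comp continuous_fst).sub (pr_continuous.comp continuous_snd))
  have hint : ∀ x : Tor, Integrable (fun t => ker ρ t * g (x - pr t)) := fun x =>
    integrable_kernel ρ _ (shift_continuous g hg x) 1 fun t => by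
      rw [abs_of_nonneg (h01 _).1]; exact (h01 _).2
  have hm' : Measurable h' := by
    have : h' = fun x => ∫ t, ker ρ t * g (x - pr t) := funext hh
    rw [this]
    have hc : Continuous (fun q : Tor × R3 => ker ρ q.2 * g (q.1 - pr q.2)) :=
      ((ker_continuous ρ).comp continuous_snd).mul
        (hg.comp (continuous_fst.sub (pr_continuous.comp continuous_snd)))
    exact (hc.stronglyMeasurable.integral_prod_right).measurable
  have h01' : ∀ x, h' x ∈ Icc (0 : ℝ) 1 := by
    intro x
    obtain ⟨y, rfl⟩ := pr_surjective x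
    rw [hh, ← mol_apply]
    exact mol_mem ρ g hg h01 y
  -- the integrand
  set Φ : (Tor × Tor) → R3 → ℝ := fun p t => ker ρ t * dens δ (fun x => g (x - pr t)) p with hΦ
  have hΦm : Measurable (Function.uncurry Φ) := by
    have h1 : Measurable (fun q : (Tor × Tor) × R3 => ker ρ q.2) :=
      (ker_continuous ρ).measurable.comp measurable_snd
    have h2 : Measurable (fun q : (Tor × Tor) × R3 => dens δ (fun x => g (x - pr q.2)) q.1) := by
      unfold dens
      refine Measurable.ite ?_ ?_ measurable_const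
      · exact (nrm_measurableSet δ).preimage measurable_fst
      · have h3 : Measurable (fun q : (Tor × Tor) × R3 =>
            g (q.1.1 - pr q.2) - g (q.1.2 - pr q.2)) :=
          hcont2.measurable.sub
            (hg.comp ((continuous_snd.comp continuous_fst).sub
              (pr_continuous.comp continuous_snd))).measurable
        exact h3.abs
    exact h1.mul h2
  have hΦi : Integrable (Function.uncurry Φ)
      (((volume : Measure Tor).prod (volume : Measure Tor)).prod (volume : Measure R3)) := by
    have hb : Integrable (Function.uncurry fun (p : Tor × Tor) (t : R3) => 1 * ker ρ t)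
        (((volume : Measure Tor).prod (volume : Measure Tor)).prod (volume : Measure R3)) :=
      (integrable_const (1 : ℝ)).mul_prod (ker_integrable ρ)
    refine Integrable.mono' hb hΦm.aestronglyMeasurable (Eventually.of_forall fun q => ?_)
    have h0 := dens_nonneg δ (fun x => g (x - pr q.2)) q.1
    have h1 := dens_le δ (fun x => g (x - pr q.2)) (fun x => h01 _) q.1
    show ‖ker ρ q.2 * dens δ (fun x => g (x - pr q.2)) q.1‖ ≤ 1 * ker ρ q.2
    rw [Real.norm_eq_abs, abs_of_nonneg (mul_nonneg (ker_nonneg ρ _) h0), one_mul]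
    exact mul_le_of_le_one_right (ker_nonneg ρ _) h1
  rw [en_eq δ h' hm' h01']
  calc ∫ p, dens δ h' p ∂((volume : Measure Tor).prod (volume : Measure Tor))
      ≤ ∫ p, (∫ t, Φ p t) ∂((volume : Measure Tor).prod (volume : Measure Tor)) := by
        refine integral_mono (dens_integrable δ h' hm' h01') hΦi.integral_prod_left fun p => ?_
        show dens δ h' p ≤ ∫ t, ker ρ t * dens δ (fun x => g (x - pr t)) p
        unfold dens
        split_ifs with hn
        · rw [hh, hh, ← integral_sub (hint _) (hint _)]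
          refine (abs_integral_le_integral_abs).trans (le_of_eq ?_)
          congr 1
          funext t
          rw [← mul_sub, abs_mul, abs_of_nonneg (ker_nonneg ρ t)]
        · simp
    _ = ∫ t, (∫ p, Φ p t ∂((volume : Measure Tor).prod (volume : Measure Tor))) :=
        integral_integral_swap hΦi
    _ = ∫ t, ker ρ t * en δ g := by
        congr 1
        funext t
        simp only [hΦ]
        rw [integral_const_mul]
        congr 1
        rw [← en_eq δ (fun x => g (x - pr t))
          (hg.comp (continuous_id.sub continuous_const)).measurable (fun x => h01 _)]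
        exact en_shift δ g (pr t)
    _ = en δ g := by rw [integral_mul_const, ker_integral, one_mul]

/-- a kernel with small support -/
theorem exists_kernel (g : Tor → ℝ) (hg : Continuous g) (ε : ℝ) (hε : 0 < ε) :
    ∃ ρ : ContDiffBump (0 : ℝ), ∀ (z : Tor) (t : R3), ‖t‖ < ρ.rOut → |g (z - pr t) - g z| ≤ ε := by
  have huc : UniformContinuous g := CompactSpace.uniformContinuous_of_continuous hg
  obtain ⟨r, hr0, hr⟩ := Metric.uniformContinuous_iff.1 huc ε hε
  have hr2 : 0 < r / 2 := by linarith
  refine ⟨⟨r / 2, r, hr2, by linarith⟩, fun z t ht => ?_⟩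
  have h1 : dist (z - pr t) z < r := by
    rw [dist_eq_norm]
    have : z - pr t - z = -pr t := by abel
    rw [this, norm_neg, pi_norm_lt_iff hr0]
    intro i
    have h2 : ‖t i‖ < r := (norm_le_pi_norm t i).trans_lt ht
    have h3 : ‖((t i : ℝ) : AddCircle (1 : ℝ))‖ ≤ ‖t i‖ := QuotientAddGroup.norm_mk_le_norm
    exact h3.trans_lt h2
  have h2 := hr h1
  rw [Real.dist_eq] at h2
  exact h2.le

end P232.Smo

namespace P232

/-- [SMO] Smooth.lean -/
theorem smooth_approx (g : Tor → ℝ) (hg : Continuous g) (h01 : ∀ x, g x ∈ Icc (0 : ℝ) 1)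
    (hs : ∀ x y : Tor, (∀ i, ‖x i‖ = ‖y i‖) → g x = g y) (ε : ℝ) (hε : 0 < ε) :
    ∃ F : R3 → ℝ, ContDiff ℝ ∞ F ∧ PeriodicFun F ∧ (∀ x, F x ∈ Icc (0 : ℝ) 1) ∧
      (∀ x, |F x - g (pr x)| ≤ ε) ∧ (∀ x i, F (Function.update x i (-x i)) = F x) ∧
      ∀ h' : Tor → ℝ, (∀ x, h' (pr x) = F x) → ∀ δ, en δ h' ≤ en δ g := by
  obtain ⟨ρ, hρ⟩ := Smo.exists_kernel g hg ε hε
  refine ⟨Smo.mol ρ g, Smo.mol_contDiff ρ g hg, Smo.mol_periodic ρ g, Smo.mol_mem ρ g hg h01,
    Smo.mol_approx ρ g hg h01 ε hρ, Smo.mol_refl ρ g hs, fun h' hh' δ => ?_⟩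
  refine Smo.en_mol ρ g hg h01 h' (fun x => ?_) δ
  obtain ⟨y, rfl⟩ := Smo.pr_surjective x
  rw [hh', Smo.mol_apply]

end P232
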