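import Vale.Agent.P232.Defs

/-!
# P232: symmetrisation on the torus by polarisations and compactness
-/

open MeasureTheory Set Filter Topology
open scoped ENNReal ContDiff

namespace P232

namespace SymmAux

/-- the circle -/
abbrev Cir := AddCircle (1 : ℝ)

lemma norm_le_abs (a : ℝ) : ‖(a : Cir)‖ ≤ |a| := by
  rw [AddCircle.norm_eq]
  simp only [inv_one, one_mul, mul_one]
  have := round_le a 0
  simpa using this

lemma exists_rep (z : Cir) : ∃ a : ℝ, (a : Cir) = z ∧ ‖z‖ = |a| := by
  induction z using QuotientAddGroup.induction_on with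
  | H b =>
    refine ⟨b - round b, ?_, ?_⟩
    · have : ((round b : ℝ) : Cir) = 0 := by
        rw [AddCircle.coe_eq_zero_iff]
        exact ⟨round b, by simp⟩
      push_cast [AddCircle.coe_sub]
      rw [this, sub_zero]
    · have := AddCircle.norm_eq (p := (1 : ℝ)) (x := b)
      simpa using this

lemma abs_le_norm {a b : ℝ} (h : ∀ n : ℤ, |a| ≤ |b - n|) : |a| ≤ ‖(b : Cir)‖ := by
  rw [AddCircle.norm_eq]
  simpa using h (round b)

lemma norm_le_int (b : ℝ) (n : ℤ) : ‖(b : Cir)‖ ≤ |b - n| := by
  have h1 : (b : Cir) = ((b - n : ℝ) : Cir) := by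
    have : ((n : ℝ) : Cir) = 0 := by
      rw [AddCircle.coe_eq_zero_iff]
      exact ⟨n, by simp⟩
    rw [AddCircle.coe_sub, this, sub_zero]
  rw [h1]
  exact norm_le_abs _

lemma exists_pos_rep {s : Cir} (hs : s ≠ 0) : ∃ c : ℝ, 0 < c ∧ c < 1 ∧ (c : Cir) = s := by
  induction s using QuotientAddGroup.induction_on with
  | H b =>
    refine ⟨Int.fract b, ?_, Int.fract_lt_one b, ?_⟩
    · rcases (Int.fract_nonneg b).lt_or_eq with h | h
      · exact h
      · exfalso
        apply hs
        have : b = ⌊b⌋ := by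
          have := Int.self_sub_floor b
          linarith
        change (b : Cir) = 0
        rw [AddCircle.coe_eq_zero_iff]
        exact ⟨⌊b⌋, by simpa using this.symm⟩
    · have h0 : ((⌊b⌋ : ℝ) : Cir) = 0 := by
        rw [AddCircle.coe_eq_zero_iff]
        exact ⟨⌊b⌋, by simp⟩
      rw [← Int.self_sub_floor, AddCircle.coe_sub, h0, sub_zero]

/-- points closer to `0` than to `s` -/
lemma rep_half {s z : Cir} {c r : ℝ} (hc0 : 0 < c) (hc1 : c < 1) (hc : (c : Cir) = s)
    (hr : (r : Cir) = z) (hrn : ‖z‖ = |r|) (h : ‖z‖ ≤ ‖s - z‖) : (c - 1) / 2 ≤ r ∧ r ≤ c / 2 := by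
  have e : s - z = ((c - r : ℝ) : Cir) := by rw [AddCircle.coe_sub, hc, hr]
  rw [hrn, e] at h
  have h1 := h.trans (norm_le_int (c - r) 0)
  have h2 := h.trans (norm_le_int (c - r) 1)
  have h1' := sq_le_sq.mpr h1
  have h2' := sq_le_sq.mpr h2
  push_cast at h1' h2'
  constructor <;> nlinarith

lemma geo {s z w : Cir} (hs : s ≠ 0) (hz : ‖z‖ ≤ ‖s - z‖) (hw : ‖w‖ ≤ ‖s - w‖) :
    ‖z - w‖ ≤ ‖z + w - s‖ := by
  obtain ⟨c, hc0, hc1, hc⟩ := exists_pos_rep hs
  obtain ⟨r, hr, hrn⟩ := exists_rep z
  obtain ⟨t, ht, htn⟩ := exists_rep w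
  obtain ⟨r1, r2⟩ := rep_half hc0 hc1 hc hr hrn hz
  obtain ⟨t1, t2⟩ := rep_half hc0 hc1 hc ht htn hw
  have e1 : z - w = ((r - t : ℝ) : Cir) := by rw [AddCircle.coe_sub, hr, ht]
  have e2 : z + w - s = ((r + t - c : ℝ) : Cir) := by
    rw [AddCircle.coe_sub, AddCircle.coe_add, hr, ht, hc]
  rw [e1, e2]
  refine (norm_le_abs _).trans (abs_le_norm fun n => ?_)
  rcases le_or_gt 0 n with hn | hn
  · have hn' : (0 : ℝ) ≤ n := by exact_mod_cast hn
    rw [abs_of_nonpos (by linarith : r + t - c - n ≤ 0), abs_le]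
    constructor <;> linarith
  · have hn' : (n : ℝ) ≤ -1 := by exact_mod_cast (by omega : n ≤ -1)
    rw [abs_of_nonneg (by linarith : 0 ≤ r + t - c - n), abs_le]
    constructor <;> linarith

lemma eq_or_neg {z w : Cir} (h : ‖z‖ = ‖w‖) : z = w ∨ z = -w := by
  obtain ⟨r, hr, hrn⟩ := exists_rep z
  obtain ⟨t, ht, htn⟩ := exists_rep w
  rw [hrn, htn] at h
  rcases abs_eq_abs.mp h with h | h
  · left; rw [← hr, ← ht, h]
  · right; rw [← hr, ← ht, h, AddCircle.coe_neg]

lemma tie {s z : Cir} (hs : s ≠ 0) (h : ‖z‖ = ‖s - z‖) : z = s - z := by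
  rcases eq_or_neg h with h | h
  · exact h
  · exfalso
    apply hs
    rw [neg_sub] at h
    exact (sub_eq_self.mp h.symm)

/-! ### The reflection -/

/-- reflection of the coordinate `i` -/
def rf (i : Fin 3) (s : Cir) (x : Tor) : Tor := Function.update x i (s - x i)

lemma rf_same (i : Fin 3) (s : Cir) (x : Tor) : rf i s x i = s - x i := by simp [rf]

lemma rf_ne {i j : Fin 3} (h : j ≠ i) (s : Cir) (x : Tor) : rf i s x j = x j := by simp [rf, h]

lemma rf_rf (i : Fin 3) (s : Cir) (x : Tor) : rf i s (rf i s x) = x := by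
  ext j
  by_cases h : j = i
  · subst h; simp [rf]
  · simp [rf, h]

lemma rf_eq_self {i : Fin 3} {s : Cir} {x : Tor} (h : x i = s - x i) : rf i s x = x := by
  ext j
  by_cases hj : j = i
  · subst hj; rw [rf_same, ← h]
  · rw [rf_ne hj]

lemma nrm_rf_rf (i : Fin 3) (s : Cir) (x y : Tor) : nrm (rf i s x - rf i s y) = nrm (x - y) := by
  unfold nrm
  congr 1
  refine Finset.sum_congr rfl fun j _ => ?_
  by_cases h : j = i
  · subst h
    simp only [Pi.sub_apply, rf_same]
    rw [sub_sub_sub_cancel_left, norm_sub_rev]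
  · simp only [Pi.sub_apply, rf_ne h]

lemma nrm_rf_left (i : Fin 3) (s : Cir) (x y : Tor) : nrm (rf i s x - y) = nrm (x - rf i s y) := by
  rw [← nrm_rf_rf i s (rf i s x) y, rf_rf]

lemma nrm_le_rf {i : Fin 3} {s : Cir} (hs : s ≠ 0) {x y : Tor} (hx : ‖x i‖ ≤ ‖s - x i‖)
    (hy : ‖y i‖ ≤ ‖s - y i‖) : nrm (x - y) ≤ nrm (x - rf i s y) := by
  unfold nrm
  apply Real.sqrt_le_sqrt
  refine Finset.sum_le_sum fun j _ => ?_
  by_cases h : j = i
  · subst h
    simp only [Pi.sub_apply, rf_same]
    have := geo hs hx hy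
    rw [show x j - (s - y j) = x j + y j - s by abel]
    gcongr
  · simp only [Pi.sub_apply, rf_ne h, le_refl]

lemma dist_rf_rf (i : Fin 3) (s : Cir) (x y : Tor) : dist (rf i s x) (rf i s y) = dist x y := by
  have key : ∀ a b : Tor, dist (rf i s a) (rf i s b) ≤ dist a b := by
    intro a b
    rw [dist_pi_le_iff dist_nonneg]
    intro j
    by_cases h : j = i
    · subst h
      rw [rf_same, rf_same, dist_eq_norm, sub_sub_sub_cancel_left, ← dist_eq_norm, dist_comm]
      exact dist_le_pi_dist a b j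
    · rw [rf_ne h, rf_ne h]
      exact dist_le_pi_dist a b j
  refine le_antisymm (key x y) ?_
  have := key (rf i s x) (rf i s y)
  rwa [rf_rf, rf_rf] at this

lemma dist_rf_le {i : Fin 3} {s : Cir} (hs : s ≠ 0) {x y : Tor} (hx : ‖x i‖ ≤ ‖s - x i‖)
    (hy : ‖s - y i‖ ≤ ‖y i‖) : dist x (rf i s y) ≤ dist x y := by
  rw [dist_pi_le_iff dist_nonneg]
  intro j
  by_cases h : j = i
  · subst h
    rw [rf_same]
    have h1 : ‖s - y j‖ ≤ ‖s - (s - y j)‖ := by rwa [sub_sub_cancel]
    have := geo hs hx h1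
    rw [show x j + (s - y j) - s = x j - y j by abel] at this
    rw [dist_eq_norm]
    refine this.trans ?_
    rw [← dist_eq_norm]
    exact dist_le_pi_dist x y j
  · rw [rf_ne h]
    exact dist_le_pi_dist x y j

/-- polarisation -/
noncomputable def pol (i : Fin 3) (s : Cir) (h : Tor → ℝ) (x : Tor) : ℝ :=
  if ‖x i‖ ≤ ‖s - x i‖ then max (h x) (h (rf i s x)) else min (h x) (h (rf i s x))

lemma pol_in {i : Fin 3} {s : Cir} (hs : s ≠ 0) (h : Tor → ℝ) {x : Tor}
    (hx : ‖x i‖ ≤ ‖s - x i‖) : pol i s h x = max (h x) (h (rf i s x)) ∧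
      pol i s h (rf i s x) = min (h x) (h (rf i s x)) := by
  refine ⟨by simp [pol, hx], ?_⟩
  unfold pol
  rw [rf_rf, rf_same, sub_sub_cancel]
  split_ifs with h1
  · have h2 : x i = s - x i := tie hs (le_antisymm hx h1)
    rw [rf_eq_self h2]
    simp
  · rw [min_comm]

lemma pol_out {i : Fin 3} {s : Cir} (hs : s ≠ 0) (h : Tor → ℝ) {x : Tor}
    (hx : ‖s - x i‖ ≤ ‖x i‖) : pol i s h x = min (h x) (h (rf i s x)) ∧
      pol i s h (rf i s x) = max (h x) (h (rf i s x)) := by
  have h1 : ‖rf i s x i‖ ≤ ‖s - rf i s x i‖ := by rwa [rf_same, sub_sub_cancel]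
  have := pol_in hs h h1
  rw [rf_rf] at this
  exact ⟨by rw [this.2, min_comm], by rw [this.1, max_comm]⟩

lemma pol_mem (i : Fin 3) (s : Cir) {h : Tor → ℝ} (h01 : ∀ x, h x ∈ Icc (0 : ℝ) 1) (x : Tor) :
    pol i s h x ∈ Icc (0 : ℝ) 1 := by
  unfold pol
  have a := h01 x
  have b := h01 (rf i s x)
  split_ifs
  · exact ⟨le_max_of_le_left a.1, max_le a.2 b.2⟩
  · exact ⟨le_min a.1 b.1, min_le_of_left_le a.2⟩

lemma pol_lip {i : Fin 3} {s : Cir} (hs : s ≠ 0) {h : Tor → ℝ} {K : NNReal}
    (hK : LipschitzWith K h) : LipschitzWith K (pol i s h) := by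
  have hd : ∀ x y, |h x - h y| ≤ K * dist x y := fun x y => by
    have := hK.dist_le_mul x y
    rwa [Real.dist_eq] at this
  have key : ∀ x y : Tor, ‖x i‖ ≤ ‖s - x i‖ → |pol i s h x - pol i s h y| ≤ K * dist x y := by
    intro x y hx
    have e1 := hd x y
    have e2 := hd (rf i s x) (rf i s y)
    rw [dist_rf_rf] at e2
    rw [(pol_in hs h hx).1]
    rcases le_total (‖y i‖) (‖s - y i‖) with hy | hy
    · rw [(pol_in hs h hy).1]
      refine (abs_max_sub_max_le_max _ _ _ _).trans (max_le e1 e2)
    · rw [(pol_out hs h hy).1]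
      have hK0 : (0 : ℝ) ≤ K := K.2
      have e3 := (hd x (rf i s y)).trans (mul_le_mul_of_nonneg_left (dist_rf_le hs hx hy) hK0)
      have e4 : |h (rf i s x) - h y| ≤ K * dist x y := by
        refine (hd _ _).trans (mul_le_mul_of_nonneg_left ?_ hK0)
        rw [← dist_rf_rf i s, rf_rf]
        exact dist_rf_le hs hx hy
      rcases max_choice (h x) (h (rf i s x)) with a | a <;>
        rcases min_choice (h y) (h (rf i s y)) with b | b <;> rw [a, b] <;> assumption
  apply LipschitzWith.of_dist_le_mul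
  intro x y
  rw [Real.dist_eq]
  rcases le_total (‖x i‖) (‖s - x i‖) with hx | hx
  · exact key x y hx
  · rcases le_total (‖y i‖) (‖s - y i‖) with hy | hy
    · rw [abs_sub_comm, dist_comm]
      exact key y x hy
    · rw [(pol_out hs h hx).1, (pol_out hs h hy).1]
      have e1 := hd x y
      have e2 := hd (rf i s x) (rf i s y)
      rw [dist_rf_rf] at e2
      exact (abs_min_sub_min_le_max _ _ _ _).trans (max_le e1 e2)

/-! ### Integrals -/

lemma mp_rf (i : Fin 3) (s : Cir) : MeasurePreserving (rf i s) (volume : Measure Tor) volume := by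
  have h : rf i s = fun x j => (if j = i then fun z : Cir => s - z else id) (x j) := by
    funext x j
    by_cases hj : j = i
    · subst hj; simp [rf]
    · simp [rf, hj]
  rw [h]
  apply volume_preserving_pi
  intro j
  by_cases hj : j = i
  · subst hj
    simp only [if_true]
    exact Measure.measurePreserving_sub_left volume s
  · simp only [hj, if_false]
    exact MeasurePreserving.id _

lemma int_rf (i : Fin 3) (s : Cir) (F : Tor → ℝ) : ∫ x, F (rf i s x) = ∫ x, F x := by
  have hme : MeasurableEmbedding (rf i s) := by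
    have h1 : Measurable (rf i s) := (mp_rf i s).measurable
    exact (MeasurableEquiv.mk ⟨rf i s, rf i s, rf_rf i s, rf_rf i s⟩ h1 h1).measurableEmbedding
  exact (mp_rf i s).integral_comp hme F

lemma pol_int {i : Fin 3} {s : Cir} (hs : s ≠ 0) {h : Tor → ℝ} (hc : Continuous h)
    (hp : Continuous (pol i s h)) (φ : ℝ → ℝ) (hφ : Continuous φ) :
    ∫ x, φ (pol i s h x) = ∫ x, φ (h x) := by
  have hrc : Continuous (rf i s) := by
    unfold rf
    exact continuous_id.update i (continuous_const.sub (continuous_apply i))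
  have i1 : Integrable (fun x => φ (pol i s h x)) :=
    (hφ.comp hp).integrable_of_hasCompactSupport (HasCompactSupport.of_compactSpace _)
  have i2 : Integrable (fun x => φ (pol i s h (rf i s x))) :=
    (hφ.comp (hp.comp hrc)).integrable_of_hasCompactSupport (HasCompactSupport.of_compactSpace _)
  have i3 : Integrable (fun x => φ (h x)) :=
    (hφ.comp hc).integrable_of_hasCompactSupport (HasCompactSupport.of_compactSpace _)
  have i4 : Integrable (fun x => φ (h (rf i s x))) :=
    (hφ.comp (hc.comp hrc)).integrable_of_hasCompactSupport (HasCompactSupport.of_compactSpace _)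
  have e1 := int_rf i s (fun x => φ (pol i s h x))
  have e2 := int_rf i s (fun x => φ (h x))
  have e3 : ∫ x, (φ (pol i s h x) + φ (pol i s h (rf i s x))) =
      ∫ x, (φ (h x) + φ (h (rf i s x))) := by
    congr 1
    funext x
    have key : φ (max (h x) (h (rf i s x))) + φ (min (h x) (h (rf i s x))) =
        φ (h x) + φ (h (rf i s x)) := by
      rcases le_total (h x) (h (rf i s x)) with a | a
      · rw [max_eq_right a, min_eq_left a, add_comm]
      · rw [max_eq_left a, min_eq_right a]
    rcases le_total (‖x i‖) (‖s - x i‖) with hx | hx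
    · rw [(pol_in hs h hx).1, (pol_in hs h hx).2, key]
    · rw [(pol_out hs h hx).1, (pol_out hs h hx).2, add_comm, key]
  rw [integral_add i1 i2, integral_add i3 i4, e1, e2] at e3
  linarith

/-- kernel integrand -/
noncomputable def ker (δ : ℝ) (h : Tor → ℝ) (p : Tor × Tor) : ℝ :=
  if nrm (p.1 - p.2) < δ then |h p.1 - h p.2| else 0

lemma continuous_nrm : Continuous nrm := by
  unfold nrm
  fun_prop

lemma ker_meas (δ : ℝ) {h : Tor → ℝ} (hc : Continuous h) : Measurable (ker δ h) := by
  unfold ker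
  apply Measurable.ite
  · exact (isOpen_lt (continuous_nrm.comp (continuous_fst.sub continuous_snd))
      continuous_const).measurableSet
  · fun_prop
  · fun_prop

lemma ker_int (δ : ℝ) {h : Tor → ℝ} (hc : Continuous h) (h01 : ∀ x, h x ∈ Icc (0 : ℝ) 1) :
    Integrable (ker δ h) := by
  apply Integrable.of_bound (ker_meas δ hc).aestronglyMeasurable 1
  filter_upwards with p
  unfold ker
  split_ifs
  · rw [Real.norm_eq_abs, abs_abs, abs_le]
    have a := h01 p.1
    have b := h01 p.2
    constructor <;> linarith [a.1, a.2, b.1, b.2]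
  · simp

lemma en_eq (δ : ℝ) {h : Tor → ℝ} (hc : Continuous h) (h01 : ∀ x, h x ∈ Icc (0 : ℝ) 1) :
    en δ h = ∫ p, ker δ h p := by
  have := integral_prod (ker δ h) (ker_int δ hc h01)
  rw [show (volume : Measure (Tor × Tor)) = (volume : Measure Tor).prod volume from rfl, this]
  rfl

lemma real_ineq (a a' b b' : ℝ) :
    |max a a' - max b b'| + |min a a' - min b b'| ≤ |a - b| + |a' - b'| := by
  rcases le_total a a' with h1 | h1 <;> rcases le_total b b' with h2 | h2 <;>
    simp only [h1, h2, max_eq_right, max_eq_left, min_eq_left, min_eq_right] <;>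
    rcases abs_cases (a - b) with ⟨e1, _⟩ | ⟨e1, _⟩ <;>
    rcases abs_cases (a' - b') with ⟨e2, _⟩ | ⟨e2, _⟩ <;>
    rcases abs_cases (a - b') with ⟨e3, _⟩ | ⟨e3, _⟩ <;>
    rcases abs_cases (a' - b) with ⟨e4, _⟩ | ⟨e4, _⟩ <;> linarith

lemma real_eq (a a' b b' : ℝ) :
    |max a a' - max b b'| + |min a a' - min b b'| + (|min a a' - max b b'| + |max a a' - min b b'|)
      = |a - b| + |a' - b'| + (|a' - b| + |a - b'|) := by
  rcases le_total a a' with h1 | h1 <;> rcases le_total b b' with h2 | h2 <;>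
    simp only [h1, h2, max_eq_right, max_eq_left, min_eq_left, min_eq_right] <;> ring

lemma real_four (a a' b b' : ℝ) (p q : Prop) [Decidable p] [Decidable q] (hqp : q → p) :
    (if p then |max a a' - max b b'| else 0) + (if p then |min a a' - min b b'| else 0) +
      ((if q then |min a a' - max b b'| else 0) + (if q then |max a a' - min b b'| else 0)) ≤
    (if p then |a - b| else 0) + (if p then |a' - b'| else 0) +
      ((if q then |a' - b| else 0) + (if q then |a - b'| else 0)) := by
  have h1 := real_ineq a a' b b'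
  have h2 := real_eq a a' b b'
  by_cases hp : p <;> by_cases hq : q
  · simp only [hp, hq, if_true]; linarith
  · simp only [hp, hq, if_true, if_false]; linarith
  · exact absurd (hqp hq) hp
  · simp only [hp, hq, if_false]; linarith

/-- sum of the four images -/
lemma ker_four {i : Fin 3} {s : Cir} (hs : s ≠ 0) (δ : ℝ) (h : Tor → ℝ) (x y : Tor) :
    ker δ (pol i s h) (x, y) + ker δ (pol i s h) (rf i s x, rf i s y) +
      (ker δ (pol i s h) (rf i s x, y) + ker δ (pol i s h) (x, rf i s y)) ≤
    ker δ h (x, y) + ker δ h (rf i s x, rf i s y) +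
      (ker δ h (rf i s x, y) + ker δ h (x, rf i s y)) := by
  have key : ∀ x y : Tor, ‖x i‖ ≤ ‖s - x i‖ → ‖y i‖ ≤ ‖s - y i‖ →
      ker δ (pol i s h) (x, y) + ker δ (pol i s h) (rf i s x, rf i s y) +
      (ker δ (pol i s h) (rf i s x, y) + ker δ (pol i s h) (x, rf i s y)) ≤
    ker δ h (x, y) + ker δ h (rf i s x, rf i s y) +
      (ker δ h (rf i s x, y) + ker δ h (x, rf i s y)) := by
    intro x y hx hy
    have e1 := nrm_rf_rf i s x y
    have e2 := nrm_rf_left i s x y
    unfold ker
    dsimp only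
    rw [(pol_in hs h hx).1, (pol_in hs h hx).2, (pol_in hs h hy).1, (pol_in hs h hy).2, e1, e2]
    refine real_four _ _ _ _ (nrm (x - y) < δ) (nrm (x - rf i s y) < δ) fun hq => ?_
    exact (nrm_le_rf hs hx hy).trans_lt hq
  rcases le_total (‖x i‖) (‖s - x i‖) with hx | hx <;>
    rcases le_total (‖y i‖) (‖s - y i‖) with hy | hy
  · exact key x y hx hy
  · have hy' : ‖rf i s y i‖ ≤ ‖s - rf i s y i‖ := by rwa [rf_same, sub_sub_cancel]
    have := key x (rf i s y) hx hy'
    rw [rf_rf] at this
    linarith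
  · have hx' : ‖rf i s x i‖ ≤ ‖s - rf i s x i‖ := by rwa [rf_same, sub_sub_cancel]
    have := key (rf i s x) y hx' hy
    rw [rf_rf] at this
    linarith
  · have hx' : ‖rf i s x i‖ ≤ ‖s - rf i s x i‖ := by rwa [rf_same, sub_sub_cancel]
    have hy' : ‖rf i s y i‖ ≤ ‖s - rf i s y i‖ := by rwa [rf_same, sub_sub_cancel]
    have := key (rf i s x) (rf i s y) hx' hy'
    rw [rf_rf, rf_rf] at this
    linarith

lemma continuous_rf (i : Fin 3) (s : Cir) : Continuous (rf i s) := by
  unfold rf
  exact continuous_id.update i (continuous_const.sub (continuous_apply i))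

lemma emb_rf (i : Fin 3) (s : Cir) : MeasurableEmbedding (rf i s) := by
  have h1 : Measurable (rf i s) := (mp_rf i s).measurable
  exact (MeasurableEquiv.mk ⟨rf i s, rf i s, rf_rf i s, rf_rf i s⟩ h1 h1).measurableEmbedding

lemma pol_en {i : Fin 3} {s : Cir} (hs : s ≠ 0) (δ : ℝ) {h : Tor → ℝ} (hc : Continuous h)
    (hp : Continuous (pol i s h)) (h01 : ∀ x, h x ∈ Icc (0 : ℝ) 1) :
    en δ (pol i s h) ≤ en δ h := by
  rw [en_eq δ hc h01, en_eq δ hp (pol_mem i s h01)]
  have m1 : MeasurePreserving (fun p : Tor × Tor => (rf i s p.1, rf i s p.2)) volume volume :=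
    (mp_rf i s).prod (mp_rf i s)
  have m2 : MeasurePreserving (fun p : Tor × Tor => (rf i s p.1, p.2)) volume volume :=
    (mp_rf i s).prod (MeasurePreserving.id _)
  have m3 : MeasurePreserving (fun p : Tor × Tor => (p.1, rf i s p.2)) volume volume :=
    (MeasurePreserving.id _).prod (mp_rf i s)
  have gen : ∀ g : Tor → ℝ, Continuous g → (∀ x, g x ∈ Icc (0 : ℝ) 1) →
      ∫ p : Tor × Tor, (ker δ g p + ker δ g (rf i s p.1, rf i s p.2) +
        (ker δ g (rf i s p.1, p.2) + ker δ g (p.1, rf i s p.2))) = 4 * ∫ p, ker δ g p := by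
    intro g hg g01
    have hi := ker_int δ hg g01
    have hm := (ker_meas δ hg)
    have j1 : Integrable (fun p : Tor × Tor => ker δ g (rf i s p.1, rf i s p.2)) :=
      m1.integrable_comp_of_integrable hi
    have j2 : Integrable (fun p : Tor × Tor => ker δ g (rf i s p.1, p.2)) :=
      m2.integrable_comp_of_integrable hi
    have j3 : Integrable (fun p : Tor × Tor => ker δ g (p.1, rf i s p.2)) :=
      m3.integrable_comp_of_integrable hi
    have k1 : ∫ p : Tor × Tor, ker δ g (rf i s p.1, rf i s p.2) = ∫ p, ker δ g p := by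
      have := m1.map_eq
      conv_rhs => rw [← this]
      rw [integral_map m1.measurable.aemeasurable hm.aestronglyMeasurable]
    have k2 : ∫ p : Tor × Tor, ker δ g (rf i s p.1, p.2) = ∫ p, ker δ g p := by
      have := m2.map_eq
      conv_rhs => rw [← this]
      rw [integral_map m2.measurable.aemeasurable hm.aestronglyMeasurable]
    have k3 : ∫ p : Tor × Tor, ker δ g (p.1, rf i s p.2) = ∫ p, ker δ g p := by
      have := m3.map_eq
      conv_rhs => rw [← this]
      rw [integral_map m3.measurable.aemeasurable hm.aestronglyMeasurable]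
    rw [integral_add (f := fun p : Tor × Tor => ker δ g p + ker δ g (rf i s p.1, rf i s p.2))
      (g := fun p : Tor × Tor => ker δ g (rf i s p.1, p.2) + ker δ g (p.1, rf i s p.2))
      (hi.add j1) (j2.add j3), integral_add hi j1, integral_add j2 j3, k1, k2, k3]
    ring
  have g1 := gen h hc h01
  have g2 := gen (pol i s h) hp (pol_mem i s h01)
  have int4 : ∀ g : Tor → ℝ, Continuous g → (∀ x, g x ∈ Icc (0 : ℝ) 1) →
      Integrable (fun p : Tor × Tor => (ker δ g p + ker δ g (rf i s p.1, rf i s p.2) +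
        (ker δ g (rf i s p.1, p.2) + ker δ g (p.1, rf i s p.2)))) := by
    intro g hg g01
    have hi := ker_int δ hg g01
    exact (hi.add (m1.integrable_comp_of_integrable hi)).add
      ((m2.integrable_comp_of_integrable hi).add (m3.integrable_comp_of_integrable hi))
  have := integral_mono (int4 _ hp (pol_mem i s h01)) (int4 _ hc h01)
    (fun p => ker_four hs δ h p.1 p.2)
  rw [g1, g2] at this
  linarith

/-! ### The compact class and the minimiser -/

/-- the class of admissible functions -/
structure Cls (f : Tor → ℝ) (K : NNReal) (g : Tor → ℝ) : Prop where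
  lip : LipschitzWith K g
  mem : ∀ x, g x ∈ Icc (0 : ℝ) 1
  eqm : ∀ φ : ℝ → ℝ, Continuous φ → ∫ x, φ (g x) = ∫ x, φ (f x)
  en_le : ∀ δ, en δ g ≤ en δ f

lemma Cls.pol {f : Tor → ℝ} {K : NNReal} {g : Tor → ℝ} (h : Cls f K g) (i : Fin 3) {s : Cir}
    (hs : s ≠ 0) : Cls f K (pol i s g) := by
  have hl := pol_lip (i := i) hs h.lip
  exact ⟨hl, pol_mem i s h.mem,
    fun φ hφ => (pol_int hs h.lip.continuous hl.continuous φ hφ).trans (h.eqm φ hφ),
    fun δ => (pol_en hs δ h.lip.continuous hl.continuous h.mem).trans (h.en_le δ)⟩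

lemma cls_closed (f : Tor → ℝ) (K : NNReal) :
    IsClosed {g : BoundedContinuousFunction Tor ℝ | Cls f K g} := by
  apply IsSeqClosed.isClosed
  intro u g hu hlim
  have hpt : ∀ x, Tendsto (fun n => u n x) atTop (𝓝 (g x)) := fun x =>
    ((continuous_eval_const x).tendsto g).comp hlim
  have hmem : ∀ x, g x ∈ Icc (0 : ℝ) 1 := fun x =>
    isClosed_Icc.mem_of_tendsto (hpt x) (Eventually.of_forall fun n => (hu n).mem x)
  refine ⟨?_, hmem, ?_, ?_⟩
  · apply LipschitzWith.of_dist_le_mul
    intro x y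
    exact le_of_tendsto' ((hpt x).dist (hpt y)) (fun n => (hu n).lip.dist_le_mul x y)
  · intro φ hφ
    obtain ⟨M, hM⟩ := isCompact_Icc.exists_bound_of_continuousOn
      (hφ.continuousOn : ContinuousOn φ (Icc (0 : ℝ) 1))
    have ht : Tendsto (fun n => ∫ x, φ (u n x)) atTop (𝓝 (∫ x, φ (g x))) := by
      apply tendsto_integral_of_dominated_convergence (fun _ => M)
      · intro n
        exact (hφ.comp (u n).continuous).aestronglyMeasurable
      · exact integrable_const _
      · intro n
        exact Eventually.of_forall fun x => hM _ ((hu n).mem x)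
      · exact Eventually.of_forall fun x => (hφ.tendsto _).comp (hpt x)
    have hc : (fun n => ∫ x, φ (u n x)) = fun _ => ∫ x, φ (f x) := by
      funext n
      exact (hu n).eqm φ hφ
    rw [hc] at ht
    exact (tendsto_nhds_unique ht tendsto_const_nhds)
  · intro δ
    have ht : Tendsto (fun n => ∫ p, ker δ (u n) p) atTop (𝓝 (∫ p, ker δ g p)) := by
      apply tendsto_integral_of_dominated_convergence (fun _ => (1 : ℝ))
      · intro n
        exact (ker_meas δ (u n).continuous).aestronglyMeasurable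
      · exact integrable_const _
      · intro n
        refine Eventually.of_forall fun p => ?_
        unfold ker
        split_ifs
        · rw [Real.norm_eq_abs, abs_abs, abs_le]
          have a := (hu n).mem p.1
          have b := (hu n).mem p.2
          constructor <;> linarith [a.1, a.2, b.1, b.2]
        · simp
      · refine Eventually.of_forall fun p => ?_
        unfold ker
        split_ifs
        · exact ((hpt p.1).sub (hpt p.2)).abs
        · exact tendsto_const_nhds
    rw [en_eq δ g.continuous hmem]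
    refine le_of_tendsto' ht fun n => ?_
    rw [← en_eq δ (u n).continuous (hu n).mem]
    exact (hu n).en_le δ

lemma cls_compact (f : Tor → ℝ) (K : NNReal) :
    IsCompact {g : BoundedContinuousFunction Tor ℝ | Cls f K g} := by
  apply BoundedContinuousFunction.arzela_ascoli₂ (Icc (0 : ℝ) 1) isCompact_Icc _ (cls_closed f K)
  · intro g x hg
    exact hg.mem x
  · apply UniformEquicontinuous.equicontinuous
    exact LipschitzWith.uniformEquicontinuous _ K fun g => g.2.lip

/-- the weight -/
noncomputable def wt (x : Tor) : ℝ := ∑ i, ‖x i‖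

lemma continuous_wt : Continuous wt := by
  unfold wt
  fun_prop

lemma wt_nonneg (x : Tor) : 0 ≤ wt x := Finset.sum_nonneg fun _ _ => norm_nonneg _

lemma wt_int : Integrable wt :=
  continuous_wt.integrable_of_hasCompactSupport (HasCompactSupport.of_compactSpace _)

lemma wt_rf (i : Fin 3) (s : Cir) (x : Tor) : wt x - wt (rf i s x) = ‖x i‖ - ‖s - x i‖ := by
  unfold wt
  rw [← Finset.sum_sub_distrib, Finset.sum_eq_single i]
  · rw [rf_same]
  · intro j _ hj
    rw [rf_ne hj, sub_self]
  · simp

lemma exists_min (f : Tor → ℝ) (K : NNReal) (hf : LipschitzWith K f)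
    (h01 : ∀ x, f x ∈ Icc (0 : ℝ) 1) :
    ∃ g : Tor → ℝ, Cls f K g ∧ ∀ g', Cls f K g' → ∫ x, g x * wt x ≤ ∫ x, g' x * wt x := by
  have hne : {g : BoundedContinuousFunction Tor ℝ | Cls f K g}.Nonempty :=
    ⟨BoundedContinuousFunction.mkOfCompact ⟨f, hf.continuous⟩,
      ⟨hf, h01, fun _ _ => rfl, fun _ => le_rfl⟩⟩
  have hco : ContinuousOn (fun g : BoundedContinuousFunction Tor ℝ => ∫ x, g x * wt x)
      {g | Cls f K g} := by
    apply continuousOn_of_dominated (bound := wt)
    · intro g _
      exact (g.continuous.mul continuous_wt).aestronglyMeasurable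
    · intro g hg
      refine Eventually.of_forall fun x => ?_
      rw [norm_mul, Real.norm_eq_abs, Real.norm_eq_abs, abs_of_nonneg (hg.mem x).1,
        abs_of_nonneg (wt_nonneg x)]
      exact mul_le_of_le_one_left (wt_nonneg x) (hg.mem x).2
    · exact wt_int
    · refine Eventually.of_forall fun x => ?_
      exact ((continuous_eval_const x).mul
        continuous_const).continuousOn
  obtain ⟨g, hg, hmin⟩ := (cls_compact f K).exists_isMinOn hne hco
  refine ⟨g, hg, fun g' hg' => ?_⟩
  exact hmin (show BoundedContinuousFunction.mkOfCompact ⟨g', hg'.lip.continuous⟩ ∈ _ from hg')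

lemma min_pol {f g : Tor → ℝ} {K : NNReal} (hg : Cls f K g)
    (hmin : ∀ g', Cls f K g' → ∫ x, g x * wt x ≤ ∫ x, g' x * wt x) (i : Fin 3) {s : Cir}
    (hs : s ≠ 0) (x : Tor) (hx : ‖x i‖ < ‖s - x i‖) : g (rf i s x) ≤ g x := by
  have hp := hg.pol i hs
  have h1 := hmin _ hp
  have cg := hg.lip.continuous
  have cp := hp.lip.continuous
  have cr := continuous_rf i s
  have ig : ∀ F : Tor → ℝ, Continuous F → Integrable F := fun F hF =>
    hF.integrable_of_hasCompactSupport (HasCompactSupport.of_compactSpace _)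
  set D : Tor → ℝ := fun x => (pol i s g x - g x) * (wt x - wt (rf i s x)) with hD
  have cD : Continuous D := (cp.sub cg).mul (continuous_wt.sub (continuous_wt.comp cr))
  have hsum : ∀ x, pol i s g x + pol i s g (rf i s x) = g x + g (rf i s x) := by
    intro x
    rcases le_total (‖x i‖) (‖s - x i‖) with hx | hx
    · rw [(pol_in hs g hx).1, (pol_in hs g hx).2, max_add_min]
    · rw [(pol_out hs g hx).1, (pol_out hs g hx).2, min_add_max]
  have hDle : ∀ x, D x ≤ 0 := by
    intro x
    simp only [hD]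
    rw [wt_rf]
    rcases le_total (‖x i‖) (‖s - x i‖) with hx | hx
    · rw [(pol_in hs g hx).1]
      exact mul_nonpos_of_nonneg_of_nonpos (sub_nonneg.mpr (le_max_left _ _)) (by linarith)
    · rw [(pol_out hs g hx).1]
      exact mul_nonpos_of_nonpos_of_nonneg (sub_nonpos.mpr (min_le_left _ _)) (by linarith)
  have hDint : ∫ x, D x = 2 * ((∫ x, pol i s g x * wt x) - ∫ x, g x * wt x) := by
    have e1 : D = fun x => (pol i s g x * wt x - g x * wt x) +
        (pol i s g (rf i s x) * wt (rf i s x) - g (rf i s x) * wt (rf i s x)) := by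
      funext x
      have := hsum x
      simp only [hD]
      linear_combination (-(wt (rf i s x))) * this
    have i1 : Integrable (fun x => pol i s g x * wt x) := ig _ (cp.mul continuous_wt)
    have i2 : Integrable (fun x => g x * wt x) := ig _ (cg.mul continuous_wt)
    have i3 : Integrable (fun x => pol i s g (rf i s x) * wt (rf i s x)) :=
      ig _ ((cp.mul continuous_wt).comp cr)
    have i4 : Integrable (fun x => g (rf i s x) * wt (rf i s x)) :=
      ig _ ((cg.mul continuous_wt).comp cr)
    have k1 := int_rf i s (fun x => pol i s g x * wt x)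
    have k2 := int_rf i s (fun x => g x * wt x)
    rw [e1, integral_add (f := fun x => pol i s g x * wt x - g x * wt x)
      (g := fun x => pol i s g (rf i s x) * wt (rf i s x) - g (rf i s x) * wt (rf i s x))
      (i1.sub i2) (i3.sub i4), integral_sub i1 i2, integral_sub i3 i4, k1, k2]
    ring
  have hD0 : ∫ x, D x = 0 := by
    apply le_antisymm (integral_nonpos hDle)
    rw [hDint]
    linarith
  have hDae : D =ᵐ[volume] 0 := by
    have := (integral_eq_zero_iff_of_nonneg (f := fun x => -D x)
      (fun x => by simpa using hDle x) (ig _ cD.neg)).mp (by rw [integral_neg, hD0, neg_zero])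
    filter_upwards [this] with x hx
    simpa using hx
  have hDz : D = 0 := (Continuous.ae_eq_iff_eq volume cD continuous_const).mp hDae
  have h2 : D x = 0 := by rw [hDz]; rfl
  simp only [hD] at h2
  rw [wt_rf] at h2
  rcases mul_eq_zero.mp h2 with h3 | h3
  · rw [(pol_in hs g hx.le).1] at h3
    have : max (g x) (g (rf i s x)) = g x := by linarith
    exact max_eq_left_iff.mp this
  · linarith

lemma step_strict {f g : Tor → ℝ} {K : NNReal} (hg : Cls f K g)
    (hmin : ∀ g', Cls f K g' → ∫ x, g x * wt x ≤ ∫ x, g' x * wt x) (w : Tor) (i : Fin 3) (z : Cir)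
    (h : ‖w i‖ < ‖z‖) : g (Function.update w i z) ≤ g w := by
  have hs : w i + z ≠ 0 := by
    intro h0
    have : z = -w i := (neg_eq_of_add_eq_zero_right h0).symm
    rw [this, norm_neg] at h
    exact lt_irrefl _ h
  have := min_pol hg hmin i hs w (by rwa [add_sub_cancel_left])
  rwa [rf, add_sub_cancel_left] at this

lemma step {f g : Tor → ℝ} {K : NNReal} (hg : Cls f K g)
    (hmin : ∀ g', Cls f K g' → ∫ x, g x * wt x ≤ ∫ x, g' x * wt x) (w : Tor) (i : Fin 3) (z : Cir)
    (h : ‖w i‖ ≤ ‖z‖) : g (Function.update w i z) ≤ g w := by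
  rcases h.lt_or_eq with h | h
  · exact step_strict hg hmin w i z h
  obtain ⟨a, ha, hna⟩ := exists_rep (w i)
  rcases eq_or_ne a 0 with h0 | h0
  · have h1 : w i = 0 := by rw [← norm_eq_zero, hna, h0, abs_zero]
    have h2 : z = 0 := by rw [← norm_eq_zero, ← h, h1, norm_zero]
    rw [h2, ← h1, Function.update_eq_self]
  · have hc : Continuous (fun t : ℝ => g (Function.update w i ((a * (1 - t) : ℝ) : Cir))) := by
      apply hg.lip.continuous.comp
      apply continuous_const.update i
      exact (AddCircle.continuous_mk' 1).comp (by fun_prop)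
    have h1 : Tendsto (fun t : ℝ => g (Function.update w i ((a * (1 - t) : ℝ) : Cir)))
        (𝓝[>] 0) (𝓝 (g w)) := by
      have := (hc.tendsto 0).mono_left (nhdsWithin_le_nhds (s := Ioi (0 : ℝ)))
      simpa [ha] using this
    refine ge_of_tendsto h1 ?_
    filter_upwards [Ioo_mem_nhdsGT (zero_lt_one : (0 : ℝ) < 1)] with t ht
    have h2 : ‖(Function.update w i ((a * (1 - t) : ℝ) : Cir)) i‖ < ‖z‖ := by
      rw [Function.update_self, ← h, hna]
      refine (norm_le_abs _).trans_lt ?_
      rw [abs_mul, abs_of_pos (by linarith [ht.2] : (0 : ℝ) < 1 - t)]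
      have : 0 < |a| := abs_pos.mpr h0
      nlinarith [ht.1]
    have := step_strict hg hmin _ i z h2
    rwa [Function.update_idem] at this

end SymmAux

open SymmAux in
/-- [SYM] Symm.lean : polarisation + compactness -/
theorem symm_exists (f : Tor → ℝ) (K : NNReal) (hf : LipschitzWith K f)
    (h01 : ∀ x, f x ∈ Icc (0 : ℝ) 1) :
    ∃ g : Tor → ℝ, LipschitzWith K g ∧ (∀ x, g x ∈ Icc (0 : ℝ) 1) ∧
      (∀ x y : Tor, (∀ i, ‖x i‖ ≤ ‖y i‖) → g y ≤ g x) ∧
      (∀ φ : ℝ → ℝ, Continuous φ → ∫ x, φ (g x) = ∫ x, φ (f x)) ∧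
      ∀ δ, en δ g ≤ en δ f := by
  obtain ⟨g, hg, hmin⟩ := exists_min f K hf h01
  refine ⟨g, hg.lip, hg.mem, ?_, hg.eqm, hg.en_le⟩
  intro x y hxy
  have e1 := step hg hmin x 0 (y 0) (hxy 0)
  have e2 := step hg hmin (Function.update x 0 (y 0)) 1 (y 1) (by simpa using hxy 1)
  have e3 := step hg hmin (Function.update (Function.update x 0 (y 0)) 1 (y 1)) 2 (y 2)
    (by simpa using hxy 2)
  have e4 : Function.update (Function.update (Function.update x 0 (y 0)) 1 (y 1)) 2 (y 2) = y := by
    ext j
    fin_cases j <;> simp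
  rw [e4] at e3
  exact e3.trans (e2.trans e1)

end P232
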