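import Vale.Agent.P232.Mollify
import Vale.Agent.P232.Helly
import Vale.Agent.P232.Fold
import Vale.Agent.P232.EnUp
import Vale.Agent.P232.EnLow
import Vale.Agent.P232.Smooth
import Vale.Agent.P232.Symm

/-!
# P232 [AS2]: from periodic sets of finite perimeter to lower sets of the cube.
-/

open MeasureTheory Set Filter Topology
open scoped ENNReal ContDiff

namespace P232.Asm

theorem Mc_nonneg (δ : ℝ) : 0 ≤ Mc δ := integral_nonneg fun _ => abs_nonneg _

/-- One step: a symmetric decreasing function on the torus and a smooth approximation. -/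
theorem one_step (E : Set R3) (hm : MeasurableSet E) (hp : PeriodicSet E)
    (hfin : perimeter E ≠ ⊤) (ε : ℝ) (hε : 0 < ε) :
    ∃ (g : Tor → ℝ) (F : R3 → ℝ), Continuous g ∧ (∀ x, g x ∈ Icc (0 : ℝ) 1) ∧
      (∀ x y : Tor, (∀ i, ‖x i‖ ≤ ‖y i‖) → g y ≤ g x) ∧
      ContDiff ℝ ∞ F ∧ PeriodicFun F ∧ (∀ x, F x ∈ Icc (0 : ℝ) 1) ∧
      (∀ x, |F x - g (pr x)| ≤ ε) ∧ (∀ x i, F (Function.update x i (-x i)) = F x) ∧
      ∫ x in cell, gradN F x ≤ (perimeter E).toReal ∧
      ∫ x, g x * (1 - g x) ≤ ε ∧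
      |(∫ x, g x) - (volume (E ∩ cell)).toReal| ≤ ε := by
  obtain ⟨f, hf, hfp, hf01, hfP, hfE⟩ := mollify E hm hp hfin ε hε
  have hf1 : ContDiff ℝ 1 f := hf.of_le (by exact_mod_cast le_top)
  obtain ⟨K, hK⟩ := Fold.lip_of_periodic f hf1 hfp
  obtain ⟨fb, hfb⟩ := Fold.descend f hfp
  have hfbK := Fold.descend_lip f K hK fb hfb
  have hfb01 : ∀ x, fb x ∈ Icc (0 : ℝ) 1 := by
    intro y
    obtain ⟨x, rfl⟩ := Fold.pr_surj y
    rw [hfb]; exact hf01 x
  obtain ⟨g, hgK, hg01, hgm, hgeq, hgen⟩ := symm_exists fb K hfbK hfb01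
  have hgc : Continuous g := hgK.continuous
  have hgs : ∀ x y : Tor, (∀ i, ‖x i‖ = ‖y i‖) → g x = g y := fun x y h =>
    le_antisymm (hgm y x fun i => (h i).ge) (hgm x y fun i => (h i).le)
  obtain ⟨F, hF, hFp, hF01, hFg, hFe, hFen⟩ := smooth_approx g hgc hg01 hgs ε hε
  obtain ⟨Fb, hFb⟩ := Fold.descend F hFp
  have hF1 : ContDiff ℝ 1 F := hF.of_le (by exact_mod_cast le_top)
  refine ⟨g, F, hgc, hg01, hgm, hF, hFp, hF01, hFg, hFe, ?_, ?_, ?_⟩
  · refine grad_le F hF1 Fb hFb _ fun δ h0 h1 => ?_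
    calc en δ Fb ≤ en δ g := hFen Fb hFb δ
      _ ≤ en δ fb := hgen δ
      _ ≤ Mc δ * ∫ x in cell, gradN f x := en_le f hf1 fb hfb δ h0 h1
      _ ≤ Mc δ * (perimeter E).toReal := mul_le_mul_of_nonneg_left hfP (Mc_nonneg δ)
  · have h1 : ∫ x, g x * (1 - g x) = ∫ x, fb x * (1 - fb x) :=
      hgeq (fun t => t * (1 - t)) (by fun_prop)
    have hfbc : Continuous fb := hfbK.continuous
    rw [h1, Fold.integral_tor (fun x => fb x * (1 - fb x))
      (hfbc.mul (continuous_const.sub hfbc))]
    simp only [hfb]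
    refine le_trans ?_ hfE
    refine setIntegral_mono ?_ ?_ fun x => ?_
    · exact Mol.integrableOn_cell _ (hf.continuous.mul (continuous_const.sub hf.continuous))
    · refine Integrable.mono' (integrable_const (1 : ℝ)) ?_ ?_
      · exact ((hf.continuous.measurable.sub (measurable_one.indicator hm)).abs).aestronglyMeasurable
      · refine Eventually.of_forall fun x => ?_
        have h1 := hf01 x
        have h2 := Mol.ind_mem E x
        rw [Real.norm_eq_abs, abs_abs, abs_le]
        constructor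
        · linarith [h1.1, h2.2]
        · linarith [h1.2, h2.1]
    · have h2 := hf01 x
      show f x * (1 - f x) ≤ |f x - E.indicator 1 x|
      by_cases hx : x ∈ E
      · rw [indicator_of_mem hx]
        have : |f x - 1| = 1 - f x := by rw [abs_sub_comm]; exact abs_of_nonneg (by linarith [h2.2])
        show f x * (1 - f x) ≤ |f x - 1|
        rw [this]
        nlinarith [h2.1, h2.2]
      · rw [indicator_of_notMem hx, sub_zero, abs_of_nonneg h2.1]
        nlinarith [h2.1, h2.2]
  · have h1 : ∫ x, g x = ∫ x, fb x := hgeq (fun t => t) (by fun_prop)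
    have hfbc : Continuous fb := hfbK.continuous
    rw [h1, Fold.integral_tor _ hfbc]
    simp only [hfb]
    have h2 : (volume (E ∩ cell)).toReal = ∫ x in cell, E.indicator (1 : R3 → ℝ) x := by
      rw [setIntegral_indicator hm, inter_comm]
      simp [Measure.real]
    have hi1 : IntegrableOn f cell volume := Mol.integrableOn_cell _ hf.continuous
    have hi2 : IntegrableOn (E.indicator (1 : R3 → ℝ)) cell volume := by
      refine Integrable.mono' (integrable_const (1 : ℝ))
        (measurable_one.indicator hm).aestronglyMeasurable ?_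
      refine Eventually.of_forall fun x => ?_
      have h2 := Mol.ind_mem E x
      rw [Real.norm_eq_abs, abs_of_nonneg h2.1]
      exact h2.2
    rw [h2, ← integral_sub hi1 hi2]
    exact (abs_integral_le_integral_abs).trans hfE

/-! ### gradients -/

/-- reflection in the coordinate `i` -/
noncomputable def refl (i : Fin 3) : R3 →L[ℝ] R3 :=
  ContinuousLinearMap.id ℝ R3 -
    (2 : ℝ) • (ContinuousLinearMap.proj (R := ℝ) (φ := fun _ : Fin 3 => ℝ) i).smulRight
      (Pi.single i (1 : ℝ) : R3)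

theorem refl_apply (i : Fin 3) (x : R3) : refl i x = Function.update x i (-x i) := by
  funext j
  by_cases h : j = i
  · subst h
    simp [refl]
    ring
  · simp [refl, h]

theorem refl_single (i j : Fin 3) :
    refl i (Pi.single j 1) = if j = i then -(Pi.single j (1 : ℝ) : R3) else Pi.single j 1 := by
  rw [refl_apply]
  split_ifs with h
  · subst h
    funext k
    by_cases hk : k = j
    · subst hk; simp
    · simp [hk]
  · funext k
    by_cases hk : k = i
    · subst hk
      simp [Ne.symm h]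
    · simp [hk]

theorem gradN_even (F : R3 → ℝ) (hF : Differentiable ℝ F)
    (he : ∀ x i, F (Function.update x i (-x i)) = F x) (x : R3) (i : Fin 3) :
    gradN F (Function.update x i (-x i)) = gradN F x := by
  have h1 : ∀ v, fderiv ℝ F (refl i x) (refl i v) = fderiv ℝ F x v := by
    intro v
    have h2 : (fun y => F (refl i y)) = F := by
      funext y; rw [refl_apply, he]
    have h3 : fderiv ℝ (fun y => F (refl i y)) x = (fderiv ℝ F (refl i x)).comp (refl i) := by
      have := fderiv_comp x (hF (refl i x)) (refl i).differentiableAt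
      rw [ContinuousLinearMap.fderiv] at this
      exact this
    rw [h2] at h3
    rw [h3]
    rfl
  unfold gradN
  rw [← refl_apply]
  congr 1
  refine Finset.sum_congr rfl fun j _ => ?_
  rw [← h1 (Pi.single j 1), refl_single]
  split_ifs with h
  · rw [map_neg, neg_sq]
  · rfl

/-- scaling by `1/2` -/
noncomputable def halfL : (ℝ × ℝ × ℝ) →L[ℝ] R3 := (1 / 2 : ℝ) • Vec.vecL

theorem halfL_apply (p : ℝ × ℝ × ℝ) : halfL p = Vec.vec3 (Fold.hf p) := by
  funext i
  have h := congrFun (Vec.vecL_apply p) i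
  show (1 / 2 : ℝ) * Vec.vecL p i = _
  rw [h]
  fin_cases i <;> simp [Fold.hf, Vec.vec3] <;> ring

theorem gn3_scaled (F : R3 → ℝ) (hF : Differentiable ℝ F) (p : ℝ × ℝ × ℝ) :
    gn3 (fun p => F (halfL p)) p = 1 / 2 * gradN F (Vec.vec3 (Fold.hf p)) := by
  have h3 : fderiv ℝ (fun q => F (halfL q)) p = (fderiv ℝ F (halfL p)).comp halfL := by
    have := fderiv_comp p (hF (halfL p)) halfL.differentiableAt
    rw [ContinuousLinearMap.fderiv] at this
    exact this
  have e0 : halfL (1, 0, 0) = (1 / 2 : ℝ) • (Pi.single 0 1 : R3) := by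
    rw [halfL_apply]; funext i; fin_cases i <;> simp [Fold.hf, Vec.vec3]
  have e1 : halfL (0, 1, 0) = (1 / 2 : ℝ) • (Pi.single 1 1 : R3) := by
    rw [halfL_apply]; funext i; fin_cases i <;> simp [Fold.hf, Vec.vec3]
  have e2 : halfL (0, 0, 1) = (1 / 2 : ℝ) • (Pi.single 2 1 : R3) := by
    rw [halfL_apply]; funext i; fin_cases i <;> simp [Fold.hf, Vec.vec3]
  unfold gn3 gradN
  rw [h3]
  simp only [ContinuousLinearMap.comp_apply, e0, e1, e2, map_smul, smul_eq_mul,
    Fin.sum_univ_three, ← halfL_apply]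
  rw [show (1 / 2 * fderiv ℝ F (halfL p) (Pi.single 0 1)) ^ 2
      + (1 / 2 * fderiv ℝ F (halfL p) (Pi.single 1 1)) ^ 2
      + (1 / 2 * fderiv ℝ F (halfL p) (Pi.single 2 1)) ^ 2
      = (1 / 2) ^ 2 * (fderiv ℝ F (halfL p) (Pi.single 0 1) ^ 2
      + fderiv ℝ F (halfL p) (Pi.single 1 1) ^ 2
      + fderiv ℝ F (halfL p) (Pi.single 2 1) ^ 2) by ring]
  rw [Real.sqrt_mul (by positivity), Real.sqrt_sq (by norm_num)]

/-- a periodic, coordinatewise even continuous function on `ℝ³`, in the coordinates -/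
theorem EP_of (F : R3 → ℝ) (hc : Continuous F) (hp : PeriodicFun F)
    (he : ∀ x i, F (Function.update x i (-x i)) = F x) : Fold.EP (fun p => F (Vec.vec3 p)) := by
  refine ⟨hc.comp Vec.continuous_vec3, ?_, ?_, ?_, ?_, ?_, ?_⟩
  · intro x y z
    show F (Vec.vec3 (-x, y, z)) = F (Vec.vec3 (x, y, z))
    rw [← he (Vec.vec3 (x, y, z)) 0]
    congr 1
    funext i; fin_cases i <;> simp [Vec.vec3]
  · intro x y z
    show F (Vec.vec3 (x, -y, z)) = F (Vec.vec3 (x, y, z))
    rw [← he (Vec.vec3 (x, y, z)) 1]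
    congr 1
    funext i; fin_cases i <;> simp [Vec.vec3]
  · intro x y z
    show F (Vec.vec3 (x, y, -z)) = F (Vec.vec3 (x, y, z))
    rw [← he (Vec.vec3 (x, y, z)) 2]
    congr 1
    funext i; fin_cases i <;> simp [Vec.vec3]
  · intro x y z
    show F (Vec.vec3 (x + 1, y, z)) = F (Vec.vec3 (x, y, z))
    rw [← hp (Vec.vec3 (x, y, z)) 0]
    congr 1
    funext i; fin_cases i <;> simp [Vec.vec3]
  · intro x y z
    show F (Vec.vec3 (x, y + 1, z)) = F (Vec.vec3 (x, y, z))
    rw [← hp (Vec.vec3 (x, y, z)) 1]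
    congr 1
    funext i; fin_cases i <;> simp [Vec.vec3]
  · intro x y z
    show F (Vec.vec3 (x, y, z + 1)) = F (Vec.vec3 (x, y, z))
    rw [← hp (Vec.vec3 (x, y, z)) 2]
    congr 1
    funext i; fin_cases i <;> simp [Vec.vec3]

/-- the periodic lift of a torus function which only depends on the norms of the coordinates -/
theorem lift_even (h : Tor → ℝ) (hs : ∀ x y : Tor, (∀ i, ‖x i‖ = ‖y i‖) → h x = h y) (x : R3)
    (i : Fin 3) : h (pr (Function.update x i (-x i))) = h (pr x) := by
  refine hs _ _ fun j => ?_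
  by_cases hj : j = i
  · subst hj
    simp [pr]
  · simp [pr, hj]

theorem fold_tor (h : Tor → ℝ) (hc : Continuous h)
    (hs : ∀ x y : Tor, (∀ i, ‖x i‖ = ‖y i‖) → h x = h y) :
    ∫ p in Q3, h (pr (Vec.vec3 (Fold.hf p))) = ∫ y, h y := by
  have hEP := EP_of (fun x => h (pr x)) (hc.comp Fold.continuous_pr)
    (fun x i => by show h (pr _) = h (pr x); rw [Fold.pr_add_single]) (lift_even h hs)
  rw [Fold.integral_tor h hc, Fold.integral_cell_eq_Q3]
  exact Fold.halve _ hEP

theorem norm_half (x : ℝ) (hx : x ∈ Ioo (0 : ℝ) 1) :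
    ‖((x / 2 : ℝ) : AddCircle (1 : ℝ))‖ = x / 2 := by
  have h := (AddCircle.norm_coe_eq_abs_iff (x := x / 2) (1 : ℝ) one_ne_zero).2 (by
    rw [abs_one, abs_of_pos (by linarith [hx.1])]
    linarith [hx.2])
  rw [h, abs_of_pos (by linarith [hx.1])]

end P232.Asm

namespace P232

open Asm in
/-- [AS2] -/
theorem symmetrize (E : Set R3) (hm : MeasurableSet E) (hp : PeriodicSet E)
    (hfin : perimeter E ≠ ⊤) :
    ∃ D : Set (ℝ × ℝ × ℝ), IsOpen D ∧ Low3 D ∧ volume D = volume (E ∩ cell) ∧
      Approx3 D ((perimeter E).toReal / 2) := by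
  choose g F hgc hg01 hgm hF hFp hF01 hFg hFe hFP hg1 hgV using fun n : ℕ =>
    one_step E hm hp hfin (1 / ((n : ℝ) + 1)) (by positivity)
  have hgs : ∀ n, ∀ x y : Tor, (∀ i, ‖x i‖ = ‖y i‖) → g n x = g n y := fun n x y h =>
    le_antisymm (hgm n y x fun i => (h i).ge) (hgm n x y fun i => (h i).le)
  have heps : Tendsto (fun n : ℕ => 1 / ((n : ℝ) + 1)) atTop (𝓝 0) :=
    tendsto_one_div_add_atTop_nhds_zero_nat
  have hpc : Continuous fun p : ℝ × ℝ × ℝ => pr (Vec.vec3 (Fold.hf p)) :=
    Fold.continuous_pr.comp (Vec.continuous_vec3.comp Fold.continuous_hf)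
  obtain ⟨φ, hφ, D, hDo, hDl, hDv, hDlim⟩ := helly
    (fun n p => g n (pr (Vec.vec3 (Fold.hf p))))
    (fun n => (hgc n).comp hpc)
    (fun n p hpQ q hqQ hpq => by
      refine hgm n _ _ fun i => ?_
      obtain ⟨hp0, hp1, hp2⟩ := hpQ
      obtain ⟨hq0, hq1, hq2⟩ := hqQ
      obtain ⟨h0, h1, h2⟩ := hpq
      fin_cases i
      · show ‖((p.1 / 2 : ℝ) : AddCircle (1 : ℝ))‖ ≤ ‖((q.1 / 2 : ℝ) : AddCircle (1 : ℝ))‖
        rw [norm_half _ hp0, norm_half _ hq0]
        linarith
      · show ‖((p.2.1 / 2 : ℝ) : AddCircle (1 : ℝ))‖ ≤ ‖((q.2.1 / 2 : ℝ) : AddCircle (1 : ℝ))‖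
        rw [norm_half _ hp1, norm_half _ hq1]
        linarith
      · show ‖((p.2.2 / 2 : ℝ) : AddCircle (1 : ℝ))‖ ≤ ‖((q.2.2 / 2 : ℝ) : AddCircle (1 : ℝ))‖
        rw [norm_half _ hp2, norm_half _ hq2]
        linarith)
    (fun n p => hg01 n _)
    (by
      have h1 : ∀ n, ∫ p in Q3, g n (pr (Vec.vec3 (Fold.hf p)))
          * (1 - g n (pr (Vec.vec3 (Fold.hf p)))) = ∫ y, g n y * (1 - g n y) := by
        intro n
        exact fold_tor (fun y => g n y * (1 - g n y))
          ((hgc n).mul (continuous_const.sub (hgc n)))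
          (fun x y h => by rw [hgs n x y h])
      simp only [h1]
      refine squeeze_zero (fun n => ?_) hg1 heps
      exact integral_nonneg fun y =>
        mul_nonneg (hg01 n y).1 (by linarith [(hg01 n y).2]))
    (volume (E ∩ cell)).toReal
    (by
      have h1 : ∀ n, ∫ p in Q3, g n (pr (Vec.vec3 (Fold.hf p))) = ∫ y, g n y := fun n =>
        fold_tor (g n) (hgc n) (hgs n)
      simp only [h1]
      rw [tendsto_iff_dist_tendsto_zero]
      refine squeeze_zero (fun n => dist_nonneg) (fun n => ?_) heps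
      rw [Real.dist_eq]
      exact hgV n)
  refine ⟨D, hDo, hDl, ?_, ?_⟩
  · rw [hDv, ENNReal.ofReal_toReal]
    exact ne_top_of_le_ne_top Cell.volume_cell_lt_top.ne (measure_mono inter_subset_right)
  · refine ⟨fun n p => F (φ n) (halfL p), fun n => ?_, fun n p => hF01 _ _, fun n => ?_, ?_⟩
    · exact ((hF (φ n)).of_le (by exact_mod_cast le_top)).comp halfL.contDiff
    · have hFd : Differentiable ℝ (F (φ n)) := (hF (φ n)).differentiable (by simp)
      have hgrc : Continuous (gradN (F (φ n))) := Mol.gradN_continuous _ (hF (φ n))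
      simp only [gn3_scaled _ hFd]
      have hcc : Continuous fun p : ℝ × ℝ × ℝ => gradN (F (φ n)) (Vec.vec3 (Fold.hf p)) :=
        hgrc.comp (Vec.continuous_vec3.comp Fold.continuous_hf)
      have hK : IsCompact (Icc (0 : ℝ) 1 ×ˢ (Icc (0 : ℝ) 1 ×ˢ Icc (0 : ℝ) 1)) :=
        isCompact_Icc.prod (isCompact_Icc.prod isCompact_Icc)
      have hint : Integrable (fun p : ℝ × ℝ × ℝ =>
          1 / 2 * gradN (F (φ n)) (Vec.vec3 (Fold.hf p))) (volume.restrict Q3) :=
        ((continuous_const.mul hcc).continuousOn.integrableOn_compact hK).mono_set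
          (prod_mono Ioo_subset_Icc_self (prod_mono Ioo_subset_Icc_self Ioo_subset_Icc_self))
      rw [← ofReal_integral_eq_lintegral_ofReal hint (Eventually.of_forall fun p =>
        mul_nonneg (by norm_num) (Real.sqrt_nonneg _))]
      refine ENNReal.ofReal_le_ofReal ?_
      rw [integral_const_mul]
      have hEP := EP_of (gradN (F (φ n))) hgrc
        (fun x i => by
          unfold gradN
          simp only [Mol.partial_periodic _ (hFp (φ n))])
        (gradN_even _ hFd (hFe (φ n)))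
      have h2 := Fold.halve _ hEP
      rw [h2, ← Fold.integral_cell_eq_Q3]
      have := hFP (φ n)
      linarith
    · filter_upwards [hDlim] with p hp1
      have h3 : Tendsto (fun n => F (φ n) (halfL p) - g (φ n) (pr (Vec.vec3 (Fold.hf p)))) atTop
          (𝓝 0) := by
        rw [tendsto_zero_iff_abs_tendsto_zero]
        refine squeeze_zero (fun n => abs_nonneg _) (fun n => ?_) (heps.comp hφ.tendsto_atTop)
        rw [halfL_apply]
        exact hFg (φ n) _
      have h4 := h3.add hp1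
      simpa using h4

end P232
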