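import Vale.Agent.P232.Calib

/-!
# P232, [WT]: the sharp planar bound for `Q`-type slices
-/

open MeasureTheory Set Filter Topology
open scoped ENNReal ContDiff

namespace P232

namespace WTrickAux

/-- the area function of the angle -/
noncomputable def gg (φ : ℝ) : ℝ := φ - Real.sin φ * Real.cos φ

theorem gg_cont : Continuous gg := by
  unfold gg; fun_prop

theorem gg_zero : gg 0 = 0 := by simp [gg]

theorem gg_pi : gg (Real.pi / 2) = Real.pi / 2 := by simp [gg]

theorem exists_angle {t : ℝ} (ht : t ∈ Icc (0 : ℝ) 1) :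
    ∃ φ ∈ Icc (0 : ℝ) (Real.pi / 2), gg φ = Real.pi / 2 * t := by
  have h := intermediate_value_Icc (a := 0) (b := Real.pi / 2) (by positivity)
    gg_cont.continuousOn
  rw [gg_zero, gg_pi] at h
  have hp := Real.pi_pos
  exact h ⟨by have := ht.1; positivity, by nlinarith [ht.2]⟩

/-- tangent line inequality -/
theorem tangent {φ ψ : ℝ} (hφ : φ ∈ Icc (0 : ℝ) (Real.pi / 2)) (hψ : ψ ∈ Icc (0 : ℝ) (Real.pi / 2)) :
    gg φ - gg ψ ≤ 2 * Real.sin φ * (Real.cos ψ - Real.cos φ) := by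
  set R : ℝ → ℝ := fun x => 2 * Real.sin φ * (Real.cos x - Real.cos φ) - gg φ + gg x with hR
  have hder : ∀ x, HasDerivAt R (2 * Real.sin x * (Real.sin x - Real.sin φ)) x := by
    intro x
    have h1 : HasDerivAt (fun x => Real.sin x * Real.cos x)
        (Real.cos x * Real.cos x + Real.sin x * (-Real.sin x)) x :=
      (Real.hasDerivAt_sin x).mul (Real.hasDerivAt_cos x)
    have h2 : HasDerivAt gg (1 - (Real.cos x * Real.cos x + Real.sin x * (-Real.sin x))) x :=
      (hasDerivAt_id x).sub h1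
    have h3 : HasDerivAt (fun x => 2 * Real.sin φ * (Real.cos x - Real.cos φ) - gg φ)
        (2 * Real.sin φ * (-Real.sin x)) x :=
      (((Real.hasDerivAt_cos x).sub_const _).const_mul _).sub_const _
    have h4 := h3.add h2
    refine h4.congr_deriv ?_
    have h5 := Real.sin_sq_add_cos_sq x
    nlinarith
  have hR0 : R φ = 0 := by simp [hR]
  have hcont : Continuous R := continuous_iff_continuousAt.2 fun x => (hder x).continuousAt
  have hdiff : Differentiable ℝ R := fun x => (hder x).differentiableAt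
  have key : 0 ≤ R ψ := by
    have hpi := Real.pi_pos
    rcases le_total ψ φ with h | h
    · have hanti : AntitoneOn R (Icc 0 φ) := by
        refine antitoneOn_of_deriv_nonpos (convex_Icc 0 φ) hcont.continuousOn
          hdiff.differentiableOn fun x hx => ?_
        rw [interior_Icc] at hx
        rw [(hder x).deriv]
        have s1 : 0 ≤ Real.sin x := Real.sin_nonneg_of_nonneg_of_le_pi hx.1.le
          (by linarith [hx.2, hφ.2])
        have s2 : Real.sin x ≤ Real.sin φ := Real.sin_le_sin_of_le_of_le_pi_div_two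
          (by linarith [hx.1]) hφ.2 hx.2.le
        nlinarith
      have := hanti ⟨hψ.1, h⟩ ⟨hφ.1, le_rfl⟩ h
      rw [hR0] at this
      exact this
    · have hmono : MonotoneOn R (Icc φ (Real.pi / 2)) := by
        refine monotoneOn_of_deriv_nonneg (convex_Icc _ _) hcont.continuousOn
          hdiff.differentiableOn fun x hx => ?_
        rw [interior_Icc] at hx
        rw [(hder x).deriv]
        have s1 : 0 ≤ Real.sin x := Real.sin_nonneg_of_nonneg_of_le_pi (hφ.1.trans hx.1.le)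
          (by linarith [hx.2])
        have s2 : Real.sin φ ≤ Real.sin x := Real.sin_le_sin_of_le_of_le_pi_div_two
          (by linarith [hφ.1]) hx.2.le hx.1.le
        nlinarith
      have := hmono ⟨le_rfl, hφ.2⟩ ⟨h, hψ.2⟩ h
      rw [hR0] at this
      exact this
  simp only [hR] at key
  linarith

theorem cos_nonneg' {φ : ℝ} (hφ : φ ∈ Icc (0 : ℝ) (Real.pi / 2)) : 0 ≤ Real.cos φ :=
  Real.cos_nonneg_of_neg_pi_div_two_le_of_le (by linarith [hφ.1, Real.pi_pos]) hφ.2

theorem sin_nonneg' {φ : ℝ} (hφ : φ ∈ Icc (0 : ℝ) (Real.pi / 2)) : 0 ≤ Real.sin φ :=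
  Real.sin_nonneg_of_nonneg_of_le_pi hφ.1 (by linarith [hφ.2, Real.pi_pos])

/-- the AM-GM step -/
theorem amgm {σ K Δ C y : ℝ} (hσ : 0 ≤ σ) (hΔ : 0 ≤ Δ) (hy : 0 ≤ y)
    (hC : K ^ 2 / 2 * (y * Δ) ≤ 2 * σ * C) (hσ0 : σ = 0 → y * Δ = 0) (hC0 : 0 ≤ C ∨ y = 0) :
    K * (y * Δ) ≤ σ * Δ + C * y := by
  rcases hσ.eq_or_lt with h | h
  · have h1 := hσ0 h.symm
    rw [h1, ← h]
    rcases hC0 with h2 | h2
    · have := mul_nonneg h2 hy
      linarith
    · rw [h2]; simp
  · -- multiply by 4σ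
    have h2 : K ^ 2 * (y * Δ) ≤ 4 * σ * C := by linarith
    have h3 : K ^ 2 * (y * Δ) * y ≤ 4 * σ * C * y := mul_le_mul_of_nonneg_right h2 hy
    have h4 : 0 ≤ Δ * (2 * σ - K * y) ^ 2 := mul_nonneg hΔ (sq_nonneg _)
    have h5 : 4 * σ * (K * (y * Δ)) ≤ 4 * σ * (σ * Δ + C * y) := by nlinarith
    exact le_of_mul_le_mul_left h5 (by linarith)

/-- the discrete sum -/
theorem wsum (n : ℕ) (s φ H I : ℕ → ℝ) (K : ℝ) (hH : ∀ i ≤ n + 1, 0 ≤ H i)
    (hφ : ∀ i ≤ n, φ i ∈ Icc (0 : ℝ) (Real.pi / 2))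
    (hstep : ∀ i < n, K * (H (i + 1) * (s (i + 1) - s i)) ≤
      Real.sin (φ i) * I i + (Real.cos (φ (i + 1)) - Real.cos (φ i)) * H (i + 1)) :
    K * (∑ i ∈ Finset.range n, H (i + 1) * (s (i + 1) - s i)) + Real.sin (φ n) * I n -
        Real.cos (φ n) * H (n + 1) ≤
      ∑ i ∈ Finset.range (n + 1), (Real.sin (φ i) * I i + Real.cos (φ i) * (H i - H (i + 1))) := by
  induction n with
  | zero =>
    simp
    have h1 := mul_nonneg (cos_nonneg' (hφ 0 le_rfl)) (hH 0 (by omega))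
    nlinarith
  | succ n ih =>
    have ih' := ih (fun i hi => hH i (by omega)) (fun i hi => hφ i (by omega))
      (fun i hi => hstep i (by omega))
    rw [Finset.sum_range_succ _ n, Finset.sum_range_succ _ (n + 1)]
    have h1 := hstep n (by omega)
    nlinarith

/-- the lower Riemann sum -/
theorem lower_sum (h : ℝ → ℝ) (s : ℕ → ℝ) (δ : ℝ) (n : ℕ)
    (hs : ∀ i < n, s i ≤ s (i + 1)) (hδ : ∀ i < n, s (i + 1) - s i ≤ δ)
    (hh : ∀ i < n, AntitoneOn h (Icc (s i) (s (i + 1))))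
    (hi : ∀ i ≤ n, IntervalIntegrable h volume (s 0) (s i)) :
    (∫ x in (s 0)..(s n), h x) - δ * (h (s 0) - h (s n)) ≤
      ∑ i ∈ Finset.range n, h (s (i + 1)) * (s (i + 1) - s i) := by
  induction n with
  | zero => simp
  | succ n ih =>
    have ih' := ih (fun i hi => hs i (by omega)) (fun i hi => hδ i (by omega))
      (fun i hi => hh i (by omega)) (fun i hin => hi i (by omega))
    rw [Finset.sum_range_succ]
    have hsn := hs n (by omega)
    have j1 : IntervalIntegrable h volume (s 0) (s n) := hi n (by omega)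
    have j2 : IntervalIntegrable h volume (s n) (s (n + 1)) :=
      j1.symm.trans (hi (n + 1) le_rfl)
    rw [← intervalIntegral.integral_add_adjacent_intervals j1 j2]
    have e2 : ∫ x in (s n)..(s (n + 1)), h x ≤ h (s n) * (s (n + 1) - s n) := by
      calc ∫ x in (s n)..(s (n + 1)), h x ≤ ∫ x in (s n)..(s (n + 1)), h (s n) := by
            refine intervalIntegral.integral_mono_on hsn j2 (by simp) fun x hx => ?_
            exact hh n (by omega) (left_mem_Icc.2 hsn) hx hx.1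
        _ = _ := by simp [mul_comm]
    have e3 : 0 ≤ h (s n) - h (s (n + 1)) :=
      sub_nonneg.2 (hh n (by omega) (left_mem_Icc.2 hsn) (right_mem_Icc.2 hsn) hsn)
    have e4 := mul_le_mul_of_nonneg_right (hδ n (by omega)) e3
    nlinarith

end WTrickAux

open CalibAux WTrickAux

/-- [WT] -/
theorem wtrick (h : ℝ → ℝ) (hanti : AntitoneOn h (Ioo 0 1))
    (h01 : ∀ x ∈ Ioo (0 : ℝ) 1, 0 ≤ h x ∧ h x < 1) (hlim : Tendsto h (𝓝[<] 1) (𝓝 0)) (P : ℝ)
    (hP : PartIneq h (q1 h) P) : √(Real.pi * ∫ x in (0 : ℝ)..1, h x) ≤ P := by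
  have hhint : IntervalIntegrable h volume 0 1 :=
    anti_int hanti fun x hx => ⟨(h01 x hx).1, (h01 x hx).2.le⟩
  obtain ⟨G, hGsub, hG, hPG⟩ := hP
  obtain ⟨a, ha⟩ : ∃ a, a = ∫ x in (0 : ℝ)..1, h x := ⟨_, rfl⟩
  have ha0 : 0 ≤ a := by
    rw [ha]
    refine intervalIntegral.integral_nonneg_of_ae_restrict zero_le_one ?_
    have h1 : ∀ᵐ x ∂(volume : Measure ℝ), x ≠ 0 ∧ x ≠ 1 := by
      have e1 : ∀ᵐ x ∂(volume : Measure ℝ), x ≠ 0 := by rw [ae_iff]; simp
      have e2 : ∀ᵐ x ∂(volume : Measure ℝ), x ≠ 1 := by rw [ae_iff]; simp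
      filter_upwards [e1, e2] with x h1 h2 using ⟨h1, h2⟩
    refine (ae_restrict_iff' measurableSet_Icc).2 ?_
    filter_upwards [h1] with x hx hx2
    exact (h01 x ⟨lt_of_le_of_ne hx2.1 hx.1.symm, lt_of_le_of_ne hx2.2 hx.2⟩).1
  rw [← ha]
  rcases ha0.eq_or_lt with h0 | hapos
  · rw [← h0, mul_zero, Real.sqrt_zero]
    obtain ⟨x, hx, -, -⟩ := meets hG (a := 0) (b := 1) le_rfl one_pos le_rfl
    have := hPG 0 (fun _ => x) (fun _ => 0) (fun _ => 0) (fun _ _ => hx) (fun i hi => by omega)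
      (fun i hi => by omega)
    simpa using this
  -- main case
  obtain ⟨K, hK⟩ : ∃ K, K = √(Real.pi / a) := ⟨_, rfl⟩
  have hpi := Real.pi_pos
  have hKpos : 0 < K := by rw [hK]; positivity
  have hK2 : K ^ 2 = Real.pi / a := by rw [hK, Real.sq_sqrt (by positivity)]
  have hKa : √(Real.pi * a) = K * a := by
    rw [hK, Real.sqrt_eq_iff_mul_self_eq (by positivity) (by positivity)]
    have h1 := Real.mul_self_sqrt (show 0 ≤ Real.pi / a by positivity)
    symm
    calc √(Real.pi / a) * a * (√(Real.pi / a) * a) = (√(Real.pi / a) * √(Real.pi / a)) * (a * a) := by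
          ring
      _ = Real.pi * a := by rw [h1]; field_simp
  rw [hKa]
  refine le_of_forall_pos_le_add fun ε hε => ?_
  have hev : ∀ᶠ x in 𝓝[<] (1 : ℝ), h x < ε / 2 := hlim.eventually (gt_mem_nhds (by linarith))
  obtain ⟨b, hb, hbs⟩ := mem_nhdsLT_iff_exists_Ioo_subset.1 hev
  have hb1 : b < 1 := hb
  obtain ⟨M, hM⟩ := exists_nat_gt (max (10 * K / ε) (1 / (1 - b)))
  obtain ⟨N, hN⟩ : ∃ N, N = M + 1 := ⟨_, rfl⟩
  have hMN : (M : ℝ) ≤ N := by rw [hN]; push_cast; linarith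
  have hN1 : 10 * K / ε < N := ((le_max_left _ _).trans_lt hM).trans_le hMN
  have hN2 : 1 / (1 - b) < N := ((le_max_right _ _).trans_lt hM).trans_le hMN
  have hNpos : (0 : ℝ) < N := lt_trans (by positivity) hN1
  have hN1' : (0 : ℝ) < (N : ℝ) + 1 := by positivity
  obtain ⟨s, hs⟩ := grid hG (Y := 1) one_pos le_rfl N
  simp only [one_mul] at hs
  have hsG : ∀ i ≤ N, s i ∈ G := fun i hi => (hs i hi).1
  have hs01 : ∀ i ≤ N, s i ∈ Ioo (0 : ℝ) 1 := fun i hi => hGsub (hsG i hi)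
  have hlt : ∀ i < N, s i < s (i + 1) := by
    intro i hi
    have h1 := (hs i hi.le).2.2
    have h2 := (hs (i + 1) hi).2.1
    push_cast at h2
    exact h1.trans h2
  have hmesh : ∀ i < N, s (i + 1) - s i ≤ 2 / ((N : ℝ) + 1) := by
    intro i hi
    have h1 := (hs i hi.le).2.1
    have h2 := (hs (i + 1) hi).2.2
    push_cast at h2
    have : ((i : ℝ) + 1 + 1) / (N + 1) - i / (N + 1) = 2 / ((N : ℝ) + 1) := by
      rw [← sub_div]; congr 1; ring
    linarith
  have hmono : ∀ i ≤ N, s 0 ≤ s i := by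
    intro i hi
    induction i with
    | zero => exact le_rfl
    | succ i ih => exact (ih (by omega)).trans (hlt i (by omega)).le
  have hsub : ∀ x ∈ Icc (0 : ℝ) 1, ∀ y ∈ Icc (0 : ℝ) 1, x ≤ y →
      IntervalIntegrable h volume x y := by
    intro x hx y hy hxy
    refine hhint.mono_set ?_
    rw [uIcc_of_le hxy, uIcc_of_le zero_le_one]
    exact Icc_subset_Icc hx.1 hy.2
  -- the tail integral
  obtain ⟨W, hW⟩ : ∃ W : ℝ → ℝ, W = fun y => ∫ x in y..(1 : ℝ), h x := ⟨_, rfl⟩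
  have hae : ∀ {x y : ℝ}, x ∈ Icc (0 : ℝ) 1 → y ∈ Icc (0 : ℝ) 1 → x ≤ y →
      0 ≤ ∫ t in x..y, h t := by
    intro x y hx hy hxy
    have h1 : (∫ t in x..y, (0 : ℝ)) ≤ ∫ t in x..y, h t :=
      intervalIntegral.integral_mono_on_of_le_Ioo hxy (by simp) (hsub x hx y hy hxy)
        fun t ht => (h01 t ⟨hx.1.trans_lt ht.1, ht.2.trans_le hy.2⟩).1
    simpa using h1
  have hWmem : ∀ i ≤ N, W (s i) / a ∈ Icc (0 : ℝ) 1 := by
    intro i hi
    have h1 := hs01 i hi
    have h2 : 0 ≤ W (s i) := by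
      rw [hW]; exact hae ⟨h1.1.le, h1.2.le⟩ ⟨zero_le_one, le_rfl⟩ h1.2.le
    have h3 : W (s i) ≤ a := by
      rw [ha, ← intervalIntegral.integral_add_adjacent_intervals
        (hsub 0 ⟨le_rfl, zero_le_one⟩ (s i) ⟨h1.1.le, h1.2.le⟩ h1.1.le)
        (hsub (s i) ⟨h1.1.le, h1.2.le⟩ 1 ⟨zero_le_one, le_rfl⟩ h1.2.le), hW]
      have := hae ⟨le_rfl, zero_le_one⟩ ⟨h1.1.le, h1.2.le⟩ h1.1.le
      simp only
      linarith
    exact ⟨by positivity, by rw [div_le_one hapos]; exact h3⟩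
  have hex : ∀ i : ℕ, ∃ φ, i ≤ N → φ ∈ Icc (0 : ℝ) (Real.pi / 2) ∧
      gg φ = Real.pi / 2 * (W (s i) / a) := by
    intro i
    by_cases hi : i ≤ N
    · obtain ⟨φ, h1, h2⟩ := exists_angle (hWmem i hi)
      exact ⟨φ, fun _ => ⟨h1, h2⟩⟩
    · exact ⟨0, fun h => absurd h hi⟩
  choose φ hφ using hex
  have hp := hPG N s (fun i => Real.sin (φ i)) (fun i => Real.cos (φ i)) hsG hlt
    (fun i hi => ⟨sin_nonneg' (hφ i hi.le).1, cos_nonneg' (hφ i hi.le).1,
      (Real.sin_sq_add_cos_sq _).le⟩)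
  -- the steps
  have hstep : ∀ i < M, K * (h (s (i + 1)) * (s (i + 1) - s i)) ≤
      Real.sin (φ i) * (∫ t in (s i)..(s (i + 1)), q1 h t) +
        (Real.cos (φ (i + 1)) - Real.cos (φ i)) * h (s (i + 1)) := by
    intro i hi
    have hiN : i < N := by omega
    have hp0 := hs01 i hiN.le
    have hp1 := hs01 (i + 1) hiN
    have hy0 := (h01 _ hp1).1
    have hsin := sin_nonneg' (hφ i hiN.le).1
    rcases hy0.eq_or_lt with h0 | hpos
    · rw [← h0]
      have : 0 ≤ ∫ t in (s i)..(s (i + 1)), q1 h t :=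
        intervalIntegral.integral_nonneg (hlt i hiN).le fun x _ => q1_nonneg h x
      have := mul_nonneg hsin this
      simp
      exact this
    · have hq : ∫ t in (s i)..(s (i + 1)), q1 h t = s (i + 1) - s i := by
        refine int_q1 (hlt i hiN).le fun x hx => ?_
        have hx01 : x ∈ Ioo (0 : ℝ) 1 := ⟨hp0.1.trans_le hx.1, hx.2.trans_lt hp1.2⟩
        exact ⟨hpos.trans_le (hanti hx01 hp1 hx.2), (h01 x hx01).2⟩
      rw [hq]
      have hΔ : 0 < s (i + 1) - s i := sub_pos.2 (hlt i hiN)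
      have hWdiff : h (s (i + 1)) * (s (i + 1) - s i) ≤ W (s i) - W (s (i + 1)) := by
        have h1 : W (s i) - W (s (i + 1)) = ∫ t in (s i)..(s (i + 1)), h t := by
          rw [hW]
          simp only
          rw [← intervalIntegral.integral_add_adjacent_intervals
            (hsub (s i) ⟨hp0.1.le, hp0.2.le⟩ (s (i + 1)) ⟨hp1.1.le, hp1.2.le⟩ (hlt i hiN).le)
            (hsub (s (i + 1)) ⟨hp1.1.le, hp1.2.le⟩ 1 ⟨zero_le_one, le_rfl⟩ hp1.2.le)]
          ring
        rw [h1]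
        calc h (s (i + 1)) * (s (i + 1) - s i) = ∫ t in (s i)..(s (i + 1)), h (s (i + 1)) := by
              simp [mul_comm]
          _ ≤ _ := by
            refine intervalIntegral.integral_mono_on (hlt i hiN).le (by simp)
              (hsub (s i) ⟨hp0.1.le, hp0.2.le⟩ (s (i + 1)) ⟨hp1.1.le, hp1.2.le⟩ (hlt i hiN).le)
              fun x hx => ?_
            exact hanti ⟨hp0.1.trans_le hx.1, hx.2.trans_lt hp1.2⟩ hp1 hx.2
      have htan := tangent (hφ i hiN.le).1 (hφ (i + 1) hiN).1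
      rw [(hφ i hiN.le).2, (hφ (i + 1) hiN).2] at htan
      have hyΔ : 0 < h (s (i + 1)) * (s (i + 1) - s i) := mul_pos hpos hΔ
      have hC : K ^ 2 / 2 * (h (s (i + 1)) * (s (i + 1) - s i)) ≤
          2 * Real.sin (φ i) * (Real.cos (φ (i + 1)) - Real.cos (φ i)) := by
        refine le_trans ?_ htan
        have e1 : Real.pi / 2 * (W (s i) / a) - Real.pi / 2 * (W (s (i + 1)) / a) =
            K ^ 2 / 2 * (W (s i) - W (s (i + 1))) := by
          rw [hK2]; ring
        rw [e1]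
        exact mul_le_mul_of_nonneg_left hWdiff (by positivity)
      have hrhs : 0 < 2 * Real.sin (φ i) * (Real.cos (φ (i + 1)) - Real.cos (φ i)) :=
        lt_of_lt_of_le (by positivity) hC
      have hsinpos : 0 < Real.sin (φ i) := by
        rcases hsin.eq_or_lt with h1 | h1
        · rw [← h1] at hrhs
          simp at hrhs
        · exact h1
      have hCpos : 0 ≤ Real.cos (φ (i + 1)) - Real.cos (φ i) := by
        by_contra hneg
        push Not at hneg
        have : 2 * Real.sin (φ i) * (Real.cos (φ (i + 1)) - Real.cos (φ i)) < 0 :=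
          mul_neg_of_pos_of_neg (by linarith) hneg
        linarith
      exact amgm hsin hΔ.le hy0 hC (fun h => absurd h hsinpos.ne') (Or.inl hCpos)
  have hws := wsum M s φ (fun i => h (s i)) (fun i => ∫ t in (s i)..(s (i + 1)), q1 h t) K
    (fun i hi => (h01 _ (hs01 i (by omega))).1) (fun i hi => (hφ i (by omega)).1) hstep
  have hNM : N = M + 1 := hN
  rw [hNM] at hp
  have hlow := lower_sum h s (2 / ((N : ℝ) + 1)) M (fun i hi => (hlt i (by omega)).le)
    (fun i hi => hmesh i (by omega))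
    (fun i hi => hanti.mono fun x hx =>
      ⟨(hs01 i (by omega)).1.trans_le hx.1, hx.2.trans_lt (hs01 (i + 1) (by omega)).2⟩)
    (fun i hi => hsub _ ⟨(hs01 0 (Nat.zero_le _)).1.le, (hs01 0 (Nat.zero_le _)).2.le⟩ _
      ⟨(hs01 i (by omega)).1.le, (hs01 i (by omega)).2.le⟩ (hmono i (by omega)))
  have i2 := int_sub (f := h) (hs01 0 (Nat.zero_le _)).1.le (hmono M (by omega))
    (hs01 M (by omega)).2.le hhint (fun x hx => (h01 x hx).2.le)
  rw [← ha] at i2
  have hs0 : s 0 < 1 / ((N : ℝ) + 1) := by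
    have := (hs 0 (Nat.zero_le _)).2.2
    simpa using this
  have hsM : 1 - s M < 2 / ((N : ℝ) + 1) := by
    have h1 := (hs M (by omega)).2.1
    have h3 : (N : ℝ) = M + 1 := by rw [hN]; push_cast; ring
    have h2 : (1 : ℝ) - M / (N + 1) = 2 / (N + 1) := by
      rw [h3]; field_simp; ring
    linarith
  have hsN : 1 - s N < 1 / ((N : ℝ) + 1) := by
    have h1 := (hs N le_rfl).2.1
    have h2 : (1 : ℝ) - N / (N + 1) = 1 / (N + 1) := by field_simp; ring
    linarith
  have hbN : h (s N) < ε / 2 := by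
    apply hbs
    refine ⟨?_, (hs01 N le_rfl).2⟩
    have h1 : 1 / ((N : ℝ) + 1) < 1 - b := by
      rw [div_lt_iff₀ hN1']
      rw [div_lt_iff₀ (by linarith)] at hN2
      nlinarith
    linarith
  have hdiff1 : h (s 0) - h (s M) ≤ 1 := by
    have h1 := (h01 _ (hs01 0 (Nat.zero_le _))).2
    have h2 := (h01 _ (hs01 M (by omega))).1
    linarith
  have e7 : 2 / ((N : ℝ) + 1) * (h (s 0) - h (s M)) ≤ 2 / ((N : ℝ) + 1) := by
    have : (0 : ℝ) ≤ 2 / ((N : ℝ) + 1) := by positivity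
    nlinarith
  have e8 : a - 5 / ((N : ℝ) + 1) ≤ ∑ i ∈ Finset.range M, h (s (i + 1)) * (s (i + 1) - s i) := by
    have e9 : (5 : ℝ) / (N + 1) = 1 / (N + 1) + 2 / (N + 1) + 2 / (N + 1) := by ring
    linarith
  have e10 := mul_le_mul_of_nonneg_left e8 hKpos.le
  have e11 : K * (5 / ((N : ℝ) + 1)) < ε / 2 := by
    have : K * (5 / ((N : ℝ) + 1)) = (5 * K) / (N + 1) := by ring
    rw [this, div_lt_iff₀ hN1']
    rw [div_lt_iff₀ hε] at hN1
    nlinarith
  have e12 : Real.cos (φ M) * h (s (M + 1)) ≤ ε / 2 := by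
    have h1 := Real.cos_le_one (φ M)
    have h2 := cos_nonneg' (hφ M (by omega)).1
    rw [← hNM]
    have h3 := (h01 _ (hs01 N le_rfl)).1
    nlinarith
  have e13 : 0 ≤ Real.sin (φ M) * ∫ t in (s M)..(s (M + 1)), q1 h t :=
    mul_nonneg (sin_nonneg' (hφ M (by omega)).1)
      (intervalIntegral.integral_nonneg (hlt M (by omega)).le fun x _ => q1_nonneg h x)
  have e14 : K * (a - 5 / ((N : ℝ) + 1)) = K * a - K * (5 / ((N : ℝ) + 1)) := by ring
  rw [e14] at e10
  linarith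

end P232
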