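import Vale.Agent.P232.Slicing
import Vale.Agent.P232.Calib
import Vale.Agent.P232.WTrick

/-!
# P232: planar perimeter bounds, types Q, S, L2, L3.
-/

open MeasureTheory Set Filter Topology
open scoped ENNReal ContDiff

namespace P232

namespace PlAux

theorem sec_sub {S : Set (ℝ × ℝ)} (hS : Low2 S) (x : ℝ) : {y | (x, y) ∈ S} ⊆ Ioo 0 1 :=
  fun _ hy => (hS.1 hy).2

theorem hgt_nonneg (S : Set (ℝ × ℝ)) (x : ℝ) : 0 ≤ hgt S x := ENNReal.toReal_nonneg

theorem vol_sec {S : Set (ℝ × ℝ)} (hS : Low2 S) (x : ℝ) : volume {y | (x, y) ∈ S} ≤ 1 :=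
  (measure_mono (sec_sub hS x)).trans (by simp)

theorem vol_sec_ne {S : Set (ℝ × ℝ)} (hS : Low2 S) (x : ℝ) : volume {y | (x, y) ∈ S} ≠ ⊤ :=
  ((vol_sec hS x).trans_lt ENNReal.one_lt_top).ne

theorem hgt_le_one {S : Set (ℝ × ℝ)} (hS : Low2 S) (x : ℝ) : hgt S x ≤ 1 := by
  have := ENNReal.toReal_mono ENNReal.one_ne_top (vol_sec hS x)
  simpa [hgt] using this

theorem mem_down {S : Set (ℝ × ℝ)} (hS : Low2 S) {x y y' : ℝ} (h : (x, y) ∈ S) (h0 : 0 < y')
    (h1 : y' ≤ y) : (x, y') ∈ S :=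
  hS.2 _ h _ ⟨(hS.1 h).1, h0, h1.trans_lt (hS.1 h).2.2⟩ ⟨le_rfl, h1⟩

theorem mem_left {S : Set (ℝ × ℝ)} (hS : Low2 S) {x y x' : ℝ} (h : (x, y) ∈ S) (h0 : 0 < x')
    (h1 : x' ≤ x) : (x', y) ∈ S :=
  hS.2 _ h _ ⟨⟨h0, h1.trans_lt (hS.1 h).1.2⟩, (hS.1 h).2⟩ ⟨h1, le_rfl⟩

theorem mem_iff {S : Set (ℝ × ℝ)} (ho : IsOpen S) (hS : Low2 S) (x y : ℝ) :
    (x, y) ∈ S ↔ 0 < y ∧ y < hgt S x := by
  constructor
  · intro h
    have hy := (hS.1 h).2
    refine ⟨hy.1, ?_⟩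
    have hop : IsOpen {y | (x, y) ∈ S} := ho.preimage (by fun_prop)
    obtain ⟨ε, hε, hball⟩ := Metric.isOpen_iff.1 hop y h
    have h2 : (x, y + ε / 2) ∈ S := by
      apply hball
      rw [Metric.mem_ball, Real.dist_eq]
      rw [show y + ε / 2 - y = ε / 2 by ring, abs_of_pos (by positivity)]
      linarith
    have hsub : Ioc 0 (y + ε / 2) ⊆ {y | (x, y) ∈ S} := fun z hz => mem_down hS h2 hz.1 hz.2
    have h3 := ENNReal.toReal_mono (vol_sec_ne hS x) (measure_mono hsub)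
    rw [Real.volume_Ioc, ENNReal.toReal_ofReal (by linarith [hy.1])] at h3
    unfold hgt
    linarith
  · rintro ⟨h0, h1⟩
    by_contra hcon
    have hsub : {y | (x, y) ∈ S} ⊆ Ioc 0 y := by
      intro z hz
      refine ⟨(hS.1 hz).2.1, ?_⟩
      by_contra h2
      exact hcon (mem_down hS hz h0 (not_le.1 h2).le)
    have h3 := ENNReal.toReal_mono (by simp) (measure_mono hsub (μ := volume))
    rw [Real.volume_Ioc, ENNReal.toReal_ofReal (by linarith)] at h3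
    unfold hgt at h1
    linarith

theorem hgt_anti {S : Set (ℝ × ℝ)} (hS : Low2 S) : AntitoneOn (hgt S) (Ioo 0 1) := by
  intro x hx x' _ hxx
  apply ENNReal.toReal_mono (vol_sec_ne hS x)
  apply measure_mono
  intro y hy
  exact mem_left hS hy hx.1 hxx

theorem hgt_int {S : Set (ℝ × ℝ)} (hSm : MeasurableSet S) (hS : Low2 S) :
    ∫ x in (0 : ℝ)..1, hgt S x = (volume S).toReal := by
  have hm : Measurable fun x => volume {y | (x, y) ∈ S} := measurable_measure_prodMk_left hSm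
  rw [intervalIntegral.integral_of_le zero_le_one]
  unfold hgt
  rw [integral_toReal hm.aemeasurable
    (Eventually.of_forall fun x => (vol_sec_ne hS x).lt_top)]
  congr 1
  rw [Measure.volume_eq_prod, Measure.prod_apply hSm, ← lintegral_indicator measurableSet_Ioc]
  congr 1
  ext x
  by_cases hx : x ∈ Ioc (0 : ℝ) 1
  · rw [indicator_of_mem hx]
    rfl
  · rw [indicator_of_notMem hx]
    have he : Prod.mk x ⁻¹' S = ∅ := by
      apply eq_empty_of_forall_notMem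
      intro y hy
      have := (hS.1 hy).1
      exact hx ⟨this.1, this.2.le⟩
    rw [he, measure_empty]

/-- limit at the right end -/
theorem lim_left (h : ℝ → ℝ) (ha : AntitoneOn h (Ioo 0 1)) (hb : ∀ x ∈ Ioo (0 : ℝ) 1, 0 ≤ h x) :
    ∃ w, Tendsto h (𝓝[<] 1) (𝓝 w) ∧ (∀ x ∈ Ioo (0 : ℝ) 1, w ≤ h x) ∧
      ∀ y, (∀ x ∈ Ioo (0 : ℝ) 1, y ≤ h x) → y ≤ w := by
  have hne : (Ioo (0 : ℝ) 1).Nonempty := ⟨1 / 2, by norm_num, by norm_num⟩
  have hbd : BddBelow (h '' Ioo 0 1) := ⟨0, by rintro _ ⟨x, hx, rfl⟩; exact hb x hx⟩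
  refine ⟨sInf (h '' Ioo 0 1), ha.tendsto_nhdsWithin_Ioo_left hne hbd,
    fun x hx => csInf_le hbd (mem_image_of_mem _ hx), fun y hy => ?_⟩
  apply le_csInf (hne.image _)
  rintro _ ⟨x, hx, rfl⟩
  exact hy x hx

theorem part_refl (h : ℝ → ℝ) (P : ℝ) (hP : PartIneq h (q1 h) P) :
    PartIneq (fun x => 1 - h (1 - x)) (q1 (fun x => 1 - h (1 - x))) P := by
  obtain ⟨G, hG, hG0, H⟩ := hP
  have hq : ∀ t, q1 (fun x => 1 - h (1 - x)) t = q1 h (1 - t) := by
    intro t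
    unfold q1
    congr 1
    apply propext
    constructor
    · rintro ⟨h1, h2⟩
      exact ⟨by linarith, by linarith⟩
    · rintro ⟨h1, h2⟩
      exact ⟨by linarith, by linarith⟩
  refine ⟨(fun x => 1 - x) ⁻¹' G, ?_, ?_, ?_⟩
  · intro x hx
    have := hG hx
    exact ⟨by linarith [this.2], by linarith [this.1]⟩
  · have he : Ioo (0 : ℝ) 1 \ (fun x => 1 - x) ⁻¹' G = (fun x => 1 - x) ⁻¹' (Ioo 0 1 \ G) := by
      ext x
      simp only [Set.mem_sdiff, mem_Ioo, mem_preimage]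
      constructor
      · rintro ⟨h1, h2⟩
        exact ⟨⟨by linarith [h1.2], by linarith [h1.1]⟩, h2⟩
      · rintro ⟨h1, h2⟩
        exact ⟨⟨by linarith [h1.2], by linarith [h1.1]⟩, h2⟩
    rw [he]
    exact (Measure.measurePreserving_sub_left volume (1 : ℝ)).quasiMeasurePreserving.preimage_null hG0
  · intro N s c d hs hs' hcd
    have key := H N (fun i => 1 - s (N - i)) (fun i => c (N - 1 - i)) (fun i => d (N - 1 - i))
      (fun i hi => hs _ (Nat.sub_le _ _)) ?_ ?_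
    · rw [← Finset.sum_range_reflect]
      refine le_trans (le_of_eq ?_) key
      apply Finset.sum_congr rfl
      intro i hi
      have hi' := Finset.mem_range.1 hi
      have e1 : N - i = N - 1 - i + 1 := by omega
      have e2 : N - (i + 1) = N - 1 - i := by omega
      simp only [hq, e1, e2]
      rw [intervalIntegral.integral_comp_sub_left]
      ring
    · intro i hi
      have e1 : N - i = N - 1 - i + 1 := by omega
      have e2 : N - (i + 1) = N - 1 - i := by omega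
      have := hs' (N - 1 - i) (by omega)
      simp only [e1, e2]
      linarith
    · intro i hi
      exact hcd _ (by omega)

end PlAux

theorem lb_swap (S : Set (ℝ × ℝ)) (c : ℝ) (h : LB2 (Prod.swap ⁻¹' S) c) : LB2 S c := by
  intro G hG hG01 hGS
  have hmp : MeasurePreserving (Prod.swap : ℝ × ℝ → ℝ × ℝ) (volume.restrict Q2)
      (volume.restrict Q2) := by
    have h1 : MeasurePreserving (Prod.swap : ℝ × ℝ → ℝ × ℝ) volume volume :=
      Measure.measurePreserving_swap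
    have h2 := h1.restrict_preimage SlAux.measQ2
    have h3 : (Prod.swap : ℝ × ℝ → ℝ × ℝ) ⁻¹' Q2 = Q2 := by
      ext p
      simp only [Q2, mem_preimage, mem_prod, Prod.fst_swap, Prod.snd_swap]
      tauto
    rwa [h3] at h2
  have hsw : ContDiff ℝ 1 (Prod.swap : ℝ × ℝ → ℝ × ℝ) := contDiff_snd.prodMk contDiff_fst
  have key := h (fun n => G n ∘ Prod.swap) (fun n => (hG n).comp hsw)
    (fun n p => hG01 n _) ?_
  · refine key.trans (le_of_eq ?_)
    congr 1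
    ext n
    have hgn : ∀ p : ℝ × ℝ, gn2 (G n ∘ Prod.swap) p = gn2 (G n) p.swap := by
      intro p
      have hd : HasFDerivAt (G n) (fderiv ℝ (G n) p.swap) p.swap :=
        ((hG n).differentiable (by norm_num) _).hasFDerivAt
      have hs : HasFDerivAt (Prod.swap : ℝ × ℝ → ℝ × ℝ)
          ((ContinuousLinearMap.snd ℝ ℝ ℝ).prod (ContinuousLinearMap.fst ℝ ℝ ℝ)) p :=
        HasFDerivAt.prodMk hasFDerivAt_snd hasFDerivAt_fst
      have hc := (hd.comp p hs).fderiv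
      unfold gn2
      rw [hc]
      simp only [ContinuousLinearMap.comp_apply, ContinuousLinearMap.prod_apply,
        ContinuousLinearMap.coe_snd', ContinuousLinearMap.coe_fst']
      rw [add_comm]
    simp_rw [hgn]
    exact hmp.lintegral_comp_emb MeasurableEquiv.prodComm.measurableEmbedding
      (fun p => ENNReal.ofReal (gn2 (G n) p))
  · have := hmp.quasiMeasurePreserving.ae hGS
    filter_upwards [this] with p hp
    exact hp

namespace PlAux

theorem open_swap {S : Set (ℝ × ℝ)} (ho : IsOpen S) : IsOpen (Prod.swap ⁻¹' S) :=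
  ho.preimage continuous_swap

theorem low_swap {S : Set (ℝ × ℝ)} (hS : Low2 S) : Low2 (Prod.swap ⁻¹' S) := by
  refine ⟨fun p hp => ⟨(hS.1 hp).2, (hS.1 hp).1⟩, fun p hp q hq hqp => ?_⟩
  exact hS.2 _ hp _ ⟨hq.2, hq.1⟩ ⟨hqp.2, hqp.1⟩

theorem vol_swap {S : Set (ℝ × ℝ)} (ho : IsOpen S) :
    volume (Prod.swap ⁻¹' S) = volume S := by
  have h1 : MeasurePreserving (Prod.swap : ℝ × ℝ → ℝ × ℝ) volume volume :=
    Measure.measurePreserving_swap
  exact h1.measure_preimage ho.measurableSet.nullMeasurableSet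

theorem lim_right (h : ℝ → ℝ) (x0 : ℝ) (hx0 : x0 ∈ Ioo (0 : ℝ) 1) (c : ℝ)
    (hc : ∀ x ∈ Ioc 0 x0, h x = c) : Tendsto h (𝓝[>] 0) (𝓝 c) := by
  apply tendsto_const_nhds.congr'
  filter_upwards [Ioc_mem_nhdsGT hx0.1] with x hx
  exact (hc x hx).symm

/-- facts about `h` from the type -/
theorem conX_pos {S : Set (ℝ × ℝ)} (ho : IsOpen S) (hS : Low2 S) (hx : ConX S) :
    ∃ y ∈ Ioo (0 : ℝ) 1, ∀ x ∈ Ioo (0 : ℝ) 1, y < hgt S x := by
  obtain ⟨y, hy, h⟩ := hx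
  exact ⟨y, hy, fun x hx' => ((mem_iff ho hS x y).1 (h x hx')).2⟩

theorem sec_one {S : Set (ℝ × ℝ)} (ho : IsOpen S) (hS : Low2 S) (x : ℝ) :
    (∀ y ∈ Ioo (0 : ℝ) 1, (x, y) ∈ S) ↔ 1 ≤ hgt S x := by
  constructor
  · intro h
    by_contra hcon
    push Not at hcon
    have h1 := hgt_nonneg S x
    have h2 := (mem_iff ho hS x ((hgt S x + 1) / 2)).1 (h _ ⟨by linarith, by linarith⟩)
    linarith [h2.2]
  · intro h y hy
    exact (mem_iff ho hS x y).2 ⟨hy.1, hy.2.trans_le h⟩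

theorem not_conY {S : Set (ℝ × ℝ)} (ho : IsOpen S) (hS : Low2 S) (hy : ¬ ConY S) (x : ℝ)
    (hx : x ∈ Ioo (0 : ℝ) 1) : hgt S x < 1 := by
  by_contra hcon
  push Not at hcon
  exact hy ⟨x, hx, (sec_one ho hS x).2 hcon⟩

theorem endX_lim {S : Set (ℝ × ℝ)} (ho : IsOpen S) (hS : Low2 S) (hx : ConX S) (w : ℝ)
    (hw : EndX S w) : ∃ w', Tendsto (hgt S) (𝓝[<] 1) (𝓝 w') ∧ w' ≤ w := by
  obtain ⟨w', h1, h2, h3⟩ := lim_left (hgt S) (hgt_anti hS) (fun x _ => hgt_nonneg S x)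
  refine ⟨w', h1, ?_⟩
  obtain ⟨y, hy, h4⟩ := conX_pos ho hS hx
  have h5 : y ≤ w' := h3 y fun x hx => (h4 x hx).le
  have h6 : w' ≤ 1 := (h2 (1 / 2) ⟨by norm_num, by norm_num⟩).trans (hgt_le_one hS _)
  by_contra hcon
  push Not at hcon
  obtain ⟨z, hz1, hz2⟩ := exists_between hcon
  have hyw : y ≤ w := hw y hy (fun x hx => (mem_iff ho hS x y).2 ⟨hy.1, h4 x hx⟩)
  have hz : z ≤ w := hw z ⟨by linarith [hy.1], by linarith⟩
    (fun x hx => (mem_iff ho hS x z).2 ⟨by linarith [hy.1], hz2.trans_le (h2 x hx)⟩)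
  linarith

theorem endX_pos {S : Set (ℝ × ℝ)} (hx : ConX S) (w : ℝ) (hw : EndX S w) : 0 < w := by
  obtain ⟨y, hy, h⟩ := hx
  exact hy.1.trans_le (hw y hy h)

end PlAux

open PlAux

theorem lbQ (S : Set (ℝ × ℝ)) (ho : IsOpen S) (hS : Low2 S) (hx : ¬ ConX S) (hy : ¬ ConY S) :
    LB2 S (√(Real.pi * (volume S).toReal)) := by
  apply slice2 S ho.measurableSet hS
  intro P _ hP
  have hlim : Tendsto (hgt S) (𝓝[<] 1) (𝓝 0) := by
    obtain ⟨w, h1, h2, _⟩ := lim_left (hgt S) (hgt_anti hS) (fun x _ => hgt_nonneg S x)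
    have hw0 : 0 ≤ w := ge_of_tendsto h1 (Eventually.of_forall fun x => hgt_nonneg S x)
    have hw1 : w ≤ 1 := (h2 (1 / 2) ⟨by norm_num, by norm_num⟩).trans (hgt_le_one hS _)
    rcases hw0.eq_or_lt with h | h
    · rwa [← h] at h1
    · exfalso
      apply hx
      exact ⟨w / 2, ⟨by linarith, by linarith⟩, fun x hx =>
        (mem_iff ho hS x _).2 ⟨by linarith, by linarith [h2 x hx]⟩⟩
  have := wtrick (hgt S) (hgt_anti hS)
    (fun x hx => ⟨hgt_nonneg S x, not_conY ho hS hy x hx⟩) hlim P hP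
  rwa [hgt_int ho.measurableSet hS] at this

theorem lbSX (S : Set (ℝ × ℝ)) (ho : IsOpen S) (hS : Low2 S) (hx : ConX S) (hy : ¬ ConY S)
    (w : ℝ) (hw : EndX S w) (k : ℝ) (hk : k ∈ Icc (0 : ℝ) 1) :
    LB2 S (mk k + k * ((volume S).toReal - w)) := by
  apply slice2 S ho.measurableSet hS
  intro P _ hP
  obtain ⟨w', h1, h2⟩ := endX_lim ho hS hx w hw
  obtain ⟨y, hy0, h4⟩ := conX_pos ho hS hx
  have := kcal (hgt S) (hgt_anti hS)
    (fun x hx => ⟨hy0.1.trans (h4 x hx), not_conY ho hS hy x hx⟩) w' h1 k hk P hP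
  rw [hgt_int ho.measurableSet hS] at this
  have h5 : k * (w' - w) ≤ 0 := mul_nonpos_of_nonneg_of_nonpos hk.1 (by linarith)
  linarith

theorem lbSY (S : Set (ℝ × ℝ)) (ho : IsOpen S) (hS : Low2 S) (hx : ¬ ConX S) (hy : ConY S)
    (w : ℝ) (hw : EndY S w) (k : ℝ) (hk : k ∈ Icc (0 : ℝ) 1) :
    LB2 S (mk k + k * ((volume S).toReal - w)) := by
  apply lb_swap
  have := lbSX (Prod.swap ⁻¹' S) (open_swap ho) (low_swap hS) hy hx w hw k hk
  rwa [vol_swap ho] at this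

theorem lbL2 (S : Set (ℝ × ℝ)) (ho : IsOpen S) (hS : Low2 S) (hx : ConX S) (hy : ConY S)
    (τ : ℝ) (hτ : τ < 1) (h1 : EndX S τ) (h2 : EndY S τ) : LB2 S (√2 * (1 - τ)) := by
  apply slice2 S ho.measurableSet hS
  intro P _ hP
  obtain ⟨w', h3, h4⟩ := endX_lim ho hS hx τ h1
  obtain ⟨y, hy0, h5⟩ := conX_pos ho hS hx
  obtain ⟨x0, hx0, h6⟩ := hy
  have h7 : 1 ≤ hgt S x0 := (sec_one ho hS x0).1 h6
  have hlim0 : Tendsto (hgt S) (𝓝[>] 0) (𝓝 1) := by
    apply lim_right _ x0 hx0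
    intro x hx
    apply le_antisymm (hgt_le_one hS x)
    exact h7.trans (hgt_anti hS ⟨hx.1, hx.2.trans_lt hx0.2⟩ hx0 hx.2)
  have hτ0 := endX_pos hx τ h1
  have := constcal (hgt S) (hgt_anti hS) (fun x _ => ⟨hgt_nonneg S x, hgt_le_one hS x⟩) τ 1
    hτ0.le hτ.le le_rfl ?_ 1 w' hlim0 h3 (√2 / 2) (√2 / 2) (by positivity) (by positivity) ?_ P hP
  · have hs : 0 ≤ √2 / 2 * (τ - w') := mul_nonneg (by positivity) (by linarith)
    nlinarith [this, hs]
  · intro x hx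
    have hx' : x ∈ Ioo (0 : ℝ) 1 := ⟨hτ0.trans hx.1, hx.2⟩
    refine ⟨hy0.1.trans (h5 x hx'), ?_⟩
    by_contra hcon
    push Not at hcon
    have := h2 x hx' ((sec_one ho hS x).2 hcon)
    linarith [hx.1]
  · rw [div_pow, Real.sq_sqrt (by norm_num)]
    norm_num

theorem lbL3X (S : Set (ℝ × ℝ)) (ho : IsOpen S) (hS : Low2 S) (hx : ConX S) (hy : ConY S)
    (τ : ℝ) (hτ : τ < 1) (h1 : EndX S τ) : LB2 S (1 - τ) := by
  apply slice2 S ho.measurableSet hS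
  intro P _ hP
  obtain ⟨w', h3, h4⟩ := endX_lim ho hS hx τ h1
  obtain ⟨x0, hx0, h6⟩ := hy
  have h7 : 1 ≤ hgt S x0 := (sec_one ho hS x0).1 h6
  have hlim0 : Tendsto (hgt S) (𝓝[>] 0) (𝓝 1) := by
    apply lim_right _ x0 hx0
    intro x hx
    apply le_antisymm (hgt_le_one hS x)
    exact h7.trans (hgt_anti hS ⟨hx.1, hx.2.trans_lt hx0.2⟩ hx0 hx.2)
  have := constcal (hgt S) (hgt_anti hS) (fun x _ => ⟨hgt_nonneg S x, hgt_le_one hS x⟩) 1 1
    zero_le_one le_rfl le_rfl (fun x hx => absurd (hx.1.trans hx.2) (lt_irrefl _)) 1 w' hlim0 h3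
    0 1 le_rfl zero_le_one (by norm_num) P hP
  linarith

theorem lbL3Y (S : Set (ℝ × ℝ)) (ho : IsOpen S) (hS : Low2 S) (hx : ConX S) (hy : ConY S)
    (τ : ℝ) (hτ : τ < 1) (h1 : EndY S τ) : LB2 S (1 - τ) :=
  lb_swap _ _ (lbL3X (Prod.swap ⁻¹' S) (open_swap ho) (low_swap hS) hy hx τ hτ h1)

end P232
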