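import Vale.Agent.P232.Planar

/-!
# P232: planar perimeter bounds, type L (bounds L0 and L1).
-/

open MeasureTheory Set Filter Topology
open scoped ENNReal ContDiff

namespace P232

namespace PlAux

/-- the reflected complementary height -/
noncomputable def hc (S : Set (ℝ × ℝ)) (x : ℝ) : ℝ := 1 - hgt S (1 - x)

theorem hc_anti {S : Set (ℝ × ℝ)} (hS : Low2 S) : AntitoneOn (hc S) (Ioo 0 1) := by
  intro x hx x' hx' hxx
  have := hgt_anti hS (show 1 - x' ∈ Ioo (0 : ℝ) 1 from ⟨by linarith [hx'.2], by linarith [hx'.1]⟩)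
    (show 1 - x ∈ Ioo (0 : ℝ) 1 from ⟨by linarith [hx.2], by linarith [hx.1]⟩) (by linarith)
  unfold hc
  linarith

theorem hc_int {S : Set (ℝ × ℝ)} (hSm : MeasurableSet S) (hS : Low2 S) :
    ∫ x in (0 : ℝ)..1, hc S x = 1 - (volume S).toReal := by
  have hm : Measurable (hgt S) := SlAux.hgt_meas S hSm
  have hi : IntervalIntegrable (hgt S) volume 0 1 := by
    rw [intervalIntegrable_iff_integrableOn_Ioc_of_le zero_le_one]
    apply Measure.integrableOn_of_bounded (M := 1) (by simp) hm.aestronglyMeasurable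
    apply Eventually.of_forall
    intro x
    rw [Real.norm_eq_abs, abs_of_nonneg (hgt_nonneg S x)]
    exact hgt_le_one hS x
  unfold hc
  rw [intervalIntegral.integral_comp_sub_left (fun x => 1 - hgt S x) 1]
  simp only [sub_self, sub_zero]
  rw [intervalIntegral.integral_sub (by simp) hi, hgt_int hSm hS]
  simp

theorem part_hc {S : Set (ℝ × ℝ)} {P : ℝ} (hP : PartIneq (hgt S) (q1 (hgt S)) P) :
    PartIneq (hc S) (q1 (hc S)) P := part_refl (hgt S) P hP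

end PlAux

open PlAux

theorem lbL0 (S : Set (ℝ × ℝ)) (ho : IsOpen S) (hS : Low2 S) (hx : ConX S) (hy : ConY S) :
    LB2 S (√(Real.pi * (1 - (volume S).toReal))) := by
  apply slice2 S ho.measurableSet hS
  intro P _ hP
  obtain ⟨y, hy0, h5⟩ := conX_pos ho hS hx
  obtain ⟨x0, hx0, h6⟩ := hy
  have h7 : 1 ≤ hgt S x0 := (sec_one ho hS x0).1 h6
  have hlim : Tendsto (hc S) (𝓝[<] 1) (𝓝 0) := by
    apply tendsto_const_nhds.congr'
    have h8 : 1 - x0 < 1 := by linarith [hx0.1]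
    filter_upwards [Ioo_mem_nhdsLT h8] with x hx
    unfold hc
    have h9 : hgt S (1 - x) = 1 := by
      apply le_antisymm (hgt_le_one hS _)
      exact h7.trans (hgt_anti hS ⟨by linarith [hx.2], by linarith [hx.1, hx0.2]⟩ hx0
        (by linarith [hx.1]))
    rw [h9]
    ring
  have := wtrick (hc S) (hc_anti hS) ?_ hlim P (part_hc hP)
  · rwa [hc_int ho.measurableSet hS] at this
  · intro x hx
    unfold hc
    have h8 := h5 (1 - x) ⟨by linarith [hx.2], by linarith [hx.1]⟩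
    exact ⟨by linarith [hgt_le_one hS (1 - x)], by linarith [hy0.1]⟩

theorem lbL1Y (S : Set (ℝ × ℝ)) (ho : IsOpen S) (hS : Low2 S) (hx : ConX S) (hy : ConY S)
    (hnf : ∃ z ∈ Q2, z ∉ S) (η : ℝ)
    (hη : ∀ x ∈ Ioo (0 : ℝ) 1, x < η → ∀ y ∈ Ioo (0 : ℝ) 1, (x, y) ∈ S) :
    ∃ v, 0 < v ∧ v ≤ 1 - η ∧ LB2 S (Real.pi * v / 4 + (1 - (volume S).toReal) / v) := by
  obtain ⟨y, hy0, h5⟩ := conX_pos ho hS hx
  obtain ⟨x0, hx0, h6⟩ := hy
  have h7 : 1 ≤ hgt S x0 := (sec_one ho hS x0).1 h6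
  obtain ⟨z, hz, hzS⟩ := hnf
  -- `W` = set of abscissae with full height
  set W : Set ℝ := {x | x ∈ Ioo (0 : ℝ) 1 ∧ 1 ≤ hgt S x} with hW
  have hWne : W.Nonempty := ⟨x0, hx0, h7⟩
  have hWz : ∀ x ∈ W, x ≤ z.1 := by
    rintro x ⟨hx1, hx2⟩
    by_contra hcon
    push Not at hcon
    apply hzS
    have : (z.1, z.2) ∈ S := by
      rw [mem_iff ho hS]
      exact ⟨hz.2.1, hz.2.2.trans_le (hx2.trans (hgt_anti hS hz.1 hx1 hcon.le))⟩
    exact this
  have hWb : BddAbove W := ⟨z.1, fun x hx => hWz x hx⟩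
  set wy := sSup W with hwy
  have hwy0 : x0 ≤ wy := le_csSup hWb ⟨hx0, h7⟩
  have hwy1 : wy ≤ z.1 := csSup_le hWne hWz
  have hwη : η ≤ wy := by
    by_contra hcon
    push Not at hcon
    have h8 : wy < min η 1 := lt_min hcon (hwy1.trans_lt hz.1.2)
    obtain ⟨x, hx1, hx2⟩ := exists_between h8
    have hx3 : x ∈ Ioo (0 : ℝ) 1 := ⟨by linarith [hx0.1], hx2.trans_le (min_le_right _ _)⟩
    have h9 : x ∈ W := ⟨hx3, (sec_one ho hS x).1 (hη x hx3 (hx2.trans_le (min_le_left _ _)))⟩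
    linarith [le_csSup hWb h9]
  have hz11 := hz.1.2
  have hx00 := hx0.1
  refine ⟨1 - wy, by linarith, by linarith, ?_⟩
  apply slice2 S ho.measurableSet hS
  intro P _ hP
  have := kcalY (hc S) (hc_anti hS) (1 - wy) (by linarith) (by linarith) ?_ ?_ P (part_hc hP)
  · rwa [hc_int ho.measurableSet hS] at this
  · intro x hx
    unfold hc
    have hx1 : 1 - x ∈ Ioo (0 : ℝ) 1 := ⟨by linarith [hx.2], by linarith [hx.1]⟩
    have h8 := h5 (1 - x) hx1
    refine ⟨?_, by linarith [hy0.1]⟩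
    by_contra hcon
    have h9 : 1 - x ∈ W := ⟨hx1, by linarith⟩
    linarith [le_csSup hWb h9, hx.2]
  · intro x hx
    unfold hc
    have h8 : 1 - x < wy := by linarith [hx.1]
    obtain ⟨x', hx', hlt⟩ := exists_lt_of_lt_csSup hWne h8
    have h9 := hgt_anti hS (show 1 - x ∈ Ioo (0 : ℝ) 1 from ⟨by linarith [hx.2], by linarith [hx.1]⟩)
      hx'.1 hlt.le
    linarith [hgt_le_one hS (1 - x), hx'.2]

theorem lbL1X (S : Set (ℝ × ℝ)) (ho : IsOpen S) (hS : Low2 S) (hx : ConX S) (hy : ConY S)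
    (hnf : ∃ z ∈ Q2, z ∉ S) (η : ℝ)
    (hη : ∀ y ∈ Ioo (0 : ℝ) 1, y < η → ∀ x ∈ Ioo (0 : ℝ) 1, (x, y) ∈ S) :
    ∃ v, 0 < v ∧ v ≤ 1 - η ∧ LB2 S (Real.pi * v / 4 + (1 - (volume S).toReal) / v) := by
  obtain ⟨z, hz, hzS⟩ := hnf
  obtain ⟨v, h1, h2, h3⟩ := lbL1Y (Prod.swap ⁻¹' S) (open_swap ho) (low_swap hS) hy hx
    ⟨z.swap, ⟨hz.2, hz.1⟩, by simpa using hzS⟩ η hη
  refine ⟨v, h1, h2, ?_⟩
  rw [vol_swap ho] at h3
  exact lb_swap _ _ h3

end P232
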