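import Vale.Agent.P232.ProfOf
import Vale.Agent.P232.Planar
import Vale.Agent.P232.PlanarL
import Vale.Agent.P232.NumGen
import Vale.Agent.P232.NumD1
import Vale.Agent.P232.NumD3

/-!
# P232 [TYP]: type analysis of lower sets of the cube, and the cube theorem
-/

open MeasureTheory Set Filter Topology
open scoped ENNReal ContDiff

namespace P232

namespace TypAux

/-- Direction `1` slice at `t` strongly contains axis `2`. -/
def A21 (D : Set (ℝ × ℝ × ℝ)) (t : ℝ) : Prop :=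
  ∃ ε ∈ Ioo (0 : ℝ) 1, ∀ x ∈ Ioo (0 : ℝ) 1, (t, x, ε) ∈ D

def A31 (D : Set (ℝ × ℝ × ℝ)) (t : ℝ) : Prop :=
  ∃ ε ∈ Ioo (0 : ℝ) 1, ∀ x ∈ Ioo (0 : ℝ) 1, (t, ε, x) ∈ D

def A23 (D : Set (ℝ × ℝ × ℝ)) (t : ℝ) : Prop :=
  ∃ ε ∈ Ioo (0 : ℝ) 1, ∀ x ∈ Ioo (0 : ℝ) 1, (ε, x, t) ∈ D

def A32 (D : Set (ℝ × ℝ × ℝ)) (t : ℝ) : Prop :=
  ∃ ε ∈ Ioo (0 : ℝ) 1, ∀ x ∈ Ioo (0 : ℝ) 1, (ε, t, x) ∈ D

def A12 (D : Set (ℝ × ℝ × ℝ)) (t : ℝ) : Prop :=
  ∃ ε ∈ Ioo (0 : ℝ) 1, ∀ x ∈ Ioo (0 : ℝ) 1, (x, t, ε) ∈ D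

def A13 (D : Set (ℝ × ℝ × ℝ)) (t : ℝ) : Prop :=
  ∃ ε ∈ Ioo (0 : ℝ) 1, ∀ x ∈ Ioo (0 : ℝ) 1, (x, ε, t) ∈ D

/-- The standing hypotheses on `D`. -/
structure Ok (D : Set (ℝ × ℝ × ℝ)) (V P : ℝ) : Prop where
  ho : IsOpen D
  hD : Low3 D
  hV : volume D = ENNReal.ofReal V
  hA : Approx3 D P

theorem Ok.rot {D : Set (ℝ × ℝ × ℝ)} {V P : ℝ} (h : Ok D V P) : Ok (rot D) V P := by
  refine ⟨?_, low_rot D h.hD, ?_, approx_rot D P h.hA⟩
  · have hc : Continuous fun p : ℝ × ℝ × ℝ => ((p.2.2, p.1, p.2.1) : ℝ × ℝ × ℝ) := by fun_prop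
    exact h.ho.preimage hc
  · rw [vol_rot D h.ho.measurableSet, h.hV]

theorem Ok.swp {D : Set (ℝ × ℝ × ℝ)} {V P : ℝ} (h : Ok D V P) : Ok (swp D) V P := by
  refine ⟨?_, low_swp D h.hD, ?_, approx_swp D P h.hA⟩
  · have hc : Continuous fun p : ℝ × ℝ × ℝ => ((p.1, p.2.2, p.2.1) : ℝ × ℝ × ℝ) := by fun_prop
    exact h.ho.preimage hc
  · rw [vol_swp D h.ho.measurableSet, h.hV]

theorem slice_open {D : Set (ℝ × ℝ × ℝ)} (ho : IsOpen D) (s : ℝ) : IsOpen (slice D s) := by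
  have hc : Continuous fun p : ℝ × ℝ => ((s, p) : ℝ × ℝ × ℝ) := by fun_prop
  exact ho.preimage hc

theorem slice_low {D : Set (ℝ × ℝ × ℝ)} (hD : Low3 D) (s : ℝ) (hs : s ∈ Ioo (0 : ℝ) 1) :
    Low2 (slice D s) := by
  constructor
  · intro p hp
    exact (hD.1 hp).2
  · intro p hp q hq hqp
    exact hD.2 (s, p) hp (s, q) ⟨hs, hq⟩ ⟨le_refl s, hqp⟩

theorem A21_mono {D : Set (ℝ × ℝ × ℝ)} (hD : Low3 D) {s t : ℝ} (hs : s ∈ Ioo (0 : ℝ) 1)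
    (hst : s ≤ t) (h : A21 D t) : A21 D s := by
  obtain ⟨ε, hε, h⟩ := h
  exact ⟨ε, hε, fun x hx => hD.2 _ (h x hx) (s, x, ε) ⟨hs, hx, hε⟩ ⟨hst, le_refl _⟩⟩

theorem A31_mono {D : Set (ℝ × ℝ × ℝ)} (hD : Low3 D) {s t : ℝ} (hs : s ∈ Ioo (0 : ℝ) 1)
    (hst : s ≤ t) (h : A31 D t) : A31 D s := by
  obtain ⟨ε, hε, h⟩ := h
  exact ⟨ε, hε, fun x hx => hD.2 _ (h x hx) (s, ε, x) ⟨hs, hε, hx⟩ ⟨hst, le_refl _⟩⟩

theorem mk_zero : mk 0 = 1 := by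
  unfold mk
  simp

theorem gen_q0 (S : Set (ℝ × ℝ)) (ho : IsOpen S) (hS : Low2 S) (q : ℝ)
    (hq : ∀ c, LB2 S c → c ≤ q) : q0 (volume S).toReal ≤ q := by
  by_cases hx : ConX S
  · by_cases hy : ConY S
    · exact ((min_le_left _ _).trans (min_le_right _ _)).trans (hq _ (lbL0 S ho hS hx hy))
    · have := hq _ (lbSX S ho hS hx hy 1 (fun y hy _ => hy.2.le) 0 (by simp))
      rw [mk_zero] at this
      exact (min_le_right _ _).trans (by linarith)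
  · by_cases hy : ConY S
    · have := hq _ (lbSY S ho hS hx hy 1 (fun y hy _ => hy.2.le) 0 (by simp))
      rw [mk_zero] at this
      exact (min_le_right _ _).trans (by linarith)
    · exact ((min_le_left _ _).trans (min_le_left _ _)).trans (hq _ (lbQ S ho hS hx hy))

/-- Case (iii): both end heights at most `1/10`. -/
theorem caseP {D : Set (ℝ × ℝ × ℝ)} {V P : ℝ} (hV0 : 0 < V) (hV1 : V ≤ 1 / 2) (hP : 0 ≤ P)
    (h : Ok D V P) (h23 : ∀ t ∈ Ioo (0 : ℝ) 1, A23 D t → t ≤ 1 / 10)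
    (h32 : ∀ t ∈ Ioo (0 : ℝ) 1, A32 D t → t ≤ 1 / 10) : JQ V ≤ P := by
  obtain ⟨a, q, a0, a1, hprof, ha, -, hq⟩ := prof_of D h.ho h.hD P hP h.hA V hV0.le h.hV
  refine num_D1 a q P V a0 a1 hprof hV0 hV1 ?_
  filter_upwards [hq, ae_restrict_mem measurableSet_Ioo] with s hs hsI
  have hSo := slice_open h.ho s
  have hSl := slice_low h.hD s hsI
  have hEX : EndX (slice D s) (1 / 10) := fun y hy hh => h23 y hy ⟨s, hsI, hh⟩
  have hEY : EndY (slice D s) (1 / 10) := fun x hx hh => h32 x hx ⟨s, hsI, hh⟩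
  unfold Hyp1
  rw [ha s hsI]
  by_cases hx : ConX (slice D s)
  · by_cases hy : ConY (slice D s)
    · right; right
      refine ⟨hs _ (lbL0 _ hSo hSl hx hy), ?_, Or.inr ?_⟩
      · have := hs _ (lbL3X _ hSo hSl hx hy (1 / 10) (by norm_num) hEX)
        linarith
      · have := hs _ (lbL2 _ hSo hSl hx hy (1 / 10) (by norm_num) hEX hEY)
        norm_num at this ⊢
        linarith
    · right; left
      exact fun k hk => hs _ (lbSX _ hSo hSl hx hy (1 / 10) hEX k hk)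
  · by_cases hy : ConY (slice D s)
    · right; left
      exact fun k hk => hs _ (lbSY _ hSo hSl hx hy (1 / 10) hEY k hk)
    · left
      exact hs _ (lbQ _ hSo hSl hx hy)

/-- Case (iv): the cyclic case. -/
theorem caseC {D : Set (ℝ × ℝ × ℝ)} {V P : ℝ} (hV0 : 0 < V) (hV1 : V ≤ 1 / 2) (hP : 0 ≤ P)
    (h : Ok D V P) (h21 : ∀ t ∈ Ioo (0 : ℝ) 1, A21 D t → t ≤ 1 / 10)
    (h31 : ∃ t ∈ Ioo (0 : ℝ) 1, 1 / 10 < t ∧ A31 D t)
    (h32 : ∀ t ∈ Ioo (0 : ℝ) 1, A32 D t → t ≤ 1 / 10) : JQ V ≤ P := by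
  obtain ⟨a, q, a0, a1, hprof, ha, -, hq⟩ := prof_of D h.ho h.hD P hP h.hA V hV0.le h.hV
  refine num_D1 a q P V a0 a1 hprof hV0 hV1 ?_
  filter_upwards [hq, ae_restrict_mem measurableSet_Ioo] with s hs hsI
  have hSo := slice_open h.ho s
  have hSl := slice_low h.hD s hsI
  have hEY : EndY (slice D s) (1 / 10) := fun x hx hh => h32 x hx ⟨s, hsI, hh⟩
  unfold Hyp1
  rw [ha s hsI]
  by_cases hx : ConX (slice D s)
  · have hs10 : s ≤ 1 / 10 := h21 s hsI hx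
    obtain ⟨t, htI, ht, h31⟩ := h31
    have hy : ConY (slice D s) := A31_mono h.hD hsI (hs10.trans ht.le) h31
    right; right
    refine ⟨hs _ (lbL0 _ hSo hSl hx hy), ?_, Or.inl hs10⟩
    have := hs _ (lbL3Y _ hSo hSl hx hy (1 / 10) (by norm_num) hEY)
    linarith
  · by_cases hy : ConY (slice D s)
    · right; left
      exact fun k hk => hs _ (lbSY _ hSo hSl hx hy (1 / 10) hEY k hk)
    · left
      exact hs _ (lbQ _ hSo hSl hx hy)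

theorem le_area {D : Set (ℝ × ℝ × ℝ)} (hD : Low3 D) {s x : ℝ} (hs : s ∈ Ioo (0 : ℝ) 1)
    (hx : x ∈ Ioo (0 : ℝ) 1) (h : ∀ y ∈ Ioo (0 : ℝ) 1, (s, x, y) ∈ D) :
    x ≤ (volume (slice D s)).toReal := by
  have hsub : Ioo (0 : ℝ) x ×ˢ Ioo (0 : ℝ) 1 ⊆ slice D s := by
    rintro ⟨u, v⟩ ⟨hu, hv⟩
    exact hD.2 _ (h v hv) (s, u, v) ⟨hs, ⟨hu.1, hu.2.trans hx.2⟩, hv⟩ ⟨le_refl _, hu.2.le, le_refl _⟩
  have h1 : volume (Ioo (0 : ℝ) x ×ˢ Ioo (0 : ℝ) 1) = ENNReal.ofReal x := by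
    have : (volume : Measure (ℝ × ℝ)) (Ioo (0 : ℝ) x ×ˢ Ioo (0 : ℝ) 1) =
        volume (Ioo (0 : ℝ) x) * volume (Ioo (0 : ℝ) 1) := Measure.prod_prod _ _
    rw [this, Real.volume_Ioo, Real.volume_Ioo]
    norm_num
  have h2 := ENNReal.toReal_mono (((ProfAux.slice_fin hD s).trans_lt ENNReal.one_lt_top).ne)
    (measure_mono hsub)
  rwa [h1, ENNReal.toReal_ofReal hx.1.le] at h2

theorem exists_notMem {S : Set (ℝ × ℝ)} (h : volume S < 1) : ∃ z ∈ Q2, z ∉ S := by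
  by_contra hc
  push Not at hc
  have := measure_mono (μ := (volume : Measure (ℝ × ℝ))) (fun z hz => hc z hz : Q2 ⊆ S)
  rw [ProfAux.volQ2] at this
  exact absurd h (not_lt.mpr this)

/-- Case (ii), first axis has the smaller threshold `τ`. -/
theorem caseD3core {D : Set (ℝ × ℝ × ℝ)} {V P : ℝ} (hV0 : 0 < V) (hV1 : V ≤ 1 / 2) (hP : 0 ≤ P)
    (h : Ok D V P) (τ : ℝ) (hτ : 1 / 10 < τ)
    (hlow : ∀ s ∈ Ioo (0 : ℝ) 1, s < τ → A21 D s ∧ A31 D s)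
    (hup : ∀ s ∈ Ioo (0 : ℝ) 1, τ < s → ¬ A21 D s) : JQ V ≤ P := by
  obtain ⟨a, q, a0, a1, hprof, ha, -, hq⟩ := prof_of D h.ho h.hD P hP h.hA V hV0.le h.hV
  by_cases ha0 : 19 / 20 ≤ a0
  · refine num_gen a q P V a0 a1 hprof hV0 hV1 ha0 ?_
    filter_upwards [hq, ae_restrict_mem measurableSet_Ioo] with s hs hsI
    rw [ha s hsI]
    exact gen_q0 _ (slice_open h.ho s) (slice_low h.hD s hsI) _ hs
  push Not at ha0
  set W : Set ℝ := insert 0 {x | x ∈ Ioo (0 : ℝ) 1 ∧ ∃ s ∈ Ioo (0 : ℝ) 1, τ < s ∧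
    ∀ y ∈ Ioo (0 : ℝ) 1, (s, x, y) ∈ D} with hW
  have hWne : W.Nonempty := ⟨0, mem_insert _ _⟩
  have hWb : BddAbove W := by
    refine ⟨1, ?_⟩
    rintro x (rfl | ⟨hx, _⟩)
    · norm_num
    · exact hx.2.le
  set η := sSup W with hη
  have hη0 : 0 ≤ η := le_csSup hWb (mem_insert _ _)
  have ha00 : 0 ≤ a0 := hV0.le.trans hprof.le_a0
  have hηa : η ≤ a0 := by
    refine csSup_le hWne ?_
    rintro x (rfl | ⟨hx, s, hs, _, hh⟩)
    · exact ha00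
    · refine (le_area h.hD hs hx hh).trans ?_
      rw [← ha s hs]
      exact (hprof.mem s hs).2
  refine num_D3 a q P V a0 a1 hprof hV0 hV1 ha0.le η hη0 hηa ?_
  have hne : ∀ᵐ s ∂(volume.restrict (Ioo (0 : ℝ) 1)), s ≠ τ :=
    ae_restrict_of_ae (by simp [ae_iff])
  filter_upwards [hq, ae_restrict_mem measurableSet_Ioo, hne] with s hs hsI hsτ
  have hSo := slice_open h.ho s
  have hSl := slice_low h.hD s hsI
  unfold Hyp3 HypL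
  rw [ha s hsI]
  rcases lt_or_gt_of_ne hsτ with hlt | hgt
  · left
    obtain ⟨hx, hy⟩ := hlow s hsI hlt
    refine ⟨hs _ (lbL0 _ hSo hSl hx hy), ?_⟩
    have hnf : ∃ z ∈ Q2, z ∉ slice D s := by
      refine exists_notMem ?_
      have h1 : (volume (slice D s)).toReal < 1 := by
        rw [← ha s hsI]
        exact ((hprof.mem s hsI).2.trans_lt ha0).trans (by norm_num)
      rw [← ENNReal.toReal_one] at h1
      exact (ENNReal.toReal_lt_toReal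
        (((ProfAux.slice_fin h.hD s).trans_lt ENNReal.one_lt_top).ne) ENNReal.one_ne_top).1 h1
    obtain ⟨v, hv0, hv1, hv⟩ := lbL1Y _ hSo hSl hx hy hnf η (by
      intro x hx hxη y hy
      obtain ⟨x', hx', hxx'⟩ := exists_lt_of_lt_csSup hWne hxη
      rcases hx' with rfl | ⟨hx'I, s', hs'I, hs'τ, hh⟩
      · exact absurd hx.1 (not_lt.mpr hxx'.le)
      · exact h.hD.2 _ (hh y hy) (s, x, y) ⟨hsI, hx, hy⟩
          ⟨(hlt.trans hs'τ).le, hxx'.le, le_refl _⟩)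
    exact ⟨v, hv0, hv1, hs _ hv⟩
  · right
    refine ⟨hτ.trans hgt, ?_⟩
    have hx := hup s hsI hgt
    by_cases hy : ConY (slice D s)
    · right
      intro k hk
      refine hs _ (lbSY _ hSo hSl hx hy η ?_ k hk)
      intro x hx hh
      exact le_csSup hWb (Or.inr ⟨hx, s, hsI, hgt, hh⟩)
    · left
      exact hs _ (lbQ _ hSo hSl hx hy)

/-- Case (ii). -/
theorem caseD3 {D : Set (ℝ × ℝ × ℝ)} {V P : ℝ} (hV0 : 0 < V) (hV1 : V ≤ 1 / 2) (hP : 0 ≤ P)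
    (h : Ok D V P) (h21 : ∃ t ∈ Ioo (0 : ℝ) 1, 1 / 10 < t ∧ A21 D t)
    (h31 : ∃ t ∈ Ioo (0 : ℝ) 1, 1 / 10 < t ∧ A31 D t) : JQ V ≤ P := by
  have key : ∀ D : Set (ℝ × ℝ × ℝ), Ok D V P → (∃ t ∈ Ioo (0 : ℝ) 1, 1 / 10 < t ∧ A21 D t) →
      (∃ t ∈ Ioo (0 : ℝ) 1, 1 / 10 < t ∧ A31 D t) →
      sSup {t | t ∈ Ioo (0 : ℝ) 1 ∧ A21 D t} ≤ sSup {t | t ∈ Ioo (0 : ℝ) 1 ∧ A31 D t} →
      JQ V ≤ P := by
    intro D h h21 h31 hle
    have hb : ∀ A : ℝ → Prop, BddAbove {t | t ∈ Ioo (0 : ℝ) 1 ∧ A t} :=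
      fun A => ⟨1, fun t ht => ht.1.2.le⟩
    obtain ⟨t1, ht1, ht1', hA1⟩ := h21
    obtain ⟨t2, ht2, ht2', hA2⟩ := h31
    refine caseD3core hV0 hV1 hP h _ (ht1'.trans_le (le_csSup (hb _) ⟨ht1, hA1⟩)) ?_ ?_
    · intro s hs hsτ
      constructor
      · obtain ⟨t, ⟨_, hAt⟩, hst⟩ := exists_lt_of_lt_csSup
          (s := {t | t ∈ Ioo (0 : ℝ) 1 ∧ A21 D t}) ⟨t1, ht1, hA1⟩ hsτ
        exact A21_mono h.hD hs hst.le hAt
      · obtain ⟨t, ⟨_, hAt⟩, hst⟩ := exists_lt_of_lt_csSup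
          (s := {t | t ∈ Ioo (0 : ℝ) 1 ∧ A31 D t}) ⟨t2, ht2, hA2⟩ (hsτ.trans_le hle)
        exact A31_mono h.hD hs hst.le hAt
    · intro s hs hsτ hA
      exact absurd (le_csSup (hb _) ⟨hs, hA⟩) (not_le.mpr hsτ)
  rcases le_total (sSup {t | t ∈ Ioo (0 : ℝ) 1 ∧ A21 D t})
    (sSup {t | t ∈ Ioo (0 : ℝ) 1 ∧ A31 D t}) with hle | hle
  · exact key D h h21 h31 hle
  · exact key (swp D) h.swp h31 h21 hle

end TypAux

open TypAux

theorem cube_bound (D : Set (ℝ × ℝ × ℝ)) (ho : IsOpen D) (hD : Low3 D) (V : ℝ) (hV0 : 0 < V)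
    (hV1 : V ≤ 1 / 2) (hV : volume D = ENNReal.ofReal V) (P : ℝ) (hP : 0 ≤ P)
    (hA : Approx3 D P) : JQ V ≤ P := by
  have h : Ok D V P := ⟨ho, hD, hV, hA⟩
  have big : ∀ A : ℝ → Prop, (∃ t ∈ Ioo (0 : ℝ) 1, 1 / 10 < t ∧ A t) ∨
      (∀ t ∈ Ioo (0 : ℝ) 1, A t → t ≤ 1 / 10) := by
    intro A
    by_cases hc : ∃ t ∈ Ioo (0 : ℝ) 1, 1 / 10 < t ∧ A t
    · exact Or.inl hc
    · right
      intro t ht hAt
      by_contra hlt
      exact hc ⟨t, ht, not_le.mp hlt, hAt⟩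
  rcases big (A31 D) with b31 | s31
  · rcases big (A21 D) with b21 | s21
    · exact caseD3 hV0 hV1 hP h b21 b31
    rcases big (A12 D) with b12 | s12
    · rcases big (A32 D) with b32 | s32
      · exact caseD3 hV0 hV1 hP h.rot b32 b12
      · exact caseC hV0 hV1 hP h s21 b31 s32
    · exact caseP hV0 hV1 hP h.rot.rot s12 s21
  · rcases big (A13 D) with b13 | s13
    · rcases big (A23 D) with b23 | s23
      · exact caseD3 hV0 hV1 hP h.rot.rot b13 b23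
      rcases big (A32 D) with b32 | s32
      · rcases big (A12 D) with b12 | s12
        · exact caseD3 hV0 hV1 hP h.rot b32 b12
        rcases big (A21 D) with b21 | s21
        · exact caseC hV0 hV1 hP h.swp s31 b21 s23
        · exact caseP hV0 hV1 hP h.rot.rot s12 s21
      · exact caseP hV0 hV1 hP h s23 s32
    · exact caseP hV0 hV1 hP h.rot s31 s13

end P232
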