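import Vale.Agent.P232.UpBase

/-!
# P232 [UPC]: the perimeter of the complement
-/

open MeasureTheory Set Filter Topology
open scoped ENNReal ContDiff

namespace P232

namespace Up

theorem int_div_test (φ : R3 → R3) (hφ : TestField φ) : ∫ x in cell, divergence φ x = 0 :=
  int_div_zero φ (hφ.smooth.of_le (by exact_mod_cast le_top)) fun i y _ => by
    rw [face_periodic hφ.periodic]

theorem neg_test {φ : R3 → R3} (hφ : TestField φ) : TestField (fun x => -φ x) where
  smooth := hφ.smooth.neg
  periodic := fun x i => by rw [hφ.periodic]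
  bound := fun x => by simpa using hφ.bound x

theorem div_neg {φ : R3 → R3} (x : R3) : divergence (fun x => -φ x) x = -divergence φ x := by
  unfold divergence
  rw [← Finset.sum_neg_distrib]
  refine Finset.sum_congr rfl fun i _ => ?_
  rw [fderiv_fun_neg]
  simp

theorem perimeter_compl_le (E : Set R3) (hm : MeasurableSet E) : perimeter Eᶜ ≤ perimeter E := by
  conv_lhs => unfold perimeter
  refine iSup₂_le fun φ hφ => ?_
  have h0 := int_div_test φ hφ
  have hi : IntegrableOn (divergence φ) cell := intOn_of_cont (cont_div hφ)
  have h1 := integral_inter_add_sdiff (μ := volume) (f := divergence φ) (s := cell) hm hi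
  have h2 : cell \ E = Eᶜ ∩ cell := by
    ext x
    simp [and_comm]
  rw [h2, h0, inter_comm] at h1
  have h3 : ∫ x in Eᶜ ∩ cell, divergence φ x =
      ∫ x in E ∩ cell, divergence (fun x => -φ x) x := by
    simp only [div_neg, integral_neg]
    linarith
  rw [h3]
  unfold perimeter
  exact le_iSup₂ (f := fun (φ : R3 → R3) (_ : TestField φ) =>
    ENNReal.ofReal (∫ x in E ∩ cell, divergence φ x)) (fun x => -φ x) (neg_test hφ)

end Up

/-- [UPC] -/
theorem perimeter_compl (E : Set R3) (hm : MeasurableSet E) : perimeter Eᶜ = perimeter E := by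
  refine le_antisymm (Up.perimeter_compl_le E hm) ?_
  have := Up.perimeter_compl_le Eᶜ hm.compl
  rwa [compl_compl] at this

end P232
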