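import Vale.Agent.P232.UpSq

/-!
# P232 [UPB]: balls
-/

open MeasureTheory Set Filter Topology
open scoped ENNReal ContDiff

namespace P232

namespace Up

theorem ball_inter_cell (r : ℝ) (h0 : 0 < r) (h1 : r < 1 / 2) :
    {x : R3 | ∑ i, (Int.fract (x i) - 1 / 2) ^ 2 < r ^ 2} ∩ cell =
      {x : R3 | ∑ i, (x i - (fun _ => 1 / 2 : R3) i) ^ 2 < r ^ 2} := by
  ext x
  simp only [mem_inter_iff, mem_ofPred_eq]
  constructor
  · rintro ⟨h, hc⟩
    simpa only [fract_cell hc] using h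
  · intro h
    have hc : x ∈ cell := by
      intro i
      have hi : (x i - 1 / 2) ^ 2 < r ^ 2 :=
        lt_of_le_of_lt (Finset.single_le_sum (f := fun i => (x i - 1 / 2) ^ 2)
          (fun j _ => sq_nonneg _) (Finset.mem_univ i)) h
      have := abs_lt_of_sq_lt_sq' hi h0.le
      constructor <;> linarith [this.1, this.2]
    refine ⟨?_, hc⟩
    simpa only [fract_cell hc] using h

end Up

/-- [UPB] -/
theorem ball_upper (r : ℝ) (h0 : 0 < r) (h1 : r < 1 / 2) :
    MeasurableSet {x : R3 | ∑ i, (Int.fract (x i) - 1 / 2) ^ 2 < r ^ 2} ∧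
    PeriodicSet {x : R3 | ∑ i, (Int.fract (x i) - 1 / 2) ^ 2 < r ^ 2} ∧
    volume ({x : R3 | ∑ i, (Int.fract (x i) - 1 / 2) ^ 2 < r ^ 2} ∩ cell)
      = ENNReal.ofReal (4 / 3 * Real.pi * r ^ 3) ∧
    perimeter {x : R3 | ∑ i, (Int.fract (x i) - 1 / 2) ^ 2 < r ^ 2}
      ≤ ENNReal.ofReal (4 * Real.pi * r ^ 2) := by
  have hm : MeasurableSet {x : R3 | ∑ i, (Int.fract (x i) - 1 / 2) ^ 2 < r ^ 2} := by
    refine measurableSet_lt (Finset.measurable_fun_sum _ fun i _ => ?_) measurable_const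
    exact ((Up.meas_fract i).sub_const _).pow_const 2
  refine ⟨hm, ?_, ?_, ?_⟩
  · intro x i
    simp only [mem_ofPred_eq, Up.fract_shift]
  · rw [Up.ball_inter_cell r h0 h1, Up.vol_ball3 _ _ h0.le]
  · have h := Up.level_upper (Up.us Finset.univ (1 / 2)) (Up.us_contDiff _ _) r h0 _ hm
      ?_ (fun x _ hx => Up.us_grad_le _ _ x r h0 hx) (fun i y _ => Or.inl (Up.us_face _ i y))
      (4 / 3 * Real.pi) (by positivity) 3 ?_
    · refine h.trans (ENNReal.ofReal_le_ofReal (le_of_eq ?_))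
      show ((3 : ℕ) : ℝ) * (4 / 3 * Real.pi) * r ^ 2 = _
      push_cast
      ring
    · filter_upwards [self_mem_ae_restrict Up.cell_meas] with x hx
      simp only [Up.fract_cell hx, Up.us]
    · intro s hs hsr
      refine (measure_mono inter_subset_left).trans ?_
      have := Up.shell_le volume (Up.us Finset.univ (1 / 2)) (Up.us_contDiff _ _).continuous.measurable
        (r ^ 2) (s ^ 2) (4 / 3 * Real.pi * r ^ 3) (4 / 3 * Real.pi * s ^ 3) (by gcongr)
        (by positivity) (Up.vol_ball3 (fun _ => 1 / 2) r h0.le) (Up.vol_ball3 (fun _ => 1 / 2) s hs.le)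
      refine this.trans (ENNReal.ofReal_le_ofReal (le_of_eq ?_))
      ring

end P232
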