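import Vale.Agent.P232.UpSq

/-!
# P232 [UPS]: slabs
-/

open MeasureTheory Set Filter Topology
open scoped ENNReal ContDiff

namespace P232

namespace Up

/-- volume of coordinate slabs of the cell -/
theorem vol_slab (A : Set ℝ) : volume {x : R3 | x 0 ∈ A ∧ x 1 ∈ Ico (0 : ℝ) 1 ∧ x 2 ∈ Ico (0 : ℝ) 1} =
    volume A := by
  have h : {x : R3 | x 0 ∈ A ∧ x 1 ∈ Ico (0 : ℝ) 1 ∧ x 2 ∈ Ico (0 : ℝ) 1} =
      Set.pi univ (fun i : Fin 3 => if i = 0 then A else Ico (0 : ℝ) 1) := by
    ext x
    simp only [mem_ofPred_eq, Set.mem_pi, mem_univ, true_implies, Fin.forall_fin_succ]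
    simp
  rw [h, volume_pi_pi, Fin.prod_univ_succ, Fin.prod_univ_two]
  simp

theorem us0 (c : ℝ) (x : R3) : us {0} c x = (x 0 - c) ^ 2 := by
  unfold us
  rw [Finset.sum_singleton]

theorem slab_ball (R s : ℝ) (hs : 0 < s) (hsR : s ≤ R) (hR : R ≤ 1 / 2) :
    {x : R3 | us {0} R x < s ^ 2} ∩ cell =
      {x : R3 | x 0 ∈ Ioo (R - s) (R + s) ∧ x 1 ∈ Ico (0 : ℝ) 1 ∧ x 2 ∈ Ico (0 : ℝ) 1} := by
  ext x
  simp only [mem_inter_iff, mem_ofPred_eq, us0]
  constructor
  · rintro ⟨h, hc⟩
    have := abs_lt_of_sq_lt_sq' h hs.le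
    exact ⟨⟨by linarith [this.1], by linarith [this.2]⟩, hc 1, hc 2⟩
  · rintro ⟨h, h1, h2⟩
    refine ⟨sq_lt_sq' (by linarith [h.1]) (by linarith [h.2]), ?_⟩
    intro i
    fin_cases i
    · exact ⟨by show 0 ≤ x 0; linarith [h.1], by show x 0 < 1; linarith [h.2]⟩
    · exact h1
    · exact h2

end Up

/-- [UPS] -/
theorem slab_upper (v : ℝ) (h0 : 0 ≤ v) (h1 : v ≤ 1) :
    MeasurableSet {x : R3 | Int.fract (x 0) < v} ∧ PeriodicSet {x : R3 | Int.fract (x 0) < v} ∧
    volume ({x : R3 | Int.fract (x 0) < v} ∩ cell) = ENNReal.ofReal v ∧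
    perimeter {x : R3 | Int.fract (x 0) < v} ≤ 2 := by
  have hm : MeasurableSet {x : R3 | Int.fract (x 0) < v} :=
    measurableSet_lt (Up.meas_fract 0) measurable_const
  refine ⟨hm, ?_, ?_, ?_⟩
  · intro x i
    simp only [mem_ofPred_eq, Up.fract_shift]
  · have h : {x : R3 | Int.fract (x 0) < v} ∩ cell =
        {x : R3 | x 0 ∈ Ico 0 v ∧ x 1 ∈ Ico (0 : ℝ) 1 ∧ x 2 ∈ Ico (0 : ℝ) 1} := by
      ext x
      simp only [mem_inter_iff, mem_ofPred_eq]
      constructor
      · rintro ⟨h, hc⟩
        rw [Up.fract_cell hc] at h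
        exact ⟨⟨(hc 0).1, h⟩, hc 1, hc 2⟩
      · rintro ⟨h, h1', h2⟩
        have hc : x ∈ cell := by
          intro i
          fin_cases i
          · exact ⟨h.1, lt_of_lt_of_le h.2 h1⟩
          · exact h1'
          · exact h2
        rw [Up.fract_cell hc]
        exact ⟨h.2, hc⟩
    rw [h, Up.vol_slab, Real.volume_Ico, sub_zero]
  · rcases h0.eq_or_lt with h0' | h0'
    · subst h0'
      have : {x : R3 | Int.fract (x 0) < 0} = ∅ := by
        ext x
        simp [Int.fract_nonneg]
      rw [this]
      simp [perimeter]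
    · have hR : 0 < v / 2 := by positivity
      have hvol : ∀ s, 0 < s → s ≤ v / 2 →
          volume.restrict cell {x : R3 | Up.us {0} (v / 2) x < s ^ 2} =
            ENNReal.ofReal (2 * s) := by
        intro s hs hs1
        rw [Measure.restrict_apply (measurableSet_lt (Up.us_contDiff _ _).continuous.measurable
          measurable_const), Up.slab_ball _ s hs hs1 (by linarith), Up.vol_slab, Real.volume_Ioo]
        congr 1
        ring
      have h := Up.level_upper (Up.us {0} (v / 2)) (Up.us_contDiff _ _) (v / 2) hR _ hm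
        ?_ (fun x _ hx => Up.us_grad_le _ _ x _ hR hx) ?_ 2 (by positivity) 1 ?_
      · refine h.trans (le_of_eq ?_)
        norm_num
      · have hnull : ∀ᵐ x : R3 ∂(volume.restrict cell), x 0 ≠ 0 := by
          refine ae_restrict_of_ae ?_
          have hz : volume {x : R3 | x 0 = 0} = 0 := by
            have := Measure.pi_hyperplane (fun _ : Fin 3 => (volume : Measure ℝ)) 0 0
            rw [volume_pi]
            exact this
          exact measure_eq_zero_iff_ae_notMem.1 hz
        filter_upwards [self_mem_ae_restrict Up.cell_meas, hnull] with x hx hx0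
        simp only [Up.fract_cell hx, Up.us0]
        constructor
        · intro h
          have : 0 < x 0 := lt_of_le_of_ne (hx 0).1 (Ne.symm hx0)
          exact sq_lt_sq' (by linarith) (by linarith)
        · intro h
          have := abs_lt_of_sq_lt_sq' h hR.le
          linarith [this.2]
      · intro i y hy
        rcases Fin.eq_zero_or_eq_succ i with rfl | ⟨j, rfl⟩
        · right
          simp only [Up.us0, Fin.insertNth_apply_same]
          constructor <;> nlinarith
        · left
          simp only [Up.us0]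
          have h3 : (0 : Fin 3) = (j.succ).succAbove 0 := by
            fin_cases j <;> rfl
          rw [h3, Fin.insertNth_apply_succAbove, Fin.insertNth_apply_succAbove]
      · intro s hs hsr
        have hmS : MeasurableSet {x : R3 | s ^ 2 < Up.us {0} (v / 2) x ∧
            Up.us {0} (v / 2) x < (v / 2) ^ 2} :=
          (measurableSet_lt measurable_const (Up.us_contDiff _ _).continuous.measurable).inter
            (measurableSet_lt (Up.us_contDiff _ _).continuous.measurable measurable_const)
        rw [← Measure.restrict_apply hmS]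
        have := Up.shell_le (volume.restrict cell) (Up.us {0} (v / 2))
          (Up.us_contDiff _ _).continuous.measurable
          ((v / 2) ^ 2) (s ^ 2) (2 * (v / 2)) (2 * s) (by gcongr)
          (by positivity) (hvol _ hR le_rfl) (hvol s hs hsr.le)
        refine this.trans (ENNReal.ofReal_le_ofReal (le_of_eq ?_))
        ring

end P232
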