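import Vale.Agent.P232.UpSq

/-!
# P232 [UPT]: tubes
-/

open MeasureTheory Set Filter Topology
open scoped ENNReal ContDiff

namespace P232

namespace Up

/-- volume of a product set of the form planar set times unit interval -/
theorem vol_cyl (A : Set (Fin 2 → ℝ)) :
    volume {x : R3 | (fun j : Fin 2 => x ((2 : Fin 3).succAbove j)) ∈ A ∧ x 2 ∈ Ico (0 : ℝ) 1} =
      volume A := by
  have h := (volume_preserving_piFinSuccAbove (fun _ : Fin 3 => ℝ) 2).measure_preimage_equiv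
    (Ico (0 : ℝ) 1 ×ˢ A)
  have h2 : (MeasurableEquiv.piFinSuccAbove (fun _ : Fin 3 => ℝ) 2) ⁻¹' (Ico (0 : ℝ) 1 ×ˢ A) =
      {x : R3 | (fun j : Fin 2 => x ((2 : Fin 3).succAbove j)) ∈ A ∧ x 2 ∈ Ico (0 : ℝ) 1} := by
    ext x
    simp only [mem_preimage, mem_prod, MeasurableEquiv.piFinSuccAbove_apply, mem_ofPred_eq]
    rw [and_comm]
    rfl
  rw [← h2, h, Measure.volume_eq_prod, Measure.prod_prod]
  simp

theorem us01 (c : ℝ) (x : R3) : us {0, 1} c x =
    ∑ i, ((fun j : Fin 2 => x ((2 : Fin 3).succAbove j)) i - (fun _ => c : Fin 2 → ℝ) i) ^ 2 := by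
  unfold us
  rw [Finset.sum_insert (by decide), Finset.sum_singleton, Fin.sum_univ_two]
  rfl

theorem tube_inter_cell (r : ℝ) (h0 : 0 < r) (h1 : r < 1 / 2) :
    {x : R3 | us {0, 1} (1 / 2) x < r ^ 2} ∩ cell =
      {x : R3 | (fun j : Fin 2 => x ((2 : Fin 3).succAbove j)) ∈
        {y : Fin 2 → ℝ | ∑ i, (y i - (fun _ => 1 / 2 : Fin 2 → ℝ) i) ^ 2 < r ^ 2} ∧
        x 2 ∈ Ico (0 : ℝ) 1} := by
  ext x
  simp only [mem_inter_iff, mem_ofPred_eq]
  rw [us01]
  constructor
  · rintro ⟨h, hc⟩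
    exact ⟨h, hc 2⟩
  · rintro ⟨h, hc⟩
    refine ⟨h, ?_⟩
    have hj : ∀ j : Fin 2, x ((2 : Fin 3).succAbove j) ∈ Ico (0 : ℝ) 1 := by
      intro j
      have hi : (x ((2 : Fin 3).succAbove j) - 1 / 2) ^ 2 < r ^ 2 :=
        lt_of_le_of_lt (Finset.single_le_sum
          (f := fun j : Fin 2 => (x ((2 : Fin 3).succAbove j) - 1 / 2) ^ 2)
          (fun j _ => sq_nonneg _) (Finset.mem_univ j)) h
      have := abs_lt_of_sq_lt_sq' hi h0.le
      constructor <;> linarith [this.1, this.2]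
    intro i
    exact Fin.succAboveCases (2 : Fin 3) (α := fun i => x i ∈ Ico (0 : ℝ) 1) hc hj i

end Up

/-- [UPT] -/
theorem tube_upper (r : ℝ) (h0 : 0 < r) (h1 : r < 1 / 2) :
    MeasurableSet {x : R3 | (Int.fract (x 0) - 1 / 2) ^ 2 + (Int.fract (x 1) - 1 / 2) ^ 2 < r ^ 2} ∧
    PeriodicSet {x : R3 | (Int.fract (x 0) - 1 / 2) ^ 2 + (Int.fract (x 1) - 1 / 2) ^ 2 < r ^ 2} ∧
    volume ({x : R3 | (Int.fract (x 0) - 1 / 2) ^ 2 + (Int.fract (x 1) - 1 / 2) ^ 2 < r ^ 2} ∩ cell)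
      = ENNReal.ofReal (Real.pi * r ^ 2) ∧
    perimeter {x : R3 | (Int.fract (x 0) - 1 / 2) ^ 2 + (Int.fract (x 1) - 1 / 2) ^ 2 < r ^ 2}
      ≤ ENNReal.ofReal (2 * Real.pi * r) := by
  have hm : MeasurableSet {x : R3 | (Int.fract (x 0) - 1 / 2) ^ 2 +
      (Int.fract (x 1) - 1 / 2) ^ 2 < r ^ 2} := by
    refine measurableSet_lt ?_ measurable_const
    exact (((Up.meas_fract 0).sub_const _).pow_const 2).add
      (((Up.meas_fract 1).sub_const _).pow_const 2)
  have hus : ∀ x : R3, Up.us {0, 1} (1 / 2) x = (x 0 - 1 / 2) ^ 2 + (x 1 - 1 / 2) ^ 2 := by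
    intro x
    unfold Up.us
    rw [Finset.sum_insert (by decide), Finset.sum_singleton]
  have hvol : ∀ s, 0 < s → s < 1 / 2 →
      volume.restrict cell {x : R3 | Up.us {0, 1} (1 / 2) x < s ^ 2} =
        ENNReal.ofReal (Real.pi * s ^ 2) := by
    intro s hs hs1
    rw [Measure.restrict_apply (measurableSet_lt (Up.us_contDiff _ _).continuous.measurable
      measurable_const), Up.tube_inter_cell s hs hs1, Up.vol_cyl, Up.vol_ball2 _ _ hs.le]
  refine ⟨hm, ?_, ?_, ?_⟩
  · intro x i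
    simp only [mem_ofPred_eq, Up.fract_shift]
  · rw [← hvol r h0 h1, Measure.restrict_apply (measurableSet_lt
      (Up.us_contDiff _ _).continuous.measurable measurable_const)]
    congr 1
    ext x
    simp only [mem_inter_iff, mem_ofPred_eq, hus]
    refine and_congr_left fun hx => ?_
    rw [Up.fract_cell hx, Up.fract_cell hx]
  · have h := Up.level_upper (Up.us {0, 1} (1 / 2)) (Up.us_contDiff _ _) r h0 _ hm
      ?_ (fun x _ hx => Up.us_grad_le _ _ x r h0 hx) (fun i y _ => Or.inl (Up.us_face _ i y))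
      Real.pi (by positivity) 2 ?_
    · refine h.trans (ENNReal.ofReal_le_ofReal (le_of_eq ?_))
      show ((2 : ℕ) : ℝ) * Real.pi * r ^ 1 = _
      push_cast
      ring
    · filter_upwards [self_mem_ae_restrict Up.cell_meas] with x hx
      simp only [Up.fract_cell hx, hus]
    · intro s hs hsr
      have hmS : MeasurableSet {x : R3 | s ^ 2 < Up.us {0, 1} (1 / 2) x ∧
          Up.us {0, 1} (1 / 2) x < r ^ 2} :=
        (measurableSet_lt measurable_const (Up.us_contDiff _ _).continuous.measurable).inter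
          (measurableSet_lt (Up.us_contDiff _ _).continuous.measurable measurable_const)
      rw [← Measure.restrict_apply hmS]
      have := Up.shell_le (volume.restrict cell) (Up.us {0, 1} (1 / 2))
        (Up.us_contDiff _ _).continuous.measurable
        (r ^ 2) (s ^ 2) (Real.pi * r ^ 2) (Real.pi * s ^ 2) (by gcongr)
        (by positivity) (hvol r h0 h1) (hvol s hs (by linarith))
      refine this.trans (ENNReal.ofReal_le_ofReal (le_of_eq ?_))
      ring

end P232
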