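import Vale.Agent.P232.Defs
import Vale.Agent.P232.UpCompl
import Vale.Agent.P232.UpSlab
import Vale.Agent.P232.UpTube
import Vale.Agent.P232.UpBall

/-!
# P232: upper bound J (balls, tubes, slabs and complements).
-/

open MeasureTheory Set Filter Topology
open scoped ENNReal ContDiff

namespace P232

namespace UpJAux

theorem vol_cell : volume cell = 1 := by
  have h : cell = Set.pi univ (fun _ : Fin 3 => Ico (0 : ℝ) 1) := by
    ext x; simp [cell, Set.mem_pi]
  rw [h, volume_pi, Measure.pi_pi]
  simp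

theorem cell_meas : MeasurableSet cell := by
  have h : cell = Set.pi univ (fun _ : Fin 3 => Ico (0 : ℝ) 1) := by
    ext x; simp [cell, Set.mem_pi]
  rw [h]
  exact MeasurableSet.univ_pi (fun _ => measurableSet_Ico)

/-- half of the statement -/
theorem half (v : ℝ) (h0 : 0 < v) (h1 : v ≤ 1 / 2) :
    ∃ E : Set R3, MeasurableSet E ∧ PeriodicSet E ∧ volume (E ∩ cell) = ENNReal.ofReal v ∧
      perimeter E ≤ ENNReal.ofReal (min (min ((36 * Real.pi) ^ (1 / 3 : ℝ) * v ^ (2 / 3 : ℝ))
    (2 * √(Real.pi * v))) 2) := by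
  have hpi := Real.pi_gt_three
  have hpi0 := Real.pi_pos
  rcases le_total (min ((36 * Real.pi) ^ (1 / 3 : ℝ) * v ^ (2 / 3 : ℝ)) (2 * √(Real.pi * v))) 2
    with h | h
  · rw [min_eq_left h]
    rcases le_total ((36 * Real.pi) ^ (1 / 3 : ℝ) * v ^ (2 / 3 : ℝ)) (2 * √(Real.pi * v))
      with h' | h'
    · rw [min_eq_left h']
      -- ball
      set r : ℝ := (3 * v / (4 * Real.pi)) ^ (1 / 3 : ℝ) with hr
      have hb : 0 < 3 * v / (4 * Real.pi) := by positivity
      have hr0 : 0 < r := Real.rpow_pos_of_pos hb _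
      have hr3 : r ^ 3 = 3 * v / (4 * Real.pi) := by
        rw [hr, ← Real.rpow_natCast, ← Real.rpow_mul hb.le]
        norm_num
      have hr1 : r < 1 / 2 := by
        by_contra hcon
        push Not at hcon
        have e1 : (1 / 2 : ℝ) ^ 3 ≤ r ^ 3 := pow_le_pow_left₀ (by norm_num) hcon 3
        rw [hr3, le_div_iff₀ (by positivity)] at e1
        nlinarith
      obtain ⟨e1, e2, e3, e4⟩ := ball_upper r hr0 hr1
      refine ⟨_, e1, e2, ?_, ?_⟩
      · rw [e3, hr3]
        congr 1
        field_simp
      · refine e4.trans (le_of_eq ?_)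
        congr 1
        -- 4π r² = (36π)^{1/3} v^{2/3}
        have hL : 0 ≤ 4 * Real.pi * r ^ 2 := by positivity
        have hR : 0 ≤ (36 * Real.pi) ^ (1 / 3 : ℝ) * v ^ (2 / 3 : ℝ) := by positivity
        have hc : (4 * Real.pi * r ^ 2) ^ 3 =
            ((36 * Real.pi) ^ (1 / 3 : ℝ) * v ^ (2 / 3 : ℝ)) ^ 3 := by
          have a1 : ((36 * Real.pi) ^ (1 / 3 : ℝ)) ^ 3 = 36 * Real.pi := by
            rw [← Real.rpow_natCast, ← Real.rpow_mul (by positivity)]
            norm_num
          have a2 : (v ^ (2 / 3 : ℝ)) ^ 3 = v ^ 2 := by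
            rw [← Real.rpow_natCast, ← Real.rpow_mul h0.le]
            norm_num
          rw [mul_pow _ _ 3, mul_pow _ (v ^ (2 / 3 : ℝ)), a1, a2]
          have : (r ^ 2) ^ 3 = (r ^ 3) ^ 2 := by ring
          rw [this, hr3]
          field_simp
          ring
        exact (pow_left_inj₀ hL hR (by norm_num)).1 hc
    · rw [min_eq_right h']
      -- tube
      set r : ℝ := √(v / Real.pi) with hr
      have hb : 0 < v / Real.pi := by positivity
      have hr0 : 0 < r := Real.sqrt_pos.2 hb
      have hr2 : r ^ 2 = v / Real.pi := Real.sq_sqrt hb.le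
      have hr1 : r < 1 / 2 := by
        by_contra hcon
        push Not at hcon
        have e1 : (1 / 2 : ℝ) ^ 2 ≤ r ^ 2 := pow_le_pow_left₀ (by norm_num) hcon 2
        rw [hr2, le_div_iff₀ (by positivity)] at e1
        nlinarith
      obtain ⟨e1, e2, e3, e4⟩ := tube_upper r hr0 hr1
      refine ⟨_, e1, e2, ?_, ?_⟩
      · rw [e3, hr2]
        congr 1
        field_simp
      · refine e4.trans (le_of_eq ?_)
        congr 1
        have : Real.pi * r = √(Real.pi * v) := by
          rw [eq_comm, Real.sqrt_eq_iff_mul_self_eq (by positivity) (by positivity)]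
          have : Real.pi * r * (Real.pi * r) = Real.pi ^ 2 * r ^ 2 := by ring
          rw [this, hr2]
          field_simp
        rw [← this]; ring
  · rw [min_eq_right h]
    obtain ⟨e1, e2, e3, e4⟩ := slab_upper v h0.le (by linarith)
    exact ⟨_, e1, e2, e3, e4.trans (by simp)⟩

end UpJAux

open UpJAux

theorem upper_J (V : ℝ) (h0 : 0 < V) (h1 : V < 1) :
    ∃ E : Set R3, MeasurableSet E ∧ PeriodicSet E ∧ volume (E ∩ cell) = ENNReal.ofReal V ∧
      perimeter E ≤ ENNReal.ofReal (J V) := by
  unfold J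
  rcases le_total V (1 - V) with h | h
  · rw [min_eq_left h]
    exact half V h0 (by linarith)
  · rw [min_eq_right h]
    obtain ⟨E, e1, e2, e3, e4⟩ := half (1 - V) (by linarith) (by linarith)
    refine ⟨Eᶜ, e1.compl, fun x i => ?_, ?_, ?_⟩
    · simp only [mem_compl_iff, e2 x i]
    · have hsplit := measure_inter_add_sdiff cell e1 (μ := (volume : Measure R3))
      rw [inter_comm, e3, vol_cell] at hsplit
      have heq : Eᶜ ∩ cell = cell \ E := by
        ext x; simp [and_comm]
      rw [heq]
      have : ENNReal.ofReal (1 - V) + ENNReal.ofReal V = 1 := by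
        rw [← ENNReal.ofReal_add (by linarith) h0.le]
        simp
      rw [← this] at hsplit
      exact (ENNReal.add_right_inj ENNReal.ofReal_ne_top).1 hsplit
    · rw [perimeter_compl E e1]
      exact e4

end P232
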