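import Vale.Agent.P232.Cell
import Vale.Agent.P232.Symmetrize
import Vale.Agent.P232.Types
import Vale.Agent.P232.UpCompl
import Vale.Agent.P232.UpJ

/-!
# P232 [FIN]: assembly of the final theorem.
-/

open MeasureTheory Set Filter Topology
open scoped ENNReal ContDiff

namespace P232.Fin

theorem JQ_two (V : ℝ) (h1 : V ≤ 1 / 2) : J V = 2 * JQ V := by
  have hm : min V (1 - V) = V := min_eq_left (by linarith)
  have h8 : (36 * Real.pi) ^ (1 / 3 : ℝ) = 2 * (9 * Real.pi / 2) ^ (1 / 3 : ℝ) := by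
    have e : 36 * Real.pi = 2 ^ (3 : ℝ) * (9 * Real.pi / 2) := by
      have : (2 : ℝ) ^ (3 : ℝ) = 8 := by
        rw [show (3 : ℝ) = ((3 : ℕ) : ℝ) by norm_num, Real.rpow_natCast]; norm_num
      rw [this]; ring
    rw [e, Real.mul_rpow (by positivity) (by positivity), ← Real.rpow_mul (by norm_num)]
    norm_num
  unfold J JQ
  rw [hm, h8, mul_min_of_nonneg _ _ (by norm_num : (0 : ℝ) ≤ 2),
    mul_min_of_nonneg _ _ (by norm_num : (0 : ℝ) ≤ 2)]
  norm_num [mul_assoc]

theorem J_symm (V : ℝ) : J (1 - V) = J V := by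
  unfold J
  have : min (1 - V) (1 - (1 - V)) = min V (1 - V) := by rw [sub_sub_cancel, min_comm]
  rw [this]

theorem J_nonneg (V : ℝ) (h0 : 0 ≤ V) (h1 : V ≤ 1) : 0 ≤ J V := by
  have hm : 0 ≤ min V (1 - V) := le_min h0 (by linarith)
  unfold J
  refine le_min (le_min ?_ ?_) (by norm_num)
  · exact mul_nonneg (Real.rpow_nonneg (by positivity) _) (Real.rpow_nonneg hm _)
  · positivity

theorem lower_half (V : ℝ) (h0 : 0 < V) (h1 : V ≤ 1 / 2) (E : Set R3) (hm : MeasurableSet E)
    (hp : PeriodicSet E) (hV : volume (E ∩ cell) = ENNReal.ofReal V) :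
    ENNReal.ofReal (J V) ≤ perimeter E := by
  by_cases hfin : perimeter E = ⊤
  · rw [hfin]; exact le_top
  obtain ⟨D, ho, hD, hvol, hA⟩ := symmetrize E hm hp hfin
  have hP : 0 ≤ (perimeter E).toReal / 2 := by positivity
  have h := cube_bound D ho hD V h0 h1 (hvol.trans hV) _ hP hA
  rw [← ENNReal.ofReal_toReal hfin, JQ_two V h1]
  exact ENNReal.ofReal_le_ofReal (by linarith)

theorem lower (V : ℝ) (h0 : 0 < V) (h1 : V < 1) (E : Set R3) (hm : MeasurableSet E)
    (hp : PeriodicSet E) (hV : volume (E ∩ cell) = ENNReal.ofReal V) :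
    ENNReal.ofReal (J V) ≤ perimeter E := by
  rcases le_or_gt V (1 / 2) with h | h
  · exact lower_half V h0 h E hm hp hV
  · rw [← J_symm V, ← perimeter_compl E hm]
    refine lower_half (1 - V) (by linarith) (by linarith) Eᶜ hm.compl ?_ ?_
    · intro x i
      rw [mem_compl_iff, mem_compl_iff, hp x i]
    · have hc := Cell.measurableSet_cell
      have h1 : volume (cell \ (E ∩ cell)) = volume cell - volume (E ∩ cell) :=
        measure_sdiff inter_subset_right (hm.inter hc).nullMeasurableSet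
          (by rw [hV]; exact ENNReal.ofReal_ne_top)
      have h2 : Eᶜ ∩ cell = cell \ (E ∩ cell) := by
        ext x; simp only [mem_inter_iff, mem_compl_iff, Set.mem_sdiff]; tauto
      rw [h2, h1, Cell.volume_cell, hV, ← ENNReal.ofReal_one, ENNReal.ofReal_sub 1 h0.le]

end P232.Fin

namespace P232

theorem final (V : ℝ) (h0 : 0 < V) (h1 : V < 1) :
    (∀ E : Set R3, MeasurableSet E → PeriodicSet E → volume (E ∩ cell) = ENNReal.ofReal V →
      ENNReal.ofReal (J V) ≤ perimeter E) ∧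
    ∃ E : Set R3, MeasurableSet E ∧ PeriodicSet E ∧ volume (E ∩ cell) = ENNReal.ofReal V ∧
      perimeter E = ENNReal.ofReal (J V) := by
  refine ⟨fun E hm hp hV => Fin.lower V h0 h1 E hm hp hV, ?_⟩
  obtain ⟨E, hm, hp, hV, hP⟩ := upper_J V h0 h1
  exact ⟨E, hm, hp, hV, le_antisymm hP (Fin.lower V h0 h1 E hm hp hV)⟩

end P232

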