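import Vale.Agent.P232.Defs

/-!
# P232, [FLAT]: `P = 1`, `a0 = 1`, `a1 = 0` forces a slab
-/

open MeasureTheory Set Filter Topology
open scoped ENNReal ContDiff

namespace P232

theorem flat_eq (a q : ℝ → ℝ) (V : ℝ) (h : Prof a q 1 V 1 0)
    (hq : ∀ᵐ s ∂(volume.restrict (Ioo (0 : ℝ) 1)), q0 (a s) ≤ q s) :
    ∀ᵐ s ∂(volume.restrict (Ioo (0 : ℝ) 1)), a s = 1 ∨ a s = 0 := by
  set I : ℝ := ∫ s in (0 : ℝ)..1, q s with hI
  have hIeq : I = ∫ s in Ioo (0 : ℝ) 1, q s := by
    rw [hI, intervalIntegral.integral_of_le zero_le_one, integral_Ioc_eq_integral_Ioo]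
  have hI0 : 0 ≤ I := by
    rw [hIeq]
    exact integral_nonneg fun s => h.q_nonneg s
  have hε : ∀ ε : ℝ, 0 < ε → ε < 1 → I ≤ ε := by
    intro ε h0 h1
    have h2 := h.lev (fun _ => ε) continuous_const (fun _ => ⟨h0.le, h1.le⟩)
    rw [intervalIntegral.integral_const_mul, intervalIntegral.integral_const, ← hI] at h2
    simp only [sub_zero, one_smul] at h2
    have h4 : 0 ≤ 1 - ε ^ 2 := by nlinarith
    have h5 : 0 ≤ (1 - ε ^ 2) * ε ^ 2 := mul_nonneg h4 (sq_nonneg _)
    have h3 : 1 - ε ^ 2 ≤ √(1 - ε ^ 2) := Real.le_sqrt_of_sq_le (by nlinarith)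
    nlinarith
  have hIz : I = 0 := by
    refine le_antisymm ?_ hI0
    refine le_of_forall_pos_le_add fun ε h0 => ?_
    rw [zero_add]
    exact (hε (min ε (1 / 2)) (lt_min h0 (by norm_num))
      ((min_le_right _ _).trans_lt (by norm_num))).trans (min_le_left _ _)
  rw [hIeq] at hIz
  have hqz := (integral_eq_zero_iff_of_nonneg (fun s => h.q_nonneg s) h.q_int).1 hIz
  filter_upwards [hq, hqz, ae_restrict_mem measurableSet_Ioo] with s hs hs2 hs3
  have hm := h.mem s hs3
  rw [hs2] at hs
  simp only [Pi.zero_apply] at hs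
  unfold q0 at hs
  rcases le_total (min (√(Real.pi * a s)) (√(Real.pi * (1 - a s)))) 1 with h1 | h1
  · rw [min_eq_left h1] at hs
    rcases le_total (√(Real.pi * a s)) (√(Real.pi * (1 - a s))) with h2 | h2
    · rw [min_eq_left h2] at hs
      right
      have h3 : √(Real.pi * a s) = 0 := le_antisymm hs (Real.sqrt_nonneg _)
      have h4 : Real.pi * a s ≤ 0 := Real.sqrt_eq_zero'.1 h3
      have h5 : a s ≤ 0 := by
        by_contra hcon
        push Not at hcon
        have := mul_pos Real.pi_pos hcon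
        linarith
      exact le_antisymm h5 hm.1
    · rw [min_eq_right h2] at hs
      left
      have h3 : √(Real.pi * (1 - a s)) = 0 := le_antisymm hs (Real.sqrt_nonneg _)
      have h4 : Real.pi * (1 - a s) ≤ 0 := Real.sqrt_eq_zero'.1 h3
      have h5 : 1 - a s ≤ 0 := by
        by_contra hcon
        push Not at hcon
        have := mul_pos Real.pi_pos hcon
        linarith
      exact le_antisymm hm.2 (by linarith)
  · rw [min_eq_right h1] at hs
    exfalso
    linarith

end P232
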