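import Vale.Agent.P232.DefsU

/-!
# P232, [LU]
-/

open MeasureTheory Set Filter Topology
open scoped ENNReal ContDiff

namespace P232

theorem lb_ub (S : Set (ℝ × ℝ)) (c p : ℝ) (hp : 0 ≤ p) (h1 : LB2 S c) (h2 : UB2 S p) : c ≤ p := by
  obtain ⟨G, hG, hG01, hGS, hle⟩ := h2
  exact (ENNReal.ofReal_le_ofReal_iff hp).1 ((h1 G hG hG01 hGS).trans hle)

end P232
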