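import Vale.Agent.P232.Defs

/-!
# P232: the level inequality.
-/

open MeasureTheory Set Filter Topology
open scoped ENNReal ContDiff

namespace P232

namespace LevAux

theorem w_cont (κ : ℝ → ℝ) (hκ : Continuous κ) : Continuous (fun x => √(1 - κ x ^ 2)) :=
  (continuous_const.sub (hκ.pow 2)).sqrt

theorem w_le_one (κ : ℝ → ℝ) (x : ℝ) : √(1 - κ x ^ 2) ≤ 1 := by
  rw [Real.sqrt_le_iff]
  exact ⟨zero_le_one, by nlinarith [sq_nonneg (κ x)]⟩

theorem kaq_int (a q κ : ℝ → ℝ) (ha : AntitoneOn a (Ioo 0 1))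
    (hqi : IntegrableOn q (Ioo 0 1)) (hκ : Continuous κ) (hκ01 : ∀ x, κ x ∈ Icc (0 : ℝ) 1) :
    IntegrableOn (fun s => κ (a s) * q s) (Ioo 0 1) := by
  apply Integrable.bdd_mul (c := 1) hqi
  · have h1 : AEMeasurable a (volume.restrict (Ioo 0 1)) :=
      aemeasurable_restrict_of_antitoneOn measurableSet_Ioo ha
    exact (hκ.measurable.comp_aemeasurable h1).aestronglyMeasurable
  · apply Eventually.of_forall
    intro s
    rw [Real.norm_eq_abs, abs_of_nonneg (hκ01 _).1]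
    exact (hκ01 _).2

/-- local inequality -/
theorem cell (a q κ : ℝ → ℝ) (ha : AntitoneOn a (Ioo 0 1)) (hq : ∀ s, 0 ≤ q s)
    (hqi : IntegrableOn q (Ioo 0 1)) (hκ : Continuous κ) (hκ01 : ∀ x, κ x ∈ Icc (0 : ℝ) 1)
    (ε η : ℝ) (hε : 0 < ε) (A B : ℝ) (hAB : ∀ s ∈ Ioo (0 : ℝ) 1, a s ∈ Icc A B)
    (h1 : ∀ x ∈ Icc A B, ∀ y ∈ Icc A B, |x - y| ≤ η → |κ x - κ y| ≤ ε)
    (h2 : ∀ x ∈ Icc A B, ∀ y ∈ Icc A B, |x - y| ≤ η →
      |√(1 - κ x ^ 2) - √(1 - κ y ^ 2)| ≤ ε)
    (u v : ℝ) (hu : 0 < u) (huv : u < v) (hv : v < 1)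
    (h3 : ∫ x in u..v, q x ≤ ε * η) :
    ∃ c d : ℝ, 0 ≤ c ∧ 0 ≤ d ∧ c ^ 2 + d ^ 2 ≤ 1 ∧
      (∫ s in u..v, κ (a s) * q s) + (∫ x in (a v)..(a u), √(1 - κ x ^ 2)) ≤
        c * (∫ s in u..v, q s) + d * (a u - a v) + ε * ((∫ s in u..v, q s) + (a u - a v)) := by
  have huI : u ∈ Ioo (0 : ℝ) 1 := ⟨hu, huv.trans hv⟩
  have hvI : v ∈ Ioo (0 : ℝ) 1 := ⟨hu.trans huv, hv⟩
  have hsub : Icc u v ⊆ Ioo (0 : ℝ) 1 := fun x hx => ⟨hu.trans_le hx.1, hx.2.trans_lt hv⟩
  have hJ : a v ≤ a u := ha huI hvI huv.le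
  have hqI : IntervalIntegrable q volume u v := by
    rw [intervalIntegrable_iff_integrableOn_Ioc_of_le huv.le]
    exact hqi.mono_set (Ioc_subset_Icc_self.trans hsub)
  have hkqI : IntervalIntegrable (fun s => κ (a s) * q s) volume u v := by
    rw [intervalIntegrable_iff_integrableOn_Ioc_of_le huv.le]
    exact (kaq_int a q κ ha hqi hκ hκ01).mono_set (Ioc_subset_Icc_self.trans hsub)
  have hQ0 : 0 ≤ ∫ s in u..v, q s := intervalIntegral.integral_nonneg huv.le (fun s _ => hq s)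
  have hwI : IntervalIntegrable (fun x => √(1 - κ x ^ 2)) volume (a v) (a u) :=
    (w_cont κ hκ).intervalIntegrable _ _
  by_cases hgood : a u - a v ≤ η
  · refine ⟨κ (a u), √(1 - κ (a u) ^ 2), (hκ01 _).1, Real.sqrt_nonneg _, ?_, ?_⟩
    · rw [Real.sq_sqrt]
      · linarith
      · have := hκ01 (a u)
        nlinarith [this.1, this.2]
    · have e1 : ∫ s in u..v, κ (a s) * q s ≤ ∫ s in u..v, (κ (a u) + ε) * q s := by
        apply intervalIntegral.integral_mono_on huv.le hkqI (hqI.const_mul _)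
        intro s hs
        apply mul_le_mul_of_nonneg_right _ (hq s)
        have hsI := hsub hs
        have h4 : a s ≤ a u := ha huI hsI hs.1
        have h5 : a v ≤ a s := ha hsI hvI hs.2
        have := h1 (a s) (hAB s hsI) (a u) (hAB u huI) (by rw [abs_le]; constructor <;> linarith)
        rw [abs_le] at this
        linarith [this.2]
      have e2 : ∫ x in (a v)..(a u), √(1 - κ x ^ 2) ≤
          ∫ _x in (a v)..(a u), (√(1 - κ (a u) ^ 2) + ε) := by
        apply intervalIntegral.integral_mono_on hJ hwI intervalIntegrable_const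
        intro x hx
        have hxI : x ∈ Icc A B := ⟨(hAB v hvI).1.trans hx.1, hx.2.trans (hAB u huI).2⟩
        have := h2 x hxI (a u) (hAB u huI) (by rw [abs_le]; constructor <;> linarith [hx.1, hx.2])
        rw [abs_le] at this
        linarith [this.2]
      rw [intervalIntegral.integral_const_mul] at e1
      rw [intervalIntegral.integral_const, smul_eq_mul] at e2
      nlinarith [e1, e2]
  · push Not at hgood
    refine ⟨0, 1, le_rfl, zero_le_one, by norm_num, ?_⟩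
    have e1 : ∫ s in u..v, κ (a s) * q s ≤ ∫ s in u..v, q s := by
      apply intervalIntegral.integral_mono_on huv.le hkqI hqI
      intro s hs
      have := mul_le_mul_of_nonneg_right (hκ01 (a s)).2 (hq s)
      linarith
    have e2 : ∫ x in (a v)..(a u), √(1 - κ x ^ 2) ≤ ∫ _x in (a v)..(a u), (1 : ℝ) := by
      apply intervalIntegral.integral_mono_on hJ hwI intervalIntegrable_const
      intro x hx
      exact w_le_one κ x
    rw [intervalIntegral.integral_const, smul_eq_mul] at e2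
    have e3 : ε * η ≤ ε * (a u - a v) := mul_le_mul_of_nonneg_left hgood.le hε.le
    nlinarith [mul_nonneg hε.le hQ0]

theorem exists_in_G (G : Set ℝ) (hG : volume (Ioo (0 : ℝ) 1 \ G) = 0) (x y : ℝ) (hx : 0 ≤ x)
    (hxy : x < y) (hy : y ≤ 1) : ∃ z ∈ G, x < z ∧ z < y := by
  by_contra hcon
  push Not at hcon
  have h1 : Ioo x y ⊆ Ioo (0 : ℝ) 1 \ G := by
    intro z hz
    refine ⟨⟨hx.trans_lt hz.1, hz.2.trans_le hy⟩, fun hzG => ?_⟩
    exact absurd hz.2 (not_lt.2 (hcon z hzG hz.1))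
  have h2 := measure_mono_null h1 hG
  rw [Real.volume_Ioo, ENNReal.ofReal_eq_zero] at h2
  linarith

/-- approximate inequality -/
theorem approx (a q : ℝ → ℝ) (P : ℝ) (ha : AntitoneOn a (Ioo 0 1))
    (hq : ∀ s, 0 ≤ q s) (hqi : IntegrableOn q (Ioo 0 1))
    (hP : PartIneq a q P) (a0 a1 : ℝ) (hAB : ∀ s ∈ Ioo (0 : ℝ) 1, a s ∈ Icc a1 a0)
    (κ : ℝ → ℝ) (hκ : Continuous κ)
    (hκ01 : ∀ x, κ x ∈ Icc (0 : ℝ) 1) (ε : ℝ) (hε : 0 < ε) :
    ∃ u v : ℝ, 0 < u ∧ u < ε ∧ 1 - ε < v ∧ v < 1 ∧ u ≤ v ∧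
      (∫ s in u..v, κ (a s) * q s) + (∫ x in (a v)..(a u), √(1 - κ x ^ 2)) ≤
        P + ε * ((∫ s in (0 : ℝ)..1, q s) + (a0 - a1)) := by
  obtain ⟨G, hG1, hG2, hG3⟩ := hP
  -- moduli
  obtain ⟨δ1, hδ1, h1⟩ := Metric.uniformContinuousOn_iff.1
    (isCompact_Icc.uniformContinuousOn_of_continuous (s := Icc a1 a0) hκ.continuousOn) ε hε
  obtain ⟨δ2, hδ2, h2⟩ := Metric.uniformContinuousOn_iff.1
    (isCompact_Icc.uniformContinuousOn_of_continuous (s := Icc a1 a0) (w_cont κ hκ).continuousOn) ε hε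
  set η := min δ1 δ2 / 2 with hη
  have hη0 : 0 < η := by positivity
  have hη1 : η < δ1 := by
    have := min_le_left δ1 δ2
    linarith
  have hη2 : η < δ2 := by
    have := min_le_right δ1 δ2
    linarith
  have hqI : IntervalIntegrable q volume 0 1 := by
    rw [intervalIntegrable_iff_integrableOn_Ioo_of_le zero_le_one]
    exact hqi
  have hΦc : ContinuousOn (fun x => ∫ t in (0 : ℝ)..x, q t) (Icc 0 1) := by
    have := intervalIntegral.continuousOn_primitive_interval' hqI (left_mem_uIcc)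
    rwa [uIcc_of_le zero_le_one] at this
  obtain ⟨ρ, hρ, h3⟩ := Metric.uniformContinuousOn_iff.1
    (isCompact_Icc.uniformContinuousOn_of_continuous hΦc) (ε * η) (by positivity)
  -- N
  obtain ⟨N, hN⟩ := exists_nat_gt (max (2 / ρ) (2 / ε))
  have hN1 : 2 / ρ < N := (le_max_left _ _).trans_lt hN
  have hN2 : 2 / ε < N := (le_max_right _ _).trans_lt hN
  have hNpos : (0 : ℝ) < N := lt_trans (by positivity) hN1
  have hM : (0 : ℝ) < (N : ℝ) + 1 := by positivity
  have hM1 : 2 / ((N : ℝ) + 1) < ρ := by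
    rw [div_lt_iff₀ hρ] at hN1
    rw [div_lt_iff₀ hM]
    nlinarith
  have hM2 : 2 / ((N : ℝ) + 1) < ε := by
    rw [div_lt_iff₀ hε] at hN2
    rw [div_lt_iff₀ hM]
    nlinarith
  have hex : ∀ i : ℕ, ∃ z, i ≤ N → z ∈ G ∧ (i : ℝ) / (N + 1) < z ∧ z < ((i : ℝ) + 1) / (N + 1) := by
    intro i
    by_cases hi : i ≤ N
    · obtain ⟨z, hz1, hz2, hz3⟩ := exists_in_G G hG2 ((i : ℝ) / (N + 1)) (((i : ℝ) + 1) / (N + 1))
        (by positivity) (by apply div_lt_div_of_pos_right _ hM; linarith)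
        (by
          rw [div_le_one hM]
          have : (i : ℝ) ≤ N := by exact_mod_cast hi
          linarith)
      exact ⟨z, fun _ => ⟨hz1, hz2, hz3⟩⟩
    · exact ⟨0, fun h => absurd h hi⟩
  choose s hs using hex
  have hsG : ∀ i ≤ N, s i ∈ G := fun i hi => (hs i hi).1
  have hsI : ∀ i ≤ N, s i ∈ Ioo (0 : ℝ) 1 := fun i hi => hG1 (hsG i hi)
  have hslt : ∀ i < N, s i < s (i + 1) := by
    intro i hi
    have e1 := (hs i hi.le).2.2
    have e2 := (hs (i + 1) hi).2.1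
    push_cast at e2
    exact e1.trans e2
  have hmesh : ∀ i < N, s (i + 1) - s i < ρ := by
    intro i hi
    have e1 := (hs i hi.le).2.1
    have e2 := (hs (i + 1) hi).2.2
    push_cast at e2
    have e3 : ((i : ℝ) + 1 + 1) / (N + 1) - (i : ℝ) / (N + 1) = 2 / ((N : ℝ) + 1) := by
      field_simp; ring
    linarith
  have hcellex : ∀ i : ℕ, ∃ c d : ℝ, i < N → 0 ≤ c ∧ 0 ≤ d ∧ c ^ 2 + d ^ 2 ≤ 1 ∧
      (∫ x in (s i)..(s (i + 1)), κ (a x) * q x) +
        (∫ x in (a (s (i + 1)))..(a (s i)), √(1 - κ x ^ 2)) ≤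
        c * (∫ x in (s i)..(s (i + 1)), q x) + d * (a (s i) - a (s (i + 1))) +
        ε * ((∫ x in (s i)..(s (i + 1)), q x) + (a (s i) - a (s (i + 1)))) := by
    intro i
    by_cases hi : i < N
    · have hi0 := hsI i hi.le
      have hi1 := hsI (i + 1) hi
      obtain ⟨c, d, hcd⟩ := cell a q κ ha hq hqi hκ hκ01 ε η hε a1 a0 hAB
        (fun x hx y hy hxy => (h1 x hx y hy (lt_of_le_of_lt hxy hη1)).le)
        (fun x hx y hy hxy => (h2 x hx y hy (lt_of_le_of_lt hxy hη2)).le)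
        (s i) (s (i + 1)) hi0.1 (hslt i hi) hi1.2 (by
          have e1 : IntervalIntegrable q volume 0 (s (i + 1)) := by
            apply hqI.mono_set
            rw [uIcc_of_le hi1.1.le, uIcc_of_le zero_le_one]
            exact Icc_subset_Icc le_rfl hi1.2.le
          have e2 : IntervalIntegrable q volume 0 (s i) := by
            apply hqI.mono_set
            rw [uIcc_of_le hi0.1.le, uIcc_of_le zero_le_one]
            exact Icc_subset_Icc le_rfl hi0.2.le
          rw [← intervalIntegral.integral_interval_sub_left e1 e2]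
          have e3 := h3 (s (i + 1)) ⟨hi1.1.le, hi1.2.le⟩ (s i) ⟨hi0.1.le, hi0.2.le⟩ (by
            rw [Real.dist_eq, abs_of_pos (by linarith [hslt i hi])]
            exact hmesh i hi)
          rw [Real.dist_eq] at e3
          exact (le_abs_self _).trans e3.le)
      exact ⟨c, d, fun _ => hcd⟩
    · exact ⟨0, 0, fun h => absurd h hi⟩
  choose c d hcd using hcellex
  have hpart := hG3 N s c d hsG hslt (fun i hi => ⟨(hcd i hi).1, (hcd i hi).2.1, (hcd i hi).2.2.1⟩)
  -- total sums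
  have hmono : s 0 ≤ s N := by
    have : ∀ k ≤ N, s 0 ≤ s k := by
      intro k
      induction k with
      | zero => intro _; exact le_rfl
      | succ k ih => intro hk; exact (ih (by omega)).trans (hslt k (by omega)).le
    exact this N le_rfl
  have hsubI : ∀ i < N, uIcc (s i) (s (i + 1)) ⊆ uIcc 0 1 := by
    intro i hi
    rw [uIcc_of_le (hslt i hi).le, uIcc_of_le zero_le_one]
    exact Icc_subset_Icc (hsI i hi.le).1.le (hsI (i + 1) hi).2.le
  have hkqI : IntervalIntegrable (fun s => κ (a s) * q s) volume 0 1 := by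
    rw [intervalIntegrable_iff_integrableOn_Ioo_of_le zero_le_one]
    exact kaq_int a q κ ha hqi hκ hκ01
  have sum1 : ∑ i ∈ Finset.range N, (∫ x in (s i)..(s (i + 1)), κ (a x) * q x) =
      ∫ x in (s 0)..(s N), κ (a x) * q x :=
    intervalIntegral.sum_integral_adjacent_intervals (fun i hi => hkqI.mono_set (hsubI i hi))
  have sum2 : ∑ i ∈ Finset.range N, (∫ x in (a (s (i + 1)))..(a (s i)), √(1 - κ x ^ 2)) =
      ∫ x in (a (s N))..(a (s 0)), √(1 - κ x ^ 2) := by
    have e1 := intervalIntegral.sum_integral_adjacent_intervals (f := fun x => √(1 - κ x ^ 2))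
      (μ := volume) (a := fun i => a (s i)) (n := N)
      (fun i _ => (w_cont κ hκ).intervalIntegrable _ _)
    rw [intervalIntegral.integral_symm, ← e1, ← Finset.sum_neg_distrib]
    apply Finset.sum_congr rfl
    intro i _
    rw [intervalIntegral.integral_symm]
  have sum3 : ∑ i ∈ Finset.range N, (∫ x in (s i)..(s (i + 1)), q x) ≤ ∫ x in (0 : ℝ)..1, q x := by
    rw [intervalIntegral.sum_integral_adjacent_intervals (fun i hi => hqI.mono_set (hsubI i hi))]
    apply intervalIntegral.integral_mono_interval (hsI 0 (Nat.zero_le _)).1.le hmono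
      (hsI N le_rfl).2.le (Eventually.of_forall hq) hqI
  have sum4 : ∑ i ∈ Finset.range N, (a (s i) - a (s (i + 1))) ≤ a0 - a1 := by
    rw [Finset.sum_range_sub']
    linarith [(hAB _ (hsI 0 (Nat.zero_le _))).2, (hAB _ (hsI N le_rfl)).1]
  refine ⟨s 0, s N, (hsI 0 (Nat.zero_le _)).1, ?_, ?_, (hsI N le_rfl).2, hmono, ?_⟩
  · have := (hs 0 (Nat.zero_le _)).2.2
    have e : (0 + 1 : ℝ) / (N + 1) ≤ 2 / ((N : ℝ) + 1) := by
      apply div_le_div_of_nonneg_right _ hM.le
      norm_num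
    push_cast at this
    linarith
  · have := (hs N le_rfl).2.1
    have e : (N : ℝ) / (N + 1) = 1 - 1 / ((N : ℝ) + 1) := by field_simp; ring
    have e' : (1 : ℝ) / (N + 1) ≤ 2 / ((N : ℝ) + 1) := by
      apply div_le_div_of_nonneg_right _ hM.le
      norm_num
    linarith
  · rw [← sum1, ← sum2, ← Finset.sum_add_distrib]
    calc ∑ i ∈ Finset.range N, ((∫ x in (s i)..(s (i + 1)), κ (a x) * q x) +
          ∫ x in (a (s (i + 1)))..(a (s i)), √(1 - κ x ^ 2))
        ≤ ∑ i ∈ Finset.range N, (c i * (∫ x in (s i)..(s (i + 1)), q x) +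
            d i * (a (s i) - a (s (i + 1))) +
            ε * ((∫ x in (s i)..(s (i + 1)), q x) + (a (s i) - a (s (i + 1))))) := by
          apply Finset.sum_le_sum
          intro i hi
          exact (hcd i (Finset.mem_range.1 hi)).2.2.2
      _ = ∑ i ∈ Finset.range N, (c i * (∫ x in (s i)..(s (i + 1)), q x) +
            d i * (a (s i) - a (s (i + 1)))) +
          ε * (∑ i ∈ Finset.range N, (∫ x in (s i)..(s (i + 1)), q x) +
            ∑ i ∈ Finset.range N, (a (s i) - a (s (i + 1)))) := by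
          rw [Finset.sum_add_distrib, ← Finset.mul_sum, Finset.sum_add_distrib (f := fun i =>
            ∫ x in (s i)..(s (i + 1)), q x)]
      _ ≤ P + ε * ((∫ s in (0 : ℝ)..1, q s) + (a0 - a1)) := by
          apply add_le_add hpart
          apply mul_le_mul_of_nonneg_left _ hε.le
          exact add_le_add sum3 sum4

end LevAux

open LevAux

theorem level (a q : ℝ → ℝ) (P : ℝ) (ha : AntitoneOn a (Ioo 0 1))
    (hq : ∀ s, 0 ≤ q s) (hqm : Measurable q) (hqi : IntegrableOn q (Ioo 0 1))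
    (hP : PartIneq a q P) (a0 a1 : ℝ) (h0 : Tendsto a (𝓝[>] 0) (𝓝 a0))
    (h1 : Tendsto a (𝓝[<] 1) (𝓝 a1)) (κ : ℝ → ℝ) (hκ : Continuous κ)
    (hκ01 : ∀ x, κ x ∈ Icc (0 : ℝ) 1) :
    (∫ s in (0 : ℝ)..1, κ (a s) * q s) + (∫ x in a1..a0, √(1 - κ x ^ 2)) ≤ P := by
  have hAB : ∀ s ∈ Ioo (0 : ℝ) 1, a s ∈ Icc a1 a0 := by
    intro s hs
    constructor
    · apply le_of_tendsto h1
      filter_upwards [Ioo_mem_nhdsLT hs.2] with x hx
      exact ha hs ⟨hs.1.trans hx.1, hx.2⟩ hx.1.le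
    · apply ge_of_tendsto h0
      filter_upwards [Ioo_mem_nhdsGT hs.1] with x hx
      exact ha ⟨hx.1, hx.2.trans hs.2⟩ hs hx.2.le
  have hex : ∀ n : ℕ, ∃ u v : ℝ, 0 < u ∧ u < 1 / ((n : ℝ) + 1) ∧ 1 - 1 / ((n : ℝ) + 1) < v ∧
      v < 1 ∧ u ≤ v ∧
      (∫ s in u..v, κ (a s) * q s) + (∫ x in (a v)..(a u), √(1 - κ x ^ 2)) ≤
        P + 1 / ((n : ℝ) + 1) * ((∫ s in (0 : ℝ)..1, q s) + (a0 - a1)) := fun n =>
    approx a q P ha hq hqi hP a0 a1 hAB κ hκ hκ01 (1 / ((n : ℝ) + 1)) (by positivity)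
  choose u v hu0 hun hvn hv1 huv hle using hex
  have hlim0 : Tendsto (fun n : ℕ => 1 / ((n : ℝ) + 1)) atTop (𝓝 0) :=
    tendsto_one_div_add_atTop_nhds_zero_nat
  have hu : Tendsto u atTop (𝓝 0) :=
    squeeze_zero (fun n => (hu0 n).le) (fun n => (hun n).le) hlim0
  have hv : Tendsto v atTop (𝓝 1) := by
    have : Tendsto (fun n : ℕ => 1 - 1 / ((n : ℝ) + 1)) atTop (𝓝 (1 - 0)) :=
      tendsto_const_nhds.sub hlim0
    rw [sub_zero] at this
    exact tendsto_of_tendsto_of_tendsto_of_le_of_le this tendsto_const_nhds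
      (fun n => (hvn n).le) (fun n => (hv1 n).le)
  have hu' : Tendsto u atTop (𝓝[>] 0) :=
    tendsto_nhdsWithin_iff.2 ⟨hu, Eventually.of_forall hu0⟩
  have hv' : Tendsto v atTop (𝓝[<] 1) :=
    tendsto_nhdsWithin_iff.2 ⟨hv, Eventually.of_forall hv1⟩
  have hau := h0.comp hu'
  have hav := h1.comp hv'
  have hkqI : IntervalIntegrable (fun s => κ (a s) * q s) volume 0 1 := by
    rw [intervalIntegrable_iff_integrableOn_Ioo_of_le zero_le_one]
    exact kaq_int a q κ ha hqi hκ hκ01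
  have hΨ : ContinuousOn (fun x => ∫ t in (0 : ℝ)..x, κ (a t) * q t) (Icc 0 1) := by
    have := intervalIntegral.continuousOn_primitive_interval' hkqI (left_mem_uIcc)
    rwa [uIcc_of_le zero_le_one] at this
  have hI1 : Tendsto (fun n => ∫ s in (u n)..(v n), κ (a s) * q s) atTop
      (𝓝 (∫ s in (0 : ℝ)..1, κ (a s) * q s)) := by
    have e1 : Tendsto (fun n => ∫ t in (0 : ℝ)..(v n), κ (a t) * q t) atTop
        (𝓝 (∫ t in (0 : ℝ)..1, κ (a t) * q t)) :=
      (hΨ 1 (by simp)).tendsto.comp (tendsto_nhdsWithin_iff.2 ⟨hv,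
        Eventually.of_forall fun n => ⟨(hu0 n).le.trans (huv n), (hv1 n).le⟩⟩)
    have e2 : Tendsto (fun n => ∫ t in (0 : ℝ)..(u n), κ (a t) * q t) atTop
        (𝓝 (∫ t in (0 : ℝ)..0, κ (a t) * q t)) :=
      (hΨ 0 (by simp)).tendsto.comp (tendsto_nhdsWithin_iff.2 ⟨hu,
        Eventually.of_forall fun n => ⟨(hu0 n).le, (huv n).trans (hv1 n).le⟩⟩)
    have e3 := e1.sub e2
    rw [intervalIntegral.integral_same, sub_zero] at e3
    refine e3.congr fun n => ?_
    apply intervalIntegral.integral_interval_sub_left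
    · apply hkqI.mono_set
      rw [uIcc_of_le ((hu0 n).le.trans (huv n)), uIcc_of_le zero_le_one]
      exact Icc_subset_Icc le_rfl (hv1 n).le
    · apply hkqI.mono_set
      rw [uIcc_of_le (hu0 n).le, uIcc_of_le zero_le_one]
      exact Icc_subset_Icc le_rfl ((huv n).trans (hv1 n).le)
  have hW : Continuous (fun x => ∫ t in (0 : ℝ)..x, √(1 - κ t ^ 2)) :=
    intervalIntegral.continuous_primitive (fun _ _ => (w_cont κ hκ).intervalIntegrable _ _) 0
  have hI2 : Tendsto (fun n => ∫ x in (a (v n))..(a (u n)), √(1 - κ x ^ 2)) atTop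
      (𝓝 (∫ x in a1..a0, √(1 - κ x ^ 2))) := by
    have e1 := ((hW.tendsto a0).comp hau).sub ((hW.tendsto a1).comp hav)
    rw [intervalIntegral.integral_interval_sub_left ((w_cont κ hκ).intervalIntegrable _ _)
      ((w_cont κ hκ).intervalIntegrable _ _)] at e1
    refine e1.congr fun n => ?_
    exact intervalIntegral.integral_interval_sub_left ((w_cont κ hκ).intervalIntegrable _ _)
      ((w_cont κ hκ).intervalIntegrable _ _)
  have hR : Tendsto (fun n : ℕ => P + 1 / ((n : ℝ) + 1) *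
      ((∫ s in (0 : ℝ)..1, q s) + (a0 - a1))) atTop (𝓝 (P + 0 *
      ((∫ s in (0 : ℝ)..1, q s) + (a0 - a1)))) :=
    tendsto_const_nhds.add (hlim0.mul_const _)
  rw [zero_mul, add_zero] at hR
  exact le_of_tendsto_of_tendsto' (hI1.add hI2) hR hle

end P232
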