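import Vale.Agent.P232.Defs

/-!
# P232: numeric lemmas, part A.
-/

open MeasureTheory Set Filter Topology
open scoped ENNReal ContDiff

namespace P232

theorem t3_sound (k0 k1 y0 y1 l0 l1 p : ℝ) (hk0 : 0 ≤ k0) (hk1 : 0 ≤ k1) (hy0 : 0 ≤ y0)
    (hy1 : 0 ≤ y1) (hl0 : 0 ≤ l0) (hl1 : 0 ≤ l1) (hp0 : 0 ≤ p) (hp : p ≤ Real.pi)
    (h1 : l0 ^ 2 ≤ p * (k0 ^ 2 * y0))
    (h2 : l0 ^ 2 + 2 * l0 * l1 ≤ p * (k0 ^ 2 * y1 + 2 * k0 * k1 * y0))
    (h3 : 2 * l0 * l1 + l1 ^ 2 ≤ p * (2 * k0 * k1 * y1 + k1 ^ 2 * y0))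
    (h4 : l1 ^ 2 ≤ p * (k1 ^ 2 * y1)) (t : ℝ) (ht : t ∈ Icc (0 : ℝ) 1) :
    (1 - t) * l0 + t * l1 ≤ ((1 - t) * k0 + t * k1) * √(Real.pi * ((1 - t) * y0 + t * y1)) := by
  obtain ⟨ht0, ht1⟩ := ht
  have hu : 0 ≤ 1 - t := by linarith
  have hK : 0 ≤ (1 - t) * k0 + t * k1 := by positivity
  have hY : 0 ≤ (1 - t) * y0 + t * y1 := by positivity
  have hL : 0 ≤ (1 - t) * l0 + t * l1 := by positivity
  have key : ((1 - t) * l0 + t * l1) ^ 2 ≤
      p * (((1 - t) * k0 + t * k1) ^ 2 * ((1 - t) * y0 + t * y1)) := by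
    have e1 := mul_le_mul_of_nonneg_left h1 (by positivity : 0 ≤ (1 - t) ^ 3)
    have e2 := mul_le_mul_of_nonneg_left h2 (by positivity : 0 ≤ (1 - t) ^ 2 * t)
    have e3 := mul_le_mul_of_nonneg_left h3 (by positivity : 0 ≤ (1 - t) * t ^ 2)
    have e4 := mul_le_mul_of_nonneg_left h4 (by positivity : 0 ≤ t ^ 3)
    nlinarith [e1, e2, e3, e4]
  have key2 : ((1 - t) * l0 + t * l1) ^ 2 ≤
      ((1 - t) * k0 + t * k1) ^ 2 * (Real.pi * ((1 - t) * y0 + t * y1)) := by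
    refine key.trans ?_
    have : 0 ≤ ((1 - t) * k0 + t * k1) ^ 2 * ((1 - t) * y0 + t * y1) := by positivity
    nlinarith [mul_le_mul_of_nonneg_right hp this]
  calc (1 - t) * l0 + t * l1 = √(((1 - t) * l0 + t * l1) ^ 2) := (Real.sqrt_sq hL).symm
    _ ≤ √(((1 - t) * k0 + t * k1) ^ 2 * (Real.pi * ((1 - t) * y0 + t * y1))) :=
        Real.sqrt_le_sqrt key2
    _ = _ := by rw [Real.sqrt_mul (by positivity), Real.sqrt_sq hK]

theorem t2_sound (k0 k1 s0 s1 l0 l1 : ℝ) (h1 : l0 ≤ k0 * s0)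
    (h2 : l0 + l1 ≤ k0 * s1 + k1 * s0) (h3 : l1 ≤ k1 * s1) (t : ℝ) (ht : t ∈ Icc (0 : ℝ) 1) :
    (1 - t) * l0 + t * l1 ≤ ((1 - t) * k0 + t * k1) * ((1 - t) * s0 + t * s1) := by
  obtain ⟨ht0, ht1⟩ := ht
  have hu : 0 ≤ 1 - t := by linarith
  have e1 := mul_le_mul_of_nonneg_left h1 (by positivity : 0 ≤ (1 - t) ^ 2)
  have e2 := mul_le_mul_of_nonneg_left h2 (by positivity : 0 ≤ (1 - t) * t)
  have e3 := mul_le_mul_of_nonneg_left h3 (by positivity : 0 ≤ t ^ 2)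
  nlinarith [e1, e2, e3]

theorem JQ_le_one (V : ℝ) : JQ V ≤ 1 := min_le_right _ _

theorem JQ_le_tube (V ρ : ℝ) (hV : 0 ≤ V) (hρ : 0 < ρ) : JQ V ≤ ρ * V + Real.pi / (4 * ρ) := by
  refine ((min_le_left _ _).trans (min_le_right _ _)).trans ?_
  have hπ := Real.pi_pos
  have h0 : 0 ≤ ρ * V + Real.pi / (4 * ρ) := by positivity
  rw [Real.sqrt_le_left h0]
  have e : (ρ * V) * (Real.pi / (4 * ρ)) = Real.pi * V / 4 := by field_simp
  nlinarith [sq_nonneg (ρ * V - Real.pi / (4 * ρ))]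

theorem JQ_le_ball (V ρ : ℝ) (hV : 0 ≤ V) (hρ : 0 < ρ) :
    JQ V ≤ ρ * V + 2 * Real.pi / (3 * ρ ^ 2) := by
  refine ((min_le_left _ _).trans (min_le_left _ _)).trans ?_
  have hπ := Real.pi_pos
  set X := ρ * V + 2 * Real.pi / (3 * ρ ^ 2) with hX
  have hX0 : 0 ≤ X := by positivity
  have key : 9 * Real.pi / 2 * V ^ 2 ≤ X ^ 3 := by
    have e : (ρ * V / 2) ^ 2 * (2 * Real.pi / (3 * ρ ^ 2)) * 27 = 9 * Real.pi / 2 * V ^ 2 := by
      field_simp; ring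
    set a := ρ * V / 2 with ha
    set c := 2 * Real.pi / (3 * ρ ^ 2) with hc
    have ha0 : 0 ≤ a := by positivity
    have hc0 : 0 ≤ c := by positivity
    have hXa : X = 2 * a + c := by rw [hX, ha]; ring
    rw [← e, hXa]
    nlinarith [mul_nonneg (sq_nonneg (c - a)) (by positivity : 0 ≤ 8 * a + c)]
  have e1 : (9 * Real.pi / 2) ^ (1 / 3 : ℝ) * V ^ (2 / 3 : ℝ) =
      (9 * Real.pi / 2 * V ^ 2) ^ (1 / 3 : ℝ) := by
    rw [Real.mul_rpow (by positivity) (by positivity), ← Real.rpow_natCast V 2,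
      ← Real.rpow_mul hV]
    norm_num
  have e2 : X = (X ^ 3) ^ (1 / 3 : ℝ) := by
    rw [← Real.rpow_natCast X 3, ← Real.rpow_mul hX0]
    norm_num
  rw [e1, e2]
  exact Real.rpow_le_rpow (by positivity) key (by norm_num)

namespace NumA

theorem conv_sq (w0 w1 k0 k1 t : ℝ) (h0 : w0 ^ 2 + k0 ^ 2 ≤ 1) (h1 : w1 ^ 2 + k1 ^ 2 ≤ 1)
    (ht0 : 0 ≤ t) (ht1 : t ≤ 1) :
    ((1 - t) * w0 + t * w1) ^ 2 + ((1 - t) * k0 + t * k1) ^ 2 ≤ 1 := by
  have hu : 0 ≤ 1 - t := by linarith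
  have e0 := mul_le_mul_of_nonneg_left h0 hu
  have e1 := mul_le_mul_of_nonneg_left h1 ht0
  have e2 : 0 ≤ (1 - t) * t * ((w0 - w1) ^ 2 + (k0 - k1) ^ 2) := by positivity
  nlinarith [e0, e1, e2]

end NumA

/-- trapezoid bound for the concave integrand -/
theorem trap (u v k0 k1 w0 w1 : ℝ) (huv : u ≤ v) (hk0 : 0 ≤ k0) (hk1 : 0 ≤ k1) (hw0 : 0 ≤ w0)
    (hw1 : 0 ≤ w1) (h0 : w0 ^ 2 + k0 ^ 2 ≤ 1) (h1 : w1 ^ 2 + k1 ^ 2 ≤ 1) (κ : ℝ → ℝ)
    (hκ : ∀ t ∈ Icc (0 : ℝ) 1, κ ((1 - t) * u + t * v) = (1 - t) * k0 + t * k1) :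
    (v - u) * (w0 + w1) / 2 ≤ ∫ x in u..v, √(1 - κ x ^ 2) := by
  rcases huv.eq_or_lt with rfl | hlt
  · simp
  have hd : 0 < v - u := by linarith
  have hpt : ∀ x ∈ Icc u v, (x - u) / (v - u) ∈ Icc (0 : ℝ) 1 ∧
      x = (1 - (x - u) / (v - u)) * u + (x - u) / (v - u) * v := by
    intro x hx
    refine ⟨⟨div_nonneg (by linarith [hx.1]) hd.le, ?_⟩, ?_⟩
    · rw [div_le_one hd]; linarith [hx.2]
    · field_simp; ring
  have hκ' : ∀ x ∈ Icc u v, κ x =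
      (1 - (x - u) / (v - u)) * k0 + (x - u) / (v - u) * k1 := by
    intro x hx
    obtain ⟨ht, hxe⟩ := hpt x hx
    have := hκ _ ht
    rw [← hxe] at this
    exact this
  have hcongr : ∫ x in u..v, √(1 - κ x ^ 2) =
      ∫ x in u..v, √(1 - ((1 - (x - u) / (v - u)) * k0 + (x - u) / (v - u) * k1) ^ 2) := by
    refine intervalIntegral.integral_congr fun x hx => ?_
    rw [uIcc_of_le huv] at hx
    rw [hκ' x hx]
  rw [hcongr]
  have hint : ∫ x in u..v, ((1 - (x - u) / (v - u)) * w0 + (x - u) / (v - u) * w1) =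
      (v - u) * (w0 + w1) / 2 := by
    have e : ∀ x, (1 - (x - u) / (v - u)) * w0 + (x - u) / (v - u) * w1 =
        (w0 - u * ((w1 - w0) / (v - u))) + ((w1 - w0) / (v - u)) * x := by
      intro x; field_simp; ring
    simp_rw [e]
    rw [intervalIntegral.integral_add (by simp) (by
      exact (continuous_const.mul continuous_id).intervalIntegrable _ _),
      intervalIntegral.integral_const, intervalIntegral.integral_const_mul, integral_id]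
    rw [smul_eq_mul]
    field_simp
    ring
  rw [← hint]
  refine intervalIntegral.integral_mono_on huv ?_ ?_ ?_
  · exact (by fun_prop : Continuous fun x : ℝ =>
      (1 - (x - u) / (v - u)) * w0 + (x - u) / (v - u) * w1).intervalIntegrable _ _
  · exact (by fun_prop : Continuous fun x : ℝ =>
      √(1 - ((1 - (x - u) / (v - u)) * k0 + (x - u) / (v - u) * k1) ^ 2)).intervalIntegrable _ _
  · intro x hx
    obtain ⟨⟨ht0, ht1⟩, -⟩ := hpt x hx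
    refine Real.le_sqrt_of_sq_le ?_
    have := NumA.conv_sq w0 w1 k0 k1 _ h0 h1 ht0 ht1
    linarith

/-- lower bounds for `mk` by the trapezoid rule (nodes `(x_i, w_i)` with `w_i² + k² x_i² ≤ 1`) -/
theorem mk_trap (k : ℝ) (hk : 0 ≤ k) (n : ℕ) (x w : ℕ → ℝ) (hx0 : x 0 = 0) (hxn : x n = 1)
    (hx : ∀ i < n, x i ≤ x (i + 1)) (hw : ∀ i ≤ n, 0 ≤ w i ∧ w i ^ 2 + k ^ 2 * x i ^ 2 ≤ 1) :
    ∑ i ∈ Finset.range n, (x (i + 1) - x i) * (w i + w (i + 1)) / 2 ≤ mk k := by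
  have hnn : ∀ i ≤ n, 0 ≤ x i := by
    intro i
    induction i with
    | zero => intro _; rw [hx0]
    | succ i ih => intro hi; exact (ih (by omega)).trans (hx i (by omega))
  have hc : Continuous fun y : ℝ => √(1 - k ^ 2 * y ^ 2) := by fun_prop
  have hs : mk k = ∑ i ∈ Finset.range n, ∫ y in (x i)..(x (i + 1)), √(1 - k ^ 2 * y ^ 2) := by
    rw [intervalIntegral.sum_integral_adjacent_intervals
      (fun i _ => hc.intervalIntegrable _ _), hx0, hxn]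
    rfl
  rw [hs]
  refine Finset.sum_le_sum fun i hi => ?_
  have hi' : i < n := Finset.mem_range.1 hi
  have h0 := hw i hi'.le
  have h1 := hw (i + 1) hi'
  have := trap (x i) (x (i + 1)) (k * x i) (k * x (i + 1)) (w i) (w (i + 1)) (hx i hi')
    (mul_nonneg hk (hnn i hi'.le)) (mul_nonneg hk (hnn _ hi')) h0.1 h1.1
    (by rw [mul_pow]; exact h0.2) (by rw [mul_pow]; exact h1.2) (fun y => k * y)
    (by intro t _; ring)
  simpa [mul_pow] using this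

theorem mk_one : mk 1 = Real.pi / 4 := by
  have h := integral_sqrt_one_sub_sq
  have hc : Continuous fun y : ℝ => √(1 - y ^ 2) := by fun_prop
  have h2 : ∫ x in (-1 : ℝ)..1, √(1 - x ^ 2) =
      (∫ x in (-1 : ℝ)..0, √(1 - x ^ 2)) + ∫ x in (0 : ℝ)..1, √(1 - x ^ 2) :=
    (intervalIntegral.integral_add_adjacent_intervals (hc.intervalIntegrable _ _)
      (hc.intervalIntegrable _ _)).symm
  have h3 : ∫ x in (-1 : ℝ)..0, √(1 - x ^ 2) = ∫ x in (0 : ℝ)..1, √(1 - x ^ 2) := by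
    have := intervalIntegral.integral_comp_neg (a := (0 : ℝ)) (b := 1) fun x : ℝ => √(1 - x ^ 2)
    simp only [neg_zero, neg_sq] at this
    rw [this]
  have h4 : mk 1 = ∫ x in (0 : ℝ)..1, √(1 - x ^ 2) := by
    unfold mk; simp
  rw [h4]
  rw [h2, h3] at h
  linarith

end P232
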