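import Vale.Agent.P232.NumA

/-!
# P232: the small case of the numeric lemma D1.
-/

open MeasureTheory Set Filter Topology
open scoped ENNReal ContDiff

namespace P232

namespace NumD1a

/-- nodes -/
noncomputable def xs : ℕ → ℝ := fun i => (i : ℝ) / 4

/-- heights -/
noncomputable def ws : ℕ → ℝ
  | 0 => 1
  | 1 => 983 / 1000
  | 2 => 931 / 1000
  | 3 => 836 / 1000
  | _ => 683 / 1000

theorem mk73 : 8975 / 10000 ≤ mk (73 / 100) := by
  have := mk_trap (73 / 100) (by norm_num) 4 xs ws (by simp [xs]) (by norm_num [xs])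
    (by intro i _; simp only [xs]; push_cast; linarith)
    (by
      intro i hi
      interval_cases i <;> norm_num [xs, ws])
  simp only [Finset.sum_range_succ, Finset.sum_range_zero, xs, ws] at this
  norm_num at this
  linarith

end NumD1a

theorem hyp1_small (x : ℝ) (h0 : 0 ≤ x) (h1 : x ≤ 39 / 100) :
    √(Real.pi * x) ≤ mk (73 / 100) + 73 / 100 * (x - 1 / 10) ∧
    √(Real.pi * x) ≤ √(Real.pi * (1 - x)) := by
  have hπ := Real.pi_pos
  constructor
  · have hm := NumD1a.mk73
    have hp : Real.pi < 3.1416 := Real.pi_lt_d4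
    have h2 : √(Real.pi * x) ≤ 8245 / 10000 + 73 / 100 * x := by
      rw [Real.sqrt_le_left (by positivity)]
      have : Real.pi * x ≤ 3.1416 * x := by nlinarith
      nlinarith [mul_nonneg h0 (sub_nonneg.2 h1), sq_nonneg (x - 39 / 100)]
    linarith
  · refine Real.sqrt_le_sqrt ?_
    nlinarith

end P232
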