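import Vale.Agent.P232.SlabIneq

/-!
# P232, [SL2]: the slab lemma.
-/

open MeasureTheory Set Filter Topology

namespace P232

namespace SlabAux

/-- the integral of the slab inequality -/
noncomputable def II (x0 x1 : ℝ) : ℝ := ∫ x in x1..x0, √((x0 ^ 2 - x ^ 2) * (x ^ 2 - x1 ^ 2))

lemma II_nonneg (x0 x1 : ℝ) (h : x1 ≤ x0) : 0 ≤ II x0 x1 :=
  intervalIntegral.integral_nonneg h fun _ _ => Real.sqrt_nonneg _

lemma II_scale (r0 r1 c : ℝ) (hc : 0 < c) : II r0 r1 = c ^ 3 * II (r0 / c) (r1 / c) := by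
  have h := intervalIntegral.integral_comp_mul_left (a := r1 / c) (b := r0 / c)
    (fun x : ℝ => √((r0 ^ 2 - x ^ 2) * (x ^ 2 - r1 ^ 2))) (ne_of_gt hc)
  have e1 : c * (r1 / c) = r1 := by field_simp
  have e0 : c * (r0 / c) = r0 := by field_simp
  rw [e1, e0] at h
  have h2 : (fun x : ℝ => √((r0 ^ 2 - (c * x) ^ 2) * ((c * x) ^ 2 - r1 ^ 2))) =
      fun x => c ^ 2 * √(((r0 / c) ^ 2 - x ^ 2) * (x ^ 2 - (r1 / c) ^ 2)) := by
    funext x
    have : (r0 ^ 2 - (c * x) ^ 2) * ((c * x) ^ 2 - r1 ^ 2) =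
        (c ^ 2) ^ 2 * (((r0 / c) ^ 2 - x ^ 2) * (x ^ 2 - (r1 / c) ^ 2)) := by
      field_simp
    rw [this, Real.sqrt_mul (by positivity), Real.sqrt_sq (by positivity)]
  rw [h2, intervalIntegral.integral_const_mul, smul_eq_mul] at h
  have h3 : c * (c ^ 2 * II (r0 / c) (r1 / c)) = II r0 r1 := by
    unfold II
    rw [h, ← mul_assoc, mul_inv_cancel₀ (ne_of_gt hc), one_mul]
  rw [← h3]
  ring

lemma scaled (r0 r1 c : ℝ) (h1 : 0 ≤ r1) (hc : 0 < c) (h2 : r1 ≤ c) (h3 : c ≤ r0) :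
    9 / 4 * c * ((r0 - c) * (c - r1)) ≤ II r0 r1 := by
  have h := slab_ineq (r0 / c) (r1 / c) (by positivity) ((div_le_one hc).2 h2)
    ((one_le_div hc).2 h3)
  rw [II_scale r0 r1 c hc]
  change _ ≤ 4 / 9 * II (r0 / c) (r1 / c) at h
  have h5 : (r0 - c) * (c - r1) = c ^ 2 * ((r0 / c - 1) * (1 - r1 / c)) := by
    field_simp
  rw [h5]
  have h6 := mul_le_mul_of_nonneg_left h (by positivity : (0 : ℝ) ≤ 9 / 4 * c ^ 3)
  calc 9 / 4 * c * (c ^ 2 * ((r0 / c - 1) * (1 - r1 / c)))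
      = 9 / 4 * c ^ 3 * ((r0 / c - 1) * (1 - r1 / c)) := by ring
    _ ≤ 9 / 4 * c ^ 3 * (4 / 9 * II (r0 / c) (r1 / c)) := h6
    _ = c ^ 3 * II (r0 / c) (r1 / c) := by ring

lemma gen (r0 r1 c t : ℝ) (h1 : 0 ≤ r1) (h2 : r1 ≤ r0) (hc : 0 < c) (ht : 0 ≤ t) (ht1 : t ≤ 1)
    (htc : t ≤ 9 / 4 * c) : t * c * (r0 + r1) ≤ t * c ^ 2 + r0 * r1 + II r0 r1 := by
  have hr : t * (r0 * r1) ≤ r0 * r1 := by
    have : 0 ≤ r0 * r1 := mul_nonneg (h1.trans h2) h1
    nlinarith
  have key : t * ((r0 - c) * (c - r1)) ≤ II r0 r1 := by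
    by_cases hA : r1 ≤ c ∧ c ≤ r0
    · have h5 := scaled r0 r1 c h1 hc hA.1 hA.2
      have h6 : 0 ≤ (r0 - c) * (c - r1) := mul_nonneg (by linarith [hA.2]) (by linarith [hA.1])
      exact (mul_le_mul_of_nonneg_right htc h6).trans h5
    · have h5 := II_nonneg r0 r1 h2
      have h6 : (r0 - c) * (c - r1) ≤ 0 := by
        rcases le_or_gt r1 c with h7 | h7
        · have h8 : r0 < c := by
            by_contra hcon
            exact hA ⟨h7, not_lt.1 hcon⟩
          nlinarith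
        · nlinarith
      nlinarith
  nlinarith

/-- radius of a disc of area `4 a`, quarter disc of area `a` -/
noncomputable def rad (a : ℝ) : ℝ := √(4 * a / Real.pi)

lemma rad_nonneg (a : ℝ) : 0 ≤ rad a := Real.sqrt_nonneg _

lemma rad_sq (a : ℝ) (h : 0 ≤ a) : Real.pi / 4 * rad a ^ 2 = a := by
  unfold rad
  rw [Real.sq_sqrt (by positivity)]
  field_simp

lemma rad_mono {a b : ℝ} (h : a ≤ b) : rad a ≤ rad b := by
  unfold rad
  apply Real.sqrt_le_sqrt
  have := Real.pi_pos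
  gcongr

lemma sqrt_pi (a : ℝ) : √(Real.pi * a) = Real.pi / 2 * rad a := by
  have hp := Real.pi_pos
  have : Real.pi * a = (Real.pi / 2) ^ 2 * (4 * a / Real.pi) := by
    field_simp
    norm_num
  rw [this, Real.sqrt_mul (by positivity), Real.sqrt_sq (by positivity)]
  rfl

lemma rad_of_sq (r : ℝ) (h : 0 ≤ r) : rad (Real.pi / 4 * r ^ 2) = r := by
  unfold rad
  have hp := Real.pi_pos
  have : 4 * (Real.pi / 4 * r ^ 2) / Real.pi = r ^ 2 := by
    field_simp
  rw [this, Real.sqrt_sq h]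

lemma core (a q : ℝ → ℝ) (P V a0 a1 : ℝ) (h : Prof a q P V a0 a1) (hV0 : 0 < V)
    (hq : ∀ᵐ s ∂(volume.restrict (Ioo (0 : ℝ) 1)), √(Real.pi * a s) ≤ q s) :
    Real.pi / 2 * (rad V ^ 2 + rad a0 * rad a1 + II (rad a0) (rad a1)) ≤
      P * (rad a0 + rad a1) := by
  have hpi := Real.pi_pos
  have ha01 : a1 ≤ a0 := h.a1_le.trans h.le_a0
  have ha0 : 0 < a0 := hV0.trans_le h.le_a0
  have hr0 : 0 < rad a0 := Real.sqrt_pos.2 (by positivity)
  have hr1 : 0 ≤ rad a1 := rad_nonneg _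
  have hr01 : rad a1 ≤ rad a0 := rad_mono ha01
  set r0 := rad a0 with hr0d
  set r1 := rad a1 with hr1d
  set A : ℝ := 1 / (r0 + r1) with hA
  set B : ℝ := r0 * r1 / (r0 + r1) with hB
  have hs : 0 < r0 + r1 := by linarith
  have hA0 : 0 < A := by positivity
  have hB0 : 0 ≤ B := by positivity
  -- the clamp
  set cl : ℝ → ℝ := fun x => max a1 (min x a0) with hcl
  have hclc : Continuous cl := by fun_prop
  have hcl1 : ∀ x, a1 ≤ cl x := fun x => le_max_left _ _
  have hcl0 : ∀ x, cl x ≤ a0 := fun x => max_le ha01 (min_le_right _ _)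
  have hclid : ∀ x ∈ Icc a1 a0, cl x = x := by
    intro x hx
    simp only [hcl]
    rw [min_eq_left hx.2, max_eq_right hx.1]
  set R : ℝ → ℝ := fun x => rad (cl x) with hR
  have hRc : Continuous R := by
    simp only [hR, rad]
    exact ((hclc.const_mul 4 |>.div_const _)).sqrt
  have hR1 : ∀ x, r1 ≤ R x := fun x => rad_mono (hcl1 x)
  have hR0 : ∀ x, R x ≤ r0 := fun x => rad_mono (hcl0 x)
  set κ : ℝ → ℝ := fun x => A * R x + B / R x with hκ
  have hκc : Continuous κ := by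
    rcases hr1.eq_or_lt with h0 | h0
    · have : B = 0 := by rw [hB, ← h0]; simp
      simp only [hκ, this, zero_div, add_zero]
      exact hRc.const_mul A
    · exact (hRc.const_mul A).add
        (continuous_const.div hRc fun x => ne_of_gt (h0.trans_le (hR1 x)))
  have hκR : ∀ x, κ x * R x = A * R x ^ 2 + B := by
    intro x
    rcases (hr1.trans (hR1 x)).eq_or_lt with h0 | h0
    · have h10 : r1 = 0 := le_antisymm (by rw [h0]; exact hR1 x) hr1
      have : B = 0 := by rw [hB, h10]; simp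
      simp only [hκ]
      rw [← h0, this]
      simp
    · simp only [hκ]
      field_simp
  have hκ0 : ∀ x, 0 ≤ κ x := fun x =>
    add_nonneg (mul_nonneg hA0.le (hr1.trans (hR1 x))) (div_nonneg hB0 (hr1.trans (hR1 x)))
  have hκ1 : ∀ x, κ x ≤ 1 := by
    intro x
    rcases (hr1.trans (hR1 x)).eq_or_lt with h0 | h0
    · simp only [hκ]
      rw [← h0]
      simp
    · have h5 : κ x * R x ≤ 1 * R x := by
        rw [hκR x, hA, hB, one_mul]
        have h6 : 0 ≤ (r0 - R x) * (R x - r1) :=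
          mul_nonneg (by linarith [hR0 x]) (by linarith [hR1 x])
        rw [show 1 / (r0 + r1) * R x ^ 2 + r0 * r1 / (r0 + r1) =
          (R x ^ 2 + r0 * r1) / (r0 + r1) by field_simp]
        rw [div_le_iff₀ hs]
        nlinarith
      exact le_of_mul_le_mul_right h5 h0
  have hlev := h.lev κ hκc fun x => ⟨hκ0 x, hκ1 x⟩
  -- first integral
  have hint_a : IntervalIntegrable a volume 0 1 := by
    by_contra hcon
    have := intervalIntegral.integral_undef hcon
    rw [h.int_a] at this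
    linarith
  have hI1 : Real.pi / 2 * (A * rad V ^ 2 + B) ≤ ∫ s in (0 : ℝ)..1, κ (a s) * q s := by
    have e1 : Real.pi / 2 * (A * rad V ^ 2 + B) =
        ∫ s in (0 : ℝ)..1, (2 * A * a s + Real.pi / 2 * B) := by
      rw [intervalIntegral.integral_add (hint_a.const_mul _) (by simp),
        intervalIntegral.integral_const_mul, h.int_a, intervalIntegral.integral_const]
      have := rad_sq V hV0.le
      simp only [sub_zero, one_smul]
      nlinarith
    rw [e1]
    have hae : ∀ᵐ s ∂(volume.restrict (Ioo (0 : ℝ) 1)),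
        2 * A * a s + Real.pi / 2 * B ≤ κ (a s) * q s := by
      filter_upwards [hq, ae_restrict_mem measurableSet_Ioo] with s hs1 hs2
      have hm := h.mem s hs2
      have h5 : κ (a s) * √(Real.pi * a s) ≤ κ (a s) * q s :=
        mul_le_mul_of_nonneg_left hs1 (hκ0 _)
      refine le_trans (le_of_eq ?_) h5
      have has : 0 ≤ a s := h.a1_nonneg.trans hm.1
      have hRs : R (a s) = rad (a s) := by simp only [hR]; rw [hclid _ hm]
      rw [sqrt_pi]
      have h6 := hκR (a s)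
      rw [hRs] at h6
      have h7 := rad_sq (a s) has
      calc 2 * A * a s + Real.pi / 2 * B
          = 2 * A * (Real.pi / 4 * rad (a s) ^ 2) + Real.pi / 2 * B := by rw [h7]
        _ = Real.pi / 2 * (A * rad (a s) ^ 2 + B) := by ring
        _ = Real.pi / 2 * (κ (a s) * rad (a s)) := by rw [h6]
        _ = κ (a s) * (Real.pi / 2 * rad (a s)) := by ring
    have hint2 : IntegrableOn (fun s => κ (a s) * q s) (Ioo 0 1) := by
      have hm : AEMeasurable a (volume.restrict (Ioo (0 : ℝ) 1)) :=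
        aemeasurable_restrict_of_antitoneOn measurableSet_Ioo h.anti
      have hm2 : AEStronglyMeasurable (fun s => κ (a s)) (volume.restrict (Ioo (0 : ℝ) 1)) :=
        (hκc.measurable.comp_aemeasurable hm).aestronglyMeasurable
      exact Integrable.bdd_mul (c := 1) h.q_int hm2 (Eventually.of_forall fun s => by
        rw [Real.norm_eq_abs, abs_of_nonneg (hκ0 _)]; exact hκ1 _)
    rw [intervalIntegral.integral_of_le zero_le_one, intervalIntegral.integral_of_le zero_le_one,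
      integral_Ioc_eq_integral_Ioo, integral_Ioc_eq_integral_Ioo]
    apply integral_mono_ae _ hint2 hae
    have : IntegrableOn a (Ioo 0 1) :=
      ((intervalIntegrable_iff_integrableOn_Ioo_of_le zero_le_one).1 hint_a)
    exact (this.const_mul _).add (integrable_const _)
  -- second integral
  have hI2 : (∫ x in a1..a0, √(1 - κ x ^ 2)) = Real.pi / 2 * (A * II r0 r1) := by
    have hf : ∀ x ∈ uIcc r1 r0, HasDerivAt (fun r : ℝ => Real.pi / 4 * r ^ 2)
        (Real.pi / 2 * x) x := by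
      intro x _
      refine HasDerivAt.congr_deriv ((hasDerivAt_pow 2 x).const_mul (Real.pi / 4)) ?_
      push_cast
      ring
    have hsub := intervalIntegral.integral_comp_mul_deriv (a := r1) (b := r0)
      (f := fun r : ℝ => Real.pi / 4 * r ^ 2) (f' := fun x => Real.pi / 2 * x)
      (g := fun x => √(1 - κ x ^ 2)) hf (by fun_prop) (by fun_prop)
    have e1 : Real.pi / 4 * r1 ^ 2 = a1 := rad_sq a1 h.a1_nonneg
    have e0 : Real.pi / 4 * r0 ^ 2 = a0 := rad_sq a0 ha0.le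
    simp only [e1, e0] at hsub
    rw [← hsub]
    unfold II
    rw [← mul_assoc, ← intervalIntegral.integral_const_mul]
    apply intervalIntegral.integral_congr
    intro r hr
    rw [uIcc_of_le hr01] at hr
    have hr' : 0 ≤ r := hr1.trans hr.1
    simp only [Function.comp]
    have hmem : Real.pi / 4 * r ^ 2 ∈ Icc a1 a0 := by
      rw [← e1, ← e0]
      constructor
      · have := hr.1; gcongr
      · have := hr.2; gcongr
    have hRr : R (Real.pi / 4 * r ^ 2) = r := by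
      simp only [hR]
      rw [hclid _ hmem, rad_of_sq r hr']
    have h6 := hκR (Real.pi / 4 * r ^ 2)
    rw [hRr] at h6
    have h7 : (1 - κ (Real.pi / 4 * r ^ 2) ^ 2) * r ^ 2 =
        A ^ 2 * ((r0 ^ 2 - r ^ 2) * (r ^ 2 - r1 ^ 2)) := by
      have : (κ (Real.pi / 4 * r ^ 2) ^ 2) * r ^ 2 = (A * r ^ 2 + B) ^ 2 := by
        rw [← h6]; ring
      rw [sub_mul, this, hA, hB]
      field_simp
      ring
    have h8 : √(1 - κ (Real.pi / 4 * r ^ 2) ^ 2) * r =
        A * √((r0 ^ 2 - r ^ 2) * (r ^ 2 - r1 ^ 2)) := by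
      have hnn : 0 ≤ 1 - κ (Real.pi / 4 * r ^ 2) ^ 2 := by
        have a1' := hκ0 (Real.pi / 4 * r ^ 2)
        have a2' := hκ1 (Real.pi / 4 * r ^ 2)
        nlinarith
      have h9 : √(1 - κ (Real.pi / 4 * r ^ 2) ^ 2) * r =
          √((1 - κ (Real.pi / 4 * r ^ 2) ^ 2) * r ^ 2) := by
        rw [Real.sqrt_mul hnn, Real.sqrt_sq hr']
      rw [h9, h7, Real.sqrt_mul (sq_nonneg A), Real.sqrt_sq hA0.le]
    calc √(1 - κ (Real.pi / 4 * r ^ 2) ^ 2) * (Real.pi / 2 * r)
        = Real.pi / 2 * (√(1 - κ (Real.pi / 4 * r ^ 2) ^ 2) * r) := by ring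
      _ = Real.pi / 2 * A * √((r0 ^ 2 - r ^ 2) * (r ^ 2 - r1 ^ 2)) := by rw [h8]; ring
  rw [hI2] at hlev
  have h9 : Real.pi / 2 * (A * rad V ^ 2 + B + A * II r0 r1) ≤ P := by nlinarith
  have h10 := mul_le_mul_of_nonneg_right h9 hs.le
  refine le_trans (le_of_eq ?_) h10
  rw [hA, hB]
  field_simp

end SlabAux

open SlabAux in
/-- [SL2] Slab.lean -/
theorem slab_lemma (a q : ℝ → ℝ) (P V a0 a1 : ℝ) (h : Prof a q P V a0 a1) (hV0 : 0 < V)
    (hq : ∀ᵐ s ∂(volume.restrict (Ioo (0 : ℝ) 1)), √(Real.pi * a s) ≤ q s) :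
    min ((9 * Real.pi / 2) ^ (1 / 3 : ℝ) * V ^ (2 / 3 : ℝ)) (√(Real.pi * V)) ≤ P := by
  have hpi := Real.pi_pos
  have hc := core a q P V a0 a1 h hV0 hq
  have ha0 : 0 < a0 := hV0.trans_le h.le_a0
  have hr0 : 0 < rad a0 := Real.sqrt_pos.2 (by positivity)
  have hr1 : 0 ≤ rad a1 := rad_nonneg _
  have hr01 : rad a1 ≤ rad a0 := rad_mono (h.a1_le.trans h.le_a0)
  have hrV : 0 < rad V := Real.sqrt_pos.2 (by positivity)
  have hs : 0 < rad a0 + rad a1 := by linarith
  rcases le_total (4 / 9) (rad V) with h1 | h1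
  · apply (min_le_right _ _).trans
    have h2 := gen (rad a0) (rad a1) (rad V) 1 hr1 hr01 hrV zero_le_one le_rfl (by linarith)
    rw [sqrt_pi]
    have h3 : Real.pi / 2 * rad V * (rad a0 + rad a1) ≤ P * (rad a0 + rad a1) := by
      refine le_trans ?_ hc
      have := mul_le_mul_of_nonneg_left h2 (by positivity : (0 : ℝ) ≤ Real.pi / 2)
      nlinarith
    exact le_of_mul_le_mul_right h3 hs
  · apply (min_le_left _ _).trans
    set m := rad V ^ 2 with hm
    have hm0 : 0 < m := by positivity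
    set c : ℝ := (4 * m / 9) ^ (1 / 3 : ℝ) with hcd
    have hc0 : 0 < c := Real.rpow_pos_of_pos (by positivity) _
    have hc3 : c ^ 3 = 4 * m / 9 := by
      rw [hcd, ← Real.rpow_natCast _ 3, ← Real.rpow_mul (by positivity)]
      norm_num
    have hc49 : c ≤ 4 / 9 := by
      by_contra hcon
      push Not at hcon
      have h5 : (4 / 9 : ℝ) ^ 3 < c ^ 3 := pow_lt_pow_left₀ hcon (by norm_num) (by norm_num)
      rw [hc3] at h5
      have h6 : m ≤ (4 / 9) ^ 2 := by
        rw [hm]; exact pow_le_pow_left₀ hrV.le h1 2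
      norm_num at h5 h6
      linarith
    have h2 := gen (rad a0) (rad a1) c (9 / 4 * c) hr1 hr01 hc0 (by positivity) (by linarith)
      le_rfl
    have h3 : Real.pi / 2 * (9 / 4 * c * c) * (rad a0 + rad a1) ≤ P * (rad a0 + rad a1) := by
      refine le_trans ?_ hc
      have h4 := mul_le_mul_of_nonneg_left h2 (by positivity : (0 : ℝ) ≤ Real.pi / 2)
      have h5 : 9 / 4 * c * c ^ 2 = m := by
        have : 9 / 4 * c * c ^ 2 = 9 / 4 * c ^ 3 := by ring
        rw [this, hc3]; ring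
      rw [h5] at h4
      nlinarith
    have h4 := le_of_mul_le_mul_right h3 hs
    refine le_trans (le_of_eq ?_) h4
    have hV : V = Real.pi * 9 / 16 * c ^ 3 := by
      rw [hc3, hm, ← rad_sq V hV0.le, rad_of_sq _ (rad_nonneg V)]
      ring
    have e1 : V ^ (2 / 3 : ℝ) = (Real.pi * 9 / 16) ^ (2 / 3 : ℝ) * c ^ 2 := by
      rw [hV, Real.mul_rpow (by positivity) (by positivity), ← Real.rpow_natCast c 3,
        ← Real.rpow_mul hc0.le, ← Real.rpow_natCast c 2]
      norm_num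
    rw [e1, ← mul_assoc]
    have e2 : (9 * Real.pi / 2) ^ (1 / 3 : ℝ) * (Real.pi * 9 / 16) ^ (2 / 3 : ℝ) =
        9 * Real.pi / 8 := by
      have e3 : (Real.pi * 9 / 16) ^ (2 / 3 : ℝ) = ((Real.pi * 9 / 16) ^ 2) ^ (1 / 3 : ℝ) := by
        rw [← Real.rpow_natCast _ 2, ← Real.rpow_mul (by positivity)]
        norm_num
      rw [e3, ← Real.mul_rpow (by positivity) (by positivity)]
      have e4 : 9 * Real.pi / 2 * (Real.pi * 9 / 16) ^ 2 = (9 * Real.pi / 8) ^ 3 := by ring
      rw [e4, ← Real.rpow_natCast _ 3, ← Real.rpow_mul (by positivity)]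
      norm_num
    rw [e2]
    ring

end P232
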