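import Vale.Agent.P232.Sound
import Vale.Agent.P232.MkTab
import Vale.Agent.P232.Slab
import Vale.Agent.P232.NumD1a
import Vale.Agent.P232.CertG0
import Vale.Agent.P232.CertD0
import Vale.Agent.P232.CertT0

/-!
# P232: the three numeric lemmas
-/

open MeasureTheory Set Filter Topology
open scoped ENNReal ContDiff

namespace P232

namespace Snd

open Chk

lemma tabOK : TabOK := fun j hj => Tab.tab_ok j hj

end Snd

open Snd Chk

theorem num_gen (a q : ℝ → ℝ) (P V a0 a1 : ℝ) (h : Prof a q P V a0 a1) (hV0 : 0 < V)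
    (hV : V ≤ 1 / 2) (ha0 : 19 / 20 ≤ a0)
    (hq : ∀ᵐ s ∂(volume.restrict (Ioo (0 : ℝ) 1)), q0 (a s) ≤ q s) : JQ V ≤ P := by
  apply check_sound (η := 0) tabOK 0 h hV0 hV hq tg0 ⟨0, 0, 0, 500000, 950000, 1000000⟩ tg0_ok
  refine ⟨?_, ?_, ?_, ?_, ?_, ?_, ?_⟩
  · have : rv 0 = 0 := by norm_num [rv]
    rw [this]; exact h.a1_nonneg
  · have : rv 500000 = 1 / 2 := by norm_num [rv]
    rw [this]; exact h.a1_le.trans hV
  · have : rv 950000 = 19 / 20 := by norm_num [rv]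
    rw [this]; exact ha0
  · have : rv 1000000 = 1 := by norm_num [rv]
    rw [this]; exact h.a0_le
  · intro hc; omega
  · intro hc; omega
  · intro hc; omega

theorem num_D3 (a q : ℝ → ℝ) (P V a0 a1 : ℝ) (h : Prof a q P V a0 a1) (hV0 : 0 < V)
    (hV : V ≤ 1 / 2) (ha0 : a0 ≤ 19 / 20) (η : ℝ) (hη0 : 0 ≤ η) (hη : η ≤ a0)
    (hq : ∀ᵐ s ∂(volume.restrict (Ioo (0 : ℝ) 1)), Hyp3 a q η s) : JQ V ≤ P := by
  apply check_sound (η := η) tabOK 3 h hV0 hV hq tt0 ⟨0, 950000, 0, 500000, 0, 950000⟩ tt0_ok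
  have e0 : rv 0 = 0 := by norm_num [rv]
  have e1 : rv 950000 = 19 / 20 := by norm_num [rv]
  refine ⟨?_, ?_, ?_, ?_, ?_, ?_, ?_⟩
  · rw [e0]; exact h.a1_nonneg
  · have : rv 500000 = 1 / 2 := by norm_num [rv]
    rw [this]; exact h.a1_le.trans hV
  · rw [e0]; linarith
  · rw [e1]; exact ha0
  · intro _; rw [e0]; exact hη0
  · intro _; rw [e1]; linarith
  · intro _; exact hη

theorem num_D1 (a q : ℝ → ℝ) (P V a0 a1 : ℝ) (h : Prof a q P V a0 a1) (hV0 : 0 < V)
    (hV : V ≤ 1 / 2)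
    (hq : ∀ᵐ s ∂(volume.restrict (Ioo (0 : ℝ) 1)), Hyp1 a q s) : JQ V ≤ P := by
  rcases le_total a0 (39 / 100) with h39 | h39
  · have hq' : ∀ᵐ s ∂(volume.restrict (Ioo (0 : ℝ) 1)), √(Real.pi * a s) ≤ q s := by
      rw [ae_restrict_iff' measurableSet_Ioo] at hq ⊢
      filter_upwards [hq] with s hs hs01
      have hm := h.mem s hs01
      have hsm := hyp1_small (a s) (h.a1_nonneg.trans hm.1) (hm.2.trans h39)
      rcases hs hs01 with h1 | h1 | h1
      · exact h1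
      · exact hsm.1.trans (h1 (73 / 100) ⟨by norm_num, by norm_num⟩)
      · exact hsm.2.trans h1.1
    have := slab_lemma a q P V a0 a1 h hV0 hq'
    unfold JQ
    exact (min_le_left _ _).trans this
  · apply check_sound (η := 0) tabOK 1 h hV0 hV hq td0 ⟨0, 0, 0, 500000, 390000, 1000000⟩ td0_ok
    refine ⟨?_, ?_, ?_, ?_, ?_, ?_, ?_⟩
    · have : rv 0 = 0 := by norm_num [rv]
      rw [this]; exact h.a1_nonneg
    · have : rv 500000 = 1 / 2 := by norm_num [rv]
      rw [this]; exact h.a1_le.trans hV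
    · have : rv 390000 = 39 / 100 := by norm_num [rv]
      rw [this]; exact h39
    · have : rv 1000000 = 1 := by norm_num [rv]
      rw [this]; exact h.a0_le
    · intro hc; omega
    · intro hc; omega
    · intro hc; omega

end P232
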