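import Vale.Agent.P232.Sound
import Vale.Agent.P232.MkTab
import Vale.Agent.P232.CornerStrict
import Vale.Agent.P232.CertG0
import Vale.Agent.P232.CertD0
import Vale.Agent.P232.CertT0

/-!
# P232: strict versions of the numeric lemmas
-/

open MeasureTheory Set Filter Topology
open scoped ENNReal ContDiff

namespace P232

namespace Str

open Chk Snd

/-- strictness of the constant of a leaf -/
def strictLeaf (fam : ℕ) (b : Box) (L : Leaf) : Bool :=
  match L.ns with
  | a :: l => nn (20 * SC * L.H + sg fam * (2 * SC * L.mu) +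
      10 * (Chk.tsum b.a1p (lowA fam b) a l : ℕ) - 20 * SC * L.B - 1)
  | _ => false

/-- strictness in all leaves -/
def strictT (fam : ℕ) : Tree → Box → Bool
  | .leaf n, b => strictLeaf fam b (parse n)
  | .split d x l r, b =>
    match d with
    | 0 => strictT fam l { b with e2 := x } && strictT fam r { b with e1 := x }
    | 1 => strictT fam l { b with a1p := x } && strictT fam r { b with a1m := x }
    | _ => strictT fam l { b with a0p := x } && strictT fam r { b with a0m := x }
  | .nil, _ => true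
  | .corner, _ => true

theorem tg0_strict : strictT 0 tg0 ⟨0, 0, 0, 500000, 950000, 1000000⟩ = true := by decide +kernel
theorem td0_strict : strictT 1 td0 ⟨0, 0, 0, 500000, 390000, 1000000⟩ = true := by decide +kernel
theorem tt0_strict : strictT 3 tt0 ⟨0, 950000, 0, 500000, 0, 950000⟩ = true := by decide +kernel

/-- general conclusion of a leaf -/
lemma leaf_gen_s (hT : TabOK) {fam : ℕ} {b : Box} {L : Leaf} (h : leafOK fam b L = true)
    (hst : strictLeaf fam b L = true)
    {η a0 a1 : ℝ} (hb : InBox fam b η a0 a1) (ha : a1 ≤ a0) (ha1 : 0 ≤ a1) :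
    ∃ κ : ℝ → ℝ, Continuous κ ∧ (∀ x, κ x ∈ Icc (0 : ℝ) 1) ∧
      (∀ x, a1 ≤ x → x ≤ a0 → PP fam b.e1 (min b.e2 b.a0p) L.lam L.H L.mu x (κ x)) ∧
      (∀ V, af L.lam L.B V < af L.lam L.H V + (sg fam : ℝ) * rv L.mu / 10 +
        ∫ x in a1..a0, √(1 - κ x ^ 2)) ∧
      (∀ V, a1 ≤ V → V ≤ a0 → V ≤ 1 / 2 → JQ V ≤ af L.lam L.B V) := by
  unfold leafOK at h
  match hns : L.ns with
  | [] => rw [hns] at h; simp at h
  | [_] => rw [hns] at h; simp at h
  | a :: c :: l =>
    rw [hns] at h
    simp only [Bool.and_eq_true] at h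
    obtain ⟨⟨⟨⟨⟨h1, h2⟩, h3⟩, h4⟩, h5⟩, h6⟩ := h
    have h1 := Nat.le_of_ble_eq_true h1
    have h2 := Nat.le_of_ble_eq_true h2
    have hadj := pieces_adj (c :: l) a h3
    have hsrt : Adj Srt a (c :: l) := Adj.imp (fun _ _ hp => (piece_srt hp).1) _ _ hadj
    have hwt : Adj Wt a (c :: l) := Adj.imp (fun _ _ hp => (piece_srt hp).2.1) _ _ hadj
    have hk0 : rv a.k ∈ Icc (0 : ℝ) 1 := k_real hwt.1.1
    have hk1 : Adj (fun _ b => rv b.k ∈ Icc (0 : ℝ) 1) a (c :: l) :=
      Adj.imp (fun _ _ hp => k_real hp.2) _ _ hwt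
    refine ⟨plin a (c :: l), plin_cont _ _, plin_mem _ _ hsrt hk0 hk1, ?_, ?_, ?_⟩
    · intro x hx1 hx2
      have hx1' : rv a.x ≤ x := (rv_le h1).trans (hb.a1m.trans hx1)
      have hx2' : x ≤ rv (lastx a (c :: l)) := hx2.trans (hb.a0p.trans (rv_le h2))
      obtain ⟨a', b', ⟨hp, hi⟩, t, ht, hxt⟩ := cover _ l a c hsrt
        (Adj.and _ _ hadj (plin_itp _ _ hsrt)) x hx1' hx2'
      have := piece_pp hT hp t ht
      rw [hxt, hi t ht]
      exact this
    · intro V
      have hint := int_ge (plin a (c :: l)) (plin_cont _ _) b.a1p (lowA fam b) _ _ hsrt hwt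
        (plin_itp _ _ hsrt)
      set κ := plin a (c :: l) with hκ
      have hκc : Continuous κ := plin_cont _ _
      have hgc : Continuous (fun x => √(1 - κ x ^ 2)) := by fun_prop
      have hlow : rv (lowA fam b) ≤ a0 := by
        match fam, hb with
        | 0, hb => exact hb.a0m
        | 1, hb => exact hb.a0m
        | n + 2, hb =>
          simp only [lowA]
          rw [rv_max]
          exact max_le hb.a0m ((hb.e1 (by omega)).trans (hb.ea (by omega)))
      have hlast : rv a.x ≤ rv (lastx a (c :: l)) := rv_le (le_lastx _ _ hsrt)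
      have hcomp : ∫ x in (rv a.x)..(rv (lastx a (c :: l))),
          (Icc (rv b.a1p) (rv (lowA fam b))).indicator (fun x => √(1 - κ x ^ 2)) x ≤
          ∫ x in a1..a0, √(1 - κ x ^ 2) := by
        rw [intervalIntegral.integral_of_le hlast, intervalIntegral.integral_of_le ha,
          setIntegral_indicator measurableSet_Icc]
        rw [← integral_Icc_eq_integral_Ioc (x := a1)]
        apply setIntegral_mono_set
        · exact (hgc.integrableOn_Icc)
        · filter_upwards with x using Real.sqrt_nonneg _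
        · apply LE.le.eventuallyLE
          intro x hx
          exact ⟨hb.a1p.trans hx.2.1, hx.2.2.trans hlow⟩
      rw [strictLeaf, hns] at hst
      have h4' := nn_real hst
      have h4'' : (1 : ℝ) ≤ 20 * 1000000 * L.H + (sg fam : ℝ) * (2 * 1000000 * L.mu) +
          10 * ((Chk.tsum b.a1p (lowA fam b) a (c :: l) : ℕ) : ℝ) - 20 * 1000000 * L.B := by
        have : (0 : ℝ) ≤ ((20 * SC * L.H + sg fam * (2 * SC * L.mu) +
          10 * (Chk.tsum b.a1p (lowA fam b) a (c :: l) : ℕ) - 20 * SC * L.B - 1 : ℤ) : ℝ) := by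
          exact_mod_cast h4'
        push_cast at this
        simp only [SC, Nat.cast_ofNat] at this
        linarith
      have h7 := hint.trans hcomp
      have h8 : (L.B : ℝ) / 1000000 < (L.H : ℝ) / 1000000 + (sg fam : ℝ) * rv L.mu / 10 +
          ((Chk.tsum b.a1p (lowA fam b) a (c :: l) : ℕ) : ℝ) / (2 * 1000000 * 1000000) := by
        have e : (L.H : ℝ) / 1000000 + (sg fam : ℝ) * rv L.mu / 10 +
          ((Chk.tsum b.a1p (lowA fam b) a (c :: l) : ℕ) : ℝ) / (2 * 1000000 * 1000000) -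
          (L.B : ℝ) / 1000000 = (20 * 1000000 * L.H + (sg fam : ℝ) * (2 * 1000000 * L.mu) +
          10 * ((Chk.tsum b.a1p (lowA fam b) a (c :: l) : ℕ) : ℝ) - 20 * 1000000 * L.B) /
          (20 * 1000000 * 1000000) := by
          unfold rv; ring
        have : 0 < (20 * 1000000 * L.H + (sg fam : ℝ) * (2 * 1000000 * L.mu) +
          10 * ((Chk.tsum b.a1p (lowA fam b) a (c :: l) : ℕ) : ℝ) - 20 * 1000000 * L.B) /
          (20 * 1000000 * 1000000) := div_pos (by linarith) (by norm_num)
        linarith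
      unfold af
      linarith
    · intro V hV1 hV2 hV3
      apply vchk_sound _ _ h5 V (ha1.trans hV1) (hb.a1m.trans hV1)
      · rw [rv_min]
        apply le_min (hV2.trans hb.a0p)
        refine hV3.trans (le_of_eq ?_)
        unfold rv; norm_num
      · right
        intro hl
        rw [hl] at h6
        simp at h6

/-- strict arithmetic conclusion -/
lemma conclude_s {a q : ℝ → ℝ} {P V a0 a1 : ℝ} (h : Prof a q P V a0 a1)
    (κ : ℝ → ℝ) (hκc : Continuous κ) (hκ : ∀ x, κ x ∈ Icc (0 : ℝ) 1) (lam H B : ℤ) (σ : ℝ)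
    (hpt : ∀ᵐ s ∂(volume.restrict (Ioo (0 : ℝ) 1)),
      af lam H (a s) + (Ioc (0 : ℝ) (1 / 10)).indicator (fun _ => σ) s ≤ κ (a s) * q s)
    (hB : af lam B V < af lam H V + σ / 10 + ∫ x in a1..a0, √(1 - κ x ^ 2))
    (hJ : JQ V ≤ af lam B V) : JQ V < P := by
  have hlev := h.lev κ hκc hκ
  have ha_int : IntegrableOn a (Ioc 0 1) := by
    have h1 : MonotoneOn (fun s => - a s) (Ioo 0 1) := fun x hx y hy hxy => neg_le_neg (h.anti hx hy hxy)
    have hmeas : AEStronglyMeasurable a (volume.restrict (Ioo 0 1)) := by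
      have := (aemeasurable_restrict_of_antitoneOn measurableSet_Ioo h.anti (μ := volume))
      exact this.aestronglyMeasurable
    rw [integrableOn_Ioc_iff_integrableOn_Ioo]
    have hfin : IsFiniteMeasure (volume.restrict (Ioo (0 : ℝ) 1)) := by infer_instance
    refine Integrable.of_bound hmeas 1 ?_
    rw [ae_restrict_iff' measurableSet_Ioo]
    filter_upwards with s hs
    have := h.mem s hs
    rw [Real.norm_eq_abs, abs_le]
    constructor
    · linarith [this.1, h.a1_nonneg]
    · linarith [this.2, h.a0_le]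
  have hkq_int : IntegrableOn (fun s => κ (a s) * q s) (Ioc 0 1) := by
    rw [integrableOn_Ioc_iff_integrableOn_Ioo]
    have hmeas : AEStronglyMeasurable (fun s => κ (a s)) (volume.restrict (Ioo 0 1)) := by
      have := (aemeasurable_restrict_of_antitoneOn measurableSet_Ioo h.anti (μ := volume))
      exact (hκc.measurable.comp_aemeasurable this).aestronglyMeasurable
    apply Integrable.bdd_mul (c := 1) h.q_int hmeas
    filter_upwards with s
    rw [Real.norm_eq_abs, abs_le]
    constructor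
    · linarith [(hκ (a s)).1]
    · exact (hκ (a s)).2
  have hind_int : IntegrableOn (fun s => (Ioc (0 : ℝ) (1 / 10)).indicator (fun _ => σ) s) (Ioc 0 1) := by
    apply Integrable.indicator _ measurableSet_Ioc
    exact integrable_const σ
  have h2 : ∫ s in (0 : ℝ)..1, (af lam H (a s) + (Ioc (0 : ℝ) (1 / 10)).indicator (fun _ => σ) s) ≤
      ∫ s in (0 : ℝ)..1, κ (a s) * q s := by
    rw [intervalIntegral.integral_of_le zero_le_one, intervalIntegral.integral_of_le zero_le_one]
    apply integral_mono_ae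
    · apply Integrable.add _ hind_int
      unfold af
      exact (ha_int.const_mul _).add (integrable_const _)
    · exact hkq_int
    · rw [← restrict_Ioo_eq_restrict_Ioc]
      exact hpt
  have h3 : ∫ s in (0 : ℝ)..1, (af lam H (a s) + (Ioc (0 : ℝ) (1 / 10)).indicator (fun _ => σ) s) =
      af lam H V + σ / 10 := by
    rw [intervalIntegral.integral_add]
    · congr 1
      · unfold af
        rw [intervalIntegral.integral_add]
        · rw [intervalIntegral.integral_const_mul, h.int_a]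
          simp
        · rw [intervalIntegrable_iff_integrableOn_Ioc_of_le zero_le_one]
          exact ha_int.const_mul _
        · simp
      · rw [intervalIntegral.integral_of_le zero_le_one, setIntegral_indicator measurableSet_Ioc]
        have : Ioc (0 : ℝ) 1 ∩ Ioc 0 (1 / 10) = Ioc 0 (1 / 10) := by
          apply Set.inter_eq_right.mpr
          intro x hx
          exact ⟨hx.1, by linarith [hx.2]⟩
        rw [this]
        simp
        ring
    · rw [intervalIntegrable_iff_integrableOn_Ioc_of_le zero_le_one]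
      unfold af
      exact (ha_int.const_mul _).add (integrable_const _)
    · rw [intervalIntegrable_iff_integrableOn_Ioc_of_le zero_le_one]
      exact hind_int
  linarith

/-- strict soundness of a leaf -/
lemma leaf_sound_s (hT : TabOK) {fam : ℕ} {b : Box} {L : Leaf} (h : leafOK fam b L = true)
    (hst : strictLeaf fam b L = true)
    {a q : ℝ → ℝ} {P V a0 a1 η : ℝ} (hp : Prof a q P V a0 a1) (hV : V ≤ 1 / 2)
    (hb : InBox fam b η a0 a1)
    (hq : ∀ᵐ s ∂(volume.restrict (Ioo (0 : ℝ) 1)), FamHyp fam a q η s) : JQ V < P := by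
  obtain ⟨κ, hκc, hκ, hpp, hB, hJ⟩ := leaf_gen_s hT h hst hb (hp.a1_le.trans hp.le_a0) hp.a1_nonneg
  apply conclude_s hp κ hκc hκ L.lam L.H L.B ((sg fam : ℝ) * rv L.mu) _ (hB V)
    (hJ V hp.a1_le hp.le_a0 hV)
  rw [ae_restrict_iff' measurableSet_Ioo] at hq ⊢
  filter_upwards [hq] with s hs hs01
  have hm := hp.mem s hs01
  exact pointwise hb κ hκ s hs01.1 (hpp (a s) hm.1 hm.2) (hs hs01)

/-- strict soundness of the tree check -/
theorem check_sound_s (hT : TabOK) (fam : ℕ) {a q : ℝ → ℝ} {P V a0 a1 η : ℝ}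
    (hp : Prof a q P V a0 a1) (hV0 : 0 < V) (hV : V ≤ 1 / 2)
    (hne : fam = 0 → (a0 < 1 ∨ 0 < a1))
    (hq : ∀ᵐ s ∂(volume.restrict (Ioo (0 : ℝ) 1)), FamHyp fam a q η s) :
    ∀ (T : Tree) (b : Box), check fam T b = true → strictT fam T b = true →
      InBox fam b η a0 a1 → JQ V < P := by
  intro T
  induction T with
  | leaf n =>
    intro b h hst hb
    simp only [check] at h
    simp only [strictT] at hst
    exact leaf_sound_s hT h hst hp hV hb hq
  | split d x l r ihl ihr =>
    intro b h hst hb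
    match d with
    | 0 =>
      simp only [check, Bool.and_eq_true] at h
      simp only [strictT, Bool.and_eq_true] at hst
      rcases le_total η (rv x) with hx | hx
      · exact ihl _ h.1 hst.1 ⟨hb.a1m, hb.a1p, hb.a0m, hb.a0p, hb.e1, fun _ => hx, hb.ea⟩
      · exact ihr _ h.2 hst.2 ⟨hb.a1m, hb.a1p, hb.a0m, hb.a0p, fun _ => hx, hb.e2, hb.ea⟩
    | 1 =>
      simp only [check, Bool.and_eq_true] at h
      simp only [strictT, Bool.and_eq_true] at hst
      rcases le_total a1 (rv x) with hx | hx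
      · exact ihl _ h.1 hst.1 ⟨hb.a1m, hx, hb.a0m, hb.a0p, hb.e1, hb.e2, hb.ea⟩
      · exact ihr _ h.2 hst.2 ⟨hx, hb.a1p, hb.a0m, hb.a0p, hb.e1, hb.e2, hb.ea⟩
    | n + 2 =>
      simp only [check, Bool.and_eq_true] at h
      simp only [strictT, Bool.and_eq_true] at hst
      rcases le_total a0 (rv x) with hx | hx
      · exact ihl _ h.1 hst.1 ⟨hb.a1m, hb.a1p, hb.a0m, hx, hb.e1, hb.e2, hb.ea⟩
      · exact ihr _ h.2 hst.2 ⟨hb.a1m, hb.a1p, hx, hb.a0p, hb.e1, hb.e2, hb.ea⟩
  | nil =>
    intro b h _ hb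
    exfalso
    simp only [check, Bool.or_eq_true, Bool.and_eq_true] at h
    have h01 : a1 ≤ a0 := hp.a1_le.trans hp.le_a0
    rcases h with h | ⟨h1, h2⟩
    · have := rv_lt (Nat.le_of_ble_eq_true h : b.a0p < b.a1m)
      linarith [hb.a1m, hb.a0p]
    · have h1 := Nat.le_of_ble_eq_true h1
      have := rv_lt (Nat.le_of_ble_eq_true h2 : b.a0p < b.e1)
      linarith [hb.e1 h1, hb.a0p, hb.ea h1]
  | corner =>
    intro b h _ hb
    simp only [check, Bool.and_eq_true] at h
    obtain ⟨⟨h1, h2⟩, h3⟩ := h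
    have h1 := rv_le (Nat.le_of_ble_eq_true h1)
    have h2 := rv_le (Nat.le_of_ble_eq_true h2)
    have h3 := Nat.le_of_ble_eq_true h3
    have h3 : fam = 0 := by omega
    subst h3
    have e1 : rv 1000 = 1 / 1000 := by norm_num [rv]
    have e2 : rv 999000 = 999 / 1000 := by norm_num [rv]
    apply corner_strict a q P V a0 a1 hp hV0 hV _ _ (hne rfl)
    · exact hq
    · rw [← e2]; exact h2.trans hb.a0m
    · rw [← e1]; exact hb.a1p.trans h1

lemma tabOK' : TabOK := fun j hj => Tab.tab_ok j hj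

end Str

open Str Snd Chk

theorem num_gen_strict (a q : ℝ → ℝ) (P V a0 a1 : ℝ) (h : Prof a q P V a0 a1) (hV0 : 0 < V)
    (hV : V ≤ 1 / 2) (ha0 : 19 / 20 ≤ a0)
    (hq : ∀ᵐ s ∂(volume.restrict (Ioo (0 : ℝ) 1)), q0 (a s) ≤ q s) :
    JQ V < P ∨ (a0 = 1 ∧ a1 = 0) := by
  by_cases hne : a0 < 1 ∨ 0 < a1
  · left
    apply check_sound_s (η := 0) tabOK' 0 h hV0 hV (fun _ => hne) hq tg0 ⟨0, 0, 0, 500000, 950000, 1000000⟩
      tg0_ok tg0_strict
    refine ⟨?_, ?_, ?_, ?_, ?_, ?_, ?_⟩
    · have : rv 0 = 0 := by norm_num [rv]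
      rw [this]; exact h.a1_nonneg
    · have : rv 500000 = 1 / 2 := by norm_num [rv]
      rw [this]; exact h.a1_le.trans hV
    · have : rv 950000 = 19 / 20 := by norm_num [rv]
      rw [this]; exact ha0
    · have : rv 1000000 = 1 := by norm_num [rv]
      rw [this]; exact h.a0_le
    · intro hc; omega
    · intro hc; omega
    · intro hc; omega
  · right
    rw [not_or, not_lt, not_lt] at hne
    exact ⟨le_antisymm h.a0_le hne.1, le_antisymm hne.2 h.a1_nonneg⟩

theorem num_D3_strict (a q : ℝ → ℝ) (P V a0 a1 : ℝ) (h : Prof a q P V a0 a1) (hV0 : 0 < V)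
    (hV : V ≤ 1 / 2) (ha0 : a0 ≤ 19 / 20) (η : ℝ) (hη0 : 0 ≤ η) (hη : η ≤ a0)
    (hq : ∀ᵐ s ∂(volume.restrict (Ioo (0 : ℝ) 1)), Hyp3 a q η s) : JQ V < P := by
  apply check_sound_s (η := η) tabOK' 3 h hV0 hV (fun hc => absurd hc (by norm_num)) hq tt0
    ⟨0, 950000, 0, 500000, 0, 950000⟩ tt0_ok tt0_strict
  have e0 : rv 0 = 0 := by norm_num [rv]
  have e1 : rv 950000 = 19 / 20 := by norm_num [rv]
  refine ⟨?_, ?_, ?_, ?_, ?_, ?_, ?_⟩
  · rw [e0]; exact h.a1_nonneg
  · have : rv 500000 = 1 / 2 := by norm_num [rv]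
    rw [this]; exact h.a1_le.trans hV
  · rw [e0]; linarith
  · rw [e1]; exact ha0
  · intro _; rw [e0]; exact hη0
  · intro _; rw [e1]; linarith
  · intro _; exact hη

theorem num_D1_strict (a q : ℝ → ℝ) (P V a0 a1 : ℝ) (h : Prof a q P V a0 a1) (hV0 : 0 < V)
    (hV : V ≤ 1 / 2) (ha0 : 39 / 100 ≤ a0)
    (hq : ∀ᵐ s ∂(volume.restrict (Ioo (0 : ℝ) 1)), Hyp1 a q s) : JQ V < P := by
  apply check_sound_s (η := 0) tabOK' 1 h hV0 hV (fun hc => absurd hc (by norm_num)) hq td0
    ⟨0, 0, 0, 500000, 390000, 1000000⟩ td0_ok td0_strict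
  refine ⟨?_, ?_, ?_, ?_, ?_, ?_, ?_⟩
  · have : rv 0 = 0 := by norm_num [rv]
    rw [this]; exact h.a1_nonneg
  · have : rv 500000 = 1 / 2 := by norm_num [rv]
    rw [this]; exact h.a1_le.trans hV
  · have : rv 390000 = 39 / 100 := by norm_num [rv]
    rw [this]; exact ha0
  · have : rv 1000000 = 1 := by norm_num [rv]
    rw [this]; exact h.a0_le
  · intro hc; omega
  · intro hc; omega
  · intro hc; omega

end P232
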