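import Vale.Agent.P232.DefsU
import Vale.Agent.P232.Vec3

/-!
# P232 [OM]: from the octant to the torus
-/

open MeasureTheory Set Filter Topology
open scoped ENNReal ContDiff

namespace P232

namespace OctModel

theorem dz_nonneg (t : ℝ) : 0 ≤ dz t := abs_nonneg _

theorem dz_le (t : ℝ) : dz t ≤ 1 / 2 := abs_sub_round t

/-- `dz` of a number in `(0, 1/2)` -/
theorem dz_self {u : ℝ} (h0 : 0 ≤ u) (h1 : u < 1 / 2) : dz u = u := by
  unfold dz
  have h : round u = 0 := by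
    rw [round_eq_zero_iff]
    constructor
    · linarith
    · exact h1
  rw [h, Int.cast_zero, sub_zero, abs_of_nonneg h0]

theorem measurable_dz : Measurable dz := by
  unfold dz
  have h : (fun t : ℝ => |t - round t|) = fun t : ℝ => |t - ⌊t + 1 / 2⌋| := by
    funext t
    rw [round_eq]
  rw [h]
  fun_prop

/-- the scaled folding map of the line -/
noncomputable def fd (t : ℝ) : ℝ := 2 * dz t

theorem measurable_fd : Measurable fd := measurable_dz.const_mul 2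

theorem qmp_fd : Measure.QuasiMeasurePreserving fd (volume : Measure ℝ) volume := by
  refine ⟨measurable_fd, ?_⟩
  refine Measure.AbsolutelyContinuous.mk ?_
  intro N hN h0
  rw [Measure.map_apply measurable_fd hN]
  have hsub : fd ⁻¹' N ⊆ ⋃ n : ℤ, ((fun t : ℝ => 2 * (t - n)) ⁻¹' N ∪
      (fun t : ℝ => -2 * (t - n)) ⁻¹' N) := by
    intro t ht
    rw [mem_iUnion]
    refine ⟨round t, ?_⟩
    have h1 : fd t = 2 * |t - round t| := rfl
    rw [mem_preimage, h1] at ht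
    rcases abs_choice (t - (round t : ℝ)) with h | h
    · left
      rw [h] at ht
      exact ht
    · right
      rw [h] at ht
      rw [mem_preimage]
      convert ht using 1
      ring
  refine measure_mono_null hsub (measure_iUnion_null fun n => measure_union_null ?_ ?_)
  · have h2 : (fun t : ℝ => 2 * (t - n)) ⁻¹' N = (fun t => t - (n : ℝ)) ⁻¹' ((fun t => 2 * t) ⁻¹' N) :=
      rfl
    rw [h2]
    have h3 := (measurePreserving_sub_right (volume : Measure ℝ) (n : ℝ)).quasiMeasurePreserving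
    apply h3.preimage_null
    rw [Real.volume_preimage_mul_left (by norm_num : (2 : ℝ) ≠ 0), h0, mul_zero]
  · have h2 : (fun t : ℝ => -2 * (t - n)) ⁻¹' N =
        (fun t => t - (n : ℝ)) ⁻¹' ((fun t => -2 * t) ⁻¹' N) := rfl
    rw [h2]
    have h3 := (measurePreserving_sub_right (volume : Measure ℝ) (n : ℝ)).quasiMeasurePreserving
    apply h3.preimage_null
    rw [Real.volume_preimage_mul_left (by norm_num : (-2 : ℝ) ≠ 0), h0, mul_zero]

/-- folding in the three coordinates -/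
noncomputable def Fd (x : R3) : ℝ × ℝ × ℝ := (fd (x 0), fd (x 1), fd (x 2))

theorem qmp_Fd : Measure.QuasiMeasurePreserving Fd (volume : Measure R3) volume := by
  have h1 : Measure.QuasiMeasurePreserving (Prod.map fd (Prod.map fd fd))
      (volume : Measure (ℝ × ℝ × ℝ)) volume :=
    MeasureTheory.QuasiMeasurePreserving.prodMap qmp_fd
      (MeasureTheory.QuasiMeasurePreserving.prodMap qmp_fd qmp_fd)
  have h2 : Measure.QuasiMeasurePreserving (Vec.veq.symm : R3 → ℝ × ℝ × ℝ) volume volume :=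
    (MeasurePreserving.symm Vec.veq Vec.mp_veq).quasiMeasurePreserving
  have h3 : Fd = (Prod.map fd (Prod.map fd fd)) ∘ (Vec.veq.symm : R3 → ℝ × ℝ × ℝ) := by
    funext x
    have h4 : Vec.veq.symm x = (x 0, x 1, x 2) := by
      rw [MeasurableEquiv.symm_apply_eq, Vec.veq_apply, Vec.vec3_surj]
    simp only [Function.comp_apply, h4]
    rfl
  rw [h3]
  exact h1.comp h2

theorem ae_fd : ∀ᵐ t : ℝ, fd t ∈ Ioo (0 : ℝ) 1 := by
  have h0 : ∀ᵐ u : ℝ, u ∉ ({0, 1} : Set ℝ) := by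
    exact measure_eq_zero_iff_ae_notMem.1 ((toFinite ({0, 1} : Set ℝ)).measure_zero volume)
  have h1 := qmp_fd.ae h0
  filter_upwards [h1] with t ht
  have h2 := dz_nonneg t
  have h3 := dz_le t
  have h4 : fd t = 2 * dz t := rfl
  simp only [mem_insert_iff, mem_singleton_iff, not_or] at ht
  constructor
  · rcases lt_or_eq_of_le h2 with h | h
    · rw [h4]; linarith
    · exfalso
      apply ht.1
      rw [h4, ← h]
      ring
  · rcases lt_or_eq_of_le h3 with h | h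
    · rw [h4]; linarith
    · exfalso
      apply ht.2
      rw [h4, h]
      ring

theorem ae_Fd : ∀ᵐ x : R3, Fd x ∈ Q3 := by
  have h : ∀ i : Fin 3, ∀ᵐ x : R3, fd (x i) ∈ Ioo (0 : ℝ) 1 := by
    intro i
    exact (Measure.quasiMeasurePreserving_eval (fun _ : Fin 3 => (volume : Measure ℝ)) i).ae ae_fd
  filter_upwards [h 0, h 1, h 2] with x h0 h1 h2
  exact ⟨h0, h1, h2⟩

/-- the general principle -/
theorem transfer (E M : Set R3) (B : Set (ℝ × ℝ × ℝ))
    (hs : ∀ x y : R3, (∀ i, dz (x i) ≤ dz (y i)) → y ∈ E → x ∈ E)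
    (hM : ∀ x, Fd x ∈ Q3 → (x ∈ M ↔ Fd x ∈ B)) (h : oct E =ᵐ[volume] B) :
    E =ᵐ[volume] M := by
  have h1 : ∀ᵐ p : ℝ × ℝ × ℝ, (p ∈ oct E ↔ p ∈ B) := by
    filter_upwards [h] with p hp
    exact iff_of_eq hp
  have h2 := qmp_Fd.ae h1
  have h3 : ∀ᵐ x : R3, x ∈ E ↔ x ∈ M := by
    filter_upwards [h2, ae_Fd] with x hx hq
    rw [hM x hq, ← hx]
    obtain ⟨hq0, hq1, hq2⟩ := hq
    have e : ∀ i : Fin 3, (![(Fd x).1 / 2, (Fd x).2.1 / 2, (Fd x).2.2 / 2] : R3) i = dz (x i) := by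
      intro i
      fin_cases i
      · show 2 * dz (x 0) / 2 = dz (x 0)
        ring
      · show 2 * dz (x 1) / 2 = dz (x 1)
        ring
      · show 2 * dz (x 2) / 2 = dz (x 2)
        ring
    have hlt : ∀ i : Fin 3, dz (x i) < 1 / 2 := by
      intro i
      have h0 : 2 * dz (x 0) < 1 := hq0.2
      have h1 : 2 * dz (x 1) < 1 := hq1.2
      have h2 : 2 * dz (x 2) < 1 := hq2.2
      fin_cases i
      · show dz (x 0) < 1 / 2
        linarith
      · show dz (x 1) < 1 / 2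
        linarith
      · show dz (x 2) < 1 / 2
        linarith
    have e2 : ∀ i : Fin 3, dz ((![(Fd x).1 / 2, (Fd x).2.1 / 2, (Fd x).2.2 / 2] : R3) i) =
        dz (x i) := by
      intro i
      rw [e i, dz_self (dz_nonneg _) (hlt i)]
    constructor
    · intro hxE
      exact ⟨⟨hq0, hq1, hq2⟩, hs _ x (fun i => (e2 i).le) hxE⟩
    · rintro ⟨-, hxE⟩
      exact hs x _ (fun i => (e2 i).ge) hxE
  filter_upwards [h3] with x hx
  exact propext hx

end OctModel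

open OctModel

/-- [OM] OctModel.lean -/
theorem oct_ball (E : Set R3) (hm : MeasurableSet E) (hp : PeriodicSet E)
    (hs : ∀ x y : R3, (∀ i, dz (x i) ≤ dz (y i)) → y ∈ E → x ∈ E) (R : ℝ) (h0 : 0 < R) (h1 : R < 1)
    (h : oct E =ᵐ[volume] EB R) : E =ᵐ[volume] BallSet 0 (R / 2) := by
  refine transfer E _ _ hs ?_ h
  intro x hx
  have e0 : dz (x 0 - (0 : R3) 0) = dz (x 0) := by simp
  have e1 : dz (x 1 - (0 : R3) 1) = dz (x 1) := by simp
  have e2 : dz (x 2 - (0 : R3) 2) = dz (x 2) := by simp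
  constructor
  · intro h2
    refine ⟨hx, ?_⟩
    have h3 : ∑ i, dz (x i - (0 : R3) i) ^ 2 < (R / 2) ^ 2 := h2
    rw [Fin.sum_univ_three, e0, e1, e2] at h3
    show (2 * dz (x 0)) ^ 2 + (2 * dz (x 1)) ^ 2 + (2 * dz (x 2)) ^ 2 < R ^ 2
    nlinarith
  · rintro ⟨-, h2⟩
    have h3 : (2 * dz (x 0)) ^ 2 + (2 * dz (x 1)) ^ 2 + (2 * dz (x 2)) ^ 2 < R ^ 2 := h2
    show ∑ i, dz (x i - (0 : R3) i) ^ 2 < (R / 2) ^ 2
    rw [Fin.sum_univ_three, e0, e1, e2]
    nlinarith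

theorem oct_tube (E : Set R3) (hm : MeasurableSet E) (hp : PeriodicSet E)
    (hs : ∀ x y : R3, (∀ i, dz (x i) ≤ dz (y i)) → y ∈ E → x ∈ E) (R : ℝ) (h0 : 0 < R) (h1 : R < 1)
    (h : oct E =ᵐ[volume] QT R ∨ oct E =ᵐ[volume] rot (QT R) ∨ oct E =ᵐ[volume] rot (rot (QT R))) :
    ∃ k, E =ᵐ[volume] TubeSet k 0 (R / 2) := by
  have e : ∀ (x : R3) (i : Fin 3), dz (x i - (0 : R3) i) = dz (x i) := by
    intro x i
    simp
  have s0 : (Finset.univ.erase 0 : Finset (Fin 3)) = {1, 2} := by decide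
  have s1 : (Finset.univ.erase 1 : Finset (Fin 3)) = {0, 2} := by decide
  have s2 : (Finset.univ.erase 2 : Finset (Fin 3)) = {0, 1} := by decide
  rcases h with h | h | h
  · refine ⟨0, transfer E _ _ hs ?_ h⟩
    intro x hx
    have hT : x ∈ TubeSet 0 0 (R / 2) ↔ dz (x 1) ^ 2 + dz (x 2) ^ 2 < (R / 2) ^ 2 := by
      show ∑ i ∈ Finset.univ.erase 0, dz (x i - (0 : R3) i) ^ 2 < (R / 2) ^ 2 ↔ _
      rw [s0, Finset.sum_pair (by decide), e, e]
    rw [hT]
    constructor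
    · intro h2
      refine ⟨hx, ?_⟩
      show (2 * dz (x 1)) ^ 2 + (2 * dz (x 2)) ^ 2 < R ^ 2
      nlinarith
    · rintro ⟨-, h2⟩
      have h3 : (2 * dz (x 1)) ^ 2 + (2 * dz (x 2)) ^ 2 < R ^ 2 := h2
      nlinarith
  · -- rot: (p.2.2, p.1, p.2.1) ∈ QT: p.1 ^ 2 + p.2.1 ^ 2
    refine ⟨2, transfer E _ _ hs ?_ h⟩
    intro x hx
    have hT : x ∈ TubeSet 2 0 (R / 2) ↔ dz (x 0) ^ 2 + dz (x 1) ^ 2 < (R / 2) ^ 2 := by
      show ∑ i ∈ Finset.univ.erase 2, dz (x i - (0 : R3) i) ^ 2 < (R / 2) ^ 2 ↔ _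
      rw [s2, Finset.sum_pair (by decide), e, e]
    rw [hT]
    obtain ⟨q0, q1, q2⟩ := hx
    constructor
    · intro h2
      refine ⟨⟨q2, q0, q1⟩, ?_⟩
      show (2 * dz (x 0)) ^ 2 + (2 * dz (x 1)) ^ 2 < R ^ 2
      nlinarith
    · rintro ⟨-, h2⟩
      have h3 : (2 * dz (x 0)) ^ 2 + (2 * dz (x 1)) ^ 2 < R ^ 2 := h2
      nlinarith
  · -- rot rot: (p.2.1, p.2.2, p.1) ∈ QT: p.2.2 ^ 2 + p.1 ^ 2
    refine ⟨1, transfer E _ _ hs ?_ h⟩
    intro x hx
    have hT : x ∈ TubeSet 1 0 (R / 2) ↔ dz (x 0) ^ 2 + dz (x 2) ^ 2 < (R / 2) ^ 2 := by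
      show ∑ i ∈ Finset.univ.erase 1, dz (x i - (0 : R3) i) ^ 2 < (R / 2) ^ 2 ↔ _
      rw [s1, Finset.sum_pair (by decide), e, e]
    rw [hT]
    obtain ⟨q0, q1, q2⟩ := hx
    constructor
    · intro h2
      refine ⟨⟨q1, q2, q0⟩, ?_⟩
      show (2 * dz (x 2)) ^ 2 + (2 * dz (x 0)) ^ 2 < R ^ 2
      nlinarith
    · rintro ⟨-, h2⟩
      have h3 : (2 * dz (x 2)) ^ 2 + (2 * dz (x 0)) ^ 2 < R ^ 2 := h2
      nlinarith

theorem oct_slab (E : Set R3) (hm : MeasurableSet E) (hp : PeriodicSet E)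
    (hs : ∀ x y : R3, (∀ i, dz (x i) ≤ dz (y i)) → y ∈ E → x ∈ E) (R : ℝ) (h0 : 0 < R) (h1 : R < 1)
    (h : oct E =ᵐ[volume] SB R ∨ oct E =ᵐ[volume] rot (SB R) ∨ oct E =ᵐ[volume] rot (rot (SB R))) :
    ∃ k, E =ᵐ[volume] SlabSet k 0 (R / 2) := by
  have e : ∀ (x : R3) (i : Fin 3), x ∈ SlabSet i 0 (R / 2) ↔ dz (x i) < R / 2 := by
    intro x i
    show dz (x i - 0) < R / 2 ↔ _
    rw [sub_zero]
  rcases h with h | h | h
  · refine ⟨0, transfer E _ _ hs ?_ h⟩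
    intro x hx
    rw [e]
    constructor
    · intro h2
      refine ⟨hx, ?_⟩
      show 2 * dz (x 0) < R
      linarith
    · rintro ⟨-, h2⟩
      have h3 : 2 * dz (x 0) < R := h2
      linarith
  · refine ⟨2, transfer E _ _ hs ?_ h⟩
    intro x hx
    rw [e]
    obtain ⟨q0, q1, q2⟩ := hx
    constructor
    · intro h2
      refine ⟨⟨q2, q0, q1⟩, ?_⟩
      show 2 * dz (x 2) < R
      linarith
    · rintro ⟨-, h2⟩
      have h3 : 2 * dz (x 2) < R := h2
      linarith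
  · refine ⟨1, transfer E _ _ hs ?_ h⟩
    intro x hx
    rw [e]
    obtain ⟨q0, q1, q2⟩ := hx
    constructor
    · intro h2
      refine ⟨⟨q1, q2, q0⟩, ?_⟩
      show 2 * dz (x 1) < R
      linarith
    · rintro ⟨-, h2⟩
      have h3 : 2 * dz (x 1) < R := h2
      linarith

end P232
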