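import Vale.Agent.P232.DefsU
import Vale.Agent.P232.Symmetrize

/-!
# P232 [OCT]: the octant of a coordinatewise symmetric decreasing set of finite perimeter.
-/

open MeasureTheory Set Filter Topology
open scoped ENNReal ContDiff

namespace P232.OctA

open Asm

/-! ### distance to the integers -/

theorem dz_eq (t : ℝ) : dz t = ‖(t : AddCircle (1 : ℝ))‖ := by
  unfold dz
  exact (UnitAddCircle.norm_eq (x := t)).symm

theorem dz_neg (t : ℝ) : dz (-t) = dz t := by
  rw [dz_eq, dz_eq, AddCircle.coe_neg, norm_neg]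

theorem dz_of_mem {t : ℝ} (h0 : 0 < t) (h1 : t < 1 / 2) : dz t = t := by
  rw [dz_eq, (AddCircle.norm_coe_eq_abs_iff (x := t) (1 : ℝ) one_ne_zero).2
    (by rw [abs_one, abs_of_pos h0]; linarith), abs_of_pos h0]

/-! ### reflections -/

/-- reflection -/
noncomputable def rf (i : Fin 3) (x : R3) : R3 := Function.update x i (-x i)

theorem rf_eq (i : Fin 3) (x : R3) : rf i x = refl i x := (refl_apply i x).symm

theorem rf_rf (i : Fin 3) (x : R3) : rf i (rf i x) = x := by
  funext j
  by_cases h : j = i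
  · subst h; simp [rf]
  · simp [rf, h]

theorem rf_comm (i j : Fin 3) (x : R3) : rf i (rf j x) = rf j (rf i x) := by
  by_cases hij : i = j
  · subst hij; rfl
  funext k
  by_cases h : k = i
  · subst h; simp [rf, hij]
  · by_cases h' : k = j
    · subst h'; simp [rf, h]
    · simp [rf, h, h']

theorem mp_rf (i : Fin 3) : MeasurePreserving (rf i) volume volume := Smo.refl_mp i

theorem emb_rf (i : Fin 3) : MeasurableEmbedding (rf i) :=
  (mp_rf i).measurable.measurableEmbedding fun x y h => by
    rw [← rf_rf i x, h, rf_rf]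

theorem rf_add (i j : Fin 3) (x : R3) : rf i (x + Pi.single j 1) =
    if i = j then rf i x - Pi.single j 1 else rf i x + Pi.single j 1 := by
  split_ifs with h
  · subst h
    funext k
    by_cases hk : k = i
    · subst hk; simp [rf]; ring
    · simp [rf, hk]
  · funext k
    by_cases hk : k = i
    · subst hk; simp [rf, h]
    · simp [rf, hk]

/-- invariance of the integral over the cell of a periodic function -/
theorem integral_rf (i : Fin 3) (g : R3 → ℝ) (hg : ∀ x j, g (x + Pi.single j 1) = g x) :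
    ∫ x in cell, g (rf i x) = ∫ x in cell, g x := by
  have h1 : ∫ x in cell, g (rf i x) = ∫ x in (rf i) ⁻¹' cell, g x := by
    rw [← (mp_rf i).setIntegral_preimage_emb (emb_rf i) g ((rf i) ⁻¹' cell)]
    congr 2
    ext x
    simp only [mem_preimage, rf_rf]
  have hmp : MeasurePreserving (fun x : R3 => x + Pi.single i 1) volume volume :=
    measurePreserving_add_right volume _
  have he : MeasurableEmbedding (fun x : R3 => x + Pi.single i 1) :=
    (MeasurableEquiv.addRight (Pi.single i 1 : R3)).measurableEmbedding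
  have h2 : ∫ x in (fun x : R3 => x + Pi.single i 1) ⁻¹' cell, g x = ∫ x in cell, g x := by
    rw [← hmp.setIntegral_preimage_emb he g cell]
    refine setIntegral_congr_fun (hmp.measurable Cell.measurableSet_cell) fun x _ => ?_
    exact (hg x i).symm
  rw [h1, ← h2]
  refine setIntegral_congr_set ?_
  have ha : ∀ᵐ x : R3, x i ≠ 0 := Measure.ae_eval_ne (fun _ : Fin 3 => (volume : Measure ℝ)) i 0
  have hb : ∀ᵐ x : R3, x i ≠ -1 := Measure.ae_eval_ne (fun _ : Fin 3 => (volume : Measure ℝ)) i (-1)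
  filter_upwards [ha, hb] with x h3 h4
  refine propext ?_
  show rf i x ∈ cell ↔ x + Pi.single i 1 ∈ cell
  unfold cell
  show (∀ j, rf i x j ∈ Ico (0 : ℝ) 1) ↔ ∀ j, (x + Pi.single i 1 : R3) j ∈ Ico (0 : ℝ) 1
  refine forall_congr' fun j => ?_
  by_cases hj : j = i
  · subst hj
    simp only [rf, Function.update_self, Pi.add_apply, Pi.single_eq_same, mem_Ico]
    constructor
    · rintro ⟨h5, h6⟩
      have : x j < 0 := lt_of_le_of_ne (by linarith) h3
      constructor <;> linarith
    · rintro ⟨h5, h6⟩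
      have : -1 < x j := lt_of_le_of_ne (by linarith) (Ne.symm h4)
      constructor <;> linarith
  · simp [rf, hj]

/-! ### gradients -/

theorem gradN_rf (F : R3 → ℝ) (hF : Differentiable ℝ F) (i : Fin 3) (x : R3) :
    gradN (fun y => F (rf i y)) x = gradN F (rf i x) := by
  have h0 : (fun y => F (rf i y)) = fun y => F (refl i y) := by
    funext y; rw [rf_eq]
  have h3 : fderiv ℝ (fun y => F (refl i y)) x = (fderiv ℝ F (refl i x)).comp (refl i) := by
    have := fderiv_comp x (hF (refl i x)) (refl i).differentiableAt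
    rw [ContinuousLinearMap.fderiv] at this
    exact this
  unfold gradN
  rw [h0, h3, rf_eq]
  congr 1
  refine Finset.sum_congr rfl fun j _ => ?_
  rw [ContinuousLinearMap.comp_apply, refl_single]
  split_ifs with h
  · rw [map_neg, neg_sq]
  · rfl

theorem sqrt_avg (a b : Fin 3 → ℝ) :
    √ (∑ i, ((a i + b i) / 2) ^ 2) ≤ (√ (∑ i, a i ^ 2) + √ (∑ i, b i ^ 2)) / 2 := by
  have h := norm_add_le (WithLp.toLp 2 a : EuclideanSpace ℝ (Fin 3)) (WithLp.toLp 2 b)
  rw [EuclideanSpace.norm_eq, EuclideanSpace.norm_eq, EuclideanSpace.norm_eq] at h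
  simp only [PiLp.add_apply, Real.norm_eq_abs, sq_abs] at h
  have h2 : ∑ i, ((a i + b i) / 2) ^ 2 = (1 / 2) ^ 2 * ∑ i, (a i + b i) ^ 2 := by
    rw [Finset.mul_sum]
    refine Finset.sum_congr rfl fun i _ => ?_
    ring
  rw [h2, Real.sqrt_mul (by positivity), Real.sqrt_sq (by norm_num)]
  linarith

theorem gradN_avg (f g : R3 → ℝ) (hf : Differentiable ℝ f) (hg : Differentiable ℝ g) (x : R3) :
    gradN (fun y => (f y + g y) / 2) x ≤ (gradN f x + gradN g x) / 2 := by
  have h : ∀ v, fderiv ℝ (fun y => (f y + g y) / 2) x v = (fderiv ℝ f x v + fderiv ℝ g x v) / 2 := by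
    intro v
    have h1 : HasFDerivAt (fun y => (f y + g y) / 2)
        ((1 / 2 : ℝ) • (fderiv ℝ f x + fderiv ℝ g x)) x := by
      have h2 := ((hf x).hasFDerivAt.add (hg x).hasFDerivAt).const_smul (1 / 2 : ℝ)
      refine h2.congr_of_eventuallyEq (Eventually.of_forall fun y => ?_)
      show (f y + g y) / 2 = (1 / 2 : ℝ) * (f y + g y)
      ring
    rw [h1.fderiv]
    show (1 / 2 : ℝ) * (fderiv ℝ f x v + fderiv ℝ g x v) = _
    ring
  unfold gradN
  simp only [h]
  exact sqrt_avg _ _

/-! ### even mollifications -/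

/-- sequences of smooth functions converging to `E`, even in the coordinates of `S` -/
structure Good (E : Set R3) (S : Set (Fin 3)) (f : ℕ → R3 → ℝ) : Prop where
  smooth : ∀ n, ContDiff ℝ ∞ (f n)
  per : ∀ n, PeriodicFun (f n)
  mem : ∀ n x, f n x ∈ Icc (0 : ℝ) 1
  grad : ∀ n, ∫ x in cell, gradN (f n) x ≤ (perimeter E).toReal
  lim : ∀ᵐ x : R3, Tendsto (fun n => f n x) atTop (𝓝 (E.indicator 1 x))
  even : ∀ n, ∀ i ∈ S, ∀ x, f n (rf i x) = f n x

theorem good_empty (E : Set R3) (hm : MeasurableSet E) (hp : PeriodicSet E)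
    (hfin : perimeter E ≠ ⊤) : ∃ f, Good E ∅ f := by
  let ρ : ℕ → ContDiffBump (0 : R3) := fun n =>
    ⟨1 / ((n : ℝ) + 1), 2 / ((n : ℝ) + 1), by positivity, by
      apply div_lt_div_of_pos_right _ (by positivity); norm_num⟩
  refine ⟨fun n => Mol.mol (ρ n) E, fun n => Mol.mol_contDiff _ E hm,
    fun n => Mol.mol_periodic _ E hp, fun n => Mol.mol_mem _ E hm, fun n =>
    Mol.grad_bound _ (Mol.mol_contDiff _ E hm) (Mol.mol_periodic _ E hp) _
      (fun φ hφ => Mol.dual (ρ n) E hm hp hfin φ hφ), ?_, fun n i hi => by simp at hi⟩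
  refine ContDiffBump.ae_convolution_tendsto_right_of_locallyIntegrable (K := 2) ?_ ?_
    (Mol.locInt E hm)
  · have h1 : Tendsto (fun n : ℕ => 2 * (1 / ((n : ℝ) + 1))) atTop (𝓝 (2 * 0)) :=
      tendsto_one_div_add_atTop_nhds_zero_nat.const_mul 2
    rw [mul_zero] at h1
    refine h1.congr fun n => ?_
    show 2 * (1 / ((n : ℝ) + 1)) = 2 / ((n : ℝ) + 1)
    ring
  · refine Eventually.of_forall fun n => ?_
    show 2 / ((n : ℝ) + 1) ≤ 2 * (1 / ((n : ℝ) + 1))
    rw [mul_one_div]

theorem good_step (E : Set R3) (S : Set (Fin 3)) (i : Fin 3)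
    (hE : ∀ x, rf i x ∈ E ↔ x ∈ E) (f : ℕ → R3 → ℝ) (h : Good E S f) :
    Good E (insert i S) (fun n x => (f n x + f n (rf i x)) / 2) := by
  have hsm : ∀ n, ContDiff ℝ ∞ (fun x => f n (rf i x)) := by
    intro n
    have h0 : (fun x => f n (rf i x)) = fun x => f n (refl i x) := by
      funext y; rw [rf_eq]
    rw [h0]
    exact (h.smooth n).comp (refl i).contDiff
  have hper : ∀ n, PeriodicFun (fun x => f n (rf i x)) := by
    intro n x j
    show f n (rf i (x + Pi.single j 1)) = f n (rf i x)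
    rw [rf_add]
    split_ifs with hij
    · rw [← h.per n (rf i x - Pi.single j 1) j, sub_add_cancel]
    · exact h.per n _ _
  refine ⟨fun n => ?_, fun n x j => ?_, fun n x => ?_, fun n => ?_, ?_, fun n j hj x => ?_⟩
  · exact ((h.smooth n).add (hsm n)).div_const 2
  · show (f n (x + Pi.single j 1) + f n (rf i (x + Pi.single j 1))) / 2 = _
    rw [h.per n x j]
    have := hper n x j
    simp only at this
    rw [this]
  · have h1 := h.mem n x
    have h2 := h.mem n (rf i x)
    show (f n x + f n (rf i x)) / 2 ∈ Icc (0 : ℝ) 1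
    constructor
    · linarith [h1.1, h2.1]
    · linarith [h1.2, h2.2]
  · have hd : Differentiable ℝ (f n) := (h.smooth n).differentiable (by simp)
    have hd2 : Differentiable ℝ (fun x => f n (rf i x)) := (hsm n).differentiable (by simp)
    have hgper : ∀ x j, gradN (f n) (x + Pi.single j 1) = gradN (f n) x := by
      intro x j
      unfold gradN
      simp only [Mol.partial_periodic _ (h.per n)]
    have hc1 : Continuous (gradN (f n)) := Mol.gradN_continuous _ (h.smooth n)
    have hc2 : Continuous (gradN fun x => f n (rf i x)) := Mol.gradN_continuous _ (hsm n)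
    calc ∫ x in cell, gradN (fun x => (f n x + f n (rf i x)) / 2) x
        ≤ ∫ x in cell, (gradN (f n) x + gradN (fun x => f n (rf i x)) x) / 2 := by
          refine setIntegral_mono ?_ ?_ fun x => gradN_avg _ _ hd hd2 x
          · exact Mol.integrableOn_cell _
              (Mol.gradN_continuous _ (((h.smooth n).add (hsm n)).div_const 2))
          · exact Mol.integrableOn_cell _ ((hc1.add hc2).div_const 2)
      _ = ((∫ x in cell, gradN (f n) x) + ∫ x in cell, gradN (fun x => f n (rf i x)) x) / 2 := by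
          rw [integral_div, integral_add (Mol.integrableOn_cell _ hc1)
            (Mol.integrableOn_cell _ hc2)]
      _ = ∫ x in cell, gradN (f n) x := by
          have : ∫ x in cell, gradN (fun x => f n (rf i x)) x = ∫ x in cell, gradN (f n) x := by
            rw [← integral_rf i (gradN (f n)) hgper]
            refine setIntegral_congr_fun Cell.measurableSet_cell fun x _ => ?_
            exact gradN_rf (f n) hd i x
          rw [this]; ring
      _ ≤ _ := h.grad n
  · have h2 := (mp_rf i).quasiMeasurePreserving.ae h.lim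
    filter_upwards [h.lim, h2] with x h3 h4
    have h5 : E.indicator (1 : R3 → ℝ) (rf i x) = E.indicator 1 x := by
      by_cases hx : x ∈ E
      · rw [indicator_of_mem hx, indicator_of_mem ((hE x).2 hx)]; rfl
      · rw [indicator_of_notMem hx, indicator_of_notMem (fun h => hx ((hE x).1 h))]
    rw [h5] at h4
    have h6 := (h3.add h4).div_const 2
    have h7 : (E.indicator (1 : R3 → ℝ) x + E.indicator 1 x) / 2 = E.indicator 1 x := by ring
    rw [h7] at h6
    exact h6
  · show (f n (rf j x) + f n (rf i (rf j x))) / 2 = (f n x + f n (rf i x)) / 2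
    by_cases hij : j = i
    · subst hij
      rw [rf_rf]; ring
    · have hjS : j ∈ S := by
        rcases hj with hj | hj
        · exact absurd hj hij
        · exact hj
      rw [rf_comm i j, h.even n j hjS, h.even n j hjS]

theorem good_all (E : Set R3) (hm : MeasurableSet E) (hp : PeriodicSet E)
    (hE : ∀ i x, rf i x ∈ E ↔ x ∈ E) (hfin : perimeter E ≠ ⊤) :
    ∃ f, Good E (insert 2 (insert 1 (insert 0 ∅))) f := by
  obtain ⟨f, hf⟩ := good_empty E hm hp hfin
  exact ⟨_, good_step E _ 2 (hE 2) _ (good_step E _ 1 (hE 1) _ (good_step E _ 0 (hE 0) _ hf))⟩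

/-! ### the lower set -/

/-- the lower closure of the octant -/
def LL (E : Set R3) : Set R3 := {x | ∃ y ∈ E, (∀ i, 0 < y i ∧ y i < 1 / 2) ∧ x ≤ y}

theorem isLowerSet_LL (E : Set R3) : IsLowerSet (LL E) := by
  rintro a b hba ⟨y, hy, h1, h2⟩
  exact ⟨y, hy, h1, hba.trans h2⟩

theorem halfL_mem (p : ℝ × ℝ × ℝ) (hp : p ∈ Q3) (i : Fin 3) :
    0 < halfL p i ∧ halfL p i < 1 / 2 := by
  rw [halfL_apply]
  obtain ⟨h0, h1, h2⟩ := hp
  fin_cases i
  · show 0 < p.1 / 2 ∧ p.1 / 2 < 1 / 2
    constructor <;> linarith [h0.1, h0.2]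
  · show 0 < p.2.1 / 2 ∧ p.2.1 / 2 < 1 / 2
    constructor <;> linarith [h1.1, h1.2]
  · show 0 < p.2.2 / 2 ∧ p.2.2 / 2 < 1 / 2
    constructor <;> linarith [h2.1, h2.2]

theorem mem_oct (E : Set R3) (p : ℝ × ℝ × ℝ) : p ∈ oct E ↔ p ∈ Q3 ∧ halfL p ∈ E := by
  rw [halfL_apply]; rfl

theorem mem_LL (E : Set R3) (hs : ∀ x y : R3, (∀ i, dz (x i) ≤ dz (y i)) → y ∈ E → x ∈ E)
    (p : ℝ × ℝ × ℝ) (hp : p ∈ Q3) : halfL p ∈ LL E ↔ halfL p ∈ E := by
  constructor
  · rintro ⟨y, hy, h1, h2⟩
    refine hs _ y (fun i => ?_) hy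
    rw [dz_of_mem (halfL_mem p hp i).1 (halfL_mem p hp i).2, dz_of_mem (h1 i).1 (h1 i).2]
    exact h2 i
  · intro h
    exact ⟨_, h, halfL_mem p hp, le_rfl⟩

theorem qmp_halfL : Measure.QuasiMeasurePreserving halfL volume volume := by
  have h1 : Measure.QuasiMeasurePreserving (fun x : R3 => (1 / 2 : ℝ) • x) volume volume :=
    Measure.quasiMeasurePreserving_smul volume (by norm_num)
  have h2 := h1.comp Vec.mp_vec3.quasiMeasurePreserving
  have h3 : (halfL : ℝ × ℝ × ℝ → R3) = (fun x : R3 => (1 / 2 : ℝ) • x) ∘ Vec.vec3 := by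
    funext p
    show (1 / 2 : ℝ) • Vec.vecL p = _
    rw [Vec.vecL_apply]
    rfl
  rw [h3]; exact h2

theorem oct_low (E : Set R3) (hs : ∀ x y : R3, (∀ i, dz (x i) ≤ dz (y i)) → y ∈ E → x ∈ E)
    (p : ℝ × ℝ × ℝ) (hp : p ∈ oct E) (q : ℝ × ℝ × ℝ) (hq : q ∈ Q3) (hqp : q ≤ p) : q ∈ oct E := by
  rw [mem_oct] at hp ⊢
  refine ⟨hq, hs _ _ (fun i => ?_) hp.2⟩
  rw [dz_of_mem (halfL_mem p hp.1 i).1 (halfL_mem p hp.1 i).2,
    dz_of_mem (halfL_mem q hq i).1 (halfL_mem q hq i).2, halfL_apply, halfL_apply]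
  obtain ⟨h0, h1, h2⟩ := hqp
  fin_cases i
  · show q.1 / 2 ≤ p.1 / 2
    linarith
  · show q.2.1 / 2 ≤ p.2.1 / 2
    linarith
  · show q.2.2 / 2 ≤ p.2.2 / 2
    linarith

theorem int_low (E : Set R3) (hs : ∀ x y : R3, (∀ i, dz (x i) ≤ dz (y i)) → y ∈ E → x ∈ E) :
    Low3 (interior (oct E)) := by
  refine ⟨fun p hp => (interior_subset hp).1, fun p hp q hq hqp => ?_⟩
  rw [mem_interior_iff_mem_nhds, Metric.mem_nhds_iff] at hp ⊢
  obtain ⟨ε, hε, hb⟩ := hp
  have hQ : Q3 ∈ 𝓝 q := Hel.isOpen_Q3.mem_nhds hq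
  obtain ⟨ε', hε', hb'⟩ := Metric.mem_nhds_iff.1 hQ
  refine ⟨min ε ε', lt_min hε hε', fun r hr => ?_⟩
  rw [Metric.mem_ball] at hr
  have hr1 : r ∈ Q3 := hb' (Metric.mem_ball.2 (hr.trans_le (min_le_right _ _)))
  have hr2 : dist r q < ε := hr.trans_le (min_le_left _ _)
  refine oct_low E hs (p + (r - q)) (hb ?_) r hr1 ?_
  · rw [Metric.mem_ball, dist_eq_norm] 
    rw [dist_eq_norm] at hr2
    simpa using hr2
  · have : r = q + (r - q) := by abel
    calc r = q + (r - q) := this
      _ ≤ p + (r - q) := add_le_add_left hqp _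

theorem int_ae (E : Set R3) (hs : ∀ x y : R3, (∀ i, dz (x i) ≤ dz (y i)) → y ∈ E → x ∈ E) :
    interior (oct E) =ᵐ[volume] oct E := by
  have h1 : volume (frontier (LL E)) = 0 := (isLowerSet_LL E).null_frontier
  have h2 : ∀ᵐ x : R3, x ∉ frontier (LL E) := measure_eq_zero_iff_ae_notMem.1 h1
  have h3 := qmp_halfL.ae h2
  filter_upwards [h3] with p hp
  refine propext ?_
  show p ∈ interior (oct E) ↔ p ∈ oct E
  refine ⟨fun h => interior_subset h, fun h => ?_⟩
  obtain ⟨hQ, hE⟩ := (mem_oct E p).1 h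
  have h4 : halfL p ∈ LL E := (mem_LL E hs p hQ).2 hE
  have h5 : halfL p ∈ interior (LL E) := by
    by_contra hc
    exact hp ⟨subset_closure h4, hc⟩
  refine mem_interior.2 ⟨Q3 ∩ halfL ⁻¹' interior (LL E), fun q hq => ?_,
    Hel.isOpen_Q3.inter (isOpen_interior.preimage halfL.continuous), ⟨hQ, h5⟩⟩
  exact (mem_oct E q).2 ⟨hq.1, (mem_LL E hs q hq.1).1 (interior_subset hq.2)⟩

end P232.OctA

namespace P232

open Asm OctA in
/-- [OCT] Octant.lean -/
theorem octant (E : Set R3) (hm : MeasurableSet E) (hp : PeriodicSet E)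
    (hs : ∀ x y : R3, (∀ i, dz (x i) ≤ dz (y i)) → y ∈ E → x ∈ E) (hfin : perimeter E ≠ ⊤) :
    IsOpen (interior (oct E)) ∧ Low3 (interior (oct E)) ∧ interior (oct E) =ᵐ[volume] oct E ∧
      volume (interior (oct E)) = volume (E ∩ cell) ∧
      Approx3 (interior (oct E)) ((perimeter E).toReal / 2) := by
  have hE : ∀ i x, rf i x ∈ E ↔ x ∈ E := by
    intro i x
    have h : ∀ j, dz (rf i x j) = dz (x j) := by
      intro j
      by_cases hj : j = i
      · subst hj; simp [rf, dz_neg]
      · simp [rf, hj]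
    exact ⟨hs _ _ fun j => (h j).ge, hs _ _ fun j => (h j).le⟩
  obtain ⟨f, hf⟩ := good_all E hm hp hE hfin
  have heven : ∀ n x i, f n (Function.update x i (-x i)) = f n x := by
    intro n x i
    refine hf.even n i ?_ x
    fin_cases i <;> simp
  have hae := int_ae E hs
  -- pointwise limit
  have hlim : ∀ᵐ p ∂(volume.restrict Q3), Tendsto (fun n => f n (halfL p)) atTop
      (𝓝 ((interior (oct E)).indicator 1 p)) := by
    have h1 := qmp_halfL.ae hf.lim
    have h2 : ∀ᵐ p : ℝ × ℝ × ℝ, (p ∈ interior (oct E)) = (p ∈ oct E) := hae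
    rw [ae_restrict_iff' Hel.measurableSet_Q3]
    filter_upwards [h1, h2] with p h3 h4 hQ
    have h5 : E.indicator (1 : R3 → ℝ) (halfL p) = (interior (oct E)).indicator 1 p := by
      by_cases hx : halfL p ∈ E
      · have h6 : p ∈ interior (oct E) := by rw [h4]; exact (mem_oct E p).2 ⟨hQ, hx⟩
        rw [indicator_of_mem hx, indicator_of_mem h6]; rfl
      · have h6 : p ∉ interior (oct E) := by
          rw [h4]; exact fun h => hx ((mem_oct E p).1 h).2
        rw [indicator_of_notMem hx, indicator_of_notMem h6]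
    rw [h5] at h3
    exact h3
  have hfinQ : volume Q3 < ⊤ := by rw [Hel.volume_Q3]; exact ENNReal.one_lt_top
  have hmD : MeasurableSet (interior (oct E)) := isOpen_interior.measurableSet
  have hDQ : interior (oct E) ⊆ Q3 := fun p hp => (interior_subset hp).1
  refine ⟨isOpen_interior, int_low E hs, hae, ?_, ?_⟩
  · -- volumes
    have hA : Tendsto (fun n => ∫ p in Q3, f n (halfL p)) atTop
        (𝓝 (∫ p in Q3, (interior (oct E)).indicator (1 : ℝ × ℝ × ℝ → ℝ) p)) := by
      refine tendsto_integral_of_dominated_convergence (fun _ => (1 : ℝ)) ?_ ?_ ?_ hlim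
      · intro n
        exact ((hf.smooth n).continuous.comp halfL.continuous).aestronglyMeasurable
      · exact integrableOn_const hfinQ.ne
      · intro n
        refine Eventually.of_forall fun p => ?_
        have := hf.mem n (halfL p)
        rw [Real.norm_eq_abs, abs_of_nonneg this.1]
        exact this.2
    have hB : Tendsto (fun n => ∫ x in cell, f n x) atTop
        (𝓝 (∫ x in cell, E.indicator (1 : R3 → ℝ) x)) := by
      refine tendsto_integral_of_dominated_convergence (fun _ => (1 : ℝ)) ?_ ?_ ?_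
        (ae_restrict_of_ae hf.lim)
      · intro n
        exact (hf.smooth n).continuous.aestronglyMeasurable
      · exact integrableOn_const Cell.volume_cell_lt_top.ne
      · intro n
        refine Eventually.of_forall fun p => ?_
        have := hf.mem n p
        rw [Real.norm_eq_abs, abs_of_nonneg this.1]
        exact this.2
    have hC : ∀ n, ∫ p in Q3, f n (halfL p) = ∫ x in cell, f n x := by
      intro n
      have h1 := Fold.halve _ (EP_of (f n) (hf.smooth n).continuous (hf.per n) (heven n))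
      rw [Fold.integral_cell_eq_Q3, ← h1]
      refine setIntegral_congr_fun Hel.measurableSet_Q3 fun p _ => ?_
      show f n (halfL p) = f n (Vec.vec3 (Fold.hf p))
      rw [halfL_apply]
    simp only [hC] at hA
    have hU := tendsto_nhds_unique hA hB
    have h1 : ∫ p in Q3, (interior (oct E)).indicator (1 : ℝ × ℝ × ℝ → ℝ) p
        = (volume (interior (oct E))).toReal := by
      rw [setIntegral_indicator hmD, inter_eq_self_of_subset_right hDQ]
      simp [Measure.real]
    have h2 : ∫ x in cell, E.indicator (1 : R3 → ℝ) x = (volume (E ∩ cell)).toReal := by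
      rw [setIntegral_indicator hm, inter_comm]
      simp [Measure.real]
    rw [h1, h2] at hU
    refine (ENNReal.toReal_eq_toReal_iff' ?_ ?_).1 hU
    · exact ne_top_of_le_ne_top hfinQ.ne (measure_mono hDQ)
    · exact ne_top_of_le_ne_top Cell.volume_cell_lt_top.ne (measure_mono inter_subset_right)
  · refine ⟨fun n p => f n (halfL p), fun n => ?_, fun n p => hf.mem n _, fun n => ?_, hlim⟩
    · exact ((hf.smooth n).of_le (by exact_mod_cast le_top)).comp halfL.contDiff
    · have hFd : Differentiable ℝ (f n) := (hf.smooth n).differentiable (by simp)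
      have hgrc : Continuous (gradN (f n)) := Mol.gradN_continuous _ (hf.smooth n)
      simp only [gn3_scaled _ hFd]
      have hcc : Continuous fun p : ℝ × ℝ × ℝ => gradN (f n) (Vec.vec3 (Fold.hf p)) :=
        hgrc.comp (Vec.continuous_vec3.comp Fold.continuous_hf)
      have hK : IsCompact (Icc (0 : ℝ) 1 ×ˢ (Icc (0 : ℝ) 1 ×ˢ Icc (0 : ℝ) 1)) :=
        isCompact_Icc.prod (isCompact_Icc.prod isCompact_Icc)
      have hint : Integrable (fun p : ℝ × ℝ × ℝ =>
          1 / 2 * gradN (f n) (Vec.vec3 (Fold.hf p))) (volume.restrict Q3) :=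
        ((continuous_const.mul hcc).continuousOn.integrableOn_compact hK).mono_set
          (prod_mono Ioo_subset_Icc_self (prod_mono Ioo_subset_Icc_self Ioo_subset_Icc_self))
      rw [← ofReal_integral_eq_lintegral_ofReal hint (Eventually.of_forall fun p =>
        mul_nonneg (by norm_num) (Real.sqrt_nonneg _))]
      refine ENNReal.ofReal_le_ofReal ?_
      rw [integral_const_mul]
      have hEP := EP_of (gradN (f n)) hgrc
        (fun x i => by
          unfold gradN
          simp only [Mol.partial_periodic _ (hf.per n)])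
        (gradN_even _ hFd (heven n))
      have h2 := Fold.halve _ hEP
      rw [h2, ← Fold.integral_cell_eq_Q3]
      have := hf.grad n
      linarith

end P232
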