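import Vale.Agent.P232.DefsU
import Vale.Agent.P232.Smooth
import Vale.Agent.P232.EnLow
import Vale.Agent.P232.Mollify

/-!
# P232 [ST2]: lower semicontinuity of the perimeter from the nonlocal energies
-/

open MeasureTheory Set Filter Topology
open scoped ENNReal ContDiff

namespace P232.Lsc

/-- Integration by parts against a test field. -/
theorem dual_smooth (F : R3 → ℝ) (hF : ContDiff ℝ ∞ F) (hp : PeriodicFun F) (φ : R3 → R3)
    (hφ : TestField φ) : ∫ x in cell, F x * divergence φ x ≤ ∫ x in cell, gradN F x := by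
  have hφ1 : ContDiff ℝ 1 φ := hφ.smooth.of_le (by exact_mod_cast le_top)
  have hF1 : ContDiff ℝ 1 F := hF.of_le (by exact_mod_cast le_top)
  have hφd : Differentiable ℝ φ := hφ1.differentiable one_ne_zero
  have hFd : Differentiable ℝ F := hF1.differentiable one_ne_zero
  have h0 : ∫ x in cell, divergence (fun x => F x • φ x) x = 0 := by
    refine Cell.integral_divergence _ (hF1.smul hφ1) fun x i => ?_
    show F (x + Pi.single i 1) • φ (x + Pi.single i 1) = F x • φ x
    rw [hp x i, hφ.periodic]
  simp only [Mol.divergence_smul F _ hFd hφd] at h0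
  set S : R3 → ℝ := fun x => ∑ i, fderiv ℝ F x (Pi.single i 1) * φ x i with hS
  have hSc : Continuous S := continuous_finsetSum _ fun i _ =>
    (Mol.partial_contDiff F hF i).continuous.mul ((continuous_apply i).comp hφ1.continuous)
  have hSi := Mol.integrableOn_cell S hSc
  have hfdi := Mol.integrableOn_cell (fun x => F x * divergence φ x)
    (hF.continuous.mul (Mol.divergence_continuous _ hφ1))
  rw [integral_add hSi hfdi] at h0
  have h2 : ∀ x, -S x ≤ gradN F x := by
    intro x
    unfold gradN
    refine (neg_le_abs _).trans (Real.abs_le_sqrt ?_)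
    calc S x ^ 2 ≤ (∑ i, (fderiv ℝ F x (Pi.single i 1)) ^ 2) * ∑ i, (φ x i) ^ 2 :=
          Finset.sum_mul_sq_le_sq_mul_sq _ _ _
      _ ≤ (∑ i, (fderiv ℝ F x (Pi.single i 1)) ^ 2) * 1 :=
          mul_le_mul_of_nonneg_left (hφ.bound x) (Finset.sum_nonneg fun _ _ => sq_nonneg _)
      _ = _ := mul_one _
  calc ∫ x in cell, F x * divergence φ x = ∫ x in cell, -S x := by
        rw [integral_neg]
        linarith
    _ ≤ ∫ x in cell, gradN F x :=
        integral_mono hSi.neg (Mol.integrableOn_cell _ (Mol.gradN_continuous F hF)) h2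

/-- The same for continuous functions with controlled energies. -/
theorem dual_cont (g : Tor → ℝ) (hg : Continuous g) (h01 : ∀ x, g x ∈ Icc (0 : ℝ) 1) (P : ℝ)
    (hen : ∀ δ, 0 < δ → δ < 1 / 2 → en δ g ≤ Mc δ * P) (φ : R3 → R3) (hφ : TestField φ) :
    ∫ x in cell, g (pr x) * divergence φ x ≤ P := by
  have hφ1 : ContDiff ℝ 1 φ := hφ.smooth.of_le (by exact_mod_cast le_top)
  have hdc := Mol.divergence_continuous φ hφ1
  obtain ⟨C, hC0, hC⟩ := Mol.bdd_cell _ hdc
  refine le_of_forall_pos_le_add fun ε hε => ?_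
  have hε' : 0 < ε / (C + 1) := by positivity
  obtain ⟨ρ, hρ⟩ := Smo.exists_kernel g hg (ε / (C + 1)) hε'
  have hF := Smo.mol_contDiff ρ g hg
  have hFp := Smo.mol_periodic ρ g
  have happ := Smo.mol_approx ρ g hg h01 (ε / (C + 1)) hρ
  have hgrad : ∫ x in cell, gradN (Smo.mol ρ g) x ≤ P := by
    refine grad_le (Smo.mol ρ g) (hF.of_le (by exact_mod_cast le_top))
      (fun y => ∫ t, Smo.ker ρ t * g (y - pr t)) (fun x => (Smo.mol_apply ρ g x).symm) P
      fun δ h0 h1 => ?_
    exact (Smo.en_mol ρ g hg h01 _ (fun x => rfl) δ).trans (hen δ h0 h1)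
  have h1 := dual_smooth _ hF hFp φ hφ
  have hi1 := Mol.integrableOn_cell (fun x => Smo.mol ρ g x * divergence φ x)
    (hF.continuous.mul hdc)
  have hi2 := Mol.integrableOn_cell (fun x => g (pr x) * divergence φ x)
    ((hg.comp Smo.pr_continuous).mul hdc)
  have hvol : (volume.restrict cell) univ = 1 := by
    rw [Measure.restrict_apply_univ, Cell.volume_cell]
  have h2 : ∫ x in cell, (g (pr x) * divergence φ x - Smo.mol ρ g x * divergence φ x) ≤ ε := by
    have h3 : ∫ x in cell, (g (pr x) * divergence φ x - Smo.mol ρ g x * divergence φ x) ≤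
        ∫ _x in cell, ε := by
      refine setIntegral_mono_on (hi2.sub hi1) (integrableOn_const (by
        rw [Cell.volume_cell]; simp)) Cell.measurableSet_cell fun x hx => ?_
      have h4 := happ x
      have h5 := hC x hx
      calc g (pr x) * divergence φ x - Smo.mol ρ g x * divergence φ x
          = -(Smo.mol ρ g x - g (pr x)) * divergence φ x := by ring
        _ ≤ |-(Smo.mol ρ g x - g (pr x)) * divergence φ x| := le_abs_self _
        _ = |Smo.mol ρ g x - g (pr x)| * |divergence φ x| := by rw [abs_mul, abs_neg]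
        _ ≤ ε / (C + 1) * C := mul_le_mul h4 h5 (abs_nonneg _) hε'.le
        _ ≤ ε / (C + 1) * (C + 1) := mul_le_mul_of_nonneg_left (by linarith) hε'.le
        _ = ε := by field_simp
    refine h3.trans (le_of_eq ?_)
    rw [integral_const]
    simp [Measure.real, hvol]
  rw [integral_sub hi2 hi1] at h2
  linarith

end P232.Lsc

namespace P232

/-- [ST2] PerLsc.lean -/
theorem per_of_approx (E : Set R3) (hm : MeasurableSet E) (hp : PeriodicSet E) (P : ℝ) (hP : 0 ≤ P)
    (g : ℕ → Tor → ℝ) (hg : ∀ n, Continuous (g n)) (h01 : ∀ n x, g n x ∈ Icc (0 : ℝ) 1)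
    (hen : ∀ n δ, 0 < δ → δ < 1 / 2 → en δ (g n) ≤ Mc δ * P)
    (hlim : Tendsto (fun n => ∫ x in cell, |g n (pr x) - E.indicator 1 x|) atTop (𝓝 0)) :
    perimeter E ≤ ENNReal.ofReal P := by
  unfold perimeter
  refine iSup₂_le fun φ hφ => ENNReal.ofReal_le_ofReal ?_
  have hφ1 : ContDiff ℝ 1 φ := hφ.smooth.of_le (by exact_mod_cast le_top)
  have hdc := Mol.divergence_continuous φ hφ1
  obtain ⟨C, hC0, hC⟩ := Mol.bdd_cell _ hdc
  have hind : ∫ x in cell, E.indicator (1 : R3 → ℝ) x * divergence φ x
      = ∫ x in E ∩ cell, divergence φ x := by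
    have : (fun x => E.indicator (1 : R3 → ℝ) x * divergence φ x)
        = E.indicator (divergence φ) := by
      funext x
      by_cases h : x ∈ E <;> simp [h]
    rw [this, setIntegral_indicator hm, inter_comm]
  rw [← hind]
  have hiE : IntegrableOn (fun x => E.indicator (1 : R3 → ℝ) x * divergence φ x) cell volume := by
    have : (fun x => E.indicator (1 : R3 → ℝ) x * divergence φ x)
        = E.indicator (divergence φ) := by
      funext x
      by_cases h : x ∈ E <;> simp [h]
    rw [this]
    exact (Mol.integrableOn_cell _ hdc).indicator hm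
  have hi1 : IntegrableOn (fun x => E.indicator (1 : R3 → ℝ) x) cell volume :=
    (integrableOn_const (by rw [Cell.volume_cell]; simp) : IntegrableOn (fun _ => (1 : ℝ)) cell
      volume).indicator hm
  have hstep : ∀ n, ∫ x in cell, E.indicator (1 : R3 → ℝ) x * divergence φ x ≤
      P + C * ∫ x in cell, |g n (pr x) - E.indicator 1 x| := by
    intro n
    have h1 := Lsc.dual_cont (g n) (hg n) (h01 n) P (hen n) φ hφ
    have hgi := Mol.integrableOn_cell (fun x => g n (pr x)) ((hg n).comp Smo.pr_continuous)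
    have hi2 := Mol.integrableOn_cell (fun x => g n (pr x) * divergence φ x)
      (((hg n).comp Smo.pr_continuous).mul hdc)
    have hi3 : IntegrableOn (fun x => |g n (pr x) - E.indicator (1 : R3 → ℝ) x|) cell volume :=
      (hgi.sub hi1).abs
    have h2 : ∫ x in cell, (E.indicator (1 : R3 → ℝ) x * divergence φ x -
        g n (pr x) * divergence φ x) ≤ ∫ x in cell, C * |g n (pr x) - E.indicator (1 : R3 → ℝ) x| := by
      refine setIntegral_mono_on (hiE.sub hi2) (hi3.const_mul C) Cell.measurableSet_cell
        fun x hx => ?_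
      have h5 := hC x hx
      calc E.indicator (1 : R3 → ℝ) x * divergence φ x - g n (pr x) * divergence φ x
          = -(g n (pr x) - E.indicator (1 : R3 → ℝ) x) * divergence φ x := by ring
        _ ≤ |-(g n (pr x) - E.indicator (1 : R3 → ℝ) x) * divergence φ x| := le_abs_self _
        _ = |divergence φ x| * |g n (pr x) - E.indicator (1 : R3 → ℝ) x| := by
            rw [abs_mul, abs_neg, mul_comm]
        _ ≤ C * |g n (pr x) - E.indicator (1 : R3 → ℝ) x| :=
            mul_le_mul_of_nonneg_right h5 (abs_nonneg _)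
    rw [integral_sub hiE hi2, integral_const_mul] at h2
    linarith
  have hlim2 : Tendsto (fun n => P + C * ∫ x in cell, |g n (pr x) - E.indicator 1 x|) atTop
      (𝓝 (P + C * 0)) := (hlim.const_mul C).const_add P
  rw [mul_zero, add_zero] at hlim2
  exact ge_of_tendsto' hlim2 hstep

end P232
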