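import Vale.Agent.P232.Slicing
import Vale.Agent.P232.Level

/-!
# P232 [PROF]: slicing profile in one direction; invariance under permutations of coordinates
-/

open MeasureTheory Set Filter Topology
open scoped ENNReal ContDiff

namespace P232

namespace ProfAux

/-- coordinate rotation `(a,b,c) ↦ (c,a,b)` as a continuous linear map -/
noncomputable def Rm : ℝ × ℝ × ℝ →L[ℝ] ℝ × ℝ × ℝ :=
  ((ContinuousLinearMap.snd ℝ ℝ ℝ).comp (ContinuousLinearMap.snd ℝ ℝ (ℝ × ℝ))).prod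
    ((ContinuousLinearMap.fst ℝ ℝ (ℝ × ℝ)).prod
      ((ContinuousLinearMap.fst ℝ ℝ ℝ).comp (ContinuousLinearMap.snd ℝ ℝ (ℝ × ℝ))))

/-- exchange `(a,b,c) ↦ (a,c,b)` as a continuous linear map -/
noncomputable def Sm : ℝ × ℝ × ℝ →L[ℝ] ℝ × ℝ × ℝ :=
  (ContinuousLinearMap.fst ℝ ℝ (ℝ × ℝ)).prod
    (((ContinuousLinearMap.snd ℝ ℝ ℝ).comp (ContinuousLinearMap.snd ℝ ℝ (ℝ × ℝ))).prod
      ((ContinuousLinearMap.fst ℝ ℝ ℝ).comp (ContinuousLinearMap.snd ℝ ℝ (ℝ × ℝ))))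

theorem Rm_apply (p : ℝ × ℝ × ℝ) : Rm p = (p.2.2, p.1, p.2.1) := rfl

theorem Sm_apply (p : ℝ × ℝ × ℝ) : Sm p = (p.1, p.2.2, p.2.1) := rfl

theorem Rm_mp : MeasurePreserving (fun p : ℝ × ℝ × ℝ => Rm p) volume volume := by
  have h1 : MeasurePreserving (MeasurableEquiv.prodAssoc.symm : ℝ × ℝ × ℝ ≃ᵐ (ℝ × ℝ) × ℝ)
      volume volume := (volume_preserving_prodAssoc (α₁ := ℝ) (β₁ := ℝ) (γ₁ := ℝ)).symm _
  have h2 : MeasurePreserving (Prod.swap : (ℝ × ℝ) × ℝ → ℝ × ℝ × ℝ) volume volume :=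
    Measure.measurePreserving_swap
  exact h2.comp h1

theorem Sm_mp : MeasurePreserving (fun p : ℝ × ℝ × ℝ => Sm p) volume volume := by
  have h2 : MeasurePreserving (Prod.swap : ℝ × ℝ → ℝ × ℝ) volume volume :=
    Measure.measurePreserving_swap
  exact (MeasurePreserving.id (volume : Measure ℝ)).prod h2

theorem approx_of (M : ℝ × ℝ × ℝ →L[ℝ] ℝ × ℝ × ℝ)
    (hM : MeasurePreserving (fun p : ℝ × ℝ × ℝ => M p) volume volume)
    (hQ : (fun p : ℝ × ℝ × ℝ => M p) ⁻¹' Q3 = Q3)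
    (hg : ∀ F : ℝ × ℝ × ℝ → ℝ, ContDiff ℝ 1 F → ∀ p, gn3 (fun x => F (M x)) p = gn3 F (M p))
    (D : Set (ℝ × ℝ × ℝ)) (P : ℝ) (h : Approx3 D P) :
    Approx3 ((fun p : ℝ × ℝ × ℝ => M p) ⁻¹' D) P := by
  obtain ⟨F, h1, h2, h3, h4⟩ := h
  have hMr : MeasurePreserving (fun p : ℝ × ℝ × ℝ => M p) (volume.restrict Q3)
      (volume.restrict Q3) := by
    have := hM.restrict_preimage (s := Q3)
      (measurableSet_Ioo.prod (measurableSet_Ioo.prod measurableSet_Ioo))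
    rwa [hQ] at this
  refine ⟨fun n x => F n (M x), fun n => (h1 n).comp M.contDiff, fun n p => h2 n _, ?_, ?_⟩
  · intro n
    refine le_trans (le_of_eq ?_) (h3 n)
    have hc : Continuous (gn3 (F n)) := by
      have hfd : Continuous (fderiv ℝ (F n)) := (h1 n).continuous_fderiv (by norm_num)
      unfold gn3
      fun_prop
    have := hMr.lintegral_comp (f := fun p => ENNReal.ofReal (gn3 (F n) p))
      (ENNReal.measurable_ofReal.comp hc.measurable)
    rw [← this]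
    refine lintegral_congr fun p => ?_
    rw [hg (F n) (h1 n) p]
  · have := hMr.quasiMeasurePreserving.ae h4
    filter_upwards [this] with p hp
    exact hp

theorem gn3_comp (M : ℝ × ℝ × ℝ →L[ℝ] ℝ × ℝ × ℝ) (F : ℝ × ℝ × ℝ → ℝ) (hF : ContDiff ℝ 1 F)
    (p v : ℝ × ℝ × ℝ) : fderiv ℝ (fun x => F (M x)) p v = fderiv ℝ F (M p) (M v) := by
  have h1 : HasFDerivAt F (fderiv ℝ F (M p)) (M p) :=
    ((hF.differentiable (by norm_num)) (M p)).hasFDerivAt
  have h2 : HasFDerivAt (fun x => F (M x)) ((fderiv ℝ F (M p)).comp M) p :=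
    h1.comp p M.hasFDerivAt
  rw [h2.fderiv]
  rfl

end ProfAux

open ProfAux

theorem approx_rot (D : Set (ℝ × ℝ × ℝ)) (P : ℝ) (h : Approx3 D P) : Approx3 (rot D) P := by
  refine approx_of Rm Rm_mp ?_ ?_ D P h
  · ext p
    simp only [Q3, mem_preimage, Rm_apply, mem_prod]
    tauto
  · intro F hF p
    unfold gn3
    rw [gn3_comp Rm F hF, gn3_comp Rm F hF, gn3_comp Rm F hF]
    simp only [Rm_apply]
    congr 1
    ring

theorem approx_swp (D : Set (ℝ × ℝ × ℝ)) (P : ℝ) (h : Approx3 D P) : Approx3 (swp D) P := by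
  refine approx_of Sm Sm_mp ?_ ?_ D P h
  · ext p
    simp only [Q3, mem_preimage, Sm_apply, mem_prod]
    tauto
  · intro F hF p
    unfold gn3
    rw [gn3_comp Sm F hF, gn3_comp Sm F hF, gn3_comp Sm F hF]
    simp only [Sm_apply]
    congr 1
    ring

theorem vol_rot (D : Set (ℝ × ℝ × ℝ)) (h : MeasurableSet D) : volume (rot D) = volume D :=
  Rm_mp.measure_preimage h.nullMeasurableSet

theorem vol_swp (D : Set (ℝ × ℝ × ℝ)) (h : MeasurableSet D) : volume (swp D) = volume D :=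
  Sm_mp.measure_preimage h.nullMeasurableSet

theorem low_rot (D : Set (ℝ × ℝ × ℝ)) (h : Low3 D) : Low3 (rot D) := by
  constructor
  · intro p hp
    have := h.1 hp
    simp only [Q3, mem_prod] at this ⊢
    tauto
  · intro p hp q hq hqp
    refine h.2 _ hp _ ?_ ?_
    · simp only [Q3, mem_prod] at hq ⊢
      tauto
    · exact ⟨hqp.2.2, hqp.1, hqp.2.1⟩

theorem low_swp (D : Set (ℝ × ℝ × ℝ)) (h : Low3 D) : Low3 (swp D) := by
  constructor
  · intro p hp
    have := h.1 hp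
    simp only [Q3, mem_prod] at this ⊢
    tauto
  · intro p hp q hq hqp
    refine h.2 _ hp _ ?_ ?_
    · simp only [Q3, mem_prod] at hq ⊢
      tauto
    · exact ⟨hqp.1, hqp.2.2, hqp.2.1⟩

namespace ProfAux

theorem volQ2 : volume Q2 = 1 := by
  have : (volume : Measure (ℝ × ℝ)) Q2 = volume (Ioo (0 : ℝ) 1) * volume (Ioo (0 : ℝ) 1) :=
    Measure.prod_prod _ _
  rw [this, Real.volume_Ioo]
  norm_num

theorem slice_sub {D : Set (ℝ × ℝ × ℝ)} (hD : Low3 D) (s : ℝ) : slice D s ⊆ Q2 := by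
  intro p hp
  have := hD.1 hp
  exact this.2

theorem slice_fin {D : Set (ℝ × ℝ × ℝ)} (hD : Low3 D) (s : ℝ) : volume (slice D s) ≤ 1 :=
  (measure_mono (slice_sub hD s)).trans volQ2.le

theorem slice_anti {D : Set (ℝ × ℝ × ℝ)} (hD : Low3 D) {s t : ℝ} (hs : s ∈ Ioo (0 : ℝ) 1)
    (hst : s ≤ t) : slice D t ⊆ slice D s := by
  intro p hp
  have h1 := hD.1 hp
  exact hD.2 (t, p) hp (s, p) ⟨hs, h1.2⟩ ⟨hst, le_refl p⟩

theorem slice_empty {D : Set (ℝ × ℝ × ℝ)} (hD : Low3 D) {s : ℝ} (hs : s ∉ Ioo (0 : ℝ) 1) :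
    slice D s = ∅ := by
  rw [eq_empty_iff_forall_notMem]
  intro p hp
  exact hs (hD.1 hp).1

end ProfAux

theorem prof_of (D : Set (ℝ × ℝ × ℝ)) (ho : IsOpen D) (hD : Low3 D) (P : ℝ) (hP : 0 ≤ P)
    (hA : Approx3 D P) (V : ℝ) (hV0 : 0 ≤ V) (hV : volume D = ENNReal.ofReal V) :
    ∃ (a q : ℝ → ℝ) (a0 a1 : ℝ), Prof a q P V a0 a1 ∧
      (∀ s ∈ Ioo (0 : ℝ) 1, a s = (volume (slice D s)).toReal) ∧
      (∀ t < a0, ∃ s ∈ Ioo (0 : ℝ) 1, t < a s) ∧
      (∀ᵐ s ∂(volume.restrict (Ioo (0 : ℝ) 1)), ∀ c, LB2 (slice D s) c → c ≤ q s) := by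
  obtain ⟨q, hq0, hqm, hqi, hqL, hPI⟩ := slice3 D ho.measurableSet hD.1 P hP hA
  set a : ℝ → ℝ := fun s => (volume (slice D s)).toReal with ha_def
  have hfin : ∀ s, volume (slice D s) ≠ ⊤ :=
    fun s => ((slice_fin hD s).trans_lt ENNReal.one_lt_top).ne
  have ha1 : ∀ s, a s ≤ 1 := fun s => by
    have := ENNReal.toReal_mono (by simp) (slice_fin hD s)
    simpa using this
  have ha0 : ∀ s, 0 ≤ a s := fun s => ENNReal.toReal_nonneg
  have hanti : AntitoneOn a (Ioo 0 1) := by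
    intro s hs t ht hst
    exact ENNReal.toReal_mono (hfin s) (measure_mono (slice_anti hD hs hst))
  have hne : (a '' Ioo (0 : ℝ) 1).Nonempty := ⟨_, ⟨1 / 2, by norm_num, rfl⟩⟩
  have hbA : BddAbove (a '' Ioo (0 : ℝ) 1) := ⟨1, by rintro _ ⟨s, _, rfl⟩; exact ha1 s⟩
  have hbB : BddBelow (a '' Ioo (0 : ℝ) 1) := ⟨0, by rintro _ ⟨s, _, rfl⟩; exact ha0 s⟩
  set a0 := sSup (a '' Ioo (0 : ℝ) 1) with ha0_def
  set a1 := sInf (a '' Ioo (0 : ℝ) 1) with ha1_def
  have hmem : ∀ s ∈ Ioo (0 : ℝ) 1, a s ∈ Icc a1 a0 := fun s hs =>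
    ⟨csInf_le hbB ⟨s, hs, rfl⟩, le_csSup hbA ⟨s, hs, rfl⟩⟩
  have hmono : MonotoneOn (fun s => -a s) (Ioo 0 1) := fun s hs t ht hst => neg_le_neg (hanti hs ht hst)
  have himg : (fun s => -a s) '' Ioo (0 : ℝ) 1 = -(a '' Ioo (0 : ℝ) 1) := by
    ext y
    simp only [mem_image, Set.mem_neg]
    constructor
    · rintro ⟨s, hs, rfl⟩
      exact ⟨s, hs, by ring⟩
    · rintro ⟨s, hs, h⟩
      exact ⟨s, hs, by rw [h]; ring⟩
  have hlim0 : Tendsto a (𝓝[>] 0) (𝓝 a0) := by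
    have h1 := hmono.tendsto_nhdsWithin_Ioo_right (by norm_num : (Ioo (0 : ℝ) 1).Nonempty) (by
      rw [himg]
      exact hbA.neg)
    rw [himg, Real.sInf_neg] at h1
    have h2 := h1.neg
    simpa using h2
  have hlim1 : Tendsto a (𝓝[<] 1) (𝓝 a1) := by
    have h1 := hmono.tendsto_nhdsWithin_Ioo_left (by norm_num : (Ioo (0 : ℝ) 1).Nonempty) (by
      rw [himg]
      exact hbB.neg)
    rw [himg, Real.sSup_neg] at h1
    have h2 := h1.neg
    simpa using h2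
  have hmeas : Measurable fun s => volume (slice D s) :=
    measurable_measure_prodMk_left ho.measurableSet
  have hzero : ∀ s, s ∉ Ioo (0 : ℝ) 1 → a s = 0 := fun s hs => by
    simp only [ha_def, slice_empty hD hs, measure_empty, ENNReal.toReal_zero]
  have hint : ∫ s in (0 : ℝ)..1, a s = V := by
    have h1 : ∫ s, a s = V := by
      have h2 := integral_toReal (μ := (volume : Measure ℝ)) (f := fun s => volume (slice D s))
        hmeas.aemeasurable (Eventually.of_forall fun s => (slice_fin hD s).trans_lt ENNReal.one_lt_top)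
      have h3 : (volume : Measure (ℝ × ℝ × ℝ)) D = ∫⁻ s, volume (slice D s) :=
        Measure.prod_apply ho.measurableSet
      rw [h2, ← h3, hV, ENNReal.toReal_ofReal hV0]
    rw [intervalIntegral.integral_of_le (by norm_num), ← h1]
    refine setIntegral_eq_integral_of_forall_compl_eq_zero fun s hs => hzero s fun h => hs ?_
    exact ⟨h.1, h.2.le⟩
  have hii : IntervalIntegrable a volume 0 1 := by
    rw [intervalIntegrable_iff_integrableOn_Ioo_of_le (by norm_num)]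
    refine Measure.integrableOn_of_bounded (M := 1) (by simp) hmeas.ennreal_toReal.aestronglyMeasurable ?_
    refine Eventually.of_forall fun s => ?_
    rw [Real.norm_eq_abs, abs_of_nonneg (ha0 s)]
    exact ha1 s
  refine ⟨a, q, a0, a1, ⟨hanti, hmem, ?_, ?_, ?_, ?_, hint, hq0, hqm, hqi, ?_⟩, fun s _ => rfl, ?_, hqL⟩
  · exact le_csInf hne (by rintro _ ⟨s, _, rfl⟩; exact ha0 s)
  · rw [← hint]
    have := intervalIntegral.integral_mono_on_of_le_Ioo (by norm_num : (0 : ℝ) ≤ 1)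
      (intervalIntegrable_const (c := a1)) hii (fun s hs => (hmem s hs).1)
    simpa using this
  · rw [← hint]
    have := intervalIntegral.integral_mono_on_of_le_Ioo (by norm_num : (0 : ℝ) ≤ 1)
      hii (intervalIntegrable_const (c := a0)) (fun s hs => (hmem s hs).2)
    simpa using this
  · exact csSup_le hne (by rintro _ ⟨s, _, rfl⟩; exact ha1 s)
  · intro κ hκ hκ01
    exact level a q P hanti hq0 hqm hqi hPI a0 a1 hlim0 hlim1 κ hκ hκ01
  · intro t ht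
    obtain ⟨_, ⟨s, hs, rfl⟩, h⟩ := exists_lt_of_lt_csSup hne ht
    exact ⟨s, hs, h⟩

end P232
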