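import Vale.Agent.P232.DefsU
import Vale.Agent.P232.ProfOf

/-!
# P232, [S3U]: slicing with the additional information `UB2`
-/

open MeasureTheory Set Filter Topology
open scoped ENNReal ContDiff

namespace P232

open SlAux ProfAux

theorem slice3_u (D : Set (ℝ × ℝ × ℝ)) (hDm : MeasurableSet D) (hD : D ⊆ Q3) (P : ℝ) (hP : 0 ≤ P)
    (hA : Approx3 D P) :
    ∃ q : ℝ → ℝ, (∀ s, 0 ≤ q s) ∧ Measurable q ∧ IntegrableOn q (Ioo 0 1) ∧
      (∀ᵐ s ∂(volume.restrict (Ioo (0 : ℝ) 1)), ∀ c, LB2 (slice D s) c → c ≤ q s) ∧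
      (∀ᵐ s ∂(volume.restrict (Ioo (0 : ℝ) 1)), UB2 (slice D s) (q s)) ∧
      PartIneq (fun s => (volume (slice D s)).toReal) q P := by
  obtain ⟨F, hF, hF01, hFP, hFD⟩ := hA
  -- notation
  set t : ℕ → ℝ × ℝ × ℝ → ℝ := fun n p =>
    √ ((fderiv ℝ (F n) p (0, 1, 0)) ^ 2 + (fderiv ℝ (F n) p (0, 0, 1)) ^ 2) with ht
  have htc : ∀ n, Continuous (t n) := fun n =>
    (((contFd (hF n) _).pow 2).add ((contFd (hF n) _).pow 2)).sqrt
  have hgc : ∀ n, Continuous (gn3 (F n)) := fun n =>
    ((((contFd (hF n) _).pow 2).add ((contFd (hF n) _).pow 2)).add ((contFd (hF n) _).pow 2)).sqrt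
  set L : ℝ → ℝ≥0∞ := fun s =>
    liminf (fun n => ∫⁻ y in Q2, ENNReal.ofReal (t n (s, y))) atTop with hL
  have hLm : Measurable L := by
    apply Measurable.liminf
    intro n
    exact ((htc n).measurable.ennreal_ofReal).lintegral_prod_right'
  have htg : ∀ n p, t n p ≤ gn3 (F n) p := by
    intro n p
    apply Real.sqrt_le_sqrt
    nlinarith [sq_nonneg (fderiv ℝ (F n) p (1, 0, 0))]
  have hLint : ∫⁻ s in Ioo (0 : ℝ) 1, L s ≤ ENNReal.ofReal P := by
    calc ∫⁻ s in Ioo (0 : ℝ) 1, L s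
        ≤ liminf (fun n => ∫⁻ s in Ioo (0 : ℝ) 1, ∫⁻ y in Q2, ENNReal.ofReal (t n (s, y))) atTop := by
          apply lintegral_liminf_le
          intro n
          exact ((htc n).measurable.ennreal_ofReal).lintegral_prod_right'
      _ ≤ liminf (fun _ : ℕ => ENNReal.ofReal P) atTop := by
          refine liminf_le_liminf (Eventually.of_forall fun n => ?_)
          refine le_trans ?_ (hFP n)
          rw [← restrict_Q3, lintegral_prod _ (hgc n).measurable.ennreal_ofReal.aemeasurable]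
          apply lintegral_mono
          intro s
          apply lintegral_mono
          intro y
          exact ENNReal.ofReal_le_ofReal (htg n _)
      _ = ENNReal.ofReal P := by simp
  have hLint' : ∫⁻ s in Ioo (0 : ℝ) 1, L s ≠ ⊤ := (hLint.trans_lt ENNReal.ofReal_lt_top).ne
  have hLfin : ∀ᵐ s ∂(volume.restrict (Ioo (0 : ℝ) 1)), L s < ⊤ := ae_lt_top hLm hLint'
  have hqi : IntegrableOn (fun s => (L s).toReal) (Ioo 0 1) :=
    integrable_toReal_of_lintegral_ne_top hLm.aemeasurable hLint'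
  -- a.e. convergence on slices
  have hae : ∀ᵐ s ∂(volume.restrict (Ioo (0 : ℝ) 1)), ∀ᵐ y ∂(volume.restrict Q2),
      Tendsto (fun n => F n (s, y)) atTop (𝓝 (D.indicator 1 (s, y))) := by
    rw [← restrict_Q3] at hFD
    exact Measure.ae_ae_of_ae_prod hFD
  have hind : ∀ s y, D.indicator (1 : ℝ × ℝ × ℝ → ℝ) (s, y) =
      (slice D s).indicator (1 : ℝ × ℝ → ℝ) y := by
    intro s y
    by_cases h : (s, y) ∈ D
    · rw [indicator_of_mem h, indicator_of_mem (show y ∈ slice D s from h)]; rfl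
    · rw [indicator_of_notMem h, indicator_of_notMem (show y ∉ slice D s from h)]
  refine ⟨fun s => (L s).toReal, fun s => ENNReal.toReal_nonneg, hLm.ennreal_toReal, hqi, ?_, ?_, ?_⟩
  · filter_upwards [hLfin, hae] with s hs1 hs2 c hc
    have h1 := hc (fun n p => F n (s, p)) (fun n => (hF n).comp (contDiff_prodMk_right s))
      (fun n p => hF01 n _) (by
        filter_upwards [hs2] with y hy
        rw [← hind]; exact hy)
    have h2 : (fun n => ∫⁻ p in Q2, ENNReal.ofReal (gn2 (fun p => F n (s, p)) p)) =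
        fun n => ∫⁻ y in Q2, ENNReal.ofReal (t n (s, y)) := by
      ext n
      congr 1
      ext y
      rw [gn2_slice (hF n)]
    rw [h2] at h1
    change ENNReal.ofReal c ≤ L s at h1
    rw [← ENNReal.ofReal_toReal hs1.ne] at h1
    exact (ENNReal.ofReal_le_ofReal_iff ENNReal.toReal_nonneg).1 h1
  · filter_upwards [hLfin, hae] with s hs1 hs2
    refine ⟨fun n p => F n (s, p), fun n => (hF n).comp (contDiff_prodMk_right s),
      fun n p => hF01 n _, ?_, ?_⟩
    · filter_upwards [hs2] with y hy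
      rw [← hind]; exact hy
    · have h2 : (fun n => ∫⁻ p in Q2, ENNReal.ofReal (gn2 (fun p => F n (s, p)) p)) =
          fun n => ∫⁻ y in Q2, ENNReal.ofReal (t n (s, y)) := by
        ext n
        congr 1
        ext y
        rw [gn2_slice (hF n)]
      rw [h2, ENNReal.ofReal_toReal hs1.ne]
  · refine ⟨{s | s ∈ Ioo (0 : ℝ) 1 ∧ ∀ᵐ y ∂(volume.restrict Q2),
      Tendsto (fun n => F n (s, y)) atTop (𝓝 (D.indicator 1 (s, y)))}, fun s hs => hs.1, ?_, ?_⟩
    · rw [ae_restrict_iff' measurableSet_Ioo] at hae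
      have : Ioo (0 : ℝ) 1 \ {s | s ∈ Ioo (0 : ℝ) 1 ∧ ∀ᵐ y ∂(volume.restrict Q2),
          Tendsto (fun n => F n (s, y)) atTop (𝓝 (D.indicator 1 (s, y)))} ⊆
          {s | ¬ (s ∈ Ioo (0 : ℝ) 1 → ∀ᵐ y ∂(volume.restrict Q2),
            Tendsto (fun n => F n (s, y)) atTop (𝓝 (D.indicator 1 (s, y))))} := by
        intro s hs h
        exact hs.2 ⟨hs.1, h hs.1⟩
      exact measure_mono_null this hae
    · intro N s c d hs hs' hcd
      refine core (volume.restrict Q2) F (fun n p => fderiv ℝ (F n) p (1, 0))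
        (fun n => gn3 (F n)) t (fun n y s => hasDerivAt_fst (hF n) s y) ?_ ?_ ?_ (fun n => (htc n).measurable) ?_
        (fun n p => Real.sqrt_nonneg _) ?_ (fun n p => Real.sqrt_nonneg _) ?_ P ?_
        (fun s => (volume (slice D s)).toReal) _ (fun s hs => hs.1) ?_
        _ (fun s => ENNReal.toReal_nonneg) hqi ?_ N s c d hs hs' hcd
      · intro n s
        apply integrableOn_Q2
        exact (hF n).continuous.comp (by fun_prop)
      · intro n
        rw [restrict_Q3]
        exact integrableOn_Q3 (contFd (hF n) _)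
      · intro n y
        exact (contFd (hF n) _).comp (by fun_prop)
      · intro n
        rw [restrict_Q3]
        exact integrableOn_Q3 (htc n)
      · intro n
        rw [restrict_Q3]
        exact integrableOn_Q3 (hgc n)
      · intro n p c d hc hd hcd
        have := cs (fderiv ℝ (F n) p (1, 0)) ((fderiv ℝ (F n) p (0, 1, 0)) ^ 2 +
          (fderiv ℝ (F n) p (0, 0, 1)) ^ 2) c d hcd (by positivity)
        rw [← add_assoc] at this
        exact this
      · intro n
        rw [restrict_Q3]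
        have h1 := hFP n
        rw [← ofReal_integral_eq_lintegral_ofReal (integrableOn_Q3 (hgc n))
          (Eventually.of_forall fun p => Real.sqrt_nonneg _)] at h1
        exact (ENNReal.ofReal_le_ofReal_iff hP).1 h1
      · intro s hs
        have hlim : Tendsto (fun n => ∫ y, F n (s, y) ∂(volume.restrict Q2)) atTop
            (𝓝 (∫ y, D.indicator 1 (s, y) ∂(volume.restrict Q2))) := by
          apply tendsto_integral_of_dominated_convergence (fun _ => (1 : ℝ))
          · intro n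
            exact ((hF n).continuous.comp (by fun_prop)).aestronglyMeasurable
          · exact integrable_const _
          · intro n
            apply Eventually.of_forall
            intro y
            rw [Real.norm_eq_abs, abs_le]
            have := hF01 n (s, y)
            exact ⟨by linarith [this.1], this.2⟩
          · exact hs.2
        convert hlim using 2
        simp_rw [hind]
        have hsm : MeasurableSet (slice D s) := measurable_prodMk_left hDm
        rw [integral_indicator_one hsm, Measure.real, Measure.restrict_apply hsm]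
        congr 2
        apply (inter_eq_left.2 _).symm
        intro y hy
        exact (hD hy).2
      · filter_upwards [hLfin] with s hs
        rw [ENNReal.ofReal_toReal hs.ne]

theorem prof_of_u (D : Set (ℝ × ℝ × ℝ)) (ho : IsOpen D) (hD : Low3 D) (P : ℝ) (hP : 0 ≤ P)
    (hA : Approx3 D P) (V : ℝ) (hV0 : 0 ≤ V) (hV : volume D = ENNReal.ofReal V) :
    ∃ (a q : ℝ → ℝ) (a0 a1 : ℝ), Prof a q P V a0 a1 ∧
      (∀ s ∈ Ioo (0 : ℝ) 1, a s = (volume (slice D s)).toReal) ∧
      (∀ t < a0, ∃ s ∈ Ioo (0 : ℝ) 1, t < a s) ∧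
      (∀ᵐ s ∂(volume.restrict (Ioo (0 : ℝ) 1)), ∀ c, LB2 (slice D s) c → c ≤ q s) ∧
      (∀ᵐ s ∂(volume.restrict (Ioo (0 : ℝ) 1)), UB2 (slice D s) (q s)) := by
  obtain ⟨q, hq0, hqm, hqi, hqL, hqU, hPI⟩ := slice3_u D ho.measurableSet hD.1 P hP hA
  set a : ℝ → ℝ := fun s => (volume (slice D s)).toReal with ha_def
  have hfin : ∀ s, volume (slice D s) ≠ ⊤ :=
    fun s => ((slice_fin hD s).trans_lt ENNReal.one_lt_top).ne
  have ha1 : ∀ s, a s ≤ 1 := fun s => by
    have := ENNReal.toReal_mono (by simp) (slice_fin hD s)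
    simpa using this
  have ha0 : ∀ s, 0 ≤ a s := fun s => ENNReal.toReal_nonneg
  have hanti : AntitoneOn a (Ioo 0 1) := by
    intro s hs t ht hst
    exact ENNReal.toReal_mono (hfin s) (measure_mono (slice_anti hD hs hst))
  have hne : (a '' Ioo (0 : ℝ) 1).Nonempty := ⟨_, ⟨1 / 2, by norm_num, rfl⟩⟩
  have hbA : BddAbove (a '' Ioo (0 : ℝ) 1) := ⟨1, by rintro _ ⟨s, _, rfl⟩; exact ha1 s⟩
  have hbB : BddBelow (a '' Ioo (0 : ℝ) 1) := ⟨0, by rintro _ ⟨s, _, rfl⟩; exact ha0 s⟩
  set a0 := sSup (a '' Ioo (0 : ℝ) 1) with ha0_def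
  set a1 := sInf (a '' Ioo (0 : ℝ) 1) with ha1_def
  have hmem : ∀ s ∈ Ioo (0 : ℝ) 1, a s ∈ Icc a1 a0 := fun s hs =>
    ⟨csInf_le hbB ⟨s, hs, rfl⟩, le_csSup hbA ⟨s, hs, rfl⟩⟩
  have hmono : MonotoneOn (fun s => -a s) (Ioo 0 1) := fun s hs t ht hst => neg_le_neg (hanti hs ht hst)
  have himg : (fun s => -a s) '' Ioo (0 : ℝ) 1 = -(a '' Ioo (0 : ℝ) 1) := by
    ext y
    simp only [mem_image, Set.mem_neg]
    constructor
    · rintro ⟨s, hs, rfl⟩
      exact ⟨s, hs, by ring⟩
    · rintro ⟨s, hs, h⟩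
      exact ⟨s, hs, by rw [h]; ring⟩
  have hlim0 : Tendsto a (𝓝[>] 0) (𝓝 a0) := by
    have h1 := hmono.tendsto_nhdsWithin_Ioo_right (by norm_num : (Ioo (0 : ℝ) 1).Nonempty) (by
      rw [himg]
      exact hbA.neg)
    rw [himg, Real.sInf_neg] at h1
    have h2 := h1.neg
    simpa using h2
  have hlim1 : Tendsto a (𝓝[<] 1) (𝓝 a1) := by
    have h1 := hmono.tendsto_nhdsWithin_Ioo_left (by norm_num : (Ioo (0 : ℝ) 1).Nonempty) (by
      rw [himg]
      exact hbB.neg)
    rw [himg, Real.sSup_neg] at h1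
    have h2 := h1.neg
    simpa using h2
  have hmeas : Measurable fun s => volume (slice D s) :=
    measurable_measure_prodMk_left ho.measurableSet
  have hzero : ∀ s, s ∉ Ioo (0 : ℝ) 1 → a s = 0 := fun s hs => by
    simp only [ha_def, slice_empty hD hs, measure_empty, ENNReal.toReal_zero]
  have hint : ∫ s in (0 : ℝ)..1, a s = V := by
    have h1 : ∫ s, a s = V := by
      have h2 := integral_toReal (μ := (volume : Measure ℝ)) (f := fun s => volume (slice D s))
        hmeas.aemeasurable (Eventually.of_forall fun s => (slice_fin hD s).trans_lt ENNReal.one_lt_top)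
      have h3 : (volume : Measure (ℝ × ℝ × ℝ)) D = ∫⁻ s, volume (slice D s) :=
        Measure.prod_apply ho.measurableSet
      rw [h2, ← h3, hV, ENNReal.toReal_ofReal hV0]
    rw [intervalIntegral.integral_of_le (by norm_num), ← h1]
    refine setIntegral_eq_integral_of_forall_compl_eq_zero fun s hs => hzero s fun h => hs ?_
    exact ⟨h.1, h.2.le⟩
  have hii : IntervalIntegrable a volume 0 1 := by
    rw [intervalIntegrable_iff_integrableOn_Ioo_of_le (by norm_num)]
    refine Measure.integrableOn_of_bounded (M := 1) (by simp) hmeas.ennreal_toReal.aestronglyMeasurable ?_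
    refine Eventually.of_forall fun s => ?_
    rw [Real.norm_eq_abs, abs_of_nonneg (ha0 s)]
    exact ha1 s
  refine ⟨a, q, a0, a1, ⟨hanti, hmem, ?_, ?_, ?_, ?_, hint, hq0, hqm, hqi, ?_⟩, fun s _ => rfl, ?_, hqL, hqU⟩
  · exact le_csInf hne (by rintro _ ⟨s, _, rfl⟩; exact ha0 s)
  · rw [← hint]
    have := intervalIntegral.integral_mono_on_of_le_Ioo (by norm_num : (0 : ℝ) ≤ 1)
      (intervalIntegrable_const (c := a1)) hii (fun s hs => (hmem s hs).1)
    simpa using this
  · rw [← hint]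
    have := intervalIntegral.integral_mono_on_of_le_Ioo (by norm_num : (0 : ℝ) ≤ 1)
      hii (intervalIntegrable_const (c := a0)) (fun s hs => (hmem s hs).2)
    simpa using this
  · exact csSup_le hne (by rintro _ ⟨s, _, rfl⟩; exact ha1 s)
  · intro κ hκ hκ01
    exact level a q P hanti hq0 hqm hqi hPI a0 a1 hlim0 hlim1 κ hκ hκ01
  · intro t ht
    obtain ⟨_, ⟨s, hs, rfl⟩, h⟩ := exists_lt_of_lt_csSup hne ht
    exact ⟨s, hs, h⟩

theorem part_of_ub (S : Set (ℝ × ℝ)) (hSm : MeasurableSet S) (hS : Low2 S) (c : ℝ) (hc : 0 ≤ c)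
    (h : UB2 S c) : PartIneq (hgt S) (q1 (hgt S)) c := by
  obtain ⟨G, hG, hG01, hGS, hle⟩ := h
  have hSQ : S ⊆ Q2 := hS.1
  have hae : ∀ᵐ s ∂(volume.restrict (Ioo (0 : ℝ) 1)), ∀ᵐ y ∂(volume.restrict (Ioo (0 : ℝ) 1)),
      Tendsto (fun n => G n (s, y)) atTop (𝓝 (S.indicator 1 (s, y))) := by
    rw [← restrict_Q2] at hGS
    exact Measure.ae_ae_of_ae_prod hGS
  have hgc : ∀ n, Continuous (gn2 (G n)) := fun n =>
    (((contFd (hG n) _).pow 2).add ((contFd (hG n) _).pow 2)).sqrt
  have htc : ∀ n, Continuous (fun p => |fderiv ℝ (G n) p (0, 1)|) := fun n =>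
    (contFd (hG n) _).abs
  have hfm : IsFiniteMeasure (volume.restrict (Ioo (0 : ℝ) 1)) := ⟨by simp⟩
  refine ⟨{s | s ∈ Ioo (0 : ℝ) 1 ∧ ∀ᵐ y ∂(volume.restrict (Ioo (0 : ℝ) 1)),
      Tendsto (fun n => G n (s, y)) atTop (𝓝 (S.indicator 1 (s, y)))}, fun s hs => hs.1, ?_, ?_⟩
  · have hae' := hae
    rw [ae_restrict_iff' measurableSet_Ioo] at hae'
    refine measure_mono_null ?_ hae'
    intro s hs h
    exact hs.2 ⟨hs.1, h hs.1⟩
  intro N s c' d hs hs' hcd
  refine le_of_forall_pos_le_add fun ε hε => ?_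
  have hlt : liminf (fun n => ∫⁻ p in Q2, ENNReal.ofReal (gn2 (G n) p)) atTop <
      ENNReal.ofReal (c + ε) := by
    refine hle.trans_lt ?_
    rw [ENNReal.ofReal_lt_ofReal_iff (by linarith)]
    linarith
  obtain ⟨φ, hφ, hφP⟩ := extraction_of_frequently_atTop
    (frequently_lt_of_liminf_lt (by isBoundedDefault) hlt)
  refine core (volume.restrict (Ioo (0 : ℝ) 1)) (fun n => G (φ n))
    (fun n p => fderiv ℝ (G (φ n)) p (1, 0))
    (fun n => gn2 (G (φ n))) (fun n p => |fderiv ℝ (G (φ n)) p (0, 1)|)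
    (fun n y s => hasDerivAt_fst (hG _) s y) ?_ ?_ ?_ (fun n => (htc _).measurable) ?_
    (fun n p => abs_nonneg _) ?_ (fun n p => Real.sqrt_nonneg _) ?_ (c + ε) ?_
    (hgt S) {s | s ∈ Ioo (0 : ℝ) 1 ∧ ∀ᵐ y ∂(volume.restrict (Ioo (0 : ℝ) 1)),
      Tendsto (fun n => G n (s, y)) atTop (𝓝 (S.indicator 1 (s, y)))} (fun s hs => hs.1) ?_
    _ (fun s => (q1_mem _ s).1) (q1_int _ (hgt_meas S hSm)) ?_ N s c' d hs hs' hcd
  · intro n s
    apply (((hG _).continuous.comp (by fun_prop : Continuous fun y : ℝ => (s, y))).continuousOn.integrableOn_compact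
      (isCompact_Icc (a := (0 : ℝ)) (b := 1))).mono_set Ioo_subset_Icc_self
  · intro n
    rw [restrict_Q2]
    exact integrableOn_Q2 (contFd (hG _) _)
  · intro n y
    exact (contFd (hG _) _).comp (by fun_prop)
  · intro n
    rw [restrict_Q2]
    exact integrableOn_Q2 (htc _)
  · intro n
    rw [restrict_Q2]
    exact integrableOn_Q2 (hgc _)
  · intro n p c d hc hd hcd
    have := cs (fderiv ℝ (G (φ n)) p (1, 0)) ((fderiv ℝ (G (φ n)) p (0, 1)) ^ 2) c d hcd
      (by positivity)
    rw [Real.sqrt_sq_eq_abs] at this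
    exact this
  · intro n
    rw [restrict_Q2]
    have h1 := (hφP n).le
    rw [← ofReal_integral_eq_lintegral_ofReal (integrableOn_Q2 (hgc _))
      (Eventually.of_forall fun p => Real.sqrt_nonneg _)] at h1
    exact (ENNReal.ofReal_le_ofReal_iff (by linarith)).1 h1
  · intro s hs
    have hlim : Tendsto (fun n => ∫ y, G (φ n) (s, y) ∂(volume.restrict (Ioo (0 : ℝ) 1))) atTop
        (𝓝 (∫ y, S.indicator 1 (s, y) ∂(volume.restrict (Ioo (0 : ℝ) 1)))) := by
      apply tendsto_integral_of_dominated_convergence (fun _ => (1 : ℝ))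
      · intro n
        exact ((hG _).continuous.comp (by fun_prop)).aestronglyMeasurable
      · exact integrable_const _
      · intro n
        apply Eventually.of_forall
        intro y
        rw [Real.norm_eq_abs, abs_le]
        have := hG01 (φ n) (s, y)
        exact ⟨by linarith [this.1], this.2⟩
      · filter_upwards [hs.2] with y hy
        exact hy.comp hφ.tendsto_atTop
    convert hlim using 2
    have hind : ∀ y, S.indicator (1 : ℝ × ℝ → ℝ) (s, y) =
        {y | (s, y) ∈ S}.indicator (1 : ℝ → ℝ) y := by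
      intro y
      by_cases h : (s, y) ∈ S
      · rw [indicator_of_mem h, indicator_of_mem (show y ∈ {y | (s, y) ∈ S} from h)]; rfl
      · rw [indicator_of_notMem h, indicator_of_notMem (show y ∉ {y | (s, y) ∈ S} from h)]
    simp_rw [hind]
    have hsm : MeasurableSet {y | (s, y) ∈ S} := measurable_prodMk_left hSm
    rw [integral_indicator_one hsm, Measure.real, Measure.restrict_apply hsm]
    unfold hgt
    congr 2
    apply (inter_eq_left.2 _).symm
    intro y hy
    exact (hSQ hy).2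
  · filter_upwards [hae] with s hs
    refine q1_liminf S hSm hSQ (fun n => G (φ n)) (fun n => hG _) s ?_
    filter_upwards [hs] with y hy
    exact hy.comp hφ.tendsto_atTop

end P232
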