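import Vale.Agent.P232.WTrickRem

/-!
# P232, [WTE]: equality case of the sharp planar bound
-/

open MeasureTheory Set Filter Topology
open scoped ENNReal ContDiff

namespace P232

open CalibAux WTrickAux

namespace WTEAux

theorem hasDerivAt_gg (x : ℝ) : HasDerivAt gg (2 * Real.sin x ^ 2) x := by
  have h1 : HasDerivAt (fun x => Real.sin x * Real.cos x)
      (Real.cos x * Real.cos x + Real.sin x * (-Real.sin x)) x :=
    (Real.hasDerivAt_sin x).mul (Real.hasDerivAt_cos x)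
  have h2 : HasDerivAt gg (1 - (Real.cos x * Real.cos x + Real.sin x * (-Real.sin x))) x :=
    (hasDerivAt_id x).sub h1
  refine h2.congr_deriv ?_
  have h5 := Real.sin_sq_add_cos_sq x
  nlinarith

theorem gg_mono : Monotone gg := by
  apply monotone_of_deriv_nonneg
  · intro x
    exact (hasDerivAt_gg x).differentiableAt
  · intro x
    rw [(hasDerivAt_gg x).deriv]
    positivity

/-- the cubic estimate -/
theorem cube {ψ φ : ℝ} (h : ψ ≤ φ) :
    Real.sin φ ^ 3 - Real.sin ψ ^ 3 ≤ 3 / 2 * (gg φ - gg ψ) := by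
  have hm : Monotone (fun x => 3 / 2 * gg x - Real.sin x ^ 3) := by
    have hd : ∀ x, HasDerivAt (fun x => 3 / 2 * gg x - Real.sin x ^ 3)
        (3 / 2 * (2 * Real.sin x ^ 2) - 3 * Real.sin x ^ 2 * Real.cos x) x := by
      intro x
      have h1 := (hasDerivAt_gg x).const_mul (3 / 2)
      have h2 := (Real.hasDerivAt_sin x).pow 3
      refine (h1.sub h2).congr_deriv ?_
      simp
    apply monotone_of_deriv_nonneg
    · intro x
      exact (hd x).differentiableAt
    · intro x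
      rw [(hd x).deriv]
      nlinarith [Real.cos_le_one x, sq_nonneg (Real.sin x)]
  have := hm h
  simp only at this
  linarith

theorem sin_mono' {ψ φ : ℝ} (hψ : ψ ∈ Icc (0 : ℝ) (Real.pi / 2)) (hφ : φ ∈ Icc (0 : ℝ) (Real.pi / 2))
    (h : ψ ≤ φ) : Real.sin ψ ≤ Real.sin φ :=
  Real.sin_le_sin_of_le_of_le_pi_div_two (by linarith [hψ.1, Real.pi_pos]) hφ.2 h

/-- the sine is a function of `gg`, with local Lipschitz bound -/
theorem sin_diff {ψ φ : ℝ} (hψ : ψ ∈ Icc (0 : ℝ) (Real.pi / 2))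
    (hφ : φ ∈ Icc (0 : ℝ) (Real.pi / 2)) :
    |Real.sin φ - Real.sin ψ| * Real.sin ψ ^ 2 ≤ 3 / 2 * |gg φ - gg ψ| := by
  have s1 := sin_nonneg' hψ
  have s2 := sin_nonneg' hφ
  rcases le_total ψ φ with h | h
  · have h1 := cube h
    have h2 := sin_mono' hψ hφ h
    have h3 := gg_mono h
    rw [abs_of_nonneg (by linarith), abs_of_nonneg (by linarith)]
    refine le_trans ?_ h1
    nlinarith [mul_nonneg (sub_nonneg.2 h2) (mul_nonneg s1 s2),
      mul_nonneg (sub_nonneg.2 h2) (sq_nonneg (Real.sin φ))]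
  · have h1 := cube h
    have h2 := sin_mono' hφ hψ h
    have h3 := gg_mono h
    rw [abs_of_nonpos (by linarith), abs_of_nonpos (by linarith)]
    refine le_trans ?_ (h1.trans (by linarith))
    nlinarith [mul_nonneg (sub_nonneg.2 h2) (mul_nonneg s1 s2),
      mul_nonneg (sub_nonneg.2 h2) (sq_nonneg (Real.sin φ))]

/-- order of the sines from the order of `gg` -/
theorem sin_le_of_gg {ψ φ : ℝ} (hψ : ψ ∈ Icc (0 : ℝ) (Real.pi / 2))
    (hφ : φ ∈ Icc (0 : ℝ) (Real.pi / 2)) (h : gg ψ ≤ gg φ) : Real.sin ψ ≤ Real.sin φ := by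
  rcases le_total ψ φ with h1 | h1
  · exact sin_mono' hψ hφ h1
  · have h2 := gg_mono h1
    have h3 := cube h1
    have h4 : Real.sin ψ ^ 3 ≤ Real.sin φ ^ 3 := by linarith
    exact (pow_le_pow_iff_left₀ (sin_nonneg' hψ) (sin_nonneg' hφ) (by norm_num)).1 h4

theorem gg_pos {φ : ℝ} (hφ : φ ∈ Icc (0 : ℝ) (Real.pi / 2)) (h : Real.sin φ = 0) : gg φ = 0 := by
  have : φ = 0 := by
    by_contra h0
    have : 0 < φ := lt_of_le_of_ne hφ.1 (Ne.symm h0)
    have := Real.sin_pos_of_pos_of_lt_pi this (by linarith [hφ.2, Real.pi_pos])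
    linarith
  rw [this, gg_zero]

/-- clamp to an interval -/
noncomputable def cl (b c x : ℝ) : ℝ := max b (min c x)

theorem cl_sub_le {b c x y : ℝ} (hxy : x ≤ y) : cl b c y - cl b c x ≤ y - x := by
  unfold cl
  rcases le_total c x with h1 | h1 <;> rcases le_total c y with h2 | h2 <;>
    rcases le_total b x with h3 | h3 <;> rcases le_total b y with h4 | h4 <;>
    rcases le_total b c with h5 | h5 <;>
    simp only [min_eq_left, min_eq_right, max_eq_left, max_eq_right, h1, h2, h3, h4, h5] <;>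
    linarith

theorem cl_low {b c x : ℝ} (hx : x ≤ b) (hbc : b ≤ c) : cl b c x = b := by
  unfold cl
  rw [min_eq_right (hx.trans hbc), max_eq_left hx]

theorem cl_high {b c x : ℝ} (hx : c ≤ x) (hbc : b ≤ c) : cl b c x = c := by
  unfold cl
  rw [min_eq_left hx, max_eq_right hbc]

theorem tail {h : ℝ → ℝ} (hhint : IntervalIntegrable h volume 0 1)
    (h01 : ∀ x ∈ Ioo (0 : ℝ) 1, 0 ≤ h x ∧ h x < 1) {x y : ℝ} (hx : 0 ≤ x) (hxy : x ≤ y)
    (hy : y ≤ 1) : IntervalIntegrable h volume x y ∧ WW h x - WW h y = ∫ t in x..y, h t ∧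
      0 ≤ WW h x - WW h y ∧ WW h x - WW h y ≤ y - x := by
  have hsub : ∀ u v : ℝ, 0 ≤ u → u ≤ v → v ≤ 1 → IntervalIntegrable h volume u v := by
    intro u v hu huv hv
    refine hhint.mono_set ?_
    rw [uIcc_of_le huv, uIcc_of_le zero_le_one]
    exact Icc_subset_Icc hu hv
  have i1 := hsub x y hx hxy hy
  have i2 := hsub y 1 (hx.trans hxy) hy le_rfl
  have e1 : WW h x - WW h y = ∫ t in x..y, h t := by
    unfold WW
    rw [← intervalIntegral.integral_add_adjacent_intervals i1 i2]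
    ring
  refine ⟨i1, e1, ?_, ?_⟩
  · rw [e1]
    have h1 : (∫ t in x..y, (0 : ℝ)) ≤ ∫ t in x..y, h t :=
      intervalIntegral.integral_mono_on_of_le_Ioo hxy (by simp) i1
        fun t ht => (h01 t ⟨hx.trans_lt ht.1, ht.2.trans_le hy⟩).1
    simpa using h1
  · rw [e1]
    have h1 : ∫ t in x..y, h t ≤ ∫ t in x..y, (1 : ℝ) :=
      intervalIntegral.integral_mono_on_of_le_Ioo hxy i1 (by simp)
        fun t ht => (h01 t ⟨hx.trans_lt ht.1, ht.2.trans_le hy⟩).2.le
    simpa using h1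

theorem pointwise (h : ℝ → ℝ) (hanti : AntitoneOn h (Ioo 0 1))
    (h01 : ∀ x ∈ Ioo (0 : ℝ) 1, 0 ≤ h x ∧ h x < 1) (hlim : Tendsto h (𝓝[<] 1) (𝓝 0))
    (a : ℝ) (ha : a = ∫ x in (0 : ℝ)..1, h x) (hapos : 0 < a)
    (K : ℝ) (hK : K = √(Real.pi / a)) (hP : PartIneq h (q1 h) (K * a))
    {y0 : ℝ} (hy0 : y0 ∈ Ioo (0 : ℝ) 1) (hc : ContinuousAt h y0) (hpos : 0 < h y0)
    {φ0 : ℝ} (hφ0 : φ0 ∈ Icc (0 : ℝ) (Real.pi / 2)) (hg : gg φ0 = Real.pi / 2 * (WW h y0 / a)) :
    2 * Real.sin φ0 - K * h y0 = 0 := by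
  have hhint : IntervalIntegrable h volume 0 1 :=
    anti_int hanti fun x hx => ⟨(h01 x hx).1, (h01 x hx).2.le⟩
  have hpi := Real.pi_pos
  have hKpos : 0 < K := by rw [hK]; positivity
  by_contra hne
  obtain ⟨η, hη⟩ : ∃ η, η = |2 * Real.sin φ0 - K * h y0| := ⟨_, rfl⟩
  have hη0 : 0 < η := by rw [hη]; exact abs_pos.2 hne
  -- continuity of `h`
  have c1 : ∀ᶠ s in 𝓝 y0, 0 < h s := hc.eventually (lt_mem_nhds hpos)
  have c2 : ∀ᶠ s in 𝓝 y0, |h s - h y0| < η / (4 * K) :=
    Metric.tendsto_nhds.1 hc (η / (4 * K)) (by positivity)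
  obtain ⟨δ0, hδ0, hball⟩ := Metric.eventually_nhds_iff.1 (c1.and c2)
  -- the tail is positive
  have hW0 : 0 < WW h y0 := by
    obtain ⟨z, hz⟩ : ∃ z, z = min (y0 + δ0 / 2) ((y0 + 1) / 2) := ⟨_, rfl⟩
    have hz1 : y0 < z := by
      rw [hz, lt_min_iff]
      constructor <;> linarith [hy0.2]
    have hz2 : z < 1 := by
      rw [hz]
      exact (min_le_right _ _).trans_lt (by linarith [hy0.2])
    have hz3 : z ≤ y0 + δ0 / 2 := by rw [hz]; exact min_le_left _ _
    have hhz : 0 < h z := by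
      refine (hball ?_).1
      rw [Real.dist_eq, abs_of_pos (by linarith)]
      linarith
    have t1 := tail hhint h01 hy0.1.le hz1.le hz2.le
    have t2 := tail hhint h01 (hy0.1.trans hz1).le hz2.le le_rfl
    have hW1 : WW h 1 = 0 := by simp [WW]
    have t3 : h z * (z - y0) ≤ ∫ t in y0..z, h t := by
      calc h z * (z - y0) = ∫ t in y0..z, h z := by simp [mul_comm]
        _ ≤ _ := intervalIntegral.integral_mono_on_of_le_Ioo hz1.le (by simp) t1.1
          fun t ht => hanti ⟨hy0.1.trans ht.1, ht.2.trans hz2⟩ ⟨hy0.1.trans hz1, hz2⟩ ht.2.le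
    have t4 : 0 < h z * (z - y0) := mul_pos hhz (by linarith)
    have t5 := t1.2.1
    have t6 := t2.2.2.1
    linarith
  have hu0 : 0 < Real.sin φ0 := by
    rcases (sin_nonneg' hφ0).eq_or_lt with h1 | h1
    · have := gg_pos hφ0 h1.symm
      rw [this] at hg
      have h2 : 0 < Real.pi / 2 * (WW h y0 / a) := by positivity
      linarith
    · exact h1
  obtain ⟨u0, hu⟩ : ∃ u0, u0 = Real.sin φ0 := ⟨_, rfl⟩
  rw [← hu] at hu0
  -- the window
  obtain ⟨δ, hδ⟩ : ∃ δ, δ = min (min (δ0 / 4) (η * u0 ^ 2 * a / (24 * Real.pi)))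
      (min (y0 / 4) ((1 - y0) / 4)) := ⟨_, rfl⟩
  have hδpos : 0 < δ := by
    rw [hδ]
    have := hy0.1
    have := hy0.2
    refine lt_min (lt_min (by linarith) (by positivity)) (lt_min (by linarith) (by linarith))
  have hδ1 : δ ≤ δ0 / 4 := by rw [hδ]; exact (min_le_left _ _).trans (min_le_left _ _)
  have hδ2 : δ ≤ η * u0 ^ 2 * a / (24 * Real.pi) := by
    rw [hδ]; exact (min_le_left _ _).trans (min_le_right _ _)
  have hδ3 : δ ≤ y0 / 4 := by rw [hδ]; exact (min_le_right _ _).trans (min_le_left _ _)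
  have hδ4 : δ ≤ (1 - y0) / 4 := by rw [hδ]; exact (min_le_right _ _).trans (min_le_right _ _)
  obtain ⟨ε, hε⟩ : ∃ ε, ε = min δ (η ^ 2 / 16 * δ) := ⟨_, rfl⟩
  have hεpos : 0 < ε := by rw [hε]; exact lt_min hδpos (by positivity)
  have hε1 : ε ≤ δ := by rw [hε]; exact min_le_left _ _
  have hε2 : ε ≤ η ^ 2 / 16 * δ := by rw [hε]; exact min_le_right _ _
  obtain ⟨M, s, φ, hs01, hslt, hmesh, hs0, hsM, hφ, hsum⟩ :=
    wtrick_rem h hanti h01 hlim (K * a) hP a ha hapos K hK ε hεpos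
  -- estimate in the window
  have hwin : ∀ i ≤ M, |s i - y0| < 2 * δ → |Real.sin (φ i) - u0| ≤ η / 8 := by
    intro i hi hw
    have h1 := sin_diff hφ0 (hφ i hi).1
    rw [(hφ i hi).2, hg, ← hu] at h1
    have h2 : |WW h (s i) - WW h y0| ≤ 2 * δ := by
      rcases le_total (s i) y0 with h3 | h3
      · have h4 := tail hhint h01 (hs01 i hi).1.le h3 hy0.2.le
        rw [abs_of_nonneg h4.2.2.1]
        rw [abs_of_nonpos (by linarith)] at hw
        linarith [h4.2.2.2]
      · have h4 := tail hhint h01 hy0.1.le h3 (hs01 i hi).2.le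
        rw [abs_of_nonpos (by linarith [h4.2.2.1])]
        rw [abs_of_nonneg (by linarith)] at hw
        linarith [h4.2.2.2]
    have h3 : |Real.pi / 2 * (WW h (s i) / a) - Real.pi / 2 * (WW h y0 / a)| ≤
        Real.pi / (2 * a) * (2 * δ) := by
      have e1 : Real.pi / 2 * (WW h (s i) / a) - Real.pi / 2 * (WW h y0 / a) =
          Real.pi / (2 * a) * (WW h (s i) - WW h y0) := by
        field_simp
      rw [e1, abs_mul, abs_of_pos (show 0 < Real.pi / (2 * a) by positivity)]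
      exact mul_le_mul_of_nonneg_left h2 (by positivity)
    have h4 : |Real.sin (φ i) - u0| * u0 ^ 2 ≤ 3 / 2 * (Real.pi / (2 * a) * (2 * δ)) :=
      h1.trans (mul_le_mul_of_nonneg_left h3 (by norm_num))
    have h5 : 3 / 2 * (Real.pi / (2 * a) * (2 * δ)) ≤ η / 16 * u0 ^ 2 := by
      have e2 : 3 / 2 * (Real.pi / (2 * a) * (2 * δ)) = 3 * Real.pi / (2 * a) * δ := by
        field_simp
      rw [e2]
      calc 3 * Real.pi / (2 * a) * δ ≤ 3 * Real.pi / (2 * a) *
            (η * u0 ^ 2 * a / (24 * Real.pi)) := mul_le_mul_of_nonneg_left hδ2 (by positivity)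
        _ = η / 16 * u0 ^ 2 := by field_simp; ring
    have h6 : |Real.sin (φ i) - u0| * u0 ^ 2 ≤ η / 16 * u0 ^ 2 := h4.trans h5
    have h7 := le_of_mul_le_mul_right h6 (by positivity)
    linarith
  have hterm : ∀ i ∈ Finset.range M,
      η ^ 2 / 16 * (cl (y0 - δ) (y0 + δ) (s (i + 1)) - cl (y0 - δ) (y0 + δ) (s i)) ≤
      (if 0 < h (s (i + 1)) then
        (s (i + 1) - s i) * (2 * Real.sin (φ i) - K * h (s (i + 1))) ^ 2 / 4 else 0) := by
    intro i hi
    have hiM := Finset.mem_range.1 hi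
    have hΔ := sub_pos.2 (hslt i hiM)
    have hnn : 0 ≤ (if 0 < h (s (i + 1)) then
        (s (i + 1) - s i) * (2 * Real.sin (φ i) - K * h (s (i + 1))) ^ 2 / 4 else 0) := by
      split_ifs
      · positivity
      · exact le_rfl
    by_cases h1 : s (i + 1) ≤ y0 - δ
    · rw [cl_low h1 (by linarith), cl_low (by linarith) (by linarith)]
      simpa using hnn
    by_cases h2 : y0 + δ ≤ s i
    · rw [cl_high h2 (by linarith), cl_high (by linarith) (by linarith)]
      simpa using hnn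
    push Not at h1 h2
    have hm := hmesh i hiM
    have w1 : |s i - y0| < 2 * δ := by
      rw [abs_lt]
      constructor <;> linarith
    have w2 : |s (i + 1) - y0| < 2 * δ := by
      rw [abs_lt]
      constructor <;> linarith
    have hb := hball (y := s (i + 1)) (by rw [Real.dist_eq]; linarith)
    rw [if_pos hb.1]
    have k1 := hwin i hiM.le w1
    have k2 : K * |h (s (i + 1)) - h y0| ≤ η / 4 := by
      calc K * |h (s (i + 1)) - h y0| ≤ K * (η / (4 * K)) :=
            mul_le_mul_of_nonneg_left hb.2.le hKpos.le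
        _ = η / 4 := by field_simp
    have k3 : η / 2 ≤ |2 * Real.sin (φ i) - K * h (s (i + 1))| := by
      have e1 : 2 * Real.sin φ0 - K * h y0 = (2 * Real.sin (φ i) - K * h (s (i + 1))) +
          (K * (h (s (i + 1)) - h y0) - 2 * (Real.sin (φ i) - u0)) := by rw [hu]; ring
      have e2 : η ≤ |2 * Real.sin (φ i) - K * h (s (i + 1))| +
          |K * (h (s (i + 1)) - h y0) - 2 * (Real.sin (φ i) - u0)| := by
        rw [hη, e1]
        exact abs_add_le _ _
      have e3 : |K * (h (s (i + 1)) - h y0) - 2 * (Real.sin (φ i) - u0)| ≤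
          K * |h (s (i + 1)) - h y0| + 2 * |Real.sin (φ i) - u0| := by
        refine (abs_sub _ _).trans ?_
        rw [abs_mul, abs_mul, abs_of_pos hKpos, abs_two]
      linarith
    have k4 : (η / 2) ^ 2 ≤ (2 * Real.sin (φ i) - K * h (s (i + 1))) ^ 2 := by
      rw [← sq_abs (2 * Real.sin (φ i) - K * h (s (i + 1)))]
      exact pow_le_pow_left₀ (by positivity) k3 2
    have k5 := cl_sub_le (b := y0 - δ) (c := y0 + δ) (hslt i hiM).le
    calc η ^ 2 / 16 * (cl (y0 - δ) (y0 + δ) (s (i + 1)) - cl (y0 - δ) (y0 + δ) (s i)) ≤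
          η ^ 2 / 16 * (s (i + 1) - s i) := mul_le_mul_of_nonneg_left k5 (by positivity)
      _ = (s (i + 1) - s i) * (η / 2) ^ 2 / 4 := by ring
      _ ≤ _ := by gcongr
  have hS := Finset.sum_le_sum hterm
  rw [← Finset.mul_sum, Finset.sum_range_sub (fun i => cl (y0 - δ) (y0 + δ) (s i))] at hS
  rw [cl_high (show y0 + δ ≤ s M by linarith) (by linarith),
    cl_low (show s 0 ≤ y0 - δ by linarith) (by linarith)] at hS
  have : 0 < η ^ 2 / 16 * δ := by positivity
  nlinarith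

/-- a function that moves only towards zero stays at zero -/
theorem noflip (D g : ℝ → ℝ) (hD : ContinuousOn D (Icc 0 1)) (hD0 : D 0 ≤ 0)
    (hg : IntervalIntegrable g volume 0 1)
    (hDg : ∀ x y, 0 ≤ x → x ≤ y → y ≤ 1 → D y - D x = -∫ t in x..y, g t)
    (hsign : ∀ᵐ x ∂(volume.restrict (Ioo (0 : ℝ) 1)), 0 < D x → 0 ≤ g x)
    {y1 : ℝ} (hy : y1 ∈ Icc (0 : ℝ) 1) : D y1 ≤ 0 := by
  by_contra hcon
  push Not at hcon
  obtain ⟨Z, hZ⟩ : ∃ Z : Set ℝ, Z = {y | y ∈ Icc (0 : ℝ) y1 ∧ D y ≤ 0} := ⟨_, rfl⟩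
  have hZc : IsCompact Z := by
    have h1 : Z = Icc 0 y1 ∩ D ⁻¹' Iic 0 := by
      rw [hZ]
      ext y
      simp [Set.mem_inter_iff]
    have h2 : IsClosed Z := by
      rw [h1]
      exact (hD.mono (Icc_subset_Icc le_rfl hy.2)).preimage_isClosed_of_isClosed isClosed_Icc
        isClosed_Iic
    exact isCompact_Icc.of_isClosed_subset h2 (by rw [h1]; exact inter_subset_left)
  have hne : Z.Nonempty := ⟨0, by rw [hZ]; exact ⟨⟨le_rfl, hy.1⟩, hD0⟩⟩
  have hmem := hZc.sSup_mem hne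
  obtain ⟨y0, hy0⟩ : ∃ y0, y0 = sSup Z := ⟨_, rfl⟩
  rw [← hy0, hZ] at hmem
  obtain ⟨⟨m1, m2⟩, m3⟩ := hmem
  have hbdd : BddAbove Z := hZc.bddAbove
  have hlt : y0 < y1 := by
    rcases m2.eq_or_lt with h | h
    · rw [h] at m3
      linarith
    · exact h
  have hpos : ∀ y, y0 < y → y ≤ y1 → 0 < D y := by
    intro y h1 h2
    by_contra h3
    push Not at h3
    have h4 : y ∈ Z := by rw [hZ]; exact ⟨⟨m1.trans h1.le, h2⟩, h3⟩
    have h5 := le_csSup hbdd h4
    rw [← hy0] at h5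
    linarith
  have hint : 0 ≤ ∫ t in y0..y1, g t := by
    rw [intervalIntegral.integral_of_le m2, integral_Ioc_eq_integral_Ioo]
    apply integral_nonneg_of_ae
    have hsub : Ioo y0 y1 ⊆ Ioo (0 : ℝ) 1 := Ioo_subset_Ioo m1 hy.2
    have h1 := ae_restrict_of_ae_restrict_of_subset hsub hsign
    filter_upwards [h1, ae_restrict_mem measurableSet_Ioo] with x hx hx2
    exact hx (hpos x hx2.1 hx2.2.le)
  have := hDg y0 y1 m1 m2 hy.2
  linarith

/-- the comparison function -/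
noncomputable def Gam (R y : ℝ) : ℝ := gg (Real.arccos (y / R))

theorem Gam_cont (R : ℝ) : Continuous (Gam R) := by
  unfold Gam
  exact gg_cont.comp (Real.continuous_arccos.comp (continuous_id.div_const R))

theorem root_eq {R : ℝ} (hR : 0 < R) (x : ℝ) : √(R ^ 2 - x ^ 2) = R * √(1 - (x / R) ^ 2) := by
  have h1 : R ^ 2 - x ^ 2 = R ^ 2 * (1 - (x / R) ^ 2) := by field_simp
  rw [h1, Real.sqrt_mul (by positivity), Real.sqrt_sq hR.le]

theorem int_root {R : ℝ} (hR : 0 < R) {x y : ℝ} (hx : 0 ≤ x) (hxy : x ≤ y) :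
    ∫ t in x..y, √(R ^ 2 - t ^ 2) = -(R ^ 2 / 2) * (Gam R y - Gam R x) := by
  have hc : Continuous fun t : ℝ => √(R ^ 2 - t ^ 2) := by fun_prop
  have h := integral_eq_of_hasDerivAt_off_countable_of_le
    (fun t => -(R ^ 2 / 2) * Gam R t) (fun t => √(R ^ 2 - t ^ 2)) hxy (s := {R})
    (countable_singleton R) ((Gam_cont R).const_mul _).continuousOn ?_ (hc.intervalIntegrable _ _)
  · rw [h]; ring
  · rintro t ⟨⟨ht1, -⟩, ht3⟩
    have ht0 : 0 < t := hx.trans_lt ht1
    have hne1 : t / R ≠ 1 := by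
      intro h1
      rw [div_eq_one_iff_eq hR.ne'] at h1
      exact ht3 h1
    have hne2 : t / R ≠ -1 := by
      have : 0 < t / R := by positivity
      linarith
    have d1 : HasDerivAt (fun t : ℝ => t / R) (1 / R) t := (hasDerivAt_id t).div_const R
    have d2 := (Real.hasDerivAt_arccos hne2 hne1).comp t d1
    have d3 := (hasDerivAt_gg (Real.arccos (t / R))).comp t d2
    have d4 := d3.const_mul (-(R ^ 2 / 2))
    refine d4.congr_deriv ?_
    rw [Real.sin_arccos, root_eq hR]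
    rcases eq_or_ne (√(1 - (t / R) ^ 2)) 0 with h0 | h0
    · rw [h0]; simp
    · field_simp

theorem arccos_mem {R x : ℝ} (hR : 0 < R) (hx : 0 ≤ x) :
    Real.arccos (x / R) ∈ Icc (0 : ℝ) (Real.pi / 2) :=
  ⟨Real.arccos_nonneg _, Real.arccos_le_pi_div_two.2 (by positivity)⟩

end WTEAux

open WTEAux

/-- [WTE] WTrickEq.lean : equality case of wtrick (remainder in AM-GM) -/
theorem wtrick_eq (h : ℝ → ℝ) (hanti : AntitoneOn h (Ioo 0 1))
    (h01 : ∀ x ∈ Ioo (0 : ℝ) 1, 0 ≤ h x ∧ h x < 1) (hlim : Tendsto h (𝓝[<] 1) (𝓝 0))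
    (ha : 0 < ∫ x in (0 : ℝ)..1, h x)
    (hP : PartIneq h (q1 h) (√(Real.pi * ∫ x in (0 : ℝ)..1, h x))) :
    ∀ᵐ x ∂(volume.restrict (Ioo (0 : ℝ) 1)),
      h x = √(4 / Real.pi * (∫ x in (0 : ℝ)..1, h x) - x ^ 2) := by
  have hhint : IntervalIntegrable h volume 0 1 :=
    anti_int hanti fun x hx => ⟨(h01 x hx).1, (h01 x hx).2.le⟩
  obtain ⟨a, haa⟩ : ∃ a, a = ∫ x in (0 : ℝ)..1, h x := ⟨_, rfl⟩
  rw [← haa] at ha hP ⊢
  obtain ⟨K, hK⟩ : ∃ K, K = √(Real.pi / a) := ⟨_, rfl⟩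
  have hpi := Real.pi_pos
  have hKpos : 0 < K := by rw [hK]; positivity
  have hK2 : K ^ 2 = Real.pi / a := by rw [hK, Real.sq_sqrt (by positivity)]
  have hKa : √(Real.pi * a) = K * a := by
    rw [hK, Real.sqrt_eq_iff_mul_self_eq (by positivity) (by positivity)]
    have h1 := Real.mul_self_sqrt (show 0 ≤ Real.pi / a by positivity)
    symm
    calc √(Real.pi / a) * a * (√(Real.pi / a) * a) = (√(Real.pi / a) * √(Real.pi / a)) * (a * a) := by
          ring
      _ = Real.pi * a := by rw [h1]; field_simp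
  rw [hKa] at hP
  obtain ⟨R, hR⟩ : ∃ R, R = 2 / K := ⟨_, rfl⟩
  have hRpos : 0 < R := by rw [hR]; positivity
  have hR2 : R ^ 2 = 4 / Real.pi * a := by
    rw [hR, div_pow, hK2]
    field_simp
    norm_num
  rw [← hR2]
  have hKR : K = 2 / R := by rw [hR]; field_simp
  have hcR : Real.pi / (2 * a) = 2 / R ^ 2 := by rw [hR2]; field_simp; norm_num
  -- angle
  have hW1 : WW h 1 = 0 := by simp [WW]
  have hW0 : WW h 0 = a := by rw [haa]; rfl
  have hex : ∀ y : ℝ, ∃ φ, y ∈ Icc (0 : ℝ) 1 → φ ∈ Icc (0 : ℝ) (Real.pi / 2) ∧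
      gg φ = Real.pi / 2 * (WW h y / a) := by
    intro y
    by_cases hy : y ∈ Icc (0 : ℝ) 1
    · have t1 := tail hhint h01 hy.1 hy.2 le_rfl
      have t2 := tail hhint h01 le_rfl hy.1 hy.2
      rw [hW1] at t1
      rw [hW0] at t2
      obtain ⟨φ, h1, h2⟩ := exists_angle (t := WW h y / a) ⟨by
        apply div_nonneg _ ha.le
        linarith [t1.2.2.1], by
        rw [div_le_one ha]
        linarith [t2.2.2.1]⟩
      exact ⟨φ, fun _ => ⟨h1, h2⟩⟩
    · exact ⟨0, fun h => absurd h hy⟩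
  choose φ hφ using hex
  -- the difference
  obtain ⟨D, hDdef⟩ : ∃ D : ℝ → ℝ, D = fun y => Real.pi / 2 * (WW h y / a) - Gam R y := ⟨_, rfl⟩
  have hDval : ∀ y, D y = Real.pi / 2 * (WW h y / a) - Gam R y := fun y => by rw [hDdef]
  have hWc : ContinuousOn (WW h) (Icc 0 1) := by
    have h1 : LipschitzOnWith 1 (WW h) (Icc 0 1) := by
      apply LipschitzOnWith.of_dist_le_mul
      intro x hx y hy
      rw [Real.dist_eq, Real.dist_eq]
      simp only [NNReal.coe_one, one_mul]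
      rcases le_total x y with hxy | hxy
      · have t := tail hhint h01 hx.1 hxy hy.2
        rw [abs_of_nonneg t.2.2.1, abs_of_nonpos (by linarith)]
        linarith [t.2.2.2]
      · have t := tail hhint h01 hy.1 hxy hx.2
        rw [abs_of_nonpos (by linarith [t.2.2.1]), abs_of_nonneg (by linarith)]
        linarith [t.2.2.2]
    exact h1.continuousOn
  have hDc : ContinuousOn D (Icc 0 1) := by
    rw [hDdef]
    exact ((hWc.div_const a).const_mul (Real.pi / 2)).sub (Gam_cont R).continuousOn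
  have hD0 : D 0 = 0 := by
    rw [hDval, hW0, Gam, zero_div, Real.arccos_zero, gg_pi, div_self ha.ne']
    ring
  have hgc : Continuous fun t : ℝ => √(R ^ 2 - t ^ 2) := by fun_prop
  have hDg : ∀ x y, 0 ≤ x → x ≤ y → y ≤ 1 →
      D y - D x = -∫ t in x..y, 2 / R ^ 2 * (h t - √(R ^ 2 - t ^ 2)) := by
    intro x y hx hxy hy
    have t := tail hhint h01 hx hxy hy
    rw [intervalIntegral.integral_const_mul, intervalIntegral.integral_sub t.1
      (hgc.intervalIntegrable _ _), ← t.2.1, int_root hRpos hx hxy, hDval, hDval]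
    have e1 : ∀ w : ℝ, Real.pi / 2 * (w / a) = 2 / R ^ 2 * w := by
      intro w
      rw [← hcR]
      field_simp
    rw [e1, e1]
    field_simp
    ring
  -- good points
  have hgood : ∀ᵐ x ∂(volume.restrict (Ioo (0 : ℝ) 1)), x ∈ Ioo (0 : ℝ) 1 ∧ ContinuousAt h x := by
    have hcount := hanti.countable_not_continuousWithinAt
    have h0 : ∀ᵐ x ∂(volume.restrict (Ioo (0 : ℝ) 1)),
        x ∉ {x ∈ Ioo (0 : ℝ) 1 | ¬ContinuousWithinAt h (Ioo 0 1) x} := by
      rw [ae_iff]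
      refine measure_mono_null (fun x hx => ?_) (hcount.measure_zero _)
      exact not_not.1 hx
    filter_upwards [h0, ae_restrict_mem measurableSet_Ioo] with x hx hx2
    refine ⟨hx2, ?_⟩
    have h1 : ContinuousWithinAt h (Ioo 0 1) x := by
      by_contra h2
      exact hx ⟨hx2, h2⟩
    exact h1.continuousAt (Ioo_mem_nhds hx2.1 hx2.2)
  -- the values at good points
  have hval : ∀ x ∈ Ioo (0 : ℝ) 1, ContinuousAt h x → 0 < h x → h x = R * Real.sin (φ x) := by
    intro x hx hc hpos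
    have hx' : x ∈ Icc (0 : ℝ) 1 := ⟨hx.1.le, hx.2.le⟩
    have h1 := pointwise h hanti h01 hlim a haa ha K hK hP hx hc hpos (hφ x hx').1 (hφ x hx').2
    rw [hKR] at h1
    field_simp at h1
    linarith
  have hzero : ∀ x ∈ Ioo (0 : ℝ) 1, h x = 0 → WW h x = 0 := by
    intro x hx h0
    have t := tail hhint h01 hx.1.le hx.2.le le_rfl
    rw [hW1, sub_zero] at t
    rw [t.2.1]
    have : ∫ t in x..1, h t = ∫ t in x..1, (0 : ℝ) := by
      apply intervalIntegral.integral_congr_Ioo_of_le hx.2.le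
      intro u hu
      have hu' : u ∈ Ioo (0 : ℝ) 1 := ⟨hx.1.trans hu.1, hu.2⟩
      have h1 := hanti hx hu' hu.1.le
      have h2 := (h01 u hu').1
      show h u = 0
      linarith
    rw [this]
    simp
  have hroot : ∀ x ∈ Ioo (0 : ℝ) 1, √(R ^ 2 - x ^ 2) = R * Real.sin (Real.arccos (x / R)) := by
    intro x _
    rw [root_eq hRpos, Real.sin_arccos]
  have hGam0 : ∀ x, 0 ≤ x → 0 ≤ Gam R x := by
    intro x hx
    have := gg_mono (arccos_mem hRpos hx).1
    rw [gg_zero] at this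
    exact this
  -- one sign
  have hsign1 : ∀ᵐ x ∂(volume.restrict (Ioo (0 : ℝ) 1)), 0 < D x →
      0 ≤ 2 / R ^ 2 * (h x - √(R ^ 2 - x ^ 2)) := by
    filter_upwards [hgood] with x hx hDx
    obtain ⟨hx1, hx2⟩ := hx
    have hx' : x ∈ Icc (0 : ℝ) 1 := ⟨hx1.1.le, hx1.2.le⟩
    rw [hDval] at hDx
    rcases (h01 x hx1).1.eq_or_lt with h0 | hpos
    · rw [hzero x hx1 h0.symm] at hDx
      have := hGam0 x hx1.1.le
      simp at hDx
      linarith
    · rw [hval x hx1 hx2 hpos, hroot x hx1]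
      have h1 := sin_le_of_gg (arccos_mem hRpos hx1.1.le) (hφ x hx').1 (by
        rw [(hφ x hx').2]
        unfold Gam at hDx
        linarith)
      have h2 : 0 ≤ R * Real.sin (φ x) - R * Real.sin (Real.arccos (x / R)) := by
        have := mul_le_mul_of_nonneg_left h1 hRpos.le
        linarith
      positivity
  have hsign2 : ∀ᵐ x ∂(volume.restrict (Ioo (0 : ℝ) 1)), 0 < -D x →
      0 ≤ -(2 / R ^ 2 * (h x - √(R ^ 2 - x ^ 2))) := by
    filter_upwards [hgood] with x hx hDx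
    obtain ⟨hx1, hx2⟩ := hx
    have hx' : x ∈ Icc (0 : ℝ) 1 := ⟨hx1.1.le, hx1.2.le⟩
    rw [hDval] at hDx
    have h3 : h x ≤ √(R ^ 2 - x ^ 2) := by
      rcases (h01 x hx1).1.eq_or_lt with h0 | hpos
      · rw [← h0]
        exact Real.sqrt_nonneg _
      · rw [hval x hx1 hx2 hpos, hroot x hx1]
        have h1 := sin_le_of_gg (hφ x hx').1 (arccos_mem hRpos hx1.1.le) (by
          rw [(hφ x hx').2]
          unfold Gam at hDx
          linarith)
        exact mul_le_mul_of_nonneg_left h1 hRpos.le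
    have h4 : 0 ≤ 2 / R ^ 2 * (√(R ^ 2 - x ^ 2) - h x) := by
      have : 0 ≤ √(R ^ 2 - x ^ 2) - h x := by linarith
      positivity
    linarith
  have hgint : IntervalIntegrable (fun t => 2 / R ^ 2 * (h t - √(R ^ 2 - t ^ 2))) volume 0 1 :=
    (hhint.sub (hgc.intervalIntegrable _ _)).const_mul _
  have hDle : ∀ y ∈ Icc (0 : ℝ) 1, D y ≤ 0 := fun y hy =>
    noflip D _ hDc hD0.le hgint hDg hsign1 hy
  have hDge : ∀ y ∈ Icc (0 : ℝ) 1, -D y ≤ 0 := fun y hy =>
    noflip (fun y => -D y) (fun t => -(2 / R ^ 2 * (h t - √(R ^ 2 - t ^ 2)))) hDc.neg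
      (by rw [hD0]; simp) hgint.neg (fun x y hx hxy hy => by
        rw [intervalIntegral.integral_neg, neg_neg]
        have := hDg x y hx hxy hy
        linarith) hsign2 hy
  have hDz : ∀ y ∈ Icc (0 : ℝ) 1, D y = 0 := fun y hy => by
    have := hDle y hy
    have := hDge y hy
    linarith
  filter_upwards [hgood] with x hx
  obtain ⟨hx1, hx2⟩ := hx
  have hx' : x ∈ Icc (0 : ℝ) 1 := ⟨hx1.1.le, hx1.2.le⟩
  have hD := hDz x hx'
  rw [hDval] at hD
  rcases (h01 x hx1).1.eq_or_lt with h0 | hpos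
  · rw [hzero x hx1 h0.symm] at hD
    have h1 : Real.sin (Real.arccos (x / R)) ≤ Real.sin 0 := by
      apply sin_le_of_gg (arccos_mem hRpos hx1.1.le) ⟨le_rfl, by positivity⟩
      rw [gg_zero]
      unfold Gam at hD
      simp at hD
      linarith
    have h2 := sin_nonneg' (arccos_mem hRpos hx1.1.le)
    rw [Real.sin_zero] at h1
    rw [hroot x hx1, le_antisymm h1 h2, mul_zero, ← h0]
  · rw [hval x hx1 hx2 hpos, hroot x hx1]
    congr 1
    apply le_antisymm
    · apply sin_le_of_gg (hφ x hx').1 (arccos_mem hRpos hx1.1.le)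
      rw [(hφ x hx').2]
      unfold Gam at hD
      linarith
    · apply sin_le_of_gg (arccos_mem hRpos hx1.1.le) (hφ x hx').1
      rw [(hφ x hx').2]
      unfold Gam at hD
      linarith

end P232
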