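import Vale.Agent.P232.PlanarL
import Vale.Agent.P232.DefsU
import Vale.Agent.P232.SliceU
import Vale.Agent.P232.WTrickEq

/-!
# P232: equality case of the planar bound of type Q (quarter discs)
-/

open MeasureTheory Set Filter Topology
open scoped ENNReal ContDiff

namespace P232

namespace PlAux

/-- the height tends to zero at the right end if the first axis is not strongly contained -/
theorem lim_zero {S : Set (ℝ × ℝ)} (ho : IsOpen S) (hS : Low2 S) (hx : ¬ ConX S) :
    Tendsto (hgt S) (𝓝[<] 1) (𝓝 0) := by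
  obtain ⟨w, h1, h2, _⟩ := lim_left (hgt S) (hgt_anti hS) (fun x _ => hgt_nonneg S x)
  have hw0 : 0 ≤ w := ge_of_tendsto h1 (Eventually.of_forall fun x => hgt_nonneg S x)
  have hw1 : w ≤ 1 := (h2 (1 / 2) ⟨by norm_num, by norm_num⟩).trans (hgt_le_one hS _)
  rcases hw0.eq_or_lt with h | h
  · rwa [← h] at h1
  · exfalso
    apply hx
    exact ⟨w / 2, ⟨by linarith, by linarith⟩, fun x hx =>
      (mem_iff ho hS x _).2 ⟨by linarith, by linarith [h2 x hx]⟩⟩

end PlAux

open PlAux

theorem planar_eq (S : Set (ℝ × ℝ)) (ho : IsOpen S) (hS : Low2 S) (hx : ¬ ConX S) (hy : ¬ ConY S)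
    (ha : 0 < (volume S).toReal) (hU : UB2 S (√(Real.pi * (volume S).toReal))) :
    S =ᵐ[volume] {p | p ∈ Q2 ∧ p.1 ^ 2 + p.2 ^ 2 < 4 / Real.pi * (volume S).toReal} := by
  have hP := part_of_ub S ho.measurableSet hS _ (Real.sqrt_nonneg _) hU
  have hint := hgt_int ho.measurableSet hS
  have key := wtrick_eq (hgt S) (hgt_anti hS)
    (fun x hx => ⟨hgt_nonneg S x, not_conY ho hS hy x hx⟩) (lim_zero ho hS hx)
    (by rw [hint]; exact ha) (by rw [hint]; exact hP)
  rw [hint] at key
  set A := 4 / Real.pi * (volume S).toReal with hA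
  set T : Set (ℝ × ℝ) := {p | p ∈ Q2 ∧ p.1 ^ 2 + p.2 ^ 2 < A} with hT
  have hTm : MeasurableSet T := by
    apply SlAux.measQ2.inter
    exact measurableSet_lt (f := fun p : ℝ × ℝ => p.1 ^ 2 + p.2 ^ 2) (by fun_prop) measurable_const
  have hm : MeasurableSet {p : ℝ × ℝ | ¬ (p ∈ S ↔ p ∈ T)} := by
    have : {p : ℝ × ℝ | ¬ (p ∈ S ↔ p ∈ T)} = (S \ T) ∪ (T \ S) := by
      ext p
      simp only [Set.mem_ofPred_eq, mem_union, Set.mem_sdiff]
      tauto
    rw [this]
    exact (ho.measurableSet.diff hTm).union (hTm.diff ho.measurableSet)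
  have hnull : volume {p : ℝ × ℝ | ¬ (p ∈ S ↔ p ∈ T)} = 0 := by
    rw [Measure.volume_eq_prod, Measure.measure_prod_null hm]
    rw [ae_restrict_iff' measurableSet_Ioo] at key
    filter_upwards [key] with x hx
    have he : Prod.mk x ⁻¹' {p : ℝ × ℝ | ¬ (p ∈ S ↔ p ∈ T)} = ∅ := by
      apply eq_empty_of_forall_notMem
      intro y hy
      apply hy
      constructor
      · intro h
        have hQ := hS.1 h
        refine ⟨hQ, ?_⟩
        have h1 := (mem_iff ho hS x y).1 h
        rw [hx hQ.1] at h1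
        have := (Real.lt_sqrt h1.1.le).1 h1.2
        simp only
        linarith
      · rintro ⟨hQ, h⟩
        rw [mem_iff ho hS, hx hQ.1]
        refine ⟨hQ.2.1, (Real.lt_sqrt hQ.2.1.le).2 ?_⟩
        simp only at h
        linarith
    rw [he]
    simp
  have : ∀ᵐ p : ℝ × ℝ, (p ∈ S ↔ p ∈ T) := hnull
  filter_upwards [this] with p hp
  exact propext hp

end P232
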