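import Vale.Agent.P232.DefsU

/-!
# P232: a function with vanishing weak gradient on a convex open set is constant
-/

open MeasureTheory Set Filter Topology
open scoped ENNReal ContDiff Convolution

namespace P232

namespace WC

theorem locInt (Ω : Set (Fin 2 → ℝ)) (ho : IsOpen Ω) (w : (Fin 2 → ℝ) → ℝ)
    (hw : Measurable w) (hb : ∀ y, |w y| ≤ 1) :
    LocallyIntegrable (Ω.indicator w) volume := by
  refine (locallyIntegrable_const (1 : ℝ)).mono
    (hw.indicator ho.measurableSet).aestronglyMeasurable (Eventually.of_forall fun y => ?_)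
  by_cases hy : y ∈ Ω
  · simpa [indicator_of_mem hy] using hb y
  · simp [indicator_of_notMem hy]

theorem fd_zero (Ω : Set (Fin 2 → ℝ)) (ho : IsOpen Ω) (w : (Fin 2 → ℝ) → ℝ)
    (hw : Measurable w) (hb : ∀ y, |w y| ≤ 1)
    (h : ∀ (j : Fin 2) (ψ : (Fin 2 → ℝ) → ℝ), ContDiff ℝ ∞ ψ → HasCompactSupport ψ →
      tsupport ψ ⊆ Ω → ∫ y in Ω, w y * fderiv ℝ ψ y (Pi.single j 1) = 0)
    (φ : ContDiffBump (0 : Fin 2 → ℝ)) (x : Fin 2 → ℝ) (hx : Metric.closedBall x φ.rOut ⊆ Ω) :
    HasFDerivAt (𝕜 := ℝ) (fun x : Fin 2 → ℝ => ∫ t, φ.normed volume (x - t) • Ω.indicator w t) 0 x := by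
  have hloc := locInt Ω ho w hw hb
  have hsm : ContDiff ℝ ∞ (φ.normed (volume : Measure (Fin 2 → ℝ))) := φ.contDiff_normed
  have hcs : HasCompactSupport (φ.normed (volume : Measure (Fin 2 → ℝ))) :=
    φ.hasCompactSupport_normed
  have hL := HasCompactSupport.hasFDerivAt_convolution_right (ContinuousLinearMap.lsmul ℝ ℝ)
    hcs hloc (hsm.of_le (by exact_mod_cast le_top)) x
  have e1 : (fun x => ∫ t, φ.normed volume (x - t) • Ω.indicator w t) =
      (Ω.indicator w ⋆[ContinuousLinearMap.lsmul ℝ ℝ, volume] φ.normed volume) := by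
    funext y
    rw [convolution_def]
    refine integral_congr_ae (Eventually.of_forall fun t => ?_)
    simp [mul_comm]
  rw [e1]
  have e2 : (Ω.indicator w ⋆[ContinuousLinearMap.precompR (Fin 2 → ℝ)
      (ContinuousLinearMap.lsmul ℝ ℝ), volume] fderiv ℝ (φ.normed volume)) x = 0 := by
    have key : ∀ j : Fin 2, (Ω.indicator w ⋆[ContinuousLinearMap.precompR (Fin 2 → ℝ)
      (ContinuousLinearMap.lsmul ℝ ℝ), volume] fderiv ℝ (φ.normed volume)) x
        (Pi.single j 1) = 0 := by
      intro j
      rw [convolution_precompR_apply _ hloc (hcs.fderiv ℝ)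
        (hsm.continuous_fderiv (by simp))]
      rw [convolution_def]
      have hψs : ContDiff ℝ ∞ (fun z => φ.normed volume (x - z)) := by fun_prop
      have hsub : Function.support (fun z => φ.normed volume (x - z)) ⊆
          Metric.closedBall x φ.rOut := by
        intro z hz
        have : x - z ∈ Function.support (φ.normed (volume : Measure (Fin 2 → ℝ))) := hz
        rw [φ.support_normed_eq] at this
        simp only [Metric.mem_ball, dist_zero_right] at this
        rw [Metric.mem_closedBall, dist_comm, dist_eq_norm]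
        exact this.le
      have htsub : tsupport (fun z => φ.normed volume (x - z)) ⊆ Metric.closedBall x φ.rOut :=
        closure_minimal hsub Metric.isClosed_closedBall
      have hψc : HasCompactSupport (fun z => φ.normed volume (x - z)) :=
        (isCompact_closedBall x φ.rOut).of_isClosed_subset (isClosed_tsupport _) htsub
      have h0 := h j _ hψs hψc (htsub.trans hx)
      have hfd : ∀ z, fderiv ℝ (fun z => φ.normed volume (x - z)) z (Pi.single j 1) =
          - fderiv ℝ (φ.normed volume) (x - z) (Pi.single j 1) := by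
        intro z
        have hd : DifferentiableAt ℝ (φ.normed volume) (x - z) :=
          (hsm.differentiable (by simp)) _
        have h1 : HasFDerivAt (fun z : Fin 2 → ℝ => x - z)
            (-(ContinuousLinearMap.id ℝ (Fin 2 → ℝ))) z := by
          exact (hasFDerivAt_id (𝕜 := ℝ) z).const_sub x
        have h2 := hd.hasFDerivAt.comp z h1
        have h3 := h2.fderiv
        have h4 : fderiv ℝ (fun z => φ.normed volume (x - z)) z =
            (fderiv ℝ (φ.normed volume) (x - z)).comp (-(ContinuousLinearMap.id ℝ (Fin 2 → ℝ))) :=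
          h3
        rw [h4]
        simp
      simp only [hfd] at h0
      rw [← integral_indicator ho.measurableSet] at h0
      have e3 : ∀ t, (ContinuousLinearMap.lsmul ℝ ℝ) (Ω.indicator w t)
          (fderiv ℝ (φ.normed volume) (x - t) (Pi.single j 1)) =
          - Ω.indicator (fun y => w y *
            (- fderiv ℝ (φ.normed volume) (x - y) (Pi.single j 1))) t := by
        intro t
        by_cases ht : t ∈ Ω
        · simp [indicator_of_mem ht]
        · simp [indicator_of_notMem ht]
      simp only [e3]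
      rw [integral_neg, h0, neg_zero]
    refine ContinuousLinearMap.ext fun v => ?_
    have hv : v = ∑ j, v j • (Pi.single j (1 : ℝ) : Fin 2 → ℝ) := by
      ext k
      simp [Pi.single_apply]
    rw [hv, map_sum]
    simp only [map_smul, key]
    simp
  rw [e2] at hL
  exact hL

/-- mollifiers -/
noncomputable def bump (n : ℕ) : ContDiffBump (0 : Fin 2 → ℝ) where
  rIn := 1 / ((n : ℝ) + 1)
  rOut := 2 / ((n : ℝ) + 1)
  rIn_pos := by positivity
  rIn_lt_rOut := by
    have : (0 : ℝ) < (n : ℝ) + 1 := by positivity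
    exact div_lt_div_of_pos_right (by norm_num) this

theorem bump_tendsto : Tendsto (fun n => (bump n).rOut) atTop (𝓝 0) := by
  have h := (tendsto_one_div_add_atTop_nhds_zero_nat (𝕜 := ℝ)).const_mul 2
  simp only [mul_zero] at h
  refine h.congr fun n => ?_
  simp [bump]
  ring

theorem eq_on_segment (Ω : Set (Fin 2 → ℝ)) (ho : IsOpen Ω) (hc : Convex ℝ Ω)
    (w : (Fin 2 → ℝ) → ℝ)
    (hw : Measurable w) (hb : ∀ y, |w y| ≤ 1)
    (h : ∀ (j : Fin 2) (ψ : (Fin 2 → ℝ) → ℝ), ContDiff ℝ ∞ ψ → HasCompactSupport ψ →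
      tsupport ψ ⊆ Ω → ∫ y in Ω, w y * fderiv ℝ ψ y (Pi.single j 1) = 0)
    (x y : Fin 2 → ℝ) (hx : x ∈ Ω) (hy : y ∈ Ω) :
    ∀ᶠ n in atTop, (∫ t, (bump n).normed volume (x - t) • Ω.indicator w t) =
      ∫ t, (bump n).normed volume (y - t) • Ω.indicator w t := by
  have hseg : segment ℝ x y ⊆ Ω := hc.segment_subset hx hy
  have hcomp : IsCompact (segment ℝ x y) := by
    rw [← convexHull_pair]
    exact (Set.toFinite {x, y}).isCompact_convexHull ℝ
  obtain ⟨δ, hδ, hδs⟩ := hcomp.exists_cthickening_subset_open ho hseg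
  have hev : ∀ᶠ n in atTop, (bump n).rOut < δ :=
    (tendsto_order.1 bump_tendsto).2 δ hδ
  filter_upwards [hev] with n hn
  have hd : ∀ z ∈ segment ℝ x y, HasFDerivWithinAt
      (fun x => ∫ t, (bump n).normed volume (x - t) • Ω.indicator w t)
      ((fun _ => (0 : (Fin 2 → ℝ) →L[ℝ] ℝ)) z) (segment ℝ x y) z := by
    intro z hz
    refine (fd_zero Ω ho w hw hb h (bump n) z ?_).hasFDerivWithinAt
    refine ((Metric.closedBall_subset_closedBall hn.le).trans ?_).trans hδs
    exact Metric.closedBall_subset_cthickening hz δ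
  have := (convex_segment x y).norm_image_sub_le_of_norm_hasFDerivWithin_le (C := 0) hd
    (by simp) (right_mem_segment ℝ x y) (left_mem_segment ℝ x y)
  rw [zero_mul] at this
  have h0 := norm_le_zero_iff.1 this
  exact sub_eq_zero.1 h0

end WC

/-- [RW] a bounded function on a convex open set whose weak gradient vanishes is constant. -/
theorem weak_const (Ω : Set (Fin 2 → ℝ)) (ho : IsOpen Ω) (hc : Convex ℝ Ω) (w : (Fin 2 → ℝ) → ℝ)
    (hw : Measurable w) (hb : ∀ y, |w y| ≤ 1)
    (h : ∀ (j : Fin 2) (ψ : (Fin 2 → ℝ) → ℝ), ContDiff ℝ ∞ ψ → HasCompactSupport ψ → tsupport ψ ⊆ Ω →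
      ∫ y in Ω, w y * fderiv ℝ ψ y (Pi.single j 1) = 0) :
    ∃ k : ℝ, ∀ᵐ y ∂(volume.restrict Ω), w y = k := by
  rcases Ω.eq_empty_or_nonempty with he | hne
  · subst he
    exact ⟨0, by simp⟩
  have hlim : ∀ᵐ x₀ ∂(volume : Measure (Fin 2 → ℝ)),
      Tendsto (fun n => ∫ t, (WC.bump n).normed volume (x₀ - t) • Ω.indicator w t) atTop
        (𝓝 (Ω.indicator w x₀)) := by
    have h1 := ContDiffBump.ae_convolution_tendsto_right_of_locallyIntegrable
      (μ := (volume : Measure (Fin 2 → ℝ))) (K := 2) (φ := WC.bump) WC.bump_tendsto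
      (Eventually.of_forall fun n => by simp [WC.bump]; ring_nf; exact le_rfl)
      (WC.locInt Ω ho w hw hb)
    filter_upwards [h1] with x₀ hx₀
    refine hx₀.congr fun n => ?_
    rw [convolution_lsmul_swap]
  have hres : ∀ᵐ x₀ ∂(volume.restrict Ω),
      Tendsto (fun n => ∫ t, (WC.bump n).normed volume (x₀ - t) • Ω.indicator w t) atTop
        (𝓝 (Ω.indicator w x₀)) := ae_restrict_of_ae hlim
  have hne0 : (volume.restrict Ω : Measure (Fin 2 → ℝ)) ≠ 0 := by
    rw [Ne, Measure.restrict_eq_zero]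
    exact (ho.measure_pos volume hne).ne'
  have : (ae (volume.restrict Ω : Measure (Fin 2 → ℝ))).NeBot := ae_neBot.2 hne0
  obtain ⟨x₀, hx₀l, hx₀⟩ := (hres.and (ae_restrict_mem ho.measurableSet)).exists
  refine ⟨w x₀, ?_⟩
  filter_upwards [hres, ae_restrict_mem ho.measurableSet] with y hyl hy
  have hev := WC.eq_on_segment Ω ho hc w hw hb h x₀ y hx₀ hy
  have h2 : Tendsto (fun n => ∫ t, (WC.bump n).normed volume (y - t) • Ω.indicator w t) atTop
        (𝓝 (Ω.indicator w x₀)) := hx₀l.congr' hev
  have := tendsto_nhds_unique hyl h2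
  rwa [indicator_of_mem hy, indicator_of_mem hx₀] at this

end P232
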