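import Vale.Agent.P232.DefsU
import Vale.Agent.P232.WeakConst

/-!
# P232 [RA]: from the weak equation to rigidity
-/

open MeasureTheory Set Filter Topology
open scoped ENNReal ContDiff

namespace P232.RaC

theorem dz_sub_int (t : ℝ) (n : ℤ) : dz (t - n) = dz t := by
  unfold dz
  rw [round_sub_intCast]
  push_cast
  ring_nf

theorem angle (a b : ℝ) (hc : Real.cos (2 * Real.pi * a) = Real.cos (2 * Real.pi * b))
    (hs : Real.sin (2 * Real.pi * a) = Real.sin (2 * Real.pi * b)) : ∃ n : ℤ, a = b + n := by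
  have h := Real.Angle.cos_sin_inj hc hs
  obtain ⟨k, hk⟩ := Real.Angle.angle_eq_iff_two_pi_dvd_sub.1 h
  refine ⟨k, ?_⟩
  have hpi : (2 * Real.pi) ≠ 0 := by positivity
  have h1 : 2 * Real.pi * a = 2 * Real.pi * (b + k) := by linarith
  exact mul_left_cancel₀ hpi h1

theorem rigid_core (i : Fin 3) (E : Set R3)
    (Ω : Set (Fin 2 → ℝ)) (hΩo : IsOpen Ω) (hΩc : Convex ℝ Ω)
    (l : (Fin 2 → ℝ) → ℝ)
    (H : ∃ c : (Fin 2 → ℝ) → ℝ, Measurable c ∧
      (∀ᵐ y ∂(volume.restrict Ω), ∀ᵐ t : ℝ, ((i.insertNth t y : R3) ∈ E ↔ dz (t - c y) < l y / 2)) ∧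
      ∀ (j : Fin 2) (ψ : (Fin 2 → ℝ) → ℝ), ContDiff ℝ ∞ ψ → HasCompactSupport ψ → tsupport ψ ⊆ Ω →
        (∫ y in Ω, Real.cos (2 * Real.pi * c y) * fderiv ℝ ψ y (Pi.single j 1) = 0) ∧
        (∫ y in Ω, Real.sin (2 * Real.pi * c y) * fderiv ℝ ψ y (Pi.single j 1) = 0)) :
    ∃ c : ℝ, ∀ᵐ y ∂(volume.restrict Ω), ∀ᵐ t : ℝ,
      ((i.insertNth t y : R3) ∈ E ↔ dz (t - c) < l y / 2) := by
  obtain ⟨c, hcm, hE, hw⟩ := H
  rcases Ω.eq_empty_or_nonempty with rfl | hne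
  · exact ⟨0, by simp⟩
  obtain ⟨k1, hk1⟩ := weak_const Ω hΩo hΩc (fun y => Real.cos (2 * Real.pi * c y))
    (Real.measurable_cos.comp (measurable_const.mul hcm)) (fun y => Real.abs_cos_le_one _)
    (fun j ψ h1 h2 h3 => (hw j ψ h1 h2 h3).1)
  obtain ⟨k2, hk2⟩ := weak_const Ω hΩo hΩc (fun y => Real.sin (2 * Real.pi * c y))
    (Real.measurable_sin.comp (measurable_const.mul hcm)) (fun y => Real.abs_sin_le_one _)
    (fun j ψ h1 h2 h3 => (hw j ψ h1 h2 h3).2)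
  have hpos : (volume.restrict Ω) ≠ 0 := by
    rw [Ne, Measure.restrict_eq_zero]
    exact (hΩo.measure_pos volume hne).ne'
  haveI : (ae (volume.restrict Ω)).NeBot := ae_neBot.2 hpos
  obtain ⟨y0, h01, h02⟩ := (hk1.and hk2).exists
  refine ⟨c y0, ?_⟩
  filter_upwards [hE, hk1, hk2] with y hy h1 h2
  obtain ⟨n, hn⟩ := angle (c y) (c y0) (h1.trans h01.symm) (h2.trans h02.symm)
  filter_upwards [hy] with t ht
  rw [ht, hn, show t - (c y0 + n) = (t - c y0) - n by ring, dz_sub_int]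

end P232.RaC
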