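import Vale.Agent.P232.Deficit
import Vale.Agent.P232.RigidCore

/-!
# P232 [RA]: rigidity of the Steiner symmetrisation over a convex domain
-/

open MeasureTheory Set Filter Topology
open scoped ENNReal ContDiff

namespace P232

/-- [RA] Rigid.lean (from rigid_pde and weak_const) -/
theorem rigid (i : Fin 3) (E : Set R3) (hm : MeasurableSet E) (hp : PeriodicSet E)
    (Ω : Set (Fin 2 → ℝ)) (hΩo : IsOpen Ω) (hΩc : Convex ℝ Ω)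
    (hΩ : Ω ⊆ {y | ∀ j, y j ∈ Ioo (0 : ℝ) 1})
    (l : (Fin 2 → ℝ) → ℝ) (hl : ContDiffOn ℝ ∞ l Ω) (h0 : ∀ y ∈ Ω, 0 < l y ∧ l y < 1)
    (hE : ∀ᵐ y ∂(volume.restrict Ω),
      volume {t ∈ Ico (0 : ℝ) 1 | (i.insertNth t y : R3) ∈ E} = ENNReal.ofReal (l y))
    (hfin : perimeter E ≠ ⊤)
    (hP : perimeter E ≤ ∫⁻ y in Ω,
      ENNReal.ofReal (√(4 + ∑ j, (fderiv ℝ l y (Pi.single j 1)) ^ 2))) :
    ∃ c : ℝ, ∀ᵐ y ∂(volume.restrict Ω), ∀ᵐ t : ℝ,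
      ((i.insertNth t y : R3) ∈ E ↔ dz (t - c) < l y / 2) :=
  RaC.rigid_core i E Ω hΩo hΩc l (rigid_pde i E hm hp Ω hΩo hΩ l hl h0 hE hfin hP)

end P232
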