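import Vale.Agent.P232.DiscInt
import Vale.Agent.P232.OctModel
import Vale.Agent.P232.Inv1
import Vale.Agent.P232.RigidAux
import Vale.Agent.P232.Rigid

/-!
# P232 [RMb]: rigidity of the ball
-/

open MeasureTheory Set Filter Topology
open scoped ENNReal ContDiff

namespace P232.RBall

theorem dz_abs {u : ℝ} (h : |u| < 1 / 2) : dz u = |u| := by
  have : round u = 0 := by
    rw [round_eq_zero_iff]
    have := abs_lt.1 h
    exact ⟨this.1.le, this.2⟩
  rw [dz, this]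
  simp

/-- the disc -/
def Om (r : ℝ) : Set (Fin 2 → ℝ) := {y | ∑ j, (y j - 1 / 2) ^ 2 < r ^ 2}

/-- the length of the sections -/
noncomputable def len (r : ℝ) (y : Fin 2 → ℝ) : ℝ := 2 * √(r ^ 2 - ∑ j, (y j - 1 / 2) ^ 2)

theorem om_mem {r : ℝ} (h0 : 0 < r) {y : Fin 2 → ℝ} (hy : y ∈ Om r) (j : Fin 2) :
    |y j - 1 / 2| < r := by
  have h1 : (y j - 1 / 2) ^ 2 ≤ ∑ j, (y j - 1 / 2) ^ 2 :=
    Finset.single_le_sum (f := fun j => (y j - 1 / 2) ^ 2) (fun _ _ => sq_nonneg _)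
      (Finset.mem_univ j)
  have h2 : (y j - 1 / 2) ^ 2 < r ^ 2 := lt_of_le_of_lt h1 hy
  exact abs_lt_of_sq_lt_sq h2 h0.le

theorem om_open (r : ℝ) : IsOpen (Om r) :=
  isOpen_lt (by fun_prop) continuous_const

theorem om_sub {r : ℝ} (h0 : 0 < r) (h1 : r < 1 / 2) :
    Om r ⊆ {y | ∀ j, y j ∈ Ioo (0 : ℝ) 1} := by
  intro y hy j
  have := abs_lt.1 (om_mem h0 hy j)
  constructor <;> linarith

theorem om_convex {r : ℝ} : Convex ℝ (Om r) := by
  have : ConvexOn ℝ univ (fun y : Fin 2 → ℝ => ∑ j, (y j - 1 / 2) ^ 2) := by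
    refine ⟨convex_univ, fun x _ y _ a b ha hb hab => ?_⟩
    simp only [smul_eq_mul, Finset.mul_sum, ← Finset.sum_add_distrib, Pi.add_apply, Pi.smul_apply]
    refine Finset.sum_le_sum fun j _ => ?_
    have hb' : b = 1 - a := by linarith
    subst hb'
    nlinarith [mul_nonneg ha hb, sq_nonneg (x j - y j), mul_nonneg (mul_nonneg ha hb)
      (sq_nonneg (x j - y j))]
  have h := this.convex_lt (r ^ 2)
  have h2 : Om r = {x | x ∈ univ ∧ ∑ j, (x j - 1 / 2) ^ 2 < r ^ 2} := by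
    ext y
    exact ⟨fun h => ⟨mem_univ _, h⟩, fun h => h.2⟩
  rw [h2]
  exact h

theorem len_pos {r : ℝ} (h0 : 0 < r) (h1 : r < 1 / 2) : ∀ y ∈ Om r, 0 < len r y ∧ len r y < 1 := by
  intro y hy
  have h2 : 0 < r ^ 2 - ∑ j, (y j - 1 / 2) ^ 2 := sub_pos.2 hy
  have h3 : 0 ≤ ∑ j, (y j - 1 / 2) ^ 2 := Finset.sum_nonneg fun _ _ => sq_nonneg _
  refine ⟨by unfold len; positivity, ?_⟩
  unfold len
  have : √(r ^ 2 - ∑ j, (y j - 1 / 2) ^ 2) ≤ r := by
    rw [Real.sqrt_le_left h0.le]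
    linarith
  linarith

theorem len_smooth (r : ℝ) : ContDiffOn ℝ ∞ (len r) (Om r) := by
  intro y hy
  have h2 : 0 < r ^ 2 - ∑ j, (y j - 1 / 2) ^ 2 := sub_pos.2 hy
  have h3 : ContDiff ℝ ∞ (fun y : Fin 2 → ℝ => r ^ 2 - ∑ j, (y j - 1 / 2) ^ 2) := by fun_prop
  exact (contDiffAt_const.mul (h3.contDiffAt.sqrt h2.ne')).contDiffWithinAt

theorem len_fderiv {r : ℝ} {y : Fin 2 → ℝ} (hy : y ∈ Om r) (j : Fin 2) :
    fderiv ℝ (len r) y (Pi.single j 1) =
      -(2 * (y j - 1 / 2)) / √(r ^ 2 - ∑ j, (y j - 1 / 2) ^ 2) := by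
  have h2 : 0 < r ^ 2 - ∑ j, (y j - 1 / 2) ^ 2 := sub_pos.2 hy
  have hlin : HasDerivAt (fun t : ℝ => y + t • (Pi.single j 1 : Fin 2 → ℝ)) (Pi.single j 1) 0 := by
    have := ((hasDerivAt_id (0 : ℝ)).smul_const (Pi.single j 1 : Fin 2 → ℝ)).const_add y
    simpa using this
  have hd : DifferentiableAt ℝ (len r) y :=
    ((len_smooth r).contDiffAt ((om_open r).mem_nhds hy)).differentiableAt (by norm_num)
  have h3 : HasDerivAt (fun t : ℝ => len r (y + t • (Pi.single j 1 : Fin 2 → ℝ)))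
      (fderiv ℝ (len r) y (Pi.single j 1)) 0 := by
    have h4 : HasFDerivAt (len r) (fderiv ℝ (len r) y)
        ((fun t : ℝ => y + t • (Pi.single j 1 : Fin 2 → ℝ)) 0) := by
      simpa using hd.hasFDerivAt
    exact h4.comp_hasDerivAt 0 hlin
  have h5 : HasDerivAt (fun t : ℝ => len r (y + t • (Pi.single j 1 : Fin 2 → ℝ)))
      (-(2 * (y j - 1 / 2)) / √(r ^ 2 - ∑ j, (y j - 1 / 2) ^ 2)) 0 := by
    have h6 : HasDerivAt (fun t : ℝ => r ^ 2 - ∑ k, ((y + t • (Pi.single j 1 : Fin 2 → ℝ)) k -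
        1 / 2) ^ 2) (-(2 * (y j - 1 / 2))) 0 := by
      have h7 : HasDerivAt (fun t : ℝ => ∑ k, ((y + t • (Pi.single j 1 : Fin 2 → ℝ)) k -
          1 / 2) ^ 2) (∑ k, 2 * (y k - 1 / 2) * (Pi.single j 1 : Fin 2 → ℝ) k) 0 := by
        refine HasDerivAt.fun_sum fun k _ => ?_
        have h8 : HasDerivAt (fun t : ℝ => (y + t • (Pi.single j 1 : Fin 2 → ℝ)) k - 1 / 2)
            ((Pi.single j 1 : Fin 2 → ℝ) k) 0 := by
          have := ((hasDerivAt_id (0 : ℝ)).mul_const ((Pi.single j 1 : Fin 2 → ℝ) k)).const_add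
            (y k) |>.sub_const (1 / 2)
          simpa using this
        have := h8.fun_pow 2
        simpa using this
      have h9 : ∑ k, 2 * (y k - 1 / 2) * (Pi.single j 1 : Fin 2 → ℝ) k = 2 * (y j - 1 / 2) := by
        rw [Finset.sum_eq_single j]
        · simp
        · intro k _ hk
          simp [hk]
        · simp
      rw [h9] at h7
      exact h7.const_sub (r ^ 2)
    have h10 := (h6.sqrt (by simpa using h2.ne')).const_mul 2
    refine h10.congr_deriv ?_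
    simp only [zero_smul, add_zero]
    field_simp
  exact h3.unique h5

theorem len_int {r : ℝ} (h0 : 0 < r) : ENNReal.ofReal (4 * Real.pi * r ^ 2) =
    ∫⁻ y in Om r, ENNReal.ofReal (√(4 + ∑ j, (fderiv ℝ (len r) y (Pi.single j 1)) ^ 2)) := by
  rw [← DiscInt.disc r h0]
  refine setLIntegral_congr_fun (om_open r).measurableSet fun y hy => ?_
  have h2 : 0 < r ^ 2 - ∑ j, (y j - 1 / 2) ^ 2 := sub_pos.2 hy
  congr 1
  have h3 : 4 + ∑ j, (fderiv ℝ (len r) y (Pi.single j 1)) ^ 2 =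
      (2 * r / √(r ^ 2 - ∑ j, (y j - 1 / 2) ^ 2)) ^ 2 := by
    simp only [len_fderiv hy, div_pow, Real.sq_sqrt h2.le, ← Finset.sum_div]
    have h4 : ∑ j, (-(2 * (y j - 1 / 2))) ^ 2 = 4 * ∑ j, (y j - 1 / 2) ^ 2 := by
      rw [Finset.mul_sum]
      exact Finset.sum_congr rfl fun j _ => by ring
    rw [h4]
    obtain ⟨q, hq⟩ : ∃ q, q = ∑ j, (y j - 1 / 2) ^ 2 := ⟨_, rfl⟩
    rw [← hq] at h2 ⊢
    field_simp
    ring
  rw [h3, Real.sqrt_sq (by positivity)]

theorem ball_meas (c : R3) (r : ℝ) : MeasurableSet (BallSet c r) := by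
  refine measurableSet_lt (Finset.measurable_sum _ fun i _ => ?_) measurable_const
  have h1 : Measurable fun x : R3 => x i - c i := by fun_prop
  exact (RigidAux.measurable_dz.comp h1).pow_const 2

theorem ball_periodic (c : R3) (r : ℝ) : PeriodicSet (BallSet c r) := by
  intro x i
  have : ∀ j, dz ((x + Pi.single i 1 : R3) j - c j) = dz (x j - c j) := by
    intro j
    by_cases h : j = i
    · subst h
      have : (x + Pi.single j 1 : R3) j - c j = x j - c j + 1 := by simp; ring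
      rw [this, RigidAux.dz_add_one]
    · have : (x + Pi.single i 1 : R3) j - c j = x j - c j := by simp [h]
      rw [this]
  show ∑ j, dz ((x + Pi.single i 1 : R3) j - c j) ^ 2 < r ^ 2 ↔ ∑ j, dz (x j - c j) ^ 2 < r ^ 2
  simp only [this]

/-- sections of a ball centred over `(1/2, 1/2)` -/
theorem ball_sect (i : Fin 3) (c0 r : ℝ) {y : Fin 2 → ℝ} (hy : ∀ j, y j ∈ Ioo (0 : ℝ) 1) (t : ℝ) :
    (i.insertNth t y : R3) ∈ BallSet (i.insertNth c0 (fun _ => 1 / 2)) r ↔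
      dz (t - c0) ^ 2 + ∑ j, (y j - 1 / 2) ^ 2 < r ^ 2 := by
  show ∑ k, dz ((i.insertNth t y : R3) k - (i.insertNth c0 (fun _ => 1 / 2) : R3) k) ^ 2 < r ^ 2 ↔ _
  rw [Fin.sum_univ_succAbove _ i]
  simp only [Fin.insertNth_apply_same, Fin.insertNth_apply_succAbove]
  have : ∀ j, dz (y j - 1 / 2) ^ 2 = (y j - 1 / 2) ^ 2 := by
    intro j
    have h := hy j
    rw [dz_abs (by rw [abs_lt]; constructor <;> linarith [h.1, h.2]), sq_abs]
  simp only [this]

theorem sect_iff {r : ℝ} {y : Fin 2 → ℝ} (d : ℝ) (hd : 0 ≤ d) :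
    d ^ 2 + ∑ j, (y j - 1 / 2) ^ 2 < r ^ 2 ↔ d < len r y / 2 := by
  have h1 : len r y / 2 = √(r ^ 2 - ∑ j, (y j - 1 / 2) ^ 2) := by unfold len; ring
  rw [h1, Real.lt_sqrt hd, lt_sub_iff_add_lt]

end P232.RBall

namespace P232

open RBall in
/-- [RM] RigidBall.lean -/
theorem rigid_ball (i : Fin 3) (E : Set R3) (hm : MeasurableSet E) (hp : PeriodicSet E) (c : R3)
    (r : ℝ) (h0 : 0 < r) (h1 : r < 1 / 2) (h : St i E =ᵐ[volume] BallSet c r)
    (hP : perimeter E ≤ ENNReal.ofReal (4 * Real.pi * r ^ 2)) :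
    ∃ c', E =ᵐ[volume] BallSet c' r := by
  -- centre the ball over `(1/2, 1/2)`
  obtain ⟨v, hv⟩ : ∃ v : R3, v = i.insertNth 0 (fun j => c (i.succAbove j) - 1 / 2) := ⟨_, rfl⟩
  have hvi : v i = 0 := by rw [hv, Fin.insertNth_apply_same]
  obtain ⟨E', hE'⟩ : ∃ E' : Set R3, E' = {x | x + v ∈ E} := ⟨_, rfl⟩
  have hm' : MeasurableSet E' := hE' ▸ RigidAux.shift_meas hm v
  have hp' : PeriodicSet E' := hE' ▸ RigidAux.shift_periodic hp v
  have hper : perimeter E' = perimeter E := hE' ▸ RigidAux.perimeter_shift E hm hp v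
  have hball : ∀ (a b : R3), {x : R3 | x + a ∈ BallSet b r} = BallSet (b - a) r := by
    intro a b
    ext x
    show ∑ k, dz ((x + a) k - b k) ^ 2 < r ^ 2 ↔ ∑ k, dz (x k - (b - a) k) ^ 2 < r ^ 2
    have : ∀ k, (x + a) k - b k = x k - (b - a) k := by
      intro k
      simp only [Pi.add_apply, Pi.sub_apply]
      ring
    simp only [this]
  have hcv : c - v = i.insertNth (c i) (fun _ => 1 / 2) := by
    funext k
    rcases Fin.eq_self_or_eq_succAbove i k with rfl | ⟨j, rfl⟩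
    · simp [hvi]
    · simp [hv]
  have hSt : St i E' =ᵐ[volume] BallSet (i.insertNth (c i) (fun _ => 1 / 2)) r := by
    rw [hE', RigidAux.St_shift i E v hvi, ← hcv, ← hball]
    exact RigidAux.ae_shift h v
  have hsect := RigidAux.vol_sect i E' _ hSt
  -- the lengths of the sections
  have hE : ∀ᵐ y ∂(volume.restrict (Om r)),
      volume {t ∈ Ico (0 : ℝ) 1 | (i.insertNth t y : R3) ∈ E'} = ENNReal.ofReal (len r y) := by
    rw [ae_restrict_iff' (om_open r).measurableSet]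
    filter_upwards [hsect] with y hy hyO
    rw [hy]
    have h2 : {t ∈ Ico (0 : ℝ) 1 | (i.insertNth t y : R3) ∈
        BallSet (i.insertNth (c i) (fun _ => 1 / 2)) r} =
        {t ∈ Ico (0 : ℝ) 1 | dz (t - c i) < len r y / 2} := by
      ext t
      refine and_congr_right fun _ => ?_
      rw [ball_sect i (c i) r (om_sub h0 h1 hyO) t, sect_iff _ (RigidAux.dz_nonneg _)]
    rw [h2]
    obtain ⟨h3, h4⟩ := len_pos h0 h1 y hyO
    exact RigidAux.vol_dz (c i) (len r y) h3.le h4.le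
  have hPE : perimeter E' ≤ ∫⁻ y in Om r,
      ENNReal.ofReal (√(4 + ∑ j, (fderiv ℝ (len r) y (Pi.single j 1)) ^ 2)) := by
    rw [hper, ← len_int h0]
    exact hP
  obtain ⟨c0, hc0⟩ := rigid i E' hm' hp' (Om r) (om_open r) om_convex (om_sub h0 h1) (len r)
    (len_smooth r) (len_pos h0 h1) hE (ne_top_of_le_ne_top ENNReal.ofReal_ne_top (hper ▸ hP)) hPE
  -- the translated set is a ball
  have hfin : E' =ᵐ[volume] BallSet (i.insertNth c0 (fun _ => 1 / 2)) r := by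
    refine RigidAux.ae_of_sections i E' _ hm' (ball_meas _ _) hp' (ball_periodic _ _) ?_
    have hms : MeasurableSet {y : Fin 2 → ℝ | ∀ j, y j ∈ Ioo (0 : ℝ) 1} := by
      have : {y : Fin 2 → ℝ | ∀ j, y j ∈ Ioo (0 : ℝ) 1} = Set.pi univ fun _ => Ioo (0 : ℝ) 1 := by
        ext y
        simp [Set.mem_pi]
      rw [this]
      exact MeasurableSet.univ_pi fun _ => measurableSet_Ioo
    rw [ae_restrict_iff' hms]
    rw [ae_restrict_iff' (om_open r).measurableSet] at hc0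
    filter_upwards [hsect, hc0] with y hy1 hy2 hyU
    by_cases hyO : y ∈ Om r
    · filter_upwards [hy2 hyO] with t ht
      rw [ht, ball_sect i c0 r hyU t, sect_iff _ (RigidAux.dz_nonneg _)]
    · have hneg : ∀ (a t : ℝ), ¬ (dz (t - a) ^ 2 + ∑ j, (y j - 1 / 2) ^ 2 < r ^ 2) := by
        intro a t hlt
        apply hyO
        show ∑ j, (y j - 1 / 2) ^ 2 < r ^ 2
        nlinarith [sq_nonneg (dz (t - a))]
      have h2 : {t ∈ Ico (0 : ℝ) 1 | (i.insertNth t y : R3) ∈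
          BallSet (i.insertNth (c i) (fun _ => 1 / 2)) r} = ∅ := by
        rw [Set.eq_empty_iff_forall_notMem]
        rintro t ⟨-, ht⟩
        rw [ball_sect i (c i) r hyU t] at ht
        exact hneg _ _ ht
      rw [h2, measure_empty] at hy1
      have h3 : volume {t : ℝ | (i.insertNth t y : R3) ∈ E'} = 0 := by
        refine RigidAux.null_of_Ico _ (RigidAux.sect_periodic i hp' y) ?_
        rw [← RigidAux.Ico_Ioc, inter_comm]
        exact hy1
      have h4 : ∀ᵐ t : ℝ, ¬ ((i.insertNth t y : R3) ∈ E') := by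
        rw [ae_iff]
        simpa using h3
      filter_upwards [h4] with t ht
      rw [ball_sect i c0 r hyU t]
      exact ⟨fun hh => absurd hh ht, fun hh => absurd hh (hneg _ _)⟩
  refine ⟨i.insertNth c0 (fun _ => 1 / 2) - (-v), ?_⟩
  rw [← hball]
  have h5 := RigidAux.ae_shift hfin (-v)
  have h6 : {x : R3 | x + -v ∈ E'} = E := by
    ext x
    rw [hE']
    show x + -v + v ∈ E ↔ x ∈ E
    rw [neg_add_cancel_right]
  rw [h6] at h5
  exact h5

end P232
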