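import Vale.Agent.P232.RigidAux
import Vale.Agent.P232.Rigid

/-!
# P232 [RMs]: rigidity of slabs under Steiner symmetrisation
-/

open MeasureTheory Set Filter Topology
open scoped ENNReal ContDiff

namespace P232

namespace RSlab

open RigidAux

theorem slab_meas (k : Fin 3) (c w : ℝ) : MeasurableSet (SlabSet k c w) := by
  have h1 : Measurable fun x : R3 => x k - c := (measurable_pi_apply k).sub measurable_const
  exact measurableSet_lt (measurable_dz.comp h1) measurable_const

theorem slab_per (k : Fin 3) (c w : ℝ) : PeriodicSet (SlabSet k c w) := by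
  intro x i
  show dz ((x + (Pi.single i 1 : R3)) k - c) < w ↔ dz (x k - c) < w
  by_cases h : k = i
  · subst h
    have : (x + (Pi.single k 1 : R3)) k - c = x k - c + 1 := by
      simp
      ring
    rw [this, dz_add_one]
  · have : (x + (Pi.single i 1 : R3)) k - c = x k - c := by simp [h]
    rw [this]

theorem cube_vol : volume {y : Fin 2 → ℝ | ∀ j, y j ∈ Ioo (0 : ℝ) 1} = 1 := by
  have : {y : Fin 2 → ℝ | ∀ j, y j ∈ Ioo (0 : ℝ) 1} = Set.pi univ (fun _ => Ioo (0 : ℝ) 1) := by
    ext y
    simp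
  rw [this, volume_pi_pi]
  simp

theorem cube_open : IsOpen {y : Fin 2 → ℝ | ∀ j, y j ∈ Ioo (0 : ℝ) 1} := by
  have : {y : Fin 2 → ℝ | ∀ j, y j ∈ Ioo (0 : ℝ) 1} = Set.pi univ (fun _ => Ioo (0 : ℝ) 1) := by
    ext y
    simp
  rw [this]
  exact isOpen_set_pi finite_univ fun _ _ => isOpen_Ioo

theorem cube_convex : Convex ℝ {y : Fin 2 → ℝ | ∀ j, y j ∈ Ioo (0 : ℝ) 1} := by
  have : {y : Fin 2 → ℝ | ∀ j, y j ∈ Ioo (0 : ℝ) 1} = Set.pi univ (fun _ => Ioo (0 : ℝ) 1) := by
    ext y
    simp
  rw [this]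
  exact convex_pi fun _ _ => convex_Ioo 0 1

end RSlab

open RigidAux RSlab in
/-- [RMs] -/
theorem rigid_slab (i k : Fin 3) (E : Set R3) (hm : MeasurableSet E) (hp : PeriodicSet E) (c w : ℝ)
    (h0 : 0 < w) (h1 : w < 1 / 2) (h : St i E =ᵐ[volume] SlabSet k c w)
    (hP : perimeter E ≤ 2) : ∃ c', E =ᵐ[volume] SlabSet k c' w := by
  by_cases hk : k = i
  · subst hk
    obtain ⟨c', hc'⟩ := rigid k E hm hp {y | ∀ j, y j ∈ Ioo (0 : ℝ) 1} cube_open cube_convex
      (fun _ h => h) (fun _ => 2 * w) contDiffOn_const (fun _ _ => ⟨by linarith, by linarith⟩)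
      (by
        refine ae_restrict_of_ae ?_
        filter_upwards [vol_sect k E _ h] with y hy
        rw [hy, ← vol_dz c (2 * w) (by linarith) (by linarith)]
        congr 1
        ext t
        show (t ∈ Ico (0 : ℝ) 1 ∧ dz ((k.insertNth t y : R3) k - c) < w) ↔
          (t ∈ Ico (0 : ℝ) 1 ∧ dz (t - c) < 2 * w / 2)
        rw [Fin.insertNth_apply_same, mul_div_cancel_left₀ w two_ne_zero])
      (ne_top_of_le_ne_top (by simp) hP)
      (by
        refine hP.trans (le_of_eq ?_)
        have h4 : √(4 : ℝ) = 2 := by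
          rw [show (4 : ℝ) = 2 ^ 2 by norm_num]
          exact Real.sqrt_sq (by norm_num)
        simp only [fderiv_fun_const, Pi.zero_apply, _root_.zero_apply, ne_eq, OfNat.ofNat_ne_zero,
          not_false_eq_true, zero_pow, Finset.sum_const_zero, add_zero, h4]
        rw [lintegral_const, Measure.restrict_apply_univ, cube_vol]
        simp)
    refine ⟨c', ae_of_sections k _ _ hm (slab_meas k c' w) hp (slab_per k c' w) ?_⟩
    filter_upwards [hc'] with y hy
    filter_upwards [hy] with t ht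
    rw [ht]
    show dz (t - c') < 2 * w / 2 ↔ dz ((k.insertNth t y : R3) k - c') < w
    rw [Fin.insertNth_apply_same, mul_div_cancel_left₀ w two_ne_zero]
  · refine ⟨c, eq_of_full i E _ hm hp (slab_meas k c w) (slab_per k c w) (fun x t => ?_) h⟩
    show dz (Function.update x i t k - c) < w ↔ dz (x k - c) < w
    rw [Function.update_of_ne hk]

end P232
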