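import Vale.Agent.P232.RigidSlab

/-!
# P232 [RMt]: rigidity of tubes under Steiner symmetrisation
-/

open MeasureTheory Set Filter Topology
open scoped ENNReal ContDiff

namespace P232

namespace RTube

open RigidAux RSlab

theorem tube_meas (k : Fin 3) (c : R3) (r : ℝ) : MeasurableSet (TubeSet k c r) := by
  refine measurableSet_lt (Finset.measurable_fun_sum _ fun i _ => ?_) measurable_const
  have h1 : Measurable fun x : R3 => x i - c i := (measurable_pi_apply i).sub measurable_const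
  exact (measurable_dz.comp h1).pow_const 2

theorem dz_shift (x : R3) (c : R3) (i j : Fin 3) :
    dz ((x + (Pi.single i 1 : R3)) j - c j) = dz (x j - c j) := by
  by_cases h : j = i
  · subst h
    have : (x + (Pi.single j 1 : R3)) j - c j = x j - c j + 1 := by
      simp
      ring
    rw [this, dz_add_one]
  · have : (x + (Pi.single i 1 : R3)) j - c j = x j - c j := by simp [h]
    rw [this]

theorem tube_per (k : Fin 3) (c : R3) (r : ℝ) : PeriodicSet (TubeSet k c r) := by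
  intro x i
  show ∑ j ∈ Finset.univ.erase k, dz ((x + (Pi.single i 1 : R3)) j - c j) ^ 2 < r ^ 2 ↔
    ∑ j ∈ Finset.univ.erase k, dz (x j - c j) ^ 2 < r ^ 2
  simp only [dz_shift]

theorem tube_shift (k : Fin 3) (c : R3) (r : ℝ) (v : R3) :
    {x | x + v ∈ TubeSet k c r} = TubeSet k (c - v) r := by
  ext x
  show ∑ j ∈ Finset.univ.erase k, dz ((x + v) j - c j) ^ 2 < r ^ 2 ↔
    ∑ j ∈ Finset.univ.erase k, dz (x j - (c - v) j) ^ 2 < r ^ 2
  have : ∀ j, (x + v) j - c j = x j - (c - v) j := by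
    intro j
    simp only [Pi.add_apply, Pi.sub_apply]
    ring
  simp only [this]

/-- the integral of the arc length element of the circle -/
theorem arc_lintegral (r : ℝ) (h0 : 0 < r) :
    ∫⁻ s in Ioo (1 / 2 - r) (1 / 2 + r), ENNReal.ofReal (2 * r / √(r ^ 2 - (s - 1 / 2) ^ 2)) =
      ENNReal.ofReal (2 * Real.pi * r) := by
  have hab : 1 / 2 - r ≤ 1 / 2 + r := by linarith
  have hcont : ContinuousOn (fun s : ℝ => 2 * r * Real.arcsin ((s - 1 / 2) / r))
      (Icc (1 / 2 - r) (1 / 2 + r)) := by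
    refine Continuous.continuousOn ?_
    exact continuous_const.mul (Real.continuous_arcsin.comp
      ((continuous_id.sub continuous_const).div_const r))
  have hder : ∀ s ∈ Ioo (1 / 2 - r) (1 / 2 + r),
      HasDerivAt (fun s : ℝ => 2 * r * Real.arcsin ((s - 1 / 2) / r))
        (2 * r / √(r ^ 2 - (s - 1 / 2) ^ 2)) s := by
    intro s hs
    have hx1 : (s - 1 / 2) / r ≠ -1 := by
      intro h
      rw [div_eq_iff h0.ne'] at h
      linarith [hs.1]
    have hx2 : (s - 1 / 2) / r ≠ 1 := by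
      intro h
      rw [div_eq_iff h0.ne'] at h
      linarith [hs.2]
    have h1 : HasDerivAt (fun s : ℝ => (s - 1 / 2) / r) (1 / r) s :=
      ((hasDerivAt_id s).sub_const _).div_const r
    have h2 := ((Real.hasDerivAt_arcsin hx1 hx2).comp s h1).const_mul (2 * r)
    refine h2.congr_deriv ?_
    have h3 : 1 - ((s - 1 / 2) / r) ^ 2 = (r ^ 2 - (s - 1 / 2) ^ 2) / r ^ 2 := by
      field_simp
    rw [h3, Real.sqrt_div' _ (sq_nonneg r), Real.sqrt_sq h0.le]
    have h4 : 0 < r ^ 2 - (s - 1 / 2) ^ 2 := by nlinarith [hs.1, hs.2]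
    have h5 : 0 < √(r ^ 2 - (s - 1 / 2) ^ 2) := Real.sqrt_pos.2 h4
    field_simp
  have hpos : ∀ s ∈ Ioo (1 / 2 - r) (1 / 2 + r), 0 ≤ 2 * r / √(r ^ 2 - (s - 1 / 2) ^ 2) :=
    fun s _ => by positivity
  have hint := intervalIntegral.integrableOn_deriv_of_nonneg hcont hder hpos
  have hI := intervalIntegral.integral_eq_sub_of_hasDerivAt_of_le hab hcont hder
    ((intervalIntegrable_iff_integrableOn_Ioc_of_le hab).2 hint)
  have hval : (2 * r * Real.arcsin ((1 / 2 + r - 1 / 2) / r)) -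
      (2 * r * Real.arcsin ((1 / 2 - r - 1 / 2) / r)) = 2 * Real.pi * r := by
    have e1 : (1 / 2 + r - 1 / 2) / r = 1 := by
      field_simp
      ring
    have e2 : (1 / 2 - r - 1 / 2) / r = -1 := by
      field_simp
      ring
    rw [e1, e2, Real.arcsin_one, Real.arcsin_neg_one]
    ring
  rw [hval, intervalIntegral.integral_of_le hab] at hI
  rw [setLIntegral_congr Ioo_ae_eq_Ioc, ← hI, ofReal_integral_eq_lintegral_ofReal hint]
  exact Eventually.of_forall fun s => by positivity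

theorem cube_eq_pi : {y : Fin 2 → ℝ | ∀ j, y j ∈ Ioo (0 : ℝ) 1} =
    Set.pi univ (fun _ => Ioo (0 : ℝ) 1) := by
  ext y
  simp

instance prob01 : IsProbabilityMeasure ((volume : Measure ℝ).restrict (Ioo (0 : ℝ) 1)) :=
  ⟨by simp⟩

/-- the evaluation map on the unit square -/
theorem mp_eval (j : Fin 2) :
    MeasurePreserving (fun y : Fin 2 → ℝ => y j)
      (volume.restrict {y : Fin 2 → ℝ | ∀ j, y j ∈ Ioo (0 : ℝ) 1})
      (volume.restrict (Ioo (0 : ℝ) 1)) := by
  have h : (volume : Measure (Fin 2 → ℝ)).restrict {y : Fin 2 → ℝ | ∀ j, y j ∈ Ioo (0 : ℝ) 1} =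
      Measure.pi (fun _ : Fin 2 => (volume : Measure ℝ).restrict (Ioo (0 : ℝ) 1)) := by
    rw [cube_eq_pi, volume_pi, Measure.restrict_pi_pi]
  rw [h]
  exact measurePreserving_eval (fun _ : Fin 2 => (volume : Measure ℝ).restrict (Ioo (0 : ℝ) 1)) j

/-- the domain where the sections are non trivial -/
def Om (j : Fin 2) (r : ℝ) : Set (Fin 2 → ℝ) :=
  {y | ∀ j, y j ∈ Ioo (0 : ℝ) 1} ∩ {y | |y j - 1 / 2| < r}

theorem Om_open (j : Fin 2) (r : ℝ) : IsOpen (Om j r) :=
  cube_open.inter (isOpen_lt (continuous_abs.comp ((continuous_apply j).sub continuous_const))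
    continuous_const)

theorem Om_convex (j : Fin 2) (r : ℝ) : Convex ℝ (Om j r) := by
  refine cube_convex.inter ?_
  have : {y : Fin 2 → ℝ | |y j - 1 / 2| < r} =
      (LinearMap.proj j : (Fin 2 → ℝ) →ₗ[ℝ] ℝ) ⁻¹' Ioo (1 / 2 - r) (1 / 2 + r) := by
    ext y
    simp only [mem_ofPred_eq, mem_preimage, LinearMap.coe_proj, Function.eval, mem_Ioo, abs_lt]
    constructor <;> rintro ⟨h1, h2⟩ <;> constructor <;> linarith
  rw [this]
  exact (convex_Ioo _ _).linear_preimage _

/-- the section length -/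
noncomputable def len (j : Fin 2) (r : ℝ) (y : Fin 2 → ℝ) : ℝ := 2 * √(r ^ 2 - (y j - 1 / 2) ^ 2)

theorem pos_of_Om {j : Fin 2} {r : ℝ} {y : Fin 2 → ℝ} (h : y ∈ Om j r) :
    0 < r ^ 2 - (y j - 1 / 2) ^ 2 := by
  have h1 := abs_lt.1 (show |y j - 1 / 2| < r from h.2)
  nlinarith [h1.1, h1.2]

theorem len_contDiff (j : Fin 2) (r : ℝ) : ContDiffOn ℝ ∞ (len j r) (Om j r) := by
  unfold len
  refine contDiffOn_const.mul (ContDiffOn.sqrt ?_ fun y hy => (pos_of_Om hy).ne')
  exact (contDiff_const.sub (((contDiff_apply ℝ ℝ j).sub contDiff_const).pow 2)).contDiffOn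

theorem len_fderiv (j : Fin 2) (r : ℝ) {y : Fin 2 → ℝ} (hy : y ∈ Om j r) (j' : Fin 2) :
    fderiv ℝ (len j r) y (Pi.single j' 1) =
      if j = j' then -(2 * (y j - 1 / 2)) / √(r ^ 2 - (y j - 1 / 2) ^ 2) else 0 := by
  have hg := pos_of_Om hy
  have h1 : HasFDerivAt (fun y : Fin 2 → ℝ => y j - 1 / 2)
      (ContinuousLinearMap.proj j : (Fin 2 → ℝ) →L[ℝ] ℝ) y :=
    (ContinuousLinearMap.hasFDerivAt (ContinuousLinearMap.proj j : (Fin 2 → ℝ) →L[ℝ] ℝ)).sub_const _
  have h2 := ((h1.pow 2).const_sub (r ^ 2)).sqrt hg.ne'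
  have h3 := h2.const_mul 2
  have h4 : HasFDerivAt (len j r) _ y := h3
  rw [h4.fderiv]
  have h5 : 0 < √(r ^ 2 - (y j - 1 / 2) ^ 2) := Real.sqrt_pos.2 hg
  by_cases hj : j = j'
  · subst hj
    simp
    field_simp
  · simp [hj]

theorem len_sqrt (j : Fin 2) {r : ℝ} (h0 : 0 < r) {y : Fin 2 → ℝ} (hy : y ∈ Om j r) :
    √(4 + ∑ j', (fderiv ℝ (len j r) y (Pi.single j' 1)) ^ 2) =
      2 * r / √(r ^ 2 - (y j - 1 / 2) ^ 2) := by
  have hg := pos_of_Om hy
  have h5 : 0 < √(r ^ 2 - (y j - 1 / 2) ^ 2) := Real.sqrt_pos.2 hg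
  simp only [len_fderiv j r hy]
  have h6 : ∑ j', (if j = j' then -(2 * (y j - 1 / 2)) / √(r ^ 2 - (y j - 1 / 2) ^ 2)
      else 0) ^ 2 = (-(2 * (y j - 1 / 2)) / √(r ^ 2 - (y j - 1 / 2) ^ 2)) ^ 2 := by
    rw [Finset.sum_eq_single j]
    · simp
    · intro b _ hb
      simp [hb.symm]
    · simp
  rw [h6]
  have h7 : 4 + (-(2 * (y j - 1 / 2)) / √(r ^ 2 - (y j - 1 / 2) ^ 2)) ^ 2 =
      (2 * r / √(r ^ 2 - (y j - 1 / 2) ^ 2)) ^ 2 := by
    rw [div_pow, div_pow, Real.sq_sqrt hg.le, eq_div_iff hg.ne', add_mul,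
      div_mul_cancel₀ _ hg.ne']
    ring
  rw [h7, Real.sqrt_sq (by positivity)]

theorem len_lintegral (j : Fin 2) {r : ℝ} (h0 : 0 < r) (h1 : r < 1 / 2) :
    ∫⁻ y in Om j r, ENNReal.ofReal (√(4 + ∑ j', (fderiv ℝ (len j r) y (Pi.single j' 1)) ^ 2)) =
      ENNReal.ofReal (2 * Real.pi * r) := by
  have hm : Measurable fun s : ℝ => ENNReal.ofReal (2 * r / √(r ^ 2 - (s - 1 / 2) ^ 2)) := by
    fun_prop
  have hS : MeasurableSet {y : Fin 2 → ℝ | |y j - 1 / 2| < r} :=
    (isOpen_lt (continuous_abs.comp ((continuous_apply j).sub continuous_const))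
      continuous_const).measurableSet
  calc ∫⁻ y in Om j r, ENNReal.ofReal (√(4 + ∑ j', (fderiv ℝ (len j r) y (Pi.single j' 1)) ^ 2))
      = ∫⁻ y in Om j r, ENNReal.ofReal (2 * r / √(r ^ 2 - (y j - 1 / 2) ^ 2)) := by
        refine setLIntegral_congr_fun (Om_open j r).measurableSet fun y hy => ?_
        simp only [len_sqrt j h0 hy]
    _ = ∫⁻ y in {y : Fin 2 → ℝ | ∀ j, y j ∈ Ioo (0 : ℝ) 1},
          (Ioo (1 / 2 - r) (1 / 2 + r)).indicator
            (fun s : ℝ => ENNReal.ofReal (2 * r / √(r ^ 2 - (s - 1 / 2) ^ 2))) (y j) := by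
        rw [Om, inter_comm, ← Measure.restrict_restrict hS, ← lintegral_indicator hS]
        refine lintegral_congr fun y => ?_
        by_cases hy : |y j - 1 / 2| < r
        · rw [indicator_of_mem (show y ∈ {y : Fin 2 → ℝ | |y j - 1 / 2| < r} from hy),
            indicator_of_mem]
          rw [abs_lt] at hy
          exact ⟨by linarith [hy.1], by linarith [hy.2]⟩
        · rw [indicator_of_notMem (show y ∉ {y : Fin 2 → ℝ | |y j - 1 / 2| < r} from hy),
            indicator_of_notMem]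
          intro h
          apply hy
          rw [abs_lt]
          exact ⟨by linarith [h.1], by linarith [h.2]⟩
    _ = ∫⁻ s in Ioo (0 : ℝ) 1, (Ioo (1 / 2 - r) (1 / 2 + r)).indicator
            (fun s : ℝ => ENNReal.ofReal (2 * r / √(r ^ 2 - (s - 1 / 2) ^ 2))) s :=
        (mp_eval j).lintegral_comp (hm.indicator measurableSet_Ioo)
    _ = ∫⁻ s in Ioo (1 / 2 - r) (1 / 2 + r),
          ENNReal.ofReal (2 * r / √(r ^ 2 - (s - 1 / 2) ^ 2)) := by
        rw [lintegral_indicator measurableSet_Ioo, Measure.restrict_restrict measurableSet_Ioo]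
        congr 2
        refine inter_eq_left.2 fun s hs => ⟨?_, ?_⟩ <;> linarith [hs.1, hs.2]
    _ = _ := arc_lintegral r h0

/-- membership in a tube, in coordinates -/
theorem mem_tube (i k : Fin 3) (jm : Fin 2) (hk : Finset.univ.erase k = {i, i.succAbove jm})
    (c : R3) (r t : ℝ) (y : Fin 2 → ℝ) :
    (i.insertNth t y : R3) ∈ TubeSet k c r ↔
      dz (t - c i) ^ 2 + dz (y jm - c (i.succAbove jm)) ^ 2 < r ^ 2 := by
  show ∑ j ∈ Finset.univ.erase k, dz ((i.insertNth t y : R3) j - c j) ^ 2 < r ^ 2 ↔ _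
  rw [hk, Finset.sum_pair (Fin.succAbove_ne i jm).symm, Fin.insertNth_apply_same,
    Fin.insertNth_apply_succAbove]

/-- tubes centred at `1/2` in the third direction -/
theorem tube_core (i k : Fin 3) (jm : Fin 2) (hk : Finset.univ.erase k = {i, i.succAbove jm})
    (E : Set R3) (hm : MeasurableSet E) (hp : PeriodicSet E) (c : R3)
    (hc : c (i.succAbove jm) = 1 / 2)
    (r : ℝ) (h0 : 0 < r) (h1 : r < 1 / 2) (h : St i E =ᵐ[volume] TubeSet k c r)
    (hP : perimeter E ≤ ENNReal.ofReal (2 * Real.pi * r)) :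
    ∃ c', E =ᵐ[volume] TubeSet k c' r := by
  have hdz : ∀ y : Fin 2 → ℝ, (∀ j, y j ∈ Ioo (0 : ℝ) 1) →
      dz (y jm - 1 / 2) ^ 2 = (y jm - 1 / 2) ^ 2 := by
    intro y hy
    have := hy jm
    rw [dz_of_mem (by linarith [this.1]) (by linarith [this.2]), sq_abs]
  have hvs := vol_sect i E _ h
  obtain ⟨c0, hc0⟩ := rigid i E hm hp (Om jm r) (Om_open jm r) (Om_convex jm r)
    (fun y hy => hy.1) (len jm r) (len_contDiff jm r)
    (fun y hy => by
      have hg := pos_of_Om hy
      constructor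
      · exact mul_pos two_pos (Real.sqrt_pos.2 hg)
      · have : √(r ^ 2 - (y jm - 1 / 2) ^ 2) < 1 / 2 := by
          rw [Real.sqrt_lt' (by norm_num)]
          nlinarith [sq_nonneg (y jm - 1 / 2)]
        unfold len
        linarith)
    (by
      rw [ae_restrict_iff' (Om_open jm r).measurableSet]
      filter_upwards [hvs] with y hy hyO
      have hg := pos_of_Om hyO
      have h2 : √(r ^ 2 - (y jm - 1 / 2) ^ 2) < 1 / 2 := by
        rw [Real.sqrt_lt' (by norm_num)]
        nlinarith [sq_nonneg (y jm - 1 / 2)]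
      have h3 := Real.sqrt_nonneg (r ^ 2 - (y jm - 1 / 2) ^ 2)
      rw [hy, ← vol_dz (c i) (len jm r y) (by unfold len; linarith) (by unfold len; linarith)]
      congr 1
      ext t
      refine and_congr_right fun _ => ?_
      rw [mem_tube i k jm hk, hc, hdz y hyO.1]
      show dz (t - c i) ^ 2 + (y jm - 1 / 2) ^ 2 < r ^ 2 ↔
        dz (t - c i) < 2 * √(r ^ 2 - (y jm - 1 / 2) ^ 2) / 2
      rw [mul_div_cancel_left₀ _ two_ne_zero, Real.lt_sqrt (dz_nonneg _)]
      constructor <;> intro h <;> linarith)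
    (ne_top_of_le_ne_top ENNReal.ofReal_ne_top hP)
    (by rw [len_lintegral jm h0 h1]; exact hP)
  refine ⟨Function.update c i c0, ae_of_sections i _ _ hm (tube_meas _ _ _) hp (tube_per _ _ _) ?_⟩
  rw [ae_restrict_iff' (Om_open jm r).measurableSet] at hc0
  rw [ae_restrict_iff' cube_open.measurableSet]
  filter_upwards [hc0, hvs] with y hy1 hy2 hyc
  have hmem : ∀ t, (i.insertNth t y : R3) ∈ TubeSet k (Function.update c i c0) r ↔
      dz (t - c0) ^ 2 + (y jm - 1 / 2) ^ 2 < r ^ 2 := by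
    intro t
    rw [mem_tube i k jm hk, Function.update_self, Function.update_of_ne (Fin.succAbove_ne i jm),
      hc, hdz y hyc]
  by_cases hyO : |y jm - 1 / 2| < r
  · filter_upwards [hy1 ⟨hyc, hyO⟩] with t ht
    rw [ht, hmem]
    show dz (t - c0) < 2 * √(r ^ 2 - (y jm - 1 / 2) ^ 2) / 2 ↔ _
    rw [mul_div_cancel_left₀ _ two_ne_zero, Real.lt_sqrt (dz_nonneg _)]
    constructor <;> intro h <;> linarith
  · have hge : r ^ 2 ≤ (y jm - 1 / 2) ^ 2 := by
      rw [← sq_abs (y jm - 1 / 2)]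
      have := not_lt.1 hyO
      gcongr
    have hempty : {t ∈ Ico (0 : ℝ) 1 | (i.insertNth t y : R3) ∈ TubeSet k c r} = ∅ := by
      ext t
      rw [mem_empty_iff_false, iff_false]
      rintro ⟨-, ht⟩
      rw [mem_tube i k jm hk, hc, hdz y hyc] at ht
      nlinarith [sq_nonneg (dz (t - c i))]
    rw [hempty, measure_empty] at hy2
    have h2 : volume ({t : ℝ | (i.insertNth t y : R3) ∈ E} ∩ Ioc 0 1) = 0 := by
      rw [← Ico_Ioc, ← hy2]
      congr 1
      ext t
      simp only [mem_inter_iff, mem_ofPred_eq]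
      tauto
    have h4 := null_of_Ico _ (fun t => sect_periodic i hp y t) h2
    filter_upwards [measure_eq_zero_iff_ae_notMem.1 h4] with t ht
    refine iff_of_false ht fun h => ?_
    rw [hmem] at h
    nlinarith [sq_nonneg (dz (t - c0))]

end RTube

open RigidAux RTube in
/-- [RMt] -/
theorem rigid_tube (i k : Fin 3) (E : Set R3) (hm : MeasurableSet E) (hp : PeriodicSet E) (c : R3)
    (r : ℝ) (h0 : 0 < r) (h1 : r < 1 / 2) (h : St i E =ᵐ[volume] TubeSet k c r)
    (hP : perimeter E ≤ ENNReal.ofReal (2 * Real.pi * r)) :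
    ∃ c', E =ᵐ[volume] TubeSet k c' r := by
  by_cases hki : k = i
  · subst hki
    refine ⟨c, eq_of_full k E _ hm hp (tube_meas k c r) (tube_per k c r) (fun x t => ?_) h⟩
    show ∑ j ∈ Finset.univ.erase k, dz (Function.update x k t j - c j) ^ 2 < r ^ 2 ↔
      ∑ j ∈ Finset.univ.erase k, dz (x j - c j) ^ 2 < r ^ 2
    have : ∑ j ∈ Finset.univ.erase k, dz (Function.update x k t j - c j) ^ 2 =
        ∑ j ∈ Finset.univ.erase k, dz (x j - c j) ^ 2 := by
      refine Finset.sum_congr rfl fun j hj => ?_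
      rw [Function.update_of_ne (Finset.mem_erase.1 hj).1]
    rw [this]
  · have hex : ∀ i k : Fin 3, k ≠ i → ∃ jm : Fin 2,
        Finset.univ.erase k = {i, i.succAbove jm} := by decide
    obtain ⟨jm, hk⟩ := hex i k hki
    set v : R3 := Pi.single (i.succAbove jm) (c (i.succAbove jm) - 1 / 2) with hv
    have hvi : v i = 0 := by
      rw [hv, Pi.single_apply, if_neg (Fin.succAbove_ne i jm).symm]
    have hst : St i {x | x + v ∈ E} =ᵐ[volume] TubeSet k (c - v) r := by
      rw [St_shift i E v hvi, ← tube_shift]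
      exact ae_shift h v
    obtain ⟨c', hc'⟩ := tube_core i k jm hk {x | x + v ∈ E} (shift_meas hm v)
      (shift_periodic hp v) (c - v) (by simp [hv]) r h0 h1 hst
      (by rw [perimeter_shift E hm hp v]; exact hP)
    refine ⟨c' + v, ?_⟩
    have h2 := ae_shift hc' (-v)
    have h3 : {x | x + -v ∈ {x | x + v ∈ E}} = E := by
      ext x
      simp
    rw [h3, tube_shift, sub_neg_eq_add] at h2
    exact h2

end P232
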