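import Vale.Agent.P232.SlabIneq

/-!
# P232, [SIS]: the slab inequality is strict outside the two equality cases.
-/

open MeasureTheory Set Filter Topology

namespace P232

namespace SlabStrictAux

open SlabIneqAux

lemma caseA (x0 x1 : ℝ) (h1 : 0 < x1) (h2 : x1 ≤ 3 / 10) (h3 : 1 ≤ x0) :
    (x0 - 1) * (1 - x1) <
      4 / 9 * (x0 ^ 3 / 3 - x0 * x1 ^ 2 / 2 - x0 * x1 ^ 2 * Real.log (x0 / x1)) := by
  have hx0 : 0 < x0 := by linarith
  have e : Real.log (x0 / x1) = Real.log x0 + Real.log (1 / x1) := by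
    rw [← Real.log_mul (by positivity) (by positivity)]
    congr 1
    field_simp
  have h4 := log_bound x1 h1
  have h5 : Real.log x0 ≤ x0 - 1 := Real.log_le_sub_one_of_pos hx0
  have h6 : x1 * (Real.log (x0 / x1) + 1 / 2) ≤ 3 / 10 * x0 + 0.2115 := by
    rw [e]
    nlinarith
  have h7 : x0 * x1 ^ 2 * (Real.log (x0 / x1) + 1 / 2) ≤ x0 * x1 * (3 / 10 * x0 + 0.2115) := by
    have := mul_le_mul_of_nonneg_left h6 (mul_nonneg hx0.le h1.le)
    nlinarith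
  have h8 : 0 < 4 / 27 * x0 ^ 3 - 0.04 * x0 ^ 2 - 0.7282 * x0 + 0.7 := by
    nlinarith [mul_nonneg (sub_nonneg.2 h3) (sq_nonneg (x0 - 1.373)),
      sq_nonneg (x0 - 1.373)]
  have h9 : 0 ≤ 4 / 27 * (x0 - 3 / 2) ^ 2 * (x0 + 3) := by positivity
  -- linear in x1
  have h10 : 0 < x1 * ((x0 - 1) - 4 / 9 * (x0 * (3 / 10 * x0 + 0.2115))) +
      4 / 27 * (x0 - 3 / 2) ^ 2 * (x0 + 3) := by
    have hA : 0 < 3 / 10 * ((x0 - 1) - 4 / 9 * (x0 * (3 / 10 * x0 + 0.2115))) +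
      4 / 27 * (x0 - 3 / 2) ^ 2 * (x0 + 3) := by nlinarith
    rcases lt_or_ge 0 ((x0 - 1) - 4 / 9 * (x0 * (3 / 10 * x0 + 0.2115))) with hc | hc
    · have := mul_pos h1 hc
      linarith
    · nlinarith
  nlinarith

lemma caseB (x0 x1 : ℝ) (h1 : 3 / 10 ≤ x1) (h2 : x1 ≤ 1) (h3 : 1 ≤ x0) (hlt : x1 < x0) :
    (x0 - 1) * (1 - x1) < 4 / 9 * (Real.pi / 16 * (x0 - x1) ^ 2 * (√x0 + √x1) ^ 2) := by
  have hx0 : 0 ≤ x0 := by linarith
  have hx1 : 0 ≤ x1 := by linarith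
  have hX : 0 < (x0 - x1) ^ 2 * (√x0 + √x1) ^ 2 := by
    have a1 : 0 < x0 - x1 := by linarith
    have a2 : 0 < √x0 := Real.sqrt_pos.2 (by linarith)
    have a3 : 0 ≤ √x1 := Real.sqrt_nonneg _
    positivity
  have hp := Real.sq_sqrt hx0
  have hq := Real.sq_sqrt hx1
  have hp1 : 1 ≤ √x0 := Real.one_le_sqrt.2 h3
  have hq0 : 0.5477 ≤ √x1 := Real.le_sqrt_of_sq_le (by norm_num; linarith)
  have hq1 : √x1 ≤ 1 := Real.sqrt_le_one.2 h2
  have hpi : (3.1415 : ℝ) < Real.pi := by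
    have := Real.pi_gt_d4; linarith
  generalize √x0 = p at *
  generalize √x1 = q at *
  subst hp
  subst hq
  -- a = p - 1, b = 1 - q, z = p + q, m = a b
  have ha : 0 ≤ p - 1 := by linarith
  have hb : 0 ≤ 1 - q := by linarith
  have hm : 0 ≤ (p - 1) * (1 - q) := mul_nonneg ha hb
  have key : 11.46 * ((p ^ 2 - 1) * (1 - q ^ 2)) ≤ (p ^ 2 - q ^ 2) ^ 2 * (p + q) ^ 2 := by
    have hz0 : 1.5477 ≤ p + q := by linarith
    set z := p + q with hz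
    set m := (p - 1) * (1 - q) with hmd
    have e1 : (p ^ 2 - 1) * (1 - q ^ 2) = m * (2 * z - m) := by rw [hz, hmd]; ring
    have e2 : (p ^ 2 - q ^ 2) ^ 2 * (p + q) ^ 2 = (4 * m + (2 - z) ^ 2) * z ^ 4 := by
      rw [hz, hmd]; ring
    rw [← hz] at e2
    rw [e1, e2]
    have hmb : m ≤ 0.4523 * (z - 1.5477) := by
      rw [hz, hmd]
      nlinarith
    rcases le_total 22.92 (4 * z ^ 3) with hc | hc
    · have h5 : 0 ≤ m * z * (4 * z ^ 3 - 22.92) := by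
        apply mul_nonneg (mul_nonneg hm (by linarith)) (by linarith)
      have h6 : 0 ≤ (2 - z) ^ 2 * z ^ 4 := by positivity
      nlinarith [sq_nonneg m]
    · have h5 := zineq z hz0 hc
      have h6 : m * (22.92 - 4 * z ^ 3) ≤ (2 - z) ^ 2 * z ^ 3 :=
        le_trans (mul_le_mul_of_nonneg_right hmb (by linarith)) h5
      have h7 := mul_le_mul_of_nonneg_right h6 (by linarith : (0 : ℝ) ≤ z)
      nlinarith [sq_nonneg m]
  have e3 : 4 / 9 * (Real.pi / 16 * (p ^ 2 - q ^ 2) ^ 2 * (p + q) ^ 2) =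
      Real.pi / 36 * ((p ^ 2 - q ^ 2) ^ 2 * (p + q) ^ 2) := by ring
  rw [e3]
  generalize (p ^ 2 - q ^ 2) ^ 2 * (p + q) ^ 2 = X at *
  nlinarith

end SlabStrictAux

open SlabIneqAux in
/-- [SIS] SlabStrict.lean -/
theorem slab_ineq_strict (x0 x1 : ℝ) (h1 : 0 ≤ x1) (h2 : x1 ≤ 1) (h3 : 1 ≤ x0)
    (hne1 : ¬ (x1 = 0 ∧ x0 = 3 / 2)) (hne2 : ¬ (x1 = 1 ∧ x0 = 1)) :
    (x0 - 1) * (1 - x1) < 4 / 9 * ∫ x in x1..x0, √((x0 ^ 2 - x ^ 2) * (x ^ 2 - x1 ^ 2)) := by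
  rcases h1.eq_or_lt with h0 | h0
  · subst h0
    have hx : x0 ≠ 3 / 2 := fun h => hne1 ⟨rfl, h⟩
    have e : ∫ x in (0 : ℝ)..x0, √((x0 ^ 2 - x ^ 2) * (x ^ 2 - 0 ^ 2)) =
        ∫ x in (0 : ℝ)..x0, x * √(x0 ^ 2 - x ^ 2) := by
      apply intervalIntegral.integral_congr
      intro x hx
      rw [uIcc_of_le (by linarith)] at hx
      have hx2 : 0 ≤ x0 ^ 2 - x ^ 2 := by nlinarith [hx.1, hx.2]
      simp only
      rw [Real.sqrt_mul hx2]
      have : x ^ 2 - 0 ^ 2 = x ^ 2 := by ring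
      rw [this, Real.sqrt_sq hx.1]
      ring
    rw [e, int_x_sqrt x0 0 le_rfl (by linarith)]
    have e2 : x0 ^ 2 - 0 ^ 2 = x0 ^ 2 := by ring
    rw [e2, Real.sqrt_sq (by linarith)]
    have hne : x0 - 3 / 2 ≠ 0 := sub_ne_zero.2 hx
    have h9 : 0 < 4 / 27 * (x0 - 3 / 2) ^ 2 * (x0 + 3) := by
      have : 0 < x0 + 3 := by linarith
      positivity
    nlinarith
  · rcases le_total x1 (3 / 10) with h4 | h4
    · exact (SlabStrictAux.caseA x0 x1 h0 h4 h3).trans_le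
        (mul_le_mul_of_nonneg_left (int_lowerA x0 x1 h0 (by linarith)) (by norm_num))
    · rcases (h2.trans h3).eq_or_lt with h5 | h5
      · have : x0 = 1 := le_antisymm (by rw [← h5]; exact h2) h3
        subst this
        exact absurd ⟨h5, rfl⟩ hne2
      · exact (SlabStrictAux.caseB x0 x1 h4 h2 h3 h5).trans_le
          (mul_le_mul_of_nonneg_left (int_lowerB x0 x1 h1 h5) (by norm_num))

end P232
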