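import Vale.Agent.P232.Slab
import Vale.Agent.P232.SlabStrict
import Vale.Agent.P232.DefsU

/-!
# P232, [SLE]: the equality case of the slab lemma.
-/

open MeasureTheory Set Filter Topology
open scoped ENNReal

namespace P232

namespace SlabEqAux

open SlabAux

lemma int_sqrt_lin (a0 : ℝ) (h0 : 0 < a0) :
    ∫ x in (0 : ℝ)..a0, √(1 - x / a0) = 2 / 3 * a0 := by
  have hd : ∀ x ∈ uIcc 0 a0, HasDerivAt (fun x : ℝ => -(2 * a0 / 3) * (1 - x / a0) ^ (3 / 2 : ℝ))
      (√(1 - x / a0)) x := by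
    intro x _
    have h1 : HasDerivAt (fun x : ℝ => 1 - x / a0) (-(1 / a0)) x := by
      simpa using ((hasDerivAt_id x).div_const a0).const_sub 1
    have h2 := (h1.rpow_const (p := 3 / 2) (Or.inr (by norm_num))).const_mul (-(2 * a0 / 3))
    refine HasDerivAt.congr_deriv h2 ?_
    rw [Real.sqrt_eq_rpow, show (3 / 2 : ℝ) - 1 = 1 / 2 by norm_num]
    field_simp
  rw [intervalIntegral.integral_eq_sub_of_hasDerivAt hd
    (Continuous.intervalIntegrable (by fun_prop) _ _)]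
  rw [div_self h0.ne', sub_self, Real.zero_rpow (by norm_num), zero_div, sub_zero, Real.one_rpow]
  ring

lemma int_inv_sqrt (l x0 x1 : ℝ) (hl : 0 < l) (h01 : x0 ≤ x1) (h1 : l * x1 < 1) :
    ∫ x in x0..x1, 1 / √(1 - l * x) = 2 / l * (√(1 - l * x0) - √(1 - l * x1)) := by
  have hpos : ∀ x ∈ uIcc x0 x1, 0 < 1 - l * x := by
    intro x hx
    rw [uIcc_of_le h01] at hx
    nlinarith [hx.2]
  have hd : ∀ x ∈ uIcc x0 x1, HasDerivAt (fun x : ℝ => -(2 / l) * √(1 - l * x))
      (1 / √(1 - l * x)) x := by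
    intro x hx
    have h2 : HasDerivAt (fun x : ℝ => 1 - l * x) (-l) x := by
      simpa using ((hasDerivAt_id x).const_mul l).const_sub 1
    have h3 := (h2.sqrt (hpos x hx).ne').const_mul (-(2 / l))
    refine HasDerivAt.congr_deriv h3 ?_
    have := Real.sqrt_pos.2 (hpos x hx)
    field_simp
  have hc : ContinuousOn (fun x : ℝ => 1 / √(1 - l * x)) (uIcc x0 x1) := by
    refine ContinuousOn.div continuousOn_const (by fun_prop) fun x hx => ?_
    exact (Real.sqrt_pos.2 (hpos x hx)).ne'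
  rw [intervalIntegral.integral_eq_sub_of_hasDerivAt hd hc.intervalIntegrable]
  ring

lemma point_ineq (k2 e ε : ℝ) (hk0 : 0 ≤ k2) (hk1 : k2 ≤ 1) (he0 : 0 ≤ e) (he : e ≤ ε)
    (hε0 : 0 < ε) (hε1 : ε < 1) :
    √(1 - k2) + k2 * e * (1 - ε / 2) / √(1 - (1 - ε) ^ 2 * k2) ≤ √(1 - (1 - e) ^ 2 * k2) := by
  set A := √(1 - (1 - e) ^ 2 * k2) with hA
  set B := √(1 - k2) with hB
  set D := √(1 - (1 - ε) ^ 2 * k2) with hD
  have q1 : (1 - ε) ^ 2 ≤ (1 - e) ^ 2 := by nlinarith
  have q2 : (1 - e) ^ 2 ≤ 1 := by nlinarith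
  have q3 : (1 - ε) ^ 2 < 1 := by nlinarith
  have hDp : 0 < 1 - (1 - ε) ^ 2 * k2 := by nlinarith [sq_nonneg (1 - ε)]
  have hD0 : 0 < D := Real.sqrt_pos.2 hDp
  have hAnn : 0 ≤ 1 - (1 - e) ^ 2 * k2 := by nlinarith [sq_nonneg (1 - e)]
  have hBnn : 0 ≤ 1 - k2 := by linarith
  have hA2 : A ^ 2 = 1 - (1 - e) ^ 2 * k2 := Real.sq_sqrt hAnn
  have hB2 : B ^ 2 = 1 - k2 := Real.sq_sqrt hBnn
  have hBA : B ≤ A := Real.sqrt_le_sqrt (by nlinarith)
  have hAD : A ≤ D := Real.sqrt_le_sqrt (by nlinarith)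
  have hdiff : (A - B) * (A + B) = k2 * (2 * e - e ^ 2) := by nlinarith
  have h1 : k2 * e * (2 - ε) ≤ (A - B) * (2 * D) := by
    have h2 : (A - B) * (A + B) ≤ (A - B) * (2 * D) :=
      mul_le_mul_of_nonneg_left (by linarith) (by linarith)
    have h3 : k2 * e * (2 - ε) ≤ k2 * (2 * e - e ^ 2) := by
      have : 0 ≤ k2 * e := mul_nonneg hk0 he0
      nlinarith
    linarith
  have h4 : k2 * e * (1 - ε / 2) / D ≤ A - B := by
    rw [div_le_iff₀ hD0]; linarith
  linarith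

/-- the lower bound of the distribution function, before the limit -/
lemma dist_eps (a q : ℝ → ℝ) (P V R t ε : ℝ) (hR : 0 < R)
    (h : Prof a q P V (Real.pi / 4 * R ^ 2) 0) (hV : V = Real.pi / 6 * R ^ 3)
    (hP : P ≤ Real.pi / 2 * R ^ 2)
    (hq : ∀ᵐ s ∂(volume.restrict (Ioo (0 : ℝ) 1)), √(Real.pi * a s) ≤ q s)
    (ht0 : 0 < t) (hε0 : 0 < ε) (hε1 : ε < 1) (ht1 : t + ε < Real.pi / 4 * R ^ 2) :
    R / (2 * (Real.pi / 4 * R ^ 2)) * (1 - ε / 2) *
      (2 / ((1 - ε) ^ 2 / (Real.pi / 4 * R ^ 2)) *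
        (√(1 - ((1 - ε) ^ 2 / (Real.pi / 4 * R ^ 2)) * (t + ε)) -
          √(1 - ((1 - ε) ^ 2 / (Real.pi / 4 * R ^ 2)) * (Real.pi / 4 * R ^ 2)))) ≤
      (volume ({s | t < a s} ∩ Ioo (0 : ℝ) 1)).toReal := by
  have hpi := Real.pi_pos
  set a0 := Real.pi / 4 * R ^ 2 with ha0d
  have ha0 : 0 < a0 := by positivity
  set m := (volume ({s | t < a s} ∩ Ioo (0 : ℝ) 1)).toReal with hm
  set l := (1 - ε) ^ 2 / a0 with hl
  have hl0 : 0 < l := by
    have : 0 < 1 - ε := by linarith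
    positivity
  have hla : l * a0 = (1 - ε) ^ 2 := by rw [hl]; field_simp
  have hla1 : l * a0 < 1 := by rw [hla]; nlinarith
  set ζ : ℝ → ℝ := fun x => min 1 (max 0 ((x - t) / ε)) with hζ
  have hζc : Continuous ζ := by fun_prop
  have hζ0 : ∀ x, 0 ≤ ζ x := fun x => le_min zero_le_one (le_max_left _ _)
  have hζ1 : ∀ x, ζ x ≤ 1 := fun x => min_le_left _ _
  have hζt : ∀ x, x ≤ t → ζ x = 0 := by
    intro x hx
    simp only [hζ]
    rw [max_eq_left (div_nonpos_of_nonpos_of_nonneg (by linarith) hε0.le), min_eq_right zero_le_one]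
  have hζe : ∀ x, t + ε ≤ x → ζ x = 1 := by
    intro x hx
    simp only [hζ]
    have : 1 ≤ (x - t) / ε := by rw [le_div_iff₀ hε0]; linarith
    exact min_eq_left (this.trans (le_max_right _ _))
  set ξ : ℝ → ℝ := fun x => ζ x * (t / max x t) with hξ
  have hmax : ∀ x : ℝ, 0 < max x t := fun x => ht0.trans_le (le_max_right _ _)
  have hξc : Continuous ξ :=
    hζc.mul (continuous_const.div (by fun_prop) fun x => (hmax x).ne')
  have hξ0 : ∀ x, 0 ≤ ξ x := fun x => mul_nonneg (hζ0 x) (div_nonneg ht0.le (hmax x).le)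
  have hξ1 : ∀ x, ξ x ≤ 1 := fun x =>
    mul_le_one₀ (hζ1 x) (div_nonneg ht0.le (hmax x).le)
      ((div_le_one (hmax x)).2 (le_max_right _ _))
  set κs : ℝ → ℝ := fun x => √(max 0 (min (x / a0) 1)) with hκs
  have hκsc : Continuous κs := by fun_prop
  have hκs0 : ∀ x, 0 ≤ κs x := fun x => Real.sqrt_nonneg _
  have hκs1 : ∀ x, κs x ≤ 1 := fun x => by
    exact Real.sqrt_le_one.2 (max_le zero_le_one (min_le_right _ _))
  have hκsx : ∀ x ∈ Icc 0 a0, κs x = √(x / a0) := by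
    intro x hx
    simp only [hκs]
    rw [min_eq_left ((div_le_one ha0).2 hx.2), max_eq_right (div_nonneg hx.1 ha0.le)]
  set κ : ℝ → ℝ := fun x => (1 - ε * ξ x) * κs x with hκ
  have hκc : Continuous κ := by fun_prop
  have he01 : ∀ x, 0 ≤ 1 - ε * ξ x ∧ 1 - ε * ξ x ≤ 1 := fun x => by
    have h1 := hξ0 x
    have h2 := hξ1 x
    constructor <;> nlinarith
  have hκ01 : ∀ x, κ x ∈ Icc (0 : ℝ) 1 := fun x =>
    ⟨mul_nonneg (he01 x).1 (hκs0 x), mul_le_one₀ (he01 x).2 (hκs0 x) (hκs1 x)⟩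
  have hlev := h.lev κ hκc hκ01
  have hV0 : 0 < V := by rw [hV]; positivity
  have hint_a : IntervalIntegrable a volume 0 1 := by
    by_contra hcon
    have := intervalIntegral.integral_undef hcon
    rw [h.int_a] at this
    linarith
  have hint_a' : IntegrableOn a (Ioo 0 1) :=
    (intervalIntegrable_iff_integrableOn_Ioo_of_le zero_le_one).1 hint_a
  have ham : AEMeasurable a (volume.restrict (Ioo (0 : ℝ) 1)) :=
    aemeasurable_restrict_of_antitoneOn measurableSet_Ioo h.anti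
  have hNm : NullMeasurableSet {s | t < a s} (volume.restrict (Ioo (0 : ℝ) 1)) :=
    nullMeasurableSet_lt aemeasurable_const ham
  -- first integral
  have hI1 : 2 / R * (V - ε * t * m) ≤ ∫ s in (0 : ℝ)..1, κ (a s) * q s := by
    have hind : ∫ s in Ioo (0 : ℝ) 1, ({s | t < a s}.indicator (fun _ => (1 : ℝ))) s = m := by
      rw [integral_indicator₀ hNm, setIntegral_const, hm, smul_eq_mul, mul_one]
      rw [Measure.real, Measure.restrict_apply₀ hNm]
    have hindI : IntegrableOn ({s | t < a s}.indicator (fun _ => (1 : ℝ))) (Ioo 0 1) := by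
      refine (integrable_const (1 : ℝ)).indicator₀ hNm
    have e1 : 2 / R * (V - ε * t * m) = ∫ s in Ioo (0 : ℝ) 1,
        2 / R * (a s - ε * t * ({s | t < a s}.indicator (fun _ => (1 : ℝ))) s) := by
      rw [integral_const_mul, integral_sub hint_a' (hindI.const_mul _), integral_const_mul, hind,
        ← integral_Ioc_eq_integral_Ioo, ← intervalIntegral.integral_of_le zero_le_one, h.int_a]
    rw [e1, intervalIntegral.integral_of_le zero_le_one, integral_Ioc_eq_integral_Ioo]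
    have hint2 : IntegrableOn (fun s => κ (a s) * q s) (Ioo 0 1) := by
      have hm2 : AEStronglyMeasurable (fun s => κ (a s)) (volume.restrict (Ioo (0 : ℝ) 1)) :=
        (hκc.measurable.comp_aemeasurable ham).aestronglyMeasurable
      exact Integrable.bdd_mul (c := 1) h.q_int hm2 (Eventually.of_forall fun s => by
        rw [Real.norm_eq_abs, abs_of_nonneg (hκ01 _).1]; exact (hκ01 _).2)
    refine integral_mono_ae ((hint_a'.sub (hindI.const_mul _)).const_mul _) hint2 ?_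
    filter_upwards [hq, ae_restrict_mem measurableSet_Ioo] with s hs1 hs2
    have hmem := h.mem s hs2
    have h5 : κ (a s) * √(Real.pi * a s) ≤ κ (a s) * q s :=
      mul_le_mul_of_nonneg_left hs1 (hκ01 _).1
    refine le_trans ?_ h5
    have h6 : κs (a s) * √(Real.pi * a s) = 2 / R * a s := by
      rw [hκsx _ hmem, ← Real.sqrt_mul (div_nonneg hmem.1 ha0.le)]
      have : a s / a0 * (Real.pi * a s) = (2 / R * a s) ^ 2 := by
        rw [ha0d]; field_simp; norm_num
      rw [this, Real.sqrt_sq (mul_nonneg (by positivity) hmem.1)]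
    have h7 : ξ (a s) * a s ≤ t * ({s | t < a s}.indicator (fun _ => (1 : ℝ))) s := by
      by_cases hts : t < a s
      · rw [indicator_of_mem (by exact hts), mul_one]
        simp only [hξ]
        rw [max_eq_left hts.le]
        have h8 : a s ≠ 0 := (ht0.trans hts).ne'
        have h9 : ζ (a s) * (t / a s) * a s = ζ (a s) * t := by field_simp
        rw [h9]
        have := hζ1 (a s)
        nlinarith
      · rw [indicator_of_notMem (by exact hts), mul_zero]
        simp only [hξ]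
        rw [hζt _ (not_lt.1 hts), zero_mul, zero_mul]
    have h10 : κ (a s) * √(Real.pi * a s) = 2 / R * (a s - ε * (ξ (a s) * a s)) := by
      simp only [hκ]
      rw [mul_assoc, h6]; ring
    rw [h10]
    refine mul_le_mul_of_nonneg_left ?_ (by positivity)
    nlinarith
  -- second integral
  have hI2 : 2 / 3 * a0 + ε * (1 - ε / 2) * (t / a0) *
      (2 / l * (√(1 - l * (t + ε)) - √(1 - l * a0))) ≤ ∫ x in (0 : ℝ)..a0, √(1 - κ x ^ 2) := by
    have hte : t + ε ≤ a0 := ht1.le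
    have hte0 : 0 ≤ t + ε := by linarith
    have hcK : Continuous (fun x => √(1 - κ x ^ 2)) := by fun_prop
    have hcS : Continuous (fun x : ℝ => √(1 - x / a0)) := by fun_prop
    rw [← intervalIntegral.integral_add_adjacent_intervals (b := t + ε)
      (hcK.intervalIntegrable _ _) (hcK.intervalIntegrable _ _),
      ← int_sqrt_lin a0 ha0, ← intervalIntegral.integral_add_adjacent_intervals (b := t + ε)
      (hcS.intervalIntegrable _ _) (hcS.intervalIntegrable _ _), add_assoc,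
      ← int_inv_sqrt l (t + ε) a0 hl0 hte hla1]
    have hpos : ∀ x ∈ uIcc (t + ε) a0, 0 < 1 - l * x := by
      intro x hx
      rw [uIcc_of_le hte] at hx
      nlinarith [hx.2]
    have hcD : ContinuousOn (fun x : ℝ => 1 / √(1 - l * x)) (uIcc (t + ε) a0) := by
      refine ContinuousOn.div continuousOn_const (by fun_prop) fun x hx => ?_
      exact (Real.sqrt_pos.2 (hpos x hx)).ne'
    refine add_le_add ?_ ?_
    · refine intervalIntegral.integral_mono_on hte0 (hcS.intervalIntegrable _ _)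
        (hcK.intervalIntegrable _ _) fun x hx => ?_
      refine Real.sqrt_le_sqrt ?_
      have hx' : x ∈ Icc 0 a0 := ⟨hx.1, hx.2.trans hte⟩
      have h1 : κ x ≤ κs x := by
        simp only [hκ]
        exact mul_le_of_le_one_left (hκs0 x) (he01 x).2
      have h2 : κ x ^ 2 ≤ κs x ^ 2 := pow_le_pow_left₀ (hκ01 x).1 h1 2
      rw [hκsx x hx', Real.sq_sqrt (div_nonneg hx'.1 ha0.le)] at h2
      linarith
    · rw [← intervalIntegral.integral_const_mul, ← intervalIntegral.integral_add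
        (hcS.intervalIntegrable _ _) ((hcD.intervalIntegrable).const_mul _)]
      refine intervalIntegral.integral_mono_on hte
        ((hcS.intervalIntegrable _ _).add ((hcD.intervalIntegrable).const_mul _))
        (hcK.intervalIntegrable _ _) fun x hx => ?_
      have hx0 : 0 < x := by linarith [hx.1]
      have hx' : x ∈ Icc 0 a0 := ⟨hx0.le, hx.2⟩
      have hξx : ξ x = t / x := by
        simp only [hξ]
        rw [hζe x hx.1, one_mul, max_eq_left (by linarith [hx.1])]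
      have htx : t / x ≤ 1 := by rw [div_le_one hx0]; linarith [hx.1]
      have hpt := point_ineq (x / a0) (ε * (t / x)) ε (div_nonneg hx0.le ha0.le)
        ((div_le_one ha0).2 hx.2) (by positivity) (by nlinarith) hε0 hε1
      have e1 : κ x ^ 2 = (1 - ε * (t / x)) ^ 2 * (x / a0) := by
        simp only [hκ]
        rw [mul_pow, hκsx x hx', Real.sq_sqrt (div_nonneg hx0.le ha0.le), hξx]
      have e2 : (1 - ε) ^ 2 * (x / a0) = l * x := by rw [hl]; ring
      have e3 : x / a0 * (ε * (t / x)) * (1 - ε / 2) / √(1 - l * x) =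
          ε * (1 - ε / 2) * (t / a0) * (1 / √(1 - l * x)) := by
        field_simp
      rw [e2, e3] at hpt
      rw [e1]
      exact hpt
  -- combine
  set I := 2 / l * (√(1 - l * (t + ε)) - √(1 - l * a0)) with hI
  have e4 : 2 / R * V + 2 / 3 * a0 = Real.pi / 2 * R ^ 2 := by
    rw [hV, ha0d]; field_simp; ring
  have h11 : ε * ((1 - ε / 2) * (t / a0) * I) ≤ ε * (2 / R * (t * m)) := by
    have : 2 / R * (V - ε * t * m) = 2 / R * V - ε * (2 / R * (t * m)) := by ring
    nlinarith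
  have h12 := le_of_mul_le_mul_left h11 hε0
  have h13 : t * ((1 - ε / 2) * (1 / a0) * I) ≤ t * (2 / R * m) := by
    calc t * ((1 - ε / 2) * (1 / a0) * I) = (1 - ε / 2) * (t / a0) * I := by ring
      _ ≤ 2 / R * (t * m) := h12
      _ = t * (2 / R * m) := by ring
  have h14 := le_of_mul_le_mul_left h13 ht0
  calc R / (2 * a0) * (1 - ε / 2) * I = R / 2 * ((1 - ε / 2) * (1 / a0) * I) := by
        field_simp
    _ ≤ R / 2 * (2 / R * m) := mul_le_mul_of_nonneg_left h14 (by positivity)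
    _ = m := by field_simp

lemma dist_lower (a q : ℝ → ℝ) (P V R t : ℝ) (hR : 0 < R)
    (h : Prof a q P V (Real.pi / 4 * R ^ 2) 0) (hV : V = Real.pi / 6 * R ^ 3)
    (hP : P ≤ Real.pi / 2 * R ^ 2)
    (hq : ∀ᵐ s ∂(volume.restrict (Ioo (0 : ℝ) 1)), √(Real.pi * a s) ≤ q s)
    (ht0 : 0 < t) (ht1 : t < Real.pi / 4 * R ^ 2) :
    R * √(1 - t / (Real.pi / 4 * R ^ 2)) ≤ (volume ({s | t < a s} ∩ Ioo (0 : ℝ) 1)).toReal := by
  have hpi := Real.pi_pos
  set a0 := Real.pi / 4 * R ^ 2 with ha0d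
  have ha0 : 0 < a0 := by positivity
  set f : ℝ → ℝ := fun ε => R / (2 * a0) * (1 - ε / 2) *
      (2 / ((1 - ε) ^ 2 / a0) * (√(1 - ((1 - ε) ^ 2 / a0) * (t + ε)) -
          √(1 - ((1 - ε) ^ 2 / a0) * a0))) with hf
  have hc : ContinuousAt f 0 := by
    simp only [hf]
    have h1 : ContinuousAt (fun ε : ℝ => 2 / ((1 - ε) ^ 2 / a0)) 0 := by
      refine ContinuousAt.div continuousAt_const (by fun_prop) ?_
      have : (0 : ℝ) < (1 - 0) ^ 2 / a0 := by positivity
      exact this.ne'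
    have h2 : ContinuousAt (fun ε : ℝ => R / (2 * a0) * (1 - ε / 2)) 0 := by fun_prop
    have h3 : ContinuousAt (fun ε : ℝ => √(1 - ((1 - ε) ^ 2 / a0) * (t + ε)) -
          √(1 - ((1 - ε) ^ 2 / a0) * a0)) 0 := by fun_prop
    exact h2.mul (h1.mul h3)
  have hf0 : f 0 = R * √(1 - t / a0) := by
    simp only [hf]
    have e1 : (1 - ((1 - 0) ^ 2 / a0) * (t + 0) : ℝ) = 1 - t / a0 := by ring
    have e2 : (1 - ((1 - 0) ^ 2 / a0) * a0 : ℝ) = 0 := by field_simp; ring
    rw [e1, e2, Real.sqrt_zero]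
    field_simp
    ring
  rw [← hf0]
  have hlim : Tendsto f (𝓝[>] 0) (𝓝 (f 0)) := hc.tendsto.mono_left nhdsWithin_le_nhds
  refine le_of_tendsto hlim ?_
  have hev : Ioo (0 : ℝ) (min 1 (a0 - t)) ∈ 𝓝[>] (0 : ℝ) :=
    Ioo_mem_nhdsGT (lt_min one_pos (by linarith))
  filter_upwards [hev] with ε hε
  exact dist_eps a q P V R t ε hR h hV hP hq ht0 hε.1 (hε.2.trans_le (min_le_left _ _))
    (by linarith [hε.2.trans_le (min_le_right 1 (a0 - t))])

lemma a_lower (a q : ℝ → ℝ) (P V R : ℝ) (hR : 0 < R)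
    (h : Prof a q P V (Real.pi / 4 * R ^ 2) 0) (hV : V = Real.pi / 6 * R ^ 3)
    (hP : P ≤ Real.pi / 2 * R ^ 2)
    (hq : ∀ᵐ s ∂(volume.restrict (Ioo (0 : ℝ) 1)), √(Real.pi * a s) ≤ q s)
    (s : ℝ) (hs : s ∈ Ioo (0 : ℝ) 1) : Real.pi / 4 * max 0 (R ^ 2 - s ^ 2) ≤ a s := by
  have hpi := Real.pi_pos
  have hmem := h.mem s hs
  by_contra hcon
  push Not at hcon
  have hpos : 0 < R ^ 2 - s ^ 2 := by
    by_contra hc
    push Not at hc
    rw [max_eq_left hc, mul_zero] at hcon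
    linarith [hmem.1]
  rw [max_eq_right hpos.le] at hcon
  obtain ⟨t, ht1, ht2⟩ := exists_between hcon
  have ht0 : 0 < t := hmem.1.trans_lt ht1
  have hta : t < Real.pi / 4 * R ^ 2 := by
    have : 0 < Real.pi / 4 * s ^ 2 := by have := hs.1; positivity
    nlinarith
  have hd := dist_lower a q P V R t hR h hV hP hq ht0 hta
  have hsub : {s | t < a s} ∩ Ioo (0 : ℝ) 1 ⊆ Ioo 0 s := by
    rintro x ⟨hx1, hx2⟩
    refine ⟨hx2.1, ?_⟩
    by_contra hxs
    push Not at hxs
    have h1 := h.anti hs hx2 hxs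
    have h2 : t < a x := hx1
    linarith
  have hm : (volume ({s | t < a s} ∩ Ioo (0 : ℝ) 1)).toReal ≤ s := by
    have h1 := measure_mono (μ := volume) hsub
    have h2 := ENNReal.toReal_mono (by rw [Real.volume_Ioo]; exact ENNReal.ofReal_ne_top) h1
    rw [Real.volume_Ioo, sub_zero, ENNReal.toReal_ofReal hs.1.le] at h2
    exact h2
  have h3 : s / R < √(1 - t / (Real.pi / 4 * R ^ 2)) := by
    apply Real.lt_sqrt_of_sq_lt
    rw [div_pow, lt_sub_iff_add_lt, ← lt_sub_iff_add_lt', div_lt_iff₀ (by positivity)]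
    calc t < Real.pi / 4 * (R ^ 2 - s ^ 2) := ht2
      _ = (1 - s ^ 2 / R ^ 2) * (Real.pi / 4 * R ^ 2) := by field_simp
  rw [div_lt_iff₀ hR] at h3
  linarith

lemma int_b (R : ℝ) (hR : 0 < R) (hR1 : R < 1) :
    ∫ s in (0 : ℝ)..1, Real.pi / 4 * max 0 (R ^ 2 - s ^ 2) = Real.pi / 6 * R ^ 3 := by
  have hc : Continuous fun s : ℝ => Real.pi / 4 * max 0 (R ^ 2 - s ^ 2) := by fun_prop
  rw [← intervalIntegral.integral_add_adjacent_intervals (b := R)
    (hc.intervalIntegrable _ _) (hc.intervalIntegrable _ _)]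
  have e1 : ∫ s in (0 : ℝ)..R, Real.pi / 4 * max 0 (R ^ 2 - s ^ 2) =
      ∫ s in (0 : ℝ)..R, Real.pi / 4 * (R ^ 2 - s ^ 2) := by
    refine intervalIntegral.integral_congr fun s hs => ?_
    rw [uIcc_of_le hR.le] at hs
    have : 0 ≤ R ^ 2 - s ^ 2 := by nlinarith [hs.1, hs.2]
    change Real.pi / 4 * max 0 (R ^ 2 - s ^ 2) = Real.pi / 4 * (R ^ 2 - s ^ 2)
    rw [max_eq_right this]
  have e2 : ∫ s in R..1, Real.pi / 4 * max 0 (R ^ 2 - s ^ 2) = 0 := by
    have e3 : ∫ s in R..1, Real.pi / 4 * max 0 (R ^ 2 - s ^ 2) = ∫ _s in R..1, (0 : ℝ) := by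
      refine intervalIntegral.integral_congr fun s hs => ?_
      rw [uIcc_of_le hR1.le] at hs
      have : R ^ 2 - s ^ 2 ≤ 0 := by nlinarith [hs.1, hs.2]
      change Real.pi / 4 * max 0 (R ^ 2 - s ^ 2) = 0
      rw [max_eq_left this, mul_zero]
    rw [e3, intervalIntegral.integral_zero]
  rw [e1, e2, intervalIntegral.integral_const_mul, intervalIntegral.integral_sub
    (by simp) (Continuous.intervalIntegrable (by fun_prop) _ _),
    intervalIntegral.integral_const, integral_pow]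
  simp only [sub_zero, smul_eq_mul]
  norm_num
  ring

/-- a.e. equality from equality of the integrals -/
lemma ae_eq_of_int (f g : ℝ → ℝ) (hf : IntegrableOn f (Ioo 0 1)) (hg : IntegrableOn g (Ioo 0 1))
    (hfg : ∀ᵐ s ∂(volume.restrict (Ioo (0 : ℝ) 1)), f s ≤ g s)
    (hi : ∫ s in Ioo (0 : ℝ) 1, g s ≤ ∫ s in Ioo (0 : ℝ) 1, f s) :
    ∀ᵐ s ∂(volume.restrict (Ioo (0 : ℝ) 1)), g s = f s := by
  have h0 : 0 ≤ᵐ[volume.restrict (Ioo (0 : ℝ) 1)] fun s => g s - f s := by
    filter_upwards [hfg] with s hs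
    simpa using hs
  have h1 : ∫ s in Ioo (0 : ℝ) 1, (g s - f s) = 0 := by
    apply le_antisymm
    · rw [integral_sub hg hf]; linarith
    · exact integral_nonneg_of_ae h0
  have h2 := (integral_eq_zero_iff_of_nonneg_ae h0 (hg.sub hf)).1 h1
  filter_upwards [h2] with s hs
  have : g s - f s = 0 := hs
  linarith

lemma q_eq (a q : ℝ → ℝ) (P V R : ℝ) (hR : 0 < R)
    (h : Prof a q P V (Real.pi / 4 * R ^ 2) 0) (hV : V = Real.pi / 6 * R ^ 3)
    (hP : P ≤ Real.pi / 2 * R ^ 2)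
    (hq : ∀ᵐ s ∂(volume.restrict (Ioo (0 : ℝ) 1)), √(Real.pi * a s) ≤ q s) :
    ∀ᵐ s ∂(volume.restrict (Ioo (0 : ℝ) 1)), 0 < a s → q s = √(Real.pi * a s) := by
  have hpi := Real.pi_pos
  set a0 := Real.pi / 4 * R ^ 2 with ha0d
  have ha0 : 0 < a0 := by positivity
  set κs : ℝ → ℝ := fun x => √(max 0 (min (x / a0) 1)) with hκs
  have hκsc : Continuous κs := by fun_prop
  have hκs0 : ∀ x, 0 ≤ κs x := fun x => Real.sqrt_nonneg _
  have hκs1 : ∀ x, κs x ≤ 1 := fun x => by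
    exact Real.sqrt_le_one.2 (max_le zero_le_one (min_le_right _ _))
  have hκsx : ∀ x ∈ Icc 0 a0, κs x = √(x / a0) := by
    intro x hx
    simp only [hκs]
    rw [min_eq_left ((div_le_one ha0).2 hx.2), max_eq_right (div_nonneg hx.1 ha0.le)]
  have hlev := h.lev κs hκsc fun x => ⟨hκs0 x, hκs1 x⟩
  have hV0 : 0 < V := by rw [hV]; positivity
  have hint_a : IntervalIntegrable a volume 0 1 := by
    by_contra hcon
    have := intervalIntegral.integral_undef hcon
    rw [h.int_a] at this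
    linarith
  have hint_a' : IntegrableOn a (Ioo 0 1) :=
    (intervalIntegrable_iff_integrableOn_Ioo_of_le zero_le_one).1 hint_a
  have ham : AEMeasurable a (volume.restrict (Ioo (0 : ℝ) 1)) :=
    aemeasurable_restrict_of_antitoneOn measurableSet_Ioo h.anti
  have hint2 : IntegrableOn (fun s => κs (a s) * q s) (Ioo 0 1) := by
    have hm2 : AEStronglyMeasurable (fun s => κs (a s)) (volume.restrict (Ioo (0 : ℝ) 1)) :=
      (hκsc.measurable.comp_aemeasurable ham).aestronglyMeasurable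
    exact Integrable.bdd_mul (c := 1) h.q_int hm2 (Eventually.of_forall fun s => by
      rw [Real.norm_eq_abs, abs_of_nonneg (hκs0 _)]; exact hκs1 _)
  have e1 : ∫ x in (0 : ℝ)..a0, √(1 - κs x ^ 2) = 2 / 3 * a0 := by
    rw [← int_sqrt_lin a0 ha0]
    refine intervalIntegral.integral_congr fun x hx => ?_
    rw [uIcc_of_le ha0.le] at hx
    rw [hκsx x hx, Real.sq_sqrt (div_nonneg hx.1 ha0.le)]
  rw [e1, intervalIntegral.integral_of_le zero_le_one, integral_Ioc_eq_integral_Ioo] at hlev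
  have h6 : ∀ s ∈ Ioo (0 : ℝ) 1, κs (a s) * √(Real.pi * a s) = 2 / R * a s := by
    intro s hs
    have hmem := h.mem s hs
    rw [hκsx _ hmem, ← Real.sqrt_mul (div_nonneg hmem.1 ha0.le)]
    have : a s / a0 * (Real.pi * a s) = (2 / R * a s) ^ 2 := by
      rw [ha0d]; field_simp; norm_num
    rw [this, Real.sqrt_sq (mul_nonneg (by positivity) hmem.1)]
  have hae := ae_eq_of_int (fun s => 2 / R * a s) (fun s => κs (a s) * q s)
    (hint_a'.const_mul _) hint2 (by
      filter_upwards [hq, ae_restrict_mem measurableSet_Ioo] with s hs1 hs2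
      rw [← h6 s hs2]
      exact mul_le_mul_of_nonneg_left hs1 (hκs0 _)) (by
      rw [integral_const_mul, ← integral_Ioc_eq_integral_Ioo (f := a),
        ← intervalIntegral.integral_of_le zero_le_one, h.int_a]
      have e4 : 2 / R * V + 2 / 3 * a0 = Real.pi / 2 * R ^ 2 := by
        rw [hV, ha0d]; field_simp; ring
      linarith)
  filter_upwards [hae, ae_restrict_mem measurableSet_Ioo] with s hs1 hs2 hpos
  rw [← h6 s hs2] at hs1
  have hmem := h.mem s hs2
  have hk : κs (a s) ≠ 0 := by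
    rw [hκsx _ hmem]
    exact (Real.sqrt_pos.2 (div_pos hpos ha0)).ne'
  exact mul_left_cancel₀ hk hs1

lemma ball_case (a q : ℝ → ℝ) (P V R : ℝ) (hR : 0 < R) (hR1 : R < 1)
    (h : Prof a q P V (Real.pi / 4 * R ^ 2) 0) (hV : V = Real.pi / 6 * R ^ 3)
    (hP : P ≤ Real.pi / 2 * R ^ 2)
    (hq : ∀ᵐ s ∂(volume.restrict (Ioo (0 : ℝ) 1)), √(Real.pi * a s) ≤ q s) :
    (∀ᵐ s ∂(volume.restrict (Ioo (0 : ℝ) 1)), 0 < a s → q s = √(Real.pi * a s)) ∧
    ∀ᵐ s ∂(volume.restrict (Ioo (0 : ℝ) 1)),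
        a s = Real.pi / 4 * max 0 (R ^ 2 - s ^ 2) := by
  refine ⟨q_eq a q P V R hR h hV hP hq, ?_⟩
  have hpi := Real.pi_pos
  have hV0 : 0 < V := by rw [hV]; positivity
  have hint_a : IntervalIntegrable a volume 0 1 := by
    by_contra hcon
    have := intervalIntegral.integral_undef hcon
    rw [h.int_a] at this
    linarith
  have hint_a' : IntegrableOn a (Ioo 0 1) :=
    (intervalIntegrable_iff_integrableOn_Ioo_of_le zero_le_one).1 hint_a
  have hc : Continuous fun s : ℝ => Real.pi / 4 * max 0 (R ^ 2 - s ^ 2) := by fun_prop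
  have hint_b : IntegrableOn (fun s : ℝ => Real.pi / 4 * max 0 (R ^ 2 - s ^ 2)) (Ioo 0 1) :=
    (intervalIntegrable_iff_integrableOn_Ioo_of_le zero_le_one).1 (hc.intervalIntegrable _ _)
  refine ae_eq_of_int _ a hint_b hint_a' ?_ ?_
  · filter_upwards [ae_restrict_mem measurableSet_Ioo] with s hs
    exact a_lower a q P V R hR h hV hP hq s hs
  · rw [← integral_Ioc_eq_integral_Ioo, ← integral_Ioc_eq_integral_Ioo,
      ← intervalIntegral.integral_of_le zero_le_one, ← intervalIntegral.integral_of_le zero_le_one,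
      h.int_a, int_b R hR hR1, hV]

lemma const_case (a q : ℝ → ℝ) (P V a0 a1 : ℝ) (h : Prof a q P V a0 a1) (h01 : a0 = a1)
    (hP : P ≤ √(Real.pi * V))
    (hq : ∀ᵐ s ∂(volume.restrict (Ioo (0 : ℝ) 1)), √(Real.pi * a s) ≤ q s) :
    (∀ᵐ s ∂(volume.restrict (Ioo (0 : ℝ) 1)), 0 < a s → q s = √(Real.pi * a s)) ∧
    ∀ᵐ s ∂(volume.restrict (Ioo (0 : ℝ) 1)), a s = V := by
  have e1 : a1 = V := le_antisymm h.a1_le (h01 ▸ h.le_a0)
  have ha : ∀ s ∈ Ioo (0 : ℝ) 1, a s = V := by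
    intro s hs
    have := h.mem s hs
    rw [h01, e1] at this
    exact le_antisymm this.2 this.1
  refine ⟨?_, ?_⟩
  · have hlev := h.lev (fun _ => 1) continuous_const fun x => ⟨zero_le_one, le_rfl⟩
    rw [h01, intervalIntegral.integral_same, add_zero,
      intervalIntegral.integral_of_le zero_le_one, integral_Ioc_eq_integral_Ioo] at hlev
    simp only [one_mul] at hlev
    have hc : IntegrableOn (fun _ : ℝ => √(Real.pi * V)) (Ioo 0 1) := integrable_const _
    have hae := ae_eq_of_int (fun _ => √(Real.pi * V)) q hc h.q_int (by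
      filter_upwards [hq, ae_restrict_mem measurableSet_Ioo] with s hs1 hs2
      rw [ha s hs2] at hs1
      exact hs1) (by
      have : ∫ _s in Ioo (0 : ℝ) 1, √(Real.pi * V) = √(Real.pi * V) := by
        rw [setIntegral_const]; simp
      rw [this]
      exact hlev.trans hP)
    filter_upwards [hae, ae_restrict_mem measurableSet_Ioo] with s hs1 hs2 _
    rw [hs1, ha s hs2]
  · filter_upwards [ae_restrict_mem measurableSet_Ioo] with s hs
    exact ha s hs

/-- the equality cases, in terms of the scaled radii -/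
lemma dich (r0 r1 c : ℝ) (hc : 0 < c) (h1 : 0 ≤ r1) (h2 : r1 ≤ c) (h3 : c ≤ r0)
    (h : II r0 r1 ≤ 9 / 4 * c * ((r0 - c) * (c - r1))) :
    (r1 = 0 ∧ r0 = 3 / 2 * c) ∨ (r1 = c ∧ r0 = c) := by
  by_contra hcon
  push Not at hcon
  have hs := slab_ineq_strict (r0 / c) (r1 / c) (by positivity) ((div_le_one hc).2 h2)
    ((one_le_div hc).2 h3) (by
      rintro ⟨e1, e2⟩
      rw [div_eq_iff hc.ne'] at e1 e2
      exact hcon.1 (by simpa using e1) e2) (by
      rintro ⟨e1, e2⟩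
      rw [div_eq_iff hc.ne', one_mul] at e1 e2
      exact hcon.2 e1 e2)
  rw [II_scale r0 r1 c hc] at h
  change _ < 4 / 9 * II (r0 / c) (r1 / c) at hs
  have h5 : (r0 - c) * (c - r1) = c ^ 2 * ((r0 / c - 1) * (1 - r1 / c)) := by
    field_simp
  rw [h5] at h
  have h6 := mul_lt_mul_of_pos_left hs (by positivity : (0 : ℝ) < 9 / 4 * c ^ 3)
  nlinarith

lemma cst (V c : ℝ) (hc0 : 0 < c) (hV : V = Real.pi * 9 / 16 * c ^ 3) :
    (9 * Real.pi / 2) ^ (1 / 3 : ℝ) * V ^ (2 / 3 : ℝ) = 9 * Real.pi / 8 * c ^ 2 := by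
  have hpi := Real.pi_pos
  have e1 : V ^ (2 / 3 : ℝ) = (Real.pi * 9 / 16) ^ (2 / 3 : ℝ) * c ^ 2 := by
    rw [hV, Real.mul_rpow (by positivity) (by positivity), ← Real.rpow_natCast c 3,
      ← Real.rpow_mul hc0.le, ← Real.rpow_natCast c 2]
    norm_num
  rw [e1, ← mul_assoc]
  have e2 : (9 * Real.pi / 2) ^ (1 / 3 : ℝ) * (Real.pi * 9 / 16) ^ (2 / 3 : ℝ) =
      9 * Real.pi / 8 := by
    have e3 : (Real.pi * 9 / 16) ^ (2 / 3 : ℝ) = ((Real.pi * 9 / 16) ^ 2) ^ (1 / 3 : ℝ) := by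
      rw [← Real.rpow_natCast _ 2, ← Real.rpow_mul (by positivity)]
      norm_num
    rw [e3, ← Real.mul_rpow (by positivity) (by positivity)]
    have e4 : 9 * Real.pi / 2 * (Real.pi * 9 / 16) ^ 2 = (9 * Real.pi / 8) ^ 3 := by ring
    rw [e4, ← Real.rpow_natCast _ 3, ← Real.rpow_mul (by positivity)]
    norm_num
  rw [e2]

/-- algebra of the second case -/
lemma alg (P c m r0 r1 I : ℝ) (hs : 0 < r0 + r1) (hr0 : 0 < r0) (hr1 : 0 ≤ r1) (hIn : 0 ≤ I)
    (hr01 : r1 ≤ r0) (hc0 : 0 < c) (hc49 : c ≤ 4 / 9) (h6 : m = 9 / 4 * c ^ 3)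
    (hc : Real.pi / 2 * (m + r0 * r1 + I) ≤ P * (r0 + r1))
    (hP1 : P ≤ 9 * Real.pi / 8 * c ^ 2) :
    r1 ≤ c ∧ c ≤ r0 ∧ I ≤ 9 / 4 * c * ((r0 - c) * (c - r1)) := by
  have hpi := Real.pi_pos
  have h3 := hc.trans (mul_le_mul_of_nonneg_right hP1 hs.le)
  have h4 : Real.pi / 2 * (m + r0 * r1 + I) ≤
      Real.pi / 2 * (9 / 4 * c ^ 2 * (r0 + r1)) := by linarith
  have h5 := le_of_mul_le_mul_left h4 (by positivity)
  rw [h6] at h5
  have hII : I + (1 - 9 / 4 * c) * (r0 * r1) ≤ 9 / 4 * c * ((r0 - c) * (c - r1)) := by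
    nlinarith
  have hnn : 0 ≤ (1 - 9 / 4 * c) * (r0 * r1) :=
    mul_nonneg (by linarith) (mul_nonneg hr0.le hr1)
  have hge : 0 ≤ (r0 - c) * (c - r1) := by
    by_contra hcon
    push Not at hcon
    have : 9 / 4 * c * ((r0 - c) * (c - r1)) < 0 := mul_neg_of_pos_of_neg (by positivity) hcon
    linarith
  have hrc : r1 ≤ c ∧ c ≤ r0 := by
    by_contra hcon
    rcases le_or_gt r1 c with h7 | h7
    · have h8 : r0 < c := by
        by_contra hcon2
        exact hcon ⟨h7, not_lt.1 hcon2⟩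
      have : (r0 - c) * (c - r1) < 0 :=
        mul_neg_of_neg_of_pos (by linarith) (by linarith)
      linarith
    · have : (r0 - c) * (c - r1) < 0 :=
        mul_neg_of_pos_of_neg (by linarith) (by linarith)
      linarith
  exact ⟨hrc.1, hrc.2, by linarith⟩

end SlabEqAux

open SlabAux SlabEqAux in
/-- [SLE] SlabEq.lean : equality case of slab_lemma -/
theorem slab_eq (a q : ℝ → ℝ) (P V a0 a1 : ℝ) (h : Prof a q P V a0 a1) (hV0 : 0 < V)
    (hq : ∀ᵐ s ∂(volume.restrict (Ioo (0 : ℝ) 1)), √(Real.pi * a s) ≤ q s)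
    (hP : P ≤ min ((9 * Real.pi / 2) ^ (1 / 3 : ℝ) * V ^ (2 / 3 : ℝ)) (√(Real.pi * V))) :
    (∀ᵐ s ∂(volume.restrict (Ioo (0 : ℝ) 1)), 0 < a s → q s = √(Real.pi * a s)) ∧
    ((∀ᵐ s ∂(volume.restrict (Ioo (0 : ℝ) 1)), a s = V) ∨
      ∃ R, 0 < R ∧ R < 1 ∧ ∀ᵐ s ∂(volume.restrict (Ioo (0 : ℝ) 1)),
        a s = Real.pi / 4 * max 0 (R ^ 2 - s ^ 2)) := by
  have hpi := Real.pi_pos
  have hc := core a q P V a0 a1 h hV0 hq
  have ha0 : 0 < a0 := hV0.trans_le h.le_a0
  have hr0 : 0 < rad a0 := Real.sqrt_pos.2 (by positivity)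
  have hr1 : 0 ≤ rad a1 := rad_nonneg _
  have hr01 : rad a1 ≤ rad a0 := rad_mono (h.a1_le.trans h.le_a0)
  have hrV : 0 < rad V := Real.sqrt_pos.2 (by positivity)
  have hs : 0 < rad a0 + rad a1 := by linarith
  have hP2 : P ≤ √(Real.pi * V) := hP.trans (min_le_right _ _)
  have hP1 := hP.trans (min_le_left _ _)
  have e0 := rad_sq a0 ha0.le
  have e1 := rad_sq a1 h.a1_nonneg
  have eV := rad_sq V hV0.le
  -- conclusion in the two cases
  have fin1 : rad a1 = rad a0 → _ := fun heq =>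
    const_case a q P V a0 a1 h (by rw [← e0, ← e1, heq]) hP2 hq
  have fin2 : ∀ R : ℝ, 0 < R → R < 1 → rad a0 = R → rad a1 = 0 → V = Real.pi / 6 * R ^ 3 →
      P ≤ Real.pi / 2 * R ^ 2 →
      (∀ᵐ s ∂(volume.restrict (Ioo (0 : ℝ) 1)), 0 < a s → q s = √(Real.pi * a s)) ∧
      ∀ᵐ s ∂(volume.restrict (Ioo (0 : ℝ) 1)),
        a s = Real.pi / 4 * max 0 (R ^ 2 - s ^ 2) := by
    intro R hR0 hR1 h0 h1 h2 h3
    refine ball_case a q P V R hR0 hR1 ?_ h2 h3 hq
    have f0 : a0 = Real.pi / 4 * R ^ 2 := by rw [← e0, h0]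
    have f1 : a1 = 0 := by rw [← e1, h1]; ring
    rw [← f0, ← f1]
    exact h
  rcases le_total (4 / 9) (rad V) with h1 | h1
  · have hII : II (rad a0) (rad a1) ≤ (rad a0 - rad V) * (rad V - rad a1) := by
      rw [sqrt_pi] at hP2
      have h3 := hc.trans (mul_le_mul_of_nonneg_right hP2 hs.le)
      have h4 : Real.pi / 2 * (rad V ^ 2 + rad a0 * rad a1 + II (rad a0) (rad a1)) ≤
          Real.pi / 2 * (rad V * (rad a0 + rad a1)) := by linarith
      have h5 := le_of_mul_le_mul_left h4 (by positivity)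
      nlinarith
    have hV0' : rad V ≤ rad a0 := rad_mono h.le_a0
    have hV1' : rad a1 ≤ rad V := rad_mono h.a1_le
    have hpr : 0 ≤ (rad a0 - rad V) * (rad V - rad a1) :=
      mul_nonneg (by linarith) (by linarith)
    rcases dich (rad a0) (rad a1) (rad V) hrV hr1 hV1' hV0' (by nlinarith) with ⟨g1, g2⟩ | ⟨g1, g2⟩
    · -- the ball of radius 2/3
      have h6 := scaled (rad a0) (rad a1) (rad V) hr1 hrV hV1' hV0'
      have h7 : 9 / 4 * rad V ≤ 1 := by
        by_contra hcon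
        push Not at hcon
        have hpos : 0 < (rad a0 - rad V) * (rad V - rad a1) := by
          rw [g1, g2]
          have : (3 / 2 * rad V - rad V) * (rad V - 0) = rad V ^ 2 / 2 := by ring
          rw [this]; positivity
        nlinarith
      have h8 : rad V = 4 / 9 := le_antisymm (by linarith) h1
      have h9 := fin2 (2 / 3) (by norm_num) (by norm_num) (by rw [g2, h8]; norm_num) g1
        (by rw [← eV, h8]; ring) (by rw [sqrt_pi, h8] at hP2; linarith)
      exact ⟨h9.1, Or.inr ⟨2 / 3, by norm_num, by norm_num, h9.2⟩⟩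
    · have h9 := fin1 (by rw [g1, g2])
      exact ⟨h9.1, Or.inl h9.2⟩
  · set m := rad V ^ 2 with hm
    have hm0 : 0 < m := by positivity
    set c : ℝ := (4 * m / 9) ^ (1 / 3 : ℝ) with hcd
    have hc0 : 0 < c := Real.rpow_pos_of_pos (by positivity) _
    have hc3 : c ^ 3 = 4 * m / 9 := by
      rw [hcd, ← Real.rpow_natCast _ 3, ← Real.rpow_mul (by positivity)]
      norm_num
    have hc49 : c ≤ 4 / 9 := by
      by_contra hcon
      push Not at hcon
      have h5 : (4 / 9 : ℝ) ^ 3 < c ^ 3 := pow_lt_pow_left₀ hcon (by norm_num) (by norm_num)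
      rw [hc3] at h5
      have h6 : m ≤ (4 / 9) ^ 2 := by
        rw [hm]; exact pow_le_pow_left₀ hrV.le h1 2
      norm_num at h5 h6
      linarith
    have hV : V = Real.pi * 9 / 16 * c ^ 3 := by
      rw [hc3, hm, ← rad_sq V hV0.le, rad_of_sq _ (rad_nonneg V)]
      ring
    rw [cst V c hc0 hV] at hP1
    set r0 := rad a0 with hr0d
    set r1 := rad a1 with hr1d
    obtain ⟨hrc1, hrc2, hII⟩ := alg P c m r0 r1 (II r0 r1) hs hr0 hr1 (II_nonneg r0 r1 hr01)
      hr01 hc0 hc49 (by linarith) hc hP1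
    rcases dich r0 r1 c hc0 hr1 hrc1 hrc2 hII with ⟨g1, g2⟩ | ⟨g1, g2⟩
    · have h9 := fin2 (3 / 2 * c) (by positivity) (by linarith) g2 g1
        (by rw [hV]; ring) (by nlinarith)
      exact ⟨h9.1, Or.inr ⟨3 / 2 * c, by positivity, by linarith, h9.2⟩⟩
    · have h9 := fin1 (by rw [g1, g2])
      exact ⟨h9.1, Or.inl h9.2⟩

end P232
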