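import Vale.Agent.P232.Defs

/-!
# P232, [SL1]: the slab inequality.
-/

open MeasureTheory Set Filter Topology

namespace P232

namespace SlabIneqAux

lemma cont_f (x0 x1 : ℝ) : Continuous fun x : ℝ => √((x0 ^ 2 - x ^ 2) * (x ^ 2 - x1 ^ 2)) := by
  fun_prop

lemma int_x_sqrt (x0 x1 : ℝ) (h1 : 0 ≤ x1) (h2 : x1 ≤ x0) :
    ∫ x in x1..x0, x * √(x0 ^ 2 - x ^ 2) = (√(x0 ^ 2 - x1 ^ 2)) ^ 3 / 3 := by
  have hder : ∀ x ∈ uIcc x1 x0, HasDerivAt (fun x : ℝ => -((x0 ^ 2 - x ^ 2) ^ (3 / 2 : ℝ)) / 3)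
      (x * √(x0 ^ 2 - x ^ 2)) x := by
    intro x hx
    have h := (((hasDerivAt_pow 2 x).const_sub (x0 ^ 2)).rpow_const (p := 3 / 2)
      (Or.inr (by norm_num))).neg.div_const 3
    refine HasDerivAt.congr_deriv h ?_
    rw [Real.sqrt_eq_rpow]
    have : (3 / 2 - 1 : ℝ) = 1 / 2 := by norm_num
    rw [this]
    push_cast
    ring
  rw [intervalIntegral.integral_eq_sub_of_hasDerivAt hder
    (Continuous.intervalIntegrable (by fun_prop) _ _)]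
  have h0 : (x0 ^ 2 - x0 ^ 2 : ℝ) = 0 := by ring
  have hp : (0 : ℝ) ≤ x0 ^ 2 - x1 ^ 2 := by nlinarith
  rw [h0, Real.zero_rpow (by norm_num)]
  have : (x0 ^ 2 - x1 ^ 2) ^ (3 / 2 : ℝ) = (√(x0 ^ 2 - x1 ^ 2)) ^ 3 := by
    rw [Real.sqrt_eq_rpow, ← Real.rpow_natCast _ 3, ← Real.rpow_mul hp]
    norm_num
  rw [this]
  ring

lemma int_lowerA (x0 x1 : ℝ) (h1 : 0 < x1) (h2 : x1 ≤ x0) :
    x0 ^ 3 / 3 - x0 * x1 ^ 2 / 2 - x0 * x1 ^ 2 * Real.log (x0 / x1) ≤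
      ∫ x in x1..x0, √((x0 ^ 2 - x ^ 2) * (x ^ 2 - x1 ^ 2)) := by
  have hx0 : 0 < x0 := h1.trans_le h2
  have hi1 : IntervalIntegrable (fun x : ℝ => x * √(x0 ^ 2 - x ^ 2)) volume x1 x0 :=
    Continuous.intervalIntegrable (by fun_prop) _ _
  have hi2 : IntervalIntegrable (fun x : ℝ => x0 * x1 ^ 2 * x⁻¹) volume x1 x0 := by
    apply ContinuousOn.intervalIntegrable
    rw [uIcc_of_le h2]
    apply ContinuousOn.mul continuousOn_const
    exact continuousOn_id.inv₀ fun x hx => ne_of_gt (h1.trans_le hx.1)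
  have key : ∫ x in x1..x0, (x * √(x0 ^ 2 - x ^ 2) - x0 * x1 ^ 2 * x⁻¹) ≤
      ∫ x in x1..x0, √((x0 ^ 2 - x ^ 2) * (x ^ 2 - x1 ^ 2)) := by
    apply intervalIntegral.integral_mono_on h2 (hi1.sub hi2)
      ((cont_f x0 x1).intervalIntegrable _ _)
    intro x hx
    have hx1 : 0 < x := h1.trans_le hx.1
    have ha : 0 ≤ x0 ^ 2 - x ^ 2 := by nlinarith [hx.2]
    have hb : 0 ≤ x ^ 2 - x1 ^ 2 := by nlinarith [hx.1]
    rw [Real.sqrt_mul ha]
    have h3 : x - x1 ^ 2 * x⁻¹ ≤ √(x ^ 2 - x1 ^ 2) := by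
      apply Real.le_sqrt_of_sq_le
      have e : (x - x1 ^ 2 * x⁻¹) ^ 2 = x ^ 2 - 2 * x1 ^ 2 + x1 ^ 2 * (x1 ^ 2 * (x⁻¹) ^ 2) := by
        field_simp
        ring
      have h4 : x1 ^ 2 * (x⁻¹) ^ 2 ≤ 1 := by
        rw [inv_pow, ← div_eq_mul_inv, div_le_one (by positivity)]
        nlinarith [hx.1]
      rw [e]
      nlinarith [sq_nonneg x1]
    have h5 : √(x0 ^ 2 - x ^ 2) ≤ x0 := by
      rw [Real.sqrt_le_left hx0.le]
      nlinarith
    have h6 : 0 ≤ √(x0 ^ 2 - x ^ 2) := Real.sqrt_nonneg _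
    have h7 : 0 ≤ x1 ^ 2 * x⁻¹ := by positivity
    calc x * √(x0 ^ 2 - x ^ 2) - x0 * x1 ^ 2 * x⁻¹
        ≤ √(x0 ^ 2 - x ^ 2) * (x - x1 ^ 2 * x⁻¹) := by nlinarith
      _ ≤ √(x0 ^ 2 - x ^ 2) * √(x ^ 2 - x1 ^ 2) := mul_le_mul_of_nonneg_left h3 h6
  rw [intervalIntegral.integral_sub hi1 hi2, int_x_sqrt x0 x1 h1.le h2,
    intervalIntegral.integral_const_mul, integral_inv_of_pos h1 hx0] at key
  have hp : (0 : ℝ) ≤ x0 ^ 2 - x1 ^ 2 := by nlinarith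
  have hy := Real.sq_sqrt hp
  have hy0 := Real.sqrt_nonneg (x0 ^ 2 - x1 ^ 2)
  set y := √(x0 ^ 2 - x1 ^ 2) with hyd
  have hb : 0 ≤ (x0 - y) ^ 2 * (x0 + 2 * y) := by positivity
  have : x0 ^ 3 / 3 - x0 * x1 ^ 2 / 2 ≤ y ^ 3 / 3 := by
    have : x1 ^ 2 = x0 ^ 2 - y ^ 2 := by linarith
    rw [this]
    nlinarith
  linarith

lemma semicircle (x0 x1 : ℝ) (h : x1 < x0) :
    ∫ x in x1..x0, √((x0 - x) * (x - x1)) = Real.pi / 8 * (x0 - x1) ^ 2 := by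
  have hR : (0 : ℝ) < (x0 - x1) / 2 := by linarith
  have h1 := intervalIntegral.integral_comp_mul_add (a := -1) (b := 1)
    (fun x : ℝ => √((x0 - x) * (x - x1))) (ne_of_gt hR) ((x0 + x1) / 2)
  have e1 : (x0 - x1) / 2 * -1 + (x0 + x1) / 2 = x1 := by ring
  have e2 : (x0 - x1) / 2 * 1 + (x0 + x1) / 2 = x0 := by ring
  rw [e1, e2] at h1
  have h2 : (fun x : ℝ => √((x0 - ((x0 - x1) / 2 * x + (x0 + x1) / 2)) *
      ((x0 - x1) / 2 * x + (x0 + x1) / 2 - x1))) = fun x => (x0 - x1) / 2 * √(1 - x ^ 2) := by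
    funext x
    have : (x0 - ((x0 - x1) / 2 * x + (x0 + x1) / 2)) *
      ((x0 - x1) / 2 * x + (x0 + x1) / 2 - x1) = ((x0 - x1) / 2) ^ 2 * (1 - x ^ 2) := by ring
    rw [this, Real.sqrt_mul (by positivity), Real.sqrt_sq hR.le]
  simp only [smul_eq_mul] at h1
  rw [h2, intervalIntegral.integral_const_mul, integral_sqrt_one_sub_sq] at h1
  have h3 : (x0 - x1) / 2 * ((x0 - x1) / 2 * (Real.pi / 2)) =
      ∫ x in x1..x0, √((x0 - x) * (x - x1)) := by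
    rw [h1, ← mul_assoc, mul_inv_cancel₀ (ne_of_gt hR), one_mul]
  rw [← h3]
  ring

lemma odd_part (x0 x1 : ℝ) :
    ∫ x in x1..x0, (x - (x0 + x1) / 2) * √((x0 - x) * (x - x1)) = 0 := by
  have h := intervalIntegral.integral_comp_sub_left
    (fun x : ℝ => (x - (x0 + x1) / 2) * √((x0 - x) * (x - x1))) (a := x1) (b := x0) (x0 + x1)
  have e1 : x0 + x1 - x0 = x1 := by ring
  have e2 : x0 + x1 - x1 = x0 := by ring
  rw [e1, e2] at h
  have h2 : (fun x : ℝ => (x0 + x1 - x - (x0 + x1) / 2) * √((x0 - (x0 + x1 - x)) *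
      (x0 + x1 - x - x1))) = fun x => -((x - (x0 + x1) / 2) * √((x0 - x) * (x - x1))) := by
    funext x
    have : (x0 - (x0 + x1 - x)) * (x0 + x1 - x - x1) = (x0 - x) * (x - x1) := by ring
    rw [this]
    ring
  rw [h2, intervalIntegral.integral_neg] at h
  linarith

lemma int_lowerB (x0 x1 : ℝ) (h1 : 0 ≤ x1) (h2 : x1 < x0) :
    Real.pi / 16 * (x0 - x1) ^ 2 * (√x0 + √x1) ^ 2 ≤
      ∫ x in x1..x0, √((x0 ^ 2 - x ^ 2) * (x ^ 2 - x1 ^ 2)) := by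
  have hx0 : 0 < x0 := h1.trans_lt h2
  have hi1 : IntervalIntegrable (fun x : ℝ => (x - (x0 + x1) / 2) * √((x0 - x) * (x - x1)))
      volume x1 x0 := Continuous.intervalIntegrable (by fun_prop) _ _
  have hi2 : IntervalIntegrable (fun x : ℝ => ((x0 + x1) / 2 + √x0 * √x1) *
      √((x0 - x) * (x - x1))) volume x1 x0 := Continuous.intervalIntegrable (by fun_prop) _ _
  have key : ∫ x in x1..x0, ((x - (x0 + x1) / 2) * √((x0 - x) * (x - x1)) +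
      ((x0 + x1) / 2 + √x0 * √x1) * √((x0 - x) * (x - x1))) ≤
      ∫ x in x1..x0, √((x0 ^ 2 - x ^ 2) * (x ^ 2 - x1 ^ 2)) := by
    apply intervalIntegral.integral_mono_on h2.le (hi1.add hi2)
      ((cont_f x0 x1).intervalIntegrable _ _)
    intro x hx
    have hx1 : 0 ≤ x := h1.trans hx.1
    have ha : 0 ≤ (x0 - x) * (x - x1) :=
      mul_nonneg (by linarith [hx.2]) (by linarith [hx.1])
    have e : (x0 ^ 2 - x ^ 2) * (x ^ 2 - x1 ^ 2) =
        ((x0 - x) * (x - x1)) * ((x0 + x) * (x + x1)) := by ring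
    rw [e, Real.sqrt_mul ha]
    have h3 : x + √x0 * √x1 ≤ √((x0 + x) * (x + x1)) := by
      apply Real.le_sqrt_of_sq_le
      have hs0 := Real.sq_sqrt hx0.le
      have hs1 := Real.sq_sqrt h1
      nlinarith [mul_nonneg hx1 (sq_nonneg (√x0 - √x1))]
    have h6 : 0 ≤ √((x0 - x) * (x - x1)) := Real.sqrt_nonneg _
    calc (x - (x0 + x1) / 2) * √((x0 - x) * (x - x1)) +
          ((x0 + x1) / 2 + √x0 * √x1) * √((x0 - x) * (x - x1))
        = √((x0 - x) * (x - x1)) * (x + √x0 * √x1) := by ring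
      _ ≤ √((x0 - x) * (x - x1)) * √((x0 + x) * (x + x1)) :=
        mul_le_mul_of_nonneg_left h3 h6
  rw [intervalIntegral.integral_add hi1 hi2, odd_part, intervalIntegral.integral_const_mul,
    semicircle x0 x1 h2] at key
  refine le_trans (le_of_eq ?_) key
  have hs0 := Real.sq_sqrt hx0.le
  have hs1 := Real.sq_sqrt h1
  have : (√x0 + √x1) ^ 2 = x0 + x1 + 2 * (√x0 * √x1) := by
    rw [add_sq, hs0, hs1]; ring
  rw [this]
  ring

lemma log_bound (x : ℝ) (h0 : 0 < x) : x * Real.log (1 / x) ≤ 0.205 * x + 3 / 10 := by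
  have h1 : Real.log (1 / x) = Real.log (10 / 3) + Real.log ((3 / 10) / x) := by
    rw [← Real.log_mul (by norm_num) (by positivity)]
    congr 1
    field_simp
  have h2 : Real.log ((3 / 10) / x) ≤ (3 / 10) / x - 1 := Real.log_le_sub_one_of_pos (by positivity)
  have h3 : Real.log (10 / 3) ≤ 1.205 := by
    rw [Real.log_le_iff_le_exp (by norm_num)]
    have h := Real.exp_one_gt_d9
    have h4 : Real.exp 1.205 = Real.exp 1 * Real.exp 0.205 := by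
      rw [← Real.exp_add]; norm_num
    have h5 : (1 : ℝ) + 0.205 + 0.205 ^ 2 / 2 + 0.205 ^ 3 / 6 ≤ Real.exp 0.205 := by
      have := Real.sum_le_exp_of_nonneg (x := 0.205) (by norm_num) 4
      refine le_trans (le_of_eq ?_) this
      simp [Finset.sum_range_succ, Nat.factorial]
    rw [h4]
    nlinarith
  rw [h1]
  have : x * ((3 / 10) / x) = 3 / 10 := by field_simp
  nlinarith

lemma caseA (x0 x1 : ℝ) (h1 : 0 < x1) (h2 : x1 ≤ 3 / 10) (h3 : 1 ≤ x0) :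
    (x0 - 1) * (1 - x1) ≤
      4 / 9 * (x0 ^ 3 / 3 - x0 * x1 ^ 2 / 2 - x0 * x1 ^ 2 * Real.log (x0 / x1)) := by
  have hx0 : 0 < x0 := by linarith
  have e : Real.log (x0 / x1) = Real.log x0 + Real.log (1 / x1) := by
    rw [← Real.log_mul (by positivity) (by positivity)]
    congr 1
    field_simp
  have h4 := log_bound x1 h1
  have h5 : Real.log x0 ≤ x0 - 1 := Real.log_le_sub_one_of_pos hx0
  have h6 : x1 * (Real.log (x0 / x1) + 1 / 2) ≤ 3 / 10 * x0 + 0.2115 := by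
    rw [e]
    nlinarith
  have h7 : x0 * x1 ^ 2 * (Real.log (x0 / x1) + 1 / 2) ≤ x0 * x1 * (3 / 10 * x0 + 0.2115) := by
    have := mul_le_mul_of_nonneg_left h6 (mul_nonneg hx0.le h1.le)
    nlinarith
  have h8 : 0 ≤ 4 / 27 * x0 ^ 3 - 0.04 * x0 ^ 2 - 0.7282 * x0 + 0.7 := by
    nlinarith [mul_nonneg (sub_nonneg.2 h3) (sq_nonneg (x0 - 1.373)),
      sq_nonneg (x0 - 1.373)]
  have h9 : 0 ≤ 4 / 27 * (x0 - 3 / 2) ^ 2 * (x0 + 3) := by positivity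
  -- linear in x1
  have h10 : 0 ≤ x1 * ((x0 - 1) - 4 / 9 * (x0 * (3 / 10 * x0 + 0.2115))) +
      4 / 27 * (x0 - 3 / 2) ^ 2 * (x0 + 3) := by
    have hA : 0 ≤ 3 / 10 * ((x0 - 1) - 4 / 9 * (x0 * (3 / 10 * x0 + 0.2115))) +
      4 / 27 * (x0 - 3 / 2) ^ 2 * (x0 + 3) := by nlinarith
    rcases le_total 0 ((x0 - 1) - 4 / 9 * (x0 * (3 / 10 * x0 + 0.2115))) with hc | hc
    · have := mul_nonneg h1.le hc
      linarith
    · nlinarith
  nlinarith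

lemma zineq (z : ℝ) (h1 : 1.5477 ≤ z) (h2 : 4 * z ^ 3 ≤ 22.92) :
    0.4523 * (z - 1.5477) * (22.92 - 4 * z ^ 3) ≤ (2 - z) ^ 2 * z ^ 3 := by
  have hz : z ≤ 1.79 := by
    by_contra hc
    push Not at hc
    have : (1.79 : ℝ) ^ 3 ≤ z ^ 3 := pow_le_pow_left₀ (by norm_num) hc.le 3
    norm_num at this
    nlinarith
  have hL : 0.4523 * (z - 1.5477) * (22.92 - 4 * z ^ 3) ≤ 0.25 := by
    nlinarith [sq_nonneg (z - 1.66), mul_nonneg (sub_nonneg.2 h1) (sq_nonneg (z - 1.66)),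
      mul_nonneg (mul_nonneg (sub_nonneg.2 h1) (sub_nonneg.2 h1)) (sq_nonneg (z - 1.66))]
  have hR : 0.25 ≤ (2 - z) ^ 2 * z ^ 3 := by
    have a1 : 0 ≤ 1.79 - z := by linarith
    have a2 : 0 ≤ z - 1.5477 := by linarith
    nlinarith [mul_nonneg a1 a2, mul_nonneg (mul_nonneg a1 a2) a2,
      mul_nonneg (mul_nonneg a1 a2) a1, mul_nonneg (mul_nonneg (mul_nonneg a1 a2) a2) a2,
      mul_nonneg (mul_nonneg (mul_nonneg a1 a2) a1) a2,
      mul_nonneg (mul_nonneg (mul_nonneg a1 a2) a1) a1]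
  linarith

lemma caseB (x0 x1 : ℝ) (h1 : 3 / 10 ≤ x1) (h2 : x1 ≤ 1) (h3 : 1 ≤ x0) :
    (x0 - 1) * (1 - x1) ≤ 4 / 9 * (Real.pi / 16 * (x0 - x1) ^ 2 * (√x0 + √x1) ^ 2) := by
  have hx0 : 0 ≤ x0 := by linarith
  have hx1 : 0 ≤ x1 := by linarith
  have hp := Real.sq_sqrt hx0
  have hq := Real.sq_sqrt hx1
  have hp1 : 1 ≤ √x0 := Real.one_le_sqrt.2 h3
  have hq0 : 0.5477 ≤ √x1 := Real.le_sqrt_of_sq_le (by norm_num; linarith)
  have hq1 : √x1 ≤ 1 := Real.sqrt_le_one.2 h2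
  have hpi : (3.1415 : ℝ) < Real.pi := by
    have := Real.pi_gt_d4; linarith
  generalize √x0 = p at *
  generalize √x1 = q at *
  subst hp
  subst hq
  -- a = p - 1, b = 1 - q, z = p + q, m = a b
  have ha : 0 ≤ p - 1 := by linarith
  have hb : 0 ≤ 1 - q := by linarith
  have hm : 0 ≤ (p - 1) * (1 - q) := mul_nonneg ha hb
  have key : 11.46 * ((p ^ 2 - 1) * (1 - q ^ 2)) ≤ (p ^ 2 - q ^ 2) ^ 2 * (p + q) ^ 2 := by
    have hz0 : 1.5477 ≤ p + q := by linarith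
    set z := p + q with hz
    set m := (p - 1) * (1 - q) with hmd
    have e1 : (p ^ 2 - 1) * (1 - q ^ 2) = m * (2 * z - m) := by rw [hz, hmd]; ring
    have e2 : (p ^ 2 - q ^ 2) ^ 2 * (p + q) ^ 2 = (4 * m + (2 - z) ^ 2) * z ^ 4 := by
      rw [hz, hmd]; ring
    rw [← hz] at e2
    rw [e1, e2]
    have hmb : m ≤ 0.4523 * (z - 1.5477) := by
      rw [hz, hmd]
      nlinarith
    rcases le_total 22.92 (4 * z ^ 3) with hc | hc
    · have h5 : 0 ≤ m * z * (4 * z ^ 3 - 22.92) := by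
        apply mul_nonneg (mul_nonneg hm (by linarith)) (by linarith)
      have h6 : 0 ≤ (2 - z) ^ 2 * z ^ 4 := by positivity
      nlinarith [sq_nonneg m]
    · have h5 := zineq z hz0 hc
      have h6 : m * (22.92 - 4 * z ^ 3) ≤ (2 - z) ^ 2 * z ^ 3 :=
        le_trans (mul_le_mul_of_nonneg_right hmb (by linarith)) h5
      have h7 := mul_le_mul_of_nonneg_right h6 (by linarith : (0 : ℝ) ≤ z)
      nlinarith [sq_nonneg m]
  have hX : 0 ≤ (p ^ 2 - q ^ 2) ^ 2 * (p + q) ^ 2 := by positivity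
  nlinarith

end SlabIneqAux

open SlabIneqAux in
/-- [SL1] SlabIneq.lean -/
theorem slab_ineq (x0 x1 : ℝ) (h1 : 0 ≤ x1) (h2 : x1 ≤ 1) (h3 : 1 ≤ x0) :
    (x0 - 1) * (1 - x1) ≤ 4 / 9 * ∫ x in x1..x0, √((x0 ^ 2 - x ^ 2) * (x ^ 2 - x1 ^ 2)) := by
  rcases h1.eq_or_lt with h0 | h0
  · subst h0
    have e : ∫ x in (0 : ℝ)..x0, √((x0 ^ 2 - x ^ 2) * (x ^ 2 - 0 ^ 2)) =
        ∫ x in (0 : ℝ)..x0, x * √(x0 ^ 2 - x ^ 2) := by
      apply intervalIntegral.integral_congr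
      intro x hx
      rw [uIcc_of_le (by linarith)] at hx
      have hx2 : 0 ≤ x0 ^ 2 - x ^ 2 := by nlinarith [hx.1, hx.2]
      simp only
      rw [Real.sqrt_mul hx2]
      have : x ^ 2 - 0 ^ 2 = x ^ 2 := by ring
      rw [this, Real.sqrt_sq hx.1]
      ring
    rw [e, int_x_sqrt x0 0 le_rfl (by linarith)]
    have e2 : x0 ^ 2 - 0 ^ 2 = x0 ^ 2 := by ring
    rw [e2, Real.sqrt_sq (by linarith)]
    have h9 : 0 ≤ 4 / 27 * (x0 - 3 / 2) ^ 2 * (x0 + 3) := by positivity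
    nlinarith
  · rcases le_total x1 (3 / 10) with h4 | h4
    · exact (caseA x0 x1 h0 h4 h3).trans
        (mul_le_mul_of_nonneg_left (int_lowerA x0 x1 h0 (by linarith)) (by norm_num))
    · rcases (h2.trans h3).eq_or_lt with h5 | h5
      · have : x0 = 1 := le_antisymm (by rw [← h5]; exact h2) h3
        subst this
        rw [h5]
        simp
      · exact (caseB x0 x1 h4 h2 h3).trans
          (mul_le_mul_of_nonneg_left (int_lowerB x0 x1 h1 h5) (by norm_num))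

end P232
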