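import Vale.Agent.P232.Defs

/-!
# P232: slicing inequalities (slice3, slice2).
-/

open MeasureTheory Set Filter Topology
open scoped ENNReal ContDiff

namespace P232

namespace SlAux

variable {Y : Type*} [MeasurableSpace Y]

/-- One cell of the partition. -/
theorem cell_ineq (ν : Measure Y) [IsFiniteMeasure ν] (F F' g t : ℝ × Y → ℝ)
    (hd : ∀ y s, HasDerivAt (fun s => F (s, y)) (F' (s, y)) s)
    (hFi : ∀ s, Integrable (fun y => F (s, y)) ν)
    (hF'i : Integrable F' ((volume.restrict (Ioo (0 : ℝ) 1)).prod ν))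
    (hF'c : ∀ y, Continuous (fun s => F' (s, y)))
    (hti : Integrable t ((volume.restrict (Ioo (0 : ℝ) 1)).prod ν))
    (hgi : Integrable g ((volume.restrict (Ioo (0 : ℝ) 1)).prod ν))
    (c d : ℝ) (hcs : ∀ p, c * t p - d * F' p ≤ g p)
    (u v : ℝ) (hu : 0 < u) (huv : u < v) (hv : v < 1) :
    c * (∫ p, t p ∂((volume.restrict (Ioc u v)).prod ν)) +
      d * ((∫ y, F (u, y) ∂ν) - ∫ y, F (v, y) ∂ν) ≤
      ∫ p, g p ∂((volume.restrict (Ioc u v)).prod ν) := by
  have hle : (volume.restrict (Ioc u v)).prod ν ≤ (volume.restrict (Ioo (0 : ℝ) 1)).prod ν := by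
    apply Measure.prod_mono _ le_rfl
    apply Measure.restrict_mono _ le_rfl
    intro x hx
    exact ⟨hu.trans hx.1, hx.2.trans_lt hv⟩
  have hF'2 := hF'i.mono_measure hle
  have ht2 := hti.mono_measure hle
  have hg2 := hgi.mono_measure hle
  have h1 : ∫ p, F' p ∂((volume.restrict (Ioc u v)).prod ν) =
      (∫ y, F (v, y) ∂ν) - ∫ y, F (u, y) ∂ν := by
    rw [integral_prod_symm _ hF'2, ← integral_sub (hFi v) (hFi u)]
    congr 1
    ext y
    rw [← intervalIntegral.integral_of_le huv.le]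
    exact intervalIntegral.integral_eq_sub_of_hasDerivAt (fun x _ => hd y x)
      ((hF'c y).intervalIntegrable _ _)
  have h2 : ∫ p, (c * t p - d * F' p) ∂((volume.restrict (Ioc u v)).prod ν) ≤
      ∫ p, g p ∂((volume.restrict (Ioc u v)).prod ν) :=
    integral_mono ((ht2.const_mul c).sub (hF'2.const_mul d)) hg2 hcs
  rw [integral_sub (ht2.const_mul c) (hF'2.const_mul d), integral_const_mul, integral_const_mul,
    h1] at h2
  linarith

/-- Sum over the cells. -/
theorem sum_cells (ν : Measure Y) [IsFiniteMeasure ν] (g : ℝ × Y → ℝ)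
    (hgi : Integrable g ((volume.restrict (Ioo (0 : ℝ) 1)).prod ν)) (hg0 : ∀ p, 0 ≤ g p)
    (N : ℕ) (s : ℕ → ℝ) (hs : ∀ i ≤ N, s i ∈ Ioo (0 : ℝ) 1) (hs' : ∀ i < N, s i < s (i + 1)) :
    ∑ i ∈ Finset.range N, ∫ p, g p ∂((volume.restrict (Ioc (s i) (s (i + 1)))).prod ν) ≤
      ∫ p, g p ∂((volume.restrict (Ioo (0 : ℝ) 1)).prod ν) := by
  have hγ : IntegrableOn (fun x => ∫ y, g (x, y) ∂ν) (Ioo 0 1) := hgi.integral_prod_left
  have hint : ∀ i < N, IntervalIntegrable (fun x => ∫ y, g (x, y) ∂ν) volume (s i) (s (i + 1)) := by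
    intro i hi
    rw [intervalIntegrable_iff_integrableOn_Ioc_of_le (hs' i hi).le]
    apply hγ.mono_set
    intro x hx
    exact ⟨(hs i hi.le).1.trans hx.1, hx.2.trans_lt (hs (i + 1) hi).2⟩
  have h1 : ∀ i ∈ Finset.range N,
      ∫ p, g p ∂((volume.restrict (Ioc (s i) (s (i + 1)))).prod ν) =
      ∫ x in (s i)..(s (i + 1)), ∫ y, g (x, y) ∂ν := by
    intro i hi
    have hi' := Finset.mem_range.1 hi
    rw [intervalIntegral.integral_of_le (hs' i hi').le]
    apply integral_prod
    apply hgi.mono_measure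
    apply Measure.prod_mono _ le_rfl
    apply Measure.restrict_mono _ le_rfl
    intro x hx
    exact ⟨(hs i hi'.le).1.trans hx.1, hx.2.trans_lt (hs (i + 1) hi').2⟩
  rw [Finset.sum_congr rfl h1, intervalIntegral.sum_integral_adjacent_intervals hint,
    integral_prod _ hgi]
  have hmono : s 0 ≤ s N := by
    have : ∀ k ≤ N, s 0 ≤ s k := by
      intro k
      induction k with
      | zero => intro _; exact le_rfl
      | succ k ih => intro hk; exact (ih (by omega)).trans (hs' k (by omega)).le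
    exact this N le_rfl
  rw [intervalIntegral.integral_of_le hmono]
  apply setIntegral_mono_set hγ
  · exact Eventually.of_forall (fun x => integral_nonneg (fun y => hg0 _))
  · apply Eventually.of_forall
    intro x hx
    exact ⟨(hs 0 (Nat.zero_le _)).1.trans hx.1, hx.2.trans_lt (hs N le_rfl).2⟩

/-- Fatou in one cell. -/
theorem fatou_cell (ν : Measure Y) [IsFiniteMeasure ν] (t : ℕ → ℝ × Y → ℝ)
    (htm : ∀ n, Measurable (t n))
    (hti : ∀ n, Integrable (t n) ((volume.restrict (Ioo (0 : ℝ) 1)).prod ν))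
    (ht0 : ∀ n p, 0 ≤ t n p)
    (q : ℝ → ℝ) (hq0 : ∀ s, 0 ≤ q s) (hqi : IntegrableOn q (Ioo 0 1))
    (hq : ∀ᵐ s ∂(volume.restrict (Ioo (0 : ℝ) 1)), ENNReal.ofReal (q s) ≤
      liminf (fun n => ∫⁻ y, ENNReal.ofReal (t n (s, y)) ∂ν) atTop)
    (u v : ℝ) (hu : 0 < u) (huv : u < v) (hv : v < 1) (ε : ℝ) (hε : 0 < ε) :
    ∀ᶠ n in atTop, (∫ x in u..v, q x) - ε ≤
      ∫ p, t n p ∂((volume.restrict (Ioc u v)).prod ν) := by
  have hsub : Ioc u v ⊆ Ioo (0 : ℝ) 1 := fun x hx => ⟨hu.trans hx.1, hx.2.trans_lt hv⟩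
  have hle : (volume.restrict (Ioc u v)).prod ν ≤ (volume.restrict (Ioo (0 : ℝ) 1)).prod ν :=
    Measure.prod_mono (Measure.restrict_mono hsub le_rfl) le_rfl
  have htint : ∀ n, 0 ≤ ∫ p, t n p ∂((volume.restrict (Ioc u v)).prod ν) := fun n =>
    integral_nonneg (ht0 n)
  by_cases hneg : (∫ x in u..v, q x) - ε < 0
  · exact Eventually.of_forall (fun n => hneg.le.trans (htint n))
  push Not at hneg
  have hqi' : IntegrableOn q (Ioc u v) := hqi.mono_set hsub
  have hF : ENNReal.ofReal (∫ x in u..v, q x) ≤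
      liminf (fun n => ENNReal.ofReal (∫ p, t n p ∂((volume.restrict (Ioc u v)).prod ν))) atTop := by
    rw [intervalIntegral.integral_of_le huv.le, ofReal_integral_eq_lintegral_ofReal hqi'
      (Eventually.of_forall hq0)]
    calc ∫⁻ x in Ioc u v, ENNReal.ofReal (q x)
        ≤ ∫⁻ x in Ioc u v, liminf (fun n => ∫⁻ y, ENNReal.ofReal (t n (x, y)) ∂ν) atTop := by
          apply lintegral_mono_ae
          exact ae_restrict_of_ae_restrict_of_subset hsub hq
      _ ≤ liminf (fun n => ∫⁻ x in Ioc u v, ∫⁻ y, ENNReal.ofReal (t n (x, y)) ∂ν) atTop := by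
          apply lintegral_liminf_le
          intro n
          exact ((htm n).ennreal_ofReal).lintegral_prod_right'
      _ = liminf (fun n => ENNReal.ofReal
            (∫ p, t n p ∂((volume.restrict (Ioc u v)).prod ν))) atTop := by
          congr 1
          ext n
          rw [ofReal_integral_eq_lintegral_ofReal ((hti n).mono_measure hle)
            (Eventually.of_forall (ht0 n))]
          rw [lintegral_prod]
          exact ((htm n).ennreal_ofReal).aemeasurable
  have hlt : ENNReal.ofReal ((∫ x in u..v, q x) - ε) <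
      liminf (fun n => ENNReal.ofReal (∫ p, t n p ∂((volume.restrict (Ioc u v)).prod ν))) atTop := by
    refine lt_of_lt_of_le ?_ hF
    rw [ENNReal.ofReal_lt_ofReal_iff (by linarith)]
    linarith
  filter_upwards [eventually_lt_of_lt_liminf hlt] with n hn
  exact ((ENNReal.ofReal_lt_ofReal_iff_of_nonneg hneg).1 hn).le

/-- The abstract core of the slicing inequality. -/
theorem core (ν : Measure Y) [IsFiniteMeasure ν] (F F' g t : ℕ → ℝ × Y → ℝ)
    (hd : ∀ n y s, HasDerivAt (fun s => F n (s, y)) (F' n (s, y)) s)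
    (hFi : ∀ n s, Integrable (fun y => F n (s, y)) ν)
    (hF'i : ∀ n, Integrable (F' n) ((volume.restrict (Ioo (0 : ℝ) 1)).prod ν))
    (hF'c : ∀ n y, Continuous (fun s => F' n (s, y)))
    (htm : ∀ n, Measurable (t n))
    (hti : ∀ n, Integrable (t n) ((volume.restrict (Ioo (0 : ℝ) 1)).prod ν))
    (ht0 : ∀ n p, 0 ≤ t n p)
    (hgi : ∀ n, Integrable (g n) ((volume.restrict (Ioo (0 : ℝ) 1)).prod ν))
    (hg0 : ∀ n p, 0 ≤ g n p)
    (hcs : ∀ n p (c d : ℝ), 0 ≤ c → 0 ≤ d → c ^ 2 + d ^ 2 ≤ 1 →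
      c * t n p - d * F' n p ≤ g n p)
    (P : ℝ) (hP : ∀ n, ∫ p, g n p ∂((volume.restrict (Ioo (0 : ℝ) 1)).prod ν) ≤ P)
    (a : ℝ → ℝ) (G : Set ℝ) (hG1 : G ⊆ Ioo 0 1)
    (hG : ∀ s ∈ G, Tendsto (fun n => ∫ y, F n (s, y) ∂ν) atTop (𝓝 (a s)))
    (q : ℝ → ℝ) (hq0 : ∀ s, 0 ≤ q s) (hqi : IntegrableOn q (Ioo 0 1))
    (hq : ∀ᵐ s ∂(volume.restrict (Ioo (0 : ℝ) 1)), ENNReal.ofReal (q s) ≤
      liminf (fun n => ∫⁻ y, ENNReal.ofReal (t n (s, y)) ∂ν) atTop)
    (N : ℕ) (s c d : ℕ → ℝ) (hs : ∀ i ≤ N, s i ∈ G) (hs' : ∀ i < N, s i < s (i + 1))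
    (hcd : ∀ i < N, 0 ≤ c i ∧ 0 ≤ d i ∧ c i ^ 2 + d i ^ 2 ≤ 1) :
    ∑ i ∈ Finset.range N, (c i * (∫ x in (s i)..(s (i + 1)), q x) +
      d i * (a (s i) - a (s (i + 1)))) ≤ P := by
  have hs1 : ∀ i ≤ N, s i ∈ Ioo (0 : ℝ) 1 := fun i hi => hG1 (hs i hi)
  -- for every ε
  have key : ∀ ε : ℝ, 0 < ε → ∑ i ∈ Finset.range N, (c i * ((∫ x in (s i)..(s (i + 1)), q x) - ε) +
      d i * (a (s i) - a (s (i + 1)))) ≤ P := by
    intro ε hε
    have hlim : Tendsto (fun n => ∑ i ∈ Finset.range N,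
        (c i * ((∫ x in (s i)..(s (i + 1)), q x) - ε) +
        d i * ((∫ y, F n (s i, y) ∂ν) - ∫ y, F n (s (i + 1), y) ∂ν))) atTop
        (𝓝 (∑ i ∈ Finset.range N, (c i * ((∫ x in (s i)..(s (i + 1)), q x) - ε) +
          d i * (a (s i) - a (s (i + 1)))))) := by
      apply tendsto_finsetSum
      intro i hi
      have hi' := Finset.mem_range.1 hi
      exact tendsto_const_nhds.add
        (((hG _ (hs i hi'.le)).sub (hG _ (hs (i + 1) hi'))).const_mul _)
    have hev : ∀ᶠ n in atTop, ∀ i ∈ Finset.range N, (∫ x in (s i)..(s (i + 1)), q x) - ε ≤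
        ∫ p, t n p ∂((volume.restrict (Ioc (s i) (s (i + 1)))).prod ν) := by
      rw [Filter.eventually_all_finset]
      intro i hi
      have hi' := Finset.mem_range.1 hi
      exact fatou_cell ν t htm hti ht0 q hq0 hqi hq _ _ (hs1 i hi'.le).1 (hs' i hi')
        (hs1 (i + 1) hi').2 ε hε
    apply le_of_tendsto hlim
    filter_upwards [hev] with n hn
    calc ∑ i ∈ Finset.range N, (c i * ((∫ x in (s i)..(s (i + 1)), q x) - ε) +
          d i * ((∫ y, F n (s i, y) ∂ν) - ∫ y, F n (s (i + 1), y) ∂ν))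
        ≤ ∑ i ∈ Finset.range N,
            ∫ p, g n p ∂((volume.restrict (Ioc (s i) (s (i + 1)))).prod ν) := by
          apply Finset.sum_le_sum
          intro i hi
          have hi' := Finset.mem_range.1 hi
          obtain ⟨h1, h2, h3⟩ := hcd i hi'
          have := cell_ineq ν (F n) (F' n) (g n) (t n) (hd n) (hFi n) (hF'i n) (hF'c n) (hti n)
            (hgi n) (c i) (d i) (fun p => hcs n p _ _ h1 h2 h3) (s i) (s (i + 1))
            (hs1 i hi'.le).1 (hs' i hi') (hs1 (i + 1) hi').2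
          have h4 := mul_le_mul_of_nonneg_left (hn i hi) h1
          linarith
      _ ≤ ∫ p, g n p ∂((volume.restrict (Ioo (0 : ℝ) 1)).prod ν) :=
          sum_cells ν (g n) (hgi n) (hg0 n) N s hs1 hs'
      _ ≤ P := hP n
  have hlim2 : Tendsto (fun ε : ℝ => ∑ i ∈ Finset.range N,
      (c i * ((∫ x in (s i)..(s (i + 1)), q x) - ε) +
      d i * (a (s i) - a (s (i + 1))))) (𝓝[>] 0) (𝓝 (∑ i ∈ Finset.range N,
      (c i * ((∫ x in (s i)..(s (i + 1)), q x) - 0) +
      d i * (a (s i) - a (s (i + 1)))))) := by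
    apply Tendsto.mono_left _ nhdsWithin_le_nhds
    apply Continuous.tendsto
    fun_prop
  simp only [sub_zero] at hlim2
  apply le_of_tendsto hlim2
  filter_upwards [self_mem_nhdsWithin] with ε hε
  exact key ε hε

/-- Cauchy-Schwarz. -/
theorem cs (A B c d : ℝ) (hcd : c ^ 2 + d ^ 2 ≤ 1) (hB : 0 ≤ B) :
    c * √B - d * A ≤ √(A ^ 2 + B) := by
  apply Real.le_sqrt_of_sq_le
  have hsq : √B ^ 2 = B := Real.sq_sqrt hB
  have h1 : (c * √B - d * A) ^ 2 ≤ (c ^ 2 + d ^ 2) * (√B ^ 2 + A ^ 2) := by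
    nlinarith [sq_nonneg (c * A + d * √B)]
  have h2 : (c ^ 2 + d ^ 2) * (√B ^ 2 + A ^ 2) ≤ 1 * (√B ^ 2 + A ^ 2) := by
    apply mul_le_mul_of_nonneg_right hcd
    positivity
  rw [hsq] at h1 h2
  linarith

theorem contFd {E : Type*} [NormedAddCommGroup E] [NormedSpace ℝ E] {F : E → ℝ}
    (hF : ContDiff ℝ 1 F) (v : E) : Continuous (fun p => fderiv ℝ F p v) :=
  (hF.continuous_fderiv one_ne_zero).clm_apply continuous_const

theorem gn2_slice {F : ℝ × ℝ × ℝ → ℝ} (hF : ContDiff ℝ 1 F) (s : ℝ) (y : ℝ × ℝ) :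
    gn2 (fun p => F (s, p)) y =
      √ ((fderiv ℝ F (s, y) (0, 1, 0)) ^ 2 + (fderiv ℝ F (s, y) (0, 0, 1)) ^ 2) := by
  have h : HasFDerivAt (fun p => F (s, p))
      ((fderiv ℝ F (s, y)).comp (ContinuousLinearMap.inr ℝ ℝ (ℝ × ℝ))) y := by
    have h1 : HasFDerivAt F (fderiv ℝ F (s, y)) (s, y) :=
      (hF.differentiable one_ne_zero (s, y)).hasFDerivAt
    have h2 : HasFDerivAt (fun p : ℝ × ℝ => (s, p)) (ContinuousLinearMap.inr ℝ ℝ (ℝ × ℝ)) y :=
      hasFDerivAt_prodMk_right s y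
    exact h1.comp y h2
  unfold gn2
  rw [h.fderiv]
  rfl

theorem hasDerivAt_fst {E : Type*} [NormedAddCommGroup E] [NormedSpace ℝ E] {F : ℝ × E → ℝ}
    (hF : ContDiff ℝ 1 F) (s : ℝ) (y : E) :
    HasDerivAt (fun s => F (s, y)) (fderiv ℝ F (s, y) (1, 0)) s := by
  have h1 : HasFDerivAt F (fderiv ℝ F (s, y)) (s, y) :=
    (hF.differentiable one_ne_zero (s, y)).hasFDerivAt
  have h2 : HasDerivAt (fun s : ℝ => (s, y)) (1, 0) s := (hasDerivAt_id s).prodMk (hasDerivAt_const s y)
  exact h1.comp_hasDerivAt s h2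

theorem hasDerivAt_snd {F : ℝ × ℝ → ℝ}
    (hF : ContDiff ℝ 1 F) (s : ℝ) (y : ℝ) :
    HasDerivAt (fun y => F (s, y)) (fderiv ℝ F (s, y) (0, 1)) y := by
  have h1 : HasFDerivAt F (fderiv ℝ F (s, y)) (s, y) :=
    (hF.differentiable one_ne_zero (s, y)).hasFDerivAt
  have h2 : HasDerivAt (fun y : ℝ => (s, y)) (0, 1) y := (hasDerivAt_const y s).prodMk (hasDerivAt_id y)
  exact h1.comp_hasDerivAt y h2

theorem integrableOn_Q3 {f : ℝ × ℝ × ℝ → ℝ} (hf : Continuous f) : IntegrableOn f Q3 := by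
  apply (hf.continuousOn.integrableOn_compact
    (isCompact_Icc.prod (isCompact_Icc.prod isCompact_Icc) :
      IsCompact (Icc (0 : ℝ) 1 ×ˢ (Icc (0 : ℝ) 1 ×ˢ Icc (0 : ℝ) 1)))).mono_set
  exact prod_mono Ioo_subset_Icc_self (prod_mono Ioo_subset_Icc_self Ioo_subset_Icc_self)

theorem integrableOn_Q2 {f : ℝ × ℝ → ℝ} (hf : Continuous f) : IntegrableOn f Q2 := by
  apply (hf.continuousOn.integrableOn_compact
    (isCompact_Icc.prod isCompact_Icc :
      IsCompact (Icc (0 : ℝ) 1 ×ˢ Icc (0 : ℝ) 1))).mono_set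
  exact prod_mono Ioo_subset_Icc_self Ioo_subset_Icc_self

theorem restrict_Q3 : (volume.restrict (Ioo (0 : ℝ) 1)).prod (volume.restrict Q2) =
    volume.restrict Q3 := by
  rw [Measure.prod_restrict]; rfl

theorem restrict_Q2 : (volume.restrict (Ioo (0 : ℝ) 1)).prod (volume.restrict (Ioo (0 : ℝ) 1)) =
    volume.restrict Q2 := by
  rw [Measure.prod_restrict]; rfl

instance : IsFiniteMeasure (volume.restrict Q2) := by
  constructor
  rw [Measure.restrict_apply_univ]
  unfold Q2
  rw [Measure.volume_eq_prod, Measure.prod_prod]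
  simp

theorem measQ2 : MeasurableSet Q2 := measurableSet_Ioo.prod measurableSet_Ioo

end SlAux

open SlAux

theorem slice3 (D : Set (ℝ × ℝ × ℝ)) (hDm : MeasurableSet D) (hD : D ⊆ Q3) (P : ℝ) (hP : 0 ≤ P)
    (hA : Approx3 D P) :
    ∃ q : ℝ → ℝ, (∀ s, 0 ≤ q s) ∧ Measurable q ∧ IntegrableOn q (Ioo 0 1) ∧
      (∀ᵐ s ∂(volume.restrict (Ioo (0 : ℝ) 1)), ∀ c, LB2 (slice D s) c → c ≤ q s) ∧
      PartIneq (fun s => (volume (slice D s)).toReal) q P := by
  obtain ⟨F, hF, hF01, hFP, hFD⟩ := hA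
  -- notation
  set t : ℕ → ℝ × ℝ × ℝ → ℝ := fun n p =>
    √ ((fderiv ℝ (F n) p (0, 1, 0)) ^ 2 + (fderiv ℝ (F n) p (0, 0, 1)) ^ 2) with ht
  have htc : ∀ n, Continuous (t n) := fun n =>
    (((contFd (hF n) _).pow 2).add ((contFd (hF n) _).pow 2)).sqrt
  have hgc : ∀ n, Continuous (gn3 (F n)) := fun n =>
    ((((contFd (hF n) _).pow 2).add ((contFd (hF n) _).pow 2)).add ((contFd (hF n) _).pow 2)).sqrt
  set L : ℝ → ℝ≥0∞ := fun s =>
    liminf (fun n => ∫⁻ y in Q2, ENNReal.ofReal (t n (s, y))) atTop with hL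
  have hLm : Measurable L := by
    apply Measurable.liminf
    intro n
    exact ((htc n).measurable.ennreal_ofReal).lintegral_prod_right'
  have htg : ∀ n p, t n p ≤ gn3 (F n) p := by
    intro n p
    apply Real.sqrt_le_sqrt
    nlinarith [sq_nonneg (fderiv ℝ (F n) p (1, 0, 0))]
  have hLint : ∫⁻ s in Ioo (0 : ℝ) 1, L s ≤ ENNReal.ofReal P := by
    calc ∫⁻ s in Ioo (0 : ℝ) 1, L s
        ≤ liminf (fun n => ∫⁻ s in Ioo (0 : ℝ) 1, ∫⁻ y in Q2, ENNReal.ofReal (t n (s, y))) atTop := by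
          apply lintegral_liminf_le
          intro n
          exact ((htc n).measurable.ennreal_ofReal).lintegral_prod_right'
      _ ≤ liminf (fun _ : ℕ => ENNReal.ofReal P) atTop := by
          refine liminf_le_liminf (Eventually.of_forall fun n => ?_)
          refine le_trans ?_ (hFP n)
          rw [← restrict_Q3, lintegral_prod _ (hgc n).measurable.ennreal_ofReal.aemeasurable]
          apply lintegral_mono
          intro s
          apply lintegral_mono
          intro y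
          exact ENNReal.ofReal_le_ofReal (htg n _)
      _ = ENNReal.ofReal P := by simp
  have hLint' : ∫⁻ s in Ioo (0 : ℝ) 1, L s ≠ ⊤ := (hLint.trans_lt ENNReal.ofReal_lt_top).ne
  have hLfin : ∀ᵐ s ∂(volume.restrict (Ioo (0 : ℝ) 1)), L s < ⊤ := ae_lt_top hLm hLint'
  have hqi : IntegrableOn (fun s => (L s).toReal) (Ioo 0 1) :=
    integrable_toReal_of_lintegral_ne_top hLm.aemeasurable hLint'
  -- a.e. convergence on slices
  have hae : ∀ᵐ s ∂(volume.restrict (Ioo (0 : ℝ) 1)), ∀ᵐ y ∂(volume.restrict Q2),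
      Tendsto (fun n => F n (s, y)) atTop (𝓝 (D.indicator 1 (s, y))) := by
    rw [← restrict_Q3] at hFD
    exact Measure.ae_ae_of_ae_prod hFD
  have hind : ∀ s y, D.indicator (1 : ℝ × ℝ × ℝ → ℝ) (s, y) =
      (slice D s).indicator (1 : ℝ × ℝ → ℝ) y := by
    intro s y
    by_cases h : (s, y) ∈ D
    · rw [indicator_of_mem h, indicator_of_mem (show y ∈ slice D s from h)]; rfl
    · rw [indicator_of_notMem h, indicator_of_notMem (show y ∉ slice D s from h)]
  refine ⟨fun s => (L s).toReal, fun s => ENNReal.toReal_nonneg, hLm.ennreal_toReal, hqi, ?_, ?_⟩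
  · filter_upwards [hLfin, hae] with s hs1 hs2 c hc
    have h1 := hc (fun n p => F n (s, p)) (fun n => (hF n).comp (contDiff_prodMk_right s))
      (fun n p => hF01 n _) (by
        filter_upwards [hs2] with y hy
        rw [← hind]; exact hy)
    have h2 : (fun n => ∫⁻ p in Q2, ENNReal.ofReal (gn2 (fun p => F n (s, p)) p)) =
        fun n => ∫⁻ y in Q2, ENNReal.ofReal (t n (s, y)) := by
      ext n
      congr 1
      ext y
      rw [gn2_slice (hF n)]
    rw [h2] at h1
    change ENNReal.ofReal c ≤ L s at h1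
    rw [← ENNReal.ofReal_toReal hs1.ne] at h1
    exact (ENNReal.ofReal_le_ofReal_iff ENNReal.toReal_nonneg).1 h1
  · refine ⟨{s | s ∈ Ioo (0 : ℝ) 1 ∧ ∀ᵐ y ∂(volume.restrict Q2),
      Tendsto (fun n => F n (s, y)) atTop (𝓝 (D.indicator 1 (s, y)))}, fun s hs => hs.1, ?_, ?_⟩
    · rw [ae_restrict_iff' measurableSet_Ioo] at hae
      have : Ioo (0 : ℝ) 1 \ {s | s ∈ Ioo (0 : ℝ) 1 ∧ ∀ᵐ y ∂(volume.restrict Q2),
          Tendsto (fun n => F n (s, y)) atTop (𝓝 (D.indicator 1 (s, y)))} ⊆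
          {s | ¬ (s ∈ Ioo (0 : ℝ) 1 → ∀ᵐ y ∂(volume.restrict Q2),
            Tendsto (fun n => F n (s, y)) atTop (𝓝 (D.indicator 1 (s, y))))} := by
        intro s hs h
        exact hs.2 ⟨hs.1, h hs.1⟩
      exact measure_mono_null this hae
    · intro N s c d hs hs' hcd
      refine core (volume.restrict Q2) F (fun n p => fderiv ℝ (F n) p (1, 0))
        (fun n => gn3 (F n)) t (fun n y s => hasDerivAt_fst (hF n) s y) ?_ ?_ ?_ (fun n => (htc n).measurable) ?_
        (fun n p => Real.sqrt_nonneg _) ?_ (fun n p => Real.sqrt_nonneg _) ?_ P ?_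
        (fun s => (volume (slice D s)).toReal) _ (fun s hs => hs.1) ?_
        _ (fun s => ENNReal.toReal_nonneg) hqi ?_ N s c d hs hs' hcd
      · intro n s
        apply integrableOn_Q2
        exact (hF n).continuous.comp (by fun_prop)
      · intro n
        rw [restrict_Q3]
        exact integrableOn_Q3 (contFd (hF n) _)
      · intro n y
        exact (contFd (hF n) _).comp (by fun_prop)
      · intro n
        rw [restrict_Q3]
        exact integrableOn_Q3 (htc n)
      · intro n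
        rw [restrict_Q3]
        exact integrableOn_Q3 (hgc n)
      · intro n p c d hc hd hcd
        have := cs (fderiv ℝ (F n) p (1, 0)) ((fderiv ℝ (F n) p (0, 1, 0)) ^ 2 +
          (fderiv ℝ (F n) p (0, 0, 1)) ^ 2) c d hcd (by positivity)
        rw [← add_assoc] at this
        exact this
      · intro n
        rw [restrict_Q3]
        have h1 := hFP n
        rw [← ofReal_integral_eq_lintegral_ofReal (integrableOn_Q3 (hgc n))
          (Eventually.of_forall fun p => Real.sqrt_nonneg _)] at h1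
        exact (ENNReal.ofReal_le_ofReal_iff hP).1 h1
      · intro s hs
        have hlim : Tendsto (fun n => ∫ y, F n (s, y) ∂(volume.restrict Q2)) atTop
            (𝓝 (∫ y, D.indicator 1 (s, y) ∂(volume.restrict Q2))) := by
          apply tendsto_integral_of_dominated_convergence (fun _ => (1 : ℝ))
          · intro n
            exact ((hF n).continuous.comp (by fun_prop)).aestronglyMeasurable
          · exact integrable_const _
          · intro n
            apply Eventually.of_forall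
            intro y
            rw [Real.norm_eq_abs, abs_le]
            have := hF01 n (s, y)
            exact ⟨by linarith [this.1], this.2⟩
          · exact hs.2
        convert hlim using 2
        simp_rw [hind]
        have hsm : MeasurableSet (slice D s) := measurable_prodMk_left hDm
        rw [integral_indicator_one hsm, Measure.real, Measure.restrict_apply hsm]
        congr 2
        apply (inter_eq_left.2 _).symm
        intro y hy
        exact (hD hy).2
      · filter_upwards [hLfin] with s hs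
        rw [ENNReal.ofReal_toReal hs.ne]

namespace SlAux

theorem exists_mem_conv (A : Set ℝ) (hA : A ⊆ Ioo 0 1) (hA0 : volume A ≠ 0)
    (p : ℝ → Prop) (hp : ∀ᵐ y ∂(volume.restrict (Ioo (0 : ℝ) 1)), p y) :
    ∃ y ∈ A, p y := by
  by_contra hcon
  push Not at hcon
  apply hA0
  rw [ae_restrict_iff' measurableSet_Ioo] at hp
  refine measure_mono_null ?_ hp
  intro y hy h
  exact hcon y hy (h (hA hy))

theorem q1_liminf (S : Set (ℝ × ℝ)) (hSm : MeasurableSet S) (hS : S ⊆ Q2) (G : ℕ → ℝ × ℝ → ℝ)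
    (hG : ∀ n, ContDiff ℝ 1 (G n)) (s : ℝ)
    (hs : ∀ᵐ y ∂(volume.restrict (Ioo (0 : ℝ) 1)),
      Tendsto (fun n => G n (s, y)) atTop (𝓝 (S.indicator 1 (s, y)))) :
    ENNReal.ofReal (q1 (hgt S) s) ≤ liminf (fun n => ∫⁻ y in Ioo (0 : ℝ) 1,
      ENNReal.ofReal |fderiv ℝ (G n) (s, y) (0, 1)|) atTop := by
  unfold q1
  split_ifs with hq
  swap
  · simp
  obtain ⟨hq1, hq2⟩ := hq
  have hsub : {y | (s, y) ∈ S} ⊆ Ioo (0 : ℝ) 1 := fun y hy => (hS hy).2
  have hmeas : MeasurableSet {y | (s, y) ∈ S} := measurable_prodMk_left hSm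
  have hfin : volume {y | (s, y) ∈ S} ≠ ⊤ :=
    ((measure_mono hsub).trans_lt (by simp)).ne
  have h0 : volume {y | (s, y) ∈ S} ≠ 0 := by
    intro h
    unfold hgt at hq1
    rw [h] at hq1
    simp at hq1
  have h1 : volume (Ioo (0 : ℝ) 1 \ {y | (s, y) ∈ S}) ≠ 0 := by
    intro h
    have h2 : volume (Ioo (0 : ℝ) 1) ≤ volume {y | (s, y) ∈ S} := by
      calc volume (Ioo (0 : ℝ) 1) ≤ volume ({y | (s, y) ∈ S} ∪ (Ioo (0 : ℝ) 1 \ {y | (s, y) ∈ S})) :=
            measure_mono (fun y hy => by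
              by_cases h : (s, y) ∈ S
              · exact Or.inl h
              · exact Or.inr ⟨hy, h⟩)
        _ ≤ volume {y | (s, y) ∈ S} + volume (Ioo (0 : ℝ) 1 \ {y | (s, y) ∈ S}) :=
            measure_union_le _ _
        _ = volume {y | (s, y) ∈ S} := by rw [h, add_zero]
    rw [Real.volume_Ioo] at h2
    have h3 := ENNReal.toReal_mono hfin h2
    unfold hgt at hq2
    norm_num at h3
    linarith
  obtain ⟨x, hx, hxc⟩ := exists_mem_conv _ hsub h0 _ hs
  obtain ⟨x', hx', hxc'⟩ := exists_mem_conv _ sdiff_subset h1 _ hs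
  have hxI := hsub hx
  rw [indicator_of_mem (show (s, x) ∈ S from hx)] at hxc
  rw [indicator_of_notMem (show (s, x') ∉ S from hx'.2)] at hxc'
  have hlim : Tendsto (fun n => ENNReal.ofReal |G n (s, x) - G n (s, x')|) atTop
      (𝓝 (ENNReal.ofReal 1)) := by
    apply ENNReal.tendsto_ofReal
    have := (hxc.sub hxc').abs
    simpa using this
  rw [← hlim.liminf_eq]
  refine liminf_le_liminf (Eventually.of_forall fun n => ?_)
  -- FTC
  have hcont : Continuous (fun y => fderiv ℝ (G n) (s, y) (0, 1)) :=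
    (contFd (hG n) _).comp (by fun_prop)
  have hftc : ∫ y in x'..x, fderiv ℝ (G n) (s, y) (0, 1) = G n (s, x) - G n (s, x') :=
    intervalIntegral.integral_eq_sub_of_hasDerivAt (fun y _ => hasDerivAt_snd (hG n) s y)
      (hcont.intervalIntegrable _ _)
  have hint : IntegrableOn (fun y => |fderiv ℝ (G n) (s, y) (0, 1)|) (Ioo 0 1) :=
    (hcont.abs.continuousOn.integrableOn_compact isCompact_Icc).mono_set Ioo_subset_Icc_self
  have hsubI : uIoc x' x ⊆ Ioo 0 1 := by
    intro y hy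
    rw [mem_uIoc] at hy
    rcases hy with hy | hy
    · exact ⟨hx'.1.1.trans hy.1, hy.2.trans_lt hxI.2⟩
    · exact ⟨hxI.1.trans hy.1, hy.2.trans_lt hx'.1.2⟩
  rw [← hftc, ← ofReal_integral_eq_lintegral_ofReal hint (Eventually.of_forall fun _ => abs_nonneg _)]
  apply ENNReal.ofReal_le_ofReal
  rw [← Real.norm_eq_abs]
  refine (intervalIntegral.norm_integral_le_integral_norm_uIoc).trans ?_
  exact setIntegral_mono_set hint (Eventually.of_forall fun _ => abs_nonneg _)
    (Eventually.of_forall hsubI)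

theorem hgt_meas (S : Set (ℝ × ℝ)) (hSm : MeasurableSet S) : Measurable (hgt S) :=
  (measurable_measure_prodMk_left hSm).ennreal_toReal

theorem q1_meas (h : ℝ → ℝ) (hm : Measurable h) : Measurable (q1 h) := by
  unfold q1
  apply Measurable.ite _ measurable_const measurable_const
  exact (measurableSet_lt measurable_const hm).inter (measurableSet_lt hm measurable_const)

theorem q1_mem (h : ℝ → ℝ) (x : ℝ) : q1 h x ∈ Icc (0 : ℝ) 1 := by
  unfold q1
  split_ifs <;> simp

theorem q1_int (h : ℝ → ℝ) (hm : Measurable h) : IntegrableOn (q1 h) (Ioo 0 1) := by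
  apply Measure.integrableOn_of_bounded (M := 1) (by simp) (q1_meas h hm).aestronglyMeasurable
  apply Eventually.of_forall
  intro x
  have := q1_mem h x
  rw [Real.norm_eq_abs, abs_of_nonneg this.1]
  exact this.2

end SlAux

theorem slice2 (S : Set (ℝ × ℝ)) (hSm : MeasurableSet S) (hS : Low2 S) (c : ℝ)
    (h : ∀ P, 0 ≤ P → PartIneq (hgt S) (q1 (hgt S)) P → c ≤ P) : LB2 S c := by
  intro G hG hG01 hGS
  by_contra hcon
  push Not at hcon
  obtain ⟨P', hP1, hP2⟩ := exists_between hcon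
  have hP'top : P' ≠ ⊤ := (hP2.trans_le le_top).ne
  have hP'eq : ENNReal.ofReal P'.toReal = P' := ENNReal.ofReal_toReal hP'top
  have hPc : P'.toReal < c := by
    rw [← hP'eq] at hP2
    exact (ENNReal.ofReal_lt_ofReal_iff_of_nonneg ENNReal.toReal_nonneg).1 hP2
  obtain ⟨φ, hφ, hφP⟩ := extraction_of_frequently_atTop (frequently_lt_of_liminf_lt (by isBoundedDefault) hP1)
  have hSQ : S ⊆ Q2 := hS.1
  have hconv : ∀ᵐ p ∂(volume.restrict Q2),
      Tendsto (fun n => G (φ n) p) atTop (𝓝 (S.indicator 1 p)) := by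
    filter_upwards [hGS] with p hp
    exact hp.comp hφ.tendsto_atTop
  have hae : ∀ᵐ s ∂(volume.restrict (Ioo (0 : ℝ) 1)), ∀ᵐ y ∂(volume.restrict (Ioo (0 : ℝ) 1)),
      Tendsto (fun n => G (φ n) (s, y)) atTop (𝓝 (S.indicator 1 (s, y))) := by
    rw [← restrict_Q2] at hconv
    exact Measure.ae_ae_of_ae_prod hconv
  have hgc : ∀ n, Continuous (gn2 (G n)) := fun n =>
    (((contFd (hG n) _).pow 2).add ((contFd (hG n) _).pow 2)).sqrt
  have htc : ∀ n, Continuous (fun p => |fderiv ℝ (G n) p (0, 1)|) := fun n =>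
    (contFd (hG n) _).abs
  have hfm : IsFiniteMeasure (volume.restrict (Ioo (0 : ℝ) 1)) := ⟨by simp⟩
  refine absurd (h P'.toReal ENNReal.toReal_nonneg ?_) (not_le.2 hPc)
  refine ⟨{s | s ∈ Ioo (0 : ℝ) 1 ∧ ∀ᵐ y ∂(volume.restrict (Ioo (0 : ℝ) 1)),
      Tendsto (fun n => G (φ n) (s, y)) atTop (𝓝 (S.indicator 1 (s, y)))}, fun s hs => hs.1, ?_, ?_⟩
  · have hae' := hae
    rw [ae_restrict_iff' measurableSet_Ioo] at hae'
    refine measure_mono_null ?_ hae'
    intro s hs h
    exact hs.2 ⟨hs.1, h hs.1⟩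
  · intro N s c d hs hs' hcd
    refine core (volume.restrict (Ioo (0 : ℝ) 1)) (fun n => G (φ n))
      (fun n p => fderiv ℝ (G (φ n)) p (1, 0))
      (fun n => gn2 (G (φ n))) (fun n p => |fderiv ℝ (G (φ n)) p (0, 1)|)
      (fun n y s => hasDerivAt_fst (hG _) s y) ?_ ?_ ?_ (fun n => (htc _).measurable) ?_
      (fun n p => abs_nonneg _) ?_ (fun n p => Real.sqrt_nonneg _) ?_ _ ?_
      (hgt S) _ (fun s hs => hs.1) ?_
      _ (fun s => (q1_mem _ s).1) (q1_int _ (hgt_meas S hSm)) ?_ N s c d hs hs' hcd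
    · intro n s
      apply (((hG _).continuous.comp (by fun_prop : Continuous fun y : ℝ => (s, y))).continuousOn.integrableOn_compact
        (isCompact_Icc (a := (0 : ℝ)) (b := 1))).mono_set Ioo_subset_Icc_self
    · intro n
      rw [restrict_Q2]
      exact integrableOn_Q2 (contFd (hG _) _)
    · intro n y
      exact (contFd (hG _) _).comp (by fun_prop)
    · intro n
      rw [restrict_Q2]
      exact integrableOn_Q2 (htc _)
    · intro n
      rw [restrict_Q2]
      exact integrableOn_Q2 (hgc _)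
    · intro n p c d hc hd hcd
      have := cs (fderiv ℝ (G (φ n)) p (1, 0)) ((fderiv ℝ (G (φ n)) p (0, 1)) ^ 2) c d hcd
        (by positivity)
      rw [Real.sqrt_sq_eq_abs] at this
      exact this
    · intro n
      rw [restrict_Q2]
      have h1 := (hφP n).le
      rw [← ofReal_integral_eq_lintegral_ofReal (integrableOn_Q2 (hgc _))
        (Eventually.of_forall fun p => Real.sqrt_nonneg _), ← hP'eq] at h1
      exact (ENNReal.ofReal_le_ofReal_iff ENNReal.toReal_nonneg).1 h1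
    · intro s hs
      have hlim : Tendsto (fun n => ∫ y, G (φ n) (s, y) ∂(volume.restrict (Ioo (0 : ℝ) 1))) atTop
          (𝓝 (∫ y, S.indicator 1 (s, y) ∂(volume.restrict (Ioo (0 : ℝ) 1)))) := by
        apply tendsto_integral_of_dominated_convergence (fun _ => (1 : ℝ))
        · intro n
          exact ((hG _).continuous.comp (by fun_prop)).aestronglyMeasurable
        · exact integrable_const _
        · intro n
          apply Eventually.of_forall
          intro y
          rw [Real.norm_eq_abs, abs_le]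
          have := hG01 (φ n) (s, y)
          exact ⟨by linarith [this.1], this.2⟩
        · exact hs.2
      convert hlim using 2
      have hind : ∀ y, S.indicator (1 : ℝ × ℝ → ℝ) (s, y) =
          {y | (s, y) ∈ S}.indicator (1 : ℝ → ℝ) y := by
        intro y
        by_cases h : (s, y) ∈ S
        · rw [indicator_of_mem h, indicator_of_mem (show y ∈ {y | (s, y) ∈ S} from h)]; rfl
        · rw [indicator_of_notMem h, indicator_of_notMem (show y ∉ {y | (s, y) ∈ S} from h)]
      simp_rw [hind]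
      have hsm : MeasurableSet {y | (s, y) ∈ S} := measurable_prodMk_left hSm
      rw [integral_indicator_one hsm, Measure.real, Measure.restrict_apply hsm]
      unfold hgt
      congr 2
      apply (inter_eq_left.2 _).symm
      intro y hy
      exact (hSQ hy).2
    · filter_upwards [hae] with s hs
      exact q1_liminf S hSm hSQ (fun n => G (φ n)) (fun n => hG _) s hs

end P232
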