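import Vale.Agent.P232.Defs
import Vale.Agent.P232.Check
import Vale.Agent.P232.NumA
import Vale.Agent.P232.Corner

/-!
# P232: soundness of the integer checker
-/

open MeasureTheory Set Filter Topology
open scoped ENNReal ContDiff

namespace P232

namespace Snd

open Chk

/-- real value of a scaled integer -/
noncomputable def rv (n : ℕ) : ℝ := (n : ℝ) / 1000000

lemma rv_nonneg (n : ℕ) : 0 ≤ rv n := by unfold rv; positivity

lemma rv_le {a b : ℕ} (h : a ≤ b) : rv a ≤ rv b := by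
  unfold rv
  have : (a : ℝ) ≤ b := by exact_mod_cast h
  linarith

lemma rv_lt {a b : ℕ} (h : a < b) : rv a < rv b := by
  unfold rv
  have : (a : ℝ) < b := by exact_mod_cast h
  linarith

lemma rv_min (a b : ℕ) : rv (min a b) = min (rv a) (rv b) := by
  rcases le_total a b with h | h
  · rw [min_eq_left h, min_eq_left (rv_le h)]
  · rw [min_eq_right h, min_eq_right (rv_le h)]

lemma rv_max (a b : ℕ) : rv (max a b) = max (rv a) (rv b) := by
  rcases le_total a b with h | h
  · rw [max_eq_right h, max_eq_right (rv_le h)]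
  · rw [max_eq_left h, max_eq_left (rv_le h)]

/-- adjacent pairs -/
def Adj (R : Nd → Nd → Prop) : Nd → List Nd → Prop
  | _, [] => True
  | a, b :: l => R a b ∧ Adj R b l

lemma Adj.imp {R R' : Nd → Nd → Prop} (h : ∀ a b, R a b → R' a b) :
    ∀ (l : List Nd) (a : Nd), Adj R a l → Adj R' a l
  | [], _, _ => trivial
  | _ :: l, _, ⟨h1, h2⟩ => ⟨h _ _ h1, Adj.imp h l _ h2⟩

lemma Adj.and {R R' : Nd → Nd → Prop} :
    ∀ (l : List Nd) (a : Nd), Adj R a l → Adj R' a l → Adj (fun a b => R a b ∧ R' a b) a l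
  | [], _, _, _ => trivial
  | _ :: l, _, ⟨h1, h2⟩, ⟨h3, h4⟩ => ⟨⟨h1, h3⟩, Adj.and l _ h2 h4⟩

/-- sortedness part of a piece -/
def Srt (a b : Nd) : Prop := a.x < b.x ∨ (a.x ≤ b.x ∧ a.k = b.k)

lemma Srt.le {a b : Nd} (h : Srt a b) : a.x ≤ b.x := by
  rcases h with h | h
  · exact h.le
  · exact h.1

lemma le_lastx : ∀ (l : List Nd) (a : Nd), Adj Srt a l → a.x ≤ lastx a l
  | [], _, _ => le_rfl
  | _ :: l, _, ⟨h1, h2⟩ => h1.le.trans (le_lastx l _ h2)

/-- affine interpolation on one segment, constant outside -/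
noncomputable def seg (x0 x1 k0 k1 x : ℝ) : ℝ :=
  k0 + (k1 - k0) * ((max x0 (min x x1) - x0) / (x1 - x0))

lemma seg_cont (x0 x1 k0 k1 : ℝ) : Continuous (seg x0 x1 k0 k1) := by
  unfold seg
  fun_prop

lemma seg_left {x0 x1 k0 k1 x : ℝ} (h : x0 ≤ x1) (hx : x ≤ x0) : seg x0 x1 k0 k1 x = k0 := by
  unfold seg
  rw [min_eq_left (hx.trans h), max_eq_left hx]
  simp

lemma seg_right {x0 x1 k0 k1 x : ℝ} (h : x0 < x1 ∨ (x0 ≤ x1 ∧ k0 = k1)) (hx : x1 ≤ x) :
    seg x0 x1 k0 k1 x = k1 := by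
  unfold seg
  rcases h with h | ⟨h, h'⟩
  · rw [min_eq_right hx, max_eq_right h.le, div_self (by linarith)]
    ring
  · rw [h']; ring

lemma seg_mid {x0 x1 k0 k1 t : ℝ} (h : x0 < x1 ∨ (x0 ≤ x1 ∧ k0 = k1)) (ht : t ∈ Icc (0 : ℝ) 1) :
    seg x0 x1 k0 k1 ((1 - t) * x0 + t * x1) = (1 - t) * k0 + t * k1 := by
  obtain ⟨h0, h1⟩ := ht
  rcases h with h | ⟨h, h'⟩
  · unfold seg
    have e1 : (1 - t) * x0 + t * x1 ≤ x1 := by nlinarith
    have e2 : x0 ≤ (1 - t) * x0 + t * x1 := by nlinarith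
    rw [min_eq_left e1, max_eq_right e2]
    have : (x1 - x0) ≠ 0 := by linarith
    field_simp
    ring
  · unfold seg
    rw [h']; ring

lemma seg_mem {x0 x1 k0 k1 : ℝ} (h : x0 ≤ x1)
    (x : ℝ) : ∃ t ∈ Icc (0 : ℝ) 1, seg x0 x1 k0 k1 x = (1 - t) * k0 + t * k1 := by
  refine ⟨(max x0 (min x x1) - x0) / (x1 - x0), ⟨?_, ?_⟩, ?_⟩
  · apply div_nonneg
    · linarith [le_max_left x0 (min x x1)]
    · linarith
  · apply div_le_one_of_le₀
    · have : max x0 (min x x1) ≤ x1 := max_le h (min_le_right _ _)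
      linarith
    · linarith
  · unfold seg; ring

/-- the piecewise linear function -/
noncomputable def plin : Nd → List Nd → ℝ → ℝ
  | a, [] => fun _ => rv a.k
  | a, b :: l => fun x => seg (rv a.x) (rv b.x) (rv a.k) (rv b.k) x + (plin b l x - rv b.k)

lemma srt_real {a b : Nd} (h : Srt a b) :
    rv a.x < rv b.x ∨ (rv a.x ≤ rv b.x ∧ rv a.k = rv b.k) := by
  rcases h with h | ⟨h, h'⟩
  · exact Or.inl (rv_lt h)
  · exact Or.inr ⟨rv_le h, by rw [h']⟩

lemma plin_cont : ∀ (l : List Nd) (a : Nd), Continuous (plin a l)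
  | [], _ => continuous_const
  | b :: l, a => by
    unfold plin
    exact (seg_cont _ _ _ _).add ((plin_cont l b).sub continuous_const)

lemma plin_left : ∀ (l : List Nd) (a : Nd), Adj Srt a l → ∀ x, x ≤ rv a.x → plin a l x = rv a.k
  | [], _, _, _, _ => rfl
  | b :: l, a, ⟨h1, h2⟩, x, hx => by
    have e : x ≤ rv b.x := hx.trans (rv_le h1.le)
    simp only [plin]
    rw [seg_left (rv_le h1.le) hx, plin_left l b h2 x e]
    ring

lemma plin_tail (l : List Nd) (a b : Nd) (h : Adj Srt a (b :: l)) (x : ℝ) (hx : rv b.x ≤ x) :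
    plin a (b :: l) x = plin b l x := by
  simp only [plin]
  rw [seg_right (srt_real h.1) hx]
  ring

/-- `κ` interpolates on a pair -/
def Itp (κ : ℝ → ℝ) (a b : Nd) : Prop :=
  ∀ t ∈ Icc (0 : ℝ) 1, κ ((1 - t) * rv a.x + t * rv b.x) = (1 - t) * rv a.k + t * rv b.k

lemma adj_mono_right : ∀ (l : List Nd) (a : Nd) (κ κ' : ℝ → ℝ), Adj Srt a l →
    (∀ x, rv a.x ≤ x → κ x = κ' x) → Adj (Itp κ') a l → Adj (Itp κ) a l
  | [], _, _, _, _, _, _ => trivial
  | b :: l, a, κ, κ', ⟨h1, h2⟩, he, ⟨h3, h4⟩ => by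
    refine ⟨?_, adj_mono_right l b κ κ' h2 (fun x hx => he x ((rv_le h1.le).trans hx)) h4⟩
    intro t ht
    rw [he]
    · exact h3 t ht
    · have := rv_le h1.le
      nlinarith [ht.1, ht.2]

lemma plin_itp : ∀ (l : List Nd) (a : Nd), Adj Srt a l → Adj (Itp (plin a l)) a l
  | [], _, _ => trivial
  | b :: l, a, h => by
    refine ⟨?_, ?_⟩
    · intro t ht
      have hle : (1 - t) * rv a.x + t * rv b.x ≤ rv b.x := by
        have := rv_le h.1.le
        nlinarith [ht.1, ht.2]
      simp only [plin]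
      rw [seg_mid (srt_real h.1) ht, plin_left l b h.2 _ hle]
      ring
    · exact adj_mono_right l b _ _ h.2 (fun x hx => plin_tail l a b h x hx) (plin_itp l b h.2)

/-- values of `plin` lie in `[0,1]` -/
lemma plin_mem : ∀ (l : List Nd) (a : Nd), Adj Srt a l → rv a.k ∈ Icc (0 : ℝ) 1 →
    Adj (fun _ b => rv b.k ∈ Icc (0 : ℝ) 1) a l → ∀ x, plin a l x ∈ Icc (0 : ℝ) 1
  | [], _, _, h, _, _ => h
  | b :: l, a, h, h0, ⟨h1, h2⟩, x => by
    rcases le_total x (rv b.x) with hx | hx
    · have e : plin a (b :: l) x = seg (rv a.x) (rv b.x) (rv a.k) (rv b.k) x := by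
        simp only [plin]
        rw [plin_left l b h.2 x hx]; ring
      rw [e]
      obtain ⟨t, ht, e2⟩ := seg_mem (k0 := rv a.k) (k1 := rv b.k) (rv_le h.1.le) x
      rw [e2]
      obtain ⟨h00, h01⟩ := h0
      obtain ⟨h10, h11⟩ := h1
      obtain ⟨t0, t1⟩ := ht
      constructor
      · have : 0 ≤ 1 - t := by linarith
        positivity
      · nlinarith
    · rw [plin_tail l a b h x hx]
      exact plin_mem l b h.2 h1 h2 x

/-- every point of the range lies in some piece -/
lemma cover (R : Nd → Nd → Prop) : ∀ (l : List Nd) (a b : Nd), Adj Srt a (b :: l) →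
    Adj R a (b :: l) → ∀ x, rv a.x ≤ x → x ≤ rv (lastx a (b :: l)) →
    ∃ a' b', R a' b' ∧ ∃ t ∈ Icc (0 : ℝ) 1, x = (1 - t) * rv a'.x + t * rv b'.x := by
  intro l
  induction l with
  | nil =>
    intro a b hs hR x h1 h2
    refine ⟨a, b, hR.1, ?_⟩
    simp only [lastx] at h2
    rcases (rv_le hs.1.le).lt_or_eq with hlt | heq
    · refine ⟨(x - rv a.x) / (rv b.x - rv a.x), ⟨div_nonneg (by linarith) (by linarith),
        div_le_one_of_le₀ (by linarith) (by linarith)⟩, ?_⟩
      have : rv b.x - rv a.x ≠ 0 := by linarith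
      field_simp
      ring
    · refine ⟨0, ⟨le_rfl, zero_le_one⟩, ?_⟩
      have : x = rv a.x := le_antisymm (by rw [heq]; exact h2) h1
      rw [this]; ring
  | cons c l ih =>
    intro a b hs hR x h1 h2
    rcases le_total x (rv b.x) with hx | hx
    · refine ⟨a, b, hR.1, ?_⟩
      rcases (rv_le hs.1.le).lt_or_eq with hlt | heq
      · refine ⟨(x - rv a.x) / (rv b.x - rv a.x), ⟨div_nonneg (by linarith) (by linarith),
          div_le_one_of_le₀ (by linarith) (by linarith)⟩, ?_⟩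
        have : rv b.x - rv a.x ≠ 0 := by linarith
        field_simp
        ring
      · refine ⟨0, ⟨le_rfl, zero_le_one⟩, ?_⟩
        have : x = rv a.x := le_antisymm (by rw [heq]; exact hx) h1
        rw [this]; ring
    · exact ih b c hs.2 hR.2 x hx h2

/-- weight condition -/
def Wt (a b : Nd) : Prop := a.k * a.k + a.w * a.w ≤ SC * SC ∧ b.k * b.k + b.w * b.w ≤ SC * SC

lemma wt_real {k w : ℕ} (h : k * k + w * w ≤ SC * SC) : rv w ^ 2 + rv k ^ 2 ≤ 1 := by
  have h' : (k : ℝ) * k + w * w ≤ 1000000 * 1000000 := by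
    have : ((k * k + w * w : ℕ) : ℝ) ≤ ((SC * SC : ℕ) : ℝ) := by exact_mod_cast h
    push_cast at this
    simpa [SC] using this
  unfold rv
  rw [div_pow, div_pow, ← add_div, div_le_one (by positivity)]
  nlinarith

lemma k_real {k w : ℕ} (h : k * k + w * w ≤ SC * SC) : rv k ∈ Icc (0 : ℝ) 1 := by
  refine ⟨rv_nonneg k, ?_⟩
  have := wt_real h
  nlinarith [rv_nonneg k, sq_nonneg (rv w)]

/-- integral lower bound by the trapezoid sum -/
lemma int_ge (κ : ℝ → ℝ) (hκ : Continuous κ) (lo hi : ℕ) : ∀ (l : List Nd) (a : Nd), Adj Srt a l →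
    Adj Wt a l → Adj (Itp κ) a l →
    ((tsum lo hi a l : ℕ) : ℝ) / (2 * 1000000 * 1000000) ≤
      ∫ x in (rv a.x)..(rv (lastx a l)),
        (Icc (rv lo) (rv hi)).indicator (fun x => √(1 - κ x ^ 2)) x
  | [], a, _, _, _ => by simp [Chk.tsum, lastx]
  | b :: l, a, ⟨hs, hs'⟩, ⟨hw, hw'⟩, ⟨hi1, hi'⟩ => by
    have ih := int_ge κ hκ lo hi l b hs' hw' hi'
    have hint : ∀ u v : ℝ, IntervalIntegrable
        (fun x => (Icc (rv lo) (rv hi)).indicator (fun x => √(1 - κ x ^ 2)) x) volume u v := by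
      intro u v
      have hc : Continuous (fun x => √(1 - κ x ^ 2)) := by fun_prop
      have h1 : IntegrableOn (fun x => √(1 - κ x ^ 2)) (Set.uIoc u v) volume :=
        (hc.intervalIntegrable u v).def'
      rw [intervalIntegrable_iff]
      exact h1.indicator measurableSet_Icc
    have hsplit : ∫ x in (rv a.x)..(rv (lastx a (b :: l))),
        (Icc (rv lo) (rv hi)).indicator (fun x => √(1 - κ x ^ 2)) x =
        (∫ x in (rv a.x)..(rv b.x), (Icc (rv lo) (rv hi)).indicator (fun x => √(1 - κ x ^ 2)) x) +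
        ∫ x in (rv b.x)..(rv (lastx b l)),
          (Icc (rv lo) (rv hi)).indicator (fun x => √(1 - κ x ^ 2)) x := by
      rw [intervalIntegral.integral_add_adjacent_intervals (hint _ _) (hint _ _)]
      rfl
    rw [hsplit]
    have hab : rv a.x ≤ rv b.x := rv_le hs.le
    have hfirst : (((bif Nat.ble lo a.x && Nat.ble b.x hi then (b.x - a.x) * (a.w + b.w) else 0 : ℕ)) : ℝ)
        / (2 * 1000000 * 1000000) ≤
        ∫ x in (rv a.x)..(rv b.x), (Icc (rv lo) (rv hi)).indicator (fun x => √(1 - κ x ^ 2)) x := by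
      cases hb : (Nat.ble lo a.x && Nat.ble b.x hi) with
      | false =>
        simp only [cond_false, Nat.cast_zero, zero_div]
        apply intervalIntegral.integral_nonneg hab
        intro x _
        exact Set.indicator_nonneg (fun _ _ => Real.sqrt_nonneg _) x
      | true =>
        simp only [cond_true]
        rw [Bool.and_eq_true] at hb
        have h1 : lo ≤ a.x := Nat.le_of_ble_eq_true hb.1
        have h2 : b.x ≤ hi := Nat.le_of_ble_eq_true hb.2
        have heq : ∫ x in (rv a.x)..(rv b.x), (Icc (rv lo) (rv hi)).indicator (fun x => √(1 - κ x ^ 2)) x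
            = ∫ x in (rv a.x)..(rv b.x), √(1 - κ x ^ 2) := by
          apply intervalIntegral.integral_congr
          intro x hx
          rw [uIcc_of_le hab] at hx
          have hmem : x ∈ Icc (rv lo) (rv hi) := ⟨(rv_le h1).trans hx.1, hx.2.trans (rv_le h2)⟩
          exact Set.indicator_of_mem hmem _
        rw [heq]
        have ht := trap (rv a.x) (rv b.x) (rv a.k) (rv b.k) (rv a.w) (rv b.w) hab (rv_nonneg _)
          (rv_nonneg _) (rv_nonneg _) (rv_nonneg _) (wt_real hw.1) (wt_real hw.2) κ hi1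
        refine le_trans (le_of_eq ?_) ht
        have hx : a.x ≤ b.x := hs.le
        push_cast [Nat.cast_sub hx]
        unfold rv
        ring
    have : ((tsum lo hi a (b :: l) : ℕ) : ℝ) / (2 * 1000000 * 1000000) =
        (((bif Nat.ble lo a.x && Nat.ble b.x hi then (b.x - a.x) * (a.w + b.w) else 0 : ℕ)) : ℝ)
        / (2 * 1000000 * 1000000) + ((tsum lo hi b l : ℕ) : ℝ) / (2 * 1000000 * 1000000) := by
      simp only [Chk.tsum]
      push_cast
      ring
    rw [this]
    exact add_le_add hfirst ih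

/-- scaled affine function -/
noncomputable def af (lam H : ℤ) (x : ℝ) : ℝ := (lam : ℝ) / 1000000 * x + (H : ℝ) / 1000000

lemma af_comb (lam H : ℤ) (x y t : ℝ) :
    af lam H ((1 - t) * x + t * y) = (1 - t) * af lam H x + t * af lam H y := by
  unfold af; ring

lemma af_le_lv (lam H : ℤ) (x : ℕ) : af lam H (rv x) ≤ (lv lam H x : ℝ) / (1000000 * 1000000) := by
  have h : lam * (x : ℤ) + H * (SC : ℤ) ≤ ((lv lam H x : ℕ) : ℤ) := Int.self_le_toNat _
  have h' : (lam : ℝ) * x + H * 1000000 ≤ (lv lam H x : ℝ) := by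
    have := (Int.cast_le (R := ℝ)).mpr h
    push_cast at this
    simpa [SC] using this
  unfold af rv
  rw [le_div_iff₀ (by positivity)]
  have : ((lam : ℝ) / 1000000 * ((x : ℝ) / 1000000) + (H : ℝ) / 1000000) * (1000000 * 1000000)
      = (lam : ℝ) * x + H * 1000000 := by ring
  rw [this]; exact h'

lemma af_add (lam H : ℤ) (m : ℕ) (x : ℝ) : af lam (H + m) x = af lam H x + rv m := by
  unfold af rv; push_cast; ring

lemma af_sub (lam H : ℤ) (m : ℕ) (x : ℝ) : af lam (H - m) x = af lam H x - rv m := by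
  unfold af rv; push_cast; ring

lemma comb_le {u0 u1 v0 v1 t : ℝ} (ht : t ∈ Icc (0 : ℝ) 1) (h0 : u0 ≤ v0) (h1 : u1 ≤ v1) :
    (1 - t) * u0 + t * u1 ≤ (1 - t) * v0 + t * v1 := by
  have := ht.1
  have : 0 ≤ 1 - t := by linarith [ht.2]
  gcongr

lemma t3_real {k0 k1 y0 y1 l0 l1 : ℕ} (h : t3 k0 k1 y0 y1 l0 l1 = true) (t : ℝ)
    (ht : t ∈ Icc (0 : ℝ) 1) :
    (1 - t) * ((l0 : ℝ) / (1000000 * 1000000)) + t * ((l1 : ℝ) / (1000000 * 1000000)) ≤
      ((1 - t) * rv k0 + t * rv k1) * √(Real.pi * ((1 - t) * rv y0 + t * rv y1)) := by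
  unfold t3 at h
  simp only [Bool.and_eq_true] at h
  obtain ⟨⟨⟨h1, h2⟩, h3⟩, h4⟩ := h
  have h1 := Nat.le_of_ble_eq_true h1
  have h2 := Nat.le_of_ble_eq_true h2
  have h3 := Nat.le_of_ble_eq_true h3
  have h4 := Nat.le_of_ble_eq_true h4
  have h1' : (l0 : ℝ) * l0 ≤ 3141592 * (k0 * k0 * y0) := by
    have : ((l0 * l0 : ℕ) : ℝ) ≤ ((PIm * (k0 * k0 * y0) : ℕ) : ℝ) := by exact_mod_cast h1
    push_cast at this; simpa [PIm] using this
  have h2' : (l0 : ℝ) * l0 + 2 * l0 * l1 ≤ 3141592 * (k0 * k0 * y1 + 2 * k0 * k1 * y0) := by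
    have : ((l0 * l0 + 2 * l0 * l1 : ℕ) : ℝ) ≤
        ((PIm * (k0 * k0 * y1 + 2 * k0 * k1 * y0) : ℕ) : ℝ) := by exact_mod_cast h2
    push_cast at this; simpa [PIm] using this
  have h3' : 2 * (l0 : ℝ) * l1 + l1 * l1 ≤ 3141592 * (2 * k0 * k1 * y1 + k1 * k1 * y0) := by
    have : ((2 * l0 * l1 + l1 * l1 : ℕ) : ℝ) ≤
        ((PIm * (2 * k0 * k1 * y1 + k1 * k1 * y0) : ℕ) : ℝ) := by exact_mod_cast h3
    push_cast at this; simpa [PIm] using this
  have h4' : (l1 : ℝ) * l1 ≤ 3141592 * (k1 * k1 * y1) := by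
    have : ((l1 * l1 : ℕ) : ℝ) ≤ ((PIm * (k1 * k1 * y1) : ℕ) : ℝ) := by exact_mod_cast h4
    push_cast at this; simpa [PIm] using this
  have hpi : (3141592 / 1000000 : ℝ) ≤ Real.pi := by
    have := Real.pi_gt_d6
    linarith
  apply t3_sound (rv k0) (rv k1) (rv y0) (rv y1) _ _ (3141592 / 1000000) (rv_nonneg _)
    (rv_nonneg _) (rv_nonneg _) (rv_nonneg _) (by positivity) (by positivity) (by norm_num) hpi
    _ _ _ _ t ht
  · unfold rv
    rw [div_pow, div_le_iff₀ (by positivity)]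
    calc (l0 : ℝ) ^ 2 = (l0 : ℝ) * l0 := by ring
      _ ≤ _ := h1'
      _ = _ := by ring
  · unfold rv
    have e : ((l0 : ℝ) / (1000000 * 1000000)) ^ 2 +
        2 * ((l0 : ℝ) / (1000000 * 1000000)) * ((l1 : ℝ) / (1000000 * 1000000)) =
        ((l0 : ℝ) * l0 + 2 * l0 * l1) / (1000000 * 1000000) ^ 2 := by ring
    rw [e, div_le_iff₀ (by positivity)]
    refine h2'.trans (le_of_eq ?_)
    ring
  · unfold rv
    have e : 2 * ((l0 : ℝ) / (1000000 * 1000000)) * ((l1 : ℝ) / (1000000 * 1000000)) +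
        ((l1 : ℝ) / (1000000 * 1000000)) ^ 2 =
        (2 * (l0 : ℝ) * l1 + l1 * l1) / (1000000 * 1000000) ^ 2 := by ring
    rw [e, div_le_iff₀ (by positivity)]
    refine h3'.trans (le_of_eq ?_)
    ring
  · unfold rv
    rw [div_pow, div_le_iff₀ (by positivity)]
    calc (l1 : ℝ) ^ 2 = (l1 : ℝ) * l1 := by ring
      _ ≤ _ := h4'
      _ = _ := by ring

lemma t2_real {k0 k1 s0 s1 l0 l1 : ℕ} (h : t2 k0 k1 s0 s1 l0 l1 = true) (t : ℝ)
    (ht : t ∈ Icc (0 : ℝ) 1) :
    (1 - t) * ((l0 : ℝ) / (1000000 * 1000000)) + t * ((l1 : ℝ) / (1000000 * 1000000)) ≤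
      ((1 - t) * rv k0 + t * rv k1) *
        ((1 - t) * ((s0 : ℝ) / (1000000 * 1000000)) + t * ((s1 : ℝ) / (1000000 * 1000000))) := by
  unfold t2 at h
  simp only [Bool.and_eq_true] at h
  obtain ⟨⟨h1, h2⟩, h3⟩ := h
  have h1 := Nat.le_of_ble_eq_true h1
  have h2 := Nat.le_of_ble_eq_true h2
  have h3 := Nat.le_of_ble_eq_true h3
  have h1' : (l0 : ℝ) * 1000000 ≤ k0 * s0 := by
    have : ((l0 * SC : ℕ) : ℝ) ≤ ((k0 * s0 : ℕ) : ℝ) := by exact_mod_cast h1
    push_cast at this; simpa [SC] using this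
  have h2' : ((l0 : ℝ) + l1) * 1000000 ≤ k0 * s1 + k1 * s0 := by
    have : (((l0 + l1) * SC : ℕ) : ℝ) ≤ ((k0 * s1 + k1 * s0 : ℕ) : ℝ) := by exact_mod_cast h2
    push_cast at this; simpa [SC] using this
  have h3' : (l1 : ℝ) * 1000000 ≤ k1 * s1 := by
    have : ((l1 * SC : ℕ) : ℝ) ≤ ((k1 * s1 : ℕ) : ℝ) := by exact_mod_cast h3
    push_cast at this; simpa [SC] using this
  apply t2_sound _ _ _ _ _ _ _ _ _ t ht
  · unfold rv
    rw [div_le_iff₀ (by positivity)]
    have e : (k0 : ℝ) / 1000000 * (s0 / (1000000 * 1000000)) * (1000000 * 1000000)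
        = (k0 * s0) / 1000000 := by ring
    rw [e, le_div_iff₀ (by positivity)]
    exact h1'
  · unfold rv
    rw [← add_div, div_le_iff₀ (by positivity)]
    have e : ((k0 : ℝ) / 1000000 * (s1 / (1000000 * 1000000)) +
        (k1 : ℝ) / 1000000 * (s0 / (1000000 * 1000000))) * (1000000 * 1000000)
        = (k0 * s1 + k1 * s0) / 1000000 := by ring
    rw [e, le_div_iff₀ (by positivity)]
    exact h2'
  · unfold rv
    rw [div_le_iff₀ (by positivity)]
    have e : (k1 : ℝ) / 1000000 * (s1 / (1000000 * 1000000)) * (1000000 * 1000000)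
        = (k1 * s1) / 1000000 := by ring
    rw [e, le_div_iff₀ (by positivity)]
    exact h3'

lemma tC_real {c k0 k1 l0 l1 : ℕ} (h : tC c k0 k1 l0 l1 = true) (t : ℝ)
    (ht : t ∈ Icc (0 : ℝ) 1) :
    (1 - t) * ((l0 : ℝ) / (1000000 * 1000000)) + t * ((l1 : ℝ) / (1000000 * 1000000)) ≤
      ((1 - t) * rv k0 + t * rv k1) * rv c := by
  unfold tC at h
  simp only [Bool.and_eq_true] at h
  obtain ⟨h1, h2⟩ := h
  have h1 := Nat.le_of_ble_eq_true h1
  have h2 := Nat.le_of_ble_eq_true h2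
  have h1' : (l0 : ℝ) ≤ k0 * c := by exact_mod_cast h1
  have h2' : (l1 : ℝ) ≤ k1 * c := by exact_mod_cast h2
  have e : ((1 - t) * rv k0 + t * rv k1) * rv c =
      (1 - t) * (((k0 : ℝ) * c) / (1000000 * 1000000)) +
      t * (((k1 : ℝ) * c) / (1000000 * 1000000)) := by
    unfold rv; ring
  rw [e]
  apply comb_le ht
  · gcongr
  · gcongr

/-- lower bounds of `mk` from the table -/
def TabOK : Prop := ∀ j : ℕ, j ≤ 40 → rv (MT j) ≤ mk ((j : ℝ) / 40)

lemma tS_real (hT : TabOK) {w j k0 k1 x0 x1 l0 l1 : ℕ} (h : tS w j k0 k1 x0 x1 l0 l1 = true)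
    (hx : x0 ≤ x1) (t : ℝ) (ht : t ∈ Icc (0 : ℝ) 1) :
    ∃ k ∈ Icc (0 : ℝ) 1, ∀ w' ≤ rv w,
    (1 - t) * ((l0 : ℝ) / (1000000 * 1000000)) + t * ((l1 : ℝ) / (1000000 * 1000000)) ≤
      ((1 - t) * rv k0 + t * rv k1) * (mk k + k * (((1 - t) * rv x0 + t * rv x1) - w')) := by
  unfold tS at h
  simp only [Bool.and_eq_true] at h
  obtain ⟨⟨h1, h2⟩, h3⟩ := h
  have h1 := Nat.le_of_ble_eq_true h1
  have h2 := Nat.le_of_ble_eq_true h2
  have hj : (j : ℝ) ≤ 40 := by exact_mod_cast h1
  refine ⟨(j : ℝ) / 40, ⟨by positivity, by linarith⟩, ?_⟩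
  intro w' hw'
  have h4 := t2_real h3 t ht
  refine h4.trans ?_
  have hk : 0 ≤ (1 - t) * rv k0 + t * rv k1 := by
    have := ht.1
    have : 0 ≤ 1 - t := by linarith [ht.2]
    have := rv_nonneg k0
    have := rv_nonneg k1
    positivity
  apply mul_le_mul_of_nonneg_left _ hk
  have hx1 : 25000 * j * w ≤ MT j * SC + 25000 * j * x1 :=
    h2.trans (Nat.add_le_add_left (Nat.mul_le_mul_left _ hx) _)
  rw [Nat.cast_sub h2, Nat.cast_sub hx1]
  have e : (1 - t) * (((MT j * SC + 25000 * j * x0 : ℕ) : ℝ) - ((25000 * j * w : ℕ) : ℝ)) /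
      (1000000 * 1000000) + t * (((MT j * SC + 25000 * j * x1 : ℕ) : ℝ) -
      ((25000 * j * w : ℕ) : ℝ)) / (1000000 * 1000000) =
      rv (MT j) + (j : ℝ) / 40 * (((1 - t) * rv x0 + t * rv x1) - rv w) := by
    unfold rv SC
    push_cast
    ring
  have e' : (1 - t) * ((((MT j * SC + 25000 * j * x0 : ℕ) : ℝ) - ((25000 * j * w : ℕ) : ℝ)) /
      (1000000 * 1000000)) + t * ((((MT j * SC + 25000 * j * x1 : ℕ) : ℝ) -
      ((25000 * j * w : ℕ) : ℝ)) / (1000000 * 1000000)) =
      rv (MT j) + (j : ℝ) / 40 * (((1 - t) * rv x0 + t * rv x1) - rv w) := by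
    rw [← e]; ring
  rw [e']
  have h5 := hT j h1
  have h6 : (j : ℝ) / 40 * (((1 - t) * rv x0 + t * rv x1) - rv w) ≤
      (j : ℝ) / 40 * (((1 - t) * rv x0 + t * rv x1) - w') := by
    apply mul_le_mul_of_nonneg_left _ (by positivity)
    linarith
  linarith

lemma f_anti {v v' c : ℝ} (hv' : 0 < v') (hvv : v' ≤ v) (hc : Real.pi * v ^ 2 ≤ 4 * c) :
    Real.pi * v / 4 + c / v ≤ Real.pi * v' / 4 + c / v' := by
  have hv : 0 < v := lt_of_lt_of_le hv' hvv
  have e : (Real.pi * v' / 4 + c / v') - (Real.pi * v / 4 + c / v) =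
      (v - v') * (4 * c - Real.pi * (v * v')) / (4 * (v * v')) := by
    field_simp
    ring
  have h1 : 0 ≤ 4 * c - Real.pi * (v * v') := by
    have : v * v' ≤ v ^ 2 := by nlinarith
    have := mul_le_mul_of_nonneg_left this Real.pi_pos.le
    linarith
  have h2 : 0 ≤ (v - v') * (4 * c - Real.pi * (v * v')) / (4 * (v * v')) := by
    apply div_nonneg
    · exact mul_nonneg (by linarith) h1
    · positivity
  linarith

lemma tL_real {v k0 k1 x0 x1 l0 l1 : ℕ} (h : tL v k0 k1 x0 x1 l0 l1 = true)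
    (hx : x0 ≤ x1) (hx1 : x1 ≤ SC) (t : ℝ) (ht : t ∈ Icc (0 : ℝ) 1) (v' : ℝ) (hv0 : 0 < v')
    (hv : v' ≤ rv v) :
    (1 - t) * ((l0 : ℝ) / (1000000 * 1000000)) + t * ((l1 : ℝ) / (1000000 * 1000000)) ≤
      ((1 - t) * rv k0 + t * rv k1) * (Real.pi * v' / 4 +
        (1 - ((1 - t) * rv x0 + t * rv x1)) / v') := by
  unfold tL at h
  simp only [Bool.and_eq_true] at h
  obtain ⟨h1, h2⟩ := h
  have h1 := Nat.le_of_ble_eq_true h1
  have ht0 := ht.1
  have ht1 : 0 ≤ 1 - t := by linarith [ht.2]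
  have hvp : 0 < rv v := lt_of_lt_of_le hv0 hv
  have hvn : 0 < (v : ℝ) := by
    unfold rv at hvp
    by_contra hcon
    rw [not_lt] at hcon
    have : (v : ℝ) / 1000000 ≤ 0 := div_nonpos_of_nonpos_of_nonneg hcon (by norm_num)
    linarith
  have hvnat : 0 < v := by exact_mod_cast hvn
  refine (t2_real h2 t ht).trans ?_
  have hk : 0 ≤ (1 - t) * rv k0 + t * rv k1 := by
    have := rv_nonneg k0
    have := rv_nonneg k1
    positivity
  apply mul_le_mul_of_nonneg_left _ hk
  have hxx0 : x0 ≤ SC := hx.trans hx1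
  have hdiv : ((SC * SC / v : ℕ) : ℝ) ≤ 1000000 * 1000000 / v := by
    refine (Nat.cast_div_le).trans ?_
    norm_num [SC]
  have hpd : ((PIm * v / 4 : ℕ) : ℝ) ≤ 3141592 * v / 4 := by
    refine (Nat.cast_div_le).trans ?_
    simp [PIm]
  have hpi : (3141592 / 1000000 : ℝ) ≤ Real.pi := by
    have := Real.pi_gt_d6
    linarith
  have hs : ∀ x : ℕ, x ≤ SC → ((PIm * v / 4 + (SC - x) * (SC * SC / v) : ℕ) : ℝ) /
      (1000000 * 1000000) ≤ Real.pi * rv v / 4 + (1 - rv x) / rv v := by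
    intro x hxs
    have hxr : (x : ℝ) ≤ 1000000 := by
      have : (x : ℝ) ≤ (SC : ℝ) := by exact_mod_cast hxs
      simpa [SC] using this
    rw [Nat.cast_add, Nat.cast_mul, Nat.cast_sub hxs, add_div]
    apply add_le_add
    · rw [div_le_iff₀ (by positivity)]
      refine hpd.trans ?_
      unfold rv
      have : Real.pi * ((v : ℝ) / 1000000) / 4 * (1000000 * 1000000)
          = (Real.pi * 1000000) * v / 4 := by ring
      rw [this]
      have : (3141592 : ℝ) ≤ Real.pi * 1000000 := by linarith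
      gcongr
    · rw [div_le_iff₀ (by positivity)]
      have e : (1 - rv x) / rv v * (1000000 * 1000000) =
          (1000000 - (x : ℝ)) * (1000000 * 1000000 / v) := by
        unfold rv
        field_simp
      rw [e]
      have : ((SC : ℕ) : ℝ) = 1000000 := by simp [SC]
      rw [this]
      apply mul_le_mul_of_nonneg_left hdiv
      linarith
  have h3 := comb_le ht (hs x0 hxx0) (hs x1 hx1)
  refine h3.trans ?_
  have e : (1 - t) * (Real.pi * rv v / 4 + (1 - rv x0) / rv v) +
      t * (Real.pi * rv v / 4 + (1 - rv x1) / rv v) =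
      Real.pi * rv v / 4 + (1 - ((1 - t) * rv x0 + t * rv x1)) / rv v := by
    field_simp
    ring
  rw [e]
  apply f_anti hv0 hv
  have hc : Real.pi * rv v ^ 2 ≤ 4 * (1 - rv x1) := by
    have h1' : (3141593 : ℝ) * (v * v) ≤ 4 * (1000000 * 1000000) * (1000000 - x1) := by
      have : ((PIp * (v * v) : ℕ) : ℝ) ≤ ((4 * (SC * SC) * (SC - x1) : ℕ) : ℝ) := by
        exact_mod_cast h1
      rw [Nat.cast_mul, Nat.cast_mul (4 * (SC * SC)), Nat.cast_sub hx1] at this
      push_cast at this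
      simpa [SC, PIp] using this
    have hpi2 : Real.pi ≤ 3141593 / 1000000 := by
      have := Real.pi_lt_d6
      linarith
    unfold rv
    have : Real.pi * ((v : ℝ) / 1000000) ^ 2 ≤ 3141593 / 1000000 * ((v : ℝ) / 1000000) ^ 2 := by
      gcongr
    refine this.trans ?_
    have e1 : (3141593 : ℝ) / 1000000 * ((v : ℝ) / 1000000) ^ 2 =
        (3141593 * (v * v)) / (1000000 * (1000000 * 1000000)) := by ring
    rw [e1, div_le_iff₀ (by positivity)]
    refine h1'.trans (le_of_eq ?_)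
    ring
  have hxle : (1 - t) * rv x0 + t * rv x1 ≤ rv x1 := by
    have := rv_le hx
    nlinarith
  linarith

/-- what the tests of one piece give at a point `x` with value `c` of kappa -/
def PP (fam : ℕ) (em ep : ℕ) (lam H : ℤ) (mu : ℕ) (x c : ℝ) : Prop :=
  match fam with
  | 0 => af lam H x ≤ c * √(Real.pi * x) ∧ af lam H x ≤ c * √(Real.pi * (1 - x)) ∧
      af lam H x ≤ c * 1
  | 1 => af lam H x ≤ c * √(Real.pi * x) ∧
      (∃ k ∈ Icc (0 : ℝ) 1, af lam H x ≤ c * (mk k + k * (x - 1 / 10))) ∧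
      af lam H x ≤ c * (√2 * (9 / 10)) ∧
      (af lam (H - mu) x ≤ c * √(Real.pi * (1 - x)) ∨ af lam (H - mu) x ≤ c * (9 / 10))
  | _ => af lam H x ≤ c * √(Real.pi * x) ∧
      (∃ k ∈ Icc (0 : ℝ) 1, ∀ w ≤ rv ep, af lam H x ≤ c * (mk k + k * (x - w))) ∧
      (af lam (H + mu) x ≤ c * √(Real.pi * (1 - x)) ∨
        ∀ v, 0 < v → v ≤ rv (SC - em) →
          af lam (H + mu) x ≤ c * (Real.pi * v / 4 + (1 - x) / v))

lemma af_comb_le {lam H : ℤ} {x0 x1 : ℕ} {t R : ℝ} (ht : t ∈ Icc (0 : ℝ) 1)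
    (h : (1 - t) * ((lv lam H x0 : ℝ) / (1000000 * 1000000)) +
      t * ((lv lam H x1 : ℝ) / (1000000 * 1000000)) ≤ R) :
    af lam H ((1 - t) * rv x0 + t * rv x1) ≤ R := by
  rw [af_comb]
  exact (comb_le ht (af_le_lv lam H x0) (af_le_lv lam H x1)).trans h

lemma rv_sub {x : ℕ} (h : x ≤ SC) : rv (SC - x) = 1 - rv x := by
  unfold rv
  rw [Nat.cast_sub h]
  norm_num [SC]
  ring

lemma one_sub_comb {x0 x1 : ℕ} (h0 : x0 ≤ SC) (h1 : x1 ≤ SC) (t : ℝ) :
    (1 - t) * rv (SC - x0) + t * rv (SC - x1) = 1 - ((1 - t) * rv x0 + t * rv x1) := by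
  rw [rv_sub h0, rv_sub h1]; ring

lemma piece_srt {fam em ep : ℕ} {lam H : ℤ} {mu : ℕ} {a b : Nd}
    (h : piece fam em ep lam H mu a b = true) : Srt a b ∧ Wt a b ∧ b.x ≤ SC := by
  unfold piece at h
  simp only [Bool.and_eq_true, Bool.or_eq_true] at h
  obtain ⟨⟨⟨⟨h1, h2⟩, h3⟩, h4⟩, _⟩ := h
  refine ⟨?_, ⟨Nat.le_of_ble_eq_true h3, Nat.le_of_ble_eq_true h4⟩, Nat.le_of_ble_eq_true h2⟩
  rcases h1 with h1 | ⟨h1, h1'⟩
  · left
    exact Nat.le_of_ble_eq_true h1
  · right
    exact ⟨Nat.le_of_ble_eq_true h1, Nat.eq_of_beq_eq_true h1'⟩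

lemma piece_pp (hT : TabOK) {fam em ep : ℕ} {lam H : ℤ} {mu : ℕ} {a b : Nd}
    (h : piece fam em ep lam H mu a b = true) (t : ℝ) (ht : t ∈ Icc (0 : ℝ) 1) :
    PP fam em ep lam H mu ((1 - t) * rv a.x + t * rv b.x) ((1 - t) * rv a.k + t * rv b.k) := by
  obtain ⟨hs, _, hbx⟩ := piece_srt h
  have hab := hs.le
  have hax : a.x ≤ SC := hab.trans hbx
  unfold piece at h
  rw [Bool.and_eq_true] at h
  replace h := h.2
  match fam with
  | 0 =>
    simp only [Bool.and_eq_true] at h
    obtain ⟨⟨h1, h2⟩, h3⟩ := h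
    refine ⟨af_comb_le ht (t3_real h1 t ht), ?_, ?_⟩
    · have := af_comb_le ht (t3_real h2 t ht)
      rwa [one_sub_comb hax hbx] at this
    · have := af_comb_le ht (tC_real h3 t ht)
      have e : rv SC = 1 := by norm_num [rv, SC]
      rwa [e] at this
  | 1 =>
    simp only [Bool.and_eq_true] at h
    obtain ⟨⟨⟨h1, h2⟩, h3⟩, h4⟩ := h
    have hc : 0 ≤ (1 - t) * rv a.k + t * rv b.k := by
      have := rv_nonneg a.k
      have := rv_nonneg b.k
      have := ht.1
      have : 0 ≤ 1 - t := by linarith [ht.2]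
      positivity
    refine ⟨af_comb_le ht (t3_real h1 t ht), ?_, ?_, ?_⟩
    · obtain ⟨k, hk, h5⟩ := tS_real hT h2 hab t ht
      refine ⟨k, hk, af_comb_le ht (h5 (1 / 10) ?_)⟩
      unfold rv; norm_num
    · have := af_comb_le ht (tC_real h3 t ht)
      refine this.trans (mul_le_mul_of_nonneg_left ?_ hc)
      have h2 : (1414213562 / 1000000000 : ℝ) ≤ √2 := by
        apply Real.le_sqrt_of_sq_le
        norm_num
      have e : rv 1272792 = 1272792 / 1000000 := by norm_num [rv]
      rw [e]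
      linarith
    · match hcc : a.c with
      | 0 =>
        rw [hcc] at h4
        left
        have := af_comb_le ht (t3_real h4 t ht)
        rwa [one_sub_comb hax hbx] at this
      | n + 1 =>
        rw [hcc] at h4
        right
        have := af_comb_le ht (tC_real h4 t ht)
        have e : rv 900000 = 9 / 10 := by norm_num [rv]
        rwa [e] at this
  | n + 2 =>
    simp only [Bool.and_eq_true] at h
    obtain ⟨⟨h1, h2⟩, h4⟩ := h
    refine ⟨af_comb_le ht (t3_real h1 t ht), ?_, ?_⟩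
    · obtain ⟨k, hk, h5⟩ := tS_real hT h2 hab t ht
      exact ⟨k, hk, fun w hw => af_comb_le ht (h5 w hw)⟩
    · match hcc : a.c with
      | 0 =>
        rw [hcc] at h4
        left
        have := af_comb_le ht (t3_real h4 t ht)
        rwa [one_sub_comb hax hbx] at this
      | n + 1 =>
        rw [hcc] at h4
        right
        intro v hv0 hv
        exact af_comb_le ht (tL_real h4 hab hbx t ht v hv0 hv)

lemma pieces_adj {fam em ep : ℕ} {lam H : ℤ} {mu : ℕ} : ∀ (l : List Nd) (a : Nd),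
    pieces fam em ep lam H mu a l = true →
    Adj (fun a b => piece fam em ep lam H mu a b = true) a l
  | [], _, _ => trivial
  | b :: l, a, h => by
    unfold pieces at h
    rw [Bool.and_eq_true] at h
    exact ⟨h.1, pieces_adj l b h.2⟩

lemma nn_real {z : ℤ} (h : nn z = true) : 0 ≤ z := by
  match z with
  | .ofNat n => exact Int.natCast_nonneg n
  | .negSucc n => simp [nn] at h

lemma vseg_sound {lam B : ℤ} {v0 v1 ty r T : ℕ} (h : vseg lam B v0 v1 ty r T = true) (V : ℝ)
    (hV : 0 ≤ V) (h0 : rv v0 ≤ V) (h1 : V ≤ rv v1) : JQ V ≤ af lam B V := by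
  have hv01 : rv v0 ≤ rv v1 := h0.trans h1
  -- V is a convex combination
  obtain ⟨t, ht, hVt⟩ : ∃ t ∈ Icc (0 : ℝ) 1, V = (1 - t) * rv v0 + t * rv v1 := by
    rcases hv01.lt_or_eq with hlt | heq
    · refine ⟨(V - rv v0) / (rv v1 - rv v0), ⟨div_nonneg (by linarith) (by linarith),
        div_le_one_of_le₀ (by linarith) (by linarith)⟩, ?_⟩
      have : rv v1 - rv v0 ≠ 0 := by linarith
      field_simp
      ring
    · refine ⟨0, ⟨le_rfl, zero_le_one⟩, ?_⟩
      have : V = rv v0 := le_antisymm (by rw [heq]; exact h1) h0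
      rw [this]; ring
  have ht0 := ht.1
  have ht1 : 0 ≤ 1 - t := by linarith [ht.2]
  match ty with
  | 0 =>
    simp only [vseg, Bool.and_eq_true] at h
    obtain ⟨h2, h3⟩ := h
    have h2 := nn_real h2
    have h3 := nn_real h3
    refine (JQ_le_one V).trans ?_
    have h2' : (1 : ℝ) ≤ af lam B (rv v0) := by
      have : (0 : ℝ) ≤ ((lam * v0 + B * SC - SC * SC : ℤ) : ℝ) := by exact_mod_cast h2
      push_cast at this
      simp only [SC, Nat.cast_ofNat] at this
      unfold af rv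
      have e : (lam : ℝ) / 1000000 * ((v0 : ℝ) / 1000000) + (B : ℝ) / 1000000 - 1 =
          ((lam : ℝ) * v0 + B * 1000000 - 1000000 * 1000000) / (1000000 * 1000000) := by ring
      have : 0 ≤ ((lam : ℝ) * v0 + B * 1000000 - 1000000 * 1000000) / (1000000 * 1000000) := by
        positivity
      linarith
    have h3' : (1 : ℝ) ≤ af lam B (rv v1) := by
      have : (0 : ℝ) ≤ ((lam * v1 + B * SC - SC * SC : ℤ) : ℝ) := by exact_mod_cast h3
      push_cast at this
      simp only [SC, Nat.cast_ofNat] at this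
      unfold af rv
      have e : (lam : ℝ) / 1000000 * ((v1 : ℝ) / 1000000) + (B : ℝ) / 1000000 - 1 =
          ((lam : ℝ) * v1 + B * 1000000 - 1000000 * 1000000) / (1000000 * 1000000) := by ring
      have : 0 ≤ ((lam : ℝ) * v1 + B * 1000000 - 1000000 * 1000000) / (1000000 * 1000000) := by
        positivity
      linarith
    rw [hVt, af_comb]
    nlinarith
  | 1 =>
    simp only [vseg, Bool.and_eq_true] at h
    obtain ⟨⟨hT, h2⟩, h3⟩ := h
    have h2 := nn_real h2
    have h3 := nn_real h3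
    have hT := Nat.le_of_ble_eq_true hT
    have hT' : (3141593 : ℝ) * 1000000 ≤ 4 * T * r := by
      have : ((PIp * SC : ℕ) : ℝ) ≤ ((4 * T * r : ℕ) : ℝ) := by exact_mod_cast hT
      push_cast at this
      simpa [SC, PIp] using this
    have hr : 0 < (r : ℝ) := by
      rcases Nat.eq_zero_or_pos r with hr0 | hr0
      · rw [hr0] at hT'; norm_num at hT'
      · exact_mod_cast hr0
    have hrr : 0 < rv r := by unfold rv; positivity
    refine (JQ_le_tube V (rv r) hV hrr).trans ?_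
    have hTT : Real.pi / (4 * rv r) ≤ rv T := by
      rw [div_le_iff₀ (by positivity)]
      have := Real.pi_lt_d6
      have : Real.pi ≤ 3141593 / 1000000 := by linarith
      refine this.trans ?_
      unfold rv
      have e : (T : ℝ) / 1000000 * (4 * ((r : ℝ) / 1000000)) =
          (4 * T * r) / (1000000 * 1000000) := by ring
      rw [e, le_div_iff₀ (by positivity)]
      linarith
    have h2' : rv r * rv v0 + rv T ≤ af lam B (rv v0) := by
      have : (0 : ℝ) ≤ (((lam - r) * v0 + (B - T) * SC : ℤ) : ℝ) := by exact_mod_cast h2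
      push_cast at this
      simp only [SC, Nat.cast_ofNat] at this
      unfold af rv
      have e : (lam : ℝ) / 1000000 * ((v0 : ℝ) / 1000000) + (B : ℝ) / 1000000 -
          ((r : ℝ) / 1000000 * (v0 / 1000000) + T / 1000000) =
          (((lam : ℝ) - r) * v0 + (B - T) * 1000000) / (1000000 * 1000000) := by ring
      have : 0 ≤ (((lam : ℝ) - r) * v0 + (B - T) * 1000000) / (1000000 * 1000000) := by
        positivity
      linarith
    have h3' : rv r * rv v1 + rv T ≤ af lam B (rv v1) := by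
      have : (0 : ℝ) ≤ (((lam - r) * v1 + (B - T) * SC : ℤ) : ℝ) := by exact_mod_cast h3
      push_cast at this
      simp only [SC, Nat.cast_ofNat] at this
      unfold af rv
      have e : (lam : ℝ) / 1000000 * ((v1 : ℝ) / 1000000) + (B : ℝ) / 1000000 -
          ((r : ℝ) / 1000000 * (v1 / 1000000) + T / 1000000) =
          (((lam : ℝ) - r) * v1 + (B - T) * 1000000) / (1000000 * 1000000) := by ring
      have : 0 ≤ (((lam : ℝ) - r) * v1 + (B - T) * 1000000) / (1000000 * 1000000) := by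
        positivity
      linarith
    have h4 := comb_le ht h2' h3'
    rw [hVt, af_comb]
    have e : (1 - t) * (rv r * rv v0 + rv T) + t * (rv r * rv v1 + rv T) =
        rv r * ((1 - t) * rv v0 + t * rv v1) + rv T := by ring
    rw [e] at h4
    linarith
  | n + 2 =>
    simp only [vseg, Bool.and_eq_true] at h
    obtain ⟨⟨hT, h2⟩, h3⟩ := h
    have h2 := nn_real h2
    have h3 := nn_real h3
    have hT := Nat.le_of_ble_eq_true hT
    have hT' : 2 * (3141593 : ℝ) * (1000000 * 1000000) ≤ 3 * T * (r * r) := by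
      have : ((2 * PIp * (SC * SC) : ℕ) : ℝ) ≤ ((3 * T * (r * r) : ℕ) : ℝ) := by exact_mod_cast hT
      push_cast at this
      simpa [SC, PIp] using this
    have hr : 0 < (r : ℝ) := by
      rcases Nat.eq_zero_or_pos r with hr0 | hr0
      · rw [hr0] at hT'; norm_num at hT'
      · exact_mod_cast hr0
    have hrr : 0 < rv r := by unfold rv; positivity
    refine (JQ_le_ball V (rv r) hV hrr).trans ?_
    have hTT : 2 * Real.pi / (3 * rv r ^ 2) ≤ rv T := by
      rw [div_le_iff₀ (by positivity)]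
      have := Real.pi_lt_d6
      have : 2 * Real.pi ≤ 2 * (3141593 / 1000000) := by linarith
      refine this.trans ?_
      unfold rv
      have e : (T : ℝ) / 1000000 * (3 * ((r : ℝ) / 1000000) ^ 2) =
          (3 * T * (r * r)) / (1000000 * (1000000 * 1000000)) := by ring
      rw [e, le_div_iff₀ (by positivity)]
      linarith
    have h2' : rv r * rv v0 + rv T ≤ af lam B (rv v0) := by
      have : (0 : ℝ) ≤ (((lam - r) * v0 + (B - T) * SC : ℤ) : ℝ) := by exact_mod_cast h2
      push_cast at this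
      simp only [SC, Nat.cast_ofNat] at this
      unfold af rv
      have e : (lam : ℝ) / 1000000 * ((v0 : ℝ) / 1000000) + (B : ℝ) / 1000000 -
          ((r : ℝ) / 1000000 * (v0 / 1000000) + T / 1000000) =
          (((lam : ℝ) - r) * v0 + (B - T) * 1000000) / (1000000 * 1000000) := by ring
      have : 0 ≤ (((lam : ℝ) - r) * v0 + (B - T) * 1000000) / (1000000 * 1000000) := by
        positivity
      linarith
    have h3' : rv r * rv v1 + rv T ≤ af lam B (rv v1) := by
      have : (0 : ℝ) ≤ (((lam - r) * v1 + (B - T) * SC : ℤ) : ℝ) := by exact_mod_cast h3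
      push_cast at this
      simp only [SC, Nat.cast_ofNat] at this
      unfold af rv
      have e : (lam : ℝ) / 1000000 * ((v1 : ℝ) / 1000000) + (B : ℝ) / 1000000 -
          ((r : ℝ) / 1000000 * (v1 / 1000000) + T / 1000000) =
          (((lam : ℝ) - r) * v1 + (B - T) * 1000000) / (1000000 * 1000000) := by ring
      have : 0 ≤ (((lam : ℝ) - r) * v1 + (B - T) * 1000000) / (1000000 * 1000000) := by
        positivity
      linarith
    have h4 := comb_le ht h2' h3'
    rw [hVt, af_comb]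
    have e : (1 - t) * (rv r * rv v0 + rv T) + t * (rv r * rv v1 + rv T) =
        rv r * ((1 - t) * rv v0 + t * rv v1) + rv T := by ring
    rw [e] at h4
    linarith

lemma vchk_sound {lam B : ℤ} {vend : ℕ} : ∀ (l : List Sg) (v0 : ℕ),
    vchk lam B vend v0 l = true → ∀ V : ℝ, 0 ≤ V → rv v0 ≤ V → V ≤ rv vend → V < rv vend ∨ l ≠ [] →
    JQ V ≤ af lam B V
  | [], v0, h, V, hV, h0, h1, h2 => by
    unfold vchk at h
    have := rv_le (Nat.le_of_ble_eq_true h)
    rcases h2 with h2 | h2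
    · linarith
    · exact absurd rfl h2
  | s :: l, v0, h, V, hV, h0, h1, _ => by
    unfold vchk at h
    rw [Bool.and_eq_true] at h
    rcases le_or_gt V (rv s.v) with hc | hc
    · exact vseg_sound h.1 V hV h0 hc
    · exact vchk_sound l s.v h.2 V hV hc.le h1 (by
        by_cases hl : l = []
        · left
          subst hl
          have h3 := h.2
          unfold vchk at h3
          have := rv_le (Nat.le_of_ble_eq_true h3)
          linarith
        · right; exact hl)

/-- membership of the parameters in a box -/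
structure InBox (fam : ℕ) (b : Box) (η a0 a1 : ℝ) : Prop where
  a1m : rv b.a1m ≤ a1
  a1p : a1 ≤ rv b.a1p
  a0m : rv b.a0m ≤ a0
  a0p : a0 ≤ rv b.a0p
  e1 : 2 ≤ fam → rv b.e1 ≤ η
  e2 : 2 ≤ fam → η ≤ rv b.e2
  ea : 2 ≤ fam → η ≤ a0

/-- general conclusion of a leaf -/
lemma leaf_gen (hT : TabOK) {fam : ℕ} {b : Box} {L : Leaf} (h : leafOK fam b L = true)
    {η a0 a1 : ℝ} (hb : InBox fam b η a0 a1) (ha : a1 ≤ a0) (ha1 : 0 ≤ a1) :
    ∃ κ : ℝ → ℝ, Continuous κ ∧ (∀ x, κ x ∈ Icc (0 : ℝ) 1) ∧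
      (∀ x, a1 ≤ x → x ≤ a0 → PP fam b.e1 (min b.e2 b.a0p) L.lam L.H L.mu x (κ x)) ∧
      (∀ V, af L.lam L.B V ≤ af L.lam L.H V + (sg fam : ℝ) * rv L.mu / 10 +
        ∫ x in a1..a0, √(1 - κ x ^ 2)) ∧
      (∀ V, a1 ≤ V → V ≤ a0 → V ≤ 1 / 2 → JQ V ≤ af L.lam L.B V) := by
  unfold leafOK at h
  match hns : L.ns with
  | [] => rw [hns] at h; simp at h
  | [_] => rw [hns] at h; simp at h
  | a :: c :: l =>
    rw [hns] at h
    simp only [Bool.and_eq_true] at h
    obtain ⟨⟨⟨⟨⟨h1, h2⟩, h3⟩, h4⟩, h5⟩, h6⟩ := h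
    have h1 := Nat.le_of_ble_eq_true h1
    have h2 := Nat.le_of_ble_eq_true h2
    have hadj := pieces_adj (c :: l) a h3
    have hsrt : Adj Srt a (c :: l) := Adj.imp (fun _ _ hp => (piece_srt hp).1) _ _ hadj
    have hwt : Adj Wt a (c :: l) := Adj.imp (fun _ _ hp => (piece_srt hp).2.1) _ _ hadj
    have hk0 : rv a.k ∈ Icc (0 : ℝ) 1 := k_real hwt.1.1
    have hk1 : Adj (fun _ b => rv b.k ∈ Icc (0 : ℝ) 1) a (c :: l) :=
      Adj.imp (fun _ _ hp => k_real hp.2) _ _ hwt
    refine ⟨plin a (c :: l), plin_cont _ _, plin_mem _ _ hsrt hk0 hk1, ?_, ?_, ?_⟩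
    · intro x hx1 hx2
      have hx1' : rv a.x ≤ x := (rv_le h1).trans (hb.a1m.trans hx1)
      have hx2' : x ≤ rv (lastx a (c :: l)) := hx2.trans (hb.a0p.trans (rv_le h2))
      obtain ⟨a', b', ⟨hp, hi⟩, t, ht, hxt⟩ := cover _ l a c hsrt
        (Adj.and _ _ hadj (plin_itp _ _ hsrt)) x hx1' hx2'
      have := piece_pp hT hp t ht
      rw [hxt, hi t ht]
      exact this
    · intro V
      have hint := int_ge (plin a (c :: l)) (plin_cont _ _) b.a1p (lowA fam b) _ _ hsrt hwt
        (plin_itp _ _ hsrt)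
      set κ := plin a (c :: l) with hκ
      have hκc : Continuous κ := plin_cont _ _
      have hgc : Continuous (fun x => √(1 - κ x ^ 2)) := by fun_prop
      have hlow : rv (lowA fam b) ≤ a0 := by
        match fam, hb with
        | 0, hb => exact hb.a0m
        | 1, hb => exact hb.a0m
        | n + 2, hb =>
          simp only [lowA]
          rw [rv_max]
          exact max_le hb.a0m ((hb.e1 (by omega)).trans (hb.ea (by omega)))
      have hlast : rv a.x ≤ rv (lastx a (c :: l)) := rv_le (le_lastx _ _ hsrt)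
      have hcomp : ∫ x in (rv a.x)..(rv (lastx a (c :: l))),
          (Icc (rv b.a1p) (rv (lowA fam b))).indicator (fun x => √(1 - κ x ^ 2)) x ≤
          ∫ x in a1..a0, √(1 - κ x ^ 2) := by
        rw [intervalIntegral.integral_of_le hlast, intervalIntegral.integral_of_le ha,
          setIntegral_indicator measurableSet_Icc]
        rw [← integral_Icc_eq_integral_Ioc (x := a1)]
        apply setIntegral_mono_set
        · exact (hgc.integrableOn_Icc)
        · filter_upwards with x using Real.sqrt_nonneg _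
        · apply LE.le.eventuallyLE
          intro x hx
          exact ⟨hb.a1p.trans hx.2.1, hx.2.2.trans hlow⟩
      have h4' := nn_real h4
      have h4'' : (0 : ℝ) ≤ 20 * 1000000 * L.H + (sg fam : ℝ) * (2 * 1000000 * L.mu) +
          10 * ((Chk.tsum b.a1p (lowA fam b) a (c :: l) : ℕ) : ℝ) - 20 * 1000000 * L.B := by
        have : (0 : ℝ) ≤ ((20 * SC * L.H + sg fam * (2 * SC * L.mu) +
          10 * (Chk.tsum b.a1p (lowA fam b) a (c :: l) : ℕ) - 20 * SC * L.B : ℤ) : ℝ) := by
          exact_mod_cast h4'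
        push_cast at this
        simpa [SC] using this
      have h7 := hint.trans hcomp
      have h8 : (L.B : ℝ) / 1000000 ≤ (L.H : ℝ) / 1000000 + (sg fam : ℝ) * rv L.mu / 10 +
          ((Chk.tsum b.a1p (lowA fam b) a (c :: l) : ℕ) : ℝ) / (2 * 1000000 * 1000000) := by
        have e : (L.H : ℝ) / 1000000 + (sg fam : ℝ) * rv L.mu / 10 +
          ((Chk.tsum b.a1p (lowA fam b) a (c :: l) : ℕ) : ℝ) / (2 * 1000000 * 1000000) -
          (L.B : ℝ) / 1000000 = (20 * 1000000 * L.H + (sg fam : ℝ) * (2 * 1000000 * L.mu) +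
          10 * ((Chk.tsum b.a1p (lowA fam b) a (c :: l) : ℕ) : ℝ) - 20 * 1000000 * L.B) /
          (20 * 1000000 * 1000000) := by
          unfold rv; ring
        have : 0 ≤ (20 * 1000000 * L.H + (sg fam : ℝ) * (2 * 1000000 * L.mu) +
          10 * ((Chk.tsum b.a1p (lowA fam b) a (c :: l) : ℕ) : ℝ) - 20 * 1000000 * L.B) /
          (20 * 1000000 * 1000000) := by positivity
        linarith
      unfold af
      linarith
    · intro V hV1 hV2 hV3
      apply vchk_sound _ _ h5 V (ha1.trans hV1) (hb.a1m.trans hV1)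
      · rw [rv_min]
        apply le_min (hV2.trans hb.a0p)
        refine hV3.trans (le_of_eq ?_)
        unfold rv; norm_num
      · right
        intro hl
        rw [hl] at h6
        simp at h6

/-- the arithmetic conclusion: from the pointwise bound to `JQ V ≤ P` -/
lemma conclude {a q : ℝ → ℝ} {P V a0 a1 : ℝ} (h : Prof a q P V a0 a1)
    (κ : ℝ → ℝ) (hκc : Continuous κ) (hκ : ∀ x, κ x ∈ Icc (0 : ℝ) 1) (lam H B : ℤ) (σ : ℝ)
    (hpt : ∀ᵐ s ∂(volume.restrict (Ioo (0 : ℝ) 1)),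
      af lam H (a s) + (Ioc (0 : ℝ) (1 / 10)).indicator (fun _ => σ) s ≤ κ (a s) * q s)
    (hB : af lam B V ≤ af lam H V + σ / 10 + ∫ x in a1..a0, √(1 - κ x ^ 2))
    (hJ : JQ V ≤ af lam B V) : JQ V ≤ P := by
  have hlev := h.lev κ hκc hκ
  have ha_int : IntegrableOn a (Ioc 0 1) := by
    have h1 : MonotoneOn (fun s => - a s) (Ioo 0 1) := fun x hx y hy hxy => neg_le_neg (h.anti hx hy hxy)
    have hmeas : AEStronglyMeasurable a (volume.restrict (Ioo 0 1)) := by
      have := (aemeasurable_restrict_of_antitoneOn measurableSet_Ioo h.anti (μ := volume))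
      exact this.aestronglyMeasurable
    rw [integrableOn_Ioc_iff_integrableOn_Ioo]
    have hfin : IsFiniteMeasure (volume.restrict (Ioo (0 : ℝ) 1)) := by infer_instance
    refine Integrable.of_bound hmeas 1 ?_
    rw [ae_restrict_iff' measurableSet_Ioo]
    filter_upwards with s hs
    have := h.mem s hs
    rw [Real.norm_eq_abs, abs_le]
    constructor
    · linarith [this.1, h.a1_nonneg]
    · linarith [this.2, h.a0_le]
  have hkq_int : IntegrableOn (fun s => κ (a s) * q s) (Ioc 0 1) := by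
    rw [integrableOn_Ioc_iff_integrableOn_Ioo]
    have hmeas : AEStronglyMeasurable (fun s => κ (a s)) (volume.restrict (Ioo 0 1)) := by
      have := (aemeasurable_restrict_of_antitoneOn measurableSet_Ioo h.anti (μ := volume))
      exact (hκc.measurable.comp_aemeasurable this).aestronglyMeasurable
    apply Integrable.bdd_mul (c := 1) h.q_int hmeas
    filter_upwards with s
    rw [Real.norm_eq_abs, abs_le]
    constructor
    · linarith [(hκ (a s)).1]
    · exact (hκ (a s)).2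
  have hind_int : IntegrableOn (fun s => (Ioc (0 : ℝ) (1 / 10)).indicator (fun _ => σ) s) (Ioc 0 1) := by
    apply Integrable.indicator _ measurableSet_Ioc
    exact integrable_const σ
  have h2 : ∫ s in (0 : ℝ)..1, (af lam H (a s) + (Ioc (0 : ℝ) (1 / 10)).indicator (fun _ => σ) s) ≤
      ∫ s in (0 : ℝ)..1, κ (a s) * q s := by
    rw [intervalIntegral.integral_of_le zero_le_one, intervalIntegral.integral_of_le zero_le_one]
    apply integral_mono_ae
    · apply Integrable.add _ hind_int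
      unfold af
      exact (ha_int.const_mul _).add (integrable_const _)
    · exact hkq_int
    · rw [← restrict_Ioo_eq_restrict_Ioc]
      exact hpt
  have h3 : ∫ s in (0 : ℝ)..1, (af lam H (a s) + (Ioc (0 : ℝ) (1 / 10)).indicator (fun _ => σ) s) =
      af lam H V + σ / 10 := by
    rw [intervalIntegral.integral_add]
    · congr 1
      · unfold af
        rw [intervalIntegral.integral_add]
        · rw [intervalIntegral.integral_const_mul, h.int_a]
          simp
        · rw [intervalIntegrable_iff_integrableOn_Ioc_of_le zero_le_one]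
          exact ha_int.const_mul _
        · simp
      · rw [intervalIntegral.integral_of_le zero_le_one, setIntegral_indicator measurableSet_Ioc]
        have : Ioc (0 : ℝ) 1 ∩ Ioc 0 (1 / 10) = Ioc 0 (1 / 10) := by
          apply Set.inter_eq_right.mpr
          intro x hx
          exact ⟨hx.1, by linarith [hx.2]⟩
        rw [this]
        simp
        ring
    · rw [intervalIntegrable_iff_integrableOn_Ioc_of_le zero_le_one]
      unfold af
      exact (ha_int.const_mul _).add (integrable_const _)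
    · rw [intervalIntegrable_iff_integrableOn_Ioc_of_le zero_le_one]
      exact hind_int
  linarith

/-- hypotheses of the three families -/
def FamHyp (fam : ℕ) (a q : ℝ → ℝ) (η s : ℝ) : Prop :=
  match fam with
  | 0 => q0 (a s) ≤ q s
  | 1 => Hyp1 a q s
  | _ => Hyp3 a q η s

lemma mul_le_of {c g q l : ℝ} (hc : 0 ≤ c) (h1 : l ≤ c * g) (h2 : g ≤ q) : l ≤ c * q :=
  h1.trans (mul_le_mul_of_nonneg_left h2 hc)

/-- pointwise bound -/
lemma pointwise {fam : ℕ} {b : Box} {L : Leaf} {η a0 a1 : ℝ} {a q : ℝ → ℝ}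
    (hb : InBox fam b η a0 a1) (κ : ℝ → ℝ) (hκ : ∀ x, κ x ∈ Icc (0 : ℝ) 1) (s : ℝ) (hs0 : 0 < s)
    (hpp : PP fam b.e1 (min b.e2 b.a0p) L.lam L.H L.mu (a s) (κ (a s)))
    (hf : FamHyp fam a q η s) :
    af L.lam L.H (a s) + (Ioc (0 : ℝ) (1 / 10)).indicator
      (fun _ => (sg fam : ℝ) * rv L.mu) s ≤ κ (a s) * q s := by
  have hc := (hκ (a s)).1
  have hmu := rv_nonneg L.mu
  match fam, hb, hpp, hf with
  | 0, hb, hpp, hf =>
    simp only [PP] at hpp
    simp only [FamHyp, q0] at hf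
    obtain ⟨h1, h2, h3⟩ := hpp
    have e : (Ioc (0 : ℝ) (1 / 10)).indicator (fun _ => ((sg 0 : ℤ) : ℝ) * rv L.mu) s = 0 := by
      simp [sg]
    rw [e, add_zero]
    rcases min_choice (min (√(Real.pi * a s)) (√(Real.pi * (1 - a s)))) 1 with hm | hm
    · rw [hm] at hf
      rcases min_choice (√(Real.pi * a s)) (√(Real.pi * (1 - a s))) with hm2 | hm2
      · rw [hm2] at hf; exact mul_le_of hc h1 hf
      · rw [hm2] at hf; exact mul_le_of hc h2 hf
    · rw [hm] at hf; exact mul_le_of hc h3 hf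
  | 1, hb, hpp, hf =>
    simp only [PP] at hpp
    simp only [FamHyp, Hyp1] at hf
    obtain ⟨h1, ⟨k, hk, h2⟩, h3, h4⟩ := hpp
    have hle : (Ioc (0 : ℝ) (1 / 10)).indicator (fun _ => ((sg 1 : ℤ) : ℝ) * rv L.mu) s ≤ 0 := by
      apply Set.indicator_nonpos
      intro x _
      simp [sg, hmu]
    rcases hf with hf | hf | ⟨hf1, hf2, hf3⟩
    · have := mul_le_of hc h1 hf
      linarith
    · have := mul_le_of hc h2 (hf k hk)
      linarith
    · rcases hf3 with hf3 | hf3
      · have e : (Ioc (0 : ℝ) (1 / 10)).indicator (fun _ => ((sg 1 : ℤ) : ℝ) * rv L.mu) s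
            = - rv L.mu := by
          have hmem : s ∈ Ioc (0 : ℝ) (1 / 10) := ⟨hs0, hf3⟩
          rw [Set.indicator_of_mem hmem]
          simp [sg]
        rw [e]
        rw [af_sub] at h4
        rcases h4 with h4 | h4
        · have := mul_le_of hc h4 hf1
          linarith
        · have := mul_le_of hc h4 hf2
          linarith
      · have := mul_le_of hc h3 hf3
        linarith
  | n + 2, hb, hpp, hf =>
    simp only [PP] at hpp
    simp only [FamHyp, Hyp3] at hf
    obtain ⟨h1, ⟨k, hk, h2⟩, h4⟩ := hpp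
    have hsg : ((sg (n + 2) : ℤ) : ℝ) = 1 := by simp [sg]
    rw [hsg, one_mul]
    have hle : (Ioc (0 : ℝ) (1 / 10)).indicator (fun _ => rv L.mu) s ≤ rv L.mu := by
      apply Set.indicator_le_self'
      intro x _
      exact hmu
    rcases hf with ⟨hf1, v, hv0, hv1, hf2⟩ | ⟨hs, hf⟩
    · rw [af_add] at h4
      rcases h4 with h4 | h4
      · have := mul_le_of hc h4 hf1
        linarith
      · have hv : v ≤ rv (SC - b.e1) := by
          have he1 := hb.e1 (by omega)
          have h5 : b.e1 ≤ SC := by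
            by_contra hcon
            rw [not_le] at hcon
            have : (1 : ℝ) < rv b.e1 := by
              have h6 := rv_lt hcon
              have e : rv SC = 1 := by norm_num [rv, SC]
              linarith
            linarith
          rw [rv_sub h5]
          linarith
        have h4' := h4 v hv0 hv
        have := mul_le_of hc h4' hf2
        linarith
    · have e : (Ioc (0 : ℝ) (1 / 10)).indicator (fun _ => rv L.mu) s = 0 := by
        apply Set.indicator_of_notMem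
        intro hcon
        linarith [hcon.2]
      rw [e, add_zero]
      rcases hf with hf | hf
      · exact mul_le_of hc h1 hf
      · have hη : η ≤ rv (min b.e2 b.a0p) := by
          rw [rv_min]
          exact le_min (hb.e2 (by omega)) ((hb.ea (by omega)).trans hb.a0p)
        exact mul_le_of hc (h2 η hη) (hf k hk)

/-- soundness of a leaf -/
lemma leaf_sound (hT : TabOK) {fam : ℕ} {b : Box} {L : Leaf} (h : leafOK fam b L = true)
    {a q : ℝ → ℝ} {P V a0 a1 η : ℝ} (hp : Prof a q P V a0 a1) (hV : V ≤ 1 / 2)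
    (hb : InBox fam b η a0 a1)
    (hq : ∀ᵐ s ∂(volume.restrict (Ioo (0 : ℝ) 1)), FamHyp fam a q η s) : JQ V ≤ P := by
  obtain ⟨κ, hκc, hκ, hpp, hB, hJ⟩ := leaf_gen hT h hb (hp.a1_le.trans hp.le_a0) hp.a1_nonneg
  apply conclude hp κ hκc hκ L.lam L.H L.B ((sg fam : ℝ) * rv L.mu) _ (hB V)
    (hJ V hp.a1_le hp.le_a0 hV)
  rw [ae_restrict_iff' measurableSet_Ioo] at hq ⊢
  filter_upwards [hq] with s hs hs01
  have hm := hp.mem s hs01
  exact pointwise hb κ hκ s hs01.1 (hpp (a s) hm.1 hm.2) (hs hs01)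

/-- soundness of the tree check -/
theorem check_sound (hT : TabOK) (fam : ℕ) {a q : ℝ → ℝ} {P V a0 a1 η : ℝ}
    (hp : Prof a q P V a0 a1) (hV0 : 0 < V) (hV : V ≤ 1 / 2)
    (hq : ∀ᵐ s ∂(volume.restrict (Ioo (0 : ℝ) 1)), FamHyp fam a q η s) :
    ∀ (T : Tree) (b : Box), check fam T b = true → InBox fam b η a0 a1 → JQ V ≤ P := by
  intro T
  induction T with
  | leaf n =>
    intro b h hb
    simp only [check] at h
    exact leaf_sound hT h hp hV hb hq
  | split d x l r ihl ihr =>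
    intro b h hb
    match d with
    | 0 =>
      simp only [check, Bool.and_eq_true] at h
      rcases le_total η (rv x) with hx | hx
      · exact ihl _ h.1 ⟨hb.a1m, hb.a1p, hb.a0m, hb.a0p, hb.e1, fun _ => hx, hb.ea⟩
      · exact ihr _ h.2 ⟨hb.a1m, hb.a1p, hb.a0m, hb.a0p, fun _ => hx, hb.e2, hb.ea⟩
    | 1 =>
      simp only [check, Bool.and_eq_true] at h
      rcases le_total a1 (rv x) with hx | hx
      · exact ihl _ h.1 ⟨hb.a1m, hx, hb.a0m, hb.a0p, hb.e1, hb.e2, hb.ea⟩
      · exact ihr _ h.2 ⟨hx, hb.a1p, hb.a0m, hb.a0p, hb.e1, hb.e2, hb.ea⟩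
    | n + 2 =>
      simp only [check, Bool.and_eq_true] at h
      rcases le_total a0 (rv x) with hx | hx
      · exact ihl _ h.1 ⟨hb.a1m, hb.a1p, hb.a0m, hx, hb.e1, hb.e2, hb.ea⟩
      · exact ihr _ h.2 ⟨hb.a1m, hb.a1p, hx, hb.a0p, hb.e1, hb.e2, hb.ea⟩
  | nil =>
    intro b h hb
    exfalso
    simp only [check, Bool.or_eq_true, Bool.and_eq_true] at h
    have h01 : a1 ≤ a0 := hp.a1_le.trans hp.le_a0
    rcases h with h | ⟨h1, h2⟩
    · have := rv_lt (Nat.le_of_ble_eq_true h : b.a0p < b.a1m)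
      linarith [hb.a1m, hb.a0p]
    · have h1 := Nat.le_of_ble_eq_true h1
      have := rv_lt (Nat.le_of_ble_eq_true h2 : b.a0p < b.e1)
      linarith [hb.e1 h1, hb.a0p, hb.ea h1]
  | corner =>
    intro b h hb
    simp only [check, Bool.and_eq_true] at h
    obtain ⟨⟨h1, h2⟩, h3⟩ := h
    have h1 := rv_le (Nat.le_of_ble_eq_true h1)
    have h2 := rv_le (Nat.le_of_ble_eq_true h2)
    have h3 := Nat.le_of_ble_eq_true h3
    have h3 : fam = 0 := by omega
    subst h3
    have e1 : rv 1000 = 1 / 1000 := by norm_num [rv]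
    have e2 : rv 999000 = 999 / 1000 := by norm_num [rv]
    apply corner a q P V a0 a1 hp hV0 hV
    · rw [← e2]; exact h2.trans hb.a0m
    · rw [← e1]; exact hb.a1p.trans h1
    · exact hq

end Snd

end P232
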