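import Vale.Agent.P232.DefsU
import Vale.Agent.P232.Symm

/-!
# P232: symmetrisation on the torus in one direction, by polarisations and compactness
-/

open MeasureTheory Set Filter Topology
open scoped ENNReal ContDiff

namespace P232

namespace SymmDirAux

open SymmAux

/-- admissible functions with the same distribution on every line in direction `i` -/
structure ClsD (i : Fin 3) (f : Tor → ℝ) (K : NNReal) (g : Tor → ℝ) : Prop where
  cls : Cls f K g
  line : ∀ (x : Tor) (φ : ℝ → ℝ), Continuous φ →
    ∫ t : Cir, φ (g (Function.update x i t)) = ∫ t : Cir, φ (f (Function.update x i t))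

lemma rf_update (i : Fin 3) (s t : Cir) (x : Tor) :
    rf i s (Function.update x i t) = Function.update x i (s - t) := by
  unfold rf
  rw [Function.update_self, Function.update_idem]

lemma int_cir (s : Cir) (F : Cir → ℝ) : ∫ t : Cir, F (s - t) = ∫ t, F t :=
  integral_sub_left_eq_self F volume s

lemma continuous_line (i : Fin 3) (x : Tor) : Continuous fun t : Cir => Function.update x i t :=
  continuous_const.update i continuous_id

lemma int_line_cont {F : Cir → ℝ} (hF : Continuous F) : Integrable F :=
  hF.integrable_of_hasCompactSupport (HasCompactSupport.of_compactSpace _)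

lemma pol_line {i : Fin 3} {s : Cir} (hs : s ≠ 0) {h : Tor → ℝ} (hc : Continuous h)
    (hp : Continuous (pol i s h)) (x : Tor) (φ : ℝ → ℝ) (hφ : Continuous φ) :
    ∫ t : Cir, φ (pol i s h (Function.update x i t)) =
      ∫ t : Cir, φ (h (Function.update x i t)) := by
  have cl := continuous_line i x
  have cr : Continuous fun t : Cir => s - t := continuous_const.sub continuous_id
  have i1 : Integrable (fun t : Cir => φ (pol i s h (Function.update x i t))) :=
    int_line_cont (hφ.comp (hp.comp cl))
  have i2 : Integrable (fun t : Cir => φ (pol i s h (Function.update x i (s - t)))) :=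
    int_line_cont ((hφ.comp (hp.comp cl)).comp cr)
  have i3 : Integrable (fun t : Cir => φ (h (Function.update x i t))) :=
    int_line_cont (hφ.comp (hc.comp cl))
  have i4 : Integrable (fun t : Cir => φ (h (Function.update x i (s - t)))) :=
    int_line_cont ((hφ.comp (hc.comp cl)).comp cr)
  have e1 := int_cir s (fun t => φ (pol i s h (Function.update x i t)))
  have e2 := int_cir s (fun t => φ (h (Function.update x i t)))
  have e3 : ∫ t : Cir, (φ (pol i s h (Function.update x i t)) +
      φ (pol i s h (Function.update x i (s - t)))) =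
      ∫ t : Cir, (φ (h (Function.update x i t)) + φ (h (Function.update x i (s - t)))) := by
    congr 1
    funext t
    rw [← rf_update]
    set y := Function.update x i t
    have key : φ (max (h y) (h (rf i s y))) + φ (min (h y) (h (rf i s y))) =
        φ (h y) + φ (h (rf i s y)) := by
      rcases le_total (h y) (h (rf i s y)) with a | a
      · rw [max_eq_right a, min_eq_left a, add_comm]
      · rw [max_eq_left a, min_eq_right a]
    rcases le_total (‖y i‖) (‖s - y i‖) with hx | hx
    · rw [(pol_in hs h hx).1, (pol_in hs h hx).2, key]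
    · rw [(pol_out hs h hx).1, (pol_out hs h hx).2, add_comm, key]
  rw [integral_add i1 i2, integral_add i3 i4, e1, e2] at e3
  linarith

lemma ClsD.pol {i : Fin 3} {f : Tor → ℝ} {K : NNReal} {g : Tor → ℝ} (h : ClsD i f K g) {s : Cir}
    (hs : s ≠ 0) : ClsD i f K (pol i s g) := by
  have hl := pol_lip (i := i) hs h.cls.lip
  exact ⟨h.cls.pol i hs, fun x φ hφ =>
    (pol_line hs h.cls.lip.continuous hl.continuous x φ hφ).trans (h.line x φ hφ)⟩

lemma clsD_closed (i : Fin 3) (f : Tor → ℝ) (K : NNReal) :
    IsClosed {g : BoundedContinuousFunction Tor ℝ | ClsD i f K g} := by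
  apply IsSeqClosed.isClosed
  intro u g hu hlim
  have hpt : ∀ x, Tendsto (fun n => u n x) atTop (𝓝 (g x)) := fun x =>
    ((continuous_eval_const x).tendsto g).comp hlim
  have hcls : Cls f K g := (cls_closed f K).mem_of_tendsto hlim
    (Eventually.of_forall fun n => (hu n).cls)
  refine ⟨hcls, fun x φ hφ => ?_⟩
  obtain ⟨M, hM⟩ := isCompact_Icc.exists_bound_of_continuousOn
    (hφ.continuousOn : ContinuousOn φ (Icc (0 : ℝ) 1))
  have ht : Tendsto (fun n => ∫ t : Cir, φ (u n (Function.update x i t))) atTop
      (𝓝 (∫ t : Cir, φ (g (Function.update x i t)))) := by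
    apply tendsto_integral_of_dominated_convergence (fun _ => M)
    · intro n
      exact (hφ.comp ((u n).continuous.comp (continuous_line i x))).aestronglyMeasurable
    · exact integrable_const _
    · intro n
      exact Eventually.of_forall fun t => hM _ ((hu n).cls.mem _)
    · exact Eventually.of_forall fun t => (hφ.tendsto _).comp (hpt _)
  have hc : (fun n => ∫ t : Cir, φ (u n (Function.update x i t))) =
      fun _ => ∫ t : Cir, φ (f (Function.update x i t)) := by
    funext n
    exact (hu n).line x φ hφ
  rw [hc] at ht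
  exact (tendsto_nhds_unique ht tendsto_const_nhds)

lemma clsD_compact (i : Fin 3) (f : Tor → ℝ) (K : NNReal) :
    IsCompact {g : BoundedContinuousFunction Tor ℝ | ClsD i f K g} :=
  (cls_compact f K).of_isClosed_subset (clsD_closed i f K) fun _ hg => hg.cls

lemma exists_minD (i : Fin 3) (f : Tor → ℝ) (K : NNReal) (hf : LipschitzWith K f)
    (h01 : ∀ x, f x ∈ Icc (0 : ℝ) 1) :
    ∃ g : Tor → ℝ, ClsD i f K g ∧ ∀ g', ClsD i f K g' → ∫ x, g x * wt x ≤ ∫ x, g' x * wt x := by
  have hne : {g : BoundedContinuousFunction Tor ℝ | ClsD i f K g}.Nonempty :=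
    ⟨BoundedContinuousFunction.mkOfCompact ⟨f, hf.continuous⟩,
      ⟨⟨hf, h01, fun _ _ => rfl, fun _ => le_rfl⟩, fun _ _ _ => rfl⟩⟩
  have hco : ContinuousOn (fun g : BoundedContinuousFunction Tor ℝ => ∫ x, g x * wt x)
      {g | ClsD i f K g} := by
    apply continuousOn_of_dominated (bound := wt)
    · intro g _
      exact (g.continuous.mul continuous_wt).aestronglyMeasurable
    · intro g hg
      refine Eventually.of_forall fun x => ?_
      rw [norm_mul, Real.norm_eq_abs, Real.norm_eq_abs, abs_of_nonneg (hg.cls.mem x).1,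
        abs_of_nonneg (wt_nonneg x)]
      exact mul_le_of_le_one_left (wt_nonneg x) (hg.cls.mem x).2
    · exact wt_int
    · refine Eventually.of_forall fun x => ?_
      exact ((continuous_eval_const x).mul
        continuous_const).continuousOn
  obtain ⟨g, hg, hmin⟩ := (clsD_compact i f K).exists_isMinOn hne hco
  refine ⟨g, hg, fun g' hg' => ?_⟩
  exact hmin (show BoundedContinuousFunction.mkOfCompact ⟨g', hg'.cls.lip.continuous⟩ ∈ _
    from hg')

lemma minD_pol {i : Fin 3} {f g : Tor → ℝ} {K : NNReal} (hg : ClsD i f K g)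
    (hmin : ∀ g', ClsD i f K g' → ∫ x, g x * wt x ≤ ∫ x, g' x * wt x) {s : Cir}
    (hs : s ≠ 0) (x : Tor) (hx : ‖x i‖ < ‖s - x i‖) : g (rf i s x) ≤ g x := by
  have hp := hg.pol hs
  have h1 := hmin _ hp
  have cg := hg.cls.lip.continuous
  have cp := hp.cls.lip.continuous
  have cr := continuous_rf i s
  have ig : ∀ F : Tor → ℝ, Continuous F → Integrable F := fun F hF =>
    hF.integrable_of_hasCompactSupport (HasCompactSupport.of_compactSpace _)
  set D : Tor → ℝ := fun x => (pol i s g x - g x) * (wt x - wt (rf i s x)) with hD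
  have cD : Continuous D := (cp.sub cg).mul (continuous_wt.sub (continuous_wt.comp cr))
  have hsum : ∀ x, pol i s g x + pol i s g (rf i s x) = g x + g (rf i s x) := by
    intro x
    rcases le_total (‖x i‖) (‖s - x i‖) with hx | hx
    · rw [(pol_in hs g hx).1, (pol_in hs g hx).2, max_add_min]
    · rw [(pol_out hs g hx).1, (pol_out hs g hx).2, min_add_max]
  have hDle : ∀ x, D x ≤ 0 := by
    intro x
    simp only [hD]
    rw [wt_rf]
    rcases le_total (‖x i‖) (‖s - x i‖) with hx | hx
    · rw [(pol_in hs g hx).1]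
      exact mul_nonpos_of_nonneg_of_nonpos (sub_nonneg.mpr (le_max_left _ _)) (by linarith)
    · rw [(pol_out hs g hx).1]
      exact mul_nonpos_of_nonpos_of_nonneg (sub_nonpos.mpr (min_le_left _ _)) (by linarith)
  have hDint : ∫ x, D x = 2 * ((∫ x, pol i s g x * wt x) - ∫ x, g x * wt x) := by
    have e1 : D = fun x => (pol i s g x * wt x - g x * wt x) +
        (pol i s g (rf i s x) * wt (rf i s x) - g (rf i s x) * wt (rf i s x)) := by
      funext x
      have := hsum x
      simp only [hD]
      linear_combination (-(wt (rf i s x))) * this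
    have i1 : Integrable (fun x => pol i s g x * wt x) := ig _ (cp.mul continuous_wt)
    have i2 : Integrable (fun x => g x * wt x) := ig _ (cg.mul continuous_wt)
    have i3 : Integrable (fun x => pol i s g (rf i s x) * wt (rf i s x)) :=
      ig _ ((cp.mul continuous_wt).comp cr)
    have i4 : Integrable (fun x => g (rf i s x) * wt (rf i s x)) :=
      ig _ ((cg.mul continuous_wt).comp cr)
    have k1 := int_rf i s (fun x => pol i s g x * wt x)
    have k2 := int_rf i s (fun x => g x * wt x)
    rw [e1, integral_add (f := fun x => pol i s g x * wt x - g x * wt x)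
      (g := fun x => pol i s g (rf i s x) * wt (rf i s x) - g (rf i s x) * wt (rf i s x))
      (i1.sub i2) (i3.sub i4), integral_sub i1 i2, integral_sub i3 i4, k1, k2]
    ring
  have hD0 : ∫ x, D x = 0 := by
    apply le_antisymm (integral_nonpos hDle)
    rw [hDint]
    linarith
  have hDae : D =ᵐ[volume] 0 := by
    have := (integral_eq_zero_iff_of_nonneg (f := fun x => -D x)
      (fun x => by simpa using hDle x) (ig _ cD.neg)).mp (by rw [integral_neg, hD0, neg_zero])
    filter_upwards [this] with x hx
    simpa using hx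
  have hDz : D = 0 := (Continuous.ae_eq_iff_eq volume cD continuous_const).mp hDae
  have h2 : D x = 0 := by rw [hDz]; rfl
  simp only [hD] at h2
  rw [wt_rf] at h2
  rcases mul_eq_zero.mp h2 with h3 | h3
  · rw [(pol_in hs g hx.le).1] at h3
    have : max (g x) (g (rf i s x)) = g x := by linarith
    exact max_eq_left_iff.mp this
  · linarith

lemma stepD_strict {i : Fin 3} {f g : Tor → ℝ} {K : NNReal} (hg : ClsD i f K g)
    (hmin : ∀ g', ClsD i f K g' → ∫ x, g x * wt x ≤ ∫ x, g' x * wt x) (w : Tor) (z : Cir)
    (h : ‖w i‖ < ‖z‖) : g (Function.update w i z) ≤ g w := by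
  have hs : w i + z ≠ 0 := by
    intro h0
    have : z = -w i := (neg_eq_of_add_eq_zero_right h0).symm
    rw [this, norm_neg] at h
    exact lt_irrefl _ h
  have := minD_pol hg hmin hs w (by rwa [add_sub_cancel_left])
  rwa [rf, add_sub_cancel_left] at this

lemma stepD {i : Fin 3} {f g : Tor → ℝ} {K : NNReal} (hg : ClsD i f K g)
    (hmin : ∀ g', ClsD i f K g' → ∫ x, g x * wt x ≤ ∫ x, g' x * wt x) (w : Tor) (z : Cir)
    (h : ‖w i‖ ≤ ‖z‖) : g (Function.update w i z) ≤ g w := by
  rcases h.lt_or_eq with h | h
  · exact stepD_strict hg hmin w z h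
  obtain ⟨a, ha, hna⟩ := exists_rep (w i)
  rcases eq_or_ne a 0 with h0 | h0
  · have h1 : w i = 0 := by rw [← norm_eq_zero, hna, h0, abs_zero]
    have h2 : z = 0 := by rw [← norm_eq_zero, ← h, h1, norm_zero]
    rw [h2, ← h1, Function.update_eq_self]
  · have hc : Continuous (fun t : ℝ => g (Function.update w i ((a * (1 - t) : ℝ) : Cir))) := by
      apply hg.cls.lip.continuous.comp
      apply continuous_const.update i
      exact (AddCircle.continuous_mk' 1).comp (by fun_prop)
    have h1 : Tendsto (fun t : ℝ => g (Function.update w i ((a * (1 - t) : ℝ) : Cir)))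
        (𝓝[>] 0) (𝓝 (g w)) := by
      have := (hc.tendsto 0).mono_left (nhdsWithin_le_nhds (s := Ioi (0 : ℝ)))
      simpa [ha] using this
    refine ge_of_tendsto h1 ?_
    filter_upwards [Ioo_mem_nhdsGT (zero_lt_one : (0 : ℝ) < 1)] with t ht
    have h2 : ‖(Function.update w i ((a * (1 - t) : ℝ) : Cir)) i‖ < ‖z‖ := by
      rw [Function.update_self, ← h, hna]
      refine (norm_le_abs _).trans_lt ?_
      rw [abs_mul, abs_of_pos (by linarith [ht.2] : (0 : ℝ) < 1 - t)]
      have : 0 < |a| := abs_pos.mpr h0
      nlinarith [ht.1]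
    have := stepD_strict hg hmin _ z h2
    rwa [Function.update_idem] at this

end SymmDirAux

open SymmAux SymmDirAux in
/-- [ST1] SymmDir.lean : one-directional version of symm_exists -/
theorem symm_dir (i : Fin 3) (f : Tor → ℝ) (K : NNReal) (hf : LipschitzWith K f)
    (h01 : ∀ x, f x ∈ Icc (0 : ℝ) 1) :
    ∃ g : Tor → ℝ, LipschitzWith K g ∧ (∀ x, g x ∈ Icc (0 : ℝ) 1) ∧
      (∀ x y : Tor, (∀ j, j ≠ i → x j = y j) → ‖x i‖ ≤ ‖y i‖ → g y ≤ g x) ∧
      (∀ (x : Tor) (φ : ℝ → ℝ), Continuous φ →
        ∫ t : AddCircle (1 : ℝ), φ (g (Function.update x i t)) =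
          ∫ t : AddCircle (1 : ℝ), φ (f (Function.update x i t))) ∧
      ∀ δ, en δ g ≤ en δ f := by
  obtain ⟨g, hg, hmin⟩ := exists_minD i f K hf h01
  refine ⟨g, hg.cls.lip, hg.cls.mem, ?_, hg.line, hg.cls.en_le⟩
  intro x y hxy hi
  have e1 := stepD hg hmin x (y i) hi
  have e2 : Function.update x i (y i) = y := by
    ext j
    by_cases hj : j = i
    · subst hj
      rw [Function.update_self]
    · rw [Function.update_of_ne hj, hxy j hj]
  rwa [e2] at e1

end P232
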