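import Vale.Agent.P232.DefsU
import Vale.Agent.P232.SymmDir
import Vale.Agent.P232.Symmetrize
import Vale.Agent.P232.PerLsc

/-!
# P232 [ST3]: Steiner symmetrisation in one coordinate direction decreases the perimeter
-/

open MeasureTheory Set Filter Topology
open scoped ENNReal ContDiff

namespace P232

namespace SteinerAux

open SymmAux

/-! ### representatives -/

/-- representative in `[0,1)` -/
noncomputable def rc (z : Cir) : ℝ := (AddCircle.equivIco (1 : ℝ) 0 z : ℝ)

lemma rc_mem (z : Cir) : rc z ∈ Ico (0 : ℝ) 1 := by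
  have := (AddCircle.equivIco (1 : ℝ) 0 z).2
  exact ⟨this.1, lt_of_lt_of_eq this.2 (zero_add 1)⟩

lemma rc_coe (z : Cir) : (rc z : Cir) = z := AddCircle.coe_equivIco

lemma rc_mk (x : ℝ) : rc (x : Cir) = Int.fract x := by
  have := AddCircle.coe_equivIco_mk_apply (p := (1 : ℝ)) x
  rw [div_one, mul_one] at this
  exact this

lemma rc_meas : Measurable rc :=
  measurable_subtype_coe.comp (AddCircle.measurableEquivIco 1 0).measurable

/-- representative in the cell -/
noncomputable def rp (z : Tor) : R3 := fun i => rc (z i)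

lemma rp_meas : Measurable rp :=
  measurable_pi_lambda _ fun i => rc_meas.comp (measurable_pi_apply i)

lemma rp_update (z : Tor) (i : Fin 3) (t : Cir) :
    rp (Function.update z i t) = Function.update (rp z) i (rc t) := by
  funext j
  unfold rp
  by_cases h : j = i
  · subst h
    rw [Function.update_self, Function.update_self]
  · rw [Function.update_of_ne h, Function.update_of_ne h]

lemma fract_mem {E : Set R3} (hp : PeriodicSet E) (x : R3) :
    (fun i => Int.fract (x i)) ∈ E ↔ x ∈ E := by
  have h1 : pr (fun i => Int.fract (x i)) = pr x := by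
    funext i
    have h2 : ((x i - Int.fract (x i) : ℝ) : Cir) = 0 := by
      rw [Int.self_sub_fract, AddCircle.coe_eq_zero_iff]
      exact ⟨⌊x i⌋, by simp⟩
    rw [AddCircle.coe_sub, sub_eq_zero] at h2
    exact h2.symm
  obtain ⟨v, hv, he⟩ := Fold.pr_eq h1
  rw [he]
  have := Cell.periodic_int (fun x => x ∈ E) (fun x i => propext (hp x i)) v hv x
  exact iff_of_eq this

lemma rp_pr_mem {E : Set R3} (hp : PeriodicSet E) (x : R3) : rp (pr x) ∈ E ↔ x ∈ E := by
  rw [← fract_mem hp x]
  have : rp (pr x) = fun i => Int.fract (x i) := by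
    funext i
    exact rc_mk (x i)
  rw [this]

/-- the indicator on the torus -/
noncomputable def IE (E : Set R3) (z : Tor) : ℝ := E.indicator 1 (rp z)

lemma IE_pr {E : Set R3} (hp : PeriodicSet E) (x : R3) : IE E (pr x) = E.indicator 1 x := by
  unfold IE
  by_cases h : x ∈ E
  · rw [indicator_of_mem h, indicator_of_mem ((rp_pr_mem hp x).2 h)]
    rfl
  · rw [indicator_of_notMem h, indicator_of_notMem (fun h' => h ((rp_pr_mem hp x).1 h'))]

lemma IE_meas {E : Set R3} (hm : MeasurableSet E) : Measurable (IE E) :=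
  (measurable_one.indicator hm).comp rp_meas

lemma IE_mem (E : Set R3) (z : Tor) : IE E z ∈ Icc (0 : ℝ) 1 := Mol.ind_mem E (rp z)

lemma int_cell {Φ : Tor → ℝ} (hΦ : Measurable Φ) : ∫ x in cell, Φ (pr x) = ∫ z, Φ z := by
  rw [EnAux.integral_cell, EnAux.integral_tor 0 hΦ.aestronglyMeasurable]

/-! ### averages over lines -/

lemma update_add (z : Tor) (i : Fin 3) (t : Cir) :
    z + Pi.single i t = Function.update z i (z i + t) := by
  funext j
  by_cases h : j = i
  · subst h
    simp
  · simp [h]

lemma meas_upd (i : Fin 3) : Measurable fun p : Tor × Cir => Function.update p.1 i p.2 := by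
  refine measurable_pi_lambda _ fun j => ?_
  by_cases h : j = i
  · subst h
    simpa using measurable_snd
  · simp only [Function.update_of_ne h]
    exact (measurable_pi_apply j).comp measurable_fst

instance : IsProbabilityMeasure (volume : Measure Cir) :=
  ⟨by rw [AddCircle.measure_univ]; simp⟩

lemma line_int (i : Fin 3) {F : Tor → ℝ} (hF : Measurable F) {M : ℝ} (hM : ∀ z, |F z| ≤ M) :
    Integrable (fun z : Tor => ∫ t : Cir, F (Function.update z i t)) := by
  have h1 : Integrable (fun p : Tor × Cir => F (Function.update p.1 i p.2))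
      ((volume : Measure Tor).prod volume) :=
    Integrable.of_bound (hF.comp (meas_upd i)).aestronglyMeasurable M
      (ae_of_all _ fun p => by rw [Real.norm_eq_abs]; exact hM _)
  exact h1.integral_prod_left

lemma line_avg (i : Fin 3) {F : Tor → ℝ} (hF : Measurable F) {M : ℝ} (hM : ∀ z, |F z| ≤ M) :
    ∫ z : Tor, ∫ t : Cir, F (Function.update z i t) = ∫ z, F z := by
  have hmeas : Measurable fun p : Tor × Cir => p.1 + Pi.single i p.2 := by
    refine measurable_fst.add ?_
    refine measurable_pi_lambda _ fun j => ?_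
    by_cases h : j = i
    · subst h
      simpa using measurable_snd
    · simp only [Pi.single_eq_of_ne h]
      exact measurable_const
  have h1 : Integrable (fun p : Tor × Cir => F (p.1 + Pi.single i p.2))
      ((volume : Measure Tor).prod volume) :=
    Integrable.of_bound (hF.comp hmeas).aestronglyMeasurable M
      (ae_of_all _ fun p => by rw [Real.norm_eq_abs]; exact hM _)
  have h2 : ∀ z : Tor, ∫ t : Cir, F (z + Pi.single i t) = ∫ t : Cir, F (Function.update z i t) := by
    intro z
    simp only [update_add]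
    exact integral_add_left_eq_self (fun t : Cir => F (Function.update z i t)) (z i)
  have h3 : ∀ t : Cir, ∫ z : Tor, F (z + Pi.single i t) = ∫ z, F z := by
    intro t
    exact integral_add_right_eq_self F (Pi.single i t)
  calc ∫ z : Tor, ∫ t : Cir, F (Function.update z i t)
      = ∫ z : Tor, ∫ t : Cir, F (z + Pi.single i t) := by simp only [h2]
    _ = ∫ t : Cir, ∫ z : Tor, F (z + Pi.single i t) := integral_integral_swap h1
    _ = ∫ z, F z := by
        simp only [h3]
        rw [integral_const]
        simp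

/-! ### arcs -/

lemma vol_arc (r : ℝ) : volume {t : Cir | ‖t‖ < r} = ENNReal.ofReal (min 1 (2 * r)) := by
  have hball : {t : Cir | ‖t‖ < r} = Metric.ball 0 r := by
    ext t
    simp
  rw [hball]
  apply le_antisymm
  · calc volume (Metric.ball (0 : Cir) r) ≤ volume (Metric.closedBall (0 : Cir) r) :=
          measure_mono Metric.ball_subset_closedBall
      _ = _ := AddCircle.volume_closedBall (T := 1) r
  · have hc : Continuous fun r' : ℝ => ENNReal.ofReal (min 1 (2 * r')) :=
      ENNReal.continuous_ofReal.comp (by fun_prop)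
    have ht : Tendsto (fun r' : ℝ => ENNReal.ofReal (min 1 (2 * r'))) (𝓝[<] r)
        (𝓝 (ENNReal.ofReal (min 1 (2 * r)))) := (hc.tendsto r).mono_left nhdsWithin_le_nhds
    refine le_of_tendsto ht ?_
    filter_upwards [self_mem_nhdsWithin] with r' hr'
    rw [← AddCircle.volume_closedBall (T := 1) (x := 0) r']
    exact measure_mono (Metric.closedBall_subset_ball hr')

lemma vol_arc_half {l : ℝ} (h0 : 0 ≤ l) (h1 : l ≤ 1) :
    (volume {t : Cir | ‖t‖ < l / 2}).toReal = l := by
  rw [vol_arc, show 2 * (l / 2) = l by ring, min_eq_right h1, ENNReal.toReal_ofReal h0]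

lemma arc_meas (r : ℝ) : MeasurableSet {t : Cir | ‖t‖ < r} :=
  (isOpen_lt continuous_norm continuous_const).measurableSet

lemma int_ind {A : Set Cir} (hA : MeasurableSet A) :
    ∫ t, A.indicator (1 : Cir → ℝ) t = (volume A).toReal := by
  rw [integral_indicator_one hA]
  rfl

lemma ind_int {A : Set Cir} (hA : MeasurableSet A) : Integrable (A.indicator (1 : Cir → ℝ)) :=
  (integrable_const (1 : ℝ)).indicator hA

/-- the rearrangement inequality on a line -/
lemma line_ineq {F G : Cir → ℝ} (hF : Continuous F) (hG : Continuous G)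
    (F01 : ∀ t, F t ∈ Icc (0 : ℝ) 1) (G01 : ∀ t, G t ∈ Icc (0 : ℝ) 1)
    (hmono : ∀ s t : Cir, ‖s‖ ≤ ‖t‖ → G t ≤ G s)
    (heq : ∀ φ : ℝ → ℝ, Continuous φ → ∫ t, φ (G t) = ∫ t, φ (F t))
    {A : Set Cir} (hA : MeasurableSet A) {l : ℝ} (hl : (volume A).toReal = l) :
    ∫ t, |G t - {t : Cir | ‖t‖ < l / 2}.indicator 1 t| ≤ ∫ t, |F t - A.indicator 1 t| := by
  have hl0 : 0 ≤ l := hl ▸ ENNReal.toReal_nonneg
  have hl1 : l ≤ 1 := by
    rw [← hl]
    have : volume A ≤ 1 := prob_le_one
    exact ENNReal.toReal_le_of_le_ofReal zero_le_one (by simpa using this)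
  set S : Set Cir := {t : Cir | ‖t‖ < l / 2} with hS
  have hSm : MeasurableSet S := arc_meas _
  have hSv : (volume S).toReal = l := vol_arc_half hl0 hl1
  -- the level
  set t0 : Cir := ((l / 2 : ℝ) : Cir) with ht0
  have hn0 : ‖t0‖ = l / 2 := by
    have := (AddCircle.norm_coe_eq_abs_iff (p := (1 : ℝ)) (x := l / 2) one_ne_zero).2 (by
      rw [abs_of_nonneg (by linarith), abs_one]
      linarith)
    rw [ht0, this, abs_of_nonneg (by linarith)]
  set lam : ℝ := G t0 with hlam
  have hlam0 : 0 ≤ lam := (G01 t0).1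
  have hφ : Continuous fun u : ℝ => max (u - lam) 0 := by fun_prop
  have eq1 := heq (fun u => u) continuous_id
  have eq2 := heq (fun u => max (u - lam) 0) hφ
  have iF : Integrable F := hF.integrable_of_hasCompactSupport (HasCompactSupport.of_compactSpace _)
  have iG : Integrable G := hG.integrable_of_hasCompactSupport (HasCompactSupport.of_compactSpace _)
  have iF2 : Integrable (fun t => max (F t - lam) 0) :=
    (hφ.comp hF).integrable_of_hasCompactSupport (HasCompactSupport.of_compactSpace _)
  have iG2 : Integrable (fun t => max (G t - lam) 0) :=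
    (hφ.comp hG).integrable_of_hasCompactSupport (HasCompactSupport.of_compactSpace _)
  have iS := ind_int hSm
  have iA := ind_int hA
  have pG : ∀ t, |G t - S.indicator (1 : Cir → ℝ) t| =
      G t - 2 * max (G t - lam) 0 + (1 - 2 * lam) * S.indicator (1 : Cir → ℝ) t := by
    intro t
    by_cases ht : t ∈ S
    · have h1 : lam ≤ G t := hmono t t0 (by rw [hn0]; exact (show ‖t‖ < l / 2 from ht).le)
      rw [indicator_of_mem ht, Pi.one_apply, max_eq_left (by linarith),
        abs_of_nonpos (by linarith [(G01 t).2])]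
      ring
    · have h1 : G t ≤ lam := hmono t0 t (by
        rw [hn0]
        exact not_lt.1 (show ¬ ‖t‖ < l / 2 from ht))
      rw [indicator_of_notMem ht, max_eq_right (by linarith),
        abs_of_nonneg (by linarith [(G01 t).1])]
      ring
  have pF : ∀ t, F t - 2 * max (F t - lam) 0 + (1 - 2 * lam) * A.indicator (1 : Cir → ℝ) t ≤
      |F t - A.indicator (1 : Cir → ℝ) t| := by
    intro t
    have h1 := le_max_left (F t - lam) 0
    have h2 := le_max_right (F t - lam) 0
    by_cases ht : t ∈ A
    · rw [indicator_of_mem ht, Pi.one_apply, abs_of_nonpos (by linarith [(F01 t).2])]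
      linarith
    · rw [indicator_of_notMem ht, abs_of_nonneg (by linarith [(F01 t).1])]
      linarith
  have vG : ∫ t, |G t - S.indicator (1 : Cir → ℝ) t| =
      (∫ t, G t) - 2 * (∫ t, max (G t - lam) 0) + (1 - 2 * lam) * l := by
    simp only [pG]
    rw [integral_add (f := fun t => G t - 2 * max (G t - lam) 0)
      (iG.sub (iG2.const_mul 2)) (iS.const_mul _), integral_sub iG (iG2.const_mul 2),
      integral_const_mul, integral_const_mul, int_ind hSm, hSv]
  have vF : (∫ t, F t) - 2 * (∫ t, max (F t - lam) 0) + (1 - 2 * lam) * l ≤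
      ∫ t, |F t - A.indicator (1 : Cir → ℝ) t| := by
    have h1 : ∫ t, (F t - 2 * max (F t - lam) 0 +
        (1 - 2 * lam) * A.indicator (1 : Cir → ℝ) t) =
        (∫ t, F t) - 2 * (∫ t, max (F t - lam) 0) + (1 - 2 * lam) * l := by
      rw [integral_add (f := fun t => F t - 2 * max (F t - lam) 0)
        (iF.sub (iF2.const_mul 2)) (iA.const_mul _), integral_sub iF (iF2.const_mul 2),
        integral_const_mul, integral_const_mul, int_ind hA, hl]
    rw [← h1]
    exact integral_mono ((iF.sub (iF2.const_mul 2)).add (iA.const_mul _)) (iF.sub iA).abs pF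
  rw [vG, eq1, eq2]
  exact vF

/-! ### sections of sets -/

lemma meas_updR (i : Fin 3) : Measurable fun p : R3 × ℝ => Function.update p.1 i p.2 := by
  refine measurable_pi_lambda _ fun j => ?_
  by_cases h : j = i
  · subst h
    simpa using measurable_snd
  · simp only [Function.update_of_ne h]
    exact (measurable_pi_apply j).comp measurable_fst

lemma ell_meas (i : Fin 3) {E : Set R3} (hm : MeasurableSet E) : Measurable (ell i E) := by
  have h1 : MeasurableSet {p : R3 × ℝ | p.2 ∈ Ico (0 : ℝ) 1 ∧ Function.update p.1 i p.2 ∈ E} :=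
    (measurable_snd measurableSet_Ico).inter ((meas_updR i) hm)
  exact (measurable_measure_prodMk_left h1).ennreal_toReal

lemma ell_update (i : Fin 3) (E : Set R3) (x : R3) (t : ℝ) :
    ell i E (Function.update x i t) = ell i E x := by
  unfold ell
  simp only [Function.update_idem]

lemma ell_periodic {E : Set R3} (hp : PeriodicSet E) (i j : Fin 3) (x : R3) :
    ell i E (x + Pi.single j 1) = ell i E x := by
  unfold ell
  have h : ∀ t : ℝ, (Function.update (x + Pi.single j 1) i t ∈ E ↔ Function.update x i t ∈ E) := by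
    intro t
    by_cases hj : j = i
    · subst hj
      have : Function.update (x + Pi.single j 1) j t = Function.update x j t := by
        funext k
        by_cases hk : k = j
        · subst hk; simp
        · simp [hk]
      rw [this]
    · have : Function.update (x + Pi.single j 1) i t = Function.update x i t + Pi.single j 1 := by
        funext k
        by_cases hk : k = i
        · subst hk
          simp [Ne.symm hj]
        · simp [hk]
      rw [this, hp]
  simp only [h]

lemma ell_nonneg (i : Fin 3) (E : Set R3) (x : R3) : 0 ≤ ell i E x := ENNReal.toReal_nonneg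

lemma dz_meas : Measurable dz := by
  have h : dz = fun t : ℝ => |t - (⌊t + 1 / 2⌋ : ℝ)| := by
    funext t
    unfold dz
    rw [round_eq]
  rw [h]
  have h1 : Measurable fun t : ℝ => ((⌊t + 1 / 2⌋ : ℤ) : ℝ) :=
    (measurable_from_top (f := fun n : ℤ => (n : ℝ))).comp
      (Int.measurable_floor.comp (measurable_id.add_const _))
  exact (measurable_id.sub h1).abs

lemma dz_add_one (t : ℝ) : dz (t + 1) = dz t := by
  unfold dz
  rw [round_add_one]
  push_cast
  congr 1
  ring

lemma norm_coe (t : ℝ) : ‖(t : Cir)‖ = dz t := by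
  have := AddCircle.norm_eq (p := (1 : ℝ)) (x := t)
  unfold dz
  simpa using this

lemma St_meas (i : Fin 3) {E : Set R3} (hm : MeasurableSet E) : MeasurableSet (St i E) :=
  measurableSet_lt (dz_meas.comp (measurable_pi_apply i)) ((ell_meas i hm).div_const 2)

lemma St_periodic (i : Fin 3) {E : Set R3} (hp : PeriodicSet E) : PeriodicSet (St i E) := by
  intro x j
  unfold St
  simp only [Set.mem_ofPred_eq]
  rw [ell_periodic hp]
  by_cases hj : j = i
  · subst hj
    rw [Pi.add_apply, Pi.single_eq_same, dz_add_one]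
  · rw [Pi.add_apply, Pi.single_eq_of_ne (Ne.symm hj), add_zero]

/-- the section as a subset of the circle -/
def sec (i : Fin 3) (E : Set R3) (z : Tor) : Set Cir := {t | rp (Function.update z i t) ∈ E}

lemma sec_meas (i : Fin 3) {E : Set R3} (hm : MeasurableSet E) (z : Tor) :
    MeasurableSet (sec i E z) := by
  have h : Measurable fun t : Cir => rp (Function.update z i t) :=
    rp_meas.comp ((meas_upd i).comp (measurable_const.prodMk measurable_id))
  exact h hm

lemma sec_vol (i : Fin 3) {E : Set R3} (hm : MeasurableSet E) (z : Tor) :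
    (volume (sec i E z)).toReal = ell i E (rp z) := by
  unfold ell
  congr 1
  rw [AddCircle.add_projection_respects_measure 1 0 (sec_meas i hm z), zero_add]
  set S : Set ℝ := {t | Function.update (rp z) i t ∈ E} with hS
  have h1 : (QuotientAddGroup.mk ⁻¹' sec i E z ∩ Ioc (0 : ℝ) 1 : Set ℝ) =ᵐ[volume]
      (QuotientAddGroup.mk ⁻¹' sec i E z ∩ Ioo (0 : ℝ) 1 : Set ℝ) :=
    (ae_eq_refl _).inter Ioo_ae_eq_Ioc.symm
  have h2 : ({t ∈ Ico (0 : ℝ) 1 | Function.update (rp z) i t ∈ E} : Set ℝ) =ᵐ[volume]
      (S ∩ Ioo (0 : ℝ) 1 : Set ℝ) := by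
    have : ({t ∈ Ico (0 : ℝ) 1 | Function.update (rp z) i t ∈ E} : Set ℝ) =
        S ∩ Ico (0 : ℝ) 1 := by
      ext t
      simp only [hS, Set.mem_ofPred_eq, mem_inter_iff, and_comm]
    rw [this]
    exact (ae_eq_refl _).inter Ioo_ae_eq_Ico.symm
  have h3 : (QuotientAddGroup.mk ⁻¹' sec i E z ∩ Ioo (0 : ℝ) 1 : Set ℝ) = S ∩ Ioo (0 : ℝ) 1 := by
    ext t
    simp only [mem_inter_iff, mem_preimage, and_congr_left_iff]
    intro ht
    have hf : rc ((t : ℝ) : Cir) = t := by
      rw [rc_mk]
      exact Int.fract_eq_self.2 ⟨ht.1.le, ht.2⟩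
    show rp (Function.update z i ((t : ℝ) : Cir)) ∈ E ↔ Function.update (rp z) i t ∈ E
    rw [rp_update, hf]
  rw [measure_congr h1, measure_congr h2, h3]

lemma IE_sec (i : Fin 3) (E : Set R3) (z : Tor) (t : Cir) :
    IE E (Function.update z i t) = (sec i E z).indicator 1 t := by
  unfold IE
  by_cases h : rp (Function.update z i t) ∈ E
  · rw [indicator_of_mem h, indicator_of_mem (show t ∈ sec i E z from h)]
    rfl
  · rw [indicator_of_notMem h, indicator_of_notMem (show t ∉ sec i E z from h)]

lemma sec_St (i : Fin 3) (E : Set R3) (z : Tor) :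
    sec i (St i E) z = {t : Cir | ‖t‖ < ell i E (rp z) / 2} := by
  ext t
  show dz (rp (Function.update z i t) i) < ell i E (rp (Function.update z i t)) / 2 ↔
    ‖t‖ < ell i E (rp z) / 2
  rw [rp_update, Function.update_self, ell_update, ← norm_coe, rc_coe]

lemma ell_le_one (i : Fin 3) (E : Set R3) (x : R3) : ell i E x ≤ 1 := by
  unfold ell
  have h1 : volume {t ∈ Ico (0 : ℝ) 1 | Function.update x i t ∈ E} ≤ ENNReal.ofReal 1 := by
    refine (measure_mono (fun t ht => ht.1 : _ ⊆ Ico (0 : ℝ) 1)).trans ?_
    rw [Real.volume_Ico, sub_zero]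
  exact ENNReal.toReal_le_of_le_ofReal zero_le_one h1

lemma int_IE_St (i : Fin 3) {E : Set R3} (hm : MeasurableSet E) :
    ∫ z, IE (St i E) z = ∫ z, IE E z := by
  have hb : ∀ (E : Set R3) (z : Tor), |IE E z| ≤ 1 := fun E z => by
    have := IE_mem E z
    rw [abs_of_nonneg this.1]
    exact this.2
  rw [← line_avg i (IE_meas (St_meas i hm)) (hb _), ← line_avg i (IE_meas hm) (hb _)]
  congr 1
  funext z
  simp only [IE_sec]
  rw [int_ind (sec_meas i (St_meas i hm) z), int_ind (sec_meas i hm z), sec_vol i hm, sec_St,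
    vol_arc_half (ell_nonneg _ _ _) (ell_le_one _ _ _)]

lemma vol_cell {E : Set R3} (hm : MeasurableSet E) (hp : PeriodicSet E) :
    (volume (E ∩ cell)).toReal = ∫ z, IE E z := by
  have h2 : (volume (E ∩ cell)).toReal = ∫ x in cell, E.indicator (1 : R3 → ℝ) x := by
    rw [setIntegral_indicator hm, inter_comm]
    simp [Measure.real]
  rw [h2, ← int_cell (IE_meas hm)]
  simp only [IE_pr hp]

lemma l1_le (i : Fin 3) {E : Set R3} (hm : MeasurableSet E) {f g : Tor → ℝ}
    (hf : Continuous f) (hg : Continuous g) (f01 : ∀ x, f x ∈ Icc (0 : ℝ) 1)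
    (g01 : ∀ x, g x ∈ Icc (0 : ℝ) 1)
    (hmono : ∀ x y : Tor, (∀ j, j ≠ i → x j = y j) → ‖x i‖ ≤ ‖y i‖ → g y ≤ g x)
    (heq : ∀ (x : Tor) (φ : ℝ → ℝ), Continuous φ →
        ∫ t : Cir, φ (g (Function.update x i t)) = ∫ t : Cir, φ (f (Function.update x i t))) :
    ∫ z, |g z - IE (St i E) z| ≤ ∫ z, |f z - IE E z| := by
  have hb : ∀ (h : Tor → ℝ) (_ : ∀ x, h x ∈ Icc (0 : ℝ) 1) (E : Set R3) (z : Tor),
      |(|h z - IE E z|)| ≤ 1 := by
    intro h h01 E z
    have h1 := IE_mem E z
    have h2 := h01 z
    rw [abs_abs, abs_le]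
    constructor <;> linarith [h1.1, h1.2, h2.1, h2.2]
  have m1 : Measurable fun z => |g z - IE (St i E) z| :=
    (hg.measurable.sub (IE_meas (St_meas i hm))).abs
  have m2 : Measurable fun z => |f z - IE E z| := (hf.measurable.sub (IE_meas hm)).abs
  rw [← line_avg i m1 (hb g g01 _), ← line_avg i m2 (hb f f01 _)]
  refine integral_mono (line_int i m1 (hb g g01 _)) (line_int i m2 (hb f f01 _)) fun z => ?_
  have cl : Continuous fun t : Cir => Function.update z i t := continuous_const.update i continuous_id
  have hmo : ∀ s t : Cir, ‖s‖ ≤ ‖t‖ →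
      g (Function.update z i t) ≤ g (Function.update z i s) := by
    intro s t hst
    refine hmono _ _ (fun j hj => ?_) ?_
    · rw [Function.update_of_ne hj, Function.update_of_ne hj]
    · rw [Function.update_self, Function.update_self]
      exact hst
  have := line_ineq (hf.comp cl) (hg.comp cl) (fun t => f01 _) (fun t => g01 _) hmo
    (fun φ hφ => heq z φ hφ) (sec_meas i hm z) (sec_vol i hm z)
  simp only [IE_sec, sec_St]
  exact this

end SteinerAux

open SteinerAux in
/-- [ST3] Steiner.lean -/
theorem steiner (i : Fin 3) (E : Set R3) (hm : MeasurableSet E) (hp : PeriodicSet E)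
    (hfin : perimeter E ≠ ⊤) :
    MeasurableSet (St i E) ∧ PeriodicSet (St i E) ∧
      volume (St i E ∩ cell) = volume (E ∩ cell) ∧ perimeter (St i E) ≤ perimeter E := by
  have hSm := St_meas i hm
  have hSp := St_periodic i hp
  refine ⟨hSm, hSp, ?_, ?_⟩
  · have h1 := vol_cell hSm hSp
    have h2 := vol_cell hm hp
    rw [int_IE_St i hm, ← h2] at h1
    have f1 : volume (St i E ∩ cell) ≠ ⊤ :=
      ((measure_mono inter_subset_right).trans_lt Cell.volume_cell_lt_top).ne
    have f2 : volume (E ∩ cell) ≠ ⊤ :=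
      ((measure_mono inter_subset_right).trans_lt Cell.volume_cell_lt_top).ne
    exact (ENNReal.toReal_eq_toReal_iff' f1 f2).1 h1
  · -- approximations
    have step : ∀ n : ℕ, ∃ g : Tor → ℝ, Continuous g ∧ (∀ x, g x ∈ Icc (0 : ℝ) 1) ∧
        (∀ δ, 0 < δ → δ < 1 / 2 → en δ g ≤ Mc δ * (perimeter E).toReal) ∧
        ∫ x in cell, |g (pr x) - (St i E).indicator 1 x| ≤ 1 / ((n : ℝ) + 1) := by
      intro n
      obtain ⟨f, hf, hfp, hf01, hfP, hfE⟩ := mollify E hm hp hfin (1 / ((n : ℝ) + 1))
        (by positivity)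
      have hf1 : ContDiff ℝ 1 f := hf.of_le (by exact_mod_cast le_top)
      obtain ⟨K, hK⟩ := Fold.lip_of_periodic f hf1 hfp
      obtain ⟨fb, hfb⟩ := Fold.descend f hfp
      have hfbK := Fold.descend_lip f K hK fb hfb
      have hfb01 : ∀ x, fb x ∈ Icc (0 : ℝ) 1 := by
        intro y
        obtain ⟨x, rfl⟩ := Fold.pr_surj y
        rw [hfb]; exact hf01 x
      obtain ⟨g, hgK, hg01, hgm, hgeq, hgen⟩ := symm_dir i fb K hfbK hfb01
      have hgc : Continuous g := hgK.continuous
      have hfc : Continuous fb := hfbK.continuous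
      refine ⟨g, hgc, hg01, fun δ h0 h1 => ?_, ?_⟩
      · calc en δ g ≤ en δ fb := hgen δ
          _ ≤ Mc δ * ∫ x in cell, gradN f x := en_le f hf1 fb hfb δ h0 h1
          _ ≤ Mc δ * (perimeter E).toReal := mul_le_mul_of_nonneg_left hfP (Asm.Mc_nonneg δ)
      · have m1 : Measurable fun z => |g z - IE (St i E) z| :=
          (hgc.measurable.sub (IE_meas hSm)).abs
        have m2 : Measurable fun z => |fb z - IE E z| := (hfc.measurable.sub (IE_meas hm)).abs
        have e1 : ∫ x in cell, |g (pr x) - (St i E).indicator 1 x| =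
            ∫ z, |g z - IE (St i E) z| := by
          rw [← int_cell m1]
          simp only [IE_pr hSp]
        have e2 : ∫ x in cell, |f x - E.indicator 1 x| = ∫ z, |fb z - IE E z| := by
          rw [← int_cell m2]
          simp only [IE_pr hp, hfb]
        rw [e1]
        rw [e2] at hfE
        exact (l1_le i hm hfc hgc hfb01 hg01 hgm hgeq).trans hfE
    choose g hgc hg01 hgen hgl using step
    have hlim : Tendsto (fun n => ∫ x in cell, |g n (pr x) - (St i E).indicator 1 x|) atTop
        (𝓝 0) := by
      refine squeeze_zero (fun n => ?_) hgl tendsto_one_div_add_atTop_nhds_zero_nat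
      exact integral_nonneg fun x => abs_nonneg _
    have := per_of_approx (St i E) hSm hSp (perimeter E).toReal ENNReal.toReal_nonneg g hgc hg01
      hgen hlim
    rwa [ENNReal.ofReal_toReal hfin] at this

end P232
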