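import Vale.Agent.P232.DefsU

/-!
# P232 [ST4]: monotonicity of iterated Steiner symmetrisations
-/

open MeasureTheory Set Filter Topology
open scoped ENNReal ContDiff

namespace P232

namespace SteinerMono

/-- monotone in coordinate `i` -/
def Mono (i : Fin 3) (F : Set R3) : Prop :=
  ∀ x y : R3, (∀ j, j ≠ i → x j = y j) → dz (x i) ≤ dz (y i) → y ∈ F → x ∈ F

theorem update_eq {i : Fin 3} {x y : R3} (h : ∀ j, j ≠ i → x j = y j) (t : ℝ) :
    Function.update x i t = Function.update y i t := by
  funext j
  by_cases hj : j = i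
  · subst hj
    simp
  · simp [hj, h j hj]

theorem mono_St (i : Fin 3) (F : Set R3) : Mono i (St i F) := by
  intro x y h hd hy
  have h1 : ell i F x = ell i F y := by
    unfold ell
    congr 2
    ext t
    simp only [mem_setOf_eq, update_eq h t]
  show dz (x i) < ell i F x / 2
  rw [h1]
  exact lt_of_le_of_lt hd hy

theorem mono_St_of {i j : Fin 3} (hij : i ≠ j) {F : Set R3} (hF : Mono j F) :
    Mono j (St i F) := by
  intro x y h hd hy
  have h1 : ell i F y ≤ ell i F x := by
    unfold ell
    apply ENNReal.toReal_mono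
    · have h3 : volume (Ico (0 : ℝ) 1) < ⊤ := by
        rw [Real.volume_Ico]
        exact ENNReal.ofReal_lt_top
      exact ((measure_mono (fun t ht => ht.1)).trans_lt h3).ne
    · apply measure_mono
      rintro t ⟨ht, hty⟩
      refine ⟨ht, hF _ (Function.update y i t) ?_ ?_ hty⟩
      · intro k hk
        by_cases hki : k = i
        · subst hki
          simp
        · simp [hki, h k hk]
      · simp only [Function.update_of_ne hij.symm]
        exact hd
  show dz (x i) < ell i F x / 2
  rw [h i hij]
  have h2 : dz (y i) < ell i F y / 2 := hy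
  linarith

end SteinerMono

open SteinerMono in
theorem steiner_mono (E : Set R3) (x y : R3) (h : ∀ i, dz (x i) ≤ dz (y i))
    (hy : y ∈ St 2 (St 1 (St 0 E))) : x ∈ St 2 (St 1 (St 0 E)) := by
  have m0 : Mono 0 (St 2 (St 1 (St 0 E))) :=
    mono_St_of (by decide) (mono_St_of (by decide) (mono_St 0 E))
  have m1 : Mono 1 (St 2 (St 1 (St 0 E))) := mono_St_of (by decide) (mono_St 1 _)
  have m2 : Mono 2 (St 2 (St 1 (St 0 E))) := mono_St 2 _
  have h0 : Function.update y 0 (x 0) ∈ St 2 (St 1 (St 0 E)) := by
    refine m0 _ y ?_ ?_ hy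
    · intro j hj
      simp [hj]
    · simpa using h 0
  have h1 : Function.update (Function.update y 0 (x 0)) 1 (x 1) ∈ St 2 (St 1 (St 0 E)) := by
    refine m1 _ _ ?_ ?_ h0
    · intro j hj
      simp [hj]
    · simpa using h 1
  refine m2 _ _ ?_ ?_ h1
  · intro j hj
    fin_cases j
    · simp
    · simp
    · exact absurd rfl hj
  · simpa using h 2

end P232
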