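import Mathlib

/-!
# P232: the cubic flat torus `T = ℝ³/ℤ³`, De Giorgi perimeter, candidate profile
-/

open MeasureTheory Set
open scoped ENNReal ContDiff

namespace P232

/-- `ℝ³`. -/
abbrev R3 := Fin 3 → ℝ

/-- The fundamental cell `[0,1)³` of the lattice `ℤ³`. -/
def cell : Set R3 := {x | ∀ i, x i ∈ Ico (0 : ℝ) 1}

/-- Subsets of `T = ℝ³/ℤ³` are `ℤ³`-periodic subsets of `ℝ³`. -/
def PeriodicSet (E : Set R3) : Prop := ∀ x i, x + Pi.single i 1 ∈ E ↔ x ∈ E

/-- The divergence of a vector field. -/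
noncomputable def divergence (φ : R3 → R3) (x : R3) : ℝ :=
  ∑ i, fderiv ℝ φ x (Pi.single i 1) i

/-- Smooth `ℤ³`-periodic vector fields of (Euclidean) length at most one. -/
structure TestField (φ : R3 → R3) : Prop where
  smooth : ContDiff ℝ ∞ φ
  periodic : ∀ x i, φ (x + Pi.single i 1) = φ x
  bound : ∀ x, ∑ i, (φ x i) ^ 2 ≤ 1

/-- De Giorgi's perimeter in `T` of a periodic measurable set `E`. -/
noncomputable def perimeter (E : Set R3) : ℝ≥0∞ :=
  ⨆ (φ : R3 → R3) (_ : TestField φ), ENNReal.ofReal (∫ x in E ∩ cell, divergence φ x)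

/-- The candidate profile `J`. -/
noncomputable def J (V : ℝ) : ℝ :=
  min (min ((36 * Real.pi) ^ (1 / 3 : ℝ) * (min V (1 - V)) ^ (2 / 3 : ℝ))
    (2 * √(Real.pi * min V (1 - V)))) 2

end P232
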