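import Vale.Agent.P232.DefsU
import Vale.Agent.P232.Types
import Vale.Agent.P232.SliceU
import Vale.Agent.P232.PlanarEq
import Vale.Agent.P232.SlabEq
import Vale.Agent.P232.Flat
import Vale.Agent.P232.NumStrict

/-!
# P232 [TYU]: equality in the cube theorem
-/

open MeasureTheory Set Filter Topology
open scoped ENNReal ContDiff

namespace P232

namespace TyU

open TypAux

/-! ### Model sets and permutations of coordinates -/

/-- `D` is a model set of volume `V` (the volume is recorded for balls and tubes). -/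
def MV (D : Set (ℝ × ℝ × ℝ)) (V : ℝ) : Prop :=
  ∃ R, 0 < R ∧ R < 1 ∧ ((D =ᵐ[volume] EB R ∧ V = Real.pi * R ^ 3 / 6) ∨
    ((D =ᵐ[volume] QT R ∨ D =ᵐ[volume] rot (QT R) ∨ D =ᵐ[volume] rot (rot (QT R))) ∧
      V = Real.pi * R ^ 2 / 4) ∨
    (D =ᵐ[volume] SB R ∨ D =ᵐ[volume] rot (SB R) ∨ D =ᵐ[volume] rot (rot (SB R))))

theorem rot_ae {A B : Set (ℝ × ℝ × ℝ)} (h : A =ᵐ[volume] B) : rot A =ᵐ[volume] rot B :=
  ProfAux.Rm_mp.quasiMeasurePreserving.preimage_ae_eq h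

theorem swp_ae {A B : Set (ℝ × ℝ × ℝ)} (h : A =ᵐ[volume] B) : swp A =ᵐ[volume] swp B :=
  ProfAux.Sm_mp.quasiMeasurePreserving.preimage_ae_eq h

theorem rot3 (A : Set (ℝ × ℝ × ℝ)) : rot (rot (rot A)) = A := by
  ext p
  rfl

theorem swp2 (A : Set (ℝ × ℝ × ℝ)) : swp (swp A) = A := by
  ext p
  rfl

theorem rot_EB (R : ℝ) : rot (EB R) = EB R := by
  ext p
  simp only [rot, EB, Q3, mem_ofPred_eq, mem_prod]
  constructor
  · rintro ⟨⟨h1, h2, h3⟩, h4⟩
    exact ⟨⟨h2, h3, h1⟩, by linarith⟩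
  · rintro ⟨⟨h1, h2, h3⟩, h4⟩
    exact ⟨⟨h3, h1, h2⟩, by linarith⟩

theorem swp_EB (R : ℝ) : swp (EB R) = EB R := by
  ext p
  simp only [swp, EB, Q3, mem_ofPred_eq, mem_prod]
  constructor
  · rintro ⟨⟨h1, h2, h3⟩, h4⟩
    exact ⟨⟨h1, h3, h2⟩, by linarith⟩
  · rintro ⟨⟨h1, h2, h3⟩, h4⟩
    exact ⟨⟨h1, h3, h2⟩, by linarith⟩

theorem swp_QT (R : ℝ) : swp (QT R) = QT R := by
  ext p
  simp only [swp, QT, Q3, mem_ofPred_eq, mem_prod]
  constructor
  · rintro ⟨⟨h1, h2, h3⟩, h4⟩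
    exact ⟨⟨h1, h3, h2⟩, by linarith⟩
  · rintro ⟨⟨h1, h2, h3⟩, h4⟩
    exact ⟨⟨h1, h3, h2⟩, by linarith⟩

theorem swp_SB (R : ℝ) : swp (SB R) = SB R := by
  ext p
  simp only [swp, SB, Q3, mem_ofPred_eq, mem_prod]
  constructor
  · rintro ⟨⟨h1, h2, h3⟩, h4⟩
    exact ⟨⟨h1, h3, h2⟩, h4⟩
  · rintro ⟨⟨h1, h2, h3⟩, h4⟩
    exact ⟨⟨h1, h3, h2⟩, h4⟩

theorem swp_rot (A : Set (ℝ × ℝ × ℝ)) : swp (rot A) = rot (rot (swp A)) := by
  ext p
  rfl

theorem swp_rot2 (A : Set (ℝ × ℝ × ℝ)) : swp (rot (rot A)) = rot (swp A) := by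
  ext p
  rfl

theorem MV.of_rot {D : Set (ℝ × ℝ × ℝ)} {V : ℝ} (h : MV (rot D) V) : MV D V := by
  obtain ⟨R, h0, h1, h⟩ := h
  refine ⟨R, h0, h1, ?_⟩
  have key : ∀ B, rot D =ᵐ[volume] B → D =ᵐ[volume] rot (rot B) := fun B hB => by
    have := rot_ae (rot_ae hB)
    rwa [rot3] at this
  rcases h with ⟨h, hV⟩ | ⟨h | h | h, hV⟩ | h | h | h
  · left
    have := key _ h
    rw [rot_EB, rot_EB] at this
    exact ⟨this, hV⟩
  · exact Or.inr (Or.inl ⟨Or.inr (Or.inr (key _ h)), hV⟩)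
  · refine Or.inr (Or.inl ⟨Or.inl ?_, hV⟩)
    have := key _ h
    rwa [rot3] at this
  · refine Or.inr (Or.inl ⟨Or.inr (Or.inl ?_), hV⟩)
    have := key _ h
    rwa [rot3] at this
  · exact Or.inr (Or.inr (Or.inr (Or.inr (key _ h))))
  · refine Or.inr (Or.inr (Or.inl ?_))
    have := key _ h
    rwa [rot3] at this
  · refine Or.inr (Or.inr (Or.inr (Or.inl ?_)))
    have := key _ h
    rwa [rot3] at this

theorem MV.of_swp {D : Set (ℝ × ℝ × ℝ)} {V : ℝ} (h : MV (swp D) V) : MV D V := by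
  obtain ⟨R, h0, h1, h⟩ := h
  refine ⟨R, h0, h1, ?_⟩
  have key : ∀ B, swp D =ᵐ[volume] B → D =ᵐ[volume] swp B := fun B hB => by
    have := swp_ae hB
    rwa [swp2] at this
  rcases h with ⟨h, hV⟩ | ⟨h | h | h, hV⟩ | h | h | h
  · left
    have := key _ h
    rw [swp_EB] at this
    exact ⟨this, hV⟩
  · refine Or.inr (Or.inl ⟨Or.inl ?_, hV⟩)
    have := key _ h
    rwa [swp_QT] at this
  · refine Or.inr (Or.inl ⟨Or.inr (Or.inr ?_), hV⟩)
    have := key _ h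
    rwa [swp_rot, swp_QT] at this
  · refine Or.inr (Or.inl ⟨Or.inr (Or.inl ?_), hV⟩)
    have := key _ h
    rwa [swp_rot2, swp_QT] at this
  · refine Or.inr (Or.inr (Or.inl ?_))
    have := key _ h
    rwa [swp_SB] at this
  · refine Or.inr (Or.inr (Or.inr (Or.inr ?_)))
    have := key _ h
    rwa [swp_rot, swp_SB] at this
  · refine Or.inr (Or.inr (Or.inr (Or.inl ?_)))
    have := key _ h
    rwa [swp_rot2, swp_SB] at this

theorem MV.model {D : Set (ℝ × ℝ × ℝ)} {V : ℝ} (h : MV D V) : IsModelQ D := by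
  obtain ⟨R, h0, h1, h⟩ := h
  refine ⟨R, h0, h1, ?_⟩
  rcases h with ⟨h, -⟩ | ⟨h, -⟩ | h
  · exact Or.inl h
  · exact Or.inr (Or.inl h)
  · exact Or.inr (Or.inr h)

/-! ### Measurability and Fubini -/

theorem measQ3 : MeasurableSet Q3 :=
  measurableSet_Ioo.prod (measurableSet_Ioo.prod measurableSet_Ioo)

theorem meas_EB (R : ℝ) : MeasurableSet (EB R) := by
  have h : Measurable fun p : ℝ × ℝ × ℝ => p.1 ^ 2 + p.2.1 ^ 2 + p.2.2 ^ 2 := by fun_prop
  exact measQ3.inter (measurableSet_lt h measurable_const)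

theorem meas_QT (R : ℝ) : MeasurableSet (QT R) := by
  have h : Measurable fun p : ℝ × ℝ × ℝ => p.2.1 ^ 2 + p.2.2 ^ 2 := by fun_prop
  exact measQ3.inter (measurableSet_lt h measurable_const)

theorem meas_SB (R : ℝ) : MeasurableSet (SB R) := by
  have h : Measurable fun p : ℝ × ℝ × ℝ => p.1 := by fun_prop
  exact measQ3.inter (measurableSet_lt h measurable_const)

theorem fub (A B : Set (ℝ × ℝ × ℝ)) (hA : MeasurableSet A) (hB : MeasurableSet B)
    (hAQ : A ⊆ Q3) (hBQ : B ⊆ Q3)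
    (h : ∀ᵐ s ∂(volume.restrict (Ioo (0 : ℝ) 1)), slice A s =ᵐ[volume] slice B s) :
    A =ᵐ[volume] B := by
  rw [← measure_symmDiff_eq_zero_iff]
  have hm : MeasurableSet (symmDiff A B) := hA.symmDiff hB
  refine (Measure.measure_prod_null hm).2 ?_
  rw [ae_restrict_iff' measurableSet_Ioo] at h
  filter_upwards [h] with s hs
  have e : Prod.mk s ⁻¹' (symmDiff A B) = symmDiff (slice A s) (slice B s) := by
    ext p
    simp [slice, mem_symmDiff]
  rw [e]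
  by_cases hsI : s ∈ Ioo (0 : ℝ) 1
  · exact measure_symmDiff_eq_zero_iff.2 (hs hsI)
  · have h1 : slice A s = ∅ := by
      rw [eq_empty_iff_forall_notMem]
      intro p hp
      exact hsI (hAQ hp).1
    have h2 : slice B s = ∅ := by
      rw [eq_empty_iff_forall_notMem]
      intro p hp
      exact hsI (hBQ hp).1
    simp [h1, h2]

/-! ### The tube-like and ball-like case -/

theorem hyp1_small_strict (x : ℝ) (h0 : 0 ≤ x) (h1 : x ≤ 39 / 100) :
    √(Real.pi * x) < mk (73 / 100) + 73 / 100 * (x - 1 / 10) ∧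
    √(Real.pi * x) < √(Real.pi * (1 - x)) := by
  have hπ := Real.pi_pos
  constructor
  · have hm := NumD1a.mk73
    have hp : Real.pi < 3.1416 := Real.pi_lt_d4
    have h2 : √(Real.pi * x) < 8245 / 10000 + 73 / 100 * x := by
      rw [Real.sqrt_lt' (by positivity)]
      have : Real.pi * x ≤ 3.1416 * x := by nlinarith
      nlinarith [mul_nonneg h0 (sub_nonneg.2 h1), sq_nonneg (x - 39 / 100)]
    linarith
  · refine Real.sqrt_lt_sqrt (by positivity) ?_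
    nlinarith

/-- Alternatives for the slice at height `s` in the case D1. -/
def Alt (D : Set (ℝ × ℝ × ℝ)) (s p : ℝ) : Prop :=
  (¬ ConX (slice D s) ∧ ¬ ConY (slice D s)) ∨
  (∀ k ∈ Icc (0 : ℝ) 1, mk k + k * ((volume (slice D s)).toReal - 1 / 10) ≤ p) ∨
  (√(Real.pi * (1 - (volume (slice D s)).toReal)) ≤ p ∧ 9 / 10 ≤ p ∧
    (s ≤ 1 / 10 ∨ √2 * (9 / 10) ≤ p))

theorem JQ_nonneg {V : ℝ} (hV : 0 ≤ V) : 0 ≤ JQ V := by
  unfold JQ
  refine le_min (le_min (by positivity) (Real.sqrt_nonneg _)) (by norm_num)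

theorem coreD1 {D : Set (ℝ × ℝ × ℝ)} {V : ℝ} (hV0 : 0 < V) (hV1 : V ≤ 1 / 2)
    (h : Ok D V (JQ V))
    (H : ∀ s ∈ Ioo (0 : ℝ) 1, ∀ p : ℝ, (∀ c, LB2 (slice D s) c → c ≤ p) → Alt D s p) :
    MV D V := by
  have hπ := Real.pi_pos
  obtain ⟨a, q, a0, a1, hprof, ha, -, hq, hU⟩ :=
    prof_of_u D h.ho h.hD _ (JQ_nonneg hV0.le) h.hA V hV0.le h.hV
  by_cases ha0 : 39 / 100 ≤ a0
  · refine absurd (num_D1_strict a q _ V a0 a1 hprof hV0 hV1 ha0 ?_) (lt_irrefl _)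
    filter_upwards [hq, ae_restrict_mem measurableSet_Ioo] with s hs hsI
    unfold Hyp1
    rw [ha s hsI]
    rcases H s hsI _ hs with ⟨h1, h2⟩ | h1 | h1
    · exact Or.inl (hs _ (lbQ _ (slice_open h.ho s) (slice_low h.hD s hsI) h1 h2))
    · exact Or.inr (Or.inl h1)
    · exact Or.inr (Or.inr h1)
  push Not at ha0
  -- every slice has small area
  have hsm : ∀ s ∈ Ioo (0 : ℝ) 1, 0 ≤ a s ∧ a s ≤ 39 / 100 := fun s hs =>
    ⟨hprof.a1_nonneg.trans (hprof.mem s hs).1, (hprof.mem s hs).2.trans ha0.le⟩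
  have hsq : ∀ᵐ s ∂(volume.restrict (Ioo (0 : ℝ) 1)), √(Real.pi * a s) ≤ q s ∧
      (q s = √(Real.pi * a s) → ¬ ConX (slice D s) ∧ ¬ ConY (slice D s)) := by
    filter_upwards [hq, ae_restrict_mem measurableSet_Ioo] with s hs hsI
    obtain ⟨h0, h1⟩ := hsm s hsI
    obtain ⟨e1, e2⟩ := hyp1_small_strict (a s) h0 h1
    have hA := ha s hsI
    rcases H s hsI _ hs with hn | hn | hn
    · refine ⟨?_, fun _ => hn⟩
      rw [hA]
      exact hs _ (lbQ _ (slice_open h.ho s) (slice_low h.hD s hsI) hn.1 hn.2)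
    · have := hn (73 / 100) (by norm_num)
      rw [← hA] at this
      exact ⟨by linarith, fun hh => by linarith⟩
    · have := hn.1
      rw [← hA] at this
      exact ⟨by linarith, fun hh => by linarith⟩
  obtain ⟨hE, hC⟩ := slab_eq a q (JQ V) V a0 a1 hprof hV0 (by
    filter_upwards [hsq] with s hs using hs.1) (min_le_left _ _)
  -- slices of positive area are quarter discs
  have hdisc : ∀ᵐ s ∂(volume.restrict (Ioo (0 : ℝ) 1)), 0 < a s →
      slice D s =ᵐ[volume] {p : ℝ × ℝ | p ∈ Q2 ∧ p.1 ^ 2 + p.2 ^ 2 < 4 / Real.pi * a s} := by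
    filter_upwards [hsq, hE, hU, ae_restrict_mem measurableSet_Ioo] with s h1 h2 h3 hsI h4
    have h5 := h2 h4
    obtain ⟨h6, h7⟩ := h1.2 h5
    rw [h5] at h3
    rw [ha s hsI] at h3 h4 ⊢
    exact planar_eq _ (slice_open h.ho s) (slice_low h.hD s hsI) h6 h7 h4 h3
  rcases hC with hC | ⟨R, hR0, hR1, hC⟩
  · -- tube
    refine ⟨√(4 / Real.pi * V), ?_, ?_, Or.inr (Or.inl ⟨Or.inl ?_, ?_⟩)⟩
    · exact Real.sqrt_pos.2 (by positivity)
    · rw [Real.sqrt_lt' (by norm_num)]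
      have := Real.pi_gt_three
      rw [div_mul_eq_mul_div, div_lt_iff₀ hπ]
      linarith
    · refine fub D _ h.ho.measurableSet (meas_QT _) h.hD.1 (fun p hp => hp.1) ?_
      filter_upwards [hdisc, hC, ae_restrict_mem measurableSet_Ioo] with s h1 h2 hsI
      have h3 := h1 (by rw [h2]; exact hV0)
      rw [h2] at h3
      refine h3.trans (EventuallyEq.of_eq ?_)
      have e : {p : ℝ × ℝ | p ∈ Q2 ∧ p.1 ^ 2 + p.2 ^ 2 < 4 / Real.pi * V} =
          slice (QT √(4 / Real.pi * V)) s := by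
        ext p
        simp only [slice, QT, Q3, Q2, mem_ofPred_eq, mem_prod]
        rw [Real.sq_sqrt (by positivity)]
        tauto
      exact e
    · rw [Real.sq_sqrt (by positivity)]
      field_simp
  · -- ball
    refine ⟨R, hR0, hR1, Or.inl ⟨?_, ?_⟩⟩
    · refine fub D _ h.ho.measurableSet (meas_EB _) h.hD.1 (fun p hp => hp.1) ?_
      filter_upwards [hdisc, hC, ae_restrict_mem measurableSet_Ioo] with s h1 h2 hsI
      rcases lt_or_ge s R with hsR | hsR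
      · have h4 : 0 < R ^ 2 - s ^ 2 := by nlinarith [hsI.1]
        rw [max_eq_right h4.le] at h2
        have h3 := h1 (by rw [h2]; positivity)
        rw [h2] at h3
        refine h3.trans (EventuallyEq.of_eq ?_)
        have e : {p : ℝ × ℝ | p ∈ Q2 ∧ p.1 ^ 2 + p.2 ^ 2 <
            4 / Real.pi * (Real.pi / 4 * (R ^ 2 - s ^ 2))} = slice (EB R) s := by
          have e' : 4 / Real.pi * (Real.pi / 4 * (R ^ 2 - s ^ 2)) = R ^ 2 - s ^ 2 := by
            field_simp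
          rw [e']
          ext p
          simp only [slice, EB, Q3, Q2, mem_ofPred_eq, mem_prod]
          constructor
          · rintro ⟨h5, h6⟩
            exact ⟨⟨hsI, h5⟩, by linarith⟩
          · rintro ⟨⟨_, h5⟩, h6⟩
            exact ⟨h5, by linarith⟩
        exact e
      · have h4 : R ^ 2 - s ^ 2 ≤ 0 := by nlinarith
        rw [max_eq_left h4, mul_zero] at h2
        have e1 : slice D s =ᵐ[volume] (∅ : Set (ℝ × ℝ)) := by
          rw [ae_eq_empty]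
          have := ha s hsI
          rw [h2] at this
          rcases (ENNReal.toReal_eq_zero_iff _).1 this.symm with h5 | h5
          · exact h5
          · exact absurd h5 (((ProfAux.slice_fin h.hD s).trans_lt ENNReal.one_lt_top).ne)
        have e2 : slice (EB R) s = ∅ := by
          rw [eq_empty_iff_forall_notMem]
          rintro p ⟨_, h6⟩
          simp only at h6
          nlinarith [sq_nonneg p.1, sq_nonneg p.2]
        rw [e2]
        exact e1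
    · have hI := hprof.int_a
      have e1 : ∫ s in (0 : ℝ)..1, a s =
          ∫ s in (0 : ℝ)..1, Real.pi / 4 * max 0 (R ^ 2 - s ^ 2) := by
        rw [intervalIntegral.integral_of_le zero_le_one, intervalIntegral.integral_of_le zero_le_one,
          integral_Ioc_eq_integral_Ioo, integral_Ioc_eq_integral_Ioo]
        exact integral_congr_ae hC
      have hcont : Continuous fun s : ℝ => Real.pi / 4 * max 0 (R ^ 2 - s ^ 2) := by fun_prop
      have e2 : ∫ s in (0 : ℝ)..1, Real.pi / 4 * max 0 (R ^ 2 - s ^ 2) =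
          (∫ s in (0 : ℝ)..R, Real.pi / 4 * max 0 (R ^ 2 - s ^ 2)) +
            ∫ s in R..1, Real.pi / 4 * max 0 (R ^ 2 - s ^ 2) :=
        (intervalIntegral.integral_add_adjacent_intervals (hcont.intervalIntegrable _ _)
          (hcont.intervalIntegrable _ _)).symm
      have e3 : ∫ s in (0 : ℝ)..R, Real.pi / 4 * max 0 (R ^ 2 - s ^ 2) =
          ∫ s in (0 : ℝ)..R, Real.pi / 4 * (R ^ 2 - s ^ 2) := by
        refine intervalIntegral.integral_congr fun s hs => ?_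
        rw [uIcc_of_le hR0.le] at hs
        rw [max_eq_right (by nlinarith [hs.1, hs.2])]
      have e4 : ∫ s in R..1, Real.pi / 4 * max 0 (R ^ 2 - s ^ 2) = ∫ s in R..1, (0 : ℝ) := by
        refine intervalIntegral.integral_congr fun s hs => ?_
        rw [uIcc_of_le hR1.le] at hs
        rw [max_eq_left (by nlinarith [hs.1, hs.2]), mul_zero]
      have e5 : ∫ s in (0 : ℝ)..R, Real.pi / 4 * (R ^ 2 - s ^ 2) = Real.pi * R ^ 3 / 6 := by
        rw [intervalIntegral.integral_const_mul, intervalIntegral.integral_sub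
          (by simp) (by simp)]
        simp
        ring
      rw [← hI, e1, e2, e3, e4, e5]
      simp

/-! ### The slab case -/

theorem slab_case {D : Set (ℝ × ℝ × ℝ)} {V : ℝ} (hV0 : 0 < V) (hV1 : V ≤ 1 / 2)
    (h : Ok D V (JQ V)) (a q : ℝ → ℝ) (hprof : Prof a q (JQ V) V 1 0)
    (ha : ∀ s ∈ Ioo (0 : ℝ) 1, a s = (volume (slice D s)).toReal)
    (hq : ∀ᵐ s ∂(volume.restrict (Ioo (0 : ℝ) 1)), q0 (a s) ≤ q s) : MV D V := by
  have hprof1 : Prof a q 1 V 1 0 := by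
    refine { hprof with lev := ?_ }
    intro κ hκ hκ1
    exact (hprof.lev κ hκ hκ1).trans (min_le_right _ _)
  have hflat := flat_eq a q V hprof1 hq
  have hii : ∀ x y, x ∈ Icc (0 : ℝ) 1 → y ∈ Icc (0 : ℝ) 1 → x ≤ y →
      IntervalIntegrable a volume x y := by
    intro x y hx hy hxy
    rw [intervalIntegrable_iff_integrableOn_Ioo_of_le hxy]
    have hsub : Ioo x y ⊆ Ioo (0 : ℝ) 1 := Ioo_subset_Ioo hx.1 hy.2
    refine (integrable_const (1 : ℝ)).mono' ?_ ?_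
    · exact (aemeasurable_restrict_of_antitoneOn measurableSet_Ioo
        (hprof.anti.mono hsub)).aestronglyMeasurable
    · filter_upwards [ae_restrict_mem measurableSet_Ioo] with s hs
      have := hprof.mem s (hsub hs)
      rw [Real.norm_eq_abs, abs_of_nonneg this.1]
      exact this.2
  have hsplit : ∀ x ∈ Ioo (0 : ℝ) 1, (∫ s in (0 : ℝ)..x, a s) + (∫ s in x..1, a s) = V := by
    intro x hx
    rw [intervalIntegral.integral_add_adjacent_intervals
      (hii 0 x ⟨le_refl _, zero_le_one⟩ ⟨hx.1.le, hx.2.le⟩ hx.1.le)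
      (hii x 1 ⟨hx.1.le, hx.2.le⟩ ⟨zero_le_one, le_refl _⟩ hx.2.le)]
    exact hprof.int_a
  -- `a = 1` before `V`, `a = 0` after `V`
  have h1 : ∀ s ∈ Ioo (0 : ℝ) 1, a s = 0 → V ≤ s := by
    intro s hs h0
    rw [← hsplit s hs]
    have e1 : ∫ t in (0 : ℝ)..s, a t ≤ ∫ t in (0 : ℝ)..s, (1 : ℝ) := by
      refine intervalIntegral.integral_mono_on_of_le_Ioo hs.1.le
        (hii 0 s ⟨le_refl _, zero_le_one⟩ ⟨hs.1.le, hs.2.le⟩ hs.1.le) (by simp) ?_
      intro t ht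
      exact (hprof.mem t ⟨ht.1, ht.2.trans hs.2⟩).2
    have e2 : ∫ t in s..1, a t ≤ ∫ t in s..1, (0 : ℝ) := by
      refine intervalIntegral.integral_mono_on_of_le_Ioo hs.2.le
        (hii s 1 ⟨hs.1.le, hs.2.le⟩ ⟨zero_le_one, le_refl _⟩ hs.2.le) (by simp) ?_
      intro t ht
      rw [← h0]
      exact hprof.anti hs ⟨hs.1.trans ht.1, ht.2⟩ ht.1.le
    simp at e1 e2
    linarith
  have h2 : ∀ s ∈ Ioo (0 : ℝ) 1, a s = 1 → s ≤ V := by
    intro s hs h0
    rw [← hsplit s hs]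
    have e1 : ∫ t in (0 : ℝ)..s, (1 : ℝ) ≤ ∫ t in (0 : ℝ)..s, a t := by
      refine intervalIntegral.integral_mono_on_of_le_Ioo hs.1.le (by simp)
        (hii 0 s ⟨le_refl _, zero_le_one⟩ ⟨hs.1.le, hs.2.le⟩ hs.1.le) ?_
      intro t ht
      rw [← h0]
      exact hprof.anti ⟨ht.1, ht.2.trans hs.2⟩ hs ht.2.le
    have e2 : ∫ t in s..1, (0 : ℝ) ≤ ∫ t in s..1, a t := by
      refine intervalIntegral.integral_mono_on_of_le_Ioo hs.2.le (by simp)
        (hii s 1 ⟨hs.1.le, hs.2.le⟩ ⟨zero_le_one, le_refl _⟩ hs.2.le) ?_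
      intro t ht
      exact (hprof.mem t ⟨hs.1.trans ht.1, ht.2⟩).1
    simp at e1 e2
    linarith
  refine ⟨V, hV0, by linarith, Or.inr (Or.inr (Or.inl ?_))⟩
  refine fub D _ h.ho.measurableSet (meas_SB _) h.hD.1 (fun p hp => hp.1) ?_
  have hne : ∀ᵐ s ∂(volume.restrict (Ioo (0 : ℝ) 1)), s ≠ V :=
    ae_restrict_of_ae (by simp [ae_iff])
  filter_upwards [hflat, hne, ae_restrict_mem measurableSet_Ioo] with s h3 h4 hsI
  rcases h3 with h3 | h3
  · have h5 : s < V := lt_of_le_of_ne (h2 s hsI h3) h4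
    have e : slice (SB V) s = Q2 := by
      ext p
      simp only [slice, SB, Q3, Q2, mem_ofPred_eq, mem_prod]
      tauto
    rw [e]
    refine ae_eq_of_subset_of_measure_ge (ProfAux.slice_sub h.hD s) ?_
      (slice_open h.ho s).measurableSet.nullMeasurableSet (by rw [ProfAux.volQ2]; simp)
    rw [ProfAux.volQ2, ← ENNReal.toReal_le_toReal ENNReal.one_ne_top
      (((ProfAux.slice_fin h.hD s).trans_lt ENNReal.one_lt_top).ne), ← ha s hsI, h3]
    simp
  · have h5 : V < s := lt_of_le_of_ne (h1 s hsI h3) h4.symm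
    have e : slice (SB V) s = ∅ := by
      rw [eq_empty_iff_forall_notMem]
      rintro p ⟨_, h6⟩
      exact absurd h6 (not_lt.mpr h5.le)
    rw [e, ae_eq_empty]
    have := ha s hsI
    rw [h3] at this
    rcases (ENNReal.toReal_eq_zero_iff _).1 this.symm with h5 | h5
    · exact h5
    · exact absurd h5 (((ProfAux.slice_fin h.hD s).trans_lt ENNReal.one_lt_top).ne)

/-- Case (ii), first axis has the smaller threshold `τ`. -/
theorem coreD3 {D : Set (ℝ × ℝ × ℝ)} {V : ℝ} (hV0 : 0 < V) (hV1 : V ≤ 1 / 2)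
    (h : Ok D V (JQ V)) (τ : ℝ) (hτ : 1 / 10 < τ)
    (hlow : ∀ s ∈ Ioo (0 : ℝ) 1, s < τ → A21 D s ∧ A31 D s)
    (hup : ∀ s ∈ Ioo (0 : ℝ) 1, τ < s → ¬ A21 D s) : MV D V := by
  obtain ⟨a, q, a0, a1, hprof, ha, -, hq, -⟩ :=
    prof_of_u D h.ho h.hD _ (JQ_nonneg hV0.le) h.hA V hV0.le h.hV
  by_cases ha0 : 19 / 20 ≤ a0
  · have hq0 : ∀ᵐ s ∂(volume.restrict (Ioo (0 : ℝ) 1)), q0 (a s) ≤ q s := by
      filter_upwards [hq, ae_restrict_mem measurableSet_Ioo] with s hs hsI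
      rw [ha s hsI]
      exact gen_q0 _ (slice_open h.ho s) (slice_low h.hD s hsI) _ hs
    rcases num_gen_strict a q _ V a0 a1 hprof hV0 hV1 ha0 hq0 with hc | ⟨rfl, rfl⟩
    · exact absurd hc (lt_irrefl _)
    · exact slab_case hV0 hV1 h a q hprof ha hq0
  push Not at ha0
  exfalso
  set W : Set ℝ := insert 0 {x | x ∈ Ioo (0 : ℝ) 1 ∧ ∃ s ∈ Ioo (0 : ℝ) 1, τ < s ∧
    ∀ y ∈ Ioo (0 : ℝ) 1, (s, x, y) ∈ D} with hW
  have hWne : W.Nonempty := ⟨0, mem_insert _ _⟩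
  have hWb : BddAbove W := by
    refine ⟨1, ?_⟩
    rintro x (rfl | ⟨hx, _⟩)
    · norm_num
    · exact hx.2.le
  set η := sSup W with hη
  have hη0 : 0 ≤ η := le_csSup hWb (mem_insert _ _)
  have ha00 : 0 ≤ a0 := hV0.le.trans hprof.le_a0
  have hηa : η ≤ a0 := by
    refine csSup_le hWne ?_
    rintro x (rfl | ⟨hx, s, hs, _, hh⟩)
    · exact ha00
    · refine (le_area h.hD hs hx hh).trans ?_
      rw [← ha s hs]
      exact (hprof.mem s hs).2
  refine absurd (num_D3_strict a q _ V a0 a1 hprof hV0 hV1 ha0.le η hη0 hηa ?_) (lt_irrefl _)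
  have hne : ∀ᵐ s ∂(volume.restrict (Ioo (0 : ℝ) 1)), s ≠ τ :=
    ae_restrict_of_ae (by simp [ae_iff])
  filter_upwards [hq, ae_restrict_mem measurableSet_Ioo, hne] with s hs hsI hsτ
  have hSo := slice_open h.ho s
  have hSl := slice_low h.hD s hsI
  unfold Hyp3 HypL
  rw [ha s hsI]
  rcases lt_or_gt_of_ne hsτ with hlt | hgt
  · left
    obtain ⟨hx, hy⟩ := hlow s hsI hlt
    refine ⟨hs _ (lbL0 _ hSo hSl hx hy), ?_⟩
    have hnf : ∃ z ∈ Q2, z ∉ slice D s := by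
      refine exists_notMem ?_
      have h1 : (volume (slice D s)).toReal < 1 := by
        rw [← ha s hsI]
        exact ((hprof.mem s hsI).2.trans_lt ha0).trans (by norm_num)
      rw [← ENNReal.toReal_one] at h1
      exact (ENNReal.toReal_lt_toReal
        (((ProfAux.slice_fin h.hD s).trans_lt ENNReal.one_lt_top).ne) ENNReal.one_ne_top).1 h1
    obtain ⟨v, hv0, hv1, hv⟩ := lbL1Y _ hSo hSl hx hy hnf η (by
      intro x hx hxη y hy
      obtain ⟨x', hx', hxx'⟩ := exists_lt_of_lt_csSup hWne hxη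
      rcases hx' with rfl | ⟨hx'I, s', hs'I, hs'τ, hh⟩
      · exact absurd hx.1 (not_lt.mpr hxx'.le)
      · exact h.hD.2 _ (hh y hy) (s, x, y) ⟨hsI, hx, hy⟩
          ⟨(hlt.trans hs'τ).le, hxx'.le, le_refl _⟩)
    exact ⟨v, hv0, hv1, hs _ hv⟩
  · right
    refine ⟨hτ.trans hgt, ?_⟩
    have hx := hup s hsI hgt
    by_cases hy : ConY (slice D s)
    · right
      intro k hk
      refine hs _ (lbSY _ hSo hSl hx hy η ?_ k hk)
      intro x hx hh
      exact le_csSup hWb (Or.inr ⟨hx, s, hsI, hgt, hh⟩)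
    · left
      exact hs _ (lbQ _ hSo hSl hx hy)

/-- Case (ii). -/
theorem caseD3 {D : Set (ℝ × ℝ × ℝ)} {V : ℝ} (hV0 : 0 < V) (hV1 : V ≤ 1 / 2)
    (h : Ok D V (JQ V)) (h21 : ∃ t ∈ Ioo (0 : ℝ) 1, 1 / 10 < t ∧ A21 D t)
    (h31 : ∃ t ∈ Ioo (0 : ℝ) 1, 1 / 10 < t ∧ A31 D t) : MV D V := by
  have key : ∀ D : Set (ℝ × ℝ × ℝ), Ok D V (JQ V) →
      (∃ t ∈ Ioo (0 : ℝ) 1, 1 / 10 < t ∧ A21 D t) →
      (∃ t ∈ Ioo (0 : ℝ) 1, 1 / 10 < t ∧ A31 D t) →
      sSup {t | t ∈ Ioo (0 : ℝ) 1 ∧ A21 D t} ≤ sSup {t | t ∈ Ioo (0 : ℝ) 1 ∧ A31 D t} →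
      MV D V := by
    intro D h h21 h31 hle
    have hb : ∀ A : ℝ → Prop, BddAbove {t | t ∈ Ioo (0 : ℝ) 1 ∧ A t} :=
      fun A => ⟨1, fun t ht => ht.1.2.le⟩
    obtain ⟨t1, ht1, ht1', hA1⟩ := h21
    obtain ⟨t2, ht2, ht2', hA2⟩ := h31
    refine coreD3 hV0 hV1 h _ (ht1'.trans_le (le_csSup (hb _) ⟨ht1, hA1⟩)) ?_ ?_
    · intro s hs hsτ
      constructor
      · obtain ⟨t, ⟨_, hAt⟩, hst⟩ := exists_lt_of_lt_csSup
          (s := {t | t ∈ Ioo (0 : ℝ) 1 ∧ A21 D t}) ⟨t1, ht1, hA1⟩ hsτ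
        exact A21_mono h.hD hs hst.le hAt
      · obtain ⟨t, ⟨_, hAt⟩, hst⟩ := exists_lt_of_lt_csSup
          (s := {t | t ∈ Ioo (0 : ℝ) 1 ∧ A31 D t}) ⟨t2, ht2, hA2⟩ (hsτ.trans_le hle)
        exact A31_mono h.hD hs hst.le hAt
    · intro s hs hsτ hA
      exact absurd (le_csSup (hb _) ⟨hs, hA⟩) (not_le.mpr hsτ)
  rcases le_total (sSup {t | t ∈ Ioo (0 : ℝ) 1 ∧ A21 D t})
    (sSup {t | t ∈ Ioo (0 : ℝ) 1 ∧ A31 D t}) with hle | hle
  · exact key D h h21 h31 hle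
  · exact MV.of_swp (key (swp D) h.swp h31 h21 hle)

/-- Case (iii): both end heights at most `1/10`. -/
theorem caseP {D : Set (ℝ × ℝ × ℝ)} {V : ℝ} (hV0 : 0 < V) (hV1 : V ≤ 1 / 2)
    (h : Ok D V (JQ V)) (h23 : ∀ t ∈ Ioo (0 : ℝ) 1, A23 D t → t ≤ 1 / 10)
    (h32 : ∀ t ∈ Ioo (0 : ℝ) 1, A32 D t → t ≤ 1 / 10) : MV D V := by
  refine coreD1 hV0 hV1 h ?_
  intro s hsI p hs
  have hSo := slice_open h.ho s
  have hSl := slice_low h.hD s hsI
  have hEX : EndX (slice D s) (1 / 10) := fun y hy hh => h23 y hy ⟨s, hsI, hh⟩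
  have hEY : EndY (slice D s) (1 / 10) := fun x hx hh => h32 x hx ⟨s, hsI, hh⟩
  unfold Alt
  by_cases hx : ConX (slice D s)
  · by_cases hy : ConY (slice D s)
    · right; right
      refine ⟨hs _ (lbL0 _ hSo hSl hx hy), ?_, Or.inr ?_⟩
      · have := hs _ (lbL3X _ hSo hSl hx hy (1 / 10) (by norm_num) hEX)
        linarith
      · have := hs _ (lbL2 _ hSo hSl hx hy (1 / 10) (by norm_num) hEX hEY)
        norm_num at this ⊢
        linarith
    · right; left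
      exact fun k hk => hs _ (lbSX _ hSo hSl hx hy (1 / 10) hEX k hk)
  · by_cases hy : ConY (slice D s)
    · right; left
      exact fun k hk => hs _ (lbSY _ hSo hSl hx hy (1 / 10) hEY k hk)
    · left
      exact ⟨hx, hy⟩

/-- Case (iv): the cyclic case. -/
theorem caseC {D : Set (ℝ × ℝ × ℝ)} {V : ℝ} (hV0 : 0 < V) (hV1 : V ≤ 1 / 2)
    (h : Ok D V (JQ V)) (h21 : ∀ t ∈ Ioo (0 : ℝ) 1, A21 D t → t ≤ 1 / 10)
    (h31 : ∃ t ∈ Ioo (0 : ℝ) 1, 1 / 10 < t ∧ A31 D t)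
    (h32 : ∀ t ∈ Ioo (0 : ℝ) 1, A32 D t → t ≤ 1 / 10) : MV D V := by
  refine coreD1 hV0 hV1 h ?_
  intro s hsI p hs
  have hSo := slice_open h.ho s
  have hSl := slice_low h.hD s hsI
  have hEY : EndY (slice D s) (1 / 10) := fun x hx hh => h32 x hx ⟨s, hsI, hh⟩
  unfold Alt
  by_cases hx : ConX (slice D s)
  · have hs10 : s ≤ 1 / 10 := h21 s hsI hx
    obtain ⟨t, htI, ht, h31⟩ := h31
    have hy : ConY (slice D s) := A31_mono h.hD hsI (hs10.trans ht.le) h31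
    right; right
    refine ⟨hs _ (lbL0 _ hSo hSl hx hy), ?_, Or.inl hs10⟩
    have := hs _ (lbL3Y _ hSo hSl hx hy (1 / 10) (by norm_num) hEY)
    linarith
  · by_cases hy : ConY (slice D s)
    · right; left
      exact fun k hk => hs _ (lbSY _ hSo hSl hx hy (1 / 10) hEY k hk)
    · left
      exact ⟨hx, hy⟩

theorem cube_eq_vol (D : Set (ℝ × ℝ × ℝ)) (ho : IsOpen D) (hD : Low3 D) (V : ℝ) (hV0 : 0 < V)
    (hV1 : V ≤ 1 / 2) (hV : volume D = ENNReal.ofReal V) (hA : Approx3 D (JQ V)) : MV D V := by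
  have h : Ok D V (JQ V) := ⟨ho, hD, hV, hA⟩
  have big : ∀ A : ℝ → Prop, (∃ t ∈ Ioo (0 : ℝ) 1, 1 / 10 < t ∧ A t) ∨
      (∀ t ∈ Ioo (0 : ℝ) 1, A t → t ≤ 1 / 10) := by
    intro A
    by_cases hc : ∃ t ∈ Ioo (0 : ℝ) 1, 1 / 10 < t ∧ A t
    · exact Or.inl hc
    · right
      intro t ht hAt
      by_contra hlt
      exact hc ⟨t, ht, not_le.mp hlt, hAt⟩
  rcases big (A31 D) with b31 | s31
  · rcases big (A21 D) with b21 | s21
    · exact caseD3 hV0 hV1 h b21 b31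
    rcases big (A12 D) with b12 | s12
    · rcases big (A32 D) with b32 | s32
      · exact MV.of_rot (caseD3 hV0 hV1 h.rot b32 b12)
      · exact caseC hV0 hV1 h s21 b31 s32
    · exact MV.of_rot (MV.of_rot (caseP hV0 hV1 h.rot.rot s12 s21))
  · rcases big (A13 D) with b13 | s13
    · rcases big (A23 D) with b23 | s23
      · exact MV.of_rot (MV.of_rot (caseD3 hV0 hV1 h.rot.rot b13 b23))
      rcases big (A32 D) with b32 | s32
      · rcases big (A12 D) with b12 | s12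
        · exact MV.of_rot (caseD3 hV0 hV1 h.rot b32 b12)
        rcases big (A21 D) with b21 | s21
        · exact MV.of_swp (caseC hV0 hV1 h.swp s31 b21 s23)
        · exact MV.of_rot (MV.of_rot (caseP hV0 hV1 h.rot.rot s12 s21))
      · exact caseP hV0 hV1 h s23 s32
    · exact MV.of_rot (caseP hV0 hV1 h.rot s31 s13)

end TyU

theorem cube_eq (D : Set (ℝ × ℝ × ℝ)) (ho : IsOpen D) (hD : Low3 D) (V : ℝ) (hV0 : 0 < V)
    (hV1 : V ≤ 1 / 2) (hV : volume D = ENNReal.ofReal V) (hA : Approx3 D (JQ V)) :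
    IsModelQ D :=
  (TyU.cube_eq_vol D ho hD V hV0 hV1 hV hA).model

end P232
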