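import Vale.Agent.P232.DefsU
import Vale.Agent.P232.Final
import Vale.Agent.P232.Steiner
import Vale.Agent.P232.SteinerMono
import Vale.Agent.P232.Octant
import Vale.Agent.P232.OctModel
import Vale.Agent.P232.TypesEq
import Vale.Agent.P232.RigidBall
import Vale.Agent.P232.RigidTube
import Vale.Agent.P232.RigidSlab

/-!
# P232 [FU]: uniqueness of minimisers
-/

open MeasureTheory Set Filter Topology
open scoped ENNReal ContDiff

namespace P232

namespace UnqAux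

theorem JV_ball (V R : ℝ) (h0 : 0 < V) (h1 : V ≤ 1 / 2) (hR : 0 < R)
    (hV : V = Real.pi * R ^ 3 / 6) : J V ≤ 4 * Real.pi * (R / 2) ^ 2 := by
  have hπ := Real.pi_pos
  have hm : min V (1 - V) = V := min_eq_left (by linarith)
  unfold J
  rw [hm]
  refine ((min_le_left _ _).trans (min_le_left _ _)).trans (le_of_eq ?_)
  have hL : 0 ≤ 4 * Real.pi * (R / 2) ^ 2 := by positivity
  have hR' : 0 ≤ (36 * Real.pi) ^ (1 / 3 : ℝ) * V ^ (2 / 3 : ℝ) := by positivity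
  have hc : ((36 * Real.pi) ^ (1 / 3 : ℝ) * V ^ (2 / 3 : ℝ)) ^ 3 =
      (4 * Real.pi * (R / 2) ^ 2) ^ 3 := by
    have a1 : ((36 * Real.pi) ^ (1 / 3 : ℝ)) ^ 3 = 36 * Real.pi := by
      rw [← Real.rpow_natCast, ← Real.rpow_mul (by positivity)]
      norm_num
    have a2 : (V ^ (2 / 3 : ℝ)) ^ 3 = V ^ 2 := by
      rw [← Real.rpow_natCast, ← Real.rpow_mul h0.le]
      norm_num
    rw [mul_pow _ (V ^ (2 / 3 : ℝ)), a1, a2, hV]
    ring
  exact (pow_left_inj₀ hR' hL (by norm_num)).1 hc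

theorem JV_tube (V R : ℝ) (h1 : V ≤ 1 / 2) (hR : 0 < R)
    (hV : V = Real.pi * R ^ 2 / 4) : J V ≤ 2 * Real.pi * (R / 2) := by
  have hπ := Real.pi_pos
  have hm : min V (1 - V) = V := min_eq_left (by linarith)
  unfold J
  rw [hm]
  refine ((min_le_left _ _).trans (min_le_right _ _)).trans (le_of_eq ?_)
  have : √(Real.pi * V) = Real.pi * (R / 2) := by
    rw [Real.sqrt_eq_iff_mul_self_eq (by rw [hV]; positivity) (by positivity), hV]
    ring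
  rw [this]
  ring

theorem JV_slab (V : ℝ) : J V ≤ 2 := min_le_right _ _

/-- The case of volume at most one half. -/
theorem half (V : ℝ) (h0 : 0 < V) (h1 : V ≤ 1 / 2) (E : Set R3) (hm : MeasurableSet E)
    (hp : PeriodicSet E) (hvol : volume (E ∩ cell) = ENNReal.ofReal V)
    (hper : perimeter E = ENNReal.ofReal (J V)) :
    ∃ M, IsModel M ∧ E =ᵐ[volume] M := by
  have hJ0 : 0 ≤ J V := Fin.J_nonneg V h0.le (by linarith)
  have hV1 : V < 1 := by linarith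
  have hf0 : perimeter E ≠ ⊤ := by rw [hper]; exact ENNReal.ofReal_ne_top
  obtain ⟨m1, p1, v1, q1⟩ := steiner 0 E hm hp hf0
  have w1 : volume (St 0 E ∩ cell) = ENNReal.ofReal V := v1.trans hvol
  have hf1 : perimeter (St 0 E) ≠ ⊤ := (q1.trans_lt (lt_top_iff_ne_top.2 hf0)).ne
  obtain ⟨m2, p2, v2, q2⟩ := steiner 1 (St 0 E) m1 p1 hf1
  have w2 : volume (St 1 (St 0 E) ∩ cell) = ENNReal.ofReal V := v2.trans w1
  have hf2 : perimeter (St 1 (St 0 E)) ≠ ⊤ := (q2.trans_lt (lt_top_iff_ne_top.2 hf1)).ne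
  obtain ⟨m3, p3, v3, q3⟩ := steiner 2 (St 1 (St 0 E)) m2 p2 hf2
  have w3 : volume (St 2 (St 1 (St 0 E)) ∩ cell) = ENNReal.ofReal V := v3.trans w2
  have hf3 : perimeter (St 2 (St 1 (St 0 E))) ≠ ⊤ := (q3.trans_lt (lt_top_iff_ne_top.2 hf2)).ne
  have u0 : perimeter E ≤ ENNReal.ofReal (J V) := hper.le
  have u1 := q1.trans u0
  have u2 := q2.trans u1
  have u3 := q3.trans u2
  have l3 := Fin.lower V h0 hV1 _ m3 p3 w3
  have e3 : perimeter (St 2 (St 1 (St 0 E))) = ENNReal.ofReal (J V) := le_antisymm u3 l3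
  have hs := steiner_mono E
  obtain ⟨dO, dL, dE, dV, dA⟩ := octant _ m3 p3 (fun x y h hy => hs x y h hy) hf3
  have hJQ : (perimeter (St 2 (St 1 (St 0 E)))).toReal / 2 = JQ V := by
    rw [e3, ENNReal.toReal_ofReal hJ0, Fin.JQ_two V h1]
    ring
  rw [hJQ] at dA
  obtain ⟨R, hR0, hR1, hM⟩ := TyU.cube_eq_vol _ dO dL V h0 h1 (dV.trans w3) dA
  have hR2 : 0 < R / 2 := by linarith
  have hR3 : R / 2 < 1 / 2 := by linarith
  rcases hM with ⟨hB, hBV⟩ | ⟨hT, hTV⟩ | hS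
  · have b3 := oct_ball _ m3 p3 hs R hR0 hR1 (dE.symm.trans hB)
    have hJ := ENNReal.ofReal_le_ofReal (JV_ball V R h0 h1 hR0 hBV)
    obtain ⟨c2, b2⟩ := rigid_ball 2 _ m2 p2 0 (R / 2) hR2 hR3 b3 (u2.trans hJ)
    obtain ⟨c1, b1⟩ := rigid_ball 1 _ m1 p1 c2 (R / 2) hR2 hR3 b2 (u1.trans hJ)
    obtain ⟨c0, b0⟩ := rigid_ball 0 _ hm hp c1 (R / 2) hR2 hR3 b1 (u0.trans hJ)
    exact ⟨_, Or.inl ⟨c0, R / 2, hR2, hR3, rfl⟩, b0⟩
  · obtain ⟨k, b3⟩ := oct_tube _ m3 p3 hs R hR0 hR1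
      (hT.imp dE.symm.trans (Or.imp dE.symm.trans dE.symm.trans))
    have hJ := ENNReal.ofReal_le_ofReal (JV_tube V R h1 hR0 hTV)
    obtain ⟨c2, b2⟩ := rigid_tube 2 k _ m2 p2 0 (R / 2) hR2 hR3 b3 (u2.trans hJ)
    obtain ⟨c1, b1⟩ := rigid_tube 1 k _ m1 p1 c2 (R / 2) hR2 hR3 b2 (u1.trans hJ)
    obtain ⟨c0, b0⟩ := rigid_tube 0 k _ hm hp c1 (R / 2) hR2 hR3 b1 (u0.trans hJ)
    exact ⟨_, Or.inr (Or.inl ⟨k, c0, R / 2, hR2, hR3, rfl⟩), b0⟩
  · obtain ⟨k, b3⟩ := oct_slab _ m3 p3 hs R hR0 hR1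
      (hS.imp dE.symm.trans (Or.imp dE.symm.trans dE.symm.trans))
    have hJ : ENNReal.ofReal (J V) ≤ 2 := by
      have := ENNReal.ofReal_le_ofReal (JV_slab V)
      simpa using this
    obtain ⟨c2, b2⟩ := rigid_slab 2 k _ m2 p2 0 (R / 2) hR2 hR3 b3 (u2.trans hJ)
    obtain ⟨c1, b1⟩ := rigid_slab 1 k _ m1 p1 c2 (R / 2) hR2 hR3 b2 (u1.trans hJ)
    obtain ⟨c0, b0⟩ := rigid_slab 0 k _ hm hp c1 (R / 2) hR2 hR3 b1 (u0.trans hJ)
    exact ⟨_, Or.inr (Or.inr ⟨k, c0, R / 2, hR2, hR3, rfl⟩), b0⟩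

end UnqAux

theorem uniq (V : ℝ) (h0 : 0 < V) (h1 : V < 1) (E : Set R3) (hm : MeasurableSet E)
    (hp : PeriodicSet E) (hvol : volume (E ∩ cell) = ENNReal.ofReal V)
    (hper : perimeter E = ENNReal.ofReal (J V)) :
    ∃ M, IsModel M ∧ (E =ᵐ[volume] M ∨ (Eᶜ : Set R3) =ᵐ[volume] M) := by
  rcases le_or_gt V (1 / 2) with h | h
  · obtain ⟨M, hM, hE⟩ := UnqAux.half V h0 h E hm hp hvol hper
    exact ⟨M, hM, Or.inl hE⟩
  · obtain ⟨M, hM, hE⟩ := UnqAux.half (1 - V) (by linarith) (by linarith) Eᶜ hm.compl (by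
      intro x i
      rw [mem_compl_iff, mem_compl_iff, hp x i]) (by
      have hc := Cell.measurableSet_cell
      have h1 : volume (cell \ (E ∩ cell)) = volume cell - volume (E ∩ cell) :=
        measure_sdiff inter_subset_right (hm.inter hc).nullMeasurableSet
          (by rw [hvol]; exact ENNReal.ofReal_ne_top)
      have h2 : Eᶜ ∩ cell = cell \ (E ∩ cell) := by
        ext x; simp only [mem_inter_iff, mem_compl_iff, Set.mem_sdiff]; tauto
      rw [h2, h1, Cell.volume_cell, hvol, ← ENNReal.ofReal_one, ENNReal.ofReal_sub 1 h0.le]) (by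
      rw [perimeter_compl E hm, hper, Fin.J_symm])
    exact ⟨M, hM, Or.inr hE⟩

end P232
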