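import Vale.Agent.P232.Defs

/-!
# P232: common base of the upper bounds (divergence theorem on the cell, cut-offs)
-/

open MeasureTheory Set Filter Topology
open scoped ENNReal ContDiff

namespace P232.Up

theorem cell_eq : cell = Set.pi univ (fun i : Fin 3 => Ico ((0 : R3) i) ((1 : R3) i)) := by
  ext x
  simp [cell]

theorem cell_ae : cell =ᵐ[volume] Icc (0 : R3) 1 := by
  rw [cell_eq, volume_pi]
  exact Measure.univ_pi_Ico_ae_eq_Icc

theorem cell_meas : MeasurableSet cell := by
  rw [cell_eq]
  exact MeasurableSet.univ_pi fun i => measurableSet_Ico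

theorem cell_vol : volume cell = 1 := by
  rw [measure_congr cell_ae, Real.volume_Icc_pi]
  simp

theorem cell_finite : volume cell ≠ ⊤ := by
  rw [cell_vol]
  exact ENNReal.one_ne_top

instance cell_isFinite : IsFiniteMeasure (volume.restrict cell) :=
  ⟨by rw [Measure.restrict_apply_univ, cell_vol]; exact ENNReal.one_lt_top⟩

theorem intOn_of_cont {f : R3 → ℝ} (hf : Continuous f) : IntegrableOn f cell :=
  ((hf.integrableOn_Icc (a := (0 : R3)) (b := 1)).congr_set_ae cell_ae)

/-- the integral of a divergence over the cell -/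
theorem int_div_zero (F : R3 → R3) (hF : ContDiff ℝ 1 F)
    (hface : ∀ (i : Fin 3) (y : Fin 2 → ℝ), (∀ j, y j ∈ Icc (0 : ℝ) 1) →
      F (i.insertNth 1 y) i = F (i.insertNth 0 y) i) :
    ∫ x in cell, divergence F x = 0 := by
  have hc : Continuous (divergence F) := by
    unfold divergence
    refine continuous_finsetSum _ fun i _ => ?_
    exact (continuous_apply i).comp ((hF.continuous_fderiv (by norm_num)).clm_apply
      continuous_const)
  rw [setIntegral_congr_set cell_ae]
  have h := integral_divergence_of_hasFDerivAt_off_countable (n := 2) (E := ℝ) (0 : R3) 1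
    (by intro i; simp) F (fun x => fderiv ℝ F x) ∅ countable_empty hF.continuous.continuousOn
    (fun x _ => (hF.differentiable (by norm_num) x).hasFDerivAt)
    (hc.integrableOn_Icc)
  unfold divergence
  rw [h]
  refine Finset.sum_eq_zero fun i _ => ?_
  rw [sub_eq_zero]
  refine setIntegral_congr_fun measurableSet_Icc fun y hy => ?_
  refine hface i y fun j => ?_
  exact ⟨hy.1 j, hy.2 j⟩

theorem insertNth_one (i : Fin 3) (y : Fin 2 → ℝ) :
    (i.insertNth (1 : ℝ) y : R3) = i.insertNth (0 : ℝ) y + Pi.single i 1 := by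
  ext j
  refine Fin.succAboveCases i ?_ (fun k => ?_) j
  · simp
  · simp

theorem face_periodic {φ : R3 → R3} (hφ : ∀ x i, φ (x + Pi.single i 1) = φ x) (i : Fin 3)
    (y : Fin 2 → ℝ) : φ (i.insertNth 1 y) = φ (i.insertNth 0 y) := by
  rw [insertNth_one, hφ]

/-- integration by parts -/
theorem ibp (φ : R3 → R3) (hφ : TestField φ) (η : R3 → ℝ) (hη : ContDiff ℝ 1 η)
    (hface : ∀ (i : Fin 3) (y : Fin 2 → ℝ), (∀ j, y j ∈ Icc (0 : ℝ) 1) →
      η (i.insertNth 1 y) = η (i.insertNth 0 y)) :
    ∫ x in cell, η x * divergence φ x =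
      - ∫ x in cell, ∑ i, fderiv ℝ η x (Pi.single i 1) * φ x i := by
  have hφ1 : ContDiff ℝ 1 φ := hφ.smooth.of_le (by exact_mod_cast le_top)
  have h0 := int_div_zero (fun x => η x • φ x) (hη.smul hφ1) (by
    intro i y hy
    rw [hface i y hy, face_periodic hφ.periodic])
  have hd : ∀ x, divergence (fun x => η x • φ x) x =
      η x * divergence φ x + ∑ i, fderiv ℝ η x (Pi.single i 1) * φ x i := by
    intro x
    unfold divergence
    rw [Finset.mul_sum, ← Finset.sum_add_distrib]
    refine Finset.sum_congr rfl fun i _ => ?_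
    have h1 : HasFDerivAt (fun x => η x • φ x) _ x :=
      (hη.differentiable (by norm_num) x).hasFDerivAt.smul
        (hφ1.differentiable (by norm_num) x).hasFDerivAt
    rw [h1.fderiv]
    simp
  have hc1 : Continuous (divergence φ) := by
    unfold divergence
    refine continuous_finsetSum _ fun i _ => ?_
    exact (continuous_apply i).comp ((hφ1.continuous_fderiv (by norm_num)).clm_apply
      continuous_const)
  have hc2 : Continuous fun x => ∑ i, fderiv ℝ η x (Pi.single i 1) * φ x i := by
    refine continuous_finsetSum _ fun i _ => ?_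
    exact ((hη.continuous_fderiv (by norm_num)).clm_apply continuous_const).mul
      ((continuous_apply i).comp hφ1.continuous)
  simp only [hd] at h0
  have hi1 : IntegrableOn (fun x => η x * divergence φ x) cell :=
    intOn_of_cont (hη.continuous.mul hc1)
  rw [integral_add hi1 (intOn_of_cont hc2)] at h0
  linarith

theorem cont_gradN {η : R3 → ℝ} (hη : ContDiff ℝ 1 η) : Continuous (gradN η) := by
  unfold gradN
  refine Real.continuous_sqrt.comp (continuous_finsetSum _ fun i _ => ?_)
  exact ((hη.continuous_fderiv (by norm_num)).clm_apply continuous_const).pow 2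

theorem cont_div {φ : R3 → R3} (hφ : TestField φ) : Continuous (divergence φ) := by
  have hφ1 : ContDiff ℝ 1 φ := hφ.smooth.of_le (by exact_mod_cast le_top)
  unfold divergence
  refine continuous_finsetSum _ fun i _ => ?_
  exact (continuous_apply i).comp ((hφ1.continuous_fderiv (by norm_num)).clm_apply
    continuous_const)

theorem ibp_le (φ : R3 → R3) (hφ : TestField φ) (η : R3 → ℝ) (hη : ContDiff ℝ 1 η)
    (hface : ∀ (i : Fin 3) (y : Fin 2 → ℝ), (∀ j, y j ∈ Icc (0 : ℝ) 1) →
      η (i.insertNth 1 y) = η (i.insertNth 0 y)) :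
    ∫ x in cell, η x * divergence φ x ≤ ∫ x in cell, gradN η x := by
  have hφ1 : ContDiff ℝ 1 φ := hφ.smooth.of_le (by exact_mod_cast le_top)
  rw [ibp φ hφ η hη hface, ← integral_neg]
  have hc2 : Continuous fun x => -∑ i, fderiv ℝ η x (Pi.single i 1) * φ x i := by
    refine (continuous_finsetSum _ fun i _ => ?_).neg
    exact ((hη.continuous_fderiv (by norm_num)).clm_apply continuous_const).mul
      ((continuous_apply i).comp hφ1.continuous)
  refine integral_mono (intOn_of_cont hc2) (intOn_of_cont (cont_gradN hη)) fun x => ?_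
  have hcs := Finset.sum_mul_sq_le_sq_mul_sq Finset.univ
    (fun i => fderiv ℝ η x (Pi.single i 1)) (fun i => φ x i)
  have h1 : (∑ i, fderiv ℝ η x (Pi.single i 1) * φ x i) ^ 2 ≤
      ∑ i, (fderiv ℝ η x (Pi.single i 1)) ^ 2 := by
    refine hcs.trans ?_
    have := hφ.bound x
    have h2 : 0 ≤ ∑ i, (fderiv ℝ η x (Pi.single i 1)) ^ 2 :=
      Finset.sum_nonneg fun i _ => sq_nonneg _
    nlinarith
  have := Real.abs_le_sqrt h1
  exact (neg_le_abs _).trans this

/-- upper bound of the perimeter by cut-offs -/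
theorem perimeter_le (E : Set R3) (hE : MeasurableSet E) (η : ℕ → R3 → ℝ)
    (hη : ∀ n, ContDiff ℝ 1 (η n)) (h01 : ∀ n x, η n x ∈ Icc (0 : ℝ) 1)
    (hface : ∀ (n : ℕ) (i : Fin 3) (y : Fin 2 → ℝ), (∀ j, y j ∈ Icc (0 : ℝ) 1) →
      η n (i.insertNth 1 y) = η n (i.insertNth 0 y))
    (hlim : ∀ᵐ x ∂(volume.restrict cell),
      Tendsto (fun n => η n x) atTop (𝓝 (E.indicator 1 x)))
    (P : ℕ → ℝ) (P0 : ℝ) (hP : ∀ n, ∫ x in cell, gradN (η n) x ≤ P n)
    (hPl : Tendsto P atTop (𝓝 P0)) : perimeter E ≤ ENNReal.ofReal P0 := by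
  unfold perimeter
  refine iSup₂_le fun φ hφ => ENNReal.ofReal_le_ofReal ?_
  have hc := cont_div hφ
  have hlim2 : Tendsto (fun n => ∫ x in cell, η n x * divergence φ x) atTop
      (𝓝 (∫ x in cell, E.indicator 1 x * divergence φ x)) := by
    refine tendsto_integral_of_dominated_convergence (fun x => |divergence φ x|) ?_ ?_ ?_ ?_
    · intro n
      exact ((hη n).continuous.mul hc).aestronglyMeasurable
    · exact (intOn_of_cont hc.abs)
    · intro n
      refine Eventually.of_forall fun x => ?_
      rw [Real.norm_eq_abs, abs_mul, abs_of_nonneg (h01 n x).1]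
      exact mul_le_of_le_one_left (abs_nonneg _) (h01 n x).2
    · filter_upwards [hlim] with x hx
      exact hx.mul_const _
  have heq : ∫ x in E ∩ cell, divergence φ x = ∫ x in cell, E.indicator 1 x * divergence φ x := by
    rw [inter_comm, ← setIntegral_indicator hE]
    refine integral_congr_ae (Eventually.of_forall fun x => ?_)
    by_cases hx : x ∈ E <;> simp [hx]
  rw [heq]
  exact le_of_tendsto_of_tendsto' hlim2 hPl fun n => (ibp_le φ hφ (η n) (hη n) (hface n)).trans (hP n)

end P232.Up
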