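import Vale.Agent.P232.UpBase

/-!
# P232: one dimensional cut-offs and the volumes of balls and discs
-/

open MeasureTheory Set Filter Topology
open scoped ENNReal ContDiff

namespace P232.Up

/-- A `C¹` cut-off with almost optimal slope. -/
theorem exists_cut (a b : ℝ) (hab : a < b) (ε : ℝ) (hε : 0 < ε) :
    ∃ g : ℝ → ℝ, ContDiff ℝ 1 g ∧ (∀ t, g t ∈ Icc (0 : ℝ) 1) ∧ (∀ t, t ≤ a → g t = 1) ∧
      (∀ t, b ≤ t → g t = 0) ∧ (∀ t, |deriv g t| ≤ (1 + ε) / (b - a)) ∧
      (∀ t, deriv g t ≤ 0) ∧ (∀ t, t ≤ a → deriv g t = 0) ∧ (∀ t, b ≤ t → deriv g t = 0) := by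
  have hba : 0 < b - a := by linarith
  obtain ⟨δ, hδ, hδ2⟩ : ∃ δ : ℝ, 0 < δ ∧ (b - a) - 2 * δ = (b - a) / (1 + ε) := by
    refine ⟨ε * (b - a) / (2 * (1 + ε)), by positivity, ?_⟩
    field_simp
    ring
  set m : ℝ → ℝ := fun t => max 0 (min 1 (min ((t - a) / δ) ((b - t) / δ))) with hm
  have hmc : Continuous m := by
    rw [hm]
    fun_prop
  have hm0 : ∀ t, 0 ≤ m t := fun t => le_max_left _ _
  have hm1 : ∀ t, m t ≤ 1 := fun t => max_le zero_le_one (min_le_left _ _)
  have hma : ∀ t, t ≤ a → m t = 0 := by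
    intro t ht
    refine max_eq_left ?_
    refine (min_le_right _ _).trans ((min_le_left _ _).trans ?_)
    exact div_nonpos_of_nonpos_of_nonneg (by linarith) hδ.le
  have hmb : ∀ t, b ≤ t → m t = 0 := by
    intro t ht
    refine max_eq_left ?_
    refine (min_le_right _ _).trans ((min_le_right _ _).trans ?_)
    exact div_nonpos_of_nonpos_of_nonneg (by linarith) hδ.le
  have hmm : ∀ t ∈ Icc (a + δ) (b - δ), m t = 1 := by
    intro t ht
    have h1 : 1 ≤ (t - a) / δ := by
      rw [le_div_iff₀ hδ]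
      linarith [ht.1]
    have h2 : 1 ≤ (b - t) / δ := by
      rw [le_div_iff₀ hδ]
      linarith [ht.2]
    have h3 : min 1 (min ((t - a) / δ) ((b - t) / δ)) = 1 := min_eq_left (le_min h1 h2)
    simp only [hm]
    rw [h3]
    exact max_eq_right zero_le_one
  have hmi : ∀ x y, IntervalIntegrable m volume x y := fun x y => hmc.intervalIntegrable x y
  set G : ℝ → ℝ := fun t => ∫ s in a..t, m s with hG
  have hGd : ∀ t, HasDerivAt G (m t) t := fun t =>
    intervalIntegral.integral_hasDerivAt_right (hmi a t)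
      (hmc.stronglyMeasurableAtFilter _ _) hmc.continuousAt
  have hGmono : Monotone G := by
    refine monotone_of_deriv_nonneg (fun t => (hGd t).differentiableAt) fun t => ?_
    rw [(hGd t).deriv]
    exact hm0 t
  have hGa : ∀ t, t ≤ a → G t = 0 := by
    intro t ht
    simp only [hG]
    rw [intervalIntegral.integral_congr (g := fun _ => (0 : ℝ))]
    · simp
    · intro s hs
      rw [uIcc_of_ge ht] at hs
      exact hma s hs.2
  set M := G b with hM
  have hGb : ∀ t, b ≤ t → G t = M := by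
    intro t ht
    simp only [hG, hM]
    rw [← intervalIntegral.integral_add_adjacent_intervals (hmi a b) (hmi b t)]
    have : ∫ s in b..t, m s = 0 := by
      rw [intervalIntegral.integral_congr (g := fun _ => (0 : ℝ))]
      · simp
      · intro s hs
        rw [uIcc_of_le ht] at hs
        exact hmb s hs.1
    rw [this, add_zero]
  have hMl : (b - a) / (1 + ε) ≤ M := by
    have hpos : 0 < (b - a) / (1 + ε) := by positivity
    have hle : a + δ ≤ b - δ := by linarith
    have h1 : ∫ s in (a + δ)..(b - δ), m s = (b - a) / (1 + ε) := by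
      rw [intervalIntegral.integral_congr (g := fun _ => (1 : ℝ))]
      · simp
        linarith
      · intro s hs
        rw [uIcc_of_le hle] at hs
        exact hmm s hs
    have h2 : G (b - δ) - G (a + δ) = (b - a) / (1 + ε) := by
      rw [← h1]
      simp only [hG]
      rw [intervalIntegral.integral_interval_sub_left (hmi _ _) (hmi _ _)]
    have h3 : G (b - δ) ≤ M := hGmono (by linarith)
    have h4 : 0 ≤ G (a + δ) := by
      rw [← hGa a le_rfl]
      exact hGmono (by linarith)
    linarith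
  have hMpos : 0 < M := lt_of_lt_of_le (by positivity) hMl
  have hgd : ∀ t, HasDerivAt (fun t => 1 - G t / M) (-(m t / M)) t := by
    intro t
    exact (((hGd t).div_const M).const_sub 1)
  have hder : deriv (fun t => 1 - G t / M) = fun t => -(m t / M) := by
    ext t
    exact (hgd t).deriv
  refine ⟨fun t => 1 - G t / M, ?_, ?_, ?_, ?_, ?_, ?_, ?_, ?_⟩
  · rw [contDiff_one_iff_deriv, hder]
    exact ⟨fun t => (hgd t).differentiableAt, (hmc.div_const M).neg⟩
  · intro t
    have h1 : 0 ≤ G t := by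
      rcases le_total t a with h | h
      · rw [hGa t h]
      · rw [← hGa a le_rfl]
        exact hGmono h
    have h2 : G t ≤ M := by
      rcases le_total t b with h | h
      · exact hGmono h
      · rw [hGb t h]
    constructor
    · have : G t / M ≤ 1 := (div_le_one hMpos).2 h2
      linarith
    · have : 0 ≤ G t / M := div_nonneg h1 hMpos.le
      linarith
  · intro t ht
    simp only
    rw [hGa t ht]
    simp
  · intro t ht
    simp only
    rw [hGb t ht, div_self hMpos.ne']
    simp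
  · intro t
    rw [hder]
    simp only
    rw [abs_neg, abs_of_nonneg (div_nonneg (hm0 t) hMpos.le)]
    calc m t / M ≤ 1 / M := by gcongr; exact hm1 t
      _ ≤ 1 / ((b - a) / (1 + ε)) := by gcongr
      _ = (1 + ε) / (b - a) := by rw [one_div_div]
  · intro t
    rw [hder]
    simp only
    have := div_nonneg (hm0 t) hMpos.le
    linarith
  · intro t ht
    rw [hder]
    simp only
    rw [hma t ht]
    simp
  · intro t ht
    rw [hder]
    simp only
    rw [hmb t ht]
    simp

theorem vol_ball3 (c : R3) (r : ℝ) (hr : 0 ≤ r) :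
    volume {x : R3 | ∑ i, (x i - c i) ^ 2 < r ^ 2} = ENNReal.ofReal (4 / 3 * Real.pi * r ^ 3) := by
  have h := (EuclideanSpace.volume_preserving_symm_measurableEquiv_toLp (Fin 3)).measure_preimage_equiv
    {x : R3 | ∑ i, (x i - c i) ^ 2 < r ^ 2}
  rw [← h]
  have h2 : (⇑(MeasurableEquiv.toLp 2 (Fin 3 → ℝ)).symm ⁻¹' {x : R3 | ∑ i, (x i - c i) ^ 2 < r ^ 2}) =
      Metric.ball (WithLp.toLp 2 c) r := by
    ext x
    rw [Metric.mem_ball, ← sq_lt_sq₀ dist_nonneg hr, EuclideanSpace.dist_sq_eq]
    simp [Real.dist_eq, sq_abs]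
  rw [h2, EuclideanSpace.volume_ball_fin_three, ← ENNReal.ofReal_pow hr,
    ← ENNReal.ofReal_mul (by positivity)]
  congr 1
  ring

theorem vol_ball2 (c : Fin 2 → ℝ) (r : ℝ) (hr : 0 ≤ r) :
    volume {x : Fin 2 → ℝ | ∑ i, (x i - c i) ^ 2 < r ^ 2} = ENNReal.ofReal (Real.pi * r ^ 2) := by
  have h := (EuclideanSpace.volume_preserving_symm_measurableEquiv_toLp (Fin 2)).measure_preimage_equiv
    {x : Fin 2 → ℝ | ∑ i, (x i - c i) ^ 2 < r ^ 2}
  rw [← h]
  have h2 : (⇑(MeasurableEquiv.toLp 2 (Fin 2 → ℝ)).symm ⁻¹'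
      {x : Fin 2 → ℝ | ∑ i, (x i - c i) ^ 2 < r ^ 2}) = Metric.ball (WithLp.toLp 2 c) r := by
    ext x
    rw [Metric.mem_ball, ← sq_lt_sq₀ dist_nonneg hr, EuclideanSpace.dist_sq_eq]
    simp [Real.dist_eq, sq_abs]
  rw [h2, EuclideanSpace.volume_ball_fin_two, ← ENNReal.ofReal_pow hr,
    ← ENNReal.ofReal_mul (by positivity)]
  congr 1
  ring

end P232.Up
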