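import Vale.Agent.P232.UpCut

/-!
# P232: perimeter of sublevel sets of nice functions
-/

open MeasureTheory Set Filter Topology
open scoped ENNReal ContDiff

namespace P232.Up

theorem gradN_comp (g : ℝ → ℝ) (hg : ContDiff ℝ 1 g) (u : R3 → ℝ) (hu : ContDiff ℝ 1 u) (x : R3) :
    gradN (fun x => g (u x)) x = |deriv g (u x)| * gradN u x := by
  have h1 : HasFDerivAt (fun x => g (u x)) (deriv g (u x) • fderiv ℝ u x) x :=
    (hg.differentiable (by norm_num) (u x)).hasDerivAt.comp_hasFDerivAt x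
      (hu.differentiable (by norm_num) x).hasFDerivAt
  unfold gradN
  rw [h1.fderiv, ← Real.sqrt_sq_eq_abs, ← Real.sqrt_mul (sq_nonneg _), Finset.mul_sum]
  congr 1
  refine Finset.sum_congr rfl fun i _ => ?_
  simp [mul_pow]

theorem gradN_nonneg (u : R3 → ℝ) (x : R3) : 0 ≤ gradN u x := Real.sqrt_nonneg _

theorem level_upper (u : R3 → ℝ) (hu : ContDiff ℝ 1 u) (R : ℝ) (hR : 0 < R) (E : Set R3)
    (hE : MeasurableSet E) (hEu : ∀ᵐ x ∂(volume.restrict cell), (x ∈ E ↔ u x < R ^ 2))
    (hgrad : ∀ x ∈ cell, u x < R ^ 2 → gradN u x ≤ 2 * R)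
    (hface : ∀ (i : Fin 3) (y : Fin 2 → ℝ), (∀ j, y j ∈ Icc (0 : ℝ) 1) →
      u (i.insertNth 1 y) = u (i.insertNth 0 y) ∨
        (R ^ 2 ≤ u (i.insertNth 1 y) ∧ R ^ 2 ≤ u (i.insertNth 0 y)))
    (K : ℝ) (hK : 0 ≤ K) (d : ℕ)
    (hvol : ∀ s, 0 < s → s < R → volume ({x | s ^ 2 < u x ∧ u x < R ^ 2} ∩ cell) ≤
      ENNReal.ofReal (K * (R ^ d - s ^ d))) :
    perimeter E ≤ ENNReal.ofReal (d * K * R ^ (d - 1)) := by
  set s : ℕ → ℝ := fun n => R * (1 - 1 / ((n : ℝ) + 2)) with hs
  have hsl : Tendsto s atTop (𝓝 R) := by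
    have h1 : Tendsto (fun n : ℕ => 1 / ((n : ℝ) + 2)) atTop (𝓝 0) := by
      have := tendsto_const_nhds (x := (1 : ℝ)).div_atTop
        (tendsto_natCast_atTop_atTop (R := ℝ).atTop_add (tendsto_const_nhds (x := (2 : ℝ))))
      simpa using this
    have h2 := (h1.const_sub 1).const_mul R
    rw [sub_zero, mul_one] at h2
    exact h2
  have hs0 : ∀ n, 0 < s n := by
    intro n
    have : 1 / ((n : ℝ) + 2) < 1 := by
      rw [div_lt_one (by positivity)]
      have : (0 : ℝ) ≤ n := by positivity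
      linarith
    exact mul_pos hR (by linarith)
  have hsR : ∀ n, s n < R := by
    intro n
    have : 0 < 1 / ((n : ℝ) + 2) := by positivity
    have := mul_pos hR this
    simp only [hs]
    nlinarith
  have hε : ∀ n : ℕ, (0 : ℝ) < 1 / ((n : ℝ) + 1) := fun n => by positivity
  have hab : ∀ n, s n ^ 2 < R ^ 2 := fun n => by
    have := hs0 n
    have := hsR n
    gcongr
  choose g hg1 hg2 hg3 hg4 hg5 _ hg7 hg8 using fun n =>
    exists_cut (s n ^ 2) (R ^ 2) (hab n) (1 / ((n : ℝ) + 1)) (hε n)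
  refine perimeter_le E hE (fun n x => g n (u x)) (fun n => (hg1 n).comp hu)
    (fun n x => hg2 n _) ?_ ?_
    (fun n => (1 + 1 / ((n : ℝ) + 1)) * (2 * R) * K *
      (∑ i ∈ Finset.range d, R ^ i * s n ^ (d - 1 - i)) / (R + s n)) _ ?_ ?_
  · intro n i y hy
    rcases hface i y hy with h | ⟨h1, h2⟩
    · rw [h]
    · rw [hg4 n _ h1, hg4 n _ h2]
  · filter_upwards [hEu] with x hx
    by_cases h : u x < R ^ 2
    · have hxE : x ∈ E := hx.2 h
      simp only [indicator_of_mem hxE, Pi.one_apply]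
      have h2 : ∀ᶠ n in atTop, u x < s n ^ 2 := (hsl.pow 2).eventually_const_lt h
      refine tendsto_const_nhds.congr' ?_
      filter_upwards [h2] with n hn
      rw [hg3 n _ hn.le]
    · have hxE : x ∉ E := fun hh => h (hx.1 hh)
      simp only [indicator_of_notMem hxE]
      refine tendsto_const_nhds.congr fun n => ?_
      rw [hg4 n _ (not_lt.1 h)]
  · intro n
    have hd : 0 < R ^ 2 - s n ^ 2 := by linarith [hab n]
    set C : ℝ := (1 + 1 / ((n : ℝ) + 1)) / (R ^ 2 - s n ^ 2) * (2 * R) with hC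
    have hC0 : 0 ≤ C := by positivity
    have hSm : MeasurableSet {x : R3 | s n ^ 2 < u x ∧ u x < R ^ 2} :=
      (measurableSet_lt measurable_const hu.continuous.measurable).inter
        (measurableSet_lt hu.continuous.measurable measurable_const)
    have hb : ∀ x ∈ cell, gradN (fun x => g n (u x)) x ≤
        ({x : R3 | s n ^ 2 < u x ∧ u x < R ^ 2}).indicator (fun _ => C) x := by
      intro x hx
      rw [gradN_comp (g n) (hg1 n) u hu x]
      by_cases h1 : s n ^ 2 < u x
      · by_cases h2 : u x < R ^ 2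
        · rw [indicator_of_mem (show x ∈ {x : R3 | s n ^ 2 < u x ∧ u x < R ^ 2} from ⟨h1, h2⟩)]
          exact mul_le_mul (hg5 n _) (hgrad x hx h2) (gradN_nonneg u x) (by positivity)
        · rw [hg8 n _ (not_lt.1 h2), indicator_of_notMem (fun h => h2 h.2)]
          simp
      · rw [hg7 n _ (not_lt.1 h1), indicator_of_notMem (fun h => h1 h.1)]
        simp
    have hi1 : IntegrableOn (gradN (fun x => g n (u x))) cell :=
      intOn_of_cont (cont_gradN ((hg1 n).comp hu))
    have hi2 : IntegrableOn (({x : R3 | s n ^ 2 < u x ∧ u x < R ^ 2}).indicator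
        (fun _ => C)) cell := (integrable_const C).indicator hSm
    calc ∫ x in cell, gradN (fun x => g n (u x)) x
        ≤ ∫ x in cell, ({x : R3 | s n ^ 2 < u x ∧ u x < R ^ 2}).indicator (fun _ => C) x :=
          setIntegral_mono_on hi1 hi2 cell_meas hb
      _ = (volume ({x | s n ^ 2 < u x ∧ u x < R ^ 2} ∩ cell)).toReal * C := by
          rw [integral_indicator_const _ hSm, Measure.real, Measure.restrict_apply hSm, smul_eq_mul]
      _ ≤ (K * (R ^ d - s n ^ d)) * C := by
          refine mul_le_mul_of_nonneg_right ?_ hC0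
          have hnn : 0 ≤ K * (R ^ d - s n ^ d) := by
            refine mul_nonneg hK ?_
            have : s n ^ d ≤ R ^ d := pow_le_pow_left₀ (hs0 n).le (hsR n).le d
            linarith
          exact ENNReal.toReal_le_of_le_ofReal hnn (hvol (s n) (hs0 n) (hsR n))
      _ = _ := by
          have h3 := (Commute.all R (s n)).geom_sum₂_mul d
          have h4 : R ^ 2 - s n ^ 2 = (R - s n) * (R + s n) := by ring
          have h5 : 0 < R - s n := by linarith [hsR n]
          have h6 : 0 < R + s n := by linarith [hs0 n]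
          rw [hC, ← h3, h4]
          field_simp
  · have h1 : Tendsto (fun n : ℕ => 1 / ((n : ℝ) + 1)) atTop (𝓝 0) :=
      tendsto_one_div_add_atTop_nhds_zero_nat
    have h2 : Tendsto (fun n : ℕ => (1 + 1 / ((n : ℝ) + 1)) * (2 * R) * K *
      (∑ i ∈ Finset.range d, R ^ i * s n ^ (d - 1 - i)) / (R + s n)) atTop
      (𝓝 ((1 + 0) * (2 * R) * K * (∑ i ∈ Finset.range d, R ^ i * R ^ (d - 1 - i)) / (R + R))) := by
      refine Tendsto.div (Tendsto.mul (((h1.const_add 1).mul_const _).mul_const _) ?_)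
        (hsl.const_add R) (by positivity)
      exact tendsto_finsetSum _ fun i _ => (hsl.pow _).const_mul _
    have h3 : (1 + 0) * (2 * R) * K * (∑ i ∈ Finset.range d, R ^ i * R ^ (d - 1 - i)) / (R + R) =
        d * K * R ^ (d - 1) := by
      have : ∑ i ∈ Finset.range d, R ^ i * R ^ (d - 1 - i) = d * R ^ (d - 1) := by
        rw [Finset.sum_congr rfl (g := fun _ => R ^ (d - 1))]
        · simp
        · intro i hi
          rw [← pow_add]
          congr 1
          have := Finset.mem_range.1 hi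
          omega
      rw [this]
      field_simp
      ring
    rw [h3] at h2
    exact h2

end P232.Up
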