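import Vale.Agent.P232.UpLevel

/-!
# P232: the functions `∑ i ∈ S, (x i - c)^2`
-/

open MeasureTheory Set Filter Topology
open scoped ENNReal ContDiff

namespace P232.Up

/-- partial square distance -/
def us (S : Finset (Fin 3)) (c : ℝ) (x : R3) : ℝ := ∑ i ∈ S, (x i - c) ^ 2

theorem us_contDiff (S : Finset (Fin 3)) (c : ℝ) : ContDiff ℝ 1 (us S c) := by
  unfold us
  refine ContDiff.sum fun i _ => ?_
  exact ((contDiff_apply ℝ ℝ i).sub contDiff_const).pow 2

theorem us_fderiv (S : Finset (Fin 3)) (c : ℝ) (x : R3) (j : Fin 3) :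
    fderiv ℝ (us S c) x (Pi.single j 1) = if j ∈ S then 2 * (x j - c) else 0 := by
  have h : HasFDerivAt (us S c)
      (∑ i ∈ S, (2 * (x i - c)) • (ContinuousLinearMap.proj i : R3 →L[ℝ] ℝ)) x := by
    unfold us
    refine HasFDerivAt.fun_sum fun i _ => ?_
    have h1 : HasFDerivAt (fun x : R3 => x i - c) (ContinuousLinearMap.proj i : R3 →L[ℝ] ℝ) x :=
      (ContinuousLinearMap.hasFDerivAt (ContinuousLinearMap.proj i : R3 →L[ℝ] ℝ)).sub_const c
    have h2 := h1.pow 2
    simpa using h2
  rw [h.fderiv]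
  simp only [_root_.sum_apply, _root_.smul_apply, ContinuousLinearMap.proj_apply, smul_eq_mul, Pi.single_apply, mul_ite, mul_one, mul_zero]
  rw [Finset.sum_ite_eq']

theorem us_gradN (S : Finset (Fin 3)) (c : ℝ) (x : R3) : gradN (us S c) x = √ (4 * us S c x) := by
  unfold gradN
  congr 1
  simp only [us_fderiv]
  unfold us
  rw [Finset.mul_sum]
  rw [← Finset.sum_subset (Finset.subset_univ S)]
  · refine Finset.sum_congr rfl fun i hi => ?_
    rw [if_pos hi]
    ring
  · intro i _ hi
    rw [if_neg hi]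
    ring

theorem us_grad_le (S : Finset (Fin 3)) (c : ℝ) (x : R3) (R : ℝ) (hR : 0 < R)
    (h : us S c x < R ^ 2) : gradN (us S c) x ≤ 2 * R := by
  rw [us_gradN]
  refine Real.sqrt_le_iff.2 ⟨by positivity, ?_⟩
  nlinarith

theorem us_face (S : Finset (Fin 3)) (i : Fin 3) (y : Fin 2 → ℝ) :
    us S (1 / 2) (i.insertNth 1 y) = us S (1 / 2) (i.insertNth 0 y) := by
  unfold us
  refine Finset.sum_congr rfl fun j _ => ?_
  refine Fin.succAboveCases i ?_ (fun k => ?_) j
  · simp
    norm_num
  · simp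

theorem fract_cell {x : R3} (hx : x ∈ cell) (i : Fin 3) : Int.fract (x i) = x i :=
  Int.fract_eq_self.2 ⟨(hx i).1, (hx i).2⟩

theorem fract_shift (x : R3) (i j : Fin 3) :
    Int.fract ((x + (Pi.single i 1 : R3)) j) = Int.fract (x j) := by
  by_cases h : j = i
  · subst h
    simp
  · simp [h]

theorem meas_fract (i : Fin 3) : Measurable fun x : R3 => Int.fract (x i) :=
  measurable_fract.comp (measurable_pi_apply i)

/-- volume of shells from the volume of balls -/
theorem shell_le {α : Type*} [MeasurableSpace α] (μ : Measure α) (u : α → ℝ) (hu : Measurable u)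
    (R s v w : ℝ) (hsR : s < R) (hw : 0 ≤ w)
    (h1 : μ {x | u x < R} = ENNReal.ofReal v) (h2 : μ {x | u x < s} = ENNReal.ofReal w) :
    μ {x | s < u x ∧ u x < R} ≤ ENNReal.ofReal (v - w) := by
  have hsub : {x | s < u x ∧ u x < R} ⊆ {x | u x < R} \ {x | u x < s} :=
    fun x hx => ⟨hx.2, fun h => absurd h (not_lt.2 hx.1.le)⟩
  refine (measure_mono hsub).trans ?_
  have hss : {x | u x < s} ⊆ {x | u x < R} := fun x (hx : u x < s) => lt_trans hx hsR
  rw [measure_sdiff hss (measurableSet_lt hu measurable_const).nullMeasurableSet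
    (by rw [h2]; exact ENNReal.ofReal_ne_top), h1, h2, ENNReal.ofReal_sub _ hw]

end P232.Up
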